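import Crest.Agent.R66.ADefs

/-!
# Row 66, part A, piece A_BASIC: elementary facts on `wt`, `dl`, `W`, `WL`.

* `dl_add`, `dl_dl` : `dl` is additive and `dl (dl f) = 0` (each `(τ.erase v).erase w` appears
  twice, for `(v,w)` and `(w,v)`; char 2).
* `W_add_le`, `WL_add_le` : `f σ + g σ ≠ 0` implies `f σ ≠ 0` or `g σ ≠ 0`.
* `sum_wt_card` : `∑_{τ ⊇ σ, |τ| = t} wt τ ≤ 2^m wt σ` (double counting: chambers `c ⊇ σ`, and `τ ⊆ c`).
* `sum_insert` : `∑_{v ∉ σ} wt (insert v σ) = (m - |σ|) wt σ`.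
-/
set_option autoImplicit false

namespace Crest.Agent.R66

open Finset

variable {V : Type} [Fintype V] [DecidableEq V]

theorem wt_anti (C : Finset (Finset V)) {σ τ : Finset V} (h : σ ⊆ τ) : wt C τ ≤ wt C σ := by
  refine card_le_card fun c hc => ?_
  simp only [mem_filter] at hc ⊢
  exact ⟨hc.1, h.trans hc.2⟩

theorem wt_empty (C : Finset (Finset V)) : wt C ∅ = C.card := by
  simp [wt]

theorem dl_add (f g : Finset V → ZMod 2) : dl (f + g) = dl f + dl g := by
  funext τ
  simp [dl, sum_add_distrib]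

theorem dl_dl (f : Finset V → ZMod 2) : dl (dl f) = 0 := by
  funext τ
  simp only [dl, Pi.zero_apply]
  rw [Finset.sum_sigma']
  refine Finset.sum_involution (fun a _ => ⟨a.2, a.1⟩) ?_ ?_ ?_ ?_
  · rintro ⟨v, w⟩ _
    simp only
    rw [Finset.erase_right_comm]
    exact CharTwo.add_self_eq_zero _
  · rintro ⟨v, w⟩ h _ he
    simp only [mem_sigma, mem_erase] at h
    simp only [Sigma.mk.injEq, heq_eq_eq] at he
    exact h.2.1 he.1
  · rintro ⟨v, w⟩ h
    simp only [mem_sigma, mem_erase] at h ⊢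
    exact ⟨h.2.2, fun e => h.2.1 e.symm, h.1⟩
  · rintro ⟨v, w⟩ _
    rfl

theorem W_add_le (C : Finset (Finset V)) (s : ℕ) (f g : Finset V → ZMod 2) :
    W C s (f + g) ≤ W C s f + W C s g := by
  unfold W
  rw [sum_filter, sum_filter, sum_filter, ← sum_add_distrib]
  refine sum_le_sum fun σ _ => ?_
  by_cases h1 : f σ = 0 <;> by_cases h2 : g σ = 0 <;> simp [h1, h2]
  split_ifs <;> omega

theorem WL_add_le (C : Finset (Finset V)) (σ : Finset V) (r : ℕ) (f g : Finset V → ZMod 2) :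
    WL C σ r (f + g) ≤ WL C σ r f + WL C σ r g := by
  unfold WL
  rw [sum_filter, sum_filter, sum_filter, ← sum_add_distrib]
  refine sum_le_sum fun ρ _ => ?_
  by_cases h1 : f ρ = 0 <;> by_cases h2 : g ρ = 0 <;> simp [h1, h2]
  split_ifs <;> omega

/-- subcochains: `WL (f + g) + WL g = WL f` if the support of `g` is contained in that of `f`. -/
theorem WL_sub (C : Finset (Finset V)) (σ : Finset V) (r : ℕ) (f g : Finset V → ZMod 2)
    (h : ∀ ρ : Finset V, Disjoint ρ σ → ρ.card = r → g ρ ≠ 0 → f ρ ≠ 0) :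
    WL C σ r (f + g) + WL C σ r g = WL C σ r f := by
  unfold WL
  rw [sum_filter, sum_filter, sum_filter, ← sum_add_distrib]
  refine sum_congr rfl fun ρ hρ => ?_
  rw [mem_powersetCard] at hρ
  have hd : Disjoint ρ σ := by
    rw [Finset.disjoint_left]
    intro a ha
    exact Finset.mem_compl.1 (hρ.1 ha)
  have key : ∀ x : ZMod 2, x ≠ 0 → x = 1 := by decide
  by_cases h2 : g ρ = 0
  · simp [h2]
  · have h1 := h ρ hd hρ.2 h2
    have e1 := key _ h1
    have e2 := key _ h2
    have : (1 : ZMod 2) + 1 = 0 := by decide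
    simp [e1, e2, this]

theorem sum_wt_card {C : Finset (Finset V)} {m : ℕ} (hC : ∀ c ∈ C, c.card = m) (σ : Finset V)
    (t : ℕ) : ∑ τ ∈ (univ.powersetCard t).filter (fun τ => σ ⊆ τ), wt C τ ≤ 2 ^ m * wt C σ := by
  have e : ∀ τ : Finset V, wt C τ = ∑ c ∈ C, if τ ⊆ c then 1 else 0 := fun τ => by
    rw [wt, card_filter]
  simp only [e]
  rw [sum_comm, mul_sum]
  refine sum_le_sum fun c hc => ?_
  rw [← card_filter]
  by_cases hσ : σ ⊆ c
  · rw [if_pos hσ, mul_one, ← hC c hc, ← card_powerset]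
    refine card_le_card fun τ hτ => ?_
    simp only [mem_filter] at hτ
    exact mem_powerset.2 hτ.2
  · rw [if_neg hσ, mul_zero, Nat.le_zero, card_eq_zero]
    refine filter_eq_empty_iff.2 fun τ hτ h => hσ ?_
    simp only [mem_filter] at hτ
    exact hτ.2.trans h

theorem sum_insert {C : Finset (Finset V)} {m : ℕ} (hC : ∀ c ∈ C, c.card = m) (σ : Finset V) :
    ∑ v ∈ σᶜ, wt C (insert v σ) = (m - σ.card) * wt C σ := by
  have e : ∀ τ : Finset V, wt C τ = ∑ c ∈ C, if τ ⊆ c then 1 else 0 := fun τ => by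
    rw [wt, card_filter]
  simp only [e]
  rw [sum_comm, mul_sum]
  refine sum_congr rfl fun c hc => ?_
  rw [← card_filter]
  by_cases hσ : σ ⊆ c
  · rw [if_pos hσ, mul_one, ← hC c hc, ← card_sdiff_of_subset hσ]
    congr 1
    ext v
    simp only [mem_filter, mem_compl, mem_sdiff, insert_subset_iff]
    tauto
  · rw [if_neg hσ, mul_zero, card_eq_zero]
    refine filter_eq_empty_iff.2 fun v _ h => hσ ?_
    exact (subset_insert v σ).trans h

theorem W_le {C : Finset (Finset V)} {m : ℕ} (hC : ∀ c ∈ C, c.card = m) (s : ℕ)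
    (f : Finset V → ZMod 2) : W C s f ≤ 2 ^ m * C.card := by
  have h := sum_wt_card hC ∅ s
  rw [wt_empty] at h
  refine le_trans ?_ h
  unfold W
  refine sum_le_sum_of_subset fun σ hσ => ?_
  simp only [mem_filter] at hσ ⊢
  exact ⟨hσ.1, empty_subset σ⟩

end Crest.Agent.R66
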