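import Mathlib

/-!
# Row 66 (S0088), part A: local-to-global theorem (own form of the theorem of Evra and Kaufman).
Definitions.  Author: helper65.

`V` a finite vertex set, `C : Finset (Finset V)` the chambers (top faces), all of card `m`.
Everything is indexed by the SIZE of faces (not by dimension). Cochains are arbitrary functions
`f : Finset V → ZMod 2`; only their values on faces (sets `σ` with `0 < wt C σ`) matter.
-/
set_option autoImplicit false

namespace Crest.Agent.R66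

open Finset

section
variable {V : Type} [Fintype V] [DecidableEq V]

/-- number of chambers containing `σ`. -/
def wt (C : Finset (Finset V)) (σ : Finset V) : ℕ := (C.filter fun c => σ ⊆ c).card

/-- coboundary. -/
def dl (f : Finset V → ZMod 2) (τ : Finset V) : ZMod 2 := ∑ v ∈ τ, f (τ.erase v)

/-- weight of the size `s` part of the cochain `f`. -/
def W (C : Finset (Finset V)) (s : ℕ) (f : Finset V → ZMod 2) : ℕ :=
  ∑ σ ∈ (univ.powersetCard s).filter (fun σ => f σ ≠ 0), wt C σ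

/-- weight, in the link of `σ`, of the size `r` part of the cochain `g`. -/
def WL (C : Finset (Finset V)) (σ : Finset V) (r : ℕ) (g : Finset V → ZMod 2) : ℕ :=
  ∑ ρ ∈ (σᶜ.powersetCard r).filter (fun ρ => g ρ ≠ 0), wt C (σ ∪ ρ)

/-- the link of `σ`, as a complex (`wt (lk C σ) ρ = wt C (σ ∪ ρ)` if `ρ` is disjoint from `σ`, else `0`). -/
def lk (C : Finset (Finset V)) (σ : Finset V) : Finset (Finset V) :=
  (C.filter fun c => σ ⊆ c).image fun c => c \ σ

/-- (B): coboundary expansion of the links. -/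
def LinkExp (C : Finset (Finset V)) (d : ℕ) (β : ℝ) : Prop :=
  ∀ σ : Finset V, σ.Nonempty → 0 < wt C σ → ∀ r : ℕ, 1 ≤ r → σ.card + r ≤ d + 1 →
    ∀ g : Finset V → ZMod 2, ∃ h : Finset V → ZMod 2,
      β * (WL C σ r (g + dl h) : ℝ) ≤ (WL C σ (r + 1) (dl g) : ℝ)

/-- hypothesis (B'): approximate coboundary expansion of the links. -/
def ACone (C : Finset (Finset V)) (d : ℕ) (C1 eps : ℝ) : Prop :=
  ∀ σ : Finset V, σ.Nonempty → 0 < wt C σ → ∀ r : ℕ, 1 ≤ r → σ.card + r ≤ d + 1 →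
    ∀ g : Finset V → ZMod 2, ∃ h : Finset V → ZMod 2,
      (WL C σ r (g + dl h) : ℝ) ≤ C1 * (WL C σ (r + 1) (dl g) : ℝ) + eps * (wt C σ : ℝ)

/-- hypothesis (D): mixing in the links (`m` is any constant, e.g. the size of the chambers). -/
def Mix (C : Finset (Finset V)) (m d : ℕ) (lam : ℝ) : Prop :=
  ∀ ρ : Finset V, ρ.card ≤ d → 0 < wt C ρ → ∀ B : Finset V, Disjoint B ρ →
    (wt C ρ : ℝ) * (∑ u ∈ B, ∑ v ∈ B.erase u, (wt C (insert u (insert v ρ)) : ℝ)) ≤
      m * (∑ v ∈ B, (wt C (insert v ρ) : ℝ)) *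
        ((∑ v ∈ B, (wt C (insert v ρ) : ℝ)) + lam * wt C ρ)

/-- hypothesis (C): vanishing of reduced cohomology in degrees `0, .., d-1` (sizes `1, .., d`). -/
def Van (C : Finset (Finset V)) (d : ℕ) : Prop :=
  ∀ s : ℕ, 1 ≤ s → s ≤ d → ∀ f : Finset V → ZMod 2,
    (∀ τ : Finset V, τ.card = s + 1 → 0 < wt C τ → dl f τ = 0) →
    ∃ h : Finset V → ZMod 2, ∀ σ : Finset V, σ.card = s → 0 < wt C σ → f σ = dl h σ

/-- local minimality of the size `s` cochain `f`. -/
def LocMin (C : Finset (Finset V)) (s : ℕ) (f : Finset V → ZMod 2) : Prop :=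
  ∀ v : V, ∀ g : Finset V → ZMod 2, (∀ ρ, v ∉ ρ → g ρ = 0) → W C s f ≤ W C s (f + dl g)

/-- `S` is the set of fat faces of the size `K` cochain `f`, thresholds `η`. -/
structure IsFat (C : Finset (Finset V)) (K : ℕ) (η : ℕ → ℝ) (f : Finset V → ZMod 2)
    (S : Finset (Finset V)) : Prop where
  card_le : ∀ σ ∈ S, σ.card ≤ K
  top : ∀ σ : Finset V, σ.card = K → (σ ∈ S ↔ 0 < wt C σ ∧ f σ ≠ 0)
  low : ∀ σ : Finset V, σ.card < K → (σ ∈ S ↔ 0 < wt C σ ∧
    η σ.card * wt C σ ≤ ∑ v ∈ σᶜ.filter (fun v => insert v σ ∈ S), (wt C (insert v σ) : ℝ))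

/-- total weight of the fat faces of size `s`. -/
def wS (C : Finset (Finset V)) (S : Finset (Finset V)) (s : ℕ) : ℕ :=
  ∑ σ ∈ S.filter (fun σ => σ.card = s), wt C σ

/-- degenerate sets. -/
def Deg (S : Finset (Finset V)) (τ : Finset V) : Prop :=
  ∃ ω : Finset V, ω ⊆ τ ∧ ∃ x ∈ ω, ∃ y ∈ ω, x ≠ y ∧ ω.erase x ∈ S ∧ ω.erase y ∈ S ∧
    (ω.erase x).erase y ∉ S

/-- `Ladder S F σ`: `σ` is obtained from `F` by erasing vertices one at a time, all sets
reached being fat. -/
inductive Ladder (S : Finset (Finset V)) (F : Finset V) : Finset V → Prop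
  | base : F ∈ S → Ladder S F F
  | step (τ : Finset V) (x : V) : Ladder S F τ → x ∈ τ → τ.erase x ∈ S → Ladder S F (τ.erase x)

/-- `σ` is terminal: fat and none of its facets is fat. -/
def Term (S : Finset (Finset V)) (σ : Finset V) : Prop := σ ∈ S ∧ ∀ x ∈ σ, σ.erase x ∉ S

/-- total weight of the degenerate faces of size `K + 1`. -/
noncomputable def wDeg (C : Finset (Finset V)) (S : Finset (Finset V)) (K : ℕ) : ℕ := by
  classical
  exact ∑ τ ∈ (univ.powersetCard (K + 1)).filter (fun τ => Deg S τ), wt C τ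

end

end Crest.Agent.R66
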