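import Crest.Agent.R66.AFat

/-!
# Row 66, part A, piece A_DEGW: the weight of the degenerate faces.

For `τ` degenerate of size `K+1` with `wt τ > 0` choose `ω, x, y` and put `ρ = (ω.erase x).erase y`,
`|ρ| ≤ K - 1`, `ρ ∉ S`, `wt ρ > 0`; with `B_ρ = {v ∉ ρ : insert v ρ ∈ S}` we have `x, y ∈ B_ρ`, `x ≠ y`
(`insert x ρ = ω.erase y`, `insert y ρ = ω.erase x`), and `insert x (insert y ρ) = ω ⊆ τ`. Hence
 `wDeg ≤ ∑_{ρ ∉ S, wt ρ > 0, |ρ| < K} ∑_{x ∈ B_ρ} ∑_{y ∈ B_ρ, y ≠ x} ∑_{τ ⊇ insert x (insert y ρ), |τ| = K+1} wt τ`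
 `     ≤ 2^m ∑_ρ ∑_x ∑_y wt (insert x (insert y ρ))`   (`sum_wt_card`).
By `Mix` with `B = B_ρ` and `b = ∑_{v ∈ B_ρ} wt (insert v ρ) < η |ρ| wt ρ` (`ρ` is not fat), the inner double sum
is `≤ M b (η |ρ| + lam)`. Finally `∑_{|ρ| = s} b_ρ ≤ (s+1) wS (s+1)` (each fat `σ` of size `s+1` comes from its `s+1`
subsets `σ.erase v`).
-/
set_option autoImplicit false

namespace Crest.Agent.R66

open Finset

variable {V : Type} [Fintype V] [DecidableEq V]

private theorem dw_union {α ι : Type*} (U : Finset α) (P : α → Prop) [DecidablePred P] (I : Finset ι)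
    (R : ι → α → Prop) [∀ i, DecidablePred (R i)] (w : α → ℕ)
    (h : ∀ τ ∈ U, P τ → 0 < w τ → ∃ i ∈ I, R i τ) :
    ∑ τ ∈ U.filter P, w τ ≤ ∑ i ∈ I, ∑ τ ∈ U.filter (R i), w τ := by
  have h1 : ∑ i ∈ I, ∑ τ ∈ U.filter (R i), w τ = ∑ τ ∈ U, ∑ i ∈ I, if R i τ then w τ else 0 := by
    rw [sum_comm]
    exact sum_congr rfl fun i _ => sum_filter _ _
  rw [h1, sum_filter]
  refine sum_le_sum fun τ hτ => ?_
  split_ifs with hP
  · rcases Nat.eq_zero_or_pos (w τ) with h0 | h0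
    · rw [h0]; exact Nat.zero_le _
    · obtain ⟨i, hi, hR⟩ := h τ hτ hP h0
      calc w τ = if R i τ then w τ else 0 := by rw [if_pos hR]
        _ ≤ ∑ i ∈ I, if R i τ then w τ else 0 :=
          single_le_sum (f := fun i => if R i τ then w τ else 0) (fun _ _ => Nat.zero_le _) hi
  · exact Nat.zero_le _

private theorem dw_count (C S : Finset (Finset V)) (s : ℕ) (P : Finset (Finset V)) (hP : ∀ ρ ∈ P, ρ.card = s) :
    ∑ ρ ∈ P, ∑ v ∈ ρᶜ.filter (fun v => insert v ρ ∈ S), wt C (insert v ρ) ≤ (s + 1) * wS C S (s + 1) := by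
  have hR : (s + 1) * wS C S (s + 1) =
      ∑ p ∈ (S.filter (fun σ => σ.card = s + 1)).sigma (fun σ => σ), wt C p.1 := by
    rw [sum_sigma, wS, mul_sum]
    refine sum_congr rfl fun σ hσ => ?_
    show (s + 1) * wt C σ = ∑ _v ∈ σ, wt C σ
    rw [sum_const, (mem_filter.1 hσ).2, smul_eq_mul]
  rw [hR, sum_sigma']
  set I := P.sigma (fun ρ => ρᶜ.filter (fun v => insert v ρ ∈ S)) with hI
  set g : (Σ _ : Finset V, V) → (Σ _ : Finset V, V) := fun p => ⟨insert p.2 p.1, p.2⟩ with hg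
  have hmem : ∀ p ∈ I, p.1.card = s ∧ p.2 ∉ p.1 ∧ insert p.2 p.1 ∈ S := by
    intro p hp
    rw [hI, mem_sigma, mem_filter, mem_compl] at hp
    exact ⟨hP _ hp.1, hp.2.1, hp.2.2⟩
  have hinj : Set.InjOn g I := by
    rintro ⟨ρ, v⟩ hp ⟨ρ', v'⟩ hp' he
    have h1 := hmem _ hp
    have h2 := hmem _ hp'
    simp only [hg, Sigma.mk.injEq, heq_eq_eq] at he h1 h2
    obtain ⟨he1, rfl⟩ := he
    have : ρ = ρ' := by
      rw [← erase_insert h1.2.1, he1, erase_insert h2.2.1]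
    rw [this]
  calc ∑ x ∈ I, wt C (insert x.2 x.1) = ∑ q ∈ I.image g, wt C q.1 := by
        rw [sum_image hinj]
    _ ≤ ∑ p ∈ (S.filter (fun σ => σ.card = s + 1)).sigma (fun σ => σ), wt C p.1 := by
        refine sum_le_sum_of_subset ?_
        intro q hq
        obtain ⟨p, hp, rfl⟩ := mem_image.1 hq
        obtain ⟨h1, h2, h3⟩ := hmem p hp
        rw [mem_sigma, mem_filter]
        refine ⟨⟨h3, ?_⟩, mem_insert_self _ _⟩
        show (insert p.2 p.1).card = s + 1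
        rw [card_insert_of_notMem h2, h1]

theorem wDeg_le {C : Finset (Finset V)} {m M d K : ℕ} (hC : ∀ c ∈ C, c.card = m) {lam : ℝ}
    (hlam : 0 ≤ lam) (hmix : Mix C M d lam) (hK : K ≤ d + 1) {η : ℕ → ℝ} (hη : ∀ s, 0 < η s)
    {f : Finset V → ZMod 2} {S : Finset (Finset V)} (hS : IsFat C K η f S) :
    (wDeg C S K : ℝ) ≤ ∑ s ∈ range K, 2 ^ m * M * (η s + lam) * (s + 1) * (wS C S (s + 1) : ℝ) := by
  classical
  set B : Finset V → Finset V := fun ρ => ρᶜ.filter (fun v => insert v ρ ∈ S) with hB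
  set P : Finset (Finset V) := univ.filter (fun ρ => ρ ∉ S ∧ 0 < wt C ρ ∧ ρ.card < K) with hP
  set U : Finset (Finset V) := univ.powersetCard (K + 1) with hU
  set b : Finset V → ℕ := fun ρ => ∑ v ∈ B ρ, wt C (insert v ρ) with hb
  -- step 1: the union bound
  have h1 : wDeg C S K ≤ ∑ ρ ∈ P, ∑ x ∈ B ρ, ∑ y ∈ (B ρ).erase x, 2 ^ m * wt C (insert x (insert y ρ)) := by
    have e1 : wDeg C S K ≤ ∑ i ∈ P.sigma (fun ρ => (B ρ).sigma (fun x => (B ρ).erase x)),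
        ∑ τ ∈ U.filter (fun τ => insert i.2.1 (insert i.2.2 i.1) ⊆ τ), wt C τ := by
      have e0 : wDeg C S K = ∑ τ ∈ U.filter (fun τ => Deg S τ), wt C τ := by
        rw [wDeg]
      rw [e0]
      refine dw_union U (fun τ => Deg S τ) _ _ (wt C) ?_
      rintro τ - ⟨ω, hω, x, hx, y, hy, hxy, hx', hy', hxyS⟩ hτ
      have hyx : y ∈ ω.erase x := mem_erase.2 ⟨hxy.symm, hy⟩
      have hxy' : x ∈ ω.erase y := mem_erase.2 ⟨hxy, hx⟩
      have hiy : insert y ((ω.erase x).erase y) = ω.erase x := insert_erase hyx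
      have hix : insert x ((ω.erase x).erase y) = ω.erase y := by
        rw [erase_right_comm, insert_erase hxy']
      have hsub : insert x (insert y ((ω.erase x).erase y)) ⊆ τ := by
        rw [hiy, insert_erase hx]; exact hω
      refine ⟨⟨(ω.erase x).erase y, x, y⟩, ?_, hsub⟩
      rw [mem_sigma, mem_sigma, mem_erase]
      have hρτ : (ω.erase x).erase y ⊆ τ := (erase_subset _ _).trans ((erase_subset _ _).trans hω)
      refine ⟨?_, ?_, hxy.symm, ?_⟩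
      · rw [hP, mem_filter]
        refine ⟨mem_univ _, hxyS, lt_of_lt_of_le hτ (wt_anti C hρτ), ?_⟩
        have h2 := hS.card_le _ hx'
        have h3 : ((ω.erase x).erase y).card < (ω.erase x).card := card_erase_lt_of_mem hyx
        show ((ω.erase x).erase y).card < K
        omega
      · rw [hB]
        refine mem_filter.2 ⟨mem_compl.2 ?_, ?_⟩
        · intro hc
          exact notMem_erase x ω (mem_of_mem_erase hc)
        · show insert x ((ω.erase x).erase y) ∈ S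
          rw [hix]; exact hy'
      · rw [hB]
        refine mem_filter.2 ⟨mem_compl.2 (notMem_erase _ _), ?_⟩
        show insert y ((ω.erase x).erase y) ∈ S
        rw [hiy]; exact hx'
    refine e1.trans ?_
    rw [sum_sigma]
    refine sum_le_sum fun ρ _ => ?_
    rw [sum_sigma]
    refine sum_le_sum fun x _ => sum_le_sum fun y _ => ?_
    exact sum_wt_card hC _ _
  -- step 2: mixing
  have h2 : ∀ ρ ∈ P, ((∑ x ∈ B ρ, ∑ y ∈ (B ρ).erase x, 2 ^ m * wt C (insert x (insert y ρ)) : ℕ) : ℝ) ≤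
      2 ^ m * M * (η ρ.card + lam) * (b ρ : ℝ) := by
    intro ρ hρ
    rw [hP, mem_filter] at hρ
    obtain ⟨-, hρS, hρw, hρK⟩ := hρ
    have hw : (0 : ℝ) < wt C ρ := by exact_mod_cast hρw
    have hdisj : Disjoint (B ρ) ρ := by
      rw [hB, disjoint_left]
      intro v hv
      exact mem_compl.1 (mem_filter.1 hv).1
    have hm := hmix ρ (by omega) hρw (B ρ) hdisj
    have hbc : (b ρ : ℝ) = ∑ v ∈ B ρ, (wt C (insert v ρ) : ℝ) := by rw [hb]; push_cast; rfl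
    rw [← hbc] at hm
    have hbη : (b ρ : ℝ) < η ρ.card * wt C ρ := by
      by_contra hcon
      push Not at hcon
      refine hρS ((hS.low ρ hρK).2 ⟨hρw, ?_⟩)
      rw [hbc] at hcon
      exact hcon
    have hb0 : (0 : ℝ) ≤ b ρ := Nat.cast_nonneg _
    have hM0 : (0 : ℝ) ≤ M := Nat.cast_nonneg _
    set D : ℝ := ∑ u ∈ B ρ, ∑ v ∈ (B ρ).erase u, (wt C (insert u (insert v ρ)) : ℝ) with hD
    have e2 : wt C ρ * D ≤ wt C ρ * (M * (η ρ.card + lam) * b ρ) := by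
      refine hm.trans ?_
      calc (M : ℝ) * b ρ * (b ρ + lam * wt C ρ) ≤ M * b ρ * (η ρ.card * wt C ρ + lam * wt C ρ) := by
            gcongr
        _ = wt C ρ * (M * (η ρ.card + lam) * b ρ) := by ring
    have e3 : D ≤ M * (η ρ.card + lam) * b ρ := le_of_mul_le_mul_left e2 hw
    have e4 : ((∑ x ∈ B ρ, ∑ y ∈ (B ρ).erase x, 2 ^ m * wt C (insert x (insert y ρ)) : ℕ) : ℝ) = 2 ^ m * D := by
      push_cast
      rw [hD, mul_sum]
      exact sum_congr rfl fun x _ => by rw [mul_sum]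
    rw [e4]
    calc (2 : ℝ) ^ m * D ≤ 2 ^ m * (M * (η ρ.card + lam) * b ρ) := by gcongr
      _ = 2 ^ m * M * (η ρ.card + lam) * (b ρ : ℝ) := by ring
  -- step 3: sum over the size
  have h3 : (wDeg C S K : ℝ) ≤ ∑ ρ ∈ P, 2 ^ m * M * (η ρ.card + lam) * (b ρ : ℝ) := by
    calc (wDeg C S K : ℝ) ≤ ((∑ ρ ∈ P, ∑ x ∈ B ρ, ∑ y ∈ (B ρ).erase x,
          2 ^ m * wt C (insert x (insert y ρ)) : ℕ) : ℝ) := by exact_mod_cast h1
      _ = ∑ ρ ∈ P, ((∑ x ∈ B ρ, ∑ y ∈ (B ρ).erase x, 2 ^ m * wt C (insert x (insert y ρ)) : ℕ) : ℝ) := by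
          rw [Nat.cast_sum]
      _ ≤ _ := sum_le_sum h2
  refine h3.trans ?_
  have hmaps : ∀ ρ ∈ P, ρ.card ∈ range K := by
    intro ρ hρ
    rw [hP, mem_filter] at hρ
    exact mem_range.2 hρ.2.2.2
  rw [← sum_fiberwise_of_maps_to hmaps]
  refine sum_le_sum fun s _ => ?_
  have h4 : ∑ ρ ∈ P.filter (fun ρ => ρ.card = s), 2 ^ m * M * (η ρ.card + lam) * (b ρ : ℝ) =
      2 ^ m * M * (η s + lam) * ((∑ ρ ∈ P.filter (fun ρ => ρ.card = s), b ρ : ℕ) : ℝ) := by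
    rw [Nat.cast_sum, mul_sum]
    refine sum_congr rfl fun ρ hρ => ?_
    rw [(mem_filter.1 hρ).2]
  rw [h4]
  have h5 : ∑ ρ ∈ P.filter (fun ρ => ρ.card = s), b ρ ≤ (s + 1) * wS C S (s + 1) :=
    dw_count C S s _ fun ρ hρ => (mem_filter.1 hρ).2
  have h6 : ((∑ ρ ∈ P.filter (fun ρ => ρ.card = s), b ρ : ℕ) : ℝ) ≤ (s + 1) * (wS C S (s + 1) : ℝ) := by
    exact_mod_cast h5
  have hηs := hη s
  calc 2 ^ m * M * (η s + lam) * ((∑ ρ ∈ P.filter (fun ρ => ρ.card = s), b ρ : ℕ) : ℝ)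
      ≤ 2 ^ m * M * (η s + lam) * ((s + 1) * (wS C S (s + 1) : ℝ)) := by gcongr
    _ = 2 ^ m * M * (η s + lam) * (s + 1) * (wS C S (s + 1) : ℝ) := by ring

end Crest.Agent.R66
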