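import Mathlib

/-!
# Row 66, part A, piece A_ETA: the constants.

Define `θ` by downward recursion from `θ K = 1`: `η s = θ (s+1) / A`, `θ s = η s * θ (s+1) / (s+1)`
(e.g. by a function of `K - s`, or by induction on `K` with a shift; for `s ≥ K` put `θ s = 1`, `η s = 1`).
-/
set_option autoImplicit false

namespace Crest.Agent.R66

/-- auxiliary: `F n = θ (K - n)`. -/
private noncomputable def etaAux (K : ℕ) (A : ℝ) : ℕ → ℝ
  | 0 => 1
  | n + 1 => etaAux K A n / A * etaAux K A n / (((K - (n + 1) : ℕ) : ℝ) + 1)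

private theorem etaAux_pos (K : ℕ) (A : ℝ) (hA : 0 < A) (n : ℕ) : 0 < etaAux K A n := by
  induction n with
  | zero => simp [etaAux]
  | succ n ih =>
    rw [etaAux]
    positivity

theorem exists_eta (K : ℕ) (A : ℝ) (hA : 0 < A) : ∃ η θ : ℕ → ℝ, (∀ s, 0 < η s) ∧ (∀ s, 0 < θ s) ∧
    θ K = 1 ∧ (∀ s, s < K → θ s * ((s : ℝ) + 1) = η s * θ (s + 1)) ∧
    (∀ s, s < K → A * η s ≤ θ (s + 1)) := by
  refine ⟨fun s => etaAux K A (K - (s + 1)) / A, fun s => etaAux K A (K - s), ?_, ?_, ?_, ?_, ?_⟩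
  · intro s
    exact div_pos (etaAux_pos K A hA _) hA
  · intro s
    exact etaAux_pos K A hA _
  · simp [etaAux]
  · intro s hs
    have h1 : K - s = (K - (s + 1)) + 1 := by omega
    have h2 : K - (K - (s + 1) + 1) = s := by omega
    simp only
    rw [h1, etaAux, h2]
    have : ((s : ℝ) + 1) ≠ 0 := by positivity
    field_simp
  · intro s hs
    simp only
    rw [mul_div_cancel₀ _ hA.ne']

end Crest.Agent.R66
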