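import Crest.Agent.R66.ABasic

/-!
# Row 66, part A, piece A_GREEDY: greedy local correction.

Strong induction on `W C (K+1) z`, size `K+1 ≥ 1`... (here the cocycle `z` has size `K+1`, `g` has size `K`).
If `W z = 0` take `g = 0`. Otherwise `z` is not `LocMin` (else `hvan` gives `W z = 0`), so there are `v`, `g₀` with
`g₀ ρ = 0` for `v ∉ ρ` and `W C (K+1) (z + dl g₀) < W C (K+1) z`. Restrict `g₀` to sets of size `K` (this does not
change `dl g₀` on sets of size `K+1`): then `W C K g₀ ≤ ∑_{ρ ∋ v, |ρ| = K} wt ρ ≤ 2^m wt {v} ≤ 2^m Δ`.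
`z' = z + dl g₀` satisfies `dl z' = dl z` (`dl_dl`), smaller weight; induction gives `g'`; take `g = g' + g₀`.
-/
set_option autoImplicit false

namespace Crest.Agent.R66

open Finset

variable {V : Type} [Fintype V] [DecidableEq V]

/-- `W C s` only depends on the values on sets of size `s`. -/
theorem greedy_W_congr (C : Finset (Finset V)) (s : ℕ) {f g : Finset V → ZMod 2}
    (h : ∀ σ : Finset V, σ.card = s → f σ = g σ) : W C s f = W C s g := by
  unfold W
  congr 1
  apply Finset.filter_congr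
  intro σ hσ
  rw [h σ (Finset.mem_powersetCard.mp hσ).2]

/-- weight zero means vanishing on faces. -/
theorem greedy_W_zero {C : Finset (Finset V)} {s : ℕ} {f : Finset V → ZMod 2} (h : W C s f = 0)
    (σ : Finset V) (hσ : σ.card = s) (hw : 0 < wt C σ) : f σ = 0 := by
  by_contra hne
  unfold W at h
  rw [Finset.sum_eq_zero_iff] at h
  have := h σ (by
    rw [Finset.mem_filter, Finset.mem_powersetCard]
    exact ⟨⟨Finset.subset_univ _, hσ⟩, hne⟩)
  omega

theorem greedy_W_star {C : Finset (Finset V)} {m Δ : ℕ} (hC : ∀ c ∈ C, c.card = m)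
    (hΔ : ∀ v : V, wt C {v} ≤ Δ) (K : ℕ) (v : V) (g : Finset V → ZMod 2)
    (hg : ∀ ρ, v ∉ ρ → g ρ = 0) : W C K g ≤ 2 ^ m * Δ := by
  calc W C K g ≤ ∑ τ ∈ (univ.powersetCard K).filter (fun τ => ({v} : Finset V) ⊆ τ), wt C τ := by
        unfold W
        apply Finset.sum_le_sum_of_subset
        intro ρ hρ
        rw [Finset.mem_filter] at hρ ⊢
        refine ⟨hρ.1, ?_⟩
        rw [Finset.singleton_subset_iff]
        by_contra hv
        exact hρ.2 (hg ρ hv)
    _ ≤ 2 ^ m * wt C {v} := sum_wt_card hC {v} K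
    _ ≤ 2 ^ m * Δ := Nat.mul_le_mul_left _ (hΔ v)

theorem greedy {C : Finset (Finset V)} {m K Δ : ℕ} (hC : ∀ c ∈ C, c.card = m)
    (hΔ : ∀ v : V, wt C {v} ≤ Δ) {M : ℝ}
    (hvan : ∀ z : Finset V → ZMod 2, LocMin C (K + 1) z →
      (∀ τ : Finset V, τ.card = K + 2 → 0 < wt C τ → dl z τ = 0) →
      (W C (K + 1) z : ℝ) < M → W C (K + 1) z = 0)
    (z : Finset V → ZMod 2) (hz : ∀ τ : Finset V, τ.card = K + 2 → 0 < wt C τ → dl z τ = 0)
    (hzM : (W C (K + 1) z : ℝ) < M) :
    ∃ g : Finset V → ZMod 2, (∀ τ : Finset V, τ.card = K + 1 → 0 < wt C τ → z τ = dl g τ) ∧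
      W C K g ≤ 2 ^ m * Δ * W C (K + 1) z := by
  have key : ∀ n : ℕ, ∀ z : Finset V → ZMod 2,
      (∀ τ : Finset V, τ.card = K + 2 → 0 < wt C τ → dl z τ = 0) →
      (W C (K + 1) z : ℝ) < M → W C (K + 1) z = n →
      ∃ g : Finset V → ZMod 2, (∀ τ : Finset V, τ.card = K + 1 → 0 < wt C τ → z τ = dl g τ) ∧
      W C K g ≤ 2 ^ m * Δ * W C (K + 1) z := by
    intro n
    induction n using Nat.strong_induction_on with
    | _ n ih =>
      intro z hz hzM hn
      by_cases h0 : W C (K + 1) z = 0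
      · refine ⟨0, ?_, ?_⟩
        · intro τ hτ hw
          rw [greedy_W_zero h0 τ hτ hw]
          simp [dl]
        · simp [W]
      · have hnl : ¬ LocMin C (K + 1) z := fun hl => h0 (hvan z hl hz hzM)
        unfold LocMin at hnl
        push Not at hnl
        obtain ⟨v, g₀, hg₀, hlt⟩ := hnl
        set g₁ : Finset V → ZMod 2 := fun ρ => if ρ.card = K then g₀ ρ else 0 with hg₁
        have hdl : ∀ τ : Finset V, τ.card = K + 1 → dl g₁ τ = dl g₀ τ := by
          intro τ hτ
          unfold dl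
          apply Finset.sum_congr rfl
          intro x hx
          have : (τ.erase x).card = K := by rw [Finset.card_erase_of_mem hx, hτ]; rfl
          simp [hg₁, this]
        have hWeq : W C (K + 1) (z + dl g₁) = W C (K + 1) (z + dl g₀) := by
          apply greedy_W_congr
          intro σ hσ
          simp only [Pi.add_apply]
          rw [hdl σ hσ]
        have hg₁v : ∀ ρ, v ∉ ρ → g₁ ρ = 0 := by
          intro ρ hρ
          simp only [hg₁]
          split_ifs
          · exact hg₀ ρ hρ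
          · rfl
        have hW1 : W C K g₁ ≤ 2 ^ m * Δ := greedy_W_star hC hΔ K v g₁ hg₁v
        have hlt' : W C (K + 1) (z + dl g₁) < n := by rw [hWeq]; omega
        have hz' : ∀ τ : Finset V, τ.card = K + 2 → 0 < wt C τ → dl (z + dl g₁) τ = 0 := by
          intro τ hτ hw
          rw [dl_add, dl_dl]
          simpa using hz τ hτ hw
        have hzM' : (W C (K + 1) (z + dl g₁) : ℝ) < M := by
          have : (W C (K + 1) (z + dl g₁) : ℝ) ≤ (W C (K + 1) z : ℝ) := by
            exact_mod_cast (by omega : W C (K + 1) (z + dl g₁) ≤ W C (K + 1) z)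
          linarith
        obtain ⟨g', hg', hWg'⟩ := ih _ hlt' (z + dl g₁) hz' hzM' rfl
        refine ⟨g' + g₁, ?_, ?_⟩
        · intro τ hτ hw
          rw [dl_add]
          have h1 := hg' τ hτ hw
          simp only [Pi.add_apply] at h1 ⊢
          rw [← h1, add_assoc, CharTwo.add_self_eq_zero, add_zero]
        · calc W C K (g' + g₁) ≤ W C K g' + W C K g₁ := W_add_le C K g' g₁
            _ ≤ 2 ^ m * Δ * W C (K + 1) (z + dl g₁) + 2 ^ m * Δ := Nat.add_le_add hWg' hW1
            _ = 2 ^ m * Δ * (W C (K + 1) (z + dl g₁) + 1) := by ring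
            _ ≤ 2 ^ m * Δ * W C (K + 1) z := by
                apply Nat.mul_le_mul_left
                omega
  exact key _ z hz hzM rfl

end Crest.Agent.R66
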