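import Crest.Agent.R66.AIter2
import Crest.Agent.R66.AGreedy

/-!
# Row 66, part A, piece A_EXP: coboundary expansion with the chamber weights.

For each size `s` with `1 ≤ s ≤ d` apply `small_set` with `M = m`, `K = s+1 ≤ d+1 < m`, get `lam_s, mu_s, c_s`; `lam = min`,
`mu = min` over `s` (`mix_mono`; a smaller `mu` is also fine). For closed `z` it says: `LocMin z`, `W z < mu |C|` imply `W z = 0`.
Given `f` (size `s`): `z = dl f`. If `W (s+1) z < mu |C|`: `greedy` (with `K = s`, `M = mu |C|`) gives `g` with `dl f = dl g` on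
faces of size `s+1` and `W s g ≤ 2^m Δ W (s+1) z`; `f + g` is closed on faces, `Van` gives `h` with `f + g = dl h` on faces
of size `s`; then `W s (f + dl h) = W s g` (only faces count; char 2).
Otherwise `h = 0`: `W s f ≤ 2^m |C| ≤ (2^m / mu) W (s+1) z`.
`eps = min (1/(2^m Δ + 1)) (mu / 2^m)`.
-/
set_option autoImplicit false

namespace Crest.Agent.R66

open Finset

private theorem W_congr_faces {V : Type} [Fintype V] [DecidableEq V] (C : Finset (Finset V)) (s : ℕ)
    (f g : Finset V → ZMod 2) (h : ∀ σ : Finset V, σ.card = s → 0 < wt C σ → f σ = g σ) :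
    W C s f = W C s g := by
  unfold W
  rw [sum_filter, sum_filter]
  refine sum_congr rfl fun σ hσ => ?_
  rw [mem_powersetCard] at hσ
  rcases Nat.eq_zero_or_pos (wt C σ) with h0 | h0
  · rw [h0]; simp
  · rw [h σ hσ.2 h0]

private theorem W_eq_zero_of_faces {V : Type} [Fintype V] [DecidableEq V] (C : Finset (Finset V)) (s : ℕ)
    (f : Finset V → ZMod 2) (h : ∀ σ : Finset V, σ.card = s → 0 < wt C σ → f σ = 0) :
    W C s f = 0 := by
  rw [W_congr_faces C s f 0 h]
  unfold W
  simp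

theorem expansion (m d : ℕ) (hm : d + 2 ≤ m) (β : ℝ) (hβ : 0 < β) :
    ∃ lam : ℝ, 0 < lam ∧ ∀ Δ : ℕ, ∃ eps : ℝ, 0 < eps ∧
      ∀ (V : Type) [Fintype V] [DecidableEq V] (C : Finset (Finset V)),
        (∀ c ∈ C, c.card = m) → (∀ v : V, wt C {v} ≤ Δ) → LinkExp C d β → Mix C m d lam →
        Van C d → ∀ s : ℕ, 1 ≤ s → s ≤ d → ∀ f : Finset V → ZMod 2,
          ∃ h : Finset V → ZMod 2, eps * (W C s (f + dl h) : ℝ) ≤ (W C (s + 1) (dl f) : ℝ) := by
  choose lamf muf cf h1 h2 h3 h4 using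
    fun s : ℕ => small_set m (s + 1) (Nat.le_add_left 1 s) β hβ
  have hne : (range (d + 1)).Nonempty := ⟨0, by simp⟩
  have hlam : 0 < (range (d + 1)).inf' hne lamf := (lt_inf'_iff hne).2 fun s _ => h1 s
  have hmu : 0 < (range (d + 1)).inf' hne muf := (lt_inf'_iff hne).2 fun s _ => h2 s
  refine ⟨(range (d + 1)).inf' hne lamf, hlam, fun Δ => ?_⟩
  set lam := (range (d + 1)).inf' hne lamf with hlamdef
  set mu := (range (d + 1)).inf' hne muf with hmudef
  have hp : (0 : ℝ) < 2 ^ m := by positivity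
  have hpΔ : (0 : ℝ) < 2 ^ m * Δ + 1 := by positivity
  refine ⟨min (1 / (2 ^ m * Δ + 1)) (mu / 2 ^ m), lt_min (by positivity) (by positivity), ?_⟩
  intro V _ _ C hC hΔ hexp hmix hvan s hs1 hsd f
  have hsr : s ∈ range (d + 1) := by simp; omega
  have hlams : lam ≤ lamf s := inf'_le lamf hsr
  have hmus : mu ≤ muf s := inf'_le muf hsr
  have hexp' : LinkExp C (s + 1 - 1) β := fun σ hσ hw r hr hc g =>
    hexp σ hσ hw r hr (by omega) g
  have hmix' : Mix C m (s + 1 - 1) (lamf s) := by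
    have := mix_mono hmix hlams
    intro ρ hρ hw B hB
    exact this ρ (by omega) hw B hB
  by_cases hcase : (W C (s + 1) (dl f) : ℝ) < mu * C.card
  · have hgreedy := greedy (K := s) hC hΔ (M := mu * C.card) (by
      intro z hzl hzc hzM
      have h5 := h4 s V C m le_rfl (by omega) hC hexp' hmix' z hzl
        (lt_of_lt_of_le hzM (by gcongr))
      have h6 : W C (s + 1 + 1) (dl z) = 0 :=
        W_eq_zero_of_faces C (s + 2) (dl z) hzc
      rw [h6] at h5
      have h7 : (W C (s + 1) z : ℝ) ≤ 0 := by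
        have := h3 s
        by_contra hcon
        push Not at hcon
        have := mul_pos this hcon
        simp only [Nat.cast_zero] at h5
        linarith
      exact_mod_cast le_antisymm h7 (Nat.cast_nonneg _)) (dl f) (by
        intro τ _ _
        rw [dl_dl]; rfl) hcase
    obtain ⟨g, hg1, hg2⟩ := hgreedy
    obtain ⟨h, hh⟩ := hvan s hs1 hsd (f + g) (by
      intro τ hτ hw
      rw [dl_add, Pi.add_apply, hg1 τ hτ hw]
      exact CharTwo.add_self_eq_zero _)
    refine ⟨h, ?_⟩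
    have h8 : W C s (f + dl h) = W C s g := by
      refine W_congr_faces C s _ _ fun σ hσ hw => ?_
      rw [Pi.add_apply, ← hh σ hσ hw, Pi.add_apply, ← add_assoc, CharTwo.add_self_eq_zero, zero_add]
    rw [h8]
    have h9 : (W C s g : ℝ) ≤ 2 ^ m * Δ * (W C (s + 1) (dl f) : ℝ) := by exact_mod_cast hg2
    have h10 : (0 : ℝ) ≤ (W C (s + 1) (dl f) : ℝ) := Nat.cast_nonneg _
    calc min (1 / (2 ^ m * (Δ : ℝ) + 1)) (mu / 2 ^ m) * (W C s g : ℝ)
        ≤ (1 / (2 ^ m * (Δ : ℝ) + 1)) * (2 ^ m * Δ * (W C (s + 1) (dl f) : ℝ)) := by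
          apply mul_le_mul (min_le_left _ _) h9 (Nat.cast_nonneg _) (by positivity)
      _ = ((2 ^ m * (Δ : ℝ)) / (2 ^ m * (Δ : ℝ) + 1)) * (W C (s + 1) (dl f) : ℝ) := by ring
      _ ≤ 1 * (W C (s + 1) (dl f) : ℝ) := by
          gcongr
          rw [div_le_one hpΔ]
          linarith
      _ = _ := one_mul _
  · push Not at hcase
    refine ⟨0, ?_⟩
    have h5 : dl (0 : Finset V → ZMod 2) = 0 := by
      funext τ
      simp [dl]
    rw [h5, add_zero]
    have h6 : (W C s f : ℝ) ≤ 2 ^ m * C.card := by exact_mod_cast W_le hC s f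
    calc min (1 / (2 ^ m * (Δ : ℝ) + 1)) (mu / 2 ^ m) * (W C s f : ℝ)
        ≤ (mu / 2 ^ m) * (2 ^ m * C.card) := by
          apply mul_le_mul (min_le_right _ _) h6 (Nat.cast_nonneg _) (by positivity)
      _ = mu * C.card := by field_simp
      _ ≤ _ := hcase

end Crest.Agent.R66
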