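import Crest.Agent.R66.ABasic

/-!
# Row 66, part A, piece A_FAT: fat faces.

`exists_fat`: define finsets `S_0 = {σ : |σ| = K, wt σ > 0, f σ ≠ 0}`,
`S_(j+1) = {σ : |σ| + (j+1) = K, wt σ > 0, η |σ| wt σ ≤ ∑_{v ∉ σ, insert v σ ∈ S_j} wt (insert v σ)}` (`Nat.rec`)
and `S = ⋃_{j ≤ K} S_j`; for `|σ| < K`, `insert v σ ∈ S ↔ insert v σ ∈ S_(K - |σ| - 1)` when `v ∉ σ`.

`fat_step`: `η s * wS s ≤ ∑_{σ ∈ S_s} ∑_{v ∉ σ, insert v σ ∈ S} wt (insert v σ) ≤ (s+1) wS (s+1)`: every
`τ ∈ S` of size `s+1` arises from its `s+1` subsets `τ.erase v`.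

`fat_bound`: downward induction on `s` from `θ K = 1`, `wS K = W C K f` (faces of weight 0 contribute 0).
-/
set_option autoImplicit false

namespace Crest.Agent.R66

open Finset

variable {V : Type} [Fintype V] [DecidableEq V]

open Classical in
/-- the fat faces of size `K - j`. -/
private noncomputable def fatL (C : Finset (Finset V)) (K : ℕ) (η : ℕ → ℝ)
    (f : Finset V → ZMod 2) : ℕ → Finset (Finset V)
  | 0 => univ.filter fun σ => σ.card = K ∧ 0 < wt C σ ∧ f σ ≠ 0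
  | j + 1 => univ.filter fun σ => σ.card + (j + 1) = K ∧ 0 < wt C σ ∧
      η σ.card * wt C σ ≤ ∑ v ∈ σᶜ.filter (fun v => insert v σ ∈ fatL C K η f j),
        (wt C (insert v σ) : ℝ)

theorem exists_fat (C : Finset (Finset V)) (K : ℕ) (η : ℕ → ℝ) (f : Finset V → ZMod 2) :
    ∃ S : Finset (Finset V), IsFat C K η f S := by
  classical
  refine ⟨univ.filter fun σ => σ.card ≤ K ∧ σ ∈ fatL C K η f (K - σ.card), ?_, ?_, ?_⟩
  · intro σ hσ
    exact (mem_filter.mp hσ).2.1
  · intro σ hσ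
    rw [mem_filter, hσ, Nat.sub_self]
    simp only [mem_univ, true_and, le_refl, fatL, mem_filter, hσ]
  · intro σ hσ
    obtain ⟨j, hj⟩ : ∃ j, K - σ.card = j + 1 := ⟨K - σ.card - 1, by omega⟩
    have hfil : σᶜ.filter (fun v => insert v σ ∈
        (univ.filter fun σ => σ.card ≤ K ∧ σ ∈ fatL C K η f (K - σ.card))) =
        σᶜ.filter (fun v => insert v σ ∈ fatL C K η f j) := by
      apply filter_congr
      intro v hv
      have hc : (insert v σ).card = σ.card + 1 := card_insert_of_notMem (mem_compl.mp hv)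
      rw [mem_filter, hc]
      have h1 : K - (σ.card + 1) = j := by omega
      rw [h1]
      simp only [mem_univ, true_and, and_iff_right_iff_imp]
      intro _
      omega
    rw [hfil, mem_filter, hj]
    simp only [mem_univ, true_and, fatL, mem_filter]
    constructor
    · rintro ⟨_, _, h2, h3⟩
      exact ⟨h2, h3⟩
    · rintro ⟨h2, h3⟩
      exact ⟨by omega, by omega, h2, h3⟩

theorem wS_top {C : Finset (Finset V)} {K : ℕ} {η : ℕ → ℝ} {f : Finset V → ZMod 2}
    {S : Finset (Finset V)} (hS : IsFat C K η f S) : wS C S K = W C K f := by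
  unfold wS W
  apply sum_subset
  · intro σ hσ
    obtain ⟨h1, h2⟩ := mem_filter.mp hσ
    rw [mem_filter, mem_powersetCard]
    exact ⟨⟨subset_univ _, h2⟩, ((hS.top σ h2).mp h1).2⟩
  · intro σ hσ hn
    obtain ⟨h1, h2⟩ := mem_filter.mp hσ
    have h3 := (mem_powersetCard.mp h1).2
    by_contra hne
    exact hn (mem_filter.mpr ⟨(hS.top σ h3).mpr ⟨Nat.pos_of_ne_zero hne, h2⟩, h3⟩)

theorem fat_step {C : Finset (Finset V)} {K : ℕ} {η : ℕ → ℝ} {f : Finset V → ZMod 2}
    {S : Finset (Finset V)} (hS : IsFat C K η f S) (s : ℕ) (hs : s < K) :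
    η s * (wS C S s : ℝ) ≤ (s + 1) * (wS C S (s + 1) : ℝ) := by
  classical
  have h1 : η s * (wS C S s : ℝ) ≤ ∑ σ ∈ S.filter (fun σ => σ.card = s),
      ∑ v ∈ σᶜ.filter (fun v => insert v σ ∈ S), (wt C (insert v σ) : ℝ) := by
    unfold wS
    rw [Nat.cast_sum, mul_sum]
    refine sum_le_sum fun σ hσ => ?_
    obtain ⟨h2, h3⟩ := mem_filter.mp hσ
    have h4 := ((hS.low σ (by omega)).mp h2).2
    rwa [h3] at h4
  refine h1.trans ?_
  rw [sum_sigma']
  have h5 : ((s : ℝ) + 1) * (wS C S (s + 1) : ℝ) =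
      ∑ p ∈ (S.filter (fun σ => σ.card = s + 1)).sigma (fun τ => τ), (wt C p.1 : ℝ) := by
    unfold wS
    rw [sum_sigma, Nat.cast_sum, mul_sum]
    refine sum_congr rfl fun τ hτ => ?_
    show ((s : ℝ) + 1) * (wt C τ : ℝ) = ∑ _v ∈ τ, (wt C τ : ℝ)
    rw [sum_const, (mem_filter.mp hτ).2, nsmul_eq_mul]
    push_cast
    ring
  rw [h5]
  set A := (S.filter (fun σ => σ.card = s)).sigma
    (fun σ => σᶜ.filter (fun v => insert v σ ∈ S)) with hA
  let g : (_ : Finset V) × V → (_ : Finset V) × V := fun p => ⟨insert p.2 p.1, p.2⟩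
  have hinj : Set.InjOn g A := by
    rintro ⟨σ, v⟩ h ⟨σ', v'⟩ h' he
    rw [mem_coe, hA, mem_sigma] at h h'
    have hv : v ∉ σ := mem_compl.mp (mem_filter.mp h.2).1
    have hv' : v' ∉ σ' := mem_compl.mp (mem_filter.mp h'.2).1
    have e1 : insert v σ = insert v' σ' := congrArg Sigma.fst he
    have e2 : v = v' := by
      have := congrArg (fun p : (_ : Finset V) × V => p.2) he
      exact this
    subst e2
    have e3 : σ = σ' := by
      rw [← erase_insert hv, e1, erase_insert hv']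
    subst e3
    rfl
  have h6 : ∑ p ∈ A, (wt C (insert p.2 p.1) : ℝ) = ∑ q ∈ A.image g, (wt C q.1 : ℝ) := by
    rw [sum_image hinj]
  rw [h6]
  refine sum_le_sum_of_subset_of_nonneg ?_ fun _ _ _ => Nat.cast_nonneg _
  intro q hq
  obtain ⟨⟨σ, v⟩, hp, rfl⟩ := mem_image.mp hq
  rw [hA, mem_sigma] at hp
  obtain ⟨h7, h8⟩ := hp
  obtain ⟨h9, h10⟩ := mem_filter.mp h7
  obtain ⟨h11, h12⟩ := mem_filter.mp h8
  rw [mem_sigma, mem_filter]
  refine ⟨⟨h12, ?_⟩, mem_insert_self _ _⟩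
  show (insert v σ).card = s + 1
  rw [card_insert_of_notMem (mem_compl.mp h11)]
  exact congrArg (· + 1) h10

theorem fat_bound {C : Finset (Finset V)} {K : ℕ} {η θ : ℕ → ℝ} {f : Finset V → ZMod 2}
    {S : Finset (Finset V)} (hS : IsFat C K η f S) (hθ : ∀ s, 0 < θ s) (hK : θ K = 1)
    (hrec : ∀ s, s < K → θ s * (s + 1) = η s * θ (s + 1)) (s : ℕ) (hs : s ≤ K) :
    θ s * (wS C S s : ℝ) ≤ (W C K f : ℝ) := by
  obtain ⟨j, hj⟩ : ∃ j, s + j = K := ⟨K - s, by omega⟩
  induction j generalizing s with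
  | zero =>
    have : s = K := by omega
    subst this
    rw [hK, one_mul, wS_top hS]
  | succ j ih =>
    have h1 := ih (s + 1) (by omega) (by omega)
    refine le_trans ?_ h1
    have h2 := fat_step hS s (by omega)
    have h3 := hrec s (by omega)
    have h4 : (0 : ℝ) < (s : ℝ) + 1 := by positivity
    have h5 := mul_le_mul_of_nonneg_left h2 (hθ (s + 1)).le
    have h6 : ((s : ℝ) + 1) * (θ s * (wS C S s : ℝ)) ≤
        ((s : ℝ) + 1) * (θ (s + 1) * (wS C S (s + 1) : ℝ)) := by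
      calc ((s : ℝ) + 1) * (θ s * (wS C S s : ℝ)) = (θ s * (s + 1)) * (wS C S s : ℝ) := by ring
        _ = θ (s + 1) * (η s * (wS C S s : ℝ)) := by rw [h3]; ring
        _ ≤ θ (s + 1) * ((s + 1) * (wS C S (s + 1) : ℝ)) := h5
        _ = _ := by ring
    exact le_of_mul_le_mul_left h6 h4

/-- the empty set is not fat -/
theorem empty_not_fat {C : Finset (Finset V)} {K : ℕ} {η θ : ℕ → ℝ} {f : Finset V → ZMod 2}
    {S : Finset (Finset V)} (hS : IsFat C K η f S) (hθ : ∀ s, 0 < θ s) (hK : θ K = 1)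
    (hrec : ∀ s, s < K → θ s * (s + 1) = η s * θ (s + 1))
    (hW : (W C K f : ℝ) < θ 0 * C.card) : (∅ : Finset V) ∉ S := by
  intro hmem
  have h1 := fat_bound hS hθ hK hrec 0 (Nat.zero_le _)
  have h2 : wS C S 0 = C.card := by
    unfold wS
    have : S.filter (fun σ => σ.card = 0) = {∅} := by
      ext σ
      rw [mem_filter, mem_singleton, card_eq_zero]
      constructor
      · exact fun h => h.2
      · rintro rfl
        exact ⟨hmem, rfl⟩
    rw [this, sum_singleton, wt_empty]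
  rw [h2] at h1
  linarith

end Crest.Agent.R66
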