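import Crest.Agent.R66.ASkel

/-!
# Row 66, part A, piece A_NORM: comparison of `cochainNorm` on the `d`-skeleton with `W`.

For a face `σ` (`wt σ > 0`) of size `i+1 ≤ d+1`: `1 ≤ #{τ ∈ T : σ ⊆ τ} ≤ 2^m Δ` (`T = skel C d`) and
`1 ≤ wt σ ≤ Δ` (`i+1 ≥ 1`); for a non-face both numbers are `0`. With `N = |T| > 0` and `1 ≤ choose ≤ 2^(d+1)`:
`cochainNorm d T i f ≤ (2^m Δ / N) W C (i+1) f` and `W C (i+1) f ≤ Δ 2^(d+1) N * cochainNorm d T i f`.
-/
set_option autoImplicit false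

namespace Crest.Agent.R66

open Finset Crest.CombinatoricsR.Cochain

private theorem wt_le_delta {n : ℕ} {C : Finset (Finset (Fin n))} {Δ : ℕ} (h2 : ∀ v, wt C {v} ≤ Δ)
    {σ : Finset (Fin n)} (hσ : σ.Nonempty) : wt C σ ≤ Δ := by
  obtain ⟨v, hv⟩ := hσ
  exact (wt_anti C (singleton_subset_iff.2 hv)).trans (h2 v)

private theorem top_le {n : ℕ} {C : Finset (Finset (Fin n))} {m d Δ : ℕ} (hC : ∀ c ∈ C, c.card = m)
    (h2 : ∀ v, wt C {v} ≤ Δ) {σ : Finset (Fin n)} (hσ : σ.Nonempty) :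
    ((skel C d).filter (fun τ => σ ⊆ τ)).card ≤ 2 ^ m * Δ * wt C σ := by
  have h1 : ((skel C d).filter (fun τ => σ ⊆ τ)).card ≤
      ∑ τ ∈ (univ.powersetCard (d + 1)).filter (fun τ => σ ⊆ τ), wt C τ := by
    rw [card_eq_sum_ones]
    calc ∑ τ ∈ (skel C d).filter (fun τ => σ ⊆ τ), 1 ≤ ∑ τ ∈ (skel C d).filter (fun τ => σ ⊆ τ), wt C τ := by
          apply sum_le_sum
          intro τ hτ
          rw [skel, mem_filter, mem_filter] at hτ
          exact hτ.1.2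
      _ ≤ _ := by
          apply sum_le_sum_of_subset
          intro τ hτ
          rw [skel, mem_filter, mem_filter] at hτ
          exact mem_filter.2 ⟨hτ.1.1, hτ.2⟩
  have h3 := h1.trans (sum_wt_card hC σ (d + 1))
  rcases Nat.eq_zero_or_pos (wt C σ) with h0 | h0
  · rw [h0, mul_zero] at h3 ⊢
    exact h3
  · have h4 : 1 ≤ Δ := h0.trans_le (wt_le_delta h2 hσ)
    calc _ ≤ 2 ^ m * wt C σ := h3
      _ = 2 ^ m * 1 * wt C σ := by ring
      _ ≤ 2 ^ m * Δ * wt C σ := by gcongr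

private theorem wt_le_top {n : ℕ} {C : Finset (Finset (Fin n))} {m d Δ : ℕ} (hC : ∀ c ∈ C, c.card = m)
    (hm : d + 1 ≤ m) (h2 : ∀ v, wt C {v} ≤ Δ) {σ : Finset (Fin n)} (hσ : σ.Nonempty)
    (hd : σ.card ≤ d + 1) :
    wt C σ ≤ Δ * ((skel C d).filter (fun τ => σ ⊆ τ)).card := by
  rcases Nat.eq_zero_or_pos (wt C σ) with h0 | h0
  · rw [h0]; exact Nat.zero_le _
  · have h1 : 1 ≤ ((skel C d).filter (fun τ => σ ⊆ τ)).card := by
      obtain ⟨c, hc⟩ := card_pos.1 h0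
      rw [mem_filter] at hc
      obtain ⟨τ, h3, h4, h5⟩ := exists_subsuperset_card_eq hc.2 hd (by rw [hC c hc.1]; exact hm)
      apply card_pos.2
      refine ⟨τ, mem_filter.2 ⟨mem_filter.2 ⟨mem_powersetCard.2 ⟨subset_univ _, h5⟩, ?_⟩, h3⟩⟩
      exact card_pos.2 ⟨c, mem_filter.2 ⟨hc.1, h4⟩⟩
    calc wt C σ ≤ Δ * 1 := by rw [mul_one]; exact wt_le_delta h2 hσ
      _ ≤ _ := by gcongr

theorem norm_upper {n : ℕ} {C : Finset (Finset (Fin n))} {m d Δ : ℕ} (hC : ∀ c ∈ C, c.card = m)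
    (hm : d + 1 ≤ m) (h2 : ∀ v, wt C {v} ≤ Δ) (hne : (skel C d).Nonempty) (i : ℕ) (hi : i ≤ d)
    (f : Finset (Fin n) → ZMod 2) :
    cochainNorm d (skel C d) i f ≤
      (2 ^ m * Δ / ((skel C d).card : ℝ)) * (W C (i + 1) f : ℝ) := by
  have hN : (0 : ℝ) < (skel C d).card := by exact_mod_cast hne.card_pos
  rw [W, cochainNorm]
  push_cast
  rw [mul_sum]
  apply sum_le_sum
  intro σ hσ
  have hσ1 : σ.card = i + 1 := (mem_powersetCard.1 (mem_filter.1 hσ).1).2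
  have hσ2 : σ.Nonempty := card_pos.1 (by omega)
  have h1 := top_le (d := d) hC h2 hσ2
  have h1' : (((skel C d).filter (fun τ => σ ⊆ τ)).card : ℝ) ≤ 2 ^ m * Δ * wt C σ := by
    exact_mod_cast h1
  have h3 : (1 : ℝ) ≤ (Nat.choose (d + 1) (i + 1) : ℝ) := by
    exact_mod_cast Nat.choose_pos (by omega)
  rw [faceWeight]
  calc (((skel C d).filter (fun τ => σ ⊆ τ)).card : ℝ) / ((Nat.choose (d + 1) (i + 1) : ℝ) * ((skel C d).card : ℝ))
      ≤ (2 ^ m * Δ * wt C σ) / (1 * ((skel C d).card : ℝ)) := by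
        gcongr
    _ = _ := by rw [one_mul]; ring

theorem norm_lower {n : ℕ} {C : Finset (Finset (Fin n))} {m d Δ : ℕ} (hC : ∀ c ∈ C, c.card = m)
    (hm : d + 1 ≤ m) (h2 : ∀ v, wt C {v} ≤ Δ) (hne : (skel C d).Nonempty) (i : ℕ) (hi : i ≤ d)
    (f : Finset (Fin n) → ZMod 2) :
    (W C (i + 1) f : ℝ) ≤
      (Δ * 2 ^ (d + 1) * ((skel C d).card : ℝ)) * cochainNorm d (skel C d) i f := by
  have hN : (0 : ℝ) < (skel C d).card := by exact_mod_cast hne.card_pos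
  rw [W, cochainNorm]
  push_cast
  rw [mul_sum]
  apply sum_le_sum
  intro σ hσ
  have hσ1 : σ.card = i + 1 := (mem_powersetCard.1 (mem_filter.1 hσ).1).2
  have hσ2 : σ.Nonempty := card_pos.1 (by omega)
  have h1 := wt_le_top hC hm h2 hσ2 (by omega)
  have h1' : (wt C σ : ℝ) ≤ Δ * ((skel C d).filter (fun τ => σ ⊆ τ)).card := by
    exact_mod_cast h1
  have h3 : (0 : ℝ) < (Nat.choose (d + 1) (i + 1) : ℝ) := by
    exact_mod_cast Nat.choose_pos (by omega)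
  have h4 : (Nat.choose (d + 1) (i + 1) : ℝ) ≤ 2 ^ (d + 1) := by
    have h5 : Nat.choose (d + 1) (i + 1) ≤ 2 ^ (d + 1) := by
      rw [← Nat.sum_range_choose (d + 1)]
      exact single_le_sum (f := fun m => Nat.choose (d + 1) m) (fun _ _ => Nat.zero_le _)
        (mem_range.2 (by omega))
    exact_mod_cast h5
  rw [faceWeight]
  set t : ℝ := (((skel C d).filter (fun τ => σ ⊆ τ)).card : ℝ) with ht
  set c : ℝ := (Nat.choose (d + 1) (i + 1) : ℝ) with hc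
  set N : ℝ := ((skel C d).card : ℝ) with hN'
  have h6 : Δ * 2 ^ (d + 1) * N * (t / (c * N)) = Δ * t * (2 ^ (d + 1) / c) := by
    field_simp
  rw [h6]
  have h7 : 1 ≤ 2 ^ (d + 1) / c := by rw [le_div_iff₀ h3, one_mul]; exact h4
  have h8 : 0 ≤ Δ * t := by positivity
  calc (wt C σ : ℝ) ≤ Δ * t := h1'
    _ = Δ * t * 1 := by ring
    _ ≤ Δ * t * (2 ^ (d + 1) / c) := by gcongr

end Crest.Agent.R66
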