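import Crest.Agent.R66.AExp
import Crest.Agent.R66.ANorm

/-!
# Row 66, part A, piece A_FIN (`reduction`): S0088 follows from `ACone`, `Mix`, `Van`.

`linkexp_of_acone m d C1` gives `lam₁, eps, β`, `expansion m d β` gives `lam₂`; use `H` with `lam = min lam₁ lam₂` and `eps` (`mix_mono`).
`T = skel C d`. `b = fun σ => h ∅` if `i = 0`, `b = coboundary (i-1) h` if `i ≥ 1`; on sets of size `i+1`,
`b σ = dl h σ` (`τ.powersetCard i = {τ.erase v : v ∈ τ}`), `f - b = f + dl h` there; `coboundary i f τ = dl f τ` for `|τ| = i+2`.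
(`cochainNorm d T i g` only depends on the values of `g` on sets of size `i+1`.)
-/
set_option autoImplicit false

namespace Crest.Agent.R66

open Finset Crest.CombinatoricsR.Cochain

private theorem sum_psc_eq_dl {V : Type} [Fintype V] [DecidableEq V] (h : Finset V → ZMod 2)
    (σ : Finset V) (i : ℕ) (hσ : σ.card = i + 1) :
    ∑ τ ∈ σ.powersetCard i, h τ = dl h σ := by
  unfold dl
  symm
  refine Finset.sum_bij (fun v _ => σ.erase v) ?_ ?_ ?_ ?_
  · intro v hv
    rw [mem_powersetCard]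
    refine ⟨erase_subset _ _, ?_⟩
    rw [card_erase_of_mem hv, hσ]; rfl
  · intro v hv w hw e
    exact (Finset.erase_injOn σ) hv hw e
  · intro τ hτ
    rw [mem_powersetCard] at hτ
    have h1 : (σ \ τ).card = 1 := by
      rw [card_sdiff_of_subset hτ.1, hσ, hτ.2]; omega
    obtain ⟨v, hv⟩ := card_eq_one.1 h1
    have hvσ : v ∈ σ \ τ := by rw [hv]; exact mem_singleton_self v
    rw [mem_sdiff] at hvσ
    refine ⟨v, hvσ.1, ?_⟩
    ext x
    rw [mem_erase]
    constructor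
    · rintro ⟨hx, hxσ⟩
      by_contra hxτ
      have : x ∈ σ \ τ := mem_sdiff.2 ⟨hxσ, hxτ⟩
      rw [hv, mem_singleton] at this
      exact hx this
    · intro hx
      refine ⟨?_, hτ.1 hx⟩
      rintro rfl
      exact hvσ.2 hx
  · intro v hv
    rfl

private theorem W_congr' {V : Type} [Fintype V] [DecidableEq V] (C : Finset (Finset V)) (s : ℕ)
    (f g : Finset V → ZMod 2) (h : ∀ σ : Finset V, σ.card = s → f σ = g σ) : W C s f = W C s g := by
  unfold W
  have : (univ.powersetCard s).filter (fun σ => f σ ≠ 0) =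
      (univ.powersetCard s).filter (fun σ => g σ ≠ 0) := by
    apply Finset.filter_congr
    intro σ hσ
    rw [h σ (mem_powersetCard.1 hσ).2]
  rw [this]

private theorem norm_congr' {n : ℕ} (d : ℕ) (T : Finset (Finset (Fin n))) (i : ℕ)
    (f g : Finset (Fin n) → ZMod 2) (h : ∀ σ : Finset (Fin n), σ.card = i + 1 → f σ = g σ) :
    cochainNorm d T i f = cochainNorm d T i g := by
  unfold cochainNorm
  have : (univ.powersetCard (i + 1)).filter (fun σ => f σ ≠ 0) =
      (univ.powersetCard (i + 1)).filter (fun σ => g σ ≠ 0) := by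
    apply Finset.filter_congr
    intro σ hσ
    rw [h σ (mem_powersetCard.1 hσ).2]
  rw [this]

private theorem norm_nonneg' {n : ℕ} (d : ℕ) (T : Finset (Finset (Fin n))) (i : ℕ)
    (f : Finset (Fin n) → ZMod 2) : 0 ≤ cochainNorm d T i f := by
  unfold cochainNorm faceWeight
  apply Finset.sum_nonneg
  intro σ _
  positivity

/-- PART A: S0088 follows from the existence of complexes with `ACone`, `Mix`, `Van`. -/
theorem reduction (d : ℕ) (hd : 1 ≤ d)
    (H : ∃ m : ℕ, d + 2 ≤ m ∧ ∃ C1 : ℝ, ∀ lam : ℝ, 0 < lam → ∀ eps : ℝ, 0 < eps →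
      ∃ Δ : ℕ, ∀ N : ℕ, ∃ n : ℕ, N ≤ n ∧ 0 < n ∧ ∃ C : Finset (Finset (Fin n)),
        (∀ c ∈ C, c.card = m) ∧ (∀ v, 1 ≤ wt C {v} ∧ wt C {v} ≤ Δ) ∧
        ACone C d C1 eps ∧ Mix C m d lam ∧ Van C d) :
    ∃ D : ℕ, ∃ ε : ℝ, 0 < ε ∧ ∀ N : ℕ, ∃ n : ℕ, ∃ T : Finset (Finset (Fin n)), N ≤ n ∧
      (∀ τ ∈ T, τ.card = d + 1) ∧
      (∀ v : Fin n, 1 ≤ vertexDegree T v ∧ vertexDegree T v ≤ D) ∧
      (skeleton T).Connected ∧
      ∀ i : ℕ, i < d → ∀ f : Finset (Fin n) → ZMod 2,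
        ∃ b : Finset (Fin n) → ZMod 2, IsCoboundaryClass i b ∧
          ε * cochainNorm d T i (f - b) ≤ cochainNorm d T (i + 1) (coboundary i f) := by
  obtain ⟨m, hm, C1, H⟩ := H
  obtain ⟨lam₁, eps₁, β, hl1, he1, hβ, L⟩ := linkexp_of_acone m d hm C1
  obtain ⟨lam₂, hl2, E⟩ := expansion m d hm β hβ
  obtain ⟨Δ, H⟩ := H (min lam₁ lam₂) (lt_min hl1 hl2) eps₁ he1
  obtain ⟨eps, heps, E⟩ := E Δ
  set K : ℝ := 2 ^ m * Δ * (Δ * 2 ^ (d + 1)) with hK
  have hK0 : 0 ≤ K := by positivity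
  refine ⟨2 ^ m * Δ, eps / (K + 1), by positivity, fun N => ?_⟩
  obtain ⟨n, hNn, hn0, C, hC, hwt, hA, hM, hV⟩ := H N
  have hdeg : ∀ v : Fin n, 1 ≤ vertexDegree (skel C d) v ∧
      vertexDegree (skel C d) v ≤ 2 ^ m * Δ := fun v =>
    skel_deg hC (by omega) v (hwt v).1 (hwt v).2
  have hne : (skel C d).Nonempty := by
    have h1 := (hdeg ⟨0, hn0⟩).1
    unfold vertexDegree at h1
    have h2 : ((skel C d).filter fun τ => (⟨0, hn0⟩ : Fin n) ∈ τ).Nonempty :=
      Finset.card_pos.1 (by omega)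
    obtain ⟨τ, hτ⟩ := h2
    exact ⟨τ, (mem_filter.1 hτ).1⟩
  refine ⟨n, skel C d, hNn, ?_, hdeg,
    skel_conn hC hd (by omega) hn0 (fun v => (hwt v).1) hV, ?_⟩
  · intro τ hτ
    unfold skel at hτ
    exact (mem_powersetCard.1 (mem_filter.1 hτ).1).2
  intro i hi f
  obtain ⟨h, hh⟩ := E (Fin n) C hC (fun v => (hwt v).2)
    (L (Fin n) C hC (mix_mono hM (min_le_left _ _)) hA) (mix_mono hM (min_le_right _ _)) hV
    (i + 1) (by omega) (by omega) f
  -- the coboundary class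
  obtain ⟨b, hb1, hb2⟩ : ∃ b : Finset (Fin n) → ZMod 2, IsCoboundaryClass i b ∧
      ∀ σ : Finset (Fin n), σ.card = i + 1 → b σ = dl h σ := by
    rcases Nat.eq_zero_or_pos i with rfl | hi0
    · refine ⟨fun _ => h ∅, Or.inl ⟨rfl, h ∅, fun _ => rfl⟩, ?_⟩
      intro σ hσ
      rw [← sum_psc_eq_dl h σ 0 hσ, powersetCard_zero, sum_singleton]
    · refine ⟨coboundary (i - 1) h, Or.inr ⟨hi0, h, rfl⟩, ?_⟩
      intro σ hσ
      unfold coboundary
      have e : i - 1 + 1 = i := by omega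
      rw [e]
      exact sum_psc_eq_dl h σ i hσ
  refine ⟨b, hb1, ?_⟩
  have hfb : ∀ σ : Finset (Fin n), σ.card = i + 1 → (f - b) σ = (f + dl h) σ := by
    intro σ hσ
    rw [Pi.sub_apply, Pi.add_apply, hb2 σ hσ, CharTwo.sub_eq_add]
  have hcob : ∀ σ : Finset (Fin n), σ.card = (i + 1) + 1 → coboundary i f σ = dl f σ := by
    intro σ hσ
    unfold coboundary
    exact sum_psc_eq_dl f σ (i + 1) hσ
  rw [norm_congr' d (skel C d) i (f - b) (f + dl h) hfb,
    norm_congr' d (skel C d) (i + 1) (coboundary i f) (dl f) hcob]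
  have hU := norm_upper hC (by omega) (fun v => (hwt v).2) hne i (by omega) (f + dl h)
  have hLo := norm_lower hC (by omega) (fun v => (hwt v).2) hne (i + 1) (by omega) (dl f)
  set X := cochainNorm d (skel C d) (i + 1) (dl f) with hX
  have hX0 : 0 ≤ X := norm_nonneg' _ _ _ _
  have hTpos : (0 : ℝ) < ((skel C d).card : ℝ) := by
    exact_mod_cast Finset.card_pos.2 hne
  have h1 : eps * cochainNorm d (skel C d) i (f + dl h) ≤ K * X := by
    calc eps * cochainNorm d (skel C d) i (f + dl h)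
        ≤ eps * ((2 ^ m * Δ / ((skel C d).card : ℝ)) * (W C (i + 1) (f + dl h) : ℝ)) :=
          mul_le_mul_of_nonneg_left hU heps.le
      _ = (2 ^ m * Δ / ((skel C d).card : ℝ)) * (eps * (W C (i + 1) (f + dl h) : ℝ)) := by ring
      _ ≤ (2 ^ m * Δ / ((skel C d).card : ℝ)) * (W C (i + 1 + 1) (dl f) : ℝ) :=
          mul_le_mul_of_nonneg_left hh (by positivity)
      _ ≤ (2 ^ m * Δ / ((skel C d).card : ℝ)) *
            ((Δ * 2 ^ (d + 1) * ((skel C d).card : ℝ)) * X) :=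
          mul_le_mul_of_nonneg_left hLo (by positivity)
      _ = K * X := by
          rw [hK]; field_simp
  rw [div_mul_eq_mul_div, div_le_iff₀ (by positivity)]
  nlinarith [h1, hX0]

end Crest.Agent.R66
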