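import Crest.Agent.R66.ABasic

/-!
# Row 66, part A, piece A_LINK: the link `lk C σ` as a complex.

`c ↦ c \ σ` is injective on the chambers containing `σ`; `ρ ⊆ c \ σ` iff `ρ ⊆ c` and `ρ` is disjoint from `σ`.
`mix_lk`: `ρ` with `0 < wt (lk C σ) ρ` is disjoint from `σ`; the vertices `v ∈ B ∩ σ` contribute `0`, so use `Mix` for
`σ ∪ ρ` and `B \ σ`.
-/
set_option autoImplicit false

namespace Crest.Agent.R66

open Finset

variable {V : Type} [Fintype V] [DecidableEq V]

private theorem alink_inj_lk (C : Finset (Finset V)) (σ : Finset V) :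
    Set.InjOn (fun c : Finset V => c \ σ) ((C.filter fun c => σ ⊆ c : Finset (Finset V)) : Set (Finset V)) := by
  intro c hc c' hc' h
  simp only [coe_filter, Set.mem_setOf_eq] at hc hc'
  have h' : c \ σ = c' \ σ := h
  rw [← sdiff_union_of_subset hc.2, ← sdiff_union_of_subset hc'.2, h']

theorem wt_lk (C : Finset (Finset V)) {σ ρ : Finset V} (h : Disjoint ρ σ) :
    wt (lk C σ) ρ = wt C (σ ∪ ρ) := by
  unfold wt lk
  rw [filter_image, card_image_of_injOn ((alink_inj_lk C σ).mono (by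
    intro x hx; exact (mem_coe.2 (mem_of_mem_filter x (mem_coe.1 hx))))), filter_filter]
  congr 1
  apply filter_congr
  intro c _
  rw [subset_sdiff, union_subset_iff]
  constructor
  · rintro ⟨h1, h2, _⟩; exact ⟨h1, h2⟩
  · rintro ⟨h1, h2⟩; exact ⟨h1, h2, h⟩

theorem wt_lk_zero (C : Finset (Finset V)) {σ ρ : Finset V} (h : ¬ Disjoint ρ σ) :
    wt (lk C σ) ρ = 0 := by
  unfold wt lk
  rw [card_eq_zero, filter_eq_empty_iff]
  intro c hc hr
  obtain ⟨c', _, rfl⟩ := mem_image.1 hc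
  exact h (subset_sdiff.1 hr).2

theorem card_lk (C : Finset (Finset V)) (σ : Finset V) : (lk C σ).card = wt C σ := by
  unfold wt lk
  exact card_image_of_injOn (alink_inj_lk C σ)

theorem lk_card {C : Finset (Finset V)} {m : ℕ} (hC : ∀ c ∈ C, c.card = m) (σ : Finset V) :
    ∀ c ∈ lk C σ, c.card = m - σ.card := by
  intro c hc
  obtain ⟨c', hc', rfl⟩ := mem_image.1 hc
  rw [mem_filter] at hc'
  rw [card_sdiff_of_subset hc'.2, hC c' hc'.1]

private theorem alink_disj_of_mem {σ ρ : Finset V} {r : ℕ} (h : ρ ∈ σᶜ.powersetCard r) :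
    Disjoint ρ σ := by
  rw [mem_powersetCard] at h
  exact (subset_compl_iff_disjoint_right.1 h.1)

private theorem alink_mem_psc {σ ρ : Finset V} {r : ℕ} : ρ ∈ σᶜ.powersetCard r ↔ Disjoint ρ σ ∧ ρ.card = r := by
  rw [mem_powersetCard, subset_compl_iff_disjoint_right]

theorem W_lk (C : Finset (Finset V)) (σ : Finset V) (r : ℕ) (g : Finset V → ZMod 2) :
    W (lk C σ) r g = WL C σ r g := by
  unfold W WL
  symm
  apply sum_subset_zero_on_sdiff
  · intro ρ hρ
    rw [mem_filter, alink_mem_psc] at hρ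
    rw [mem_filter, mem_powersetCard]
    exact ⟨⟨subset_univ _, hρ.1.2⟩, hρ.2⟩
  · intro ρ hρ
    rw [mem_sdiff, mem_filter, mem_filter, alink_mem_psc, mem_powersetCard] at hρ
    apply wt_lk_zero
    intro hd
    exact hρ.2 ⟨⟨hd, hρ.1.1.2⟩, hρ.1.2⟩
  · intro ρ hρ
    rw [mem_filter, alink_mem_psc] at hρ
    exact (wt_lk C hρ.1.1).symm

theorem WL_lk (C : Finset (Finset V)) {σ ρ : Finset V} (h : Disjoint ρ σ) (r : ℕ)
    (g : Finset V → ZMod 2) : WL (lk C σ) ρ r g = WL C (σ ∪ ρ) r g := by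
  unfold WL
  symm
  apply sum_subset_zero_on_sdiff
  · intro τ hτ
    rw [mem_filter, alink_mem_psc] at hτ
    rw [mem_filter, alink_mem_psc]
    exact ⟨⟨(disjoint_union_right.1 hτ.1.1).2, hτ.1.2⟩, hτ.2⟩
  · intro τ hτ
    rw [mem_sdiff, mem_filter, mem_filter, alink_mem_psc, alink_mem_psc] at hτ
    apply wt_lk_zero
    intro hd
    exact hτ.2 ⟨⟨disjoint_union_right.2 ⟨(disjoint_union_left.1 hd).2, hτ.1.1.1⟩, hτ.1.1.2⟩, hτ.1.2⟩
  · intro τ hτ
    rw [mem_filter, alink_mem_psc] at hτ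
    rw [wt_lk C (disjoint_union_left.2 ⟨h, (disjoint_union_right.1 hτ.1.1).1⟩), union_assoc]

theorem mix_mono {C : Finset (Finset V)} {M d : ℕ} {lam lam' : ℝ} (h : Mix C M d lam)
    (hl : lam ≤ lam') : Mix C M d lam' := by
  intro ρ h1 h2 B h3
  refine (h ρ h1 h2 B h3).trans ?_
  gcongr

theorem mix_lk {C : Finset (Finset V)} {M d d' : ℕ} {lam : ℝ} (h : Mix C M d lam) (σ : Finset V)
    (hd : σ.card + d' ≤ d) : Mix (lk C σ) M d' lam := by
  intro ρ h1 h2 B h3
  have hdis : Disjoint ρ σ := by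
    by_contra hcon
    rw [wt_lk_zero C hcon] at h2
    exact lt_irrefl _ h2
  have hB' : Disjoint (B \ σ) (σ ∪ ρ) := by
    rw [disjoint_union_right]
    exact ⟨sdiff_disjoint, h3.mono_left sdiff_subset⟩
  have hc : (σ ∪ ρ).card ≤ d := by
    refine (card_union_le _ _).trans ?_
    omega
  have h2' : 0 < wt C (σ ∪ ρ) := by rwa [wt_lk C hdis] at h2
  have key := h (σ ∪ ρ) hc h2' (B \ σ) hB'
  have e0 : (wt (lk C σ) ρ : ℝ) = wt C (σ ∪ ρ) := by rw [wt_lk C hdis]
  have e1 : ∑ v ∈ B, (wt (lk C σ) (insert v ρ) : ℝ) =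
      ∑ v ∈ B \ σ, (wt C (insert v (σ ∪ ρ)) : ℝ) := by
    symm
    apply sum_subset_zero_on_sdiff sdiff_subset
    · intro v hv
      rw [mem_sdiff, mem_sdiff] at hv
      have hvσ : v ∈ σ := by
        by_contra hcon; exact hv.2 ⟨hv.1, hcon⟩
      rw [wt_lk_zero C, Nat.cast_zero]
      intro hcon
      exact (disjoint_left.1 hcon (mem_insert_self v ρ)) hvσ
    · intro v hv
      rw [mem_sdiff] at hv
      rw [wt_lk C, union_insert]
      rw [disjoint_insert_left]
      exact ⟨hv.2, hdis⟩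
  have e2 : ∑ u ∈ B, ∑ v ∈ B.erase u, (wt (lk C σ) (insert u (insert v ρ)) : ℝ) =
      ∑ u ∈ B \ σ, ∑ v ∈ (B \ σ).erase u, (wt C (insert u (insert v (σ ∪ ρ))) : ℝ) := by
    symm
    apply sum_subset_zero_on_sdiff sdiff_subset
    · intro u hu
      rw [mem_sdiff, mem_sdiff] at hu
      have huσ : u ∈ σ := by
        by_contra hcon; exact hu.2 ⟨hu.1, hcon⟩
      apply sum_eq_zero
      intro v _
      rw [wt_lk_zero C, Nat.cast_zero]
      intro hcon
      exact (disjoint_left.1 hcon (mem_insert_self u _)) huσ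
    · intro u hu
      rw [mem_sdiff] at hu
      apply sum_subset_zero_on_sdiff
      · intro v hv
        rw [mem_erase, mem_sdiff] at hv
        rw [mem_erase]
        exact ⟨hv.1, hv.2.1⟩
      · intro v hv
        rw [mem_sdiff, mem_erase, mem_erase, mem_sdiff] at hv
        have hvσ : v ∈ σ := by
          by_contra hcon; exact hv.2 ⟨hv.1.1, hv.1.2, hcon⟩
        rw [wt_lk_zero C, Nat.cast_zero]
        intro hcon
        exact (disjoint_left.1 hcon (mem_insert_of_mem (mem_insert_self v ρ))) hvσ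
      · intro v hv
        rw [mem_erase, mem_sdiff] at hv
        rw [wt_lk C, union_insert, union_insert]
        rw [disjoint_insert_left, disjoint_insert_left]
        exact ⟨hu.2, hv.2.2, hdis⟩
  rw [e0, e1, e2]
  exact key

end Crest.Agent.R66
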