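import Crest.Agent.R66.AMain2
import Crest.Agent.R66.ALink

/-!
# Row 66, part A, piece A_ITER: approximate expansion of the links implies expansion of the links.

`exists_min` : minimise the natural number `W C s (f + dl h)` over `h`.
`min_locmin` : a minimal cochain is locally minimal (`dl` additive).

`iter_step` : `small_set m r β` gives `lam, mu, c`; `eps = mu / 2`, `β' = min c (1 / (2 * (|C1| + 1)))`.
 `C' = lk C σ`, chambers of size `m' = m - |σ|`, `r < m' ≤ m`, `W C' = WL C σ` (`W_lk`), `C'.card = wt C σ`, `mix_lk`.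
 `f = g + dl h₀` minimal in `C'`, size `r`; `dl f = dl g`. If `W C' r f < mu * wt σ` use `small_set`. Otherwise
 `W f ≤ W (g + dl h) ≤ C1 W (dl g) + (mu/2) wt σ ≤ C1 W (dl g) + W f / 2`.
-/
set_option autoImplicit false

namespace Crest.Agent.R66

open Finset

section
variable {V : Type} [Fintype V] [DecidableEq V]

theorem exists_min (C : Finset (Finset V)) (s : ℕ) (f : Finset V → ZMod 2) :
    ∃ h : Finset V → ZMod 2, ∀ h' : Finset V → ZMod 2, W C s (f + dl h) ≤ W C s (f + dl h') := by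
  classical
  exact ⟨Function.argmin (fun h : Finset V → ZMod 2 => W C s (f + dl h)),
    fun h' => Function.argmin_le (fun h : Finset V → ZMod 2 => W C s (f + dl h)) h'⟩

theorem min_locmin {C : Finset (Finset V)} {s : ℕ} {f h : Finset V → ZMod 2}
    (hmin : ∀ h' : Finset V → ZMod 2, W C s (f + dl h) ≤ W C s (f + dl h')) :
    LocMin C s (f + dl h) := by
  intro v g _
  have h1 := hmin (h + g)
  rwa [dl_add, ← add_assoc] at h1

theorem acone_mono {C : Finset (Finset V)} {d : ℕ} {C1 eps eps' : ℝ} (h : ACone C d C1 eps)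
    (hl : eps ≤ eps') : ACone C d C1 eps' := by
  intro σ h1 h2 r h3 h4 g
  obtain ⟨x, hx⟩ := h σ h1 h2 r h3 h4 g
  refine ⟨x, hx.trans ?_⟩
  have : eps * (wt C σ : ℝ) ≤ eps' * (wt C σ : ℝ) :=
    mul_le_mul_of_nonneg_right hl (Nat.cast_nonneg _)
  linarith

end

theorem iter_step (m d : ℕ) (hm : d + 2 ≤ m) (C1 : ℝ) (r : ℕ) (hr : 1 ≤ r) (β : ℝ) (hβ : 0 < β) :
    ∃ lam eps β' : ℝ, 0 < lam ∧ 0 < eps ∧ 0 < β' ∧
      ∀ (V : Type) [Fintype V] [DecidableEq V] (C : Finset (Finset V)), (∀ c ∈ C, c.card = m) →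
        Mix C m d lam → ∀ σ : Finset V, σ.Nonempty → 0 < wt C σ → σ.card + r ≤ d + 1 →
        LinkExp (lk C σ) (r - 1) β →
        (∀ g : Finset V → ZMod 2, ∃ h : Finset V → ZMod 2,
          (WL C σ r (g + dl h) : ℝ) ≤ C1 * (WL C σ (r + 1) (dl g) : ℝ) + eps * (wt C σ : ℝ)) →
        ∀ g : Finset V → ZMod 2, ∃ h : Finset V → ZMod 2,
          β' * (WL C σ r (g + dl h) : ℝ) ≤ (WL C σ (r + 1) (dl g) : ℝ) := by
  obtain ⟨lam, mu, c, hlam, hmu, hc, H⟩ := small_set m r hr β hβ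
  have hC1 : (0 : ℝ) < 2 * (|C1| + 1) := by positivity
  refine ⟨lam, mu / 2, min c (1 / (2 * (|C1| + 1))), hlam, by linarith,
    lt_min hc (by positivity), ?_⟩
  intro V _ _ C hC hmix σ hσ hwσ hσr hexp hcone g
  obtain ⟨h0, hh0⟩ := exists_min (lk C σ) r g
  refine ⟨h0, ?_⟩
  have hdl : dl (g + dl h0) = dl g := by rw [dl_add, dl_dl, add_zero]
  have hloc := min_locmin hh0
  have hD0 : (0 : ℝ) ≤ (WL C σ (r + 1) (dl g) : ℝ) := Nat.cast_nonneg _
  have hW0 : (0 : ℝ) ≤ (WL C σ r (g + dl h0) : ℝ) := Nat.cast_nonneg _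
  by_cases hcase : (W (lk C σ) r (g + dl h0) : ℝ) < mu * (lk C σ).card
  · have h1 := H V (lk C σ) (m - σ.card) (Nat.sub_le _ _) (by omega) (lk_card hC σ) hexp
      (mix_lk hmix σ (by omega)) (g + dl h0) hloc hcase
    rw [hdl, W_lk, W_lk] at h1
    exact (mul_le_mul_of_nonneg_right (min_le_left _ _) hW0).trans h1
  · push Not at hcase
    rw [card_lk, W_lk] at hcase
    obtain ⟨h, hh⟩ := hcone g
    have h2 := hh0 h
    rw [W_lk, W_lk] at h2
    have h2' : (WL C σ r (g + dl h0) : ℝ) ≤ (WL C σ r (g + dl h) : ℝ) := by exact_mod_cast h2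
    have h3 : C1 * (WL C σ (r + 1) (dl g) : ℝ) ≤ |C1| * (WL C σ (r + 1) (dl g) : ℝ) :=
      mul_le_mul_of_nonneg_right (le_abs_self _) hD0
    have h4 : (WL C σ r (g + dl h0) : ℝ) ≤ 2 * (|C1| + 1) * (WL C σ (r + 1) (dl g) : ℝ) := by
      nlinarith
    refine (mul_le_mul_of_nonneg_right (min_le_right _ _) hW0).trans ?_
    rw [one_div, inv_mul_le_iff₀ hC1]
    exact h4

end Crest.Agent.R66
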