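import Crest.Agent.R66.AIter

/-!
# Row 66, part A, piece A_ITER2: `linkexp_of_acone`.

Induction on `k`: `∃ lam eps β > 0` such that the expansion with `β` holds in all links (`σ ≠ ∅`) for all
sizes `1 ≤ r ≤ k` with `|σ| + r ≤ d + 1`. Step: `LinkExp (lk C σ) k β` follows (`WL_lk`, `|σ'| + r' ≤ k + 1`, `σ' ≠ ∅` so `r' ≤ k`; a face
`σ'` of `lk C σ` is disjoint from `σ` by `wt_lk_zero`), use `iter_step` with `r = k + 1`, take minima of the constants
(`mix_mono`, `acone_mono`; a smaller `β` is fine).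
-/
set_option autoImplicit false

namespace Crest.Agent.R66

open Finset

/-- expansion of the links, sizes `≤ k`. -/
private def LExp {V : Type} [Fintype V] [DecidableEq V] (C : Finset (Finset V)) (d k : ℕ)
    (β : ℝ) : Prop :=
  ∀ σ : Finset V, σ.Nonempty → 0 < wt C σ → ∀ r : ℕ, 1 ≤ r → r ≤ k → σ.card + r ≤ d + 1 →
    ∀ g : Finset V → ZMod 2, ∃ h : Finset V → ZMod 2,
      β * (WL C σ r (g + dl h) : ℝ) ≤ (WL C σ (r + 1) (dl g) : ℝ)

private theorem lexp_mono {V : Type} [Fintype V] [DecidableEq V] {C : Finset (Finset V)}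
    {d k : ℕ} {β β' : ℝ} (h : LExp C d k β) (hl : β' ≤ β) : LExp C d k β' := by
  intro σ h1 h2 r h3 h4 h5 g
  obtain ⟨x, hx⟩ := h σ h1 h2 r h3 h4 h5 g
  refine ⟨x, le_trans ?_ hx⟩
  exact mul_le_mul_of_nonneg_right hl (Nat.cast_nonneg _)

private theorem lexp_lk {V : Type} [Fintype V] [DecidableEq V] {C : Finset (Finset V)}
    {d k : ℕ} {β : ℝ} (h : LExp C d k β) (σ : Finset V) (hσ : σ.Nonempty)
    (hk : σ.card + (k + 1) ≤ d + 1) : LinkExp (lk C σ) k β := by
  intro σ' h1 h2 r' h3 h4 g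
  have hdis : Disjoint σ' σ := by
    by_contra hcon
    rw [wt_lk_zero C hcon] at h2
    exact lt_irrefl _ h2
  have hc : 1 ≤ σ'.card := h1.card_pos
  rw [wt_lk C hdis] at h2
  have hcard : (σ ∪ σ').card = σ.card + σ'.card := card_union_of_disjoint hdis.symm
  obtain ⟨x, hx⟩ := h (σ ∪ σ') (hσ.mono subset_union_left) h2 r' h3 (by omega)
    (by rw [hcard]; omega) g
  refine ⟨x, ?_⟩
  rw [WL_lk C hdis, WL_lk C hdis]
  exact hx

private theorem lexp_all (m d : ℕ) (hm : d + 2 ≤ m) (C1 : ℝ) (k : ℕ) :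
    ∃ lam eps β : ℝ, 0 < lam ∧ 0 < eps ∧ 0 < β ∧
      ∀ (V : Type) [Fintype V] [DecidableEq V] (C : Finset (Finset V)), (∀ c ∈ C, c.card = m) →
        Mix C m d lam → ACone C d C1 eps → LExp C d k β := by
  induction k with
  | zero =>
    refine ⟨1, 1, 1, one_pos, one_pos, one_pos, ?_⟩
    intro V _ _ C _ _ _ σ _ _ r h1 h2
    omega
  | succ k ih =>
    obtain ⟨lam1, eps1, β1, hl1, he1, hb1, H1⟩ := ih
    obtain ⟨lam2, eps2, β2, hl2, he2, hb2, H2⟩ := iter_step m d hm C1 (k + 1) (by omega) β1 hb1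
    refine ⟨min lam1 lam2, min eps1 eps2, min β1 β2, lt_min hl1 hl2, lt_min he1 he2,
      lt_min hb1 hb2, ?_⟩
    intro V _ _ C hC hmix hac
    have K1 : LExp C d k β1 := H1 V C hC (mix_mono hmix (min_le_left _ _))
      (acone_mono hac (min_le_left _ _))
    have hac2 : ACone C d C1 eps2 := acone_mono hac (min_le_right _ _)
    intro σ h1 h2 r h3 h4 h5
    rcases Nat.lt_or_ge k r with hr | hr
    · obtain rfl : r = k + 1 := by omega
      intro g
      obtain ⟨x, hx⟩ := H2 V C hC (mix_mono hmix (min_le_right _ _)) σ h1 h2 h5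
        (by simpa using lexp_lk K1 σ h1 h5) (fun g => hac2 σ h1 h2 (k + 1) h3 h5 g) g
      refine ⟨x, le_trans ?_ hx⟩
      exact mul_le_mul_of_nonneg_right (min_le_right _ _) (Nat.cast_nonneg _)
    · exact lexp_mono K1 (min_le_left β1 β2) σ h1 h2 r h3 hr h5

theorem linkexp_of_acone (m d : ℕ) (hm : d + 2 ≤ m) (C1 : ℝ) :
    ∃ lam eps β : ℝ, 0 < lam ∧ 0 < eps ∧ 0 < β ∧
      ∀ (V : Type) [Fintype V] [DecidableEq V] (C : Finset (Finset V)), (∀ c ∈ C, c.card = m) →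
        Mix C m d lam → ACone C d C1 eps → LinkExp C d β := by
  obtain ⟨lam, eps, β, h1, h2, h3, H⟩ := lexp_all m d hm C1 (d + 1)
  refine ⟨lam, eps, β, h1, h2, h3, ?_⟩
  intro V _ _ C hC hmix hac σ k1 k2 r k3 k4 g
  exact H V C hC hmix hac σ k1 k2 r k3 (by omega) k4 g

end Crest.Agent.R66
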