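import Crest.Agent.R66.ABasic

/-!
# Row 66, part A, piece A_LADDER: ladders.

`ladder_sub`, `ladder_mem` : `σ ⊆ F`, `σ ∈ S` (induction).

`ladder_key` (induction on the ladder, for nondegenerate `τ'`): for every set `τ` reached from `F₁ = τ'.erase u`:
 if `w ∈ τ` then `τ.erase w ∈ S` and `Ladder S F₂ (τ.erase w)`, if `w ∉ τ` then `Ladder S F₂ τ`
 (`F₂ = τ'.erase w ∈ S`).
 Base `τ = F₁`, `w ∈ F₁`: `ω = τ'`, `x = u`, `y = w` in `¬ Deg`: `(τ'.erase u).erase w ∈ S`; and
   `F₂.erase u = (τ'.erase u).erase w`.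
 Step `τ → τ.erase x`: * `x = w`: `Ladder S F₂ (τ.erase w)` is known.
   * `x ≠ w`, `w ∈ τ`: `ω = τ` in `¬ Deg`: `(τ.erase x).erase w ∈ S`; then step from `Ladder S F₂ (τ.erase w)`
     erasing `x`.   * `w ∉ τ`: step.

`exists_term` : keep erasing vertices while some facet is fat (strong induction on `card`).
-/
set_option autoImplicit false

namespace Crest.Agent.R66

open Finset

variable {V : Type} [Fintype V] [DecidableEq V]

theorem ladder_sub {S : Finset (Finset V)} {F σ : Finset V} (h : Ladder S F σ) : σ ⊆ F := by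
  induction h with
  | base _ => exact subset_rfl
  | step τ x _ _ _ ih => exact (erase_subset x τ).trans ih

theorem ladder_mem {S : Finset (Finset V)} {F σ : Finset V} (h : Ladder S F σ) : σ ∈ S := by
  induction h with
  | base h => exact h
  | step τ x _ _ h _ => exact h

theorem ladder_top {S : Finset (Finset V)} {F σ : Finset V} (h : Ladder S F σ) : F ∈ S := by
  induction h with
  | base h => exact h
  | step τ x _ _ _ ih => exact ih

private theorem ladder_key_aux {S : Finset (Finset V)} {τ' : Finset V} (hdeg : ¬ Deg S τ') {u w : V}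
    (hu : u ∈ τ') (hw : w ∈ τ') (huw : u ≠ w) (h2 : τ'.erase w ∈ S) {σ : Finset V}
    (h : Ladder S (τ'.erase u) σ) :
    (w ∈ σ → σ.erase w ∈ S ∧ Ladder S (τ'.erase w) (σ.erase w)) ∧
      (w ∉ σ → Ladder S (τ'.erase w) σ) := by
  have key : ∀ ω : Finset V, ω ⊆ τ' → ∀ x ∈ ω, ∀ y ∈ ω, x ≠ y → ω.erase x ∈ S → ω.erase y ∈ S →
      (ω.erase x).erase y ∈ S := by
    intro ω hω x hx y hy hxy h1 h2
    by_contra hc
    exact hdeg ⟨ω, hω, x, hx, y, hy, hxy, h1, h2, hc⟩
  induction h with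
  | base h =>
    refine ⟨fun _ => ?_, fun hn => absurd (mem_erase.2 ⟨huw.symm, hw⟩) hn⟩
    have h3 := key τ' subset_rfl u hu w hw huw h h2
    refine ⟨h3, ?_⟩
    rw [erase_right_comm] at h3 ⊢
    exact Ladder.step _ u (Ladder.base h2) (mem_erase.2 ⟨huw, hu⟩) h3
  | step τ x hτ hx hxS ih =>
    by_cases hxw : x = w
    · subst hxw
      exact ⟨fun hn => absurd hn (notMem_erase x τ), fun _ => (ih.1 hx).2⟩
    · refine ⟨fun hwm => ?_, fun hwn => ?_⟩
      · have hwτ : w ∈ τ := mem_of_mem_erase hwm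
        obtain ⟨h3, h4⟩ := ih.1 hwτ
        have h5 := key τ ((ladder_sub hτ).trans (erase_subset _ _)) x hx w hwτ hxw hxS h3
        refine ⟨h5, ?_⟩
        rw [erase_right_comm] at h5 ⊢
        exact Ladder.step _ x h4 (mem_erase.2 ⟨hxw, hx⟩) h5
      · have hwτ : w ∉ τ := fun hm => hwn (mem_erase.2 ⟨fun e => hxw e.symm, hm⟩)
        exact Ladder.step _ x (ih.2 hwτ) hx hxS

theorem ladder_key {S : Finset (Finset V)} {τ' : Finset V} (hdeg : ¬ Deg S τ') {u w : V}
    (hu : u ∈ τ') (hw : w ∈ τ') (huw : u ≠ w) (h2 : τ'.erase w ∈ S) {σ : Finset V}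
    (h : Ladder S (τ'.erase u) σ) :
    (w ∈ σ → σ.erase w ∈ S) ∧ (w ∉ σ → Ladder S (τ'.erase w) σ) :=
  ⟨fun hm => ((ladder_key_aux hdeg hu hw huw h2 h).1 hm).1, (ladder_key_aux hdeg hu hw huw h2 h).2⟩

theorem exists_term {S : Finset (Finset V)} {F : Finset V} (hF : F ∈ S) :
    ∃ σ, Ladder S F σ ∧ Term S σ := by
  have key : ∀ n : ℕ, ∀ σ : Finset V, σ.card = n → Ladder S F σ → ∃ σ', Ladder S F σ' ∧ Term S σ' := by
    intro n
    induction n using Nat.strong_induction_on with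
    | _ n ih =>
      intro σ hn hσ
      by_cases ht : Term S σ
      · exact ⟨σ, hσ, ht⟩
      · have hex : ∃ x ∈ σ, σ.erase x ∈ S := by
          by_contra hc
          push Not at hc
          exact ht ⟨ladder_mem hσ, hc⟩
        obtain ⟨x, hx, hxS⟩ := hex
        refine ih (σ.erase x).card ?_ (σ.erase x) rfl (Ladder.step σ x hσ hx hxS)
        rw [← hn]
        exact card_erase_lt_of_mem hx
  exact key F.card F rfl (Ladder.base hF)

end Crest.Agent.R66
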