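import Crest.Agent.R66.ABasic

/-!
# Row 66, part A, piece A_LOC: restriction of locally minimal cochains to links.

`ext σ h ρ = h (ρ \ σ)` if `σ ⊆ ρ`, else `0`.  Then `dl (ext σ h) τ = dl h (τ \ σ)` if `σ ⊆ τ`, else `0`
(for `σ ⊆ τ` the terms `v ∈ σ` vanish since `σ ⊄ τ.erase v`; for `σ ⊄ τ` all terms vanish).

`link_min0`: apply `LocMin` to a vertex `v ∈ σ` and `g = ext σ h`; in `W C s f ≤ W C s (f + dl g)` the terms
`τ ⊉ σ` are equal; the terms `τ = σ ∪ ρ` (`ρ = τ \ σ ⊆ σᶜ`, `|ρ| = s - |σ|`) give the claim for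
`f_σ ρ = f (σ ∪ ρ)`.

`link_min`: for `g` with support in that of `f_σ`: `WL (f_σ + dl h) ≤ WL (g + dl h) + WL (f_σ + g)` and
`WL (f_σ + g) + WL g = WL f_σ` (`WL_sub`).
-/
set_option autoImplicit false

namespace Crest.Agent.R66

open Finset

variable {V : Type} [Fintype V] [DecidableEq V]

/-- extension of a cochain of the link of `σ` by zero. -/
def ext0 (σ : Finset V) (h : Finset V → ZMod 2) (ρ : Finset V) : ZMod 2 :=
  if σ ⊆ ρ then h (ρ \ σ) else 0

theorem dl_ext0 (σ : Finset V) (h : Finset V → ZMod 2) (τ : Finset V) :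
    dl (ext0 σ h) τ = if σ ⊆ τ then dl h (τ \ σ) else 0 := by
  unfold dl ext0
  by_cases hστ : σ ⊆ τ
  · rw [if_pos hστ]
    symm
    rw [← Finset.sum_subset (Finset.sdiff_subset : τ \ σ ⊆ τ)]
    · refine Finset.sum_congr rfl fun v hv => ?_
      rw [mem_sdiff] at hv
      rw [if_pos]
      · congr 1
        ext x
        simp only [mem_erase, mem_sdiff]
        tauto
      · intro x hx
        rw [mem_erase]
        exact ⟨fun h => hv.2 (h ▸ hx), hστ hx⟩
    · intro v hv hv2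
      have hvσ : v ∈ σ := by
        by_contra h
        exact hv2 (mem_sdiff.mpr ⟨hv, h⟩)
      rw [if_neg]
      intro h
      exact absurd (h hvσ) (by simp)
  · rw [if_neg hστ]
    refine Finset.sum_eq_zero fun v _ => ?_
    rw [if_neg]
    intro h
    exact hστ (h.trans (erase_subset _ _))

private theorem aloc_sum (C : Finset (Finset V)) (s : ℕ) (σ : Finset V) (hs : σ.card ≤ s)
    (F G : Finset V → ZMod 2)
    (hFG : ∀ ρ : Finset V, ρ ⊆ σᶜ → F (σ ∪ ρ) = G ρ) :
    ∑ τ ∈ (univ.powersetCard s).filter (fun τ => σ ⊆ τ), (if F τ ≠ 0 then wt C τ else 0) =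
      WL C σ (s - σ.card) G := by
  unfold WL
  rw [Finset.sum_filter (p := fun ρ => G ρ ≠ 0)]
  symm
  refine Finset.sum_bij (fun ρ _ => σ ∪ ρ) ?_ ?_ ?_ ?_
  · intro ρ hρ
    rw [mem_powersetCard] at hρ
    rw [mem_filter, mem_powersetCard]
    have hd : Disjoint σ ρ := by
      rw [Finset.disjoint_right]
      intro x hx
      exact mem_compl.mp (hρ.1 hx)
    refine ⟨⟨subset_univ _, ?_⟩, subset_union_left⟩
    rw [card_union_of_disjoint hd, hρ.2]
    omega
  · intro ρ hρ ρ' hρ' heq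
    rw [mem_powersetCard] at hρ hρ'
    ext x
    constructor
    · intro hx
      have h1 : x ∈ σ ∪ ρ' := by
        have : x ∈ σ ∪ ρ := mem_union_right _ hx
        exact heq ▸ this
      rcases mem_union.mp h1 with h | h
      · exact absurd h (mem_compl.mp (hρ.1 hx))
      · exact h
    · intro hx
      have h1 : x ∈ σ ∪ ρ := by
        have : x ∈ σ ∪ ρ' := mem_union_right _ hx
        exact heq ▸ this
      rcases mem_union.mp h1 with h | h
      · exact absurd h (mem_compl.mp (hρ'.1 hx))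
      · exact h
  · intro τ hτ
    rw [mem_filter, mem_powersetCard] at hτ
    refine ⟨τ \ σ, ?_, ?_⟩
    · rw [mem_powersetCard]
      refine ⟨?_, ?_⟩
      · intro x hx
        rw [mem_compl]
        exact (mem_sdiff.mp hx).2
      · rw [card_sdiff_of_subset hτ.2, hτ.1.2]
    · exact union_sdiff_of_subset hτ.2
  · intro ρ hρ
    rw [mem_powersetCard] at hρ
    rw [hFG ρ hρ.1]

theorem link_min0 {C : Finset (Finset V)} {s : ℕ} {f : Finset V → ZMod 2} (hf : LocMin C s f)
    {σ : Finset V} (hσ : σ.Nonempty) (hs : σ.card ≤ s) (h : Finset V → ZMod 2) :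
    WL C σ (s - σ.card) (fun ρ => f (σ ∪ ρ)) ≤
      WL C σ (s - σ.card) ((fun ρ => f (σ ∪ ρ)) + dl h) := by
  obtain ⟨v, hv⟩ := hσ
  have h1 := hf v (ext0 σ h) (by
    intro ρ hρ
    unfold ext0
    rw [if_neg]
    intro h2
    exact hρ (h2 hv))
  have h2 := aloc_sum C s σ hs f (fun ρ => f (σ ∪ ρ)) (fun ρ _ => rfl)
  have h3 := aloc_sum C s σ hs (f + dl (ext0 σ h)) ((fun ρ => f (σ ∪ ρ)) + dl h) (by
    intro ρ hρ
    simp only [Pi.add_apply]
    rw [dl_ext0, if_pos subset_union_left]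
    congr 2
    ext x
    simp only [mem_sdiff, mem_union]
    constructor
    · rintro ⟨h4 | h4, h5⟩
      · exact absurd h4 h5
      · exact h4
    · intro h4
      exact ⟨Or.inr h4, mem_compl.mp (hρ h4)⟩)
  rw [← h2, ← h3]
  unfold W at h1
  rw [Finset.sum_filter (p := fun τ => f τ ≠ 0),
    Finset.sum_filter (p := fun τ => (f + dl (ext0 σ h)) τ ≠ 0)] at h1
  rw [← Finset.sum_filter_add_sum_filter_not (univ.powersetCard s) (fun τ => σ ⊆ τ),
    ← Finset.sum_filter_add_sum_filter_not (univ.powersetCard s) (fun τ => σ ⊆ τ)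
      (fun τ => if (f + dl (ext0 σ h)) τ ≠ 0 then wt C τ else 0)] at h1
  have h4 : ∑ τ ∈ (univ.powersetCard s).filter (fun τ => ¬ σ ⊆ τ),
      (if f τ ≠ 0 then wt C τ else 0) =
      ∑ τ ∈ (univ.powersetCard s).filter (fun τ => ¬ σ ⊆ τ),
      (if (f + dl (ext0 σ h)) τ ≠ 0 then wt C τ else 0) := by
    refine Finset.sum_congr rfl fun τ hτ => ?_
    rw [mem_filter] at hτ
    have h5 : (f + dl (ext0 σ h)) τ = f τ := by
      rw [Pi.add_apply, dl_ext0, if_neg hτ.2, add_zero]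
    simp only [h5]
  rw [h4] at h1
  exact Nat.le_of_add_le_add_right h1

theorem link_min {C : Finset (Finset V)} {s : ℕ} {f : Finset V → ZMod 2} (hf : LocMin C s f)
    {σ : Finset V} (hσ : σ.Nonempty) (hs : σ.card ≤ s) (g : Finset V → ZMod 2)
    (hg : ∀ ρ : Finset V, Disjoint ρ σ → ρ.card = s - σ.card → g ρ ≠ 0 → f (σ ∪ ρ) ≠ 0)
    (h : Finset V → ZMod 2) :
    WL C σ (s - σ.card) g ≤ WL C σ (s - σ.card) (g + dl h) := by
  have h1 := link_min0 hf hσ hs h
  have h2 := WL_add_le C σ (s - σ.card) (g + dl h) ((fun ρ => f (σ ∪ ρ)) + g)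
  have h3 := WL_sub C σ (s - σ.card) (fun ρ => f (σ ∪ ρ)) g hg
  have h4 : (g + dl h) + ((fun ρ => f (σ ∪ ρ)) + g) = (fun ρ => f (σ ∪ ρ)) + dl h := by
    funext ρ
    simp only [Pi.add_apply]
    have := CharTwo.add_self_eq_zero (g ρ)
    linear_combination this
  rw [h4] at h2
  omega

end Crest.Agent.R66
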