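import Crest.Agent.R66.ATerm

/-!
# Row 66, part A, piece A_SUM (`main_ineq`).

Sum `term_ineq` over all terminal `σ` (all `≠ ∅`): every `F` of size `K` with `f F ≠ 0`, `wt F > 0` is in `S` (`IsFat.top`) and has a
terminal `σ` with `Ladder S F σ` (`exists_term`), so `W C K f ≤ ∑_{σ terminal} ∑_{F ∈ S, |F| = K, Ladder S F σ} wt F`; each `τ` of size
`K+1` has `2^(K+1)` subsets `σ`, so the right sides sum to at most `2^(K+1) (wDeg + W (K+1) (dl f))`.
-/
set_option autoImplicit false

namespace Crest.Agent.R66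

open Finset

variable {V : Type} [Fintype V] [DecidableEq V]

open Classical in
private theorem main_h1 {C : Finset (Finset V)} {K : ℕ} {η : ℕ → ℝ}
    {f : Finset V → ZMod 2} {S : Finset (Finset V)} (hS : IsFat C K η f S) :
    (W C K f : ℝ) ≤ ∑ σ ∈ S.filter (fun σ => Term S σ),
      ∑ F ∈ S.filter (fun F => F.card = K ∧ Ladder S F σ), (wt C F : ℝ) := by
  have hsw : ∑ σ ∈ S.filter (fun σ => Term S σ),
      ∑ F ∈ S.filter (fun F => F.card = K ∧ Ladder S F σ), (wt C F : ℝ) =
      ∑ F ∈ S.filter (fun F => F.card = K),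
        ∑ σ ∈ (S.filter (fun σ => Term S σ)).filter (fun σ => Ladder S F σ), (wt C F : ℝ) := by
    apply Finset.sum_comm'
    intro x y
    simp only [mem_filter]
    tauto
  rw [hsw]
  have hWr : (W C K f : ℝ) = ∑ σ ∈ (univ.powersetCard K).filter (fun σ => f σ ≠ 0), (wt C σ : ℝ) := by
    unfold W
    push_cast
    rfl
  rw [hWr]
  calc ∑ σ ∈ (univ.powersetCard K).filter (fun σ => f σ ≠ 0), (wt C σ : ℝ)
      = ∑ σ ∈ ((univ.powersetCard K).filter (fun σ => f σ ≠ 0)).filter (fun σ => 0 < wt C σ),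
          (wt C σ : ℝ) := by
        symm
        apply Finset.sum_subset (Finset.filter_subset _ _)
        intro x hx hx2
        simp only [mem_filter] at hx hx2
        have : ¬ 0 < wt C x := fun h => hx2 ⟨hx, h⟩
        have h0 : wt C x = 0 := by omega
        rw [h0]
        simp
    _ ≤ ∑ F ∈ S.filter (fun F => F.card = K), (wt C F : ℝ) := by
        apply Finset.sum_le_sum_of_subset_of_nonneg
        · intro x hx
          simp only [mem_filter, mem_powersetCard, subset_univ, true_and] at hx ⊢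
          exact ⟨(hS.top x hx.1.1).2 ⟨hx.2, hx.1.2⟩, hx.1.1⟩
        · intro i _ _
          positivity
    _ ≤ _ := by
        apply Finset.sum_le_sum
        intro F hF
        rw [mem_filter] at hF
        obtain ⟨σ, hσ1, hσ2⟩ := exists_term hF.1
        have hmem : σ ∈ (S.filter (fun σ => Term S σ)).filter (fun σ => Ladder S F σ) := by
          simp only [mem_filter]
          exact ⟨⟨hσ2.1, hσ2⟩, hσ1⟩
        exact Finset.single_le_sum (f := fun _ => (wt C F : ℝ)) (fun i _ => by positivity) hmem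

open Classical in
private theorem main_h4 {C : Finset (Finset V)} {K : ℕ}
    {f : Finset V → ZMod 2} {S : Finset (Finset V)} :
    ∑ τ ∈ (univ.powersetCard (K + 1)).filter (fun τ => Deg S τ ∨ dl f τ ≠ 0), (wt C τ : ℝ) ≤
      (wDeg C S K : ℝ) + (W C (K + 1) (dl f) : ℝ) := by
  have e1 : (wDeg C S K : ℝ) =
      ∑ τ ∈ (univ.powersetCard (K + 1)).filter (fun τ => Deg S τ), (wt C τ : ℝ) := by
    unfold wDeg
    push_cast
    apply Finset.sum_congr
    · ext x; simp
    · intro x _; rfl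
  have e2 : (W C (K + 1) (dl f) : ℝ) =
      ∑ τ ∈ (univ.powersetCard (K + 1)).filter (fun τ => dl f τ ≠ 0), (wt C τ : ℝ) := by
    unfold W
    push_cast
    rfl
  rw [e1, e2, Finset.filter_or]
  rw [← Finset.sum_union_inter]
  have : 0 ≤ ∑ τ ∈ ((univ.powersetCard (K + 1)).filter (fun τ => Deg S τ)) ∩
      ((univ.powersetCard (K + 1)).filter (fun τ => dl f τ ≠ 0)), (wt C τ : ℝ) :=
    Finset.sum_nonneg fun _ _ => by positivity
  linarith

theorem main_ineq {C : Finset (Finset V)} {m d K : ℕ} (hC : ∀ c ∈ C, c.card = m) (hKm : K < m)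
    (hKd : K ≤ d + 1) {β : ℝ} (hβ0 : 0 < β) (hβ1 : β ≤ 1) (hexp : LinkExp C d β) {η : ℕ → ℝ}
    {f : Finset V → ZMod 2} {S : Finset (Finset V)} (hS : IsFat C K η f S) (hloc : LocMin C K f)
    (hempty : (∅ : Finset V) ∉ S) :
    β * (W C K f : ℝ) ≤ 2 ^ (K + 1) * ((wDeg C S K : ℝ) + (W C (K + 1) (dl f) : ℝ)) := by
  classical
  have h1 := main_h1 (C := C) hS
  have h4 := main_h4 (C := C) (K := K) (f := f) (S := S)
  have h2 : ∀ σ ∈ S.filter (fun σ => Term S σ),
      β * (∑ F ∈ S.filter (fun F => F.card = K ∧ Ladder S F σ), (wt C F : ℝ)) ≤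
      ∑ τ ∈ (univ.powersetCard (K + 1)).filter (fun τ => (Deg S τ ∨ dl f τ ≠ 0) ∧ σ ⊆ τ),
        (wt C τ : ℝ) := by
    intro σ hσ
    rw [mem_filter] at hσ
    have hne : σ.Nonempty := by
      rcases Finset.eq_empty_or_nonempty σ with h | h
      · exact absurd (h ▸ hσ.1) hempty
      · exact h
    have := term_ineq hC hKm hKd hβ0 hβ1 hexp hS hloc hσ.2 hne
    convert this
  have h3 : ∑ σ ∈ S.filter (fun σ => Term S σ),
      ∑ τ ∈ (univ.powersetCard (K + 1)).filter (fun τ => (Deg S τ ∨ dl f τ ≠ 0) ∧ σ ⊆ τ),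
        (wt C τ : ℝ) ≤
      2 ^ (K + 1) *
        ∑ τ ∈ (univ.powersetCard (K + 1)).filter (fun τ => Deg S τ ∨ dl f τ ≠ 0),
          (wt C τ : ℝ) := by
    have hsw : ∑ σ ∈ S.filter (fun σ => Term S σ),
        ∑ τ ∈ (univ.powersetCard (K + 1)).filter (fun τ => (Deg S τ ∨ dl f τ ≠ 0) ∧ σ ⊆ τ),
        (wt C τ : ℝ) =
        ∑ τ ∈ (univ.powersetCard (K + 1)).filter (fun τ => Deg S τ ∨ dl f τ ≠ 0),
          ∑ σ ∈ (S.filter (fun σ => Term S σ)).filter (fun σ => σ ⊆ τ), (wt C τ : ℝ) := by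
      apply Finset.sum_comm'
      intro x y
      simp only [mem_filter]
      tauto
    rw [hsw, Finset.mul_sum]
    apply Finset.sum_le_sum
    intro τ hτ
    simp only [mem_filter, mem_powersetCard, subset_univ, true_and] at hτ
    rw [Finset.sum_const, nsmul_eq_mul]
    apply mul_le_mul_of_nonneg_right _ (by positivity)
    have hsub : (S.filter (fun σ => Term S σ)).filter (fun σ => σ ⊆ τ) ⊆ τ.powerset := by
      intro x hx
      rw [mem_filter] at hx
      exact mem_powerset.2 hx.2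
    have hc := Finset.card_le_card hsub
    rw [card_powerset, hτ.1] at hc
    exact_mod_cast hc
  calc β * (W C K f : ℝ) ≤ β * ∑ σ ∈ S.filter (fun σ => Term S σ),
      ∑ F ∈ S.filter (fun F => F.card = K ∧ Ladder S F σ), (wt C F : ℝ) := by
        apply mul_le_mul_of_nonneg_left _ hβ0.le
        convert h1
    _ = ∑ σ ∈ S.filter (fun σ => Term S σ),
      β * ∑ F ∈ S.filter (fun F => F.card = K ∧ Ladder S F σ), (wt C F : ℝ) := by
        rw [Finset.mul_sum]
    _ ≤ _ := (Finset.sum_le_sum h2).trans h3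
    _ ≤ _ := by
        apply mul_le_mul_of_nonneg_left _ (by positivity)
        convert h4

end Crest.Agent.R66
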