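import Crest.Agent.R66.AMain1
import Crest.Agent.R66.ADegW
import Crest.Agent.R66.AEta

/-!
# Row 66, part A, piece A_SMALL: the small set theorem.

Put `β' = min β 1`, `A = 2^(K+M+4) * (M+1) * K^2 / β'`, take `η, θ` from `exists_eta K A`,
`mu = θ 0`, `lam = min_{s < K} η s` (`Finset.inf'`, or any positive number `≤ η s` for all `s < K`), `c = β' / 2^(K+2)`.
(`LinkExp C (K-1) β` implies `LinkExp C (K-1) β'`.)
Let `f` be as in the statement, `S` its fat faces (`exists_fat`). `∅ ∉ S` (`empty_not_fat`). `wDeg_le` (`d = K-1`) and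
`fat_bound`: `wDeg ≤ ∑_{s<K} 2^M M (η s + lam)(s+1) W / θ (s+1) ≤ 2^(M+1) M K^2 W / A`.
`main_ineq`: `β' W ≤ 2^(K+1) wDeg + 2^(K+1) W (dl f) ≤ (β'/2) W + 2^(K+1) W (dl f)`.
-/
set_option autoImplicit false

namespace Crest.Agent.R66

open Finset

private theorem linkExp_mono {V : Type} [Fintype V] [DecidableEq V] {C : Finset (Finset V)} {d : ℕ} {β β' : ℝ}
    (h : LinkExp C d β) (hb : β' ≤ β) : LinkExp C d β' := by
  intro σ hσ hw r hr hd g
  obtain ⟨h1, h2⟩ := h σ hσ hw r hr hd g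
  refine ⟨h1, le_trans ?_ h2⟩
  exact mul_le_mul_of_nonneg_right hb (Nat.cast_nonneg _)

theorem small_set (M K : ℕ) (hK1 : 1 ≤ K) (β : ℝ) (hβ : 0 < β) :
    ∃ lam mu c : ℝ, 0 < lam ∧ 0 < mu ∧ 0 < c ∧
      ∀ (V : Type) [Fintype V] [DecidableEq V] (C : Finset (Finset V)) (m : ℕ), m ≤ M → K < m →
        (∀ c ∈ C, c.card = m) → LinkExp C (K - 1) β → Mix C M (K - 1) lam →
        ∀ f : Finset V → ZMod 2, LocMin C K f → (W C K f : ℝ) < mu * C.card →
          c * (W C K f : ℝ) ≤ (W C (K + 1) (dl f) : ℝ) := by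
  set β' : ℝ := min β 1 with hβ'
  have hβ'0 : 0 < β' := lt_min hβ one_pos
  have hβ'1 : β' ≤ 1 := min_le_right _ _
  have hβ'β : β' ≤ β := min_le_left _ _
  have hK0 : (0 : ℝ) < K := by exact_mod_cast hK1
  set A : ℝ := 2 ^ (K + M + 4) * ((M : ℝ) + 1) * (K : ℝ) ^ 2 / β' with hA
  have hA0 : 0 < A := by positivity
  obtain ⟨η, θ, hη, hθ, hθK, hrec, hAη⟩ := exists_eta K A hA0
  have hne : (Finset.range K).Nonempty := ⟨0, Finset.mem_range.2 hK1⟩
  set lam : ℝ := (Finset.range K).inf' hne η with hlam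
  have hlam0 : 0 < lam := by
    rw [hlam, Finset.lt_inf'_iff]
    intro s _
    exact hη s
  have hlamη : ∀ s, s < K → lam ≤ η s := fun s hs =>
    Finset.inf'_le _ (Finset.mem_range.2 hs)
  refine ⟨lam, θ 0, β' / 2 ^ (K + 2), hlam0, hθ 0, by positivity, ?_⟩
  intro V _ _ C m hmM hKm hC hexp hmix f hloc hW
  obtain ⟨S, hS⟩ := exists_fat C K η f
  have hempty := empty_not_fat hS hθ hθK hrec hW
  have hmain := main_ineq (d := K - 1) hC hKm (by omega) hβ'0 hβ'1 (linkExp_mono hexp hβ'β) hS hloc hempty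
  have hdeg := wDeg_le (M := M) (d := K - 1) (K := K) hC hlam0.le hmix (by omega) hη hS
  set w : ℝ := (W C K f : ℝ) with hw
  have hw0 : 0 ≤ w := Nat.cast_nonneg _
  have hterm : ∀ s ∈ range K, 2 ^ m * M * (η s + lam) * (s + 1) * (wS C S (s + 1) : ℝ) ≤
      2 ^ (M + 1) * ((M : ℝ) + 1) * K * (w / A) := by
    intro s hs
    rw [mem_range] at hs
    have h1 : (wS C S (s + 1) : ℝ) ≤ w / θ (s + 1) := by
      rw [le_div_iff₀ (hθ _), mul_comm]
      exact fat_bound hS hθ hθK hrec (s + 1) (by omega)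
    have h2 : (2 : ℝ) ^ m ≤ 2 ^ M := pow_le_pow_right₀ (by norm_num) hmM
    have h3 : (s : ℝ) + 1 ≤ K := by exact_mod_cast hs
    have h4 : η s + lam ≤ 2 * η s := by linarith [hlamη s hs]
    have h5 : η s / θ (s + 1) ≤ 1 / A := by
      rw [div_le_div_iff₀ (hθ _) hA0, one_mul, mul_comm]
      exact hAη s hs
    have h0 := hη s
    have h6 := hθ (s + 1)
    calc 2 ^ m * M * (η s + lam) * (s + 1) * (wS C S (s + 1) : ℝ)
        ≤ 2 ^ M * ((M : ℝ) + 1) * (2 * η s) * K * (w / θ (s + 1)) := by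
          gcongr
          linarith
      _ = 2 ^ (M + 1) * ((M : ℝ) + 1) * K * (w * (η s / θ (s + 1))) := by
          rw [pow_succ]; ring
      _ ≤ 2 ^ (M + 1) * ((M : ℝ) + 1) * K * (w * (1 / A)) := by gcongr
      _ = 2 ^ (M + 1) * ((M : ℝ) + 1) * K * (w / A) := by ring
  have hsum : (wDeg C S K : ℝ) ≤ K * (2 ^ (M + 1) * ((M : ℝ) + 1) * K * (w / A)) := by
    refine hdeg.trans ((Finset.sum_le_sum hterm).trans ?_)
    rw [Finset.sum_const, card_range, nsmul_eq_mul]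
  have hval : (2 : ℝ) ^ (K + 1) * (K * (2 ^ (M + 1) * ((M : ℝ) + 1) * K * (w / A))) = β' * w / 4 := by
    rw [hA]
    have hM0 : (0 : ℝ) < (M : ℝ) + 1 := by positivity
    have e : (2 : ℝ) ^ (K + M + 4) = 2 ^ (K + 1) * 2 ^ (M + 1) * 4 := by
      rw [← pow_add, show (4 : ℝ) = 2 ^ 2 by norm_num, ← pow_add]
      congr 1
      ring
    rw [e]
    field_simp
  have h7 : (2 : ℝ) ^ (K + 1) * (wDeg C S K : ℝ) ≤ β' * w / 4 := by
    rw [← hval]
    exact mul_le_mul_of_nonneg_left hsum (by positivity)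
  set w' : ℝ := (W C (K + 1) (dl f) : ℝ) with hw'
  have hw'0 : 0 ≤ w' := Nat.cast_nonneg _
  have h8 : β' * w ≤ β' * w / 4 + 2 ^ (K + 1) * w' := by
    calc β' * w ≤ 2 ^ (K + 1) * ((wDeg C S K : ℝ) + w') := hmain
      _ = 2 ^ (K + 1) * (wDeg C S K : ℝ) + 2 ^ (K + 1) * w' := by ring
      _ ≤ _ := by linarith
  have h9 : 0 ≤ β' * w := by positivity
  rw [div_mul_eq_mul_div, div_le_iff₀ (by positivity)]
  have h10 : (2 : ℝ) ^ (K + 2) = 2 * 2 ^ (K + 1) := by rw [pow_succ]; ring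
  rw [h10]
  have h11 : 0 ≤ (2 : ℝ) ^ (K + 1) * w' := by positivity
  nlinarith

end Crest.Agent.R66
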