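import Crest.Agent.R66.ABasic
import Crest.Prelude.Def_Cochain

/-!
# Row 66, part A: the `d`-skeleton, pieces A_DEG (`skel_deg`) and A_CONN (`skel_conn`).

`skel C d = {σ : |σ| = d+1, wt σ > 0}` (top faces of the `d`-skeleton).

A_DEG (`skel_deg`): `1 ≤ vertexDegree T v ≤ 2^m Δ`: a chamber `c ∋ v` contains a set of size `d+1` containing `v`; every
`τ ∈ T` with `v ∈ τ` is a subset of a chamber containing `v`, at most `2^m` subsets for each of the `≤ Δ` chambers.

A_CONN (`skel_conn`): let `u, v` be vertices, `f σ = 1` if `σ = {x}` with `x` reachable from `u`, else `0`; `dl f {x,y} = f {y} + f {x} = 0`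
for every face `{x,y}` (then `x, y` lie in a common `τ ∈ T`, so are adjacent); `Van` with `s = 1` gives `f {x} = dl h {x} = h ∅`
for all `x` (all `{x}` are faces), so `f {v} = f {u} = 1`.
-/
set_option autoImplicit false

namespace Crest.Agent.R66

open Finset Crest.CombinatoricsR.Cochain

/-- top faces of the `d`-skeleton -/
def skel {n : ℕ} (C : Finset (Finset (Fin n))) (d : ℕ) : Finset (Finset (Fin n)) :=
  (univ.powersetCard (d + 1)).filter fun σ => 0 < wt C σ

private theorem mem_skel_of_subset {n : ℕ} {C : Finset (Finset (Fin n))} {d : ℕ} {c σ : Finset (Fin n)}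
    (hc : c ∈ C) (hσ : σ ⊆ c) (h : σ.card = d + 1) : σ ∈ skel C d := by
  unfold skel
  rw [Finset.mem_filter]
  refine ⟨Finset.mem_powersetCard.2 ⟨Finset.subset_univ _, h⟩, ?_⟩
  exact Finset.card_pos.2 ⟨c, Finset.mem_filter.2 ⟨hc, hσ⟩⟩

theorem skel_deg {n : ℕ} {C : Finset (Finset (Fin n))} {m d Δ : ℕ} (hC : ∀ c ∈ C, c.card = m)
    (hm : d + 1 ≤ m) (v : Fin n) (h1 : 1 ≤ wt C {v}) (h2 : wt C {v} ≤ Δ) :
    1 ≤ vertexDegree (skel C d) v ∧ vertexDegree (skel C d) v ≤ 2 ^ m * Δ := by
  constructor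
  · obtain ⟨c, hc⟩ := Finset.card_pos.1 (show 0 < (C.filter fun c => ({v} : Finset (Fin n)) ⊆ c).card from h1)
    rw [Finset.mem_filter] at hc
    obtain ⟨σ, h3, h4, h5⟩ := Finset.exists_subsuperset_card_eq hc.2
      (show ({v} : Finset (Fin n)).card ≤ d + 1 by rw [Finset.card_singleton]; omega)
      (show d + 1 ≤ c.card by rw [hC c hc.1]; exact hm)
    refine Finset.card_pos.2 ⟨σ, ?_⟩
    rw [Finset.mem_filter]
    refine ⟨mem_skel_of_subset hc.1 h4 h5, ?_⟩
    exact h3 (Finset.mem_singleton_self v)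
  · have hsub : (skel C d).filter (fun τ => v ∈ τ) ⊆
        (C.filter fun c => ({v} : Finset (Fin n)) ⊆ c).biUnion fun c => c.powerset := by
      intro τ hτ
      rw [Finset.mem_filter] at hτ
      obtain ⟨h3, h4⟩ := hτ
      unfold skel at h3
      rw [Finset.mem_filter] at h3
      obtain ⟨c, hc⟩ := Finset.card_pos.1 (show 0 < (C.filter fun c => τ ⊆ c).card from h3.2)
      rw [Finset.mem_filter] at hc
      rw [Finset.mem_biUnion]
      refine ⟨c, ?_, Finset.mem_powerset.2 hc.2⟩
      rw [Finset.mem_filter]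
      exact ⟨hc.1, Finset.singleton_subset_iff.2 (hc.2 h4)⟩
    calc vertexDegree (skel C d) v
        ≤ ((C.filter fun c => ({v} : Finset (Fin n)) ⊆ c).biUnion fun c => c.powerset).card :=
          Finset.card_le_card hsub
      _ ≤ ∑ c ∈ C.filter (fun c => ({v} : Finset (Fin n)) ⊆ c), c.powerset.card :=
          Finset.card_biUnion_le
      _ = ∑ c ∈ C.filter (fun c => ({v} : Finset (Fin n)) ⊆ c), 2 ^ m := by
          refine Finset.sum_congr rfl fun c hc => ?_
          rw [Finset.card_powerset, hC c (Finset.mem_filter.1 hc).1]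
      _ = wt C {v} * 2 ^ m := by
          rw [Finset.sum_const, smul_eq_mul]; rfl
      _ ≤ Δ * 2 ^ m := Nat.mul_le_mul_right _ h2
      _ = 2 ^ m * Δ := Nat.mul_comm _ _

theorem skel_conn {n : ℕ} {C : Finset (Finset (Fin n))} {m d : ℕ} (hC : ∀ c ∈ C, c.card = m)
    (hd : 1 ≤ d) (hm : d + 1 ≤ m) (hn : 0 < n) (h1 : ∀ v, 1 ≤ wt C {v}) (hV : Van C d) :
    (skeleton (skel C d)).Connected := by
  classical
  haveI : Nonempty (Fin n) := ⟨⟨0, hn⟩⟩
  refine SimpleGraph.Connected.mk ?_
  intro u v
  set f : Finset (Fin n) → ZMod 2 := fun σ =>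
    if ∃ x, σ = {x} ∧ (skeleton (skel C d)).Reachable u x then 1 else 0 with hf
  have hf1 : ∀ x, f {x} = if (skeleton (skel C d)).Reachable u x then 1 else 0 := by
    intro x
    have : (∃ y, ({x} : Finset (Fin n)) = {y} ∧ (skeleton (skel C d)).Reachable u y) ↔
        (skeleton (skel C d)).Reachable u x := by
      constructor
      · rintro ⟨y, hy, h⟩
        rw [Finset.singleton_inj] at hy
        rw [hy]; exact h
      · intro h; exact ⟨x, rfl, h⟩
    simp only [hf]
    exact if_congr this rfl rfl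
  obtain ⟨h, hh⟩ := hV 1 le_rfl hd f (by
    intro τ hτ hw
    obtain ⟨x, y, hxy, rfl⟩ := Finset.card_eq_two.1 hτ
    obtain ⟨c, hc⟩ := Finset.card_pos.1 (show 0 < (C.filter fun c => ({x, y} : Finset (Fin n)) ⊆ c).card from hw)
    rw [Finset.mem_filter] at hc
    obtain ⟨σ, h3, h4, h5⟩ := Finset.exists_subsuperset_card_eq hc.2
      (show ({x, y} : Finset (Fin n)).card ≤ d + 1 by rw [hτ]; omega)
      (show d + 1 ≤ c.card by rw [hC c hc.1]; exact hm)
    have hadj : (skeleton (skel C d)).Adj x y := by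
      refine ⟨hxy, σ, mem_skel_of_subset hc.1 h4 h5, h3 (by simp), h3 (by simp)⟩
    have hr : (skeleton (skel C d)).Reachable u x ↔ (skeleton (skel C d)).Reachable u y :=
      ⟨fun h => h.trans hadj.reachable, fun h => h.trans hadj.symm.reachable⟩
    have e1 : ({x, y} : Finset (Fin n)).erase x = {y} := by
      ext z
      simp only [Finset.mem_erase, Finset.mem_insert, Finset.mem_singleton]
      constructor
      · rintro ⟨h1, h2 | h2⟩
        · exact absurd h2 h1
        · exact h2
      · rintro rfl; exact ⟨hxy.symm, Or.inr rfl⟩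
    have e2 : ({x, y} : Finset (Fin n)).erase y = {x} := by
      ext z
      simp only [Finset.mem_erase, Finset.mem_insert, Finset.mem_singleton]
      constructor
      · rintro ⟨h1, h2 | h2⟩
        · exact h2
        · exact absurd h2 h1
      · rintro rfl; exact ⟨hxy, Or.inl rfl⟩
    unfold dl
    rw [Finset.sum_pair hxy, e1, e2, hf1, hf1]
    by_cases hux : (skeleton (skel C d)).Reachable u x
    · rw [if_pos hux, if_pos (hr.1 hux)]; decide
    · rw [if_neg hux, if_neg (fun h => hux (hr.2 h))]; decide)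
  have hdl : ∀ x : Fin n, dl h {x} = h ∅ := by
    intro x
    unfold dl
    rw [Finset.sum_singleton, Finset.erase_singleton]
  have hval : ∀ x : Fin n, f {x} = h ∅ := by
    intro x
    rw [hh {x} (Finset.card_singleton x) (h1 x), hdl]
  have huv : f {v} = f {u} := by rw [hval, hval]
  rw [hf1, hf1, if_pos (SimpleGraph.Reachable.refl u)] at huv
  by_contra hcon
  rw [if_neg hcon] at huv
  exact absurd huv (by decide)

end Crest.Agent.R66
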