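import Crest.Agent.R66.ALoc
import Crest.Agent.R66.AFat
import Crest.Agent.R66.ALadder

/-!
# Row 66, part A, piece A_TERM (`term_ineq`).

`term_ineq` : let `σ` be terminal, `σ ≠ ∅`, `g ρ = 1` if `Ladder S (σ ∪ ρ) σ`, else `0`; `r = K - |σ|`.
 (1) `β * WL σ r g ≤ WL σ (r+1) (dl g)`.  If `r ≥ 1`: `LinkExp` gives `h` with `β WL (g + dl h) ≤ WL (dl g)`, and
     `WL g ≤ WL (g + dl h)` by `link_min` (the support of `g` is in that of `f_σ`: `Ladder S F σ` implies `F ∈ S`,
     and `F = σ ∪ ρ` has size `K`, so `f F ≠ 0` by `IsFat.top`).  If `r = 0`: `WL σ 0 g ≤ wt σ`,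
     `dl g {v} = g ∅ = 1` (`Ladder.base`), `WL σ 1 (dl g) = ∑_{v ∉ σ} wt (σ ∪ {v}) = (m - K) wt σ ≥ wt σ` and `β ≤ 1`.
 (2) if `ρ' ⊆ σᶜ`, `|ρ'| = r+1`, `wt (σ ∪ ρ') > 0`, `τ' = σ ∪ ρ'` is NOT degenerate and `dl g ρ' ≠ 0`, then
     `dl f τ' = dl g ρ' ≠ 0`:
     some `u ∈ ρ'` has `Ladder S (τ'.erase u) σ` (`σ ∪ ρ'.erase u = τ'.erase u`), and by `ladder_key` and
     terminality for EVERY `w ∈ τ'` with `f (τ'.erase w) ≠ 0` (so `τ'.erase w ∈ S`): `w ∉ σ` and
     `Ladder S (τ'.erase w) σ`. So `dl f τ' = ∑_{w ∈ τ'} f (τ'.erase w) = ∑_{w ∈ ρ'} g (ρ'.erase w) = dl g ρ'`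
     (values in `ZMod 2`: nonzero means 1).
 Hence `WL σ (r+1) (dl g) ≤ ∑_{τ ⊇ σ, |τ| = K+1, Deg τ ∨ dl f τ ≠ 0} wt τ`.
-/
set_option autoImplicit false

namespace Crest.Agent.R66

open Finset

variable {V : Type} [Fintype V] [DecidableEq V]

open Classical in
theorem term_ineq {C : Finset (Finset V)} {m d K : ℕ} (hC : ∀ c ∈ C, c.card = m) (hKm : K < m)
    (hKd : K ≤ d + 1) {β : ℝ} (hβ0 : 0 < β) (hβ1 : β ≤ 1) (hexp : LinkExp C d β) {η : ℕ → ℝ}
    {f : Finset V → ZMod 2} {S : Finset (Finset V)} (hS : IsFat C K η f S) (hloc : LocMin C K f)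
    {σ : Finset V} (hσ : Term S σ) (hne : σ.Nonempty) :
    β * (∑ F ∈ S.filter (fun F => F.card = K ∧ Ladder S F σ), (wt C F : ℝ)) ≤
      ∑ τ ∈ (univ.powersetCard (K + 1)).filter (fun τ => (Deg S τ ∨ dl f τ ≠ 0) ∧ σ ⊆ τ),
        (wt C τ : ℝ) := by
  have hσS : σ ∈ S := hσ.1
  have hσK : σ.card ≤ K := hS.card_le σ hσS
  have hwσ : 0 < wt C σ := by
    rcases hσK.lt_or_eq with h | h
    · exact ((hS.low σ h).1 hσS).1
    · exact ((hS.top σ h).1 hσS).1
  set r := K - σ.card with hr
  have hrK : σ.card + r = K := by omega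
  set g : Finset V → ZMod 2 := fun ρ => if Ladder S (σ ∪ ρ) σ then 1 else 0 with hg
  have hgne : ∀ ρ, g ρ ≠ 0 ↔ Ladder S (σ ∪ ρ) σ := by
    intro ρ
    simp only [hg]
    by_cases h : Ladder S (σ ∪ ρ) σ
    · simp [h]
    · simp [h]
  have hz : ∀ a : ZMod 2, a ≠ 0 → a = 1 := by decide
  have hcardU : ∀ ρ : Finset V, Disjoint ρ σ → (σ ∪ ρ).card = σ.card + ρ.card := by
    intro ρ h
    exact card_union_of_disjoint h.symm
  have hgf : ∀ ρ : Finset V, Disjoint ρ σ → ρ.card = K - σ.card → g ρ ≠ 0 → f (σ ∪ ρ) ≠ 0 := by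
    intro ρ hd hc hρ
    have h1 := ladder_top ((hgne ρ).1 hρ)
    exact ((hS.top _ (by rw [hcardU ρ hd]; omega)).1 h1).2
  -- (0)
  have hL : ∑ F ∈ S.filter (fun F => F.card = K ∧ Ladder S F σ), wt C F = WL C σ r g := by
    unfold WL
    refine Finset.sum_nbij' (fun F => F \ σ) (fun ρ => σ ∪ ρ) ?_ ?_ ?_ ?_ ?_
    · intro F hF
      obtain ⟨_, hFK, hFl⟩ := mem_filter.1 hF
      have hsub := ladder_sub hFl
      rw [mem_filter, mem_powersetCard]
      refine ⟨⟨?_, ?_⟩, ?_⟩
      · intro x hx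
        rw [mem_compl]
        exact (mem_sdiff.1 hx).2
      · rw [card_sdiff_of_subset hsub, hFK]
      · rw [hgne, union_sdiff_of_subset hsub]
        exact hFl
    · intro ρ hρ
      obtain ⟨h1, h2⟩ := mem_filter.1 hρ
      obtain ⟨h3, h4⟩ := mem_powersetCard.1 h1
      have hd : Disjoint ρ σ := by
        rw [Finset.disjoint_left]
        intro x hx
        exact mem_compl.1 (h3 hx)
      have h5 := (hgne ρ).1 h2
      rw [mem_filter]
      refine ⟨ladder_top h5, ?_, h5⟩
      rw [hcardU ρ hd, h4, hrK]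
    · intro F hF
      obtain ⟨_, _, hFl⟩ := mem_filter.1 hF
      exact union_sdiff_of_subset (ladder_sub hFl)
    · intro ρ hρ
      obtain ⟨h1, _⟩ := mem_filter.1 hρ
      obtain ⟨h3, _⟩ := mem_powersetCard.1 h1
      have hd : Disjoint σ ρ := by
        rw [Finset.disjoint_right]
        intro x hx
        exact mem_compl.1 (h3 hx)
      exact union_sdiff_cancel_left hd
    · intro F hF
      obtain ⟨_, _, hFl⟩ := mem_filter.1 hF
      rw [union_sdiff_of_subset (ladder_sub hFl)]
  -- (1)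
  have h1 : β * (WL C σ r g : ℝ) ≤ (WL C σ (r + 1) (dl g) : ℝ) := by
    rcases Nat.eq_zero_or_pos r with hr0 | hrpos
    · have hcK : σ.card = K := by omega
      have e1 : WL C σ r g ≤ wt C σ := by
        rw [hr0]
        unfold WL
        rw [powersetCard_zero]
        refine (Finset.sum_le_sum_of_subset (Finset.filter_subset _ _)).trans ?_
        simp
      have e2 : wt C σ ≤ WL C σ (r + 1) (dl g) := by
        rw [hr0, zero_add]
        have e3 : ∑ v ∈ σᶜ, wt C (insert v σ) ≤ WL C σ 1 (dl g) := by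
          unfold WL
          have e4 : ∑ v ∈ σᶜ, wt C (insert v σ) =
              ∑ ρ ∈ σᶜ.image (fun v => ({v} : Finset V)), wt C (σ ∪ ρ) := by
            rw [Finset.sum_image (by intro a _ b _ h; exact singleton_injective h)]
            refine Finset.sum_congr rfl fun v _ => ?_
            rw [insert_eq, union_comm]
          rw [e4]
          refine Finset.sum_le_sum_of_subset ?_
          intro ρ hρ
          obtain ⟨v, hv, rfl⟩ := mem_image.1 hρ
          rw [mem_filter, mem_powersetCard]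
          refine ⟨⟨singleton_subset_iff.2 hv, card_singleton v⟩, ?_⟩
          have : dl g {v} = g ∅ := by
            unfold dl
            rw [sum_singleton]
            congr 1
            simp
          rw [this, hgne, union_empty]
          exact Ladder.base hσS
        rw [sum_insert hC σ] at e3
        refine le_trans ?_ e3
        exact Nat.le_mul_of_pos_left _ (by omega)
      calc β * (WL C σ r g : ℝ) ≤ 1 * (wt C σ : ℝ) := by
            gcongr
        _ = (wt C σ : ℝ) := one_mul _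
        _ ≤ _ := by exact_mod_cast e2
    · obtain ⟨h, hh⟩ := hexp σ hne hwσ r hrpos (by omega) g
      refine le_trans ?_ hh
      have := link_min hloc hne hσK g hgf h
      gcongr
  -- (2)
  have hR : WL C σ (r + 1) (dl g) ≤
      ∑ τ ∈ (univ.powersetCard (K + 1)).filter (fun τ => (Deg S τ ∨ dl f τ ≠ 0) ∧ σ ⊆ τ),
        wt C τ := by
    unfold WL
    rw [← Finset.sum_filter_ne_zero]
    rw [← Finset.sum_image (f := fun τ => wt C τ) (g := fun ρ => σ ∪ ρ)]
    · refine Finset.sum_le_sum_of_subset ?_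
      intro τ hτ
      obtain ⟨ρ, hρ, rfl⟩ := mem_image.1 hτ
      obtain ⟨hρ1, hwρ⟩ := mem_filter.1 hρ
      obtain ⟨hρ2, hdl⟩ := mem_filter.1 hρ1
      obtain ⟨hρ3, hρc⟩ := mem_powersetCard.1 hρ2
      have hd : Disjoint ρ σ := by
        rw [Finset.disjoint_left]
        intro x hx
        exact mem_compl.1 (hρ3 hx)
      have hτc : (σ ∪ ρ).card = K + 1 := by rw [hcardU ρ hd, hρc]; omega
      rw [mem_filter, mem_powersetCard]
      refine ⟨⟨subset_univ _, hτc⟩, ?_, subset_union_left⟩
      by_cases hdeg : Deg S (σ ∪ ρ)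
      · exact Or.inl hdeg
      · right
        have herase : ∀ v ∈ ρ, σ ∪ ρ.erase v = (σ ∪ ρ).erase v := by
          intro v hv
          have hvσ : v ∉ σ := Finset.disjoint_left.1 hd hv
          rw [erase_union_distrib, erase_eq_of_notMem hvσ]
        obtain ⟨u, hu, hgu⟩ : ∃ u ∈ ρ, g (ρ.erase u) ≠ 0 := by
          unfold dl at hdl
          exact Finset.exists_ne_zero_of_sum_ne_zero hdl
        have huτ : u ∈ σ ∪ ρ := mem_union_right _ hu
        have huσ : u ∉ σ := Finset.disjoint_left.1 hd hu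
        have hlu : Ladder S ((σ ∪ ρ).erase u) σ := by
          rw [← herase u hu]; exact (hgne _).1 hgu
        have hwt : ∀ w, 0 < wt C ((σ ∪ ρ).erase w) := fun w =>
          lt_of_lt_of_le (Nat.pos_of_ne_zero hwρ) (wt_anti C (erase_subset w _))
        have hcE : ∀ w ∈ σ ∪ ρ, ((σ ∪ ρ).erase w).card = K := by
          intro w hw
          rw [card_erase_of_mem hw, hτc]; rfl
        have key : ∀ w ∈ σ ∪ ρ, f ((σ ∪ ρ).erase w) ≠ 0 →
            w ∉ σ ∧ Ladder S ((σ ∪ ρ).erase w) σ := by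
          intro w hw hfw
          have hwS : (σ ∪ ρ).erase w ∈ S := (hS.top _ (hcE w hw)).2 ⟨hwt w, hfw⟩
          by_cases huw : u = w
          · subst huw
            exact ⟨huσ, hlu⟩
          · obtain ⟨k1, k2⟩ := ladder_key hdeg huτ hw huw hwS hlu
            have hwσ' : w ∉ σ := fun h => hσ.2 w h (k1 h)
            exact ⟨hwσ', k2 hwσ'⟩
        have hfin : dl f (σ ∪ ρ) = dl g ρ := by
          unfold dl
          rw [Finset.sum_union hd.symm, Finset.sum_eq_zero, zero_add]
          · refine Finset.sum_congr rfl fun w hw => ?_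
            have hwτ : w ∈ σ ∪ ρ := mem_union_right _ hw
            by_cases hfw : f ((σ ∪ ρ).erase w) = 0
            · rw [hfw]
              by_contra hne0
              have h5 : g (ρ.erase w) ≠ 0 := fun h => hne0 h.symm
              have h6 := (hgne _).1 h5
              rw [herase w hw] at h6
              have h7 := ((hS.top _ (hcE w hwτ)).1 (ladder_top h6)).2
              exact h7 hfw
            · obtain ⟨_, h5⟩ := key w hwτ hfw
              rw [← herase w hw] at h5
              rw [hz _ hfw, hz _ ((hgne _).2 h5)]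
          · intro w hw
            by_contra hfw
            exact (key w (mem_union_left _ hw) hfw).1 hw
        rw [hfin]
        exact hdl
    · intro a ha b hb hab
      have ha' := (mem_powersetCard.1 (mem_filter.1 (mem_filter.1 ha).1).1).1
      have hb' := (mem_powersetCard.1 (mem_filter.1 (mem_filter.1 hb).1).1).1
      have hda : Disjoint σ a := by
        rw [Finset.disjoint_right]
        intro x hx
        exact mem_compl.1 (ha' hx)
      have hdb : Disjoint σ b := by
        rw [Finset.disjoint_right]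
        intro x hx
        exact mem_compl.1 (hb' hx)
      have hab' : σ ∪ a = σ ∪ b := hab
      rw [← union_sdiff_cancel_left hda, hab', union_sdiff_cancel_left hdb]
  have hL' : (∑ F ∈ S.filter (fun F => F.card = K ∧ Ladder S F σ), (wt C F : ℝ)) =
      (WL C σ r g : ℝ) := by
    rw [← hL]; push_cast; rfl
  rw [hL']
  refine h1.trans ?_
  exact_mod_cast hR

end Crest.Agent.R66
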