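import Crest.Agent.R66.ADefs

/-!
# Row 66: transport of a complex along a bijection of the vertex sets (helper58)
-/

set_option autoImplicit false
set_option linter.unusedSectionVars false

namespace Crest.Agent.R66

open Finset

section
variable {V V' : Type} [Fintype V] [DecidableEq V] [Fintype V'] [DecidableEq V'] (e : V ≃ V')

/-- transported complex. -/
def trC (C : Finset (Finset V)) : Finset (Finset V') := C.map (Finset.mapEmbedding e.toEmbedding).toEmbedding

theorem mem_trC {C : Finset (Finset V)} {c : Finset V'} :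
    c ∈ trC e C ↔ c.map e.symm.toEmbedding ∈ C := by
  unfold trC
  rw [mem_map]
  constructor
  · rintro ⟨a, ha, rfl⟩
    have : (a.map e.toEmbedding).map e.symm.toEmbedding = a := by
      ext x; simp
    simpa [this] using ha
  · intro h
    refine ⟨_, h, ?_⟩
    ext x; simp

theorem wt_trC (C : Finset (Finset V)) (σ : Finset V') :
    wt (trC e C) σ = wt C (σ.map e.symm.toEmbedding) := by
  unfold wt
  refine Finset.card_bij' (fun c _ => c.map e.symm.toEmbedding) (fun c _ => c.map e.toEmbedding)
    ?_ ?_ ?_ ?_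
  · intro c hc
    rw [mem_filter] at hc ⊢
    exact ⟨(mem_trC e).1 hc.1, Finset.map_subset_map.2 hc.2⟩
  · intro c hc
    rw [mem_filter] at hc ⊢
    refine ⟨(mem_trC e).2 ?_, ?_⟩
    · have : (c.map e.toEmbedding).map e.symm.toEmbedding = c := by
        ext x; simp
      rw [this]; exact hc.1
    · have h1 := Finset.map_subset_map (f := e.toEmbedding).2 hc.2
      have h2 : (σ.map e.symm.toEmbedding).map e.toEmbedding = σ := by
        ext x; simp
      rwa [h2] at h1
  · intro c _
    ext x; simp
  · intro c _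
    ext x; simp

theorem card_trC {C : Finset (Finset V)} {m : ℕ} (h : ∀ c ∈ C, c.card = m) :
    ∀ c ∈ trC e C, c.card = m := by
  intro c hc
  have := h _ ((mem_trC e).1 hc)
  simpa using this

/-- transported cochain. -/
def trf (f : Finset V → ZMod 2) : Finset V' → ZMod 2 := fun σ => f (σ.map e.symm.toEmbedding)

theorem map_symm_erase (σ : Finset V') (v : V') :
    (σ.erase v).map e.symm.toEmbedding = (σ.map e.symm.toEmbedding).erase (e.symm v) := by
  ext x; simp [Equiv.eq_symm_apply, eq_comm]

theorem dl_trf (f : Finset V → ZMod 2) (σ : Finset V') :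
    dl (trf e f) σ = dl f (σ.map e.symm.toEmbedding) := by
  unfold dl trf
  rw [sum_map]
  apply sum_congr rfl
  intro v _
  rw [map_symm_erase]; rfl

theorem dl_trf' (f : Finset V → ZMod 2) : dl (trf e f) = trf e (dl f) := by
  funext σ; exact dl_trf e f σ

theorem trf_trf (f : Finset V' → ZMod 2) : trf e (trf e.symm f) = f := by
  funext σ; unfold trf; congr 1; ext x; simp

theorem trf_add (f g : Finset V → ZMod 2) : trf e (f + g) = trf e f + trf e g := rfl

theorem WL_trC (C : Finset (Finset V)) (σ : Finset V') (r : ℕ) (g : Finset V → ZMod 2) :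
    WL (trC e C) σ r (trf e g) = WL C (σ.map e.symm.toEmbedding) r g := by
  unfold WL
  refine Finset.sum_bij' (fun c _ => c.map e.symm.toEmbedding) (fun c _ => c.map e.toEmbedding)
    ?_ ?_ ?_ ?_ ?_
  · intro c hc
    rw [mem_filter, mem_powersetCard] at hc ⊢
    refine ⟨⟨?_, by simpa using hc.1.2⟩, hc.2⟩
    intro x hx
    rw [mem_map] at hx
    obtain ⟨y, hy, rfl⟩ := hx
    have := hc.1.1 hy
    rw [mem_compl] at this ⊢
    simpa using this
  · intro c hc
    rw [mem_filter, mem_powersetCard] at hc ⊢
    have h2 : (c.map e.toEmbedding).map e.symm.toEmbedding = c := by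
      ext x; simp
    refine ⟨⟨?_, by simpa using hc.1.2⟩, ?_⟩
    · intro x hx
      rw [mem_map] at hx
      obtain ⟨y, hy, rfl⟩ := hx
      have := hc.1.1 hy
      rw [mem_compl] at this ⊢
      intro h3
      apply this
      rw [mem_map]
      exact ⟨_, h3, by simp⟩
    · unfold trf
      rw [h2]; exact hc.2
  · intro c _
    ext x; simp
  · intro c _
    ext x; simp
  · intro c _
    rw [wt_trC, Finset.map_union]

theorem acone_trC {C : Finset (Finset V)} {d : ℕ} {C1 eps : ℝ} (h : ACone C d C1 eps) :
    ACone (trC e C) d C1 eps := by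
  intro σ hσ hw r hr hc g
  rw [wt_trC] at hw
  obtain ⟨k, hk⟩ := h (σ.map e.symm.toEmbedding) (by simpa using hσ) hw r hr (by simpa using hc)
    (trf e.symm g)
  refine ⟨trf e k, ?_⟩
  have h1 : g + dl (trf e k) = trf e (trf e.symm g + dl k) := by
    rw [trf_add, trf_trf, dl_trf']
  have h2 : dl g = trf e (dl (trf e.symm g)) := by
    rw [← dl_trf', trf_trf]
  rw [h1, h2, WL_trC, WL_trC, wt_trC]
  exact hk

theorem mix_trC {C : Finset (Finset V)} {m d : ℕ} {lam : ℝ} (h : Mix C m d lam) :
    Mix (trC e C) m d lam := by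
  intro ρ hρ hw B hB
  rw [wt_trC] at hw
  have h0 := h (ρ.map e.symm.toEmbedding) (by simpa using hρ) hw (B.map e.symm.toEmbedding)
    (by rw [Finset.disjoint_map]; exact hB)
  have h1 : ∀ u v : V', wt (trC e C) (insert u (insert v ρ)) =
      wt C (insert (e.symm u) (insert (e.symm v) (ρ.map e.symm.toEmbedding))) := by
    intro u v
    rw [wt_trC, Finset.map_insert, Finset.map_insert]; rfl
  have h2 : ∀ v : V', wt (trC e C) (insert v ρ) =
      wt C (insert (e.symm v) (ρ.map e.symm.toEmbedding)) := by
    intro v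
    rw [wt_trC, Finset.map_insert]; rfl
  rw [sum_map, sum_map] at h0
  have h3 : ∀ u ∈ B, ∑ v ∈ (B.map e.symm.toEmbedding).erase (e.symm.toEmbedding u),
      (wt C (insert (e.symm.toEmbedding u) (insert v (ρ.map e.symm.toEmbedding))) : ℝ) =
      ∑ v ∈ B.erase u, (wt (trC e C) (insert u (insert v ρ)) : ℝ) := by
    intro u _
    have : (B.map e.symm.toEmbedding).erase (e.symm.toEmbedding u) =
        (B.erase u).map e.symm.toEmbedding := (map_symm_erase e B u).symm
    rw [this, sum_map]
    apply sum_congr rfl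
    intro v _
    rw [h1]; rfl
  rw [sum_congr rfl h3] at h0
  have h4 : ∑ v ∈ B, (wt C (insert (e.symm.toEmbedding v) (ρ.map e.symm.toEmbedding)) : ℝ) =
      ∑ v ∈ B, (wt (trC e C) (insert v ρ) : ℝ) := by
    apply sum_congr rfl
    intro v _
    rw [h2]; rfl
  rw [h4] at h0
  rw [wt_trC e C ρ]
  exact h0

theorem van_trC {C : Finset (Finset V)} {d : ℕ} (h : Van C d) : Van (trC e C) d := by
  intro s hs hsd f hf
  obtain ⟨k, hk⟩ := h s hs hsd (trf e.symm f) (by
    intro τ hτ hw
    have h1 : τ = (τ.map e.toEmbedding).map e.symm.toEmbedding := by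
      ext x; simp
    have h2 := hf (τ.map e.toEmbedding) (by simpa using hτ) (by rw [wt_trC, ← h1]; exact hw)
    rw [dl_trf]
    exact h2)
  refine ⟨trf e k, fun σ hσ hw => ?_⟩
  rw [wt_trC] at hw
  have h1 := hk (σ.map e.symm.toEmbedding) (by simpa using hσ) hw
  rw [dl_trf, ← h1]
  unfold trf
  congr 1
  ext x; simp

end

end Crest.Agent.R66
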