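import Crest.Agent.R66.AFinal
import Crest.Agent.R66.Transport

/-!
# Row 66: assembly, general vertex types (helper58)
-/

set_option autoImplicit false

namespace Crest.Agent.R66

open Finset Crest.CombinatoricsR.Cochain

/-- `reduction` for arbitrary finite vertex types. -/
theorem assemble (d : ℕ) (hd : 1 ≤ d)
    (H : ∃ m : ℕ, d + 2 ≤ m ∧ ∃ C1 : ℝ, ∀ lam : ℝ, 0 < lam → ∀ eps : ℝ, 0 < eps →
      ∃ Δ : ℕ, ∀ N : ℕ, ∃ (V : Type) (_ : Fintype V) (_ : DecidableEq V)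
        (C : Finset (Finset V)), N ≤ Fintype.card V ∧
        (∀ c ∈ C, c.card = m) ∧ (∀ v, 1 ≤ wt C {v} ∧ wt C {v} ≤ Δ) ∧
        ACone C d C1 eps ∧ Mix C m d lam ∧ Van C d) :
    ∃ D : ℕ, ∃ ε : ℝ, 0 < ε ∧ ∀ N : ℕ, ∃ n : ℕ, ∃ T : Finset (Finset (Fin n)), N ≤ n ∧
      (∀ τ ∈ T, τ.card = d + 1) ∧
      (∀ v : Fin n, 1 ≤ vertexDegree T v ∧ vertexDegree T v ≤ D) ∧
      (skeleton T).Connected ∧
      ∀ i : ℕ, i < d → ∀ f : Finset (Fin n) → ZMod 2,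
        ∃ b : Finset (Fin n) → ZMod 2, IsCoboundaryClass i b ∧
          ε * cochainNorm d T i (f - b) ≤ cochainNorm d T (i + 1) (coboundary i f) := by
  apply reduction d hd
  obtain ⟨m, hm, C1, H⟩ := H
  refine ⟨m, hm, C1, fun lam hlam eps heps => ?_⟩
  obtain ⟨Δ, H⟩ := H lam hlam eps heps
  refine ⟨Δ, fun N => ?_⟩
  obtain ⟨V, _, _, C, hN, hC, hwt, hA, hM, hV⟩ := H (N + 1)
  refine ⟨Fintype.card V, by omega, by omega, trC (Fintype.equivFin V) C,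
    card_trC _ hC, ?_, acone_trC _ hA, mix_trC _ hM, van_trC _ hV⟩
  intro v
  rw [wt_trC]
  simpa using hwt ((Fintype.equivFin V).symm v)

end Crest.Agent.R66
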