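import Crest.Agent.R66.BDefs

/-!
# Row 66, part (B): the averaging lemma (helper12)

`D` is a typed complex, `c ω ρ` random chains (`ω : Ω` uniform), with enough symmetries.
-/
set_option autoImplicit false

namespace Crest.Agent.R66.B

open Finset Crest.Agent.R66

section
variable {V : Type} [Fintype V] [DecidableEq V] {I : Type} [DecidableEq I]

/-- symmetry of the cone data. -/
structure IsSym (D : Finset (Finset V)) (typ : V → I) {Ω : Type}
    (c : Ω → Finset V → Multiset (Finset V)) (good : Ω → Finset V → Prop)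
    (a : Equiv.Perm V) (b : Equiv.Perm Ω) : Prop where
  mem : ∀ e : Finset V, e.image a ∈ D ↔ e ∈ D
  typ_eq : ∀ v, typ (a v) = typ v
  c_eq : ∀ ω ρ, c (b ω) (ρ.image a) = (c ω ρ).map (fun t => t.image a)
  good_iff : ∀ ω ρ, good (b ω) (ρ.image a) ↔ good ω ρ

/-- cone data in size `r`, for the faces without vertices of type `κ`. -/
structure Cone (D : Finset (Finset V)) (typ : V → I) (κ : I) {Ω : Type} (r L : ℕ)
    (c : Ω → Finset V → Multiset (Finset V)) (good : Ω → Finset V → Prop) : Prop where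
  sym : ∀ σ τ : Finset V, 0 < wt D σ → 0 < wt D τ → σ.image typ = τ.image typ →
    ∃ (a : Equiv.Perm V) (b : Equiv.Perm Ω), IsSym D typ c good a b ∧ σ.image a = τ
  len : ∀ ω ρ, ρ.card = r → 0 < wt D ρ → (∀ v ∈ ρ, typ v ≠ κ) → good ω ρ → (c ω ρ).card ≤ L
  face : ∀ ω ρ, ρ.card = r → 0 < wt D ρ → (∀ v ∈ ρ, typ v ≠ κ) → good ω ρ →
    ∀ t ∈ c ω ρ, t.card = r + 1 ∧ 0 < wt D t
  bd : ∀ ω ρ, ρ.card = r → 0 < wt D ρ → (∀ v ∈ ρ, typ v ≠ κ) → good ω ρ →
    ∀ f : Finset V → ZMod 2,
      ((c ω ρ).map (dl f)).sum = f ρ + ∑ v ∈ ρ, ((c ω (ρ.erase v)).map f).sum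

/-- faces of the same type have the same weight. -/
theorem wt_eq_of_sym {D : Finset (Finset V)} {typ : V → I} {κ : I} {Ω : Type} {r L : ℕ}
    {c : Ω → Finset V → Multiset (Finset V)} {good : Ω → Finset V → Prop}
    (K : Cone D typ κ r L c good) (σ τ : Finset V) (h1 : 0 < wt D σ) (h2 : 0 < wt D τ)
    (h : σ.image typ = τ.image typ) : wt D σ = wt D τ := by
  obtain ⟨a, b, hs, hστ⟩ := K.sym σ τ h1 h2 h
  unfold wt
  refine Finset.card_bij' (fun e _ => e.image a) (fun e _ => e.image a.symm) ?_ ?_ ?_ ?_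
  · intro e he
    rw [mem_filter] at he ⊢
    refine ⟨(hs.mem e).2 he.1, ?_⟩
    rw [← hστ]
    exact image_subset_image he.2
  · intro e he
    rw [mem_filter] at he ⊢
    have h3 : (e.image a.symm).image a = e := by
      rw [image_image]
      simp
    refine ⟨(hs.mem _).1 (by rw [h3]; exact he.1), ?_⟩
    have h4 : σ = τ.image a.symm := by
      rw [← hστ, image_image]
      simp
    rw [h4]
    exact image_subset_image he.2
  · intro e he
    show (e.image a).image a.symm = e
    rw [image_image]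
    simp
  · intro e he
    show (e.image a.symm).image a = e
    rw [image_image]
    simp

/-- the total weight of the faces of type `T`. -/
theorem wt_mul_card {D : Finset (Finset V)} {typ : V → I} {J : Finset I} (hT : Typed D typ J)
    (T : Finset I) (hTJ : T ⊆ J) :
    ∑ σ ∈ univ.filter (fun σ : Finset V => 0 < wt D σ ∧ σ.image typ = T), wt D σ = D.card := by
  have e1 : ∀ σ : Finset V, wt D σ = ∑ e ∈ D, if σ ⊆ e then 1 else 0 := by
    intro σ
    unfold wt
    rw [card_filter]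
  have e2 : ∑ σ ∈ univ.filter (fun σ : Finset V => 0 < wt D σ ∧ σ.image typ = T), wt D σ =
      ∑ σ ∈ univ.filter (fun σ : Finset V => σ.image typ = T), wt D σ := by
    apply sum_subset
    · intro σ hσ
      rw [mem_filter] at hσ ⊢
      exact ⟨hσ.1, hσ.2.2⟩
    · intro σ hσ hσ'
      rw [mem_filter] at hσ hσ'
      by_contra hne
      exact hσ' ⟨hσ.1, Nat.pos_of_ne_zero hne, hσ.2⟩
  rw [e2, sum_congr rfl (fun σ _ => e1 σ), sum_comm, card_eq_sum_ones]
  apply sum_congr rfl
  intro e he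
  rw [← card_filter]
  rw [card_eq_one]
  refine ⟨e.filter (fun v => typ v ∈ T), ?_⟩
  ext σ
  rw [mem_filter, mem_filter, mem_singleton]
  constructor
  · rintro ⟨⟨_, h1⟩, h2⟩
    ext v
    rw [mem_filter]
    constructor
    · intro hv
      refine ⟨h2 hv, ?_⟩
      rw [← h1]
      exact mem_image_of_mem typ hv
    · rintro ⟨hv, hvT⟩
      rw [← h1] at hvT
      obtain ⟨w, hw, hwv⟩ := mem_image.1 hvT
      have := hT.inj e he w (h2 hw) v hv hwv
      rw [← this]
      exact hw
  · intro h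
    subst h
    refine ⟨⟨mem_univ _, ?_⟩, filter_subset _ _⟩
    ext i
    rw [mem_image]
    constructor
    · rintro ⟨v, hv, rfl⟩
      exact (mem_filter.1 hv).2
    · intro hi
      have h3 : i ∈ e.image typ := by
        rw [hT.im e he]
        exact hTJ hi
      obtain ⟨v, hv, hvi⟩ := mem_image.1 h3
      exact ⟨v, mem_filter.2 ⟨hv, by rw [hvi]; exact hi⟩, hvi⟩

namespace AvgAux

theorem exists_chamber {D : Finset (Finset V)} {σ : Finset V} (h : 0 < wt D σ) :
    ∃ e ∈ D, σ ⊆ e := by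
  obtain ⟨e, he⟩ := card_pos.1 h
  exact ⟨e, (mem_filter.1 he).1, (mem_filter.1 he).2⟩

theorem typ_injOn {D : Finset (Finset V)} {typ : V → I} {J : Finset I} (hT : Typed D typ J)
    {σ : Finset V} (h : 0 < wt D σ) : Set.InjOn typ σ := by
  obtain ⟨e, he, hσ⟩ := exists_chamber h
  intro v hv w hw hvw
  exact hT.inj e he v (hσ hv) w (hσ hw) hvw

theorem typ_sub {D : Finset (Finset V)} {typ : V → I} {J : Finset I} (hT : Typed D typ J)
    {σ : Finset V} (h : 0 < wt D σ) : σ.image typ ⊆ J := by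
  obtain ⟨e, he, hσ⟩ := exists_chamber h
  rw [← hT.im e he]
  exact image_subset_image hσ

theorem card_typ {D : Finset (Finset V)} {typ : V → I} {J : Finset I} (hT : Typed D typ J)
    {σ : Finset V} (h : 0 < wt D σ) : (σ.image typ).card = σ.card :=
  card_image_of_injOn (typ_injOn hT h)

theorem image_image_symm (a : Equiv.Perm V) (σ : Finset V) : (σ.image a).image a.symm = σ := by
  rw [image_image]; simp

theorem image_symm_image (a : Equiv.Perm V) (σ : Finset V) : (σ.image a.symm).image a = σ := by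
  rw [image_image]; simp

theorem wt_image {D : Finset (Finset V)} {typ : V → I} {Ω : Type}
    {c : Ω → Finset V → Multiset (Finset V)} {good : Ω → Finset V → Prop}
    {a : Equiv.Perm V} {b : Equiv.Perm Ω} (h : IsSym D typ c good a b) (σ : Finset V) :
    wt D (σ.image a) = wt D σ := by
  unfold wt
  refine card_nbij' (fun e => e.image a.symm) (fun e => e.image a) ?_ ?_ ?_ ?_
  · intro e he
    rw [mem_coe, mem_filter] at he ⊢
    refine ⟨?_, ?_⟩
    · rw [← h.mem, image_symm_image]; exact he.1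
    · have := image_subset_image (f := a.symm) he.2
      rwa [image_image_symm] at this
  · intro e he
    rw [mem_coe, mem_filter] at he ⊢
    exact ⟨(h.mem e).2 he.1, image_subset_image he.2⟩
  · intro e _; exact image_symm_image a e
  · intro e _; exact image_image_symm a e

theorem typ_image {D : Finset (Finset V)} {typ : V → I} {Ω : Type}
    {c : Ω → Finset V → Multiset (Finset V)} {good : Ω → Finset V → Prop}
    {a : Equiv.Perm V} {b : Equiv.Perm Ω} (h : IsSym D typ c good a b) (σ : Finset V) :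
    (σ.image a).image typ = σ.image typ := by
  rw [image_image]
  apply image_congr
  intro v _
  exact h.typ_eq v

open scoped Classical in
/-- number of times `t` occurs in the good chains of type `S` -/
noncomputable def NN (D : Finset (Finset V)) (typ : V → I) {Ω : Type} [Fintype Ω]
    (c : Ω → Finset V → Multiset (Finset V)) (good : Ω → Finset V → Prop) (S : Finset I)
    (t : Finset V) : ℕ :=
  ∑ ω : Ω, ∑ ρ ∈ univ.filter (fun ρ : Finset V => 0 < wt D ρ ∧ ρ.image typ = S ∧ good ω ρ),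
    (c ω ρ).count t

theorem NN_image {D : Finset (Finset V)} {typ : V → I} {Ω : Type} [Fintype Ω]
    {c : Ω → Finset V → Multiset (Finset V)} {good : Ω → Finset V → Prop}
    {a : Equiv.Perm V} {b : Equiv.Perm Ω} (h : IsSym D typ c good a b) (S : Finset I)
    (t : Finset V) : NN D typ c good S (t.image a) = NN D typ c good S t := by
  classical
  unfold NN
  rw [← Equiv.sum_comp b]
  refine sum_congr rfl fun ω _ => ?_
  refine sum_nbij' (fun ρ => ρ.image a.symm) (fun ρ => ρ.image a) ?_ ?_ ?_ ?_ ?_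
  · intro ρ hρ
    rw [mem_filter] at hρ ⊢
    obtain ⟨-, h1, h2, h3⟩ := hρ
    have e := image_symm_image a ρ
    rw [← e] at h1 h2 h3
    rw [wt_image h] at h1
    rw [typ_image h] at h2
    rw [h.good_iff] at h3
    exact ⟨mem_univ _, h1, h2, h3⟩
  · intro ρ hρ
    rw [mem_filter] at hρ ⊢
    obtain ⟨-, h1, h2, h3⟩ := hρ
    refine ⟨mem_univ _, ?_, ?_, ?_⟩
    · rw [wt_image h]; exact h1
    · rw [typ_image h]; exact h2
    · rw [h.good_iff]; exact h3
  · intro ρ _; exact image_symm_image a ρ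
  · intro ρ _; exact image_image_symm a ρ
  · intro ρ _
    conv_lhs => rw [← image_symm_image a ρ, h.c_eq]
    exact Multiset.count_map_eq_count' _ _ (image_injective a.injective) _

theorem card_filter_eq (m : Multiset (Finset V)) (p : Finset V → Prop) [DecidablePred p] :
    (m.filter p).card = ∑ t ∈ univ.filter p, m.count t := by
  rw [← Multiset.sum_count_eq_card (s := univ.filter p) (m := m.filter p)]
  · refine sum_congr rfl fun t ht => ?_
    exact Multiset.count_filter_of_pos (mem_filter.1 ht).2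
  · intro t ht
    rw [Multiset.mem_filter] at ht
    exact mem_filter.2 ⟨mem_univ _, ht.2⟩

theorem card_eq_count (m : Multiset (Finset V)) : m.card = ∑ t : Finset V, m.count t :=
  (Multiset.sum_count_eq_card (s := univ) (m := m) fun _ _ => mem_univ _).symm

open scoped Classical in
/-- the key estimate for one face `t` -/
theorem key {D : Finset (Finset V)} {typ : V → I} {J : Finset I} (hT : Typed D typ J)
    {κ : I} {Ω : Type} [Fintype Ω] {r L : ℕ}
    {c : Ω → Finset V → Multiset (Finset V)} {good : Ω → Finset V → Prop}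
    (K : Cone D typ κ r L c good) (S : Finset I) (hS : κ ∉ S) (hSr : S.card = r)
    (t : Finset V) (ht : 0 < wt D t) :
    ∑ ω : Ω, ∑ ρ ∈ univ.filter (fun ρ : Finset V => 0 < wt D ρ ∧ ρ.image typ = S ∧ good ω ρ),
      wt D ρ * (c ω ρ).count t ≤ L * Fintype.card Ω * wt D t := by
  by_cases hne : ∃ ρ0 : Finset V, 0 < wt D ρ0 ∧ ρ0.image typ = S
  · obtain ⟨ρ0, h0, h0S⟩ := hne
    have hSJ : S ⊆ J := by rw [← h0S]; exact typ_sub hT h0
    set FS := univ.filter (fun σ : Finset V => 0 < wt D σ ∧ σ.image typ = S) with hFS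
    set FT := univ.filter (fun σ : Finset V => 0 < wt D σ ∧ σ.image typ = t.image typ) with hFT
    have hwS : ∀ ρ : Finset V, 0 < wt D ρ → ρ.image typ = S → wt D ρ = wt D ρ0 := by
      intro ρ h1 h2
      exact wt_eq_of_sym K ρ ρ0 h1 h0 (by rw [h2, h0S])
    have e1 : ∑ ω : Ω, ∑ ρ ∈ univ.filter (fun ρ : Finset V => 0 < wt D ρ ∧ ρ.image typ = S ∧ good ω ρ),
        wt D ρ * (c ω ρ).count t = wt D ρ0 * NN D typ c good S t := by
      unfold NN
      rw [mul_sum]
      refine sum_congr rfl fun ω _ => ?_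
      rw [mul_sum]
      refine sum_congr rfl fun ρ hρ => ?_
      obtain ⟨-, h1, h2, -⟩ := mem_filter.1 hρ
      rw [hwS ρ h1 h2]
    rw [e1]
    -- `w_S n_S = |D|`
    have e2 : FS.card * wt D ρ0 = D.card := by
      rw [← wt_mul_card hT S hSJ, ← smul_eq_mul, ← sum_const]
      refine sum_congr rfl fun ρ hρ => ?_
      obtain ⟨-, h1, h2⟩ := mem_filter.1 hρ
      exact (hwS ρ h1 h2).symm
    have e3 : FT.card * wt D t = D.card := by
      rw [← wt_mul_card hT (t.image typ) (typ_sub hT ht), ← smul_eq_mul, ← sum_const]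
      refine sum_congr rfl fun ρ hρ => ?_
      obtain ⟨-, h1, h2⟩ := mem_filter.1 hρ
      exact (wt_eq_of_sym K ρ t h1 ht h2).symm
    have e4 : FT.card * NN D typ c good S t ≤ L * Fintype.card Ω * FS.card := by
      calc FT.card * NN D typ c good S t = ∑ t' ∈ FT, NN D typ c good S t' := by
            rw [← smul_eq_mul, ← sum_const]
            refine sum_congr rfl fun t' ht' => ?_
            obtain ⟨-, h1, h2⟩ := mem_filter.1 ht'
            obtain ⟨a, b, hab, hat⟩ := K.sym t' t h1 ht h2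
            rw [← hat, NN_image hab]
        _ ≤ ∑ t' : Finset V, NN D typ c good S t' := sum_le_sum_of_subset (subset_univ _)
        _ = ∑ ω : Ω, ∑ ρ ∈ univ.filter (fun ρ : Finset V => 0 < wt D ρ ∧ ρ.image typ = S ∧ good ω ρ),
            (c ω ρ).card := by
            unfold NN
            rw [sum_comm]
            refine sum_congr rfl fun ω _ => ?_
            rw [sum_comm]
            refine sum_congr rfl fun ρ _ => ?_
            rw [← card_eq_count]
        _ ≤ ∑ ω : Ω, FS.card * L := by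
            refine sum_le_sum fun ω _ => ?_
            calc _ ≤ ∑ ρ ∈ univ.filter (fun ρ : Finset V => 0 < wt D ρ ∧ ρ.image typ = S ∧ good ω ρ), L := by
                  refine sum_le_sum fun ρ hρ => ?_
                  obtain ⟨-, h1, h2, h3⟩ := mem_filter.1 hρ
                  refine K.len ω ρ ?_ h1 ?_ h3
                  · rw [← card_typ hT h1, h2, hSr]
                  · intro v hv hvκ
                    apply hS
                    rw [← h2, ← hvκ]
                    exact mem_image_of_mem typ hv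
              _ ≤ FS.card * L := by
                  rw [sum_const, smul_eq_mul]
                  apply Nat.mul_le_mul_right
                  apply card_le_card
                  intro ρ hρ
                  obtain ⟨-, h1, h2, -⟩ := mem_filter.1 hρ
                  exact mem_filter.2 ⟨mem_univ _, h1, h2⟩
        _ = L * Fintype.card Ω * FS.card := by
            rw [sum_const, smul_eq_mul, card_univ]; ring
    have hFTpos : 0 < FT.card := card_pos.2 ⟨t, mem_filter.2 ⟨mem_univ _, ht, rfl⟩⟩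
    refine Nat.le_of_mul_le_mul_left (c := FT.card) ?_ hFTpos
    calc FT.card * (wt D ρ0 * NN D typ c good S t) = (FT.card * NN D typ c good S t) * wt D ρ0 := by ring
      _ ≤ (L * Fintype.card Ω * FS.card) * wt D ρ0 := Nat.mul_le_mul_right _ e4
      _ = L * Fintype.card Ω * (FS.card * wt D ρ0) := by ring
      _ = FT.card * (L * Fintype.card Ω * wt D t) := by rw [e2, ← e3]; ring
  · rw [sum_eq_zero]
    · exact Nat.zero_le _
    · intro ω _
      rw [filter_false_of_mem, sum_empty]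
      intro ρ _ h
      exact hne ⟨ρ, h.1, h.2.1⟩

end AvgAux

open scoped Classical in
/-- double counting for one type `S`. -/
theorem count_le {D : Finset (Finset V)} {typ : V → I} {J : Finset I} (hT : Typed D typ J)
    {κ : I} {Ω : Type} [Fintype Ω] {r L : ℕ}
    {c : Ω → Finset V → Multiset (Finset V)} {good : Ω → Finset V → Prop}
    (K : Cone D typ κ r L c good) (S : Finset I) (hS : κ ∉ S) (hSr : S.card = r)
    (f : Finset V → ZMod 2) :
    ∑ ω : Ω, ∑ ρ ∈ univ.filter (fun ρ : Finset V => 0 < wt D ρ ∧ ρ.image typ = S ∧ good ω ρ),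
      wt D ρ * ((c ω ρ).filter (fun t => f t ≠ 0)).card ≤ L * Fintype.card Ω * W D (r + 1) f := by
  have e1 : ∑ ω : Ω, ∑ ρ ∈ univ.filter (fun ρ : Finset V => 0 < wt D ρ ∧ ρ.image typ = S ∧ good ω ρ),
      wt D ρ * ((c ω ρ).filter (fun t => f t ≠ 0)).card =
      ∑ t ∈ univ.filter (fun t : Finset V => f t ≠ 0), ∑ ω : Ω,
        ∑ ρ ∈ univ.filter (fun ρ : Finset V => 0 < wt D ρ ∧ ρ.image typ = S ∧ good ω ρ),
          wt D ρ * (c ω ρ).count t := by
    rw [sum_comm]
    refine sum_congr rfl fun ω _ => ?_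
    rw [sum_comm]
    refine sum_congr rfl fun ρ _ => ?_
    rw [← mul_sum, AvgAux.card_filter_eq]
  rw [e1]
  unfold W
  rw [mul_sum]
  have e2 : ∀ t : Finset V, ¬ (0 < wt D t ∧ t.card = r + 1) → ∑ ω : Ω,
        ∑ ρ ∈ univ.filter (fun ρ : Finset V => 0 < wt D ρ ∧ ρ.image typ = S ∧ good ω ρ),
          wt D ρ * (c ω ρ).count t = 0 := by
    intro t ht
    refine sum_eq_zero fun ω _ => sum_eq_zero fun ρ hρ => ?_
    obtain ⟨-, h1, h2, h3⟩ := mem_filter.1 hρ
    rw [Multiset.count_eq_zero_of_notMem, mul_zero]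
    intro htc
    apply ht
    have := K.face ω ρ (by rw [← AvgAux.card_typ hT h1, h2, hSr]) h1 (by
      intro v hv hvκ
      apply hS
      rw [← h2, ← hvκ]
      exact mem_image_of_mem typ hv) h3 t htc
    exact ⟨this.2, this.1⟩
  rw [← sum_subset (s₁ := ((univ : Finset V).powersetCard (r + 1)).filter (fun t => f t ≠ 0))
    (s₂ := univ.filter (fun t : Finset V => f t ≠ 0))]
  · refine sum_le_sum fun t _ => ?_
    by_cases h : 0 < wt D t
    · exact AvgAux.key hT K S hS hSr t h
    · rw [e2 t (fun h' => h h'.1)]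
      exact Nat.zero_le _
  · intro t ht
    exact mem_filter.2 ⟨mem_univ _, (mem_filter.1 ht).2⟩
  · intro t ht ht'
    apply e2
    intro h
    apply ht'
    exact mem_filter.2 ⟨mem_powersetCard.2 ⟨subset_univ _, h.2⟩, (mem_filter.1 ht).2⟩

open scoped Classical in
/-- the averaging lemma. `bad` pairs have proportion at most `δ`. -/
theorem avg_cone {D : Finset (Finset V)} {typ : V → I} {J : Finset I} (hT : Typed D typ J)
    {κ : I} {Ω : Type} [Fintype Ω] [Nonempty Ω] {r L : ℕ}
    {c : Ω → Finset V → Multiset (Finset V)} {good : Ω → Finset V → Prop}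
    (K : Cone D typ κ r L c good) (δ : ℝ) (hδ : 0 ≤ δ)
    (hbad : ∀ ρ : Finset V, ρ.card = r → 0 < wt D ρ → (∀ v ∈ ρ, typ v ≠ κ) →
      (((univ : Finset Ω).filter fun ω => ¬ good ω ρ).card : ℝ) ≤ δ * Fintype.card Ω) :
    AK D typ κ ∅ r (L * 2 ^ J.card) (δ * 2 ^ J.card) := by
  intro g
  obtain ⟨h, hh⟩ : ∃ h : Ω → Finset V → ZMod 2, ∀ ω ρ, h ω ρ = ((c ω ρ).map g).sum :=
    ⟨fun ω ρ => ((c ω ρ).map g).sum, fun _ _ => rfl⟩
  -- pointwise
  have key : ∀ ω ρ, ρ.card = r → 0 < wt D ρ → (∀ v ∈ ρ, typ v ≠ κ) → good ω ρ →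
      (g + dl (h ω)) ρ ≠ 0 → 1 ≤ ((c ω ρ).filter (fun t => dl g t ≠ 0)).card := by
    intro ω ρ h1 h2 h3 h4 h5
    have hb := K.bd ω ρ h1 h2 h3 h4 g
    have e : g ρ + ∑ v ∈ ρ, ((c ω (ρ.erase v)).map g).sum = (g + dl (h ω)) ρ := by
      simp only [Pi.add_apply, dl, hh]
    rw [e] at hb
    by_contra hc
    have hc0 : ((c ω ρ).filter (fun t => dl g t ≠ 0)).card = 0 := by omega
    rw [Multiset.card_eq_zero, Multiset.filter_eq_nil] at hc0
    apply h5
    rw [← hb]
    apply Multiset.sum_eq_zero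
    intro x hx
    obtain ⟨t, ht, rfl⟩ := Multiset.mem_map.1 hx
    exact not_not.1 (hc0 t ht)
  -- the faces
  obtain ⟨Fs, hFs⟩ : ∃ Fs : Finset (Finset V), ∀ ρ, ρ ∈ Fs ↔
      (ρ.card = r ∧ 0 < wt D ρ ∧ ∀ v ∈ ρ, typ v ≠ κ) :=
    ⟨univ.filter (fun ρ => ρ.card = r ∧ 0 < wt D ρ ∧ ∀ v ∈ ρ, typ v ≠ κ), fun ρ => by simp⟩
  have hcardJ : ∀ e ∈ D, e.card = J.card := by
    intro e he
    rw [← hT.im e he, Finset.card_image_of_injOn]
    intro v hv w hw hvw
    exact hT.inj e he v hv w hw hvw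
  have htype : ∀ ρ ∈ Fs, ρ.image typ ∈ J.powerset.filter (fun S => κ ∉ S ∧ S.card = r) := by
    intro ρ hρ
    obtain ⟨h1, h2, h3⟩ := (hFs ρ).1 hρ
    have : (D.filter fun e => ρ ⊆ e).Nonempty := Finset.card_pos.1 h2
    obtain ⟨e, he⟩ := this
    obtain ⟨heD, hρe⟩ := Finset.mem_filter.1 he
    rw [Finset.mem_filter, Finset.mem_powerset]
    refine ⟨?_, ?_, ?_⟩
    · rw [← hT.im e heD]
      exact Finset.image_subset_image hρe
    · intro hκ
      obtain ⟨v, hv, hvκ⟩ := Finset.mem_image.1 hκ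
      exact h3 v hv hvκ
    · rw [Finset.card_image_of_injOn, h1]
      intro v hv w hw hvw
      exact hT.inj e heD v (hρe hv) w (hρe hw) hvw
  have hWLk : ∀ ω, WLk D typ κ ∅ r (g + dl (h ω)) ≤
      ∑ ρ ∈ Fs.filter (fun ρ => good ω ρ), wt D ρ * ((c ω ρ).filter (fun t => dl g t ≠ 0)).card +
      ∑ ρ ∈ Fs.filter (fun ρ => ¬ good ω ρ), wt D ρ := by
    intro ω
    have e1 : WLk D typ κ ∅ r (g + dl (h ω)) ≤
        ∑ ρ ∈ Fs, if (g + dl (h ω)) ρ ≠ 0 then wt D ρ else 0 := by
      unfold WLk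
      rw [← Finset.sum_filter]
      have : ∀ ρ ∈ ((∅ : Finset V)ᶜ.powersetCard r).filter
          (fun ρ => (g + dl (h ω)) ρ ≠ 0 ∧ ∀ v ∈ ρ, typ v ≠ κ),
          ρ ∉ Fs.filter (fun ρ => (g + dl (h ω)) ρ ≠ 0) → wt D (∅ ∪ ρ) = 0 := by
        intro ρ hρ hn
        rw [Finset.mem_filter, Finset.mem_powersetCard] at hρ
        rw [Finset.mem_filter, not_and] at hn
        by_contra h0
        rw [Finset.empty_union] at h0
        exact hn ((hFs ρ).2 ⟨hρ.1.2, Nat.pos_of_ne_zero h0, hρ.2.2⟩) hρ.2.1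
      have e2 : ∑ ρ ∈ ((∅ : Finset V)ᶜ.powersetCard r).filter
          (fun ρ => (g + dl (h ω)) ρ ≠ 0 ∧ ∀ v ∈ ρ, typ v ≠ κ), wt D (∅ ∪ ρ) =
          ∑ ρ ∈ (((∅ : Finset V)ᶜ.powersetCard r).filter
          (fun ρ => (g + dl (h ω)) ρ ≠ 0 ∧ ∀ v ∈ ρ, typ v ≠ κ)).filter
            (fun ρ => ρ ∈ Fs.filter (fun ρ => (g + dl (h ω)) ρ ≠ 0)), wt D (∅ ∪ ρ) := by
        refine (Finset.sum_filter_of_ne ?_).symm
        intro ρ hρ hne
        by_contra hn
        exact hne (this ρ hρ hn)
      rw [e2]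
      calc _ ≤ ∑ ρ ∈ Fs.filter (fun ρ => (g + dl (h ω)) ρ ≠ 0), wt D (∅ ∪ ρ) := by
            apply Finset.sum_le_sum_of_subset
            intro ρ hρ
            exact (Finset.mem_filter.1 hρ).2
        _ = _ := by
            refine Finset.sum_congr rfl fun ρ _ => ?_
            rw [Finset.empty_union]
    refine e1.trans ?_
    rw [← Finset.sum_filter_add_sum_filter_not Fs (fun ρ => good ω ρ)]
    apply Nat.add_le_add
    · apply Finset.sum_le_sum
      intro ρ hρ
      obtain ⟨hρ1, hρ2⟩ := Finset.mem_filter.1 hρ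
      obtain ⟨h1, h2, h3⟩ := (hFs ρ).1 hρ1
      split_ifs with h5
      · exact Nat.le_mul_of_pos_right _ (key ω ρ h1 h2 h3 hρ2 h5)
      · exact Nat.zero_le _
    · apply Finset.sum_le_sum
      intro ρ hρ
      split_ifs
      · exact le_refl _
      · exact Nat.zero_le _
  -- first sum
  have hgood : ∑ ω : Ω, ∑ ρ ∈ Fs.filter (fun ρ => good ω ρ),
      wt D ρ * ((c ω ρ).filter (fun t => dl g t ≠ 0)).card ≤
      2 ^ J.card * (L * Fintype.card Ω * W D (r + 1) (dl g)) := by
    have e1 : ∀ ω : Ω, ∑ ρ ∈ Fs.filter (fun ρ => good ω ρ),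
        wt D ρ * ((c ω ρ).filter (fun t => dl g t ≠ 0)).card ≤
        ∑ S ∈ J.powerset.filter (fun S => κ ∉ S ∧ S.card = r),
          ∑ ρ ∈ univ.filter (fun ρ : Finset V => 0 < wt D ρ ∧ ρ.image typ = S ∧ good ω ρ),
            wt D ρ * ((c ω ρ).filter (fun t => dl g t ≠ 0)).card := by
      intro ω
      rw [← Finset.sum_fiberwise_of_maps_to (s := Fs.filter (fun ρ => good ω ρ))
        (t := J.powerset.filter (fun S => κ ∉ S ∧ S.card = r)) (g := fun ρ => ρ.image typ)
        (fun ρ hρ => htype ρ (Finset.mem_filter.1 hρ).1)]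
      apply Finset.sum_le_sum
      intro S hS
      apply Finset.sum_le_sum_of_subset
      intro ρ hρ
      rw [Finset.mem_filter, Finset.mem_filter] at hρ
      obtain ⟨⟨hρ1, hρ2⟩, hρ3⟩ := hρ
      obtain ⟨h1, h2, h3⟩ := (hFs ρ).1 hρ1
      simp only [Finset.mem_filter, Finset.mem_univ, true_and]
      exact ⟨h2, hρ3, hρ2⟩
    calc _ ≤ ∑ ω : Ω, ∑ S ∈ J.powerset.filter (fun S => κ ∉ S ∧ S.card = r),
          ∑ ρ ∈ univ.filter (fun ρ : Finset V => 0 < wt D ρ ∧ ρ.image typ = S ∧ good ω ρ),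
            wt D ρ * ((c ω ρ).filter (fun t => dl g t ≠ 0)).card :=
          Finset.sum_le_sum fun ω _ => e1 ω
      _ = ∑ S ∈ J.powerset.filter (fun S => κ ∉ S ∧ S.card = r), ∑ ω : Ω,
          ∑ ρ ∈ univ.filter (fun ρ : Finset V => 0 < wt D ρ ∧ ρ.image typ = S ∧ good ω ρ),
            wt D ρ * ((c ω ρ).filter (fun t => dl g t ≠ 0)).card := Finset.sum_comm
      _ ≤ ∑ S ∈ J.powerset.filter (fun S => κ ∉ S ∧ S.card = r),
          L * Fintype.card Ω * W D (r + 1) (dl g) := by
          apply Finset.sum_le_sum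
          intro S hS
          obtain ⟨_, h1, h2⟩ := Finset.mem_filter.1 hS
          exact count_le hT K S h1 h2 (dl g)
      _ = (J.powerset.filter (fun S => κ ∉ S ∧ S.card = r)).card *
          (L * Fintype.card Ω * W D (r + 1) (dl g)) := by
          rw [Finset.sum_const, smul_eq_mul]
      _ ≤ _ := by
          apply Nat.mul_le_mul_right
          rw [← Finset.card_powerset]
          exact Finset.card_filter_le _ _
  -- total weight
  have htot : ∑ ρ ∈ Fs, wt D ρ ≤ 2 ^ J.card * D.card := by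
    unfold wt
    simp only [Finset.card_filter]
    rw [Finset.sum_comm]
    calc _ ≤ ∑ e ∈ D, 2 ^ J.card := by
          apply Finset.sum_le_sum
          intro e he
          rw [← Finset.card_filter, ← hcardJ e he, ← Finset.card_powerset]
          apply Finset.card_le_card
          intro ρ hρ
          exact Finset.mem_powerset.2 (Finset.mem_filter.1 hρ).2
      _ = _ := by rw [Finset.sum_const, smul_eq_mul, mul_comm]
  have hbadsum : ∑ ω : Ω, (∑ ρ ∈ Fs.filter (fun ρ => ¬ good ω ρ), (wt D ρ : ℝ)) ≤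
      δ * Fintype.card Ω * (2 ^ J.card * D.card) := by
    have e1 : ∑ ω : Ω, (∑ ρ ∈ Fs.filter (fun ρ => ¬ good ω ρ), (wt D ρ : ℝ)) =
        ∑ ρ ∈ Fs, (wt D ρ : ℝ) * (((univ : Finset Ω).filter fun ω => ¬ good ω ρ).card : ℝ) := by
      simp only [Finset.sum_filter]
      rw [Finset.sum_comm]
      refine Finset.sum_congr rfl fun ρ _ => ?_
      rw [← Finset.sum_filter, Finset.sum_const, nsmul_eq_mul, mul_comm]
    rw [e1]
    calc _ ≤ ∑ ρ ∈ Fs, (wt D ρ : ℝ) * (δ * Fintype.card Ω) := by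
          apply Finset.sum_le_sum
          intro ρ hρ
          obtain ⟨h1, h2, h3⟩ := (hFs ρ).1 hρ
          exact mul_le_mul_of_nonneg_left (hbad ρ h1 h2 h3) (Nat.cast_nonneg _)
      _ = δ * Fintype.card Ω * ((∑ ρ ∈ Fs, wt D ρ : ℕ) : ℝ) := by
          rw [← Finset.sum_mul]; push_cast; ring
      _ ≤ _ := by
          apply mul_le_mul_of_nonneg_left _ (by positivity)
          exact_mod_cast htot
  have hWL : WL D ∅ (r + 1) (dl g) = W D (r + 1) (dl g) := by
    unfold WL W
    rw [Finset.compl_empty]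
    refine Finset.sum_congr rfl fun ρ _ => ?_
    rw [Finset.empty_union]
  have hwt : wt D ∅ = D.card := by
    unfold wt
    rw [Finset.filter_true_of_mem]
    intro e _
    exact Finset.empty_subset _
  have hall : ∑ ω : Ω, (WLk D typ κ ∅ r (g + dl (h ω)) : ℝ) ≤ ∑ _ω : Ω,
      ((L * 2 ^ J.card : ℝ) * (WL D ∅ (r + 1) (dl g) : ℝ) + δ * 2 ^ J.card * (wt D ∅ : ℝ)) := by
    rw [hWL, hwt]
    calc ∑ ω : Ω, (WLk D typ κ ∅ r (g + dl (h ω)) : ℝ) ≤
        ∑ ω : Ω, (((∑ ρ ∈ Fs.filter (fun ρ => good ω ρ),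
          wt D ρ * ((c ω ρ).filter (fun t => dl g t ≠ 0)).card : ℕ) : ℝ) +
          ∑ ρ ∈ Fs.filter (fun ρ => ¬ good ω ρ), (wt D ρ : ℝ)) := by
          apply Finset.sum_le_sum
          intro ω _
          exact_mod_cast hWLk ω
      _ = ((∑ ω : Ω, ∑ ρ ∈ Fs.filter (fun ρ => good ω ρ),
          wt D ρ * ((c ω ρ).filter (fun t => dl g t ≠ 0)).card : ℕ) : ℝ) +
          ∑ ω : Ω, ∑ ρ ∈ Fs.filter (fun ρ => ¬ good ω ρ), (wt D ρ : ℝ) := by
          rw [Finset.sum_add_distrib, Nat.cast_sum]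
      _ ≤ ((2 ^ J.card * (L * Fintype.card Ω * W D (r + 1) (dl g)) : ℕ) : ℝ) +
          δ * Fintype.card Ω * (2 ^ J.card * D.card) := by
          apply add_le_add _ hbadsum
          exact_mod_cast hgood
      _ = _ := by
          rw [Finset.sum_const, Finset.card_univ, nsmul_eq_mul]
          push_cast
          ring
  obtain ⟨ω, -, hω⟩ := Finset.exists_le_of_sum_le (Finset.univ_nonempty) hall
  exact ⟨h ω, hω⟩

end

end Crest.Agent.R66.B
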