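import Crest.Agent.R66.ADefs

/-!
# Row 66, part (B): definitions (helper12)

Goal: `ACone C d C1 eps` for every complex `C` whose vertex links are isomorphic to the complex
`Yc F m` of flags of subspaces of `F ^ m` opposite to the standard flag.
-/
set_option autoImplicit false

namespace Crest.Agent.R66.B

open Finset Crest.Agent.R66

section
variable {V : Type} [Fintype V] [DecidableEq V]

/-- approximate coboundary expansion in the link of `σ`, size `r`. -/
def AC (C : Finset (Finset V)) (σ : Finset V) (r : ℕ) (C1 e : ℝ) : Prop :=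
  ∀ g : Finset V → ZMod 2, ∃ h : Finset V → ZMod 2,
    (WL C σ r (g + dl h) : ℝ) ≤ C1 * (WL C σ (r + 1) (dl g) : ℝ) + e * (wt C σ : ℝ)

/-- weight in the link of `σ` of the size `r` part of `g`, only faces without vertices of type `κ`. -/
def WLk {I : Type} [DecidableEq I] (C : Finset (Finset V)) (typ : V → I) (κ : I) (σ : Finset V)
    (r : ℕ) (g : Finset V → ZMod 2) : ℕ :=
  ∑ ρ ∈ (σᶜ.powersetCard r).filter (fun ρ => g ρ ≠ 0 ∧ ∀ v ∈ ρ, typ v ≠ κ), wt C (σ ∪ ρ)

/-- as `AC`, but only faces without vertices of type `κ` are counted on the left. -/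
def AK {I : Type} [DecidableEq I] (C : Finset (Finset V)) (typ : V → I) (κ : I) (σ : Finset V)
    (r : ℕ) (C1 e : ℝ) : Prop :=
  ∀ g : Finset V → ZMod 2, ∃ h : Finset V → ZMod 2,
    (WLk C typ κ σ r (g + dl h) : ℝ) ≤ C1 * (WL C σ (r + 1) (dl g) : ℝ) + e * (wt C σ : ℝ)

/-- `typ` is a type function: all chambers have the type set `J`, every type exactly once. -/
structure Typed {I : Type} [DecidableEq I] (C : Finset (Finset V)) (typ : V → I) (J : Finset I) :
    Prop where
  im : ∀ e ∈ C, e.image typ = J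
  inj : ∀ e ∈ C, ∀ v ∈ e, ∀ w ∈ e, typ v = typ w → v = w

/-- isomorphism of complexes. -/
def CIso {V' : Type} [DecidableEq V'] (C : Finset (Finset V)) (C' : Finset (Finset V')) : Prop :=
  ∃ θ : V → V', (∀ e ∈ C, ∀ e' ∈ C, ∀ v ∈ e, ∀ w ∈ e', θ v = θ w → v = w) ∧
    C.image (fun e => e.image θ) = C'

end

end Crest.Agent.R66.B
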