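import Crest.Agent.R66.BDefs

/-!
# Row 66, part (B): linear algebra of subspaces opposite to the standard flag (helper12)

`E = F ^ m`, `fl j` = vectors supported on the coordinates `< j` (dimension `j`),
`st i` = vectors supported on the last `i` coordinates (dimension `i`).
`W` is opposite (`Opp W`) if `W ⊓ fl (m - dim W) = ⊥`.
-/
set_option autoImplicit false

namespace Crest.Agent.R66.B

open Finset Crest.Agent.R66 Module

section
variable (F : Type) [Field F] (m : ℕ)

/-- the standard flag. -/
def fl (j : ℕ) : Submodule F (Fin m → F) where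
  carrier := {v | ∀ i : Fin m, j ≤ (i : ℕ) → v i = 0}
  add_mem' := by
    intro a b ha hb i hi
    simp only [Set.mem_setOf_eq] at ha hb
    simp [ha i hi, hb i hi]
  zero_mem' := by intro i hi; rfl
  smul_mem' := by
    intro c x hx i hi
    simp only [Set.mem_setOf_eq] at hx
    simp [hx i hi]

/-- the standard opposite flag. -/
def st (i : ℕ) : Submodule F (Fin m → F) where
  carrier := {v | ∀ j : Fin m, (j : ℕ) + i < m → v j = 0}
  add_mem' := by
    intro a b ha hb i hi
    simp only [Set.mem_setOf_eq] at ha hb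
    simp [ha i hi, hb i hi]
  zero_mem' := by intro i hi; rfl
  smul_mem' := by
    intro c x hx i hi
    simp only [Set.mem_setOf_eq] at hx
    simp [hx i hi]

variable {F m}

/-- opposite subspace. -/
def Opp (W : Submodule F (Fin m → F)) : Prop := W ⊓ fl F m (m - finrank F W) = ⊥

/-- vertices of the opposite flag complex. -/
def IsVert (W : Submodule F (Fin m → F)) : Prop := Opp W ∧ W ≠ ⊥ ∧ W ≠ ⊤

/-- unipotent automorphisms (with respect to the standard flag). -/
def Uni (u : (Fin m → F) ≃ₗ[F] (Fin m → F)) : Prop :=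
  ∀ j : ℕ, ∀ v : Fin m → F, v ∈ fl F m (j + 1) → u v - v ∈ fl F m j

theorem finrank_fl (j : ℕ) (hj : j ≤ m) : finrank F (fl F m j) = j := by
  classical
  let e : fl F m j ≃ₗ[F] (Fin j → F) :=
    { toFun := fun v i => v.1 (Fin.castLE hj i)
      map_add' := fun a b => by ext i; rfl
      map_smul' := fun c a => by ext i; rfl
      invFun := fun w => ⟨fun i => if h : (i : ℕ) < j then w ⟨i, h⟩ else 0, by
        intro i hi
        exact dif_neg (by omega)⟩
      left_inv := fun v => by
        apply Subtype.ext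
        funext i
        by_cases h : (i : ℕ) < j
        · simp only [dif_pos h]; rfl
        · simp only [dif_neg h]
          exact (v.2 i (by omega)).symm
      right_inv := fun w => by
        funext i
        simp }
  rw [e.finrank_eq, Module.finrank_fin_fun]

theorem finrank_st (i : ℕ) (hi : i ≤ m) : finrank F (st F m i) = i := by
  classical
  let e : st F m i ≃ₗ[F] (Fin i → F) :=
    { toFun := fun v k => v.1 ⟨m - i + k, by omega⟩
      map_add' := fun a b => by ext k; rfl
      map_smul' := fun c a => by ext k; rfl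
      invFun := fun w => ⟨fun p => if h : m - i ≤ (p : ℕ) then w ⟨p - (m - i), by omega⟩ else 0, by
        intro p hp
        exact dif_neg (by omega)⟩
      left_inv := fun v => by
        apply Subtype.ext
        funext p
        by_cases h : m - i ≤ (p : ℕ)
        · simp only [dif_pos h]
          refine congrArg v.1 (Fin.ext ?_)
          show m - i + ((p : ℕ) - (m - i)) = (p : ℕ)
          omega
        · simp only [dif_neg h]
          exact (v.2 p (by omega)).symm
      right_inv := fun w => by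
        funext k
        simp }
  rw [e.finrank_eq, Module.finrank_fin_fun]

theorem fl_mono {i j : ℕ} (h : i ≤ j) : fl F m i ≤ fl F m j :=
  fun _ hv p hp => hv p (h.trans hp)

theorem st_mono {i j : ℕ} (h : i ≤ j) : st F m i ≤ st F m j :=
  fun _ hv p hp => hv p (by omega)

theorem st_inf_fl (i : ℕ) (hi : i ≤ m) : st F m i ⊓ fl F m (m - i) = ⊥ := by
  rw [eq_bot_iff]
  rintro v ⟨h1, h2⟩
  rw [Submodule.mem_bot]
  funext p
  by_cases hp : (p : ℕ) + i < m
  · exact h1 p hp
  · exact h2 p (by omega)

theorem opp_st (i : ℕ) (hi : i ≤ m) : Opp (st F m i) := by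
  unfold Opp
  rw [finrank_st i hi]
  exact st_inf_fl i hi

/-- an opposite subspace and the complementary member of the standard flag span everything. -/
theorem opp_sup {W : Submodule F (Fin m → F)} (h : Opp W) (j : ℕ) (hj : m ≤ j + finrank F W) :
    W ⊔ fl F m j = ⊤ := by
  have ha : finrank F W ≤ m := by
    have := Submodule.finrank_le W
    rwa [Module.finrank_fin_fun] at this
  have h1 : W ⊔ fl F m (m - finrank F W) = ⊤ := by
    apply Submodule.eq_top_of_finrank_eq
    have h2 := Submodule.finrank_sup_add_finrank_inf_eq W (fl F m (m - finrank F W))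
    unfold Opp at h
    rw [h, finrank_bot, finrank_fl _ (Nat.sub_le _ _)] at h2
    rw [Module.finrank_fin_fun]
    omega
  rw [eq_top_iff, ← h1]
  exact sup_le_sup_left (fl_mono (by omega)) W

theorem opp_inf {W : Submodule F (Fin m → F)} (h : Opp W) (j : ℕ) (hj : j + finrank F W ≤ m) :
    W ⊓ fl F m j = ⊥ := by
  unfold Opp at h
  rw [eq_bot_iff, ← h]
  exact inf_le_inf_left W (fl_mono (by omega))

private theorem uni_fl_aux {u : (Fin m → F) ≃ₗ[F] (Fin m → F)} (hu : Uni u) (j : ℕ) :
    (fl F m j).map (u : (Fin m → F) →ₗ[F] (Fin m → F)) = fl F m j := by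
  have hle : (fl F m j).map (u : (Fin m → F) →ₗ[F] (Fin m → F)) ≤ fl F m j := by
    rintro _ ⟨x, hx, rfl⟩
    cases j with
    | zero =>
      have : x = 0 := by
        funext p
        exact hx p (Nat.zero_le _)
      rw [this, map_zero]
      exact Submodule.zero_mem _
    | succ j =>
      have h1 := Submodule.add_mem _ (fl_mono (Nat.le_succ j) (hu j x hx)) hx
      rwa [sub_add_cancel] at h1
  exact Submodule.eq_of_le_of_finrank_eq hle (LinearEquiv.finrank_map_eq u _)

theorem uni_refl : Uni (LinearEquiv.refl F (Fin m → F)) := by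
  intro j v _
  simp

theorem uni_trans {u v : (Fin m → F) ≃ₗ[F] (Fin m → F)} (hu : Uni u) (hv : Uni v) :
    Uni (u.trans v) := by
  intro j x hx
  have h1 := hu j x hx
  have h2 : u x ∈ fl F m (j + 1) := by
    have := Submodule.add_mem _ (fl_mono (Nat.le_succ j) h1) hx
    rwa [sub_add_cancel] at this
  have h3 := Submodule.add_mem _ (hv j (u x) h2) h1
  rw [sub_add_sub_cancel] at h3
  exact h3

theorem uni_symm {u : (Fin m → F) ≃ₗ[F] (Fin m → F)} (hu : Uni u) : Uni u.symm := by
  intro j y hy
  have h1 : y ∈ (fl F m (j + 1)).map (u : (Fin m → F) →ₗ[F] (Fin m → F)) := by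
    rw [uni_fl_aux hu]; exact hy
  obtain ⟨x, hx, rfl⟩ := h1
  have h2 := hu j x hx
  have h3 : u.symm (u x) - u x ∈ fl F m j := by
    rw [LinearEquiv.symm_apply_apply, ← neg_sub]
    exact Submodule.neg_mem _ h2
  exact h3

theorem uni_fl {u : (Fin m → F) ≃ₗ[F] (Fin m → F)} (hu : Uni u) (j : ℕ) :
    (fl F m j).map (u : (Fin m → F) →ₗ[F] (Fin m → F)) = fl F m j := uni_fl_aux hu j

/-- a unipotent automorphism preserves the leading coordinate of vectors in `fl (j + 1)`. -/
theorem uni_coord {u : (Fin m → F) ≃ₗ[F] (Fin m → F)} (hu : Uni u) (j : Fin m) (v : Fin m → F)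
    (hv : v ∈ fl F m (j + 1)) : u v j = v j := by
  have h := hu j v hv j le_rfl
  rw [Pi.sub_apply] at h
  exact sub_eq_zero.mp h

theorem opp_map {u : (Fin m → F) ≃ₗ[F] (Fin m → F)} (hu : Uni u)
    (W : Submodule F (Fin m → F)) :
    Opp (W.map (u : (Fin m → F) →ₗ[F] (Fin m → F))) ↔ Opp W := by
  have hinj : Function.Injective (u : (Fin m → F) →ₗ[F] (Fin m → F)) := u.injective
  unfold Opp
  rw [LinearEquiv.finrank_map_eq u W]
  conv_lhs => rw [← uni_fl_aux hu (m - finrank F W), ← Submodule.map_inf _ hinj]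
  constructor
  · intro h
    have := Submodule.map_injective_of_injective hinj (h.trans (Submodule.map_bot _).symm)
    exact this
  · intro h
    rw [h, Submodule.map_bot]

theorem isVert_map {u : (Fin m → F) ≃ₗ[F] (Fin m → F)} (hu : Uni u)
    (W : Submodule F (Fin m → F)) :
    IsVert (W.map (u : (Fin m → F) →ₗ[F] (Fin m → F))) ↔ IsVert W := by
  have hinj : Function.Injective (u : (Fin m → F) →ₗ[F] (Fin m → F)) := u.injective
  have htop : (⊤ : Submodule F (Fin m → F)).map (u : (Fin m → F) →ₗ[F] (Fin m → F)) = ⊤ := by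
    rw [Submodule.map_top, LinearEquiv.range]
  unfold IsVert
  rw [opp_map hu]
  have h1 : W.map (u : (Fin m → F) →ₗ[F] (Fin m → F)) = ⊥ ↔ W = ⊥ :=
    ⟨fun h => Submodule.map_injective_of_injective hinj (h.trans (Submodule.map_bot _).symm),
      fun h => by rw [h, Submodule.map_bot]⟩
  have h2 : W.map (u : (Fin m → F) →ₗ[F] (Fin m → F)) = ⊤ ↔ W = ⊤ :=
    ⟨fun h => Submodule.map_injective_of_injective hinj (h.trans htop.symm),
      fun h => by rw [h, htop]⟩
  rw [Ne, Ne, h1, h2]

/-- adapted vectors. -/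
theorem exists_adapted (ρ : Finset (Submodule F (Fin m → F)))
    (hc : IsChain (· ≤ ·) (ρ : Set (Submodule F (Fin m → F)))) (ho : ∀ W ∈ ρ, Opp W)
    (p : Fin m) :
    ∃ w : Fin m → F, (∀ W ∈ ρ, m ≤ p + finrank F W → w ∈ W) ∧ w - Pi.single p 1 ∈ fl F m p := by
  classical
  by_cases hne : (ρ.filter (fun W : Submodule F (Fin m → F) => m ≤ p + finrank F W)).Nonempty
  · obtain ⟨W0, hW0, hmin⟩ := Finset.exists_min_image _
      (fun W : Submodule F (Fin m → F) => finrank F W) hne
    rw [Finset.mem_filter] at hW0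
    have hle : ∀ W ∈ ρ, m ≤ p + finrank F W → W0 ≤ W := by
      intro W hW hWm
      rcases hc.total (Finset.mem_coe.2 hW0.1) (Finset.mem_coe.2 hW) with h | h
      · exact h
      · exact le_of_eq (Submodule.eq_of_le_of_finrank_le h
          (hmin W (Finset.mem_filter.2 ⟨hW, hWm⟩))).symm
    have htop := opp_sup (ho W0 hW0.1) p hW0.2
    have hmem : (Pi.single p 1 : Fin m → F) ∈ W0 ⊔ fl F m p := by
      rw [htop]
      exact Submodule.mem_top
    obtain ⟨w, hw, f, hf, hwf⟩ := Submodule.mem_sup.1 hmem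
    refine ⟨w, fun W hW hWm => hle W hW hWm hw, ?_⟩
    have : w - Pi.single p 1 = -f := by
      rw [← hwf]
      abel
    rw [this]
    exact (fl F m p).neg_mem hf
  · refine ⟨Pi.single p 1, ?_, ?_⟩
    · intro W hW hWm
      exact absurd ⟨W, Finset.mem_filter.2 ⟨hW, hWm⟩⟩ hne
    · rw [sub_self]
      exact (fl F m p).zero_mem

/-- a linear map sending `e_p` to `e_p +` lower terms is a unipotent automorphism. -/
theorem exists_uni_of_basis (w : Fin m → (Fin m → F))
    (hw : ∀ p : Fin m, w p - Pi.single p 1 ∈ fl F m p) :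
    ∃ u : (Fin m → F) ≃ₗ[F] (Fin m → F), Uni u ∧ ∀ p, u (Pi.single p 1) = w p := by
  classical
  set T : (Fin m → F) →ₗ[F] (Fin m → F) := (Pi.basisFun F (Fin m)).constr F w with hT
  have hT1 : ∀ v, T v = ∑ i, v i • w i := by
    intro v
    rw [hT, Module.Basis.constr_apply_fintype]
    simp
  have hv : ∀ v : Fin m → F, v = ∑ i, v i • (Pi.single i 1 : Fin m → F) := by
    intro v
    funext k
    simp [Finset.sum_apply, Pi.single_apply]
  have hsub : ∀ (j : ℕ) (v : Fin m → F), v ∈ fl F m (j + 1) → T v - v ∈ fl F m j := by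
    intro j v hvj
    have e : T v - v = ∑ i, v i • (w i - (Pi.single i 1 : Fin m → F)) := by
      rw [hT1]
      conv_lhs => rw [hv v]
      simp only [smul_sub, Finset.sum_sub_distrib]
      congr 1
      apply Finset.sum_congr rfl
      intro i _
      congr 1
      simp [Finset.sum_apply, Pi.single_apply]
    rw [e]
    apply Submodule.sum_mem
    intro i _
    by_cases hi : (i : ℕ) ≤ j
    · exact Submodule.smul_mem _ _ (fl_mono hi (hw i))
    · have : v i = 0 := hvj i (by omega)
      rw [this, zero_smul]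
      exact Submodule.zero_mem _
  have hinj : Function.Injective T := by
    rw [← LinearMap.ker_eq_bot, LinearMap.ker_eq_bot']
    intro v hv0
    have hall : ∀ k : ℕ, v ∈ fl F m (m - k) := by
      intro k
      induction k with
      | zero => intro i hi; exact absurd i.2 (by omega)
      | succ k ih =>
        by_cases hk : m - k = 0
        · have : m - (k + 1) = m - k := by omega
          rw [this]
          exact ih
        · have e1 : m - k = m - (k + 1) + 1 := by omega
          rw [e1] at ih
          have := hsub _ v ih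
          rw [hv0, zero_sub] at this
          exact neg_mem_iff.1 this
    have h0 := hall m
    rw [Nat.sub_self] at h0
    funext i
    exact h0 i (Nat.zero_le _)
  refine ⟨LinearEquiv.ofInjectiveEndo T hinj, ?_, ?_⟩
  · intro j v hvj
    exact hsub j v hvj
  · intro p
    have : T (Pi.single p 1) = w p := by
      rw [hT1]
      simp [Pi.single_apply, ite_smul]
    exact this

/-- a chain of opposite subspaces is the image of standard ones under a unipotent `u`. -/
theorem exists_uni (ρ : Finset (Submodule F (Fin m → F)))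
    (hc : IsChain (· ≤ ·) (ρ : Set (Submodule F (Fin m → F)))) (ho : ∀ W ∈ ρ, Opp W) :
    ∃ u : (Fin m → F) ≃ₗ[F] (Fin m → F), Uni u ∧
      ∀ W ∈ ρ, (st F m (finrank F W)).map (u : (Fin m → F) →ₗ[F] (Fin m → F)) = W := by
  classical
  choose w hw1 hw2 using fun p => exists_adapted ρ hc ho p
  obtain ⟨u, hu, huw⟩ := exists_uni_of_basis w hw2
  refine ⟨u, hu, ?_⟩
  intro W hW
  have hdim : finrank F W ≤ m := by
    have := Submodule.finrank_le W
    rwa [Module.finrank_fin_fun] at this
  apply Submodule.eq_of_le_of_finrank_eq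
  · rintro x ⟨v, hv, rfl⟩
    have hvs : v = ∑ i, v i • (Pi.single i 1 : Fin m → F) := by
      funext k
      simp [Finset.sum_apply, Pi.single_apply]
    have e : (u : (Fin m → F) →ₗ[F] (Fin m → F)) v = ∑ i, v i • w i := by
      conv_lhs => rw [hvs]
      rw [map_sum]
      apply Finset.sum_congr rfl
      intro i _
      rw [map_smul]
      congr 1
      exact huw i
    rw [e]
    apply Submodule.sum_mem
    intro i _
    by_cases hi : (i : ℕ) + finrank F W < m
    · have : v i = 0 := hv i hi
      rw [this, zero_smul]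
      exact Submodule.zero_mem _
    · exact Submodule.smul_mem _ _ (hw1 i W hW (by omega))
  · rw [LinearEquiv.finrank_map_eq, finrank_st _ hdim]

/-- criterion for `W ⊔ span x` to be opposite. -/
theorem opp_sup_span {W : Submodule F (Fin m → F)} (h : Opp W) (x : Fin m → F)
    (hW : finrank F W < m) (hx : x ∉ W ⊔ fl F m (m - finrank F W - 1)) :
    Opp (W ⊔ Submodule.span F {x}) ∧
      finrank F (W ⊔ Submodule.span F {x} : Submodule F (Fin m → F)) = finrank F W + 1 := by
  have hxW : x ∉ W := fun h' => hx (Submodule.mem_sup_left h')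
  have hx0 : x ≠ 0 := fun h' => hxW (h' ▸ W.zero_mem)
  have hinf : W ⊓ Submodule.span F {x} = ⊥ := by
    rw [Submodule.eq_bot_iff]
    rintro v ⟨hv1, hv2⟩
    obtain ⟨c, rfl⟩ := Submodule.mem_span_singleton.1 hv2
    by_cases hc : c = 0
    · simp [hc]
    · exact absurd ((Submodule.smul_mem_iff W hc).1 hv1) hxW
  have hfr : finrank F (W ⊔ Submodule.span F {x} : Submodule F (Fin m → F)) = finrank F W + 1 := by
    have h1 := Submodule.finrank_sup_add_finrank_inf_eq W (Submodule.span F {x})
    rw [hinf, finrank_bot, finrank_span_singleton hx0] at h1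
    omega
  refine ⟨?_, hfr⟩
  unfold Opp
  rw [hfr, Submodule.eq_bot_iff]
  rintro v ⟨hv1, hv2⟩
  obtain ⟨w0, hw0, z, hz, rfl⟩ := Submodule.mem_sup.1 hv1
  obtain ⟨c, rfl⟩ := Submodule.mem_span_singleton.1 hz
  by_cases hc : c = 0
  · subst hc
    simp only [zero_smul, add_zero] at hv2 ⊢
    have h2 : w0 ∈ W ⊓ fl F m (m - finrank F W) :=
      ⟨hw0, fl_mono (by omega) hv2⟩
    rw [h] at h2
    simpa using h2
  · exfalso
    apply hx
    have h3 : x = c⁻¹ • (-w0) + c⁻¹ • (w0 + c • x) := by
      rw [← smul_add, neg_add_cancel_left, smul_smul, inv_mul_cancel₀ hc, one_smul]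
    rw [h3]
    refine Submodule.add_mem_sup (W.smul_mem _ (W.neg_mem hw0)) (Submodule.smul_mem _ _ ?_)
    rw [Nat.sub_sub]
    exact hv2

/-- the probability space: vectors of `B` in `fl (m - a)` with leading coordinate `1`. -/
def Om (a : ℕ) (B : Submodule F (Fin m → F)) : Set (Fin m → F) :=
  {x | x ∈ B ∧ x ∈ fl F m (m - a) ∧ ∀ j : Fin m, (j : ℕ) + a + 1 = m → x j = 1}

theorem om_nonempty (a : ℕ) {B : Submodule F (Fin m → F)} (hB : Opp B) (ha : a < finrank F B) :
    (Om a B).Nonempty := by
  have hBm : finrank F B ≤ m := by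
    simpa using Submodule.finrank_le B
  have hlt : m - a - 1 < m := by omega
  have hsup := opp_sup hB (m - a - 1) (by omega)
  have he : (Pi.single (⟨m - a - 1, hlt⟩ : Fin m) (1 : F) : Fin m → F) ∈ B ⊔ fl F m (m - a - 1) := by
    rw [hsup]
    exact Submodule.mem_top
  obtain ⟨β, hβ, φ, hφ, hs⟩ := Submodule.mem_sup.1 he
  have hβ' : β = Pi.single (⟨m - a - 1, hlt⟩ : Fin m) (1 : F) - φ := by
    rw [← hs]
    simp
  refine ⟨β, hβ, ?_, ?_⟩
  · intro i hi
    have h1 : i ≠ (⟨m - a - 1, hlt⟩ : Fin m) := by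
      intro h'
      rw [h'] at hi
      simp only at hi
      omega
    have h2 : φ i = 0 := hφ i (by omega)
    rw [hβ', Pi.sub_apply, Pi.single_eq_of_ne h1, h2, sub_zero]
  · intro j hj
    have h1 : j = (⟨m - a - 1, hlt⟩ : Fin m) := by
      ext
      simp only
      omega
    have h2 : φ j = 0 := hφ j (by omega)
    rw [hβ', Pi.sub_apply, h2, h1, Pi.single_eq_same, sub_zero]

/-- for `W = A` of dimension `a` the vectors in `Om a B` are always good. -/
theorem om_good {A B : Submodule F (Fin m → F)} (hA : Opp A) (ha : finrank F A < m)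
    (x : Fin m → F) (hx : x ∈ Om (finrank F A) B) :
    x ∉ A ⊔ fl F m (m - finrank F A - 1) := by
  intro h
  obtain ⟨α, hα, φ, hφ, hs⟩ := Submodule.mem_sup.1 h
  obtain ⟨hx1, hx2, hx3⟩ := hx
  have h1 : α ∈ A ⊓ fl F m (m - finrank F A) := by
    refine ⟨hα, ?_⟩
    have h2 : α = x - φ := by
      rw [← hs]
      simp
    rw [h2]
    exact Submodule.sub_mem _ hx2 (fl_mono (by omega) hφ)
  rw [hA] at h1
  have h3 : α = 0 := by simpa using h1
  rw [h3, zero_add] at hs
  have hlt : m - finrank F A - 1 < m := by omega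
  have h4 := hx3 ⟨m - finrank F A - 1, hlt⟩ (by simp only; omega)
  rw [← hs, hφ ⟨m - finrank F A - 1, hlt⟩ (by simp only; omega)] at h4
  exact zero_ne_one h4

theorem om_uni {u : (Fin m → F) ≃ₗ[F] (Fin m → F)} (hu : Uni u) (a : ℕ) (ha : a < m)
    {B : Submodule F (Fin m → F)}
    (hB : B.map (u : (Fin m → F) →ₗ[F] (Fin m → F)) = B) (x : Fin m → F) :
    u x ∈ Om a B ↔ x ∈ Om a B := by
  have key : ∀ (C : Submodule F (Fin m → F)), C.map (u : (Fin m → F) →ₗ[F] (Fin m → F)) = C →
      (u x ∈ C ↔ x ∈ C) := by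
    intro C hC
    constructor
    · intro h
      rw [← hC] at h
      obtain ⟨z, hz, hz2⟩ := Submodule.mem_map.1 h
      have : z = x := u.injective hz2
      rwa [← this]
    · intro h
      rw [← hC]
      exact Submodule.mem_map_of_mem (f := (u : (Fin m → F) →ₗ[F] (Fin m → F))) h
  have h1 := key B hB
  have h2 := key (fl F m (m - a)) (uni_fl hu _)
  have h3 : x ∈ fl F m (m - a) → ∀ j : Fin m, (j : ℕ) + a + 1 = m → u x j = x j := by
    intro hx j hj
    refine uni_coord hu j x ?_
    have : m - a = (j : ℕ) + 1 := by omega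
    rwa [← this]
  constructor
  · rintro ⟨a1, a2, a3⟩
    have b2 := h2.1 a2
    exact ⟨h1.1 a1, b2, fun j hj => (h3 b2 j hj) ▸ a3 j hj⟩
  · rintro ⟨a1, a2, a3⟩
    exact ⟨h1.2 a1, h2.2 a2, fun j hj => (h3 a2 j hj).trans (a3 j hj)⟩

/-- an auxiliary vector. -/
theorem exists_y (a : ℕ) {B W : Submodule F (Fin m → F)} (hB : Opp B) (hW : Opp W)
    (h1 : a < finrank F W) (h2 : finrank F W < finrank F B) :
    ∃ y ∈ B, y ∈ fl F m (m - a - 1) ∧ y ∉ W ⊔ fl F m (m - finrank F W - 1) := by
  have hBm : finrank F B ≤ m := by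
    simpa using Submodule.finrank_le B
  have hlt : m - finrank F W - 1 < m := by omega
  have hsup := opp_sup hB (m - finrank F W - 1) (by omega)
  set e : Fin m → F := Pi.single (⟨m - finrank F W - 1, hlt⟩ : Fin m) (1 : F) with he0
  have he : e ∈ B ⊔ fl F m (m - finrank F W - 1) := by
    rw [hsup]
    exact Submodule.mem_top
  have hefl : e ∈ fl F m (m - finrank F W) := by
    intro i hi
    have h1 : i ≠ (⟨m - finrank F W - 1, hlt⟩ : Fin m) := by
      intro h'
      rw [h'] at hi
      simp only at hi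
      omega
    rw [he0, Pi.single_eq_of_ne h1]
  have hene : e ∉ fl F m (m - finrank F W - 1) := by
    intro h'
    have := h' ⟨m - finrank F W - 1, hlt⟩ (le_refl _)
    rw [he0, Pi.single_eq_same] at this
    exact one_ne_zero this
  obtain ⟨β, hβ, φ, hφ, hs⟩ := Submodule.mem_sup.1 he
  have hβ' : β = e - φ := by
    rw [← hs]
    simp
  have hβfl : β ∈ fl F m (m - finrank F W) := by
    rw [hβ']
    exact Submodule.sub_mem _ hefl (fl_mono (by omega) hφ)
  refine ⟨β, hβ, fl_mono (by omega) hβfl, ?_⟩
  intro h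
  obtain ⟨ω, hω, ψ, hψ, hs2⟩ := Submodule.mem_sup.1 h
  have h3 : ω ∈ W ⊓ fl F m (m - finrank F W) := by
    refine ⟨hω, ?_⟩
    have h4 : ω = β - ψ := by
      rw [← hs2]
      simp
    rw [h4]
    exact Submodule.sub_mem _ hβfl (fl_mono (by omega) hψ)
  rw [hW] at h3
  have h4 : ω = 0 := by simpa using h3
  apply hene
  rw [← hs, ← hs2, h4, zero_add]
  exact Submodule.add_mem _ hψ hφ

open scoped Classical in
/-- the proportion of bad vectors is at most `1/q`. -/
theorem bad_le [Fintype F] (a : ℕ) {B W : Submodule F (Fin m → F)} (hB : Opp B) (hW : Opp W)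
    (h1 : a < finrank F W) (h2 : finrank F W < finrank F B) :
    ((univ : Finset (Om a B)).filter
      (fun x => (x : Fin m → F) ∈ W ⊔ fl F m (m - finrank F W - 1))).card * Fintype.card F ≤
      Fintype.card (Om a B) := by
  obtain ⟨y, hyB, hyfl, hyW⟩ := exists_y a hB hW h1 h2
  have hmem : ∀ (x : Fin m → F), x ∈ Om a B → ∀ c : F, x + c • y ∈ Om a B := by
    rintro x ⟨hx1, hx2, hx3⟩ c
    refine ⟨B.add_mem hx1 (B.smul_mem _ hyB),
      Submodule.add_mem _ hx2 (Submodule.smul_mem _ _ (fl_mono (by omega) hyfl)), ?_⟩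
    intro j hj
    have h3 : y j = 0 := hyfl j (by omega)
    simp only [Pi.add_apply, Pi.smul_apply, h3, smul_zero, add_zero]
    exact hx3 j hj
  have hT : Fintype.card (Om a B) = ((univ : Finset (Om a B)).image Subtype.val).card := by
    rw [Finset.card_image_of_injective _ Subtype.val_injective, Finset.card_univ]
  rw [← Finset.card_univ (α := F), ← Finset.card_product, hT]
  refine Finset.card_le_card_of_injOn (fun p => p.1 + p.2 • y) ?_ ?_
  · rintro ⟨x, c⟩ hx
    simp only [Finset.coe_product, Set.mem_prod, Finset.mem_coe, Finset.mem_filter,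
      Finset.bind_def, Finset.pure_def, Finset.mem_sup, Finset.mem_singleton] at hx
    obtain ⟨⟨⟨z, _, hz⟩, _⟩, _⟩ := hx
    simp only [Finset.coe_image, Finset.coe_univ, Set.image_univ, Subtype.range_coe_subtype]
    exact hmem x (hz ▸ z.2) c
  · rintro ⟨x, c⟩ hx ⟨x', c'⟩ hx' heq
    simp only [Finset.coe_product, Set.mem_prod, Finset.mem_coe, Finset.mem_filter] at hx hx'
    have heq' : x + c • y = x' + c' • y := heq
    have hcc : c = c' := by
      by_contra hne
      apply hyW
      have h4 : y = (c - c')⁻¹ • (x' - x) := by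
        have h5 : (c - c') • y = x' - x := by
          rw [sub_smul, sub_eq_sub_iff_add_eq_add, add_comm (c • y), heq', add_comm]
        rw [← h5, smul_smul, inv_mul_cancel₀ (sub_ne_zero.2 hne), one_smul]
      rw [h4]
      exact Submodule.smul_mem _ _ (Submodule.sub_mem _ hx'.1.2 hx.1.2)
    subst hcc
    have hxx : x = x' := add_right_cancel heq'
    rw [hxx]

end

end Crest.Agent.R66.B
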