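import Crest.Agent.R66.DMain
import Crest.Agent.R66.ADefs

/-!
# Row 66: the coset complex of a system of subgroups (helper94)

`G` finite group, `A : I → Subgroup G`, `KJ A J = ⨆ j ∈ J, A j`.
Vertices of type `i`: cosets of `KJ A (univ.erase i)`; chambers: `cham A g = {g K_{I-i}}_i`.
`IntP A` (intersection property): `⋂_{i ∈ S} K_{I-i} ≤ K_{Sᶜ}`.
-/

set_option autoImplicit false
set_option linter.unusedSectionVars false
open scoped Classical

namespace Crest.Agent.R66

section Coset
variable {G : Type} [Group G] [Fintype G] {I : Type} [DecidableEq I] [Fintype I]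

/-- vertices of the coset complex -/
def CV (A : I → Subgroup G) : Type := Σ i : I, G ⧸ KJ A (Finset.univ.erase i)

noncomputable instance (A : I → Subgroup G) : Fintype (CV A) :=
  inferInstanceAs (Fintype (Σ i : I, G ⧸ KJ A (Finset.univ.erase i)))

noncomputable instance (A : I → Subgroup G) : DecidableEq (CV A) := Classical.decEq _

/-- the type of a vertex -/
def tp {A : I → Subgroup G} (v : CV A) : I := v.1

/-- the vertex of type `i` of the chamber `g` -/
def vx (A : I → Subgroup G) (i : I) (g : G) : CV A := ⟨i, (g : G ⧸ KJ A (Finset.univ.erase i))⟩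

@[simp] theorem tp_vx (A : I → Subgroup G) (i : I) (g : G) : tp (vx A i g) = i := rfl

theorem vx_eq_iff {A : I → Subgroup G} {i : I} {g h : G} :
    vx A i g = vx A i h ↔ g⁻¹ * h ∈ KJ A (Finset.univ.erase i) := by
  unfold vx
  constructor
  · intro e
    have : (g : G ⧸ KJ A (Finset.univ.erase i)) = (h : G ⧸ KJ A (Finset.univ.erase i)) :=
      eq_of_heq (Sigma.mk.inj e).2
    exact QuotientGroup.eq.1 this
  · intro e
    rw [QuotientGroup.eq.2 e]

theorem exists_vx {A : I → Subgroup G} (v : CV A) : ∃ g, v = vx A (tp v) g := by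
  obtain ⟨i, x⟩ := v
  obtain ⟨g, rfl⟩ := QuotientGroup.mk_surjective x
  exact ⟨g, rfl⟩

/-- the chamber of `g` -/
noncomputable def cham (A : I → Subgroup G) (g : G) : Finset (CV A) :=
  Finset.univ.image fun i => vx A i g

/-- all chambers -/
noncomputable def chams (A : I → Subgroup G) : Finset (Finset (CV A)) :=
  Finset.univ.image (cham A)

theorem mem_cham {A : I → Subgroup G} {g : G} {v : CV A} : v ∈ cham A g ↔ v = vx A (tp v) g := by
  unfold cham
  rw [Finset.mem_image]
  constructor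
  · rintro ⟨i, _, rfl⟩; rfl
  · intro h; exact ⟨tp v, Finset.mem_univ _, h.symm⟩

theorem vx_mem_cham {A : I → Subgroup G} {i : I} {g h : G} :
    vx A i h ∈ cham A g ↔ h⁻¹ * g ∈ KJ A (Finset.univ.erase i) := by
  rw [mem_cham, tp_vx, vx_eq_iff]

theorem vx_mem_cham_self (A : I → Subgroup G) (i : I) (g : G) : vx A i g ∈ cham A g :=
  mem_cham.2 rfl

theorem vx_injective (A : I → Subgroup G) (g : G) : Function.Injective fun i => vx A i g :=
  fun _ _ h => congrArg tp h

theorem card_cham (A : I → Subgroup G) (g : G) : (cham A g).card = Fintype.card I := by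
  unfold cham
  rw [Finset.card_image_of_injective _ (vx_injective A g), Finset.card_univ]

/-- the intersection property -/
def IntP (A : I → Subgroup G) : Prop :=
  ∀ S : Finset I, ∀ g : G, (∀ i ∈ S, g ∈ KJ A (Finset.univ.erase i)) → g ∈ KJ A Sᶜ

theorem KJ_empty (A : I → Subgroup G) : KJ A ∅ = ⊥ := by
  unfold KJ
  simp

theorem cham_injective {A : I → Subgroup G} (hA : IntP A) : Function.Injective (cham A) := by
  intro g h e
  have h1 : g⁻¹ * h ∈ KJ A (Finset.univ : Finset I)ᶜ := by
    refine hA Finset.univ _ fun i _ => ?_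
    have : vx A i g ∈ cham A h := by rw [← e]; exact vx_mem_cham_self A i g
    exact vx_mem_cham.1 this
  rw [Finset.compl_univ, KJ_empty, Subgroup.mem_bot, inv_mul_eq_one] at h1
  exact h1

theorem mem_chams {A : I → Subgroup G} {c : Finset (CV A)} :
    c ∈ chams A ↔ ∃ g, cham A g = c := by
  unfold chams
  simp

theorem card_of_mem_chams {A : I → Subgroup G} {c : Finset (CV A)} (h : c ∈ chams A) :
    c.card = Fintype.card I := by
  obtain ⟨g, rfl⟩ := mem_chams.1 h
  exact card_cham A g

/-- weights count group elements -/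
theorem wt_chams {A : I → Subgroup G} (hA : IntP A) (σ : Finset (CV A)) :
    wt (chams A) σ = (Finset.univ.filter fun g => σ ⊆ cham A g).card := by
  unfold wt chams
  rw [Finset.filter_image, Finset.card_image_of_injective _ (cham_injective hA)]

/-- weights as real sums -/
theorem wt_chams_real {A : I → Subgroup G} (hA : IntP A) (σ : Finset (CV A)) :
    (wt (chams A) σ : ℝ) = ∑ g : G, if σ ⊆ cham A g then (1 : ℝ) else 0 := by
  rw [wt_chams hA, Finset.card_filter]
  push_cast
  rfl

theorem wt_pos_iff {A : I → Subgroup G} {σ : Finset (CV A)} :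
    0 < wt (chams A) σ ↔ ∃ g, σ ⊆ cham A g := by
  unfold wt
  rw [Finset.card_pos]
  constructor
  · rintro ⟨c, hc⟩
    rw [Finset.mem_filter] at hc
    obtain ⟨g, rfl⟩ := mem_chams.1 hc.1
    exact ⟨g, hc.2⟩
  · rintro ⟨g, hg⟩
    exact ⟨cham A g, Finset.mem_filter.2 ⟨mem_chams.2 ⟨g, rfl⟩, hg⟩⟩

/-- the set of types of a face -/
noncomputable def tps {A : I → Subgroup G} (σ : Finset (CV A)) : Finset I := σ.image tp

theorem face_eq {A : I → Subgroup G} {σ : Finset (CV A)} {g : G} (h : σ ⊆ cham A g) :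
    σ = (tps σ).image fun i => vx A i g := by
  ext v
  simp only [tps, Finset.mem_image]
  constructor
  · intro hv
    exact ⟨tp v, ⟨v, hv, rfl⟩, (mem_cham.1 (h hv)).symm⟩
  · rintro ⟨_, ⟨w, hw, rfl⟩, rfl⟩
    rwa [← mem_cham.1 (h hw)]

theorem card_tps {A : I → Subgroup G} {σ : Finset (CV A)} {g : G} (h : σ ⊆ cham A g) :
    (tps σ).card = σ.card := by
  conv_rhs => rw [face_eq h]
  rw [Finset.card_image_of_injective _ (vx_injective A g)]

/-- the chambers containing a face -/
theorem face_subset_iff {A : I → Subgroup G} (hA : IntP A) {σ : Finset (CV A)} {g : G}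
    (h : σ ⊆ cham A g) (x : G) : σ ⊆ cham A x ↔ g⁻¹ * x ∈ KJ A (tps σ)ᶜ := by
  constructor
  · intro hx
    refine hA _ _ fun i hi => ?_
    obtain ⟨v, hv, rfl⟩ := Finset.mem_image.1 hi
    have h1 := mem_cham.1 (h hv)
    have h2 := mem_cham.1 (hx hv)
    exact vx_eq_iff.1 (h1.symm.trans h2)
  · intro hx v hv
    have h1 := mem_cham.1 (h hv)
    rw [mem_cham, h1, tp_vx, vx_eq_iff]
    refine KJ_mono A ?_ hx
    intro j hj
    rw [Finset.mem_erase]
    refine ⟨fun e => ?_, Finset.mem_univ _⟩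
    rw [Finset.mem_compl] at hj
    exact hj (Finset.mem_image.2 ⟨v, hv, e.symm⟩)

/-- the mixing hypothesis of the local-to-global theorem -/
theorem mix_of_gap {A : I → Subgroup G} (hA : IntP A) {m d : ℕ} (hm : Fintype.card I = m)
    (hd : d + 2 ≤ m) {lam L : ℝ} (hl : 0 ≤ lam) (hL : 2 * lam ≤ L) (hml : 2 * m * lam ≤ 1)
    (hp : ∀ i j, i ≠ j → PairGap (A i) (A j) lam) : Mix (chams A) m d L := by
  intro ρ hρ hwt B hB
  obtain ⟨g, hg⟩ := wt_pos_iff.1 hwt
  set S := tps ρ with hS
  set J := Sᶜ with hJ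
  have hScard : S.card = ρ.card := card_tps hg
  have hJcard : J.card = m - ρ.card := by
    rw [hJ, Finset.card_compl, hm, hScard]
  obtain ⟨n, hn⟩ : ∃ n, J.card = n + 2 := ⟨J.card - 2, by omega⟩
  have hnm : n ≤ m := by omega
  have hnm' : (n : ℝ) ≤ m := by exact_mod_cast hnm
  have hnl : (n : ℝ) * lam < 1 := by nlinarith
  set K := KJ A J with hK
  -- the indicator functions
  set f : I → G → ℝ := fun i x => if vx A i x ∈ B then 1 else 0 with hf
  have hfinv : ∀ i ∈ J, RInv (KJ A (J.erase i)) (f i) := by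
    intro i _ x k hk
    have : vx A i (x * k) = vx A i x := by
      rw [eq_comm, vx_eq_iff, inv_mul_cancel_left]
      exact KJ_mono A (Finset.erase_subset_erase i (Finset.subset_univ J)) hk
    simp only [hf, this]
  have key := gap_local_all hl hp n J hn hnl f hfinv g
  rw [← hK] at key
  set c : ℝ := ((els K).card : ℝ) with hc
  have hcpos : 0 < c := els_card_pos' K
  have hchi : ∀ x, (if ρ ⊆ cham A x then (1 : ℝ) else 0) = chi K g x := by
    intro x
    unfold chi
    simp only [face_subset_iff hA hg x]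
    rfl
  have hcw : (wt (chams A) ρ : ℝ) = c := by
    rw [wt_chams_real hA]
    have h1 : ∀ x, (if ρ ⊆ cham A x then (1 : ℝ) else 0) = chi K g x * 1 := fun x => by
      rw [hchi, mul_one]
    rw [Finset.sum_congr rfl fun x _ => h1 x, sum_chi K g fun _ => (1 : ℝ)]
    have h2 : av K (fun _ => (1 : ℝ)) g = 1 :=
      congrFun (av_of_rinv (H := K) (f := fun _ => (1 : ℝ)) fun _ _ _ => rfl) g
    rw [h2, mul_one]
  -- types of vertices of `B` in a chamber containing `ρ`
  have htype : ∀ x, ρ ⊆ cham A x → ∀ v ∈ B, v ∈ cham A x → tp v ∈ J := by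
    intro x hx v hv hvx
    rw [hJ, Finset.mem_compl]
    intro hmem
    obtain ⟨w, hw, hwv⟩ := Finset.mem_image.1 hmem
    have h1 := mem_cham.1 (hx hw)
    have h2 := mem_cham.1 hvx
    rw [hwv, ← h2] at h1
    exact Finset.disjoint_left.1 hB hv (h1 ▸ hw)
  -- first sum
  have hsum1 : ∀ x, ρ ⊆ cham A x → (∑ v ∈ B, if v ∈ cham A x then (1 : ℝ) else 0) =
      ∑ i ∈ J, f i x := by
    intro x hx
    rw [← Finset.sum_filter, ← Finset.sum_filter_add_sum_filter_not J (fun i => vx A i x ∈ B)]
    have h1 : ∑ i ∈ J.filter (fun i => ¬ vx A i x ∈ B), f i x = 0 :=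
      Finset.sum_eq_zero fun i hi => by simp only [hf, if_neg (Finset.mem_filter.1 hi).2]
    have h2 : ∑ i ∈ J.filter (fun i => vx A i x ∈ B), f i x =
        ∑ i ∈ J.filter (fun i => vx A i x ∈ B), 1 :=
      Finset.sum_congr rfl fun i hi => by simp only [hf, if_pos (Finset.mem_filter.1 hi).2]
    rw [h1, add_zero, h2]
    refine Finset.sum_bij' (fun v _ => tp v) (fun i _ => vx A i x) ?_ ?_ ?_ ?_ ?_
    · intro v hv
      rw [Finset.mem_filter] at hv
      have h3 := mem_cham.1 hv.2
      rw [Finset.mem_filter, ← h3]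
      exact ⟨htype x hx v hv.1 hv.2, hv.1⟩
    · intro i hi
      rw [Finset.mem_filter] at hi ⊢
      exact ⟨hi.2, vx_mem_cham_self A i x⟩
    · intro v hv
      exact (mem_cham.1 (Finset.mem_filter.1 hv).2).symm
    · intro i _; rfl
    · intro v _; rfl
  have hb : (∑ v ∈ B, (wt (chams A) (insert v ρ) : ℝ)) = c * ∑ i ∈ J, av K (f i) g := by
    have h1 : ∀ v, (wt (chams A) (insert v ρ) : ℝ) =
        ∑ x : G, chi K g x * (if v ∈ cham A x then (1 : ℝ) else 0) := by
      intro v
      rw [wt_chams_real hA]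
      refine Finset.sum_congr rfl fun x _ => ?_
      rw [← hchi]
      simp only [Finset.insert_subset_iff]
      by_cases h2 : ρ ⊆ cham A x <;> by_cases h3 : v ∈ cham A x <;> simp [h2, h3]
    rw [Finset.sum_congr rfl fun v _ => h1 v, Finset.sum_comm]
    have h4 : ∀ x, ∑ v ∈ B, chi K g x * (if v ∈ cham A x then (1 : ℝ) else 0) =
        chi K g x * ∑ i ∈ J, f i x := by
      intro x
      rw [← Finset.mul_sum]
      by_cases h2 : ρ ⊆ cham A x
      · rw [hsum1 x h2]
      · rw [← hchi, if_neg h2, zero_mul, zero_mul]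
    rw [Finset.sum_congr rfl fun x _ => h4 x, sum_chi K g fun x => ∑ i ∈ J, f i x]
    congr 1
    have h5 : (fun x => ∑ i ∈ J, f i x) = ∑ i ∈ J, f i := by funext x; simp
    rw [h5, av_sum, Finset.sum_apply]
  -- second sum
  have hsum2 : ∀ x, ρ ⊆ cham A x → (∑ u ∈ B, ∑ v ∈ B.erase u,
      if u ∈ cham A x ∧ v ∈ cham A x then (1 : ℝ) else 0) =
      ∑ i ∈ J, ∑ j ∈ J.erase i, f i x * f j x := by
    intro x hx
    have e1 : ∀ u ∈ B, (∑ v ∈ B.erase u, if u ∈ cham A x ∧ v ∈ cham A x then (1 : ℝ) else 0) =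
        (if u ∈ cham A x then (1 : ℝ) else 0) * (∑ v ∈ B, if v ∈ cham A x then (1 : ℝ) else 0) -
          (if u ∈ cham A x then (1 : ℝ) else 0) := by
      intro u hu
      rw [← Finset.sum_erase_add B _ hu, mul_add, Finset.mul_sum]
      have h1 : ∀ v, (if u ∈ cham A x ∧ v ∈ cham A x then (1 : ℝ) else 0) =
          (if u ∈ cham A x then (1 : ℝ) else 0) * (if v ∈ cham A x then (1 : ℝ) else 0) := by
        intro v
        by_cases h2 : u ∈ cham A x <;> by_cases h3 : v ∈ cham A x <;> simp [h2, h3]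
      rw [Finset.sum_congr rfl fun v _ => h1 v]
      by_cases h2 : u ∈ cham A x <;> simp [h2]
    have e2 : ∀ i ∈ J, ∑ j ∈ J.erase i, f i x * f j x = f i x * (∑ j ∈ J, f j x) - f i x := by
      intro i hi
      rw [← Finset.sum_erase_add J _ hi, mul_add, Finset.mul_sum]
      have h1 : f i x * f i x = f i x := by
        by_cases h2 : vx A i x ∈ B <;> simp [hf, h2]
      rw [h1]; ring
    rw [Finset.sum_congr rfl e1, Finset.sum_congr rfl e2, Finset.sum_sub_distrib,
      Finset.sum_sub_distrib, ← Finset.sum_mul, ← Finset.sum_mul, hsum1 x hx]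
  have hbb : (∑ u ∈ B, ∑ v ∈ B.erase u, (wt (chams A) (insert u (insert v ρ)) : ℝ)) =
      c * ∑ i ∈ J, ∑ j ∈ J.erase i, av K (fun x => f i x * f j x) g := by
    have h1 : ∀ u v, (wt (chams A) (insert u (insert v ρ)) : ℝ) =
        ∑ x : G, chi K g x * (if u ∈ cham A x ∧ v ∈ cham A x then (1 : ℝ) else 0) := by
      intro u v
      rw [wt_chams_real hA]
      refine Finset.sum_congr rfl fun x _ => ?_
      rw [← hchi]
      simp only [Finset.insert_subset_iff]
      by_cases h2 : ρ ⊆ cham A x <;> by_cases h3 : v ∈ cham A x <;>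
        by_cases h4 : u ∈ cham A x <;> simp [h2, h3, h4]
    have h4 : ∀ x, (∑ u ∈ B, ∑ v ∈ B.erase u,
        chi K g x * (if u ∈ cham A x ∧ v ∈ cham A x then (1 : ℝ) else 0)) =
        chi K g x * ∑ i ∈ J, ∑ j ∈ J.erase i, f i x * f j x := by
      intro x
      have h6 : ∑ u ∈ B, ∑ v ∈ B.erase u,
          chi K g x * (if u ∈ cham A x ∧ v ∈ cham A x then (1 : ℝ) else 0) =
          chi K g x * ∑ u ∈ B, ∑ v ∈ B.erase u,
            (if u ∈ cham A x ∧ v ∈ cham A x then (1 : ℝ) else 0) := by
        rw [Finset.mul_sum]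
        exact Finset.sum_congr rfl fun u _ => (Finset.mul_sum _ _ _).symm
      rw [h6]
      by_cases h2 : ρ ⊆ cham A x
      · rw [hsum2 x h2]
      · rw [← hchi, if_neg h2, zero_mul, zero_mul]
    have h5 : (∑ u ∈ B, ∑ v ∈ B.erase u, (wt (chams A) (insert u (insert v ρ)) : ℝ)) =
        ∑ x : G, ∑ u ∈ B, ∑ v ∈ B.erase u,
          chi K g x * (if u ∈ cham A x ∧ v ∈ cham A x then (1 : ℝ) else 0) := by
      simp only [h1]
      rw [Finset.sum_comm]
      refine Finset.sum_congr rfl fun u _ => ?_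
      rw [Finset.sum_comm]
    rw [h5, Finset.sum_congr rfl fun x _ => h4 x,
      sum_chi K g fun x => ∑ i ∈ J, ∑ j ∈ J.erase i, f i x * f j x]
    congr 1
    have h6 : (fun x => ∑ i ∈ J, ∑ j ∈ J.erase i, f i x * f j x) =
        ∑ i ∈ J, ∑ j ∈ J.erase i, fun x => f i x * f j x := by
      funext x; simp only [Finset.sum_apply]
    rw [h6, av_sum, Finset.sum_apply]
    refine Finset.sum_congr rfl fun i _ => ?_
    rw [av_sum, Finset.sum_apply]
  have hff : ∀ i, av K (fun x => f i x * f i x) g = av K (f i) g := by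
    intro i
    have : (fun x => f i x * f i x) = f i := by
      funext x
      by_cases h2 : vx A i x ∈ B <;> simp [hf, h2]
    rw [this]
  simp only [hff] at key
  rw [hcw, hb, hbb]
  set X := ∑ i ∈ J, ∑ j ∈ J.erase i, av K (fun x => f i x * f j x) g with hX
  set b := ∑ i ∈ J, av K (f i) g with hbdef
  have hb0 : 0 ≤ b := by
    refine Finset.sum_nonneg fun i _ => ?_
    unfold av
    refine div_nonneg (Finset.sum_nonneg fun h _ => ?_) (Nat.cast_nonneg _)
    simp only [hf]; split_ifs <;> norm_num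
  have hr : (2 : ℝ) ≤ J.card := by rw [hn]; push_cast; linarith [(Nat.cast_nonneg n : (0:ℝ) ≤ n)]
  have hrm : (J.card : ℝ) ≤ m := by
    have : J.card ≤ m := by omega
    exact_mod_cast this
  have hmu0 : 0 ≤ lam / (1 - n * lam) := div_nonneg hl (by linarith)
  have hmuL : lam / (1 - n * lam) ≤ L := by
    have h2n : 2 * (n : ℝ) * lam ≤ 1 := by nlinarith
    exact (lam_le hl h2n).trans hL
  set mu := lam / (1 - n * lam) with hmu
  set r : ℝ := (J.card : ℝ) with hrdef
  have hr1 : 0 < r - 1 := by linarith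
  have hr0 : 0 < r := by linarith
  -- the final computation
  rw [div_le_iff₀ (by positivity)] at key
  have h1 : X ≤ (r - 1) * b * (b / r + mu) := by
    have e1 : ((1 - mu) * (b / r) ^ 2 + mu * (b / r)) * (r * (r - 1)) =
        (r - 1) * b * ((1 - mu) * (b / r) + mu) := by
      field_simp
    rw [e1] at key
    have h2 : (1 - mu) * (b / r) + mu ≤ b / r + mu := by
      have : 0 ≤ mu * (b / r) := by positivity
      linarith
    exact key.trans (mul_le_mul_of_nonneg_left h2 (by positivity))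
  have h2 : (r - 1) * b * (b / r + mu) ≤ m * b * (b + L) := by
    have h3 : b / r ≤ b := div_le_self hb0 (by linarith)
    have h4 : (r - 1) * b ≤ m * b := mul_le_mul_of_nonneg_right (by linarith) hb0
    have h5 : b / r + mu ≤ b + L := add_le_add h3 hmuL
    have h6 : 0 ≤ b / r + mu := by positivity
    have h7 : (0 : ℝ) ≤ m * b := by positivity
    exact mul_le_mul h4 h5 h6 h7
  have h3 : c * (c * X) ≤ c * (c * (m * b * (b + L))) :=
    mul_le_mul_of_nonneg_left (mul_le_mul_of_nonneg_left (h1.trans h2) hcpos.le) hcpos.le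
  calc c * (c * X) ≤ c * (c * (m * b * (b + L))) := h3
    _ = m * (c * b) * (c * b + L * c) := by ring

end Coset

end Crest.Agent.R66
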