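import Crest.Agent.R66.BStep
import Crest.Agent.R66.DCoset

/-!
# Row 66, part (B): vertex links of a coset complex (helper12)
-/
set_option autoImplicit false

namespace Crest.Agent.R66.B

open Finset Module

section
variable {F : Type} [Field F] [Fintype F] {m : ℕ}

/-- the chambers of `Yc` are the images of the standard one. -/
theorem mem_Yc_iff (hm : 1 ≤ m) (c : Finset (Submodule F (Fin m → F))) :
    c ∈ Yc F m ↔ ∃ u : (Fin m → F) ≃ₗ[F] (Fin m → F), Uni u ∧
      (Finset.Ioo 0 m).image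
        (fun i => (st F m i).map (u : (Fin m → F) →ₗ[F] (Fin m → F))) = c := by
  classical
  constructor
  · intro hc
    have hT := (typed_Yc (F := F) (m := m) hm).1 c hc
    have hc' := hc
    unfold Yc at hc'
    rw [mem_filter, mem_powersetCard] at hc'
    obtain ⟨_, hch, hv⟩ := hc'
    obtain ⟨u, hu, huW⟩ := exists_uni c hch (fun W hW => (hv W hW).1)
    refine ⟨u, hu, ?_⟩
    ext W
    rw [mem_image]
    constructor
    · rintro ⟨i, hi, rfl⟩
      rw [← hT, mem_image] at hi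
      obtain ⟨X, hX, rfl⟩ := hi
      have h := huW X hX
      change (st F m (finrank F X)).map (u : (Fin m → F) →ₗ[F] (Fin m → F)) ∈ c
      rw [h]
      exact hX
    · intro hW
      refine ⟨finrank F W, ?_, huW W hW⟩
      rw [← hT]
      exact mem_image_of_mem _ hW
  · rintro ⟨u, hu, rfl⟩
    set g : ℕ → Submodule F (Fin m → F) :=
      fun i => (st F m i).map (u : (Fin m → F) →ₗ[F] (Fin m → F)) with hg
    have hfr : ∀ i, i ≤ m → finrank F (g i) = i := by
      intro i hi
      rw [hg]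
      simp only
      rw [LinearEquiv.finrank_map_eq, finrank_st i hi]
    have hinj : Set.InjOn g (Finset.Ioo 0 m : Finset ℕ) := by
      intro i hi j hj hij
      simp only [coe_Ioo, Set.mem_Ioo] at hi hj
      rw [← hfr i (by omega), ← hfr j (by omega), hij]
    unfold Yc
    rw [mem_filter, mem_powersetCard]
    refine ⟨⟨subset_univ _, ?_⟩, ?_, ?_⟩
    · rw [Finset.card_image_of_injOn hinj, Nat.card_Ioo]
      omega
    · intro X hX Y hY _
      simp only [coe_image, Set.mem_image] at hX hY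
      obtain ⟨i, _, rfl⟩ := hX
      obtain ⟨j, _, rfl⟩ := hY
      rcases le_total i j with h | h
      · exact Or.inl (Submodule.map_mono (st_mono h))
      · exact Or.inr (Submodule.map_mono (st_mono h))
    · intro W hW
      rw [mem_image] at hW
      obtain ⟨i, hi, rfl⟩ := hW
      rw [mem_Ioo] at hi
      refine ⟨(opp_map hu _).2 (opp_st i (by omega)), ?_, ?_⟩
      · intro h0
        have := hfr i (by omega)
        rw [h0, finrank_bot] at this
        omega
      · intro h0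
        have := hfr i (by omega)
        rw [h0, finrank_top, finrank_fin_fun] at this
        omega

/-- vertex links of a coset complex. -/
theorem ciso_coset {G : Type} [Group G] [Fintype G] {I : Type} [DecidableEq I] [Fintype I]
    (A : I → Subgroup G) (hm : 1 ≤ m) (i : I) (ψ : G → ((Fin m → F) ≃ₗ[F] (Fin m → F)))
    (hu : ∀ x ∈ KJ A (univ.erase i), Uni (ψ x))
    (hs : ∀ u : (Fin m → F) ≃ₗ[F] (Fin m → F), Uni u → ∃ x ∈ KJ A (univ.erase i), ψ x = u)
    (dm : I → ℕ) (hd : Set.BijOn dm {j | j ≠ i} (Set.Ioo 0 m))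
    (hst : ∀ j, j ≠ i → ∀ x ∈ KJ A (univ.erase i), ∀ y ∈ KJ A (univ.erase i),
      (x⁻¹ * y ∈ KJ A (univ.erase j) ↔
        (st F m (dm j)).map (ψ x : (Fin m → F) →ₗ[F] (Fin m → F)) =
          (st F m (dm j)).map (ψ y : (Fin m → F) →ₗ[F] (Fin m → F))))
    (v : CV A) (hv : Crest.Agent.R66.tp v = i) : CIso (lk (chams A) {v}) (Yc F m) := by
  classical
  obtain ⟨g, hg⟩ := exists_vx v
  rw [hv] at hg
  -- elements of the link
  have hlk : ∀ e : Finset (CV A), e ∈ lk (chams A) {v} ↔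
      ∃ k ∈ KJ A (univ.erase i), cham A (g * k) \ {v} = e := by
    intro e
    unfold lk
    rw [mem_image]
    constructor
    · rintro ⟨c, hc, rfl⟩
      obtain ⟨hc1, hc2⟩ := mem_filter.1 hc
      obtain ⟨x, rfl⟩ := mem_chams.1 hc1
      have h1 : v ∈ cham A x := hc2 (mem_singleton_self v)
      rw [hg, vx_mem_cham] at h1
      exact ⟨g⁻¹ * x, h1, by rw [mul_inv_cancel_left]⟩
    · rintro ⟨k, hk, rfl⟩
      refine ⟨cham A (g * k), mem_filter.2 ⟨mem_chams.2 ⟨_, rfl⟩, ?_⟩, rfl⟩
      rw [singleton_subset_iff, hg, vx_mem_cham, inv_mul_cancel_left]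
      exact hk
  -- elements of the chambers of the link
  have hmem : ∀ k ∈ KJ A (univ.erase i), ∀ w : CV A, w ∈ cham A (g * k) \ {v} ↔
      ∃ j, j ≠ i ∧ vx A j (g * k) = w := by
    intro k hk w
    have hvk : v = vx A i (g * k) := by
      rw [hg, vx_eq_iff, inv_mul_cancel_left]; exact hk
    rw [mem_sdiff, mem_singleton, mem_cham]
    constructor
    · rintro ⟨h1, h2⟩
      refine ⟨Crest.Agent.R66.tp w, ?_, h1.symm⟩
      intro h3
      apply h2
      rw [h1, h3, hvk]
    · rintro ⟨j, hj, rfl⟩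
      refine ⟨rfl, ?_⟩
      intro h3
      apply hj
      have := congrArg Crest.Agent.R66.tp h3
      rw [tp_vx, hv] at this
      exact this
  -- the map
  set θ : CV A → Submodule F (Fin m → F) := fun w =>
    if h : ∃ k ∈ KJ A (univ.erase i), w = vx A (Crest.Agent.R66.tp w) (g * k) then
      (st F m (dm (Crest.Agent.R66.tp w))).map
        (ψ h.choose : (Fin m → F) →ₗ[F] (Fin m → F)) else ⊥ with hθ
  have hθv : ∀ k ∈ KJ A (univ.erase i), ∀ j, j ≠ i →
      θ (vx A j (g * k)) = (st F m (dm j)).map (ψ k : (Fin m → F) →ₗ[F] (Fin m → F)) := by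
    intro k hk j hj
    have h : ∃ k' ∈ KJ A (univ.erase i), vx A j (g * k) =
        vx A (Crest.Agent.R66.tp (vx A j (g * k))) (g * k') := ⟨k, hk, rfl⟩
    have h1 : θ (vx A j (g * k)) = (st F m (dm j)).map
        (ψ h.choose : (Fin m → F) →ₗ[F] (Fin m → F)) := by
      rw [hθ]
      simp only
      rw [dif_pos h]
      rfl
    rw [h1]
    obtain ⟨h2, h3⟩ := h.choose_spec
    rw [← hst j hj _ h2 k hk]
    have h4 : vx A j (g * h.choose) = vx A j (g * k) := h3.symm
    rw [vx_eq_iff, mul_inv_rev, mul_assoc, inv_mul_cancel_left] at h4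
    exact h4
  have hdm : ∀ j, j ≠ i → 0 < dm j ∧ dm j < m := fun j hj => hd.mapsTo hj
  have hfr : ∀ k, ∀ j, j ≠ i →
      finrank F ((st F m (dm j)).map (ψ k : (Fin m → F) →ₗ[F] (Fin m → F))) = dm j := by
    intro k j hj
    rw [LinearEquiv.finrank_map_eq, finrank_st _ (hdm j hj).2.le]
  refine ⟨θ, ?_, ?_⟩
  · intro e he e' he' v1 hv1 w1 hw1 hvw
    obtain ⟨k, hk, rfl⟩ := (hlk e).1 he
    obtain ⟨k', hk', rfl⟩ := (hlk e').1 he'
    obtain ⟨j, hj, rfl⟩ := (hmem k hk v1).1 hv1
    obtain ⟨j', hj', rfl⟩ := (hmem k' hk' w1).1 hw1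
    rw [hθv k hk j hj, hθv k' hk' j' hj'] at hvw
    have h1 : dm j = dm j' := by
      rw [← hfr k j hj, ← hfr k' j' hj', hvw]
    have h2 : j = j' := hd.injOn hj hj' h1
    subst h2
    rw [← hst j hj k hk k' hk'] at hvw
    rw [vx_eq_iff, mul_inv_rev, mul_assoc, inv_mul_cancel_left]
    exact hvw
  · have himg : ∀ k ∈ KJ A (univ.erase i), (cham A (g * k) \ {v}).image θ =
        (Finset.Ioo 0 m).image
          (fun a => (st F m a).map (ψ k : (Fin m → F) →ₗ[F] (Fin m → F))) := by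
      intro k hk
      ext W
      rw [mem_image, mem_image]
      constructor
      · rintro ⟨w, hw, rfl⟩
        obtain ⟨j, hj, rfl⟩ := (hmem k hk w).1 hw
        exact ⟨dm j, mem_Ioo.2 (hdm j hj), (hθv k hk j hj).symm⟩
      · rintro ⟨a, ha, rfl⟩
        obtain ⟨j, hj, rfl⟩ := hd.surjOn (Set.mem_Ioo.2 (mem_Ioo.1 ha))
        exact ⟨vx A j (g * k), (hmem k hk _).2 ⟨j, hj, rfl⟩, hθv k hk j hj⟩
    ext c
    rw [mem_image, mem_Yc_iff hm]
    constructor
    · rintro ⟨e, he, rfl⟩
      obtain ⟨k, hk, rfl⟩ := (hlk e).1 he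
      exact ⟨ψ k, hu k hk, (himg k hk).symm⟩
    · rintro ⟨u, hu1, rfl⟩
      obtain ⟨x, hx, rfl⟩ := hs u hu1
      exact ⟨_, (hlk _).2 ⟨x, hx, rfl⟩, himg x hx⟩

end

end Crest.Agent.R66.B
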