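import Crest.Agent.R66.BFlag

/-!
# Row 66, part (B): unipotent automorphisms as matrices (helper12)
-/
set_option autoImplicit false

namespace Crest.Agent.R66.B

open Finset Module

section
variable {F : Type} [Field F] {m : ℕ}

private theorem gb_entry (u : (Fin m → F) ≃ₗ[F] (Fin m → F)) (p q : Fin m) :
    LinearMap.toMatrix' (u : (Fin m → F) →ₗ[F] (Fin m → F)) p q = u (Pi.single q 1) p := by
  rw [LinearMap.toMatrix'_apply]
  rfl

private theorem gb_apply (u : (Fin m → F) ≃ₗ[F] (Fin m → F)) (v : Fin m → F) (p : Fin m) :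
    u v p = ∑ q, LinearMap.toMatrix' (u : (Fin m → F) →ₗ[F] (Fin m → F)) p q * v q := by
  have h := LinearMap.toMatrix'_mulVec (u : (Fin m → F) →ₗ[F] (Fin m → F)) v
  have h2 := congrFun h p
  rw [Matrix.mulVec, dotProduct] at h2
  exact h2.symm

private theorem gb_single_mem (q : Fin m) (j : ℕ) (h : (q : ℕ) < j) :
    (Pi.single q 1 : Fin m → F) ∈ fl F m j := by
  intro i hi
  have : i ≠ q := by
    intro e; subst e; omega
  simp [this]

/-- unipotent automorphisms = upper unitriangular matrices. -/
theorem uni_iff (u : (Fin m → F) ≃ₗ[F] (Fin m → F)) : Uni u ↔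
    (∀ p q : Fin m, q < p → LinearMap.toMatrix' (u : (Fin m → F) →ₗ[F] (Fin m → F)) p q = 0) ∧
      ∀ p : Fin m, LinearMap.toMatrix' (u : (Fin m → F) →ₗ[F] (Fin m → F)) p p = 1 := by
  constructor
  · intro hu
    have key : ∀ p q : Fin m, q ≤ p → u (Pi.single q 1) p = (Pi.single q 1 : Fin m → F) p := by
      intro p q hqp
      have h1 := hu q (Pi.single q 1) (gb_single_mem q (q + 1) (Nat.lt_succ_self _))
      have h2 := h1 p hqp
      rw [Pi.sub_apply, sub_eq_zero] at h2
      exact h2
    constructor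
    · intro p q hqp
      rw [gb_entry, key p q hqp.le]
      have : p ≠ q := ne_of_gt hqp
      simp [this]
    · intro p
      rw [gb_entry, key p p le_rfl]
      simp
  · rintro ⟨h0, h1⟩ j v hv i hi
    rw [Pi.sub_apply, gb_apply u v i, Finset.sum_eq_single i, h1, one_mul, sub_self]
    · intro q _ hqi
      rcases lt_or_gt_of_ne hqi with h | h
      · rw [h0 i q h, zero_mul]
      · have : v q = 0 := by
          apply hv q
          have : (i : ℕ) < q := h
          omega
        rw [this, mul_zero]
    · intro h; exact absurd (Finset.mem_univ i) h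

theorem exists_lin (T : Matrix (Fin m) (Fin m) F) (h0 : ∀ p q : Fin m, q < p → T p q = 0)
    (h1 : ∀ p, T p p = 1) : ∃ u : (Fin m → F) ≃ₗ[F] (Fin m → F), Uni u ∧
      LinearMap.toMatrix' (u : (Fin m → F) →ₗ[F] (Fin m → F)) = T := by
  obtain ⟨u, hu, hw⟩ := exists_uni_of_basis (F := F) (m := m) (fun p i => T i p) (by
    intro p i hi
    rw [Pi.sub_apply]
    by_cases h : i = p
    · subst h
      simp [h1]
    · have hlt : p < i := lt_of_le_of_ne (by exact hi) (fun e => h e.symm)
      simp [h, h0 i p hlt])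
  refine ⟨u, hu, ?_⟩
  ext p q
  rw [gb_entry, hw q]

/-- the stabiliser of the standard opposite subspace of dimension `k`. -/
theorem st_map_iff (u : (Fin m → F) ≃ₗ[F] (Fin m → F)) (hu : Uni u) (k : ℕ) (hk : k ≤ m) :
    (st F m k).map (u : (Fin m → F) →ₗ[F] (Fin m → F)) = st F m k ↔
      ∀ p q : Fin m, (p : ℕ) + k < m → m ≤ (q : ℕ) + k →
        LinearMap.toMatrix' (u : (Fin m → F) →ₗ[F] (Fin m → F)) p q = 0 := by
  constructor
  · intro h p q hp hq
    have h1 : (Pi.single q 1 : Fin m → F) ∈ st F m k := by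
      intro j hj
      have : j ≠ q := by
        intro e; subst e; omega
      simp [this]
    have h2 : u (Pi.single q 1) ∈ st F m k := by
      rw [← h]
      exact ⟨_, h1, rfl⟩
    rw [gb_entry]
    exact h2 p hp
  · intro h
    refine Submodule.eq_of_le_of_finrank_eq ?_ ?_
    · rintro _ ⟨v, hv, rfl⟩
      intro p hp
      change u v p = 0
      rw [gb_apply u v p]
      refine Finset.sum_eq_zero fun q _ => ?_
      by_cases hq : (q : ℕ) + k < m
      · rw [hv q hq, mul_zero]
      · rw [h p q hp (by omega), zero_mul]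
    · exact LinearEquiv.finrank_map_eq u (st F m k)

end

end Crest.Agent.R66.B
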