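import Crest.Agent.R66.DGGen

/-!
# Row 66, part (B): the groups `K_J`, `J = univ.erase i`, as groups of unitriangular matrices
(helper12). Positions `p = 0, .., m-1` of the window starting after the arrow `i`:
`ap i p = i + 1 + p mod m`; `Mt i g p q` = coefficient of the path from position `p` to `q`.
-/
set_option autoImplicit false

open Polynomial Matrix

namespace Crest.Agent.R66.B

section
variable {F : Type} [Field F] {m : ℕ} [NeZero m]

/-- the vertex at position `p`. -/
def ap (i p : Fin m) : Fin m := col m ((i : ℕ) + 1 + p)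

/-- the matrix of paths. -/
def Mt (i : Fin m) (g : Matrix (Fin m) (Fin m) F[X]) : Matrix (Fin m) (Fin m) F :=
  fun p q => if p ≤ q then coef g (ap i p) ((ap i p : ℕ) + ((q : ℕ) - p)) else 0

/-- the dimension of the subspaces of type `j`. -/
def dmn (i j : Fin m) : ℕ := ((i : ℕ) + (m - j)) % m

theorem dmn_of_lt {i j : Fin m} (h : j < i) : dmn i j = i - j := by
  have h1 := i.2
  have h2 := j.2
  have h3 : (j : ℕ) < i := h
  unfold dmn
  have e : (i : ℕ) + (m - j) = (i - j) + m := by omega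
  rw [e, Nat.add_mod_right, Nat.mod_eq_of_lt (by omega)]

theorem dmn_of_gt {i j : Fin m} (h : i < j) : dmn i j = i + (m - j) := by
  have h1 := i.2
  have h2 := j.2
  have h3 : (i : ℕ) < j := h
  unfold dmn
  rw [Nat.mod_eq_of_lt (by omega)]

private theorem mod_lt_two' {x : ℕ} (h : x < 2 * m) :
    x % m = if x < m then x else x - m := by
  split_ifs with h1
  · exact Nat.mod_eq_of_lt h1
  · rw [Nat.mod_eq_sub_mod (by omega), Nat.mod_eq_of_lt (by omega)]

private theorem ap_val (i p : Fin m) : (ap i p : ℕ) = ((i : ℕ) + 1 + p) % m := rfl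

private theorem col_ap_add (i p : Fin m) (t : ℕ) :
    col m ((ap i p : ℕ) + t) = col m ((i : ℕ) + 1 + p + t) := by
  apply Fin.ext
  rw [col_val, col_val, ap_val, Nat.mod_add_mod]

private theorem mod_eq_iff' (i j : Fin m) {u : ℕ} (hu : u < m) :
    ((i : ℕ) + 1 + u) % m = j ↔ u + dmn i j + 1 = m := by
  have hi := i.2
  have hj := j.2
  have h1 := mod_lt_two' (m := m) (x := (i : ℕ) + 1 + u) (by omega)
  have h2 : dmn i j = if (i : ℕ) + (m - j) < m then (i : ℕ) + (m - j)
      else (i : ℕ) + (m - j) - m := mod_lt_two' (by omega)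
  rw [h1, h2]
  split_ifs <;> omega

private theorem col_iff (i j p : Fin m) {t : ℕ} (ht : (p : ℕ) + t < m) :
    col m ((ap i p : ℕ) + t) = j ↔ (p : ℕ) + t + dmn i j + 1 = m := by
  rw [col_ap_add, Fin.ext_iff, col_val, add_assoc ((i : ℕ) + 1), mod_eq_iff' i j ht]

private theorem dmn_self (i : Fin m) : dmn i i = 0 := by
  unfold dmn
  have := i.2
  rw [show (i : ℕ) + (m - i) = m by omega, Nat.mod_self]

private theorem pth_iff (i p : Fin m) (j : ℕ) :
    Pth (Finset.univ.erase i) (ap i p) j ↔ (ap i p : ℕ) ≤ j ∧ j + p < ap i p + m := by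
  have hp := p.2
  constructor
  · intro h
    refine ⟨h.1, ?_⟩
    by_contra hc
    push Not at hc
    have := h.2 (ap i p + (m - 1 - p)) (by omega) (by omega)
    rw [Finset.mem_erase] at this
    apply this.1
    rw [col_iff i i p (by omega), dmn_self]; omega
  · rintro ⟨h1, h2⟩
    refine ⟨h1, fun x hx hxj => ?_⟩
    rw [Finset.mem_erase]
    refine ⟨?_, Finset.mem_univ _⟩
    intro hcol
    obtain ⟨t, rfl⟩ := Nat.exists_eq_add_of_le hx
    rw [col_iff i i p (by omega), dmn_self] at hcol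
    omega

private theorem ap_surj (i a : Fin m) : ∃ p, ap i p = a := by
  refine ⟨col m (a + (m - (i + 1))), ?_⟩
  apply Fin.ext
  rw [ap_val, col_val, Nat.add_mod_mod]
  have := i.2
  rw [show (i : ℕ) + 1 + (a + (m - (i + 1))) = a + m by omega, Nat.add_mod_right,
    Nat.mod_eq_of_lt a.2]

private theorem ap_inj (i : Fin m) : Function.Injective (ap i) :=
  Finite.injective_iff_surjective.2 (ap_surj i)

private theorem coef_sum {ι : Type} (s : Finset ι) (g : ι → Matrix (Fin m) (Fin m) F[X])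
    (a : Fin m) (j : ℕ) : coef (∑ x ∈ s, g x) a j = ∑ x ∈ s, coef (g x) a j := by
  unfold coef
  rw [Matrix.sum_apply, Polynomial.finsetSum_coeff]

theorem dmn_bij (i : Fin m) : Set.BijOn (dmn i) {j | j ≠ i} (Set.Ioo 0 m) := by
  have hi := i.2
  refine ⟨?_, ?_, ?_⟩
  · intro j hj
    have hj2 := j.2
    rcases lt_or_gt_of_ne (show j ≠ i from hj) with h | h
    · rw [dmn_of_lt h]
      have h3 : (j : ℕ) < i := h
      constructor <;> omega
    · rw [dmn_of_gt h]
      have h3 : (i : ℕ) < j := h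
      constructor <;> omega
  · intro j hj k hk e
    have hj2 := j.2
    have hk2 := k.2
    apply Fin.ext
    rcases lt_or_gt_of_ne (show j ≠ i from hj) with h | h <;>
      rcases lt_or_gt_of_ne (show k ≠ i from hk) with h' | h'
    · rw [dmn_of_lt h, dmn_of_lt h'] at e
      have h3 : (j : ℕ) < i := h
      have h4 : (k : ℕ) < i := h'
      omega
    · rw [dmn_of_lt h, dmn_of_gt h'] at e
      have h3 : (j : ℕ) < i := h
      have h4 : (i : ℕ) < k := h'
      omega
    · rw [dmn_of_gt h, dmn_of_lt h'] at e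
      have h3 : (i : ℕ) < j := h
      have h4 : (k : ℕ) < i := h'
      omega
    · rw [dmn_of_gt h, dmn_of_gt h'] at e
      have h3 : (i : ℕ) < j := h
      have h4 : (i : ℕ) < k := h'
      omega
  · rintro k ⟨h1, h2⟩
    by_cases hk : k ≤ i
    · have h3 : (⟨(i : ℕ) - k, by omega⟩ : Fin m) < i := by
        rw [Fin.lt_def]
        simp only
        omega
      refine ⟨⟨(i : ℕ) - k, by omega⟩, h3.ne, ?_⟩
      rw [dmn_of_lt h3]
      simp only
      omega
    · have h3 : i < (⟨(i : ℕ) + m - k, by omega⟩ : Fin m) := by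
        rw [Fin.lt_def]
        simp only
        omega
      refine ⟨⟨(i : ℕ) + m - k, by omega⟩, h3.ne', ?_⟩
      rw [dmn_of_gt h3]
      simp only
      omega

theorem Mt_one (i : Fin m) : Mt i (1 : Matrix (Fin m) (Fin m) F[X]) = 1 := by
  ext p q
  rw [Matrix.one_apply]
  unfold Mt
  by_cases h : p ≤ q
  · rw [if_pos h, coef_one]
    have h' : (p : ℕ) ≤ q := h
    by_cases e : p = q
    · subst e
      rw [if_pos rfl, if_pos (by omega)]
    · rw [if_neg e, if_neg]
      intro h1
      apply e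
      apply Fin.ext
      omega
  · rw [if_neg h, if_neg]
    rintro rfl
    exact h le_rfl

theorem col_ap (i p r : Fin m) (h : p ≤ r) :
    col m ((ap i p : ℕ) + ((r : ℕ) - p)) = ap i r := by
  have h' : (p : ℕ) ≤ r := h
  apply Fin.ext
  unfold ap
  rw [col_val, col_val, col_val, Nat.mod_add_mod]
  congr 1
  omega

theorem Mt_mul (i : Fin m) {g h : Matrix (Fin m) (Fin m) F[X]}
    (hg : g ∈ PM (Finset.univ.erase i)) (hh : h ∈ PM (Finset.univ.erase i)) :
    Mt i (g * h) = Mt i g * Mt i h := by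
  ext p q
  rw [Matrix.mul_apply]
  by_cases hpq : p ≤ q
  · have hpq' : (p : ℕ) ≤ q := hpq
    have e1 : Mt i (g * h) p q = coef (g * h) (ap i p) ((ap i p : ℕ) + ((q : ℕ) - p)) := by
      unfold Mt
      rw [if_pos hpq]
    rw [e1, coef_mul g h (pth_nonneg hh)]
    have e2 : ∑ x ∈ Finset.range ((ap i p : ℕ) + ((q : ℕ) - p) + 1), coef g (ap i p) x *
        coef h (col m x) ((ap i p : ℕ) + ((q : ℕ) - p) - x + x % m) =
        ∑ x ∈ Finset.Ico (ap i p : ℕ) ((ap i p : ℕ) + ((q : ℕ) - p) + 1), coef g (ap i p) x *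
        coef h (col m x) ((ap i p : ℕ) + ((q : ℕ) - p) - x + x % m) := by
      symm
      apply Finset.sum_subset
      · intro x hx
        rw [Finset.mem_Ico] at hx
        rw [Finset.mem_range]
        exact hx.2
      · intro x hx hx'
        rw [Finset.mem_range] at hx
        rw [Finset.mem_Ico] at hx'
        by_contra hne
        have := (hg.1 _ _ (left_ne_zero_of_mul hne)).1
        exact hx' ⟨this, hx⟩
    have e3 : ∑ r, Mt i g p r * Mt i h r q = ∑ r ∈ Finset.Icc p q, Mt i g p r * Mt i h r q := by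
      symm
      apply Finset.sum_subset (Finset.subset_univ _)
      intro r _ hr
      rw [Finset.mem_Icc, not_and_or] at hr
      rcases hr with hr | hr
      · have : Mt i g p r = 0 := by
          unfold Mt
          rw [if_neg hr]
        rw [this, zero_mul]
      · have : Mt i h r q = 0 := by
          unfold Mt
          rw [if_neg hr]
        rw [this, mul_zero]
    rw [e2, e3]
    symm
    refine Finset.sum_bij (fun r _ => (ap i p : ℕ) + ((r : ℕ) - p)) ?_ ?_ ?_ ?_
    · intro r hr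
      rw [Finset.mem_Icc] at hr
      have h1 : (p : ℕ) ≤ r := hr.1
      have h2 : (r : ℕ) ≤ q := hr.2
      rw [Finset.mem_Ico]
      constructor <;> omega
    · intro r hr r' hr' e
      rw [Finset.mem_Icc] at hr hr'
      have h1 : (p : ℕ) ≤ r := hr.1
      have h2 : (p : ℕ) ≤ r' := hr'.1
      apply Fin.ext
      omega
    · intro x hx
      rw [Finset.mem_Ico] at hx
      have hq := q.2
      refine ⟨⟨(p : ℕ) + (x - ap i p), by omega⟩, ?_, ?_⟩
      · rw [Finset.mem_Icc, Fin.le_def, Fin.le_def]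
        simp only
        constructor <;> omega
      · simp only
        omega
    · intro r hr
      rw [Finset.mem_Icc] at hr
      have h1 : (p : ℕ) ≤ r := hr.1
      have h2 : (r : ℕ) ≤ q := hr.2
      have e4 : Mt i g p r = coef g (ap i p) ((ap i p : ℕ) + ((r : ℕ) - p)) := by
        unfold Mt
        rw [if_pos hr.1]
      have e5 : Mt i h r q = coef h (ap i r) ((ap i r : ℕ) + ((q : ℕ) - r)) := by
        unfold Mt
        rw [if_pos hr.2]
      rw [e4, e5]
      have e6 := col_ap i p r hr.1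
      have e7 : ((ap i p : ℕ) + ((r : ℕ) - p)) % m = ap i r := by
        rw [← col_val, e6]
      rw [e6, e7]
      congr 2
      omega
  · have e1 : Mt i (g * h) p q = 0 := by
      unfold Mt
      rw [if_neg hpq]
    rw [e1]
    symm
    apply Finset.sum_eq_zero
    intro r _
    by_cases h1 : p ≤ r
    · have : ¬ r ≤ q := fun h2 => hpq (h1.trans h2)
      have : Mt i h r q = 0 := by
        unfold Mt
        rw [if_neg this]
      rw [this, mul_zero]
    · have : Mt i g p r = 0 := by
        unfold Mt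
        rw [if_neg h1]
      rw [this, zero_mul]

theorem Mt_diag (i : Fin m) {g : Matrix (Fin m) (Fin m) F[X]}
    (hg : g ∈ PM (Finset.univ.erase i)) (p : Fin m) : Mt i g p p = 1 := by
  unfold Mt
  rw [if_pos le_rfl, Nat.sub_self, add_zero]
  exact hg.2 _

/-- an element of `K_J` is determined by its matrix. -/
theorem Mt_inj (i : Fin m) {g h : Matrix (Fin m) (Fin m) F[X]}
    (hg : g ∈ PM (Finset.univ.erase i)) (hh : h ∈ PM (Finset.univ.erase i))
    (e : Mt i g = Mt i h) : g = h := by
  apply ext_coef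
  intro a j
  obtain ⟨p, rfl⟩ := ap_surj i a
  by_cases hc : (ap i p : ℕ) ≤ j ∧ j + p < ap i p + m
  · have hp := p.2
    have h1 := congrFun (congrFun e p) (⟨(p : ℕ) + (j - ap i p), by omega⟩ : Fin m)
    have h2 : p ≤ (⟨(p : ℕ) + (j - ap i p), by omega⟩ : Fin m) := by
      rw [Fin.le_def]; exact Nat.le_add_right _ _
    unfold Mt at h1
    rw [if_pos h2, if_pos h2] at h1
    have h3 : (ap i p : ℕ) + ((p : ℕ) + (j - ap i p) - p) = j := by omega
    simpa only [h3] using h1
  · have h1 : coef g (ap i p) j = 0 := by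
      by_contra hne
      exact hc ((pth_iff i p j).1 (hg.1 _ _ hne))
    have h2 : coef h (ap i p) j = 0 := by
      by_contra hne
      exact hc ((pth_iff i p j).1 (hh.1 _ _ hne))
    rw [h1, h2]

theorem Mt_surj (i : Fin m) (T : Matrix (Fin m) (Fin m) F)
    (h0 : ∀ p q : Fin m, q < p → T p q = 0) (h1 : ∀ p, T p p = 1) :
    ∃ g ∈ PM (F := F) (Finset.univ.erase i), Mt i g = T := by
  classical
  set G : Fin m × Fin m → Matrix (Fin m) (Fin m) F[X] := fun x =>
    if x.1 ≤ x.2 then pm (ap i x.1) ((ap i x.1 : ℕ) + ((x.2 : ℕ) - x.1)) (T x.1 x.2) else 0 with hG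
  have hGc : ∀ x a j, coef (G x) a j = if x.1 ≤ x.2 ∧ a = ap i x.1 ∧
      j = (ap i x.1 : ℕ) + ((x.2 : ℕ) - x.1) then T x.1 x.2 else 0 := by
    intro x a j
    simp only [hG]
    by_cases h : x.1 ≤ x.2
    · rw [if_pos h, coef_pm]
      by_cases h2 : a = ap i x.1 ∧ j = (ap i x.1 : ℕ) + ((x.2 : ℕ) - x.1)
      · rw [if_pos h2, if_pos ⟨h, h2⟩]
      · rw [if_neg h2, if_neg (fun h3 => h2 h3.2)]
    · rw [if_neg h, if_neg (fun h3 => h h3.1)]
      simp [coef]
  have hgc : ∀ a j, coef (∑ x, G x) a j = ∑ x : Fin m × Fin m, if x.1 ≤ x.2 ∧ a = ap i x.1 ∧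
      j = (ap i x.1 : ℕ) + ((x.2 : ℕ) - x.1) then T x.1 x.2 else 0 := by
    intro a j
    rw [coef_sum]
    exact Finset.sum_congr rfl fun x _ => hGc x a j
  have hpq : ∀ p q : Fin m, p ≤ q →
      coef (∑ x, G x) (ap i p) ((ap i p : ℕ) + ((q : ℕ) - p)) = T p q := by
    intro p q hle
    rw [hgc, Finset.sum_eq_single (p, q)]
    · rw [if_pos ⟨hle, rfl, rfl⟩]
    · rintro ⟨p', q'⟩ _ hne
      rw [if_neg]
      rintro ⟨h3, h4, h5⟩
      have h6 : p = p' := ap_inj i h4
      subst h6
      apply hne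
      simp only at h3 h5
      rw [Fin.le_def] at h3 hle
      have h7 : (q' : ℕ) = q := by omega
      rw [Fin.ext h7]
    · intro h; exact absurd (Finset.mem_univ _) h
  refine ⟨∑ x, G x, ⟨?_, ?_⟩, ?_⟩
  · intro a j hne
    rw [hgc] at hne
    obtain ⟨x, _, hx⟩ := Finset.exists_ne_zero_of_sum_ne_zero hne
    have hx' : x.1 ≤ x.2 ∧ a = ap i x.1 ∧ j = (ap i x.1 : ℕ) + ((x.2 : ℕ) - x.1) := by
      by_contra hcon
      exact hx (if_neg hcon)
    obtain ⟨h3, h4, h5⟩ := hx'
    rw [h4, pth_iff]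
    rw [Fin.le_def] at h3
    have := x.2.2
    constructor
    · omega
    · omega
  · intro a
    obtain ⟨p, rfl⟩ := ap_surj i a
    have := hpq p p le_rfl
    rw [Nat.sub_self, add_zero] at this
    rw [this, h1]
  · ext p q
    unfold Mt
    by_cases h : p ≤ q
    · rw [if_pos h, hpq p q h]
    · rw [if_neg h, h0 p q (not_le.1 h)]

/-- surjectivity at the level of groups. -/
theorem KU_surj (i : Fin m) (T : Matrix (Fin m) (Fin m) F)
    (h0 : ∀ p q : Fin m, q < p → T p q = 0) (h1 : ∀ p, T p p = 1) :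
    ∃ g ∈ KU F (Finset.univ.erase i), Mt i (g : Matrix (Fin m) (Fin m) F[X]) = T := by
  classical
  have hbt : T.BlockTriangular id := fun p q hpq => h0 p q hpq
  have hdet : T.det = 1 := by
    rw [Matrix.det_of_isUpperTriangular hbt]
    exact Finset.prod_eq_one fun p _ => h1 p
  have hu : IsUnit T.det := by rw [hdet]; exact isUnit_one
  let _ : Invertible T := T.invertibleOfIsUnitDet hu
  have hbt' : (T⁻¹).BlockTriangular id := Matrix.blockTriangular_inv_of_blockTriangular hbt
  have hTS : T * T⁻¹ = 1 := Matrix.mul_nonsing_inv T hu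
  have hST : T⁻¹ * T = 1 := Matrix.nonsing_inv_mul T hu
  have h0' : ∀ p q : Fin m, q < p → T⁻¹ p q = 0 := fun p q hpq => hbt' hpq
  have h1' : ∀ p, T⁻¹ p p = 1 := by
    intro p
    have h2 := congrFun (congrFun hTS p) p
    rw [Matrix.mul_apply, Matrix.one_apply_eq, Finset.sum_eq_single p] at h2
    · rw [h1, one_mul] at h2; exact h2
    · intro k _ hk
      rcases lt_or_gt_of_ne hk with h3 | h3
      · rw [h0 p k h3, zero_mul]
      · rw [h0' k p h3, mul_zero]
    · intro h; exact absurd (Finset.mem_univ _) h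
  obtain ⟨g, hg, hgT⟩ := Mt_surj i T h0 h1
  obtain ⟨h, hh, hhS⟩ := Mt_surj i T⁻¹ h0' h1'
  have e1 : g * h = 1 := by
    apply Mt_inj i (mul_mem_PM hg hh) (one_mem_PM _)
    rw [Mt_mul i hg hh, hgT, hhS, hTS, Mt_one]
  have e2 : h * g = 1 := by
    apply Mt_inj i (mul_mem_PM hh hg) (one_mem_PM _)
    rw [Mt_mul i hh hg, hgT, hhS, hST, Mt_one]
  exact ⟨⟨g, h, e1, e2⟩, hg, hgT⟩

/-- the subgroup without the arrow `j`. -/
theorem mem_erase_iff (i j : Fin m) (hij : j ≠ i) {g : Matrix (Fin m) (Fin m) F[X]}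
    (hg : g ∈ PM (Finset.univ.erase i)) :
    g ∈ PM (Finset.univ.erase j) ↔
      ∀ p q : Fin m, (p : ℕ) + dmn i j < m → m ≤ (q : ℕ) + dmn i j → Mt i g p q = 0 := by
  constructor
  · intro hg' p q h1 h2
    by_contra hne
    have hq := q.2
    have hpq : p ≤ q := by rw [Fin.le_def]; omega
    unfold Mt at hne
    rw [if_pos hpq] at hne
    have h3 := (hg'.1 _ _ hne).2 ((ap i p : ℕ) + (m - 1 - dmn i j - p)) (by omega) (by omega)
    rw [Finset.mem_erase] at h3
    apply h3.1
    rw [col_iff i j p (by omega)]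
    omega
  · intro h
    refine ⟨fun a l hne => ?_, hg.2⟩
    have hP := hg.1 a l hne
    obtain ⟨p, rfl⟩ := ap_surj i a
    have hp := p.2
    rw [pth_iff] at hP
    refine ⟨hP.1, fun x hx hxl => ?_⟩
    rw [Finset.mem_erase]
    refine ⟨?_, Finset.mem_univ _⟩
    intro hcol
    obtain ⟨t, rfl⟩ := Nat.exists_eq_add_of_le hx
    rw [col_iff i j p (by omega)] at hcol
    have h4 := h p ⟨(p : ℕ) + (l - ap i p), by omega⟩ (by omega) (by simp only; omega)
    unfold Mt at h4
    rw [if_pos (by rw [Fin.le_def]; exact Nat.le_add_right _ _)] at h4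
    have h3 : (ap i p : ℕ) + ((p : ℕ) + (l - ap i p) - p) = l := by omega
    simp only [h3] at h4
    exact hne h4

end

end Crest.Agent.R66.B
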