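import Crest.Agent.R66.BInd1

/-!
# Row 66, part (B): the induction step and the base (helper12)
-/
set_option autoImplicit false

namespace Crest.Agent.R66.B

open Finset Crest.Agent.R66

section
variable {V : Type} [Fintype V] [DecidableEq V] {I : Type} [DecidableEq I]

namespace Ind2

theorem uniq_of_wt {C : Finset (Finset V)} {typ : V → I} {J : Finset I} (hT : Typed C typ J)
    {κ : I} {τ : Finset V} (h : 0 < wt C τ) {v w : V} (hv : v ∈ τ) (hw : w ∈ τ)
    (tv : typ v = κ) (tw : typ w = κ) : v = w := by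
  unfold wt at h
  rw [card_pos] at h
  obtain ⟨c, hc⟩ := h
  rw [mem_filter] at hc
  exact hT.inj c hc.1 v (hc.2 hv) w (hc.2 hw) (tv.trans tw.symm)

theorem wt_mono' (C : Finset (Finset V)) {σ τ : Finset V} (h : σ ⊆ τ) : wt C τ ≤ wt C σ := by
  refine card_le_card fun c hc => ?_
  simp only [mem_filter] at hc ⊢
  exact ⟨hc.1, h.trans hc.2⟩

/-- reindexing of pairs (vertex of type `κ`, rest) -/
theorem sum_pairs {typ : V → I} {κ : I} (σ : Finset V) (hσ : ∀ v ∈ σ, typ v ≠ κ) (n : ℕ)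
    (q : Finset V → ℕ) :
    ∑ v ∈ univ.filter (fun v => typ v = κ), ∑ ρ ∈ (insert v σ)ᶜ.powersetCard n, q (insert v ρ) =
      ∑ τ ∈ σᶜ.powersetCard (n + 1), ∑ _v ∈ τ.filter (fun v => typ v = κ), q τ := by
  rw [Finset.sum_sigma', Finset.sum_sigma']
  refine Finset.sum_bij' (fun a _ => (⟨insert a.1 a.2, a.1⟩ : (_ : Finset V) × V))
    (fun b _ => (⟨b.2, b.1.erase b.2⟩ : (_ : V) × Finset V)) ?_ ?_ ?_ ?_ ?_
  · rintro ⟨v, ρ⟩ h
    simp only [mem_sigma, mem_filter, mem_univ, true_and, mem_powersetCard] at h ⊢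
    obtain ⟨hv, hρ, hc⟩ := h
    have hvρ : v ∉ ρ := fun h => (mem_compl.1 (hρ h)) (mem_insert_self _ _)
    refine ⟨⟨?_, ?_⟩, mem_insert_self _ _, hv⟩
    · intro w hw
      rw [mem_compl]
      rcases mem_insert.1 hw with rfl | hw
      · exact fun h => hσ _ h hv
      · exact fun h => (mem_compl.1 (hρ hw)) (mem_insert_of_mem h)
    · rw [card_insert_of_notMem hvρ, hc]
  · rintro ⟨τ, v⟩ h
    simp only [mem_sigma, mem_filter, mem_univ, true_and, mem_powersetCard] at h ⊢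
    obtain ⟨⟨hτ, hc⟩, hvτ, hv⟩ := h
    refine ⟨hv, ?_, ?_⟩
    · intro w hw
      rw [mem_erase] at hw
      rw [mem_compl, mem_insert, not_or]
      exact ⟨hw.1, mem_compl.1 (hτ hw.2)⟩
    · rw [card_erase_of_mem hvτ, hc]; rfl
  · rintro ⟨v, ρ⟩ h
    simp only [mem_sigma, mem_filter, mem_univ, true_and, mem_powersetCard] at h
    obtain ⟨hv, hρ, hc⟩ := h
    have hvρ : v ∉ ρ := fun h => (mem_compl.1 (hρ h)) (mem_insert_self _ _)
    simp only [erase_insert hvρ]
  · rintro ⟨τ, v⟩ h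
    simp only [mem_sigma, mem_filter, mem_univ, true_and, mem_powersetCard] at h
    simp only [insert_erase h.2.1]
  · rintro ⟨v, ρ⟩ _
    rfl

/-- expansion of `dl` on an inserted vertex -/
theorem dl_insert (f : Finset V → ZMod 2) {v : V} {ρ : Finset V} (hv : v ∉ ρ) :
    dl f (insert v ρ) = f ρ + ∑ w ∈ ρ, f (insert v (ρ.erase w)) := by
  unfold dl
  rw [Finset.sum_insert hv, erase_insert hv]
  congr 1
  refine sum_congr rfl fun w hw => ?_
  rw [erase_insert_of_ne (show v ≠ w from fun h => hv (by rw [h]; exact hw))]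

/-- `h2` -/
def glue (typ : V → I) (κ : I) (hv : V → Finset V → ZMod 2) (ρ : Finset V) : ZMod 2 :=
  ∑ v ∈ ρ.filter (fun v => typ v = κ), hv v (ρ.erase v)

omit [Fintype V] in
theorem glue_zero {typ : V → I} {κ : I} {hv : V → Finset V → ZMod 2} {ρ : Finset V}
    (h : ∀ v ∈ ρ, typ v ≠ κ) : glue typ κ hv ρ = 0 := by
  unfold glue
  rw [filter_false_of_mem h, sum_empty]

omit [Fintype V] in
theorem glue_insert {typ : V → I} {κ : I} {hv : V → Finset V → ZMod 2} {v : V} {ρ : Finset V}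
    (hvρ : v ∉ ρ) (tv : typ v = κ) (h : ∀ w ∈ ρ, typ w ≠ κ) :
    glue typ κ hv (insert v ρ) = hv v ρ := by
  unfold glue
  rw [filter_insert, if_pos tv, filter_false_of_mem h, Finset.sum_insert (notMem_empty _), sum_empty,
    add_zero, erase_insert hvρ]

theorem dl_glue_zero {typ : V → I} {κ : I} {hv : V → Finset V → ZMod 2} {ρ : Finset V}
    (h : ∀ v ∈ ρ, typ v ≠ κ) : dl (glue typ κ hv) ρ = 0 := by
  unfold dl
  refine sum_eq_zero fun w _ => glue_zero fun v hv => h v (mem_of_mem_erase hv)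

theorem dl_glue_insert {typ : V → I} {κ : I} {hv : V → Finset V → ZMod 2} {v : V} {ρ : Finset V}
    (hvρ : v ∉ ρ) (tv : typ v = κ) (h : ∀ w ∈ ρ, typ w ≠ κ) :
    dl (glue typ κ hv) (insert v ρ) = dl (hv v) ρ := by
  rw [dl_insert _ hvρ, glue_zero h, zero_add]
  unfold dl
  refine sum_congr rfl fun w _ => ?_
  exact glue_insert (fun h' => hvρ (mem_of_mem_erase h')) tv (fun u hu => h u (mem_of_mem_erase hu))

theorem union_insert' (σ ρ : Finset V) (v : V) : σ ∪ insert v ρ = insert v σ ∪ ρ := by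
  rw [union_insert, insert_union]

/-- part of the weight on faces with a vertex of type `κ` -/
theorem WL_split {C : Finset (Finset V)} {typ : V → I}
    {κ : I} (σ : Finset V) (hσ : ∀ v ∈ σ, typ v ≠ κ) (r : ℕ) (F : Finset V → ZMod 2) :
    WL C σ (r + 1) F ≤ WLk C typ κ σ (r + 1) F +
      ∑ v ∈ univ.filter (fun v => typ v = κ), ∑ ρ ∈ (insert v σ)ᶜ.powersetCard r,
        (if F (insert v ρ) ≠ 0 then wt C (insert v σ ∪ ρ) else 0) := by
  have h := sum_pairs (typ := typ) (κ := κ) σ hσ r (fun τ => if F τ ≠ 0 then wt C (σ ∪ τ) else 0)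
  simp only [union_insert'] at h
  rw [h]
  unfold WL WLk
  rw [sum_filter, sum_filter, ← sum_add_distrib]
  refine sum_le_sum fun τ _ => ?_
  by_cases hF : F τ ≠ 0
  · by_cases hk : ∀ v ∈ τ, typ v ≠ κ
    · rw [if_pos hF, if_pos ⟨hF, hk⟩]
      exact Nat.le_add_right _ _
    · push Not at hk
      obtain ⟨v, hv, tv⟩ := hk
      rw [if_pos hF]
      refine le_trans ?_ (Nat.le_add_left _ _)
      exact single_le_sum (f := fun _ : V => wt C (σ ∪ τ)) (fun _ _ => Nat.zero_le _)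
        (mem_filter.2 ⟨hv, tv⟩)
  · rw [if_neg hF]
    exact Nat.zero_le _

theorem sum_le_WL {C : Finset (Finset V)} {typ : V → I} {J : Finset I} (hT : Typed C typ J)
    {κ : I} (σ : Finset V) (hσ : ∀ v ∈ σ, typ v ≠ κ) (r : ℕ) (F : Finset V → ZMod 2) :
    ∑ v ∈ univ.filter (fun v => typ v = κ), ∑ ρ ∈ (insert v σ)ᶜ.powersetCard r,
        (if F (insert v ρ) ≠ 0 then wt C (insert v σ ∪ ρ) else 0) ≤ WL C σ (r + 1) F := by
  have h := sum_pairs (typ := typ) (κ := κ) σ hσ r (fun τ => if F τ ≠ 0 then wt C (σ ∪ τ) else 0)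
  simp only [union_insert'] at h
  rw [h]
  unfold WL
  rw [sum_filter]
  refine sum_le_sum fun τ _ => ?_
  by_cases hw : 0 < wt C (σ ∪ τ)
  · have hc : (τ.filter fun v => typ v = κ).card ≤ 1 := by
      rw [card_le_one]
      intro a ha b hb
      rw [mem_filter] at ha hb
      exact uniq_of_wt hT hw (mem_union_right _ ha.1) (mem_union_right _ hb.1) ha.2 hb.2
    rw [sum_const, smul_eq_mul]
    calc _ ≤ 1 * (if F τ ≠ 0 then wt C (σ ∪ τ) else 0) := Nat.mul_le_mul_right _ hc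
      _ = _ := one_mul _
  · have h0 : wt C (σ ∪ τ) = 0 := by omega
    rw [h0]
    simp

end Ind2

open Ind2 in
/-- the induction step. -/
theorem ac_succ {C : Finset (Finset V)} {typ : V → I} {J : Finset I} (hT : Typed C typ J)
    {κ : I} (hκ : κ ∈ J) (σ : Finset V) (hσ : ∀ v ∈ σ, typ v ≠ κ) (r : ℕ) (Ca ea C1 e1 : ℝ)
    (hCa : 0 ≤ Ca) (hea : 0 ≤ ea) (hC1 : 0 ≤ C1) (he1 : 0 ≤ e1)
    (hAK : AK C typ κ σ (r + 1) Ca ea)
    (hAC : ∀ v : V, typ v = κ → 0 < wt C (insert v σ) → AC C (insert v σ) r C1 e1) :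
    AC C σ (r + 1) ((1 + C1) * Ca + C1) ((1 + C1) * ea + e1) := by
  classical
  intro g
  obtain ⟨h1, hh1⟩ := hAK g
  set f1 := g + dl h1 with hf1
  have hdf1 : dl f1 = dl g := by
    rw [hf1, dl_add, dl_dl, add_zero]
  have hex : ∀ v : V, ∃ hv : Finset V → ZMod 2, typ v = κ → 0 < wt C (insert v σ) →
      (WL C (insert v σ) r ((fun ρ => f1 (insert v ρ)) + dl hv) : ℝ) ≤
        C1 * (WL C (insert v σ) (r + 1) (dl fun ρ => f1 (insert v ρ)) : ℝ) +
          e1 * (wt C (insert v σ) : ℝ) := by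
    intro v
    by_cases h : typ v = κ ∧ 0 < wt C (insert v σ)
    · obtain ⟨hv, hhv⟩ := hAC v h.1 h.2 (fun ρ => f1 (insert v ρ))
      exact ⟨hv, fun _ _ => hhv⟩
    · exact ⟨0, fun a b => absurd ⟨a, b⟩ h⟩
  choose hv hhv using hex
  refine ⟨h1 + glue typ κ hv, ?_⟩
  have hF : g + dl (h1 + glue typ κ hv) = f1 + dl (glue typ κ hv) := by
    rw [dl_add, hf1, add_assoc]
  rw [hF]
  -- the part without `κ`
  have hk0 : WLk C typ κ σ (r + 1) (f1 + dl (glue typ κ hv)) = WLk C typ κ σ (r + 1) f1 := by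
    unfold WLk
    refine sum_congr ?_ fun _ _ => rfl
    refine filter_congr fun ρ _ => ?_
    constructor
    · rintro ⟨a, b⟩
      refine ⟨?_, b⟩
      rwa [Pi.add_apply, dl_glue_zero b, add_zero] at a
    · rintro ⟨a, b⟩
      refine ⟨?_, b⟩
      rwa [Pi.add_apply, dl_glue_zero b, add_zero]
  -- the part with `κ`, vertex by vertex
  have hpart : ∀ v ∈ univ.filter (fun v => typ v = κ),
      ((∑ ρ ∈ (insert v σ)ᶜ.powersetCard r,
        (if (f1 + dl (glue typ κ hv)) (insert v ρ) ≠ 0 then wt C (insert v σ ∪ ρ) else 0) : ℕ) : ℝ) ≤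
      C1 * (WL C (insert v σ) (r + 1) (dl fun ρ => f1 (insert v ρ)) : ℝ) +
          e1 * (wt C (insert v σ) : ℝ) := by
    intro v hv'
    have tv : typ v = κ := (mem_filter.1 hv').2
    by_cases hw : 0 < wt C (insert v σ)
    · refine le_trans ?_ (hhv v tv hw)
      rw [Nat.cast_le]
      unfold WL
      rw [sum_filter]
      refine sum_le_sum fun ρ hρ => ?_
      rw [mem_powersetCard] at hρ
      have hvρ : v ∉ ρ := fun h => (mem_compl.1 (hρ.1 h)) (mem_insert_self _ _)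
      by_cases hw2 : 0 < wt C (insert v σ ∪ ρ)
      · have hnk : ∀ w ∈ ρ, typ w ≠ κ := by
          intro w hw' tw
          apply hvρ
          have := uniq_of_wt hT hw2 (v := v) (w := w)
            (mem_union_left _ (mem_insert_self _ _)) (mem_union_right _ hw') tv tw
          rw [this]
          exact hw'
        rw [Pi.add_apply, Pi.add_apply, dl_glue_insert hvρ tv hnk]
      · have h0 : wt C (insert v σ ∪ ρ) = 0 := by omega
        rw [h0]
        simp
    · have h0 : ∀ ρ : Finset V, wt C (insert v σ ∪ ρ) = 0 := by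
        intro ρ
        have := wt_mono' C (subset_union_left : insert v σ ⊆ insert v σ ∪ ρ)
        omega
      simp only [h0, ite_self, sum_const_zero, Nat.cast_zero]
      positivity
  -- the coboundary of the link cochain
  have hlink : ∀ v ∈ univ.filter (fun v => typ v = κ),
      WL C (insert v σ) (r + 1) (dl fun ρ => f1 (insert v ρ)) ≤
        (∑ ρ ∈ (insert v σ)ᶜ.powersetCard (r + 1),
          (if (dl f1) (insert v ρ) ≠ 0 then wt C (insert v σ ∪ ρ) else 0)) +
        ∑ ρ ∈ (σᶜ.powersetCard (r + 1)).filter (fun ρ => f1 ρ ≠ 0 ∧ ∀ v ∈ ρ, typ v ≠ κ),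
          wt C (insert v (σ ∪ ρ)) := by
    intro v hv'
    have tv : typ v = κ := (mem_filter.1 hv').2
    have hsub : ∑ ρ ∈ (insert v σ)ᶜ.powersetCard (r + 1),
        (if f1 ρ ≠ 0 ∧ ∀ v ∈ ρ, typ v ≠ κ then wt C (insert v (σ ∪ ρ)) else 0) ≤
        ∑ ρ ∈ (σᶜ.powersetCard (r + 1)).filter (fun ρ => f1 ρ ≠ 0 ∧ ∀ v ∈ ρ, typ v ≠ κ),
          wt C (insert v (σ ∪ ρ)) := by
      rw [sum_filter]
      refine sum_le_sum_of_subset ?_
      refine powersetCard_mono ?_
      exact compl_subset_compl.2 (subset_insert _ _)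
    refine le_trans ?_ (Nat.add_le_add_left hsub _)
    unfold WL
    rw [sum_filter, ← sum_add_distrib]
    refine sum_le_sum fun ρ hρ => ?_
    rw [mem_powersetCard] at hρ
    have hvρ : v ∉ ρ := fun h => (mem_compl.1 (hρ.1 h)) (mem_insert_self _ _)
    by_cases hw2 : 0 < wt C (insert v σ ∪ ρ)
    · have hnk : ∀ w ∈ ρ, typ w ≠ κ := by
        intro w hw' tw
        apply hvρ
        have := uniq_of_wt hT hw2 (v := v) (w := w)
          (mem_union_left _ (mem_insert_self _ _)) (mem_union_right _ hw') tv tw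
        rw [this]
        exact hw'
      have hd : dl (fun ρ => f1 (insert v ρ)) ρ = dl f1 (insert v ρ) + f1 ρ := by
        rw [dl_insert f1 hvρ]
        unfold dl
        have h2 : f1 ρ + f1 ρ = 0 := CharTwo.add_self_eq_zero _
        rw [add_comm (f1 ρ) _, add_assoc, h2, add_zero]
      rw [hd]
      have hwe : wt C (insert v (σ ∪ ρ)) = wt C (insert v σ ∪ ρ) := by rw [insert_union]
      rw [hwe]
      by_cases ha : dl f1 (insert v ρ) ≠ 0
      · rw [if_pos ha]
        split_ifs <;> omega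
      · have ha' : dl f1 (insert v ρ) = 0 := not_not.1 ha
        by_cases hb : f1 ρ ≠ 0
        · rw [if_pos (⟨hb, hnk⟩ : f1 ρ ≠ 0 ∧ ∀ v ∈ ρ, typ v ≠ κ)]
          split_ifs <;> omega
        · have hb' : f1 ρ = 0 := not_not.1 hb
          rw [ha', hb']
          simp
    · have h0 : wt C (insert v σ ∪ ρ) = 0 := by omega
      rw [h0]
      simp
  have hsum2 : ∑ v ∈ univ.filter (fun v => typ v = κ),
      ∑ ρ ∈ (σᶜ.powersetCard (r + 1)).filter (fun ρ => f1 ρ ≠ 0 ∧ ∀ v ∈ ρ, typ v ≠ κ),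
          wt C (insert v (σ ∪ ρ)) = WLk C typ κ σ (r + 1) f1 := by
    rw [sum_comm]
    unfold WLk
    refine sum_congr rfl fun ρ hρ => ?_
    rw [mem_filter] at hρ
    refine sum_wt_typ hT hκ (σ ∪ ρ) ?_
    intro w hw
    rcases mem_union.1 hw with hw | hw
    · exact hσ w hw
    · exact hρ.2.2 w hw
  have htot : ∑ v ∈ univ.filter (fun v => typ v = κ),
      WL C (insert v σ) (r + 1) (dl fun ρ => f1 (insert v ρ)) ≤
        WL C σ (r + 2) (dl g) + WLk C typ κ σ (r + 1) f1 := by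
    refine (sum_le_sum hlink).trans ?_
    rw [sum_add_distrib, hsum2]
    refine Nat.add_le_add_right ?_ _
    rw [← hdf1]
    exact sum_le_WL hT σ hσ (r + 1) (dl f1)
  have hmain := WL_split (C := C) (typ := typ) (κ := κ) σ hσ r (f1 + dl (glue typ κ hv))
  rw [hk0] at hmain
  have hmain' : (WL C σ (r + 1) (f1 + dl (glue typ κ hv)) : ℝ) ≤
      (WLk C typ κ σ (r + 1) f1 : ℝ) +
        ∑ v ∈ univ.filter (fun v => typ v = κ),
          (C1 * (WL C (insert v σ) (r + 1) (dl fun ρ => f1 (insert v ρ)) : ℝ) +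
            e1 * (wt C (insert v σ) : ℝ)) := by
    have h2 : (WL C σ (r + 1) (f1 + dl (glue typ κ hv)) : ℝ) ≤
      (WLk C typ κ σ (r + 1) f1 : ℝ) + ∑ v ∈ univ.filter (fun v => typ v = κ),
        ((∑ ρ ∈ (insert v σ)ᶜ.powersetCard r,
          (if (f1 + dl (glue typ κ hv)) (insert v ρ) ≠ 0 then wt C (insert v σ ∪ ρ) else 0) : ℕ)
            : ℝ) := by
      exact_mod_cast hmain
    refine h2.trans ?_
    exact add_le_add le_rfl (sum_le_sum hpart)
  rw [sum_add_distrib, ← mul_sum, ← mul_sum] at hmain'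
  have htot' : ∑ v ∈ univ.filter (fun v => typ v = κ),
      (WL C (insert v σ) (r + 1) (dl fun ρ => f1 (insert v ρ)) : ℝ) ≤
        (WL C σ (r + 2) (dl g) : ℝ) + (WLk C typ κ σ (r + 1) f1 : ℝ) := by
    exact_mod_cast htot
  have hw' : ∑ v ∈ univ.filter (fun v => typ v = κ), (wt C (insert v σ) : ℝ) = (wt C σ : ℝ) := by
    exact_mod_cast sum_wt_typ hT hκ σ hσ
  rw [hw'] at hmain'
  have h3 := mul_le_mul_of_nonneg_left htot' hC1
  have h4 : (WLk C typ κ σ (r + 1) f1 : ℝ) ≤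
      Ca * (WL C σ (r + 2) (dl g) : ℝ) + ea * (wt C σ : ℝ) := hh1
  have h5 := mul_le_mul_of_nonneg_left h4 (by linarith : (0 : ℝ) ≤ 1 + C1)
  have h6 : (WL C σ (r + 1 + 1) (dl g) : ℝ) = (WL C σ (r + 2) (dl g) : ℝ) := rfl
  rw [h6]
  nlinarith [hmain', h3, h5]

end

end Crest.Agent.R66.B
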