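import Crest.Agent.R66.BStep
import Crest.Agent.R66.BInd

/-!
# Row 66, part (B): main theorem (helper12)
-/
set_option autoImplicit false

namespace Crest.Agent.R66.B

open Finset Crest.Agent.R66 Module

/-- the constants. -/
noncomputable def K1 (m : ℕ) : ℕ → ℝ
  | 0 => 1
  | r + 1 => (1 + K1 m r) * (m * 2 ^ m) + K1 m r

/-- the constants. -/
noncomputable def K2 (m : ℕ) : ℕ → ℝ
  | 0 => 0
  | r + 1 => (1 + K1 m r) * (m * 2 ^ m) + K2 m r

theorem K1_nonneg (m r : ℕ) : 0 ≤ K1 m r := by
  induction r with
  | zero => simp [K1]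
  | succ r ih =>
    rw [K1]
    positivity

theorem K2_nonneg (m r : ℕ) : 0 ≤ K2 m r := by
  induction r with
  | zero => simp [K2]
  | succ r ih =>
    have := K1_nonneg m r
    rw [K2]
    positivity

theorem K1_mono (m : ℕ) : Monotone (K1 m) := by
  refine monotone_nat_of_le_succ fun r => ?_
  have := K1_nonneg m r
  have h : 0 ≤ (1 + K1 m r) * ((m : ℝ) * 2 ^ m) := by positivity
  rw [K1]
  linarith

theorem K2_mono (m : ℕ) : Monotone (K2 m) := by
  refine monotone_nat_of_le_succ fun r => ?_
  have := K1_nonneg m r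
  have h : 0 ≤ (1 + K1 m r) * ((m : ℝ) * 2 ^ m) := by positivity
  rw [K2]
  linarith

section
variable {F : Type} [Field F] [Fintype F] {m : ℕ}

/-- approximate coboundary expansion of the links of the opposite flag complex. -/
theorem ac_Yc (r : ℕ) (τ : Finset (Submodule F (Fin m → F))) (hτ : 0 < wt (Yc F m) τ)
    (h : τ.card + r + 2 ≤ m) :
    AC (Yc F m) τ r (K1 m r) (K2 m r / Fintype.card F) := by
  induction r generalizing τ with
  | zero =>
    obtain ⟨A, B, hA, hB, hlt, htwo, hgap⟩ := exists_gap τ hτ (by omega)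
    have hκ : finrank F B - 1 ∈ Finset.Ioo 0 m := by
      have hle : finrank F B ≤ m := by
        have := Submodule.finrank_le B
        rwa [finrank_fin_fun] at this
      rw [Finset.mem_Ioo]
      omega
    have hne : ∀ v ∈ τ, tp v ≠ finrank F B - 1 := by
      intro v hv
      unfold tp
      rcases hgap v hv with h' | h'
      · have := Submodule.finrank_mono h'
        omega
      · have := Submodule.finrank_mono h'
        omega
    have := ac_zero (typed_Yc (F := F) (m := m) (by omega)) hκ τ hne
    simpa [K1, K2] using this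
  | succ r ih =>
    obtain ⟨A, B, hA, hB, hlt, htwo, hgap⟩ := exists_gap τ hτ (by omega)
    have hκ : finrank F B - 1 ∈ Finset.Ioo 0 m := by
      have hle : finrank F B ≤ m := by
        have := Submodule.finrank_le B
        rwa [finrank_fin_fun] at this
      rw [Finset.mem_Ioo]
      omega
    have hne : ∀ v ∈ τ, tp v ≠ finrank F B - 1 := by
      intro v hv
      unfold tp
      rcases hgap v hv with h' | h'
      · have := Submodule.finrank_mono h'
        omega
      · have := Submodule.finrank_mono h'
        omega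
    have hak := gap_ak (F := F) (m := m)
      { hm := by omega, face := hτ, hA := hA, hB := hB, lt := hlt, two := htwo, gap := hgap }
      (r + 1) (by omega)
    have hk1 := K1_nonneg m r
    have hk2 := K2_nonneg m r
    have := ac_succ (typed_Yc (F := F) (m := m) (by omega)) hκ τ hne r
      ((m : ℝ) * 2 ^ m) ((m : ℝ) * 2 ^ m / Fintype.card F) (K1 m r)
      (K2 m r / Fintype.card F) (by positivity) (by positivity) (by positivity) (by positivity)
      hak (fun v hv hwt => ih (insert v τ) hwt (by
        rw [Finset.card_insert_of_notMem (fun hmem => hne v hmem hv)]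
        omega))
    rw [K1, K2]
    convert this using 1
    ring

/-- part (B). -/
theorem acone_of_local {V : Type} [Fintype V] [DecidableEq V] (C : Finset (Finset V)) (d : ℕ)
    (hd : d + 2 ≤ m) (hloc : ∀ v : V, 0 < wt C {v} → CIso (lk C {v}) (Yc F m)) :
    ACone C d (K1 m d) (K2 m d / Fintype.card F) := by
  intro σ hne hσ r hr1 hrd g
  obtain ⟨v, hv⟩ := hne
  have hunion : ({v} : Finset V) ∪ σ.erase v = σ := by
    rw [← Finset.insert_eq, Finset.insert_erase hv]
  have hdisj : Disjoint ({v} : Finset V) (σ.erase v) := by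
    rw [Finset.disjoint_singleton_left]
    exact Finset.notMem_erase v σ
  have hwv : 0 < wt C {v} := by
    refine lt_of_lt_of_le hσ ?_
    unfold wt
    refine Finset.card_le_card fun c hc => ?_
    rw [Finset.mem_filter] at hc ⊢
    exact ⟨hc.1, (Finset.singleton_subset_iff.2 hv).trans hc.2⟩
  obtain ⟨θ, hinj, himg⟩ := hloc v hwv
  have hlk : wt (lk C {v}) (σ.erase v) = wt C σ := by
    rw [wt_lk_of_disjoint C {v} (σ.erase v) hdisj, hunion]
  have hlk0 : 0 < wt (lk C {v}) (σ.erase v) := by rw [hlk]; exact hσ
  obtain ⟨h1, h2⟩ := wt_iso (lk C {v}) (Yc F m) θ hinj himg (σ.erase v) hlk0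
  have hcard : (σ.erase v).card + 1 = σ.card := Finset.card_erase_add_one hv
  have hac := ac_Yc (F := F) (m := m) r ((σ.erase v).image θ) (by rw [h1]; exact hlk0)
    (by rw [h2]; omega)
  have hac2 := ac_iso (lk C {v}) (Yc F m) θ hinj himg (σ.erase v) hlk0 r _ _ hac
  have hac3 := ac_lk C {v} (σ.erase v) hdisj r _ _ hac2
  rw [hunion] at hac3
  obtain ⟨h, hh⟩ := hac3 g
  refine ⟨h, hh.trans ?_⟩
  have hr' : r ≤ d := by
    have : 1 ≤ σ.card := Finset.card_pos.2 ⟨v, hv⟩
    omega
  have hm1 := K1_mono m hr'
  have hm2 := K2_mono m hr'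
  gcongr

end

end Crest.Agent.R66.B
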