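import Crest.Agent.R66.DGroup

/-!
# Row 66: facts about the finite group `Gq` (helper94)
-/

set_option autoImplicit false
set_option linter.unusedSectionVars false

open Polynomial Matrix

namespace Crest.Agent.R66

section
variable {F : Type} [Field F] {m n : ℕ} [NeZero m]

theorem KG_mono {J J' : Finset (Fin m)} (h : J ⊆ J') : KG F n J ≤ KG F n J' :=
  Subgroup.map_mono fun g (hg : g.1 ∈ KU F J) => (show g.1 ∈ KU F J' from KU_mono h hg)

theorem KJ_Aq_le (J : Finset (Fin m)) : KJ (Aq F m n) J ≤ KG F n J :=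
  iSup₂_le fun _ hj => KG_mono (Finset.singleton_subset_iff.2 hj)

theorem KJ_Aq {J : Finset (Fin m)} (hJ : J ≠ Finset.univ) : KJ (Aq F m n) J = KG F n J := by
  refine le_antisymm (KJ_Aq_le J) ?_
  rintro _ ⟨u, hu, rfl⟩
  have hu' : u.1 ∈ Subgroup.closure (rootSet F J) := by
    rw [← KU_eq_closure hJ]; exact hu
  set H : Subgroup (UU F m) := (KJ (Aq F m n) J).comap (QuotientGroup.mk' (Nn F m n)) with hH
  have h1 : Subgroup.closure (rootSet F J) ≤ H.map (UU F m).subtype := by
    rw [Subgroup.closure_le]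
    rintro _ ⟨i, h, c, hi, rfl⟩
    have h2 : rt i (i + 1) h c ∈ KU F {i} := rt_mem_KU h (pth_one (Finset.mem_singleton_self i)) c
    have h3 : rt i (i + 1) h c ∈ UU F m := KU_mono (Finset.subset_univ _) h2
    refine ⟨⟨_, h3⟩, ?_, rfl⟩
    change QuotientGroup.mk' (Nn F m n) ⟨rt i (i + 1) h c, h3⟩ ∈ KJ (Aq F m n) J
    exact (le_iSup₂_of_le i hi le_rfl : Aq F m n i ≤ KJ (Aq F m n) J) ⟨⟨_, h3⟩, h2, rfl⟩
  obtain ⟨v, hv, hvu⟩ := h1 hu'
  have : v = u := Subtype.ext hvu
  rw [← this]
  exact hv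

/-- for `J ≠ univ`, elements of `K_J` are determined by their coefficients below degree `2` -/
theorem KU_inj (hn : 2 ≤ n) {J J' : Finset (Fin m)} (hJ : J ≠ Finset.univ)
    (hJ' : J' ≠ Finset.univ) {g h : UU F m} (hg : g ∈ KUs F m J) (hh : h ∈ KUs F m J')
    (e : (g : Gq F m n) = (h : Gq F m n)) : g = h := by
  rw [mk_eq_iff] at e
  apply Subtype.ext
  apply Units.ext
  apply ext_coef
  intro a j
  by_cases hj : j / m < n
  · exact e a j hj
  · have hm : 0 < m := Nat.pos_of_ne_zero (NeZero.ne m)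
    have h2 : 2 * m ≤ j := (Nat.le_div_iff_mul_le hm).1 (by omega)
    have ha := a.2
    have h3 : coef (g.1 : Matrix (Fin m) (Fin m) F[X]) a j = 0 := by
      by_contra hne
      have := (hg.1 a j hne).lt hJ
      omega
    have h4 : coef (h.1 : Matrix (Fin m) (Fin m) F[X]) a j = 0 := by
      by_contra hne
      have := (hh.1 a j hne).lt hJ'
      omega
    rw [h3, h4]

theorem erase_ne_univ (i : Fin m) : (Finset.univ.erase i : Finset (Fin m)) ≠ Finset.univ :=
  fun h => Finset.notMem_erase i Finset.univ (by rw [h]; exact Finset.mem_univ i)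

/-- the intersection property, from generation -/
theorem intP_Aq (hn : 2 ≤ n) (hgen : KJ (Aq F m n) Finset.univ = ⊤) : IntP (Aq F m n) := by
  intro S x hx
  by_cases hS : S.Nonempty
  · obtain ⟨i0, hi0⟩ := hS
    have hu : ∀ i ∈ S, ∃ u ∈ KUs F m (Finset.univ.erase i), (u : Gq F m n) = x := by
      intro i hi
      have := hx i hi
      rw [KJ_Aq (erase_ne_univ i)] at this
      exact this
    obtain ⟨u, hu0, hux⟩ := hu i0 hi0
    have h1 : ∀ i ∈ S, u ∈ KUs F m (Finset.univ.erase i) := by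
      intro i hi
      obtain ⟨v, hv, hvx⟩ := hu i hi
      have : u = v := KU_inj hn (erase_ne_univ i0) (erase_ne_univ i) hu0 hv (hux.trans hvx.symm)
      rw [this]; exact hv
    have hSc : Sᶜ ≠ Finset.univ := fun h => by
      have := Finset.mem_univ i0
      rw [← h, Finset.mem_compl] at this
      exact this hi0
    rw [KJ_Aq hSc]
    refine ⟨u, ?_, hux⟩
    refine ⟨fun a j hne => ⟨(hu0.1 a j hne).1, fun i h2 h3 => ?_⟩, hu0.2⟩
    rw [Finset.mem_compl]
    intro h4
    have := ((h1 _ h4).1 a j hne).2 i h2 h3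
    exact Finset.notMem_erase _ _ this
  · rw [Finset.not_nonempty_iff_eq_empty] at hS
    rw [hS, Finset.compl_empty, hgen]
    exact Subgroup.mem_top x

/-- powers of strictly positive matrices -/
theorem coef_pow {v : Matrix (Fin m) (Fin m) F[X]}
    (hv : ∀ (a : Fin m) (j : ℕ), coef v a j ≠ 0 → (a : ℕ) < j) (k : ℕ) :
    ∀ (a : Fin m) (j : ℕ), coef (v ^ k) a j ≠ 0 → (a : ℕ) + k ≤ j := by
  induction k with
  | zero =>
    intro a j hne
    rw [pow_zero, coef_one] at hne
    have : j = a := by by_contra h; exact hne (if_neg h)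
    omega
  | succ k ih =>
    intro a j hne
    rw [pow_succ, coef_mul _ _ fun a j h => (hv a j h).le] at hne
    obtain ⟨i, hi, hne⟩ := Finset.exists_ne_zero_of_sum_ne_zero hne
    rw [Finset.mem_range] at hi
    have h1 := ih a i (left_ne_zero_of_mul hne)
    have h2 := hv _ _ (right_ne_zero_of_mul hne)
    rw [col_val] at h2
    omega

section Finite
variable [Fintype F]

theorem odd_card_Gq (hF : Odd (Fintype.card F)) : Odd (Fintype.card (Gq F m n)) := by
  have hm : 0 < m := Nat.pos_of_ne_zero (NeZero.ne m)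
  obtain ⟨p, hp⟩ := CharP.exists F
  obtain ⟨e, hpp, hcard⟩ := FiniteField.card F p
  have : Fact p.Prime := ⟨hpp⟩
  have hpodd : Odd p := by
    rw [hcard] at hF
    exact (Nat.odd_pow_iff e.pos.ne').1 hF
  have hG : IsPGroup p (Gq F m n) := by
    intro x
    obtain ⟨u, rfl⟩ := QuotientGroup.mk_surjective x
    refine ⟨m * n, ?_⟩
    set v : Matrix (Fin m) (Fin m) F[X] := (u.1 : Matrix (Fin m) (Fin m) F[X]) - 1 with hv
    have hvpos : ∀ (a : Fin m) (j : ℕ), coef v a j ≠ 0 → (a : ℕ) < j := by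
      intro a j hne
      rw [hv, coef_sub, coef_one] at hne
      by_cases hj : j = a
      · subst hj
        rw [u.2.2, if_pos rfl, sub_self] at hne
        exact absurd rfl hne
      · rw [if_neg hj, sub_zero] at hne
        have := (u.2.1 a j hne).1
        omega
    have hpow : (u.1 : Matrix (Fin m) (Fin m) F[X]) ^ p ^ (m * n) = v ^ p ^ (m * n) + 1 := by
      have h1 : (u.1 : Matrix (Fin m) (Fin m) F[X]) = v + 1 := by rw [hv, sub_add_cancel]
      rw [h1, add_pow_char_pow_of_commute p (m * n) (Commute.one_right v), one_pow]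
    rw [← QuotientGroup.mk_pow, ← QuotientGroup.mk_one, mk_eq_iff]
    intro a j hj
    have e1 : ((u ^ p ^ (m * n)).1 : Matrix (Fin m) (Fin m) F[X]) =
        (u.1 : Matrix (Fin m) (Fin m) F[X]) ^ p ^ (m * n) := by
      rw [Subgroup.coe_pow, Units.val_pow_eq_pow_val]
    rw [e1, hpow, coef_add]
    have h2 : coef (v ^ p ^ (m * n)) a j = 0 := by
      by_contra hne
      have h3 := coef_pow hvpos _ a j hne
      have h4 : m * n < p ^ (m * n) := Nat.lt_pow_self hpp.one_lt
      have h5 := Nat.div_add_mod j m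
      have h6 := Nat.mod_lt j hm
      have h7 : m * (j / m + 1) ≤ m * n := Nat.mul_le_mul_left m hj
      rw [Nat.mul_add] at h7
      omega
    rw [h2, zero_add]
    rfl
  obtain ⟨k, hk⟩ := IsPGroup.iff_card.1 hG
  rw [← Nat.card_eq_fintype_card, hk]
  exact hpodd.pow

theorem coe_mem_Aq {i : Fin m} {x : Gq F m n} :
    x ∈ Aq F m n i ↔ ∃ u ∈ KUs F m {i}, (u : Gq F m n) = x := Iff.rfl

/-- the elements of the root group -/
theorem KU_singleton {i : Fin m} (h : col m (i + 1) ≠ i) {u : GL (Fin m) F[X]}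
    (hu : u ∈ KU F {i}) : u = rt i (i + 1) h (coef (u : Matrix (Fin m) (Fin m) F[X]) i (i + 1)) := by
  apply Units.ext
  apply ext_coef
  intro a j
  rw [rt_val, coef_add, coef_one, coef_pm]
  by_cases hj : j = a
  · subst hj
    rw [if_pos rfl, hu.2, if_neg, add_zero]
    rintro ⟨rfl, h2⟩
    omega
  · rw [if_neg hj, zero_add]
    by_cases h1 : a = i ∧ j = i + 1
    · rw [if_pos h1, h1.1, h1.2]
    · rw [if_neg h1]
      by_contra hne
      have hp := hu.1 a j hne
      have h2 := hp.1
      have h3 : a = i := by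
        have := hp.2 a le_rfl (by omega)
        rw [Finset.mem_singleton] at this
        rwa [show col m (a : ℕ) = a from Fin.ext (by rw [col_val, Nat.mod_eq_of_lt a.2])] at this
      subst h3
      apply h1
      refine ⟨rfl, ?_⟩
      by_contra h4
      have := hp.2 (a + 1) (by omega) (by omega)
      rw [Finset.mem_singleton] at this
      exact h this

/-- root elements in `Gq` -/
noncomputable def xq (a : Fin m) (j : ℕ) (h : col m j ≠ a) (haj : (a : ℕ) ≤ j) (n : ℕ) (c : F) :
    Gq F m n :=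
  QuotientGroup.mk' (Nn F m n)
    ⟨rt a j h c, rt_mem_KU h ⟨haj, fun _ _ _ => Finset.mem_univ _⟩ c⟩

theorem xq_add (a : Fin m) (j : ℕ) (h : col m j ≠ a) (haj : (a : ℕ) ≤ j) (c d : F) :
    xq a j h haj n (c + d) = xq a j h haj n c * xq a j h haj n d := by
  unfold xq
  rw [← map_mul]
  congr 1
  apply Subtype.ext
  exact (rt_mul a j h c d).symm

theorem xq_comm' (a b : Fin m) (i j : ℕ) (hi : col m i ≠ a) (hj : col m j ≠ b)
    (hai : (a : ℕ) ≤ i) (hbj : (b : ℕ) ≤ j) (h1 : col m i ≠ b) (h2 : col m j ≠ a) (c d : F) :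
    xq a i hi hai n c * xq b j hj hbj n d = xq b j hj hbj n d * xq a i hi hai n c := by
  unfold xq
  rw [← map_mul, ← map_mul]
  congr 1
  exact Subtype.ext (rt_comm' a b i j hi hj h1 h2 c d)

theorem xq_comm (a b : Fin m) (i j k : ℕ) (hi : col m i ≠ a) (hj : col m j ≠ b)
    (hai : (a : ℕ) ≤ i) (hbj : (b : ℕ) ≤ j) (hb : col m i = b) (hij : col m j ≠ a)
    (hk : k = j + m * (i / m)) (hk1 : col m k ≠ a) (hk2 : (a : ℕ) ≤ k) (c d : F) :
    xq a i hi hai n c * xq b j hj hbj n d =
      xq b j hj hbj n d * xq a i hi hai n c * xq a k hk1 hk2 n (c * d) := by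
  subst hb
  subst hk
  unfold xq
  rw [← map_mul, ← map_mul, ← map_mul]
  congr 1
  exact Subtype.ext (rt_comm a i j hi hj hij c d)

theorem Aq_eq_sg (i : Fin m) (h : col m (i + 1) ≠ i) :
    Aq F m n i = sg (xq i (i + 1) h (by omega) n) (xq_add i (i + 1) h (by omega)) := by
  ext x
  rw [coe_mem_Aq, mem_sg]
  constructor
  · rintro ⟨u, hu, rfl⟩
    refine ⟨coef (u.1 : Matrix (Fin m) (Fin m) F[X]) i (i + 1), ?_⟩
    have h1 := KU_singleton h (show u.1 ∈ KU F {i} from hu)
    unfold xq
    change QuotientGroup.mk' (Nn F m n) _ = QuotientGroup.mk' (Nn F m n) u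
    congr 1
    exact Subtype.ext h1.symm
  · rintro ⟨c, rfl⟩
    exact ⟨⟨rt i (i + 1) h c, rt_mem_KU h ⟨by omega, fun _ _ _ => Finset.mem_univ _⟩ c⟩,
      (show rt i (i + 1) h c ∈ KU F {i} from
        rt_mem_KU h (pth_one (Finset.mem_singleton_self i)) c), rfl⟩

theorem col_succ_ne (hm : 2 ≤ m) (i : Fin m) : col m (i + 1) ≠ i := col_ne (by omega) (by omega)

theorem pairGap_Aq (hm : 3 ≤ m) {lam : ℝ} (hl : (Fintype.card F : ℝ)⁻¹ ≤ lam ^ 2)
    (i j : Fin m) (_ : i ≠ j) : PairGap (Aq F m n i) (Aq F m n j) lam := by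
  have hi := col_succ_ne (by omega : 2 ≤ m) i
  have hj := col_succ_ne (by omega : 2 ≤ m) j
  -- no two cycle of length two
  have hnot : ∀ a b : Fin m, col m (a + 1) = b → col m ((b : ℕ) + 1) ≠ a := by
    intro a b hb h
    have h1 : col m ((b : ℕ) + 1) = col m (a + 2) := by
      rw [← hb]
      apply Fin.ext
      rw [col_val, col_val, col_val, Nat.mod_add_mod]
    rw [h1] at h
    exact col_ne (m := m) (a := a) (by omega) (by omega) h
  have hcode : ∀ a b : Fin m, col m ((b : ℕ) + 1 + m * (((a : ℕ) + 1) / m)) =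
      col m ((b : ℕ) + 1) := fun a b => Fin.ext (by
        rw [col_val, col_val, Nat.add_mul_mod_self_left])
  have hle : ∀ a b : Fin m, col m (a + 1) = b →
      (a : ℕ) ≤ (b : ℕ) + 1 + m * (((a : ℕ) + 1) / m) := by
    intro a b hb
    have := col_add_div (m := m) ((a : ℕ) + 1)
    rw [hb] at this
    omega
  rw [Aq_eq_sg i hi, Aq_eq_sg j hj]
  by_cases h1 : col m (i + 1) = j
  · -- j = i + 1
    have hji := hnot i j h1
    have hc1 : col m ((j : ℕ) + 1 + m * (((i : ℕ) + 1) / m)) ≠ i := by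
      rw [hcode]; exact hji
    refine pairGap_heis _ _ (xq i _ hc1 (hle i j h1) n) _ _ (xq_add _ _ _ _) ?_ ?_ hl
    · intro a b
      exact xq_comm i j _ _ _ hi hj _ _ h1 hji rfl hc1 _ a b
    · intro a b
      exact xq_comm' _ _ _ _ hj hc1 _ _ hji (by rw [hcode]; exact hj) a b
  · by_cases h2 : col m (j + 1) = i
    · -- i = j + 1
      have hij' := hnot j i h2
      have hc1 : col m ((i : ℕ) + 1 + m * (((j : ℕ) + 1) / m)) ≠ j := by
        rw [hcode]; exact hij'
      refine pairGap_heis _ _ (fun c => xq j _ hc1 (hle j i h2) n (-c)) _ _ ?_ ?_ ?_ hl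
      · intro a b
        simp only [neg_add]
        exact xq_add _ _ _ _ _ _
      · intro a b
        have := xq_comm (n := n) j i _ _ _ hj hi (by omega) (by omega) h2 hij' rfl hc1
          (hle j i h2) b a
        rw [this, mul_assoc, ← xq_add, mul_comm b a, add_neg_cancel]
        have h0 : xq j ((i : ℕ) + 1 + m * (((j : ℕ) + 1) / m)) hc1 (hle j i h2) n (0 : F) = 1 := by
          unfold xq
          rw [← map_one (QuotientGroup.mk' (Nn F m n))]
          congr 1
          exact Subtype.ext (rt_zero j _ hc1)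
        rw [h0, mul_one]
      · intro a b
        exact xq_comm' _ _ _ _ hj hc1 _ _ hj hc1 a (-b)
    · -- commuting
      refine pairGap_comm ?_ lam
      rintro _ ⟨a, rfl⟩ _ ⟨b, rfl⟩
      exact xq_comm' _ _ _ _ hi hj _ _ h1 h2 a b

/-- cosets of `K_{I-i}` are small -/
theorem card_coset (i : Fin m) (g : Gq F m n) :
    (Finset.univ.filter fun x => vx (Aq F m n) i x = vx (Aq F m n) i g).card ≤
      Fintype.card F ^ (m * m) := by
  classical
  have hm : 0 < m := Nat.pos_of_ne_zero (NeZero.ne m)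
  have h1 : ∀ x ∈ Finset.univ.filter (fun x => vx (Aq F m n) i x = vx (Aq F m n) i g),
      ∃ u ∈ KUs F m (Finset.univ.erase i), (u : Gq F m n) = g⁻¹ * x := by
    intro x hx
    have h2 := (Finset.mem_filter.1 hx).2
    rw [eq_comm, vx_eq_iff, KJ_Aq (erase_ne_univ i)] at h2
    exact h2
  have hcard : (Finset.univ : Finset (Fin m × Fin m → F)).card = Fintype.card F ^ (m * m) := by
    rw [Finset.card_univ, Fintype.card_fun, Fintype.card_prod, Fintype.card_fin]
  rw [← hcard]
  refine Finset.card_le_card_of_injOn (fun x => if hx : ∃ u ∈ KUs F m (Finset.univ.erase i),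
      (u : Gq F m n) = g⁻¹ * x then
      fun ab => coef ((hx.choose).1 : Matrix (Fin m) (Fin m) F[X]) ab.1
        (if (ab.1 : ℕ) ≤ ab.2 then ab.2 else ab.2 + m) else 0) (fun x _ => Finset.mem_univ _) ?_
  intro x hx y hy hxy
  have hx' := h1 x hx
  have hy' := h1 y hy
  simp only [dif_pos hx', dif_pos hy'] at hxy
  set u := hx'.choose with hu
  set v := hy'.choose with hv
  obtain ⟨hu1, hu2⟩ := hx'.choose_spec
  obtain ⟨hv1, hv2⟩ := hy'.choose_spec
  have huv : u = v := by
    apply Subtype.ext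
    apply Units.ext
    apply ext_coef
    intro a j
    have ha := a.2
    by_cases hj : (a : ℕ) ≤ j ∧ j < a + m
    · by_cases hjm : j < m
      · have := congrFun hxy (a, ⟨j, hjm⟩)
        simp only at this
        rw [if_pos hj.1] at this
        exact this
      · have := congrFun hxy (a, ⟨j - m, by omega⟩)
        simp only at this
        rw [if_neg (by omega)] at this
        rw [show j - m + m = j by omega] at this
        exact this
    · have e1 : coef (u.1 : Matrix (Fin m) (Fin m) F[X]) a j = 0 := by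
        by_contra hne
        exact hj ⟨(hu1.1 a j hne).1, (hu1.1 a j hne).lt (erase_ne_univ i)⟩
      have e2 : coef (v.1 : Matrix (Fin m) (Fin m) F[X]) a j = 0 := by
        by_contra hne
        exact hj ⟨(hv1.1 a j hne).1, (hv1.1 a j hne).lt (erase_ne_univ i)⟩
      rw [e1, e2]
  have : g⁻¹ * x = g⁻¹ * y := by rw [← hu2, ← hv2, ← hu, ← hv, huv]
  exact mul_left_cancel this

/-- degrees are bounded -/
theorem wt_vertex (_ : 2 ≤ n) (hI : IntP (Aq F m n)) (v : CV (Aq F m n)) :
    1 ≤ wt (chams (Aq F m n)) {v} ∧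
      wt (chams (Aq F m n)) {v} ≤ Fintype.card F ^ (m * m) := by
  obtain ⟨g, hg⟩ := exists_vx v
  constructor
  · refine wt_pos_iff.2 ⟨g, ?_⟩
    rw [Finset.singleton_subset_iff, mem_cham, ← hg]
  · rw [wt_chams hI]
    refine le_trans (Finset.card_le_card fun x hx => ?_) (card_coset (tp v) g)
    rw [Finset.mem_filter] at hx ⊢
    refine ⟨hx.1, ?_⟩
    have := mem_cham.1 (Finset.singleton_subset_iff.1 hx.2)
    rw [← this, ← hg]

/-- unipotent elements of the first row -/
noncomputable def upol (hm : 2 ≤ m) (p : F[X]) : GL (Fin m) F[X] where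
  val := 1 + Matrix.single (col m 0) (col m 1) p
  inv := 1 + Matrix.single (col m 0) (col m 1) (-p)
  val_inv := by
    have h : col m 1 ≠ col m 0 := fun e => by
      have := congrArg Fin.val e
      rw [col_val, col_val, Nat.mod_eq_of_lt (by omega), Nat.zero_mod] at this
      omega
    rw [add_mul, mul_add, mul_add, Matrix.single_mul_single_of_ne _ _ _ _ h, one_mul, mul_one,
      add_zero, one_mul, add_assoc, ← Matrix.single_add, neg_add_cancel, Matrix.single_zero,
      add_zero]
  inv_val := by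
    have h : col m 1 ≠ col m 0 := fun e => by
      have := congrArg Fin.val e
      rw [col_val, col_val, Nat.mod_eq_of_lt (by omega), Nat.zero_mod] at this
      omega
    rw [add_mul, mul_add, mul_add, Matrix.single_mul_single_of_ne _ _ _ _ h, one_mul, mul_one,
      add_zero, one_mul, add_assoc, ← Matrix.single_add, add_neg_cancel, Matrix.single_zero,
      add_zero]

theorem coef_upol (hm : 2 ≤ m) (p : F[X]) (a : Fin m) (j : ℕ) :
    coef (upol hm p : Matrix (Fin m) (Fin m) F[X]) a j =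
      (if j = a then 1 else 0) + if a = col m 0 ∧ col m j = col m 1 then p.coeff (j / m) else 0 := by
  have h1 : (upol hm p : Matrix (Fin m) (Fin m) F[X]) =
    1 + Matrix.single (col m 0) (col m 1) p := rfl
  rw [h1, coef_add, coef_one]
  congr 1
  unfold coef
  rw [Matrix.single_apply]
  by_cases h : a = col m 0 ∧ col m j = col m 1
  · rw [if_pos h, if_pos ⟨h.1.symm, h.2.symm⟩]
  · rw [if_neg h, if_neg fun h' => h ⟨h'.1.symm, h'.2.symm⟩, Polynomial.coeff_zero]

theorem col_one_ne (hm : 2 ≤ m) : col m 1 ≠ col m 0 := fun e => by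
  have := congrArg Fin.val e
  rw [col_val, col_val, Nat.mod_eq_of_lt (by omega), Nat.zero_mod] at this
  omega

theorem upol_mem (hm : 2 ≤ m) (p : F[X]) : upol hm p ∈ UU F m := by
  constructor
  · intro a j hne
    refine ⟨?_, fun _ _ _ => Finset.mem_univ _⟩
    rw [coef_upol] at hne
    by_cases h : a = col m 0 ∧ col m j = col m 1
    · rw [h.1, col_val, Nat.zero_mod]; omega
    · rw [if_neg h, add_zero] at hne
      have : j = a := by by_contra h'; exact hne (if_neg h')
      omega
  · intro a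
    rw [coef_upol, if_pos rfl, if_neg, add_zero]
    rintro ⟨rfl, h⟩
    apply col_one_ne hm
    rw [← h, col_val, Nat.zero_mod]

theorem card_Gq_ge (hm : 2 ≤ m) : Fintype.card F ^ n ≤ Fintype.card (Gq F m n) := by
  have h1 : Fintype.card (Fin n → F) = Fintype.card F ^ n := by
    rw [Fintype.card_fun, Fintype.card_fin]
  rw [← h1]
  let P : (Fin n → F) → F[X] := fun f => ∑ k : Fin n, monomial (k : ℕ) (f k)
  have hP : ∀ f (k : Fin n), (P f).coeff k = f k := by
    intro f k
    simp only [P, Polynomial.finsetSum_coeff, Polynomial.coeff_monomial]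
    rw [Finset.sum_eq_single k]
    · rw [if_pos rfl]
    · intro b _ hb
      rw [if_neg fun h => hb (Fin.ext h)]
    · intro h; exact absurd (Finset.mem_univ k) h
  refine Fintype.card_le_of_injective
    (fun f => (QuotientGroup.mk' (Nn F m n) ⟨upol hm (P f), upol_mem hm (P f)⟩ : Gq F m n)) ?_
  intro f g hfg
  have h2 := mk_eq_iff.1 hfg
  funext k
  have hmpos : 0 < m := by omega
  have h3 := h2 (col m 0) (1 + m * k) (by
    rw [Nat.add_mul_div_left _ _ hmpos, Nat.div_eq_of_lt (by omega : 1 < m), zero_add]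
    exact k.2)
  rw [coef_upol, coef_upol] at h3
  have h4 : col m (1 + m * (k : ℕ)) = col m 1 := Fin.ext (by
    rw [col_val, col_val, Nat.add_mul_mod_self_left])
  have h5 : (1 + m * (k : ℕ)) / m = k := by
    rw [Nat.add_mul_div_left _ _ hmpos, Nat.div_eq_of_lt (by omega : 1 < m), zero_add]
  have e0 : ¬ (1 + m * (k : ℕ) = (col m 0 : ℕ)) := by
    rw [col_val, Nat.zero_mod]; omega
  have e1 : col m 0 = col m 0 ∧ col m (1 + m * (k : ℕ)) = col m 1 := ⟨rfl, h4⟩
  rw [if_neg e0, if_pos e1, if_pos e1, zero_add, zero_add, h5, hP, hP] at h3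
  exact h3

/-- the complexes are large -/
theorem card_big (hm : 3 ≤ m) : Fintype.card F ^ n ≤
    Fintype.card (CV (Aq F m n)) * Fintype.card F ^ (m * m) := by
  classical
  refine (card_Gq_ge (n := n) (by omega : 2 ≤ m)).trans ?_
  have h1 := Finset.card_le_mul_card_image (f := fun x => vx (Aq F m n) (col m 0) x)
    (Finset.univ : Finset (Gq F m n)) (Fintype.card F ^ (m * m)) (by
      intro v hv
      obtain ⟨g, _, rfl⟩ := Finset.mem_image.1 hv
      exact card_coset (col m 0) g)
  rw [Finset.card_univ] at h1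
  refine h1.trans ?_
  rw [mul_comm]
  exact Nat.mul_le_mul_right _ (Finset.card_le_univ _)

end Finite

/-- mixing -/
theorem mix_Aq (m d : ℕ) [NeZero m] (hm : 3 ≤ m) (hd : d + 2 ≤ m) (L : ℝ) (hL : 0 < L) :
    ∃ q0 : ℕ, ∀ (F : Type) [Field F] [Fintype F], q0 ≤ Fintype.card F → ∀ n ≥ 2,
      IntP (Aq F m n) → Mix (chams (Aq F m n)) m d L := by
  obtain ⟨q0, hq0⟩ := exists_nat_ge (4 / L ^ 2 + 4 * (m : ℝ) ^ 2 + 1)
  refine ⟨q0, ?_⟩
  intro F _ _ hq n _ hI
  have hq' : 4 / L ^ 2 + 4 * (m : ℝ) ^ 2 + 1 ≤ Fintype.card F :=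
    hq0.trans (by exact_mod_cast hq)
  have hL2 : 0 < 4 / L ^ 2 := by positivity
  have hqpos : (0 : ℝ) < Fintype.card F := by
    have : (0 : ℝ) ≤ 4 * (m : ℝ) ^ 2 := by positivity
    linarith
  set q : ℝ := (Fintype.card F : ℝ) with hqdef
  set lam : ℝ := (Real.sqrt q)⁻¹ with hlam
  have hs : 0 < Real.sqrt q := Real.sqrt_pos.2 hqpos
  have hl0 : 0 ≤ lam := inv_nonneg.2 hs.le
  have hl2 : q⁻¹ ≤ lam ^ 2 := by
    rw [hlam, inv_pow, Real.sq_sqrt hqpos.le]
  have h1 : 2 * lam ≤ L := by
    have h2 : 2 / L ≤ Real.sqrt q := by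
      apply Real.le_sqrt_of_sq_le
      rw [div_pow]
      have : (0 : ℝ) ≤ 4 * (m : ℝ) ^ 2 := by positivity
      norm_num
      linarith
    rw [div_le_iff₀ hL] at h2
    rw [hlam, ← div_eq_mul_inv, div_le_iff₀ hs]
    linarith
  have h3 : 2 * (m : ℝ) * lam ≤ 1 := by
    have h2 : 2 * (m : ℝ) ≤ Real.sqrt q := by
      apply Real.le_sqrt_of_sq_le
      nlinarith
    rw [hlam, ← div_eq_mul_inv, div_le_one hs]
    exact h2
  exact mix_of_gap hI (Fintype.card_fin m) hd hl0 h1 h3 fun i j hij => pairGap_Aq hm hl2 i j hij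

end

end Crest.Agent.R66
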