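import Crest.Agent.R66.BGlueA
import Crest.Agent.R66.BGlueB
import Crest.Agent.R66.BGlueC
import Crest.Agent.R66.BMain
import Crest.Agent.R66.DGFacts

/-!
# Row 66, part (B): `ACone` for the coset complexes of `Gq F m n` (helper12)
-/
set_option autoImplicit false

open Polynomial Matrix

namespace Crest.Agent.R66.B

open Finset Module

section
variable {F : Type} [Field F] {m : ℕ} [NeZero m]

/-- existence of the linear equivalence with matrix `Mt i g`. -/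
theorem exists_psi0 (i : Fin m) (g : GL (Fin m) F[X]) :
    ∃ u : (Fin m → F) ≃ₗ[F] (Fin m → F), g ∈ KU F (univ.erase i) → (Uni u ∧
      LinearMap.toMatrix' (u : (Fin m → F) →ₗ[F] (Fin m → F)) =
        Mt i (g : Matrix (Fin m) (Fin m) F[X])) := by
  by_cases hg : g ∈ KU F (univ.erase i)
  · obtain ⟨u, hu, hm⟩ := exists_lin (Mt i (g : Matrix (Fin m) (Fin m) F[X]))
      (fun p q hqp => by
        unfold Mt
        rw [if_neg (not_le.2 hqp)])
      (fun p => Mt_diag i hg p)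
    exact ⟨u, fun _ => ⟨hu, hm⟩⟩
  · exact ⟨LinearEquiv.refl F _, fun h => absurd h hg⟩

/-- the action of `K_J`, `J = univ.erase i`, on `F ^ m`. -/
theorem exists_psi (i : Fin m) :
    ∃ ψ : GL (Fin m) F[X] → ((Fin m → F) ≃ₗ[F] (Fin m → F)),
      (∀ g ∈ KU F (univ.erase i), Uni (ψ g)) ∧
      (∀ u : (Fin m → F) ≃ₗ[F] (Fin m → F), Uni u → ∃ g ∈ KU F (univ.erase i), ψ g = u) ∧
      ∀ j, j ≠ i → ∀ g ∈ KU F (univ.erase i), ∀ h ∈ KU F (univ.erase i),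
        (g⁻¹ * h ∈ KU F (univ.erase j) ↔
          (st F m (dmn i j)).map (ψ g : (Fin m → F) →ₗ[F] (Fin m → F)) =
            (st F m (dmn i j)).map (ψ h : (Fin m → F) →ₗ[F] (Fin m → F))) := by
  choose ψ hψ using exists_psi0 (F := F) i
  have hinj : ∀ u v : (Fin m → F) ≃ₗ[F] (Fin m → F),
      LinearMap.toMatrix' (u : (Fin m → F) →ₗ[F] (Fin m → F)) =
        LinearMap.toMatrix' (v : (Fin m → F) →ₗ[F] (Fin m → F)) → u = v := by
    intro u v h
    exact LinearEquiv.toLinearMap_injective (LinearMap.toMatrix'.injective h)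
  have hmul : ∀ g ∈ KU F (univ.erase i), ∀ h ∈ KU F (univ.erase i),
      (ψ (g * h) : (Fin m → F) →ₗ[F] (Fin m → F)) =
        (ψ g : (Fin m → F) →ₗ[F] (Fin m → F)) ∘ₗ (ψ h : (Fin m → F) →ₗ[F] (Fin m → F)) := by
    intro g hg h hh
    apply LinearMap.toMatrix'.injective
    rw [LinearMap.toMatrix'_comp, (hψ _ (mul_mem hg hh)).2, (hψ _ hg).2, (hψ _ hh).2,
      Units.val_mul, Mt_mul i hg hh]
  refine ⟨ψ, fun g hg => (hψ g hg).1, fun u hu => ?_, fun j hj g hg h hh => ?_⟩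
  · obtain ⟨h0, h1⟩ := (uni_iff u).1 hu
    obtain ⟨g, hg, hT⟩ := KU_surj i _ h0 h1
    exact ⟨g, hg, hinj _ _ (by rw [(hψ g hg).2, hT])⟩
  · have hgh : g⁻¹ * h ∈ KU F (univ.erase i) := mul_mem (inv_mem hg) hh
    have hd : dmn i j ≤ m := (Nat.mod_lt _ (Nat.pos_of_ne_zero (NeZero.ne m))).le
    have e1 : (ψ h : (Fin m → F) →ₗ[F] (Fin m → F)) =
        (ψ g : (Fin m → F) →ₗ[F] (Fin m → F)) ∘ₗ
          (ψ (g⁻¹ * h) : (Fin m → F) →ₗ[F] (Fin m → F)) := by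
      rw [← hmul g hg _ hgh, mul_inv_cancel_left]
    have e2 : (st F m (dmn i j)).map (ψ h : (Fin m → F) →ₗ[F] (Fin m → F)) =
        ((st F m (dmn i j)).map (ψ (g⁻¹ * h) : (Fin m → F) →ₗ[F] (Fin m → F))).map
          (ψ g : (Fin m → F) →ₗ[F] (Fin m → F)) := by
      rw [e1, Submodule.map_comp]
    have hmapinj : Function.Injective
        (Submodule.map (ψ g : (Fin m → F) →ₗ[F] (Fin m → F))) :=
      Submodule.map_injective_of_injective (ψ g).injective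
    rw [e2, hmapinj.eq_iff, eq_comm, st_map_iff _ (hψ _ hgh).1 _ hd, (hψ _ hgh).2]
    exact mem_erase_iff i j hj hgh

/-- the action of the image of `K_J` in `Gq`. -/
theorem exists_psi_Gq {n : ℕ} (hn : 2 ≤ n) (i : Fin m) :
    ∃ ψ : Gq F m n → ((Fin m → F) ≃ₗ[F] (Fin m → F)),
      (∀ x ∈ KJ (Aq F m n) (univ.erase i), Uni (ψ x)) ∧
      (∀ u : (Fin m → F) ≃ₗ[F] (Fin m → F), Uni u →
        ∃ x ∈ KJ (Aq F m n) (univ.erase i), ψ x = u) ∧
      ∀ j, j ≠ i → ∀ x ∈ KJ (Aq F m n) (univ.erase i), ∀ y ∈ KJ (Aq F m n) (univ.erase i),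
        (x⁻¹ * y ∈ KJ (Aq F m n) (univ.erase j) ↔
          (st F m (dmn i j)).map (ψ x : (Fin m → F) →ₗ[F] (Fin m → F)) =
            (st F m (dmn i j)).map (ψ y : (Fin m → F) →ₗ[F] (Fin m → F))) := by
  obtain ⟨ψ, h1, h2, h3⟩ := exists_psi (F := F) i
  have hrep : ∀ x : Gq F m n, ∃ u : UU F m, x ∈ KJ (Aq F m n) (univ.erase i) →
      (u ∈ KUs F m (univ.erase i) ∧ (u : Gq F m n) = x) := by
    intro x
    by_cases hx : x ∈ KJ (Aq F m n) (univ.erase i)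
    · have hx' := hx
      rw [KJ_Aq (erase_ne_univ i)] at hx'
      obtain ⟨u, hu, hux⟩ := hx'
      exact ⟨u, fun _ => ⟨hu, hux⟩⟩
    · exact ⟨1, fun h => absurd h hx⟩
  choose r hr using hrep
  refine ⟨fun x => ψ (r x).1, fun x hx => h1 _ (hr x hx).1, fun u hu => ?_,
    fun j hj x hx y hy => ?_⟩
  · obtain ⟨g, hg, hgu⟩ := h2 u hu
    have hgU : g ∈ UU F m := KU_mono (Finset.subset_univ _) hg
    have hxm : ((⟨g, hgU⟩ : UU F m) : Gq F m n) ∈ KJ (Aq F m n) (univ.erase i) := by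
      rw [KJ_Aq (erase_ne_univ i)]
      exact ⟨⟨g, hgU⟩, hg, rfl⟩
    refine ⟨_, hxm, ?_⟩
    have hrx := hr _ hxm
    have : r ((⟨g, hgU⟩ : UU F m) : Gq F m n) = ⟨g, hgU⟩ :=
      KU_inj hn (erase_ne_univ i) (erase_ne_univ i) hrx.1 hg hrx.2
    show ψ (r ((⟨g, hgU⟩ : UU F m) : Gq F m n)).1 = u
    rw [this]
    exact hgu
  · obtain ⟨hx1, hx2⟩ := hr x hx
    obtain ⟨hy1, hy2⟩ := hr y hy
    have hxy1 : (r x)⁻¹ * r y ∈ KUs F m (univ.erase i) := mul_mem (inv_mem hx1) hy1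
    have hxy2 : (((r x)⁻¹ * r y : UU F m) : Gq F m n) = x⁻¹ * y := by
      rw [QuotientGroup.mk_mul, QuotientGroup.mk_inv, hx2, hy2]
    refine Iff.trans ?_ (h3 j hj (r x).1 hx1 (r y).1 hy1)
    rw [KJ_Aq (erase_ne_univ j)]
    constructor
    · rintro ⟨v, hv, hvx⟩
      have : v = (r x)⁻¹ * r y :=
        KU_inj hn (erase_ne_univ j) (erase_ne_univ i) hv hxy1 (hvx.trans hxy2.symm)
      rw [this] at hv
      exact hv
    · intro hv
      exact ⟨(r x)⁻¹ * r y, hv, hxy2⟩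

variable [Fintype F]

theorem local_Gq {n : ℕ} (hn : 2 ≤ n) (v : CV (Aq F m n)) :
    CIso (lk (chams (Aq F m n)) {v}) (Yc F m) := by
  obtain ⟨ψ, h1, h2, h3⟩ := exists_psi_Gq (F := F) hn (Crest.Agent.R66.tp v)
  exact ciso_coset (Aq F m n) (Nat.one_le_iff_ne_zero.2 (NeZero.ne m)) (Crest.Agent.R66.tp v) ψ
    h1 h2 (dmn (Crest.Agent.R66.tp v)) (dmn_bij _) h3 v rfl

end

/-- part (B), final form. -/
theorem acone_final (m d : ℕ) [NeZero m] (hd : d + 2 ≤ m) :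
    ∃ C1 : ℝ, ∀ eps > 0, ∃ q0 : ℕ, ∀ (F : Type) [Field F] [Fintype F], q0 ≤ Fintype.card F →
      ∀ n ≥ 2, ACone (chams (Aq F m n)) d C1 eps := by
  refine ⟨K1 m d, fun eps heps => ⟨⌈K2 m d / eps⌉₊ + 1, fun F _ _ hF n hn => ?_⟩⟩
  have h := acone_of_local (F := F) (m := m) (chams (Aq F m n)) d hd fun v _ => local_Gq hn v
  intro σ hσ hw r hr hrd g
  obtain ⟨k, hk⟩ := h σ hσ hw r hr hrd g
  refine ⟨k, hk.trans ?_⟩
  have hc : (⌈K2 m d / eps⌉₊ : ℝ) + 1 ≤ Fintype.card F := by exact_mod_cast hF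
  have hc2 : K2 m d / eps ≤ Fintype.card F := (Nat.le_ceil _).trans (by linarith)
  have hcpos : (0 : ℝ) < Fintype.card F := by
    have : (0 : ℝ) ≤ ⌈K2 m d / eps⌉₊ := Nat.cast_nonneg _
    linarith
  have h3 : K2 m d / Fintype.card F ≤ eps := by
    rw [div_le_iff₀ hcpos]
    rw [div_le_iff₀ heps] at hc2
    linarith
  have h4 : K2 m d / Fintype.card F * (wt (chams (Aq F m n)) σ : ℝ) ≤
      eps * (wt (chams (Aq F m n)) σ : ℝ) :=
    mul_le_mul_of_nonneg_right h3 (Nat.cast_nonneg _)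
  linarith

end Crest.Agent.R66.B
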