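import Crest.Agent.R66.BDefs

/-!
# Row 66, part (B): the base of the induction (helper55)
-/
set_option autoImplicit false

namespace Crest.Agent.R66.B

open Finset Crest.Agent.R66

section
variable {V : Type} [Fintype V] [DecidableEq V] {I : Type} [DecidableEq I]

theorem dl_add (f g : Finset V → ZMod 2) : dl (f + g) = dl f + dl g :=
  funext (fun τ => by simp [dl, sum_add_distrib])

theorem dl_dl (f : Finset V → ZMod 2) : dl (dl f) = 0 := by
  funext τ
  simp only [dl, Pi.zero_apply]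
  rw [Finset.sum_sigma']
  refine Finset.sum_involution (fun a _ => ⟨a.2, a.1⟩) ?_ ?_ ?_ ?_
  · rintro ⟨v, w⟩ _
    simp only
    rw [Finset.erase_right_comm]
    exact CharTwo.add_self_eq_zero _
  · rintro ⟨v, w⟩ h _ he
    simp only [mem_sigma, mem_erase] at h
    simp only [Sigma.mk.injEq, heq_eq_eq] at he
    exact h.2.1 he.1
  · rintro ⟨v, w⟩ h
    simp only [mem_sigma, mem_erase] at h ⊢
    exact ⟨h.2.2, fun e => h.2.1 e.symm, h.1⟩
  · rintro ⟨v, w⟩ _
    rfl

/-- every chamber has exactly one vertex of type `κ`. -/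
theorem sum_wt_typ {C : Finset (Finset V)} {typ : V → I} {J : Finset I} (hT : Typed C typ J)
    {κ : I} (hκ : κ ∈ J) (σ : Finset V) (hσ : ∀ v ∈ σ, typ v ≠ κ) :
    ∑ v ∈ univ.filter (fun v => typ v = κ), wt C (insert v σ) = wt C σ := by
  have e : ∀ τ : Finset V, wt C τ = ∑ c ∈ C, if τ ⊆ c then 1 else 0 := fun τ => by
    rw [wt, card_filter]
  simp only [e]
  rw [sum_comm]
  refine sum_congr rfl fun c hc => ?_
  rw [← card_filter]
  by_cases hσc : σ ⊆ c
  · rw [if_pos hσc, card_eq_one]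
    have h1 : κ ∈ c.image typ := by rw [hT.im c hc]; exact hκ
    obtain ⟨v, hv, hvκ⟩ := mem_image.1 h1
    refine ⟨v, ?_⟩
    ext w
    simp only [mem_filter, mem_univ, true_and, mem_singleton, insert_subset_iff]
    constructor
    · rintro ⟨hw, hwc, -⟩
      exact hT.inj c hc w hwc v hv (hw.trans hvκ.symm)
    · rintro rfl
      exact ⟨hvκ, hv, hσc⟩
  · rw [if_neg hσc, card_eq_zero]
    refine filter_eq_empty_iff.2 fun v _ h => hσc ?_
    exact (subset_insert v σ).trans h

/-- AC in size `0`. -/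
theorem ac_zero {C : Finset (Finset V)} {typ : V → I} {J : Finset I} (hT : Typed C typ J)
    {κ : I} (hκ : κ ∈ J) (σ : Finset V) (hσ : ∀ v ∈ σ, typ v ≠ κ) : AC C σ 0 1 0 := by
  intro g
  refine ⟨0, ?_⟩
  rw [one_mul, zero_mul, add_zero]
  have h0 : g + dl (0 : Finset V → ZMod 2) = g := by
    funext τ
    simp [dl]
  rw [h0, Nat.cast_le]
  have hL : WL C σ 0 g = if g ∅ ≠ 0 then wt C σ else 0 := by
    unfold WL
    rw [powersetCard_zero, filter_singleton]
    split_ifs <;> simp
  rw [hL]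
  by_cases hg : g ∅ = 0
  · simp [hg]
  · rw [if_pos hg, ← sum_wt_typ hT hκ σ hσ]
    unfold WL
    rw [zero_add]
    have h1 : (σᶜ.powersetCard 1).filter (fun ρ => dl g ρ ≠ 0) = σᶜ.powersetCard 1 := by
      refine filter_true_of_mem fun ρ hρ => ?_
      obtain ⟨v, rfl⟩ := card_eq_one.1 (mem_powersetCard.1 hρ).2
      simpa [dl] using hg
    rw [h1, powersetCard_one, sum_map]
    simp only [Function.Embedding.coeFn_mk]
    have h2 : ∑ x ∈ σᶜ, wt C (σ ∪ {x}) = ∑ x ∈ σᶜ, wt C (insert x σ) :=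
      sum_congr rfl fun x _ => by rw [union_comm, ← insert_eq]
    rw [h2]
    refine sum_le_sum_of_subset fun v hv => ?_
    rw [mem_compl]
    intro hvσ
    exact hσ v hvσ (mem_filter.1 hv).2

end

end Crest.Agent.R66.B
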