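import Crest.Agent.R66.BDefs
import Crest.Agent.R66.ALink

/-!
# Row 66, part (B): links and isomorphisms (helper12)
-/
set_option autoImplicit false

namespace Crest.Agent.R66.B

open Finset Crest.Agent.R66

section
variable {V : Type} [Fintype V] [DecidableEq V] {V' : Type} [Fintype V'] [DecidableEq V']
  {I : Type} [DecidableEq I]

theorem wt_lk_of_disjoint (C : Finset (Finset V)) (σ ρ : Finset V) (h : Disjoint σ ρ) :
    wt (lk C σ) ρ = wt C (σ ∪ ρ) := Crest.Agent.R66.wt_lk C h.symm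

theorem wt_lk_of_not_disjoint (C : Finset (Finset V)) (σ ρ : Finset V) (h : ¬ Disjoint σ ρ) :
    wt (lk C σ) ρ = 0 := Crest.Agent.R66.wt_lk_zero C fun h' => h h'.symm

theorem WL_lk (C : Finset (Finset V)) (σ τ : Finset V) (h : Disjoint σ τ) (r : ℕ)
    (g : Finset V → ZMod 2) : WL (lk C σ) τ r g = WL C (σ ∪ τ) r g :=
  Crest.Agent.R66.WL_lk C h.symm r g

theorem WLk_lk (C : Finset (Finset V)) (typ : V → I) (κ : I) (σ τ : Finset V)
    (h : Disjoint σ τ) (r : ℕ) (g : Finset V → ZMod 2) :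
    WLk (lk C σ) typ κ τ r g = WLk C typ κ (σ ∪ τ) r g := by
  have mem_psc : ∀ {σ ρ : Finset V} {r : ℕ},
      ρ ∈ σᶜ.powersetCard r ↔ Disjoint ρ σ ∧ ρ.card = r := by
    intro σ ρ r
    rw [mem_powersetCard, subset_compl_iff_disjoint_right]
  unfold WLk
  symm
  apply sum_subset_zero_on_sdiff
  · intro ρ hρ
    rw [mem_filter, mem_psc] at hρ
    rw [mem_filter, mem_psc]
    exact ⟨⟨(disjoint_union_right.1 hρ.1.1).2, hρ.1.2⟩, hρ.2⟩
  · intro ρ hρ
    rw [mem_sdiff, mem_filter, mem_filter, mem_psc, mem_psc] at hρ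
    apply Crest.Agent.R66.wt_lk_zero
    intro hd
    exact hρ.2 ⟨⟨disjoint_union_right.2 ⟨(disjoint_union_left.1 hd).2, hρ.1.1.1⟩, hρ.1.1.2⟩,
      hρ.1.2⟩
  · intro ρ hρ
    rw [mem_filter, mem_psc] at hρ
    rw [Crest.Agent.R66.wt_lk C
      (disjoint_union_left.2 ⟨h.symm, (disjoint_union_right.1 hρ.1.1).1⟩), union_assoc]

theorem ac_lk (C : Finset (Finset V)) (σ τ : Finset V) (h : Disjoint σ τ) (r : ℕ) (C1 e : ℝ)
    (hA : AC (lk C σ) τ r C1 e) : AC C (σ ∪ τ) r C1 e := by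
  intro g
  obtain ⟨k, hk⟩ := hA g
  refine ⟨k, ?_⟩
  rw [WL_lk C σ τ h, WL_lk C σ τ h, wt_lk_of_disjoint C σ τ h] at hk
  exact hk

theorem ak_lk (C : Finset (Finset V)) (typ : V → I) (κ : I) (σ τ : Finset V)
    (h : Disjoint σ τ) (r : ℕ) (C1 e : ℝ)
    (hA : AK (lk C σ) typ κ τ r C1 e) : AK C typ κ (σ ∪ τ) r C1 e := by
  intro g
  obtain ⟨k, hk⟩ := hA g
  refine ⟨k, ?_⟩
  rw [WLk_lk C typ κ σ τ h, WL_lk C σ τ h, wt_lk_of_disjoint C σ τ h] at hk
  exact hk

theorem typed_lk {C : Finset (Finset V)} {typ : V → I} {J : Finset I} (hT : Typed C typ J)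
    (σ : Finset V) : Typed (lk C σ) typ (J \ σ.image typ) := by
  refine ⟨?_, ?_⟩
  · intro e he
    obtain ⟨c, hc, rfl⟩ := mem_image.1 he
    rw [mem_filter] at hc
    rw [← hT.im c hc.1]
    ext i
    simp only [mem_image, mem_sdiff]
    constructor
    · rintro ⟨v, ⟨hv, hvσ⟩, rfl⟩
      refine ⟨⟨v, hv, rfl⟩, ?_⟩
      rintro ⟨w, hw, hwv⟩
      have := hT.inj c hc.1 w (hc.2 hw) v hv hwv
      exact hvσ (this ▸ hw)
    · rintro ⟨⟨v, hv, rfl⟩, h⟩
      exact ⟨v, ⟨hv, fun hvσ => h ⟨v, hvσ, rfl⟩⟩, rfl⟩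
  · intro e he
    obtain ⟨c, hc, rfl⟩ := mem_image.1 he
    rw [mem_filter] at hc
    intro v hv w hw hvw
    exact hT.inj c hc.1 v (mem_sdiff.1 hv).1 w (mem_sdiff.1 hw).1 hvw

private theorem iso_inj {C : Finset (Finset V)} {θ : V → V'}
    (hinj : ∀ e ∈ C, ∀ e' ∈ C, ∀ v ∈ e, ∀ w ∈ e', θ v = θ w → v = w) :
    Set.InjOn θ (C.biUnion id : Finset V) := by
  intro v hv w hw h
  simp only [coe_biUnion, id, Set.mem_iUnion, mem_coe] at hv hw
  obtain ⟨e, he, hv⟩ := hv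
  obtain ⟨e', he', hw⟩ := hw
  exact hinj e he e' he' v hv w hw h

private theorem iso_mem_image {U : Finset V} {θ : V → V'} (hU : Set.InjOn θ (U : Set V))
    {ρ : Finset V} (hρ : ρ ⊆ U) {v : V} (hv : v ∈ U) : θ v ∈ ρ.image θ ↔ v ∈ ρ := by
  constructor
  · intro h
    obtain ⟨w, hw, e⟩ := mem_image.1 h
    exact (hU (hρ hw) hv e) ▸ hw
  · exact mem_image_of_mem θ

private theorem iso_wt {C : Finset (Finset V)} {C' : Finset (Finset V')} {θ : V → V'}
    (hU : Set.InjOn θ (C.biUnion id : Finset V))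
    (himg : C.image (fun e => e.image θ) = C') {ρ : Finset V} (hρ : ρ ⊆ C.biUnion id) :
    wt C' (ρ.image θ) = wt C ρ := by
  have hc : ∀ c ∈ C, c ⊆ C.biUnion id := fun c hc => subset_biUnion_of_mem id hc
  have h1 : (C'.filter fun c => ρ.image θ ⊆ c) =
      (C.filter fun c => ρ ⊆ c).image (fun e => e.image θ) := by
    subst himg
    ext c'
    simp only [mem_filter, mem_image]
    constructor
    · rintro ⟨⟨c, hcC, rfl⟩, h⟩
      refine ⟨c, ⟨hcC, fun v hv => ?_⟩, rfl⟩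
      exact (iso_mem_image hU (hc c hcC) (hρ hv)).1 (h (mem_image_of_mem θ hv))
    · rintro ⟨c, ⟨hcC, h⟩, rfl⟩
      exact ⟨⟨c, hcC, rfl⟩, image_subset_image h⟩
  unfold wt
  rw [h1, card_image_of_injOn]
  intro c hcC d hdC h
  simp only [coe_filter, Set.mem_setOf_eq] at hcC hdC
  simp only at h
  ext v
  constructor
  · intro hv
    rw [← iso_mem_image hU (hc d hdC.1) (hc c hcC.1 hv), ← h]
    exact mem_image_of_mem θ hv
  · intro hv
    rw [← iso_mem_image hU (hc c hcC.1) (hc d hdC.1 hv), h]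
    exact mem_image_of_mem θ hv

private theorem iso_face {C : Finset (Finset V)} {σ : Finset V} (hσ : wt C σ ≠ 0) :
    ∃ c ∈ C, σ ⊆ c := by
  obtain ⟨c, hc⟩ := card_ne_zero.1 hσ
  rw [mem_filter] at hc
  exact ⟨c, hc.1, hc.2⟩

private theorem iso_sub {C : Finset (Finset V)} {σ : Finset V} (hσ : wt C σ ≠ 0) :
    σ ⊆ C.biUnion id := by
  obtain ⟨c, hc, h⟩ := iso_face hσ
  exact h.trans (subset_biUnion_of_mem id hc)

private theorem iso_WL {C : Finset (Finset V)} {C' : Finset (Finset V')} {θ : V → V'}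
    (hU : Set.InjOn θ (C.biUnion id : Finset V))
    (himg : C.image (fun e => e.image θ) = C') {σ : Finset V} (hσ : σ ⊆ C.biUnion id) (r : ℕ)
    {F : Finset V → ZMod 2} {F' : Finset V' → ZMod 2}
    (hF : ∀ ρ ⊆ C.biUnion id, F' (ρ.image θ) = F ρ) :
    WL C σ r F = WL C' (σ.image θ) r F' := by
  unfold WL
  refine sum_bij_ne_zero (fun ρ _ _ => ρ.image θ) ?_ ?_ ?_ ?_
  · intro ρ hρ h0
    simp only [mem_filter, mem_powersetCard] at hρ ⊢
    have hρU : ρ ⊆ C.biUnion id := subset_union_right.trans (iso_sub h0)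
    refine ⟨⟨?_, ?_⟩, ?_⟩
    · intro v' hv'
      obtain ⟨v, hv, rfl⟩ := mem_image.1 hv'
      rw [mem_compl, iso_mem_image hU hσ (hρU hv)]
      exact mem_compl.1 (hρ.1.1 hv)
    · rw [card_image_of_injOn (hU.mono (by exact_mod_cast hρU))]
      exact hρ.1.2
    · rw [hF ρ hρU]
      exact hρ.2
  · intro ρ hρ h0 τ hτ h0' h
    have hρU : ρ ⊆ C.biUnion id := subset_union_right.trans (iso_sub h0)
    have hτU : τ ⊆ C.biUnion id := subset_union_right.trans (iso_sub h0')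
    ext v
    constructor
    · intro hv
      rw [← iso_mem_image hU hτU (hρU hv), ← h]
      exact mem_image_of_mem θ hv
    · intro hv
      rw [← iso_mem_image hU hρU (hτU hv), h]
      exact mem_image_of_mem θ hv
  · intro ρ' hρ' h0
    simp only [mem_filter, mem_powersetCard] at hρ'
    obtain ⟨c', hc', hsub⟩ := iso_face h0
    rw [← himg] at hc'
    obtain ⟨c, hc, rfl⟩ := mem_image.1 hc'
    have hcU : c ⊆ C.biUnion id := subset_biUnion_of_mem id hc
    have hρU : c.filter (fun v => θ v ∈ ρ') ⊆ C.biUnion id := (filter_subset _ _).trans hcU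
    have e : (c.filter fun v => θ v ∈ ρ').image θ = ρ' := by
      ext v'
      simp only [mem_image, mem_filter]
      constructor
      · rintro ⟨v, ⟨_, h⟩, rfl⟩
        exact h
      · intro h
        obtain ⟨v, hv, rfl⟩ := mem_image.1 (hsub (mem_union_right _ h))
        exact ⟨v, ⟨hv, h⟩, rfl⟩
    refine ⟨c.filter (fun v => θ v ∈ ρ'), ?_, ?_, e⟩
    · simp only [mem_filter, mem_powersetCard]
      refine ⟨⟨?_, ?_⟩, ?_⟩
      · intro v hv
        rw [mem_compl]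
        intro hvσ
        exact mem_compl.1 (hρ'.1.1 (mem_filter.1 hv).2) (mem_image_of_mem θ hvσ)
      · rw [← hρ'.1.2]
        conv_rhs => rw [← e]
        rw [card_image_of_injOn (hU.mono (by exact_mod_cast hρU))]
      · rw [← hF _ hρU, e]
        exact hρ'.2
    · rw [← iso_wt hU himg (union_subset hσ hρU), image_union, e]
      exact h0
  · intro ρ hρ h0
    rw [← image_union, iso_wt hU himg (iso_sub h0)]

private theorem iso_dl {U : Finset V} {θ : V → V'} (hU : Set.InjOn θ (U : Set V))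
    {F : Finset V → ZMod 2} {F' : Finset V' → ZMod 2}
    (hF : ∀ ρ ⊆ U, F' (ρ.image θ) = F ρ) :
    ∀ ρ ⊆ U, dl F' (ρ.image θ) = dl F ρ := by
  intro ρ hρ
  unfold dl
  have hi : Set.InjOn θ (ρ : Set V) := hU.mono (by exact_mod_cast hρ)
  rw [sum_image hi]
  refine sum_congr rfl fun v hv => ?_
  rw [← hF _ ((erase_subset v ρ).trans hρ)]
  congr 1
  ext w'
  simp only [mem_erase, mem_image]
  constructor
  · rintro ⟨h1, w, hw, rfl⟩
    exact ⟨w, ⟨fun e => h1 (by rw [e]), hw⟩, rfl⟩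
  · rintro ⟨w, ⟨h1, hw⟩, rfl⟩
    exact ⟨fun e => h1 (hi hw hv e), w, hw, rfl⟩

/-- transport of `AC` along an isomorphism. -/
theorem ac_iso (C : Finset (Finset V)) (C' : Finset (Finset V')) (θ : V → V')
    (hinj : ∀ e ∈ C, ∀ e' ∈ C, ∀ v ∈ e, ∀ w ∈ e', θ v = θ w → v = w)
    (himg : C.image (fun e => e.image θ) = C') (σ : Finset V) (hσ : 0 < wt C σ) (r : ℕ)
    (C1 e : ℝ) (hA : AC C' (σ.image θ) r C1 e) : AC C σ r C1 e := by
  intro g
  have hU := iso_inj hinj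
  have hσU : σ ⊆ C.biUnion id := iso_sub hσ.ne'
  obtain ⟨g1, hg1⟩ : ∃ g1 : Finset V' → ZMod 2,
      g1 = fun ρ' => g ((C.biUnion id).filter fun v => θ v ∈ ρ') := ⟨_, rfl⟩
  have hg : ∀ ρ ⊆ C.biUnion id, g1 (ρ.image θ) = g ρ := by
    intro ρ hρ
    have : ((C.biUnion id).filter fun v => θ v ∈ ρ.image θ) = ρ := by
      ext v
      rw [mem_filter]
      constructor
      · rintro ⟨hv, h⟩
        exact (iso_mem_image hU hρ hv).1 h
      · intro hv
        exact ⟨hρ hv, mem_image_of_mem θ hv⟩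
    simp only [hg1, this]
  obtain ⟨h1, hh1⟩ := hA g1
  obtain ⟨h, hh⟩ : ∃ h : Finset V → ZMod 2, ∀ ρ, h1 (ρ.image θ) = h ρ := ⟨_, fun _ => rfl⟩
  refine ⟨h, ?_⟩
  rw [iso_WL hU himg hσU r (F' := g1 + dl h1) (fun ρ hρ => by
        rw [Pi.add_apply, Pi.add_apply, hg ρ hρ, iso_dl hU (fun ρ _ => hh ρ) ρ hρ]),
    iso_WL hU himg hσU (r + 1) (iso_dl hU hg), ← iso_wt hU himg hσU]
  exact hh1

theorem wt_iso (C : Finset (Finset V)) (C' : Finset (Finset V')) (θ : V → V')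
    (hinj : ∀ e ∈ C, ∀ e' ∈ C, ∀ v ∈ e, ∀ w ∈ e', θ v = θ w → v = w)
    (himg : C.image (fun e => e.image θ) = C') (σ : Finset V) (hσ : 0 < wt C σ) :
    wt C' (σ.image θ) = wt C σ ∧ (σ.image θ).card = σ.card := by
  have hU := iso_inj hinj
  have hσU : σ ⊆ C.biUnion id := iso_sub hσ.ne'
  exact ⟨iso_wt hU himg hσU, card_image_of_injOn (hU.mono (by exact_mod_cast hσU))⟩

end

end Crest.Agent.R66.B
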