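import Crest.Agent.R66.BDefs

/-!
# Row 66, part (B): the prism identity (helper12)

`α` a lattice, `A < B` in `α`, `A ≤ L ≤ B`. For a chain `s` the prism is the sum over
`W ∈ {A} ∪ s`, `A ≤ W < B`, of the chains `{W' ∈ s : W' ≤ W} ∪ {W' ⊔ L : W' ∈ {A} ∪ s, W ≤ W'}`.
-/
set_option autoImplicit false

namespace Crest.Agent.R66.B

open Finset Crest.Agent.R66

section
variable {α : Type} [DecidableEq α]

open scoped Classical in
/-- telescoping along a chain `Q` with smallest element `A`. -/
theorem telescope [PartialOrder α] (Q : Finset α) (A : α) (hA : A ∈ Q) (hmin : ∀ W ∈ Q, A ≤ W)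
    (hc : IsChain (· ≤ ·) (Q : Set α)) (G1 G2 : α → ZMod 2)
    (h : ∀ W ∈ Q, ∀ W' ∈ Q, W < W' → (∀ X ∈ Q, ¬ (W < X ∧ X < W')) → G1 W' = G2 W)
    (M : α) (hM : M ∈ Q) (hmax : ∀ W ∈ Q, W ≤ M) :
    ∑ W ∈ Q.erase A, G1 W + ∑ W ∈ Q, G2 W = G2 M := by
  induction hn : Q.card generalizing Q M with
  | zero =>
    rw [Finset.card_eq_zero] at hn
    subst hn
    exact absurd hA (Finset.notMem_empty _)
  | succ n ih =>
    by_cases hMA : M = A
    · subst hMA
      have hQ : Q = {M} := by
        refine Finset.eq_singleton_iff_unique_mem.mpr ⟨hM, fun W hW => ?_⟩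
        exact le_antisymm (hmax W hW) (hmin W hW)
      subst hQ
      simp
    · -- remove the maximum
      have hAe : A ∈ Q.erase M := Finset.mem_erase.mpr ⟨fun h => hMA h.symm, hA⟩
      have hne : (Q.erase M).Nonempty := ⟨A, hAe⟩
      obtain ⟨M', hM', hmax'⟩ : ∃ M' ∈ Q.erase M, ∀ W ∈ Q.erase M, W ≤ M' := by
        obtain ⟨M', hM'⟩ := (Q.erase M).exists_maximal hne
        refine ⟨M', hM'.1, fun W hW => ?_⟩
        have h1 : (W : α) ∈ (Q : Set α) := Finset.mem_coe.mpr (Finset.mem_of_mem_erase hW)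
        have h2 : (M' : α) ∈ (Q : Set α) := Finset.mem_coe.mpr (Finset.mem_of_mem_erase hM'.1)
        by_cases hWM : W = M'
        · exact hWM.le
        · rcases hc h1 h2 hWM with h | h
          · exact h
          · exact hM'.2 hW h
      have ih' := ih (Q.erase M) hAe (fun W hW => hmin W (Finset.mem_of_mem_erase hW))
        (hc.mono (by
          intro x hx
          exact Finset.mem_coe.mpr (Finset.mem_of_mem_erase (Finset.mem_coe.mp hx))))
        (fun W hW W' hW' hlt hX => h W (Finset.mem_of_mem_erase hW) W'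
          (Finset.mem_of_mem_erase hW') hlt (fun X hXQ hXX => hX X (Finset.mem_erase.mpr
            ⟨fun hXM => by
              subst hXM
              exact absurd (hmax W' (Finset.mem_of_mem_erase hW')) (not_le_of_gt hXX.2), hXQ⟩) hXX))
        M' hM' hmax' (by rw [Finset.card_erase_of_mem hM, hn]; rfl)
      have hM'Q := Finset.mem_of_mem_erase hM'
      have hlt : M' < M := lt_of_le_of_ne (hmax M' hM'Q) (Finset.ne_of_mem_erase hM')
      have h1 : G1 M = G2 M' := h M' hM'Q M hM hlt (fun X hX hXX => by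
        have : X ∈ Q.erase M := Finset.mem_erase.mpr ⟨hXX.2.ne, hX⟩
        exact absurd (hmax' X this) (not_le_of_gt hXX.1))
      have h2 : ∑ W ∈ Q.erase A, G1 W = G1 M + ∑ W ∈ (Q.erase M).erase A, G1 W := by
        rw [Finset.erase_right_comm]
        exact (Finset.add_sum_erase _ _ (Finset.mem_erase.mpr ⟨hMA, hM⟩)).symm
      have h3 : ∑ W ∈ Q, G2 W = G2 M + ∑ W ∈ Q.erase M, G2 W :=
        (Finset.add_sum_erase _ _ hM).symm
      rw [h2, h3, h1]
      have h4 : G2 M' + ∑ W ∈ (Q.erase M).erase A, G1 W + (G2 M + ∑ W ∈ Q.erase M, G2 W) =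
          G2 M' + G2 M + (∑ W ∈ (Q.erase M).erase A, G1 W + ∑ W ∈ Q.erase M, G2 W) := by ring
      rw [h4, ih']
      have h5 : G2 M' + G2 M + G2 M' = G2 M + (G2 M' + G2 M') := by ring
      rw [h5, CharTwo.add_self_eq_zero, add_zero]

variable [Lattice α]

open scoped Classical in
/-- a term of the prism. -/
noncomputable def term (A L : α) (s : Finset α) (W : α) : Finset α :=
  s.filter (· ≤ W) ∪ ((insert A s).filter (W ≤ ·)).image (· ⊔ L)

open scoped Classical in
/-- the prism. -/
noncomputable def prism (A B L : α) (s : Finset α) : Multiset (Finset α) :=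
  ((insert A s).filter (fun W => A ≤ W ∧ W < B)).val.map (term A L s)

theorem prism_card_le (A B L : α) (s : Finset α) : Multiset.card (prism A B L s) ≤ s.card + 1 := by
  classical
  unfold prism
  rw [Multiset.card_map]
  exact (Finset.card_filter_le _ _).trans (Finset.card_insert_le _ _)

theorem term_map (A L : α) (s : Finset α) (W : α) (a : α ≃o α) (hA : a A = A) :
    term A (a L) (s.image a) (a W) = (term A L s W).image a := by
  classical
  unfold term
  rw [Finset.image_union]
  congr 1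
  · ext x
    simp only [Finset.mem_filter, Finset.mem_image]
    constructor
    · rintro ⟨⟨y, hy, rfl⟩, h⟩
      exact ⟨y, ⟨hy, a.le_iff_le.mp h⟩, rfl⟩
    · rintro ⟨y, ⟨hy, h⟩, rfl⟩
      exact ⟨⟨y, hy, rfl⟩, a.le_iff_le.mpr h⟩
  · ext x
    simp only [Finset.mem_filter, Finset.mem_image, Finset.mem_insert]
    constructor
    · rintro ⟨z, ⟨hz, h⟩, rfl⟩
      rcases hz with rfl | ⟨y, hy, rfl⟩
      · refine ⟨z ⊔ L, ⟨z, ⟨Or.inl rfl, ?_⟩, rfl⟩, ?_⟩
        · rw [← a.le_iff_le, hA]; exact h
        · rw [map_sup, hA]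
      · exact ⟨y ⊔ L, ⟨y, ⟨Or.inr hy, a.le_iff_le.mp h⟩, rfl⟩, map_sup a y L⟩
    · rintro ⟨z, ⟨y, ⟨hy, h⟩, rfl⟩, rfl⟩
      rcases hy with rfl | hy
      · refine ⟨y, ⟨Or.inl rfl, ?_⟩, ?_⟩
        · rw [← hA]; exact a.le_iff_le.mpr h
        · rw [map_sup, hA]
      · exact ⟨a y, ⟨Or.inr ⟨y, hy, rfl⟩, a.le_iff_le.mpr h⟩, (map_sup a y L).symm⟩

theorem prism_map (A B L : α) (s : Finset α) (a : α ≃o α) (hA : a A = A) (hB : a B = B) :
    prism A B (a L) (s.image a) = (prism A B L s).map (fun t => t.image a) := by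
  classical
  have hset : (insert A (s.image a)).filter (fun W => A ≤ W ∧ W < B) =
      ((insert A s).filter (fun W => A ≤ W ∧ W < B)).image a := by
    ext x
    simp only [Finset.mem_filter, Finset.mem_image, Finset.mem_insert]
    constructor
    · rintro ⟨hx, h1, h2⟩
      rcases hx with rfl | ⟨y, hy, rfl⟩
      · exact ⟨x, ⟨Or.inl rfl, h1, h2⟩, hA⟩
      · refine ⟨y, ⟨Or.inr hy, ?_, ?_⟩, rfl⟩
        · rw [← a.le_iff_le, hA]; exact h1
        · rw [← a.lt_iff_lt, hB]; exact h2
    · rintro ⟨y, ⟨hy, h1, h2⟩, rfl⟩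
      refine ⟨?_, ?_, ?_⟩
      · rcases hy with rfl | hy
        · exact Or.inl hA
        · exact Or.inr ⟨y, hy, rfl⟩
      · rw [← hA]; exact a.le_iff_le.mpr h1
      · rw [← hB]; exact a.lt_iff_lt.mpr h2
  unfold prism
  rw [hset, Finset.image_val_of_injOn (a.injective.injOn), Multiset.map_map, Multiset.map_map]
  refine Multiset.map_congr rfl fun W _ => ?_
  simp only [Function.comp_apply]
  exact term_map A L s W a hA

/-- the cardinality of the terms. -/
theorem term_card (A B L : α) (s : Finset α) (hc : IsChain (· ≤ ·) (insert A (s : Set α)))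
    (hA : A ∉ s) (hAL : A ≤ L) (hLB : L ≤ B) (hB : ∀ W ∈ s, W < B ∨ B ≤ W)
    (hinj : ∀ W ∈ insert A s, ∀ W' ∈ insert A s, A ≤ W → A ≤ W' → W ⊔ L = W' ⊔ L → W = W')
    (hgt : ∀ W ∈ insert A s, A ≤ W → W < B → ¬ L ≤ W) (t : Finset α) (ht : t ∈ prism A B L s) :
    t.card = s.card + 1 := by
  classical
  unfold prism at ht
  rw [Multiset.mem_map] at ht
  obtain ⟨W, hW, rfl⟩ := ht
  rw [Finset.mem_val, Finset.mem_filter] at hW
  obtain ⟨hWs, hAW, hWB⟩ := hW
  unfold term
  have hdisj : Disjoint (s.filter (· ≤ W)) (((insert A s).filter (W ≤ ·)).image (· ⊔ L)) := by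
    rw [Finset.disjoint_left]
    intro V hV hV'
    rw [Finset.mem_filter] at hV
    rw [Finset.mem_image] at hV'
    obtain ⟨W', hW', rfl⟩ := hV'
    rw [Finset.mem_filter] at hW'
    exact hgt W hWs hAW hWB (le_sup_right.trans hV.2)
  rw [Finset.card_union_of_disjoint hdisj, Finset.card_image_of_injOn]
  · -- counting
    have h1 : (insert A s).filter (· ≤ W) = insert A (s.filter (· ≤ W)) := by
      rw [Finset.filter_insert, if_pos hAW]
    have h2 : ((insert A s).filter (· ≤ W)).card = (s.filter (· ≤ W)).card + 1 := by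
      rw [h1, Finset.card_insert_of_notMem (fun h => hA (Finset.mem_filter.mp h).1)]
    have h3 : (insert A s).filter (· ≤ W) ∪ (insert A s).filter (W ≤ ·) = insert A s := by
      ext x
      simp only [Finset.mem_union, Finset.mem_filter]
      constructor
      · rintro (h | h) <;> exact h.1
      · intro hx
        by_cases hxW : x = W
        · exact Or.inl ⟨hx, hxW.le⟩
        · have hx' : x ∈ insert A (s : Set α) := by
            rw [← Finset.coe_insert]; exact Finset.mem_coe.mpr hx
          have hW' : W ∈ insert A (s : Set α) := by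
            rw [← Finset.coe_insert]; exact Finset.mem_coe.mpr hWs
          rcases hc hx' hW' hxW with h | h
          · exact Or.inl ⟨hx, h⟩
          · exact Or.inr ⟨hx, h⟩
    have h4 : (insert A s).filter (· ≤ W) ∩ (insert A s).filter (W ≤ ·) = {W} := by
      ext x
      simp only [Finset.mem_inter, Finset.mem_filter, Finset.mem_singleton]
      constructor
      · rintro ⟨h, h'⟩
        exact le_antisymm h.2 h'.2
      · rintro rfl
        exact ⟨⟨hWs, le_rfl⟩, ⟨hWs, le_rfl⟩⟩
    have h5 := Finset.card_union_add_card_inter ((insert A s).filter (· ≤ W))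
      ((insert A s).filter (W ≤ ·))
    rw [h3, h4, Finset.card_singleton, h2, Finset.card_insert_of_notMem hA] at h5
    omega
  · intro x hx y hy hxy
    rw [Finset.mem_coe, Finset.mem_filter] at hx hy
    exact hinj x hx.1 y hy.1 (hAW.trans hx.2) (hAW.trans hy.2) hxy

theorem pbd_mem_term {A L : α} {s : Finset α} {W x : α} :
    x ∈ term A L s W ↔ (x ∈ s ∧ x ≤ W) ∨ ∃ y, y ∈ insert A s ∧ W ≤ y ∧ y ⊔ L = x := by
  classical
  unfold term
  simp only [mem_union, mem_filter, mem_image, and_assoc]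

theorem pbd_erase_lt {A L : α} {s : Finset α} {W v : α} (hLW : ¬ L ≤ W) (hvW : v < W) :
    (term A L s W).erase v = term A L (s.erase v) W := by
  classical
  ext x
  rw [mem_erase, pbd_mem_term, pbd_mem_term]
  constructor
  · rintro ⟨hx, ⟨h1, h2⟩ | ⟨y, hy, hWy, rfl⟩⟩
    · exact Or.inl ⟨mem_erase.2 ⟨hx, h1⟩, h2⟩
    · refine Or.inr ⟨y, ?_, hWy, rfl⟩
      rcases mem_insert.1 hy with rfl | hy
      · exact mem_insert_self _ _
      · refine mem_insert_of_mem (mem_erase.2 ⟨?_, hy⟩)
        rintro rfl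
        exact absurd (hvW.trans_le hWy) (lt_irrefl _)
  · rintro (⟨h1, h2⟩ | ⟨y, hy, hWy, rfl⟩)
    · exact ⟨(mem_erase.1 h1).1, Or.inl ⟨(mem_erase.1 h1).2, h2⟩⟩
    · refine ⟨?_, Or.inr ⟨y, ?_, hWy, rfl⟩⟩
      · rintro rfl
        exact hLW (le_sup_right.trans hvW.le)
      · rcases mem_insert.1 hy with rfl | hy
        · exact mem_insert_self _ _
        · exact mem_insert_of_mem (mem_erase.1 hy).2

theorem pbd_erase_gt {A L : α} {s : Finset α} {W v : α} (hA : A ∉ s) (hLW : ¬ L ≤ W)
    (hAW : A ≤ W) (hv : v ∈ s) (hWv : W < v)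
    (hinj : ∀ W ∈ insert A s, ∀ W' ∈ insert A s, A ≤ W → A ≤ W' → W ⊔ L = W' ⊔ L → W = W') :
    (term A L s W).erase (v ⊔ L) = term A L (s.erase v) W := by
  classical
  ext x
  rw [mem_erase, pbd_mem_term, pbd_mem_term]
  constructor
  · rintro ⟨hx, ⟨h1, h2⟩ | ⟨y, hy, hWy, rfl⟩⟩
    · refine Or.inl ⟨mem_erase.2 ⟨?_, h1⟩, h2⟩
      rintro rfl
      exact absurd (hWv.trans_le h2) (lt_irrefl _)
    · refine Or.inr ⟨y, ?_, hWy, rfl⟩
      rcases mem_insert.1 hy with rfl | hy
      · exact mem_insert_self _ _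
      · refine mem_insert_of_mem (mem_erase.2 ⟨?_, hy⟩)
        rintro rfl
        exact hx rfl
  · rintro (⟨h1, h2⟩ | ⟨y, hy, hWy, rfl⟩)
    · refine ⟨?_, Or.inl ⟨(mem_erase.1 h1).2, h2⟩⟩
      rintro rfl
      exact hLW (le_sup_right.trans h2)
    · have hy' : y ∈ insert A s := by
        rcases mem_insert.1 hy with rfl | hy
        · exact mem_insert_self _ _
        · exact mem_insert_of_mem (mem_erase.1 hy).2
      refine ⟨?_, Or.inr ⟨y, hy', hWy, rfl⟩⟩
      intro e
      have := hinj y hy' v (mem_insert_of_mem hv) (hAW.trans hWy) (hAW.trans hWv.le) e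
      subst this
      rcases mem_insert.1 hy with rfl | hy
      · exact hA hv
      · exact absurd rfl (mem_erase.1 hy).1

open scoped Classical in
theorem pbd_dl_term {A L : α} {s : Finset α} {W : α} (hA : A ∉ s) (hLW : ¬ L ≤ W)
    (hAW : A ≤ W) (hW : W ∈ insert A s)
    (hinj : ∀ W ∈ insert A s, ∀ W' ∈ insert A s, A ≤ W → A ≤ W' → W ⊔ L = W' ⊔ L → W = W')
    (f : Finset α → ZMod 2) :
    dl f (term A L s W) =
      (∑ v ∈ s, if v < W then f (term A L (s.erase v) W) else 0) +
      (∑ v ∈ s, if W < v then f (term A L (s.erase v) W) else 0) +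
      ((if W ∈ s then f ((term A L s W).erase W) else 0) +
      f ((term A L s W).erase (W ⊔ L))) := by
  unfold dl
  have hd : Disjoint (s.filter (· ≤ W)) (((insert A s).filter (W ≤ ·)).image (· ⊔ L)) := by
    rw [disjoint_left]
    intro x hx hx'
    obtain ⟨y, -, rfl⟩ := mem_image.1 hx'
    exact hLW (le_sup_right.trans (mem_filter.1 hx).2)
  have h1 : ∑ v ∈ term A L s W, f ((term A L s W).erase v) =
      ∑ v ∈ s.filter (· ≤ W), f ((term A L s W).erase v) +
      ∑ v ∈ (insert A s).filter (W ≤ ·), f ((term A L s W).erase (v ⊔ L)) := by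
    have e : term A L s W = s.filter (· ≤ W) ∪ ((insert A s).filter (W ≤ ·)).image (· ⊔ L) := rfl
    have : ∑ v ∈ term A L s W, f ((term A L s W).erase v) =
      ∑ v ∈ (s.filter (· ≤ W) ∪ ((insert A s).filter (W ≤ ·)).image (· ⊔ L)),
        f ((term A L s W).erase v) := by rw [← e]
    rw [this, sum_union hd, sum_image]
    intro x hx y hy h
    have hx' := mem_filter.1 (mem_coe.1 hx)
    have hy' := mem_filter.1 (mem_coe.1 hy)
    exact hinj x hx'.1 y hy'.1 (hAW.trans hx'.2) (hAW.trans hy'.2) h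
  have h2 : ∑ v ∈ s.filter (· ≤ W), f ((term A L s W).erase v) =
      (∑ v ∈ s, if v < W then f (term A L (s.erase v) W) else 0) +
      (if W ∈ s then f ((term A L s W).erase W) else 0) := by
    rw [← sum_filter]
    by_cases hWs : W ∈ s
    · have : s.filter (· ≤ W) = insert W (s.filter (· < W)) := by
        ext x
        simp only [mem_filter, mem_insert]
        constructor
        · rintro ⟨a, b⟩
          rcases b.lt_or_eq with h | h
          · exact Or.inr ⟨a, h⟩
          · exact Or.inl h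
        · rintro (rfl | ⟨a, b⟩)
          · exact ⟨hWs, le_rfl⟩
          · exact ⟨a, b.le⟩
      rw [this, sum_insert (by simp), if_pos hWs, add_comm]
      congr 1
      apply sum_congr rfl
      intro v hv
      rw [pbd_erase_lt hLW (mem_filter.1 hv).2]
    · have : s.filter (· ≤ W) = s.filter (· < W) := by
        apply filter_congr
        intro x hx
        exact ⟨fun h => lt_of_le_of_ne h (by rintro rfl; exact hWs hx), fun h => h.le⟩
      rw [this, if_neg hWs, add_zero]
      apply sum_congr rfl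
      intro v hv
      rw [pbd_erase_lt hLW (mem_filter.1 hv).2]
  have h3 : ∑ v ∈ (insert A s).filter (W ≤ ·), f ((term A L s W).erase (v ⊔ L)) =
      (∑ v ∈ s, if W < v then f (term A L (s.erase v) W) else 0) +
      f ((term A L s W).erase (W ⊔ L)) := by
    rw [← sum_filter]
    have : (insert A s).filter (W ≤ ·) = insert W (s.filter (W < ·)) := by
      ext x
      simp only [mem_filter, mem_insert]
      constructor
      · rintro ⟨a, b⟩
        rcases b.lt_or_eq with h | h
        · rcases a with rfl | a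
          · exact absurd (hAW.trans_lt h) (lt_irrefl _)
          · exact Or.inr ⟨a, h⟩
        · exact Or.inl h.symm
      · rintro (rfl | ⟨a, b⟩)
        · exact ⟨mem_insert.1 hW, le_rfl⟩
        · exact ⟨Or.inr a, b.le⟩
    rw [this, sum_insert (by simp), add_comm]
    congr 1
    apply sum_congr rfl
    intro v hv
    rw [pbd_erase_gt hA hLW hAW (mem_filter.1 hv).1 (mem_filter.1 hv).2 hinj]
  rw [h1, h2, h3]
  ring

/-- the prism identity. -/
theorem prism_bd (A B L : α) (s : Finset α) (hc : IsChain (· ≤ ·) (insert A (s : Set α)))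
    (hA : A ∉ s) (hAB : A < B) (hAL : A ≤ L) (hLB : L ≤ B) (hB : ∀ W ∈ s, W < B ∨ B ≤ W)
    (hinj : ∀ W ∈ insert A s, ∀ W' ∈ insert A s, A ≤ W → A ≤ W' → W ⊔ L = W' ⊔ L → W = W')
    (hgt : ∀ W ∈ insert A s, A ≤ W → W < B → ¬ L ≤ W) (f : Finset α → ZMod 2) :
    ((prism A B L s).map (dl f)).sum = f s + ∑ v ∈ s, ((prism A B L (s.erase v)).map f).sum := by
  classical
  have hcmp : ∀ x ∈ insert A s, ∀ y ∈ insert A s, x < y ∨ x = y ∨ y < x := by
    intro x hx y hy
    by_cases e : x = y
    · exact Or.inr (Or.inl e)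
    · rcases hc (show x ∈ insert A (s : Set α) by simpa using hx)
        (show y ∈ insert A (s : Set α) by simpa using hy) e with h | h
      · exact Or.inl (lt_of_le_of_ne h e)
      · exact Or.inr (Or.inr (lt_of_le_of_ne h (Ne.symm e)))
  set Q : Finset α := (insert A s).filter (fun W => A ≤ W ∧ W < B) with hQ
  have hQm : ∀ W, W ∈ Q ↔ W ∈ insert A s ∧ A ≤ W ∧ W < B := fun W => by rw [hQ, mem_filter]
  have hAQ : A ∈ Q := (hQm A).2 ⟨mem_insert_self _ _, le_rfl, hAB⟩
  -- the left hand side
  have hL : ((prism A B L s).map (dl f)).sum = ∑ W ∈ Q, dl f (term A L s W) := by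
    unfold prism
    rw [Multiset.map_map]
    rfl
  have hR : ∀ v ∈ s, ((prism A B L (s.erase v)).map f).sum =
      ∑ W ∈ Q, if W ≠ v then f (term A L (s.erase v) W) else 0 := by
    intro v hv
    unfold prism
    rw [Multiset.map_map]
    have hvA : v ≠ A := by rintro rfl; exact hA hv
    have e : (insert A (s.erase v)).filter (fun W => A ≤ W ∧ W < B) = Q.filter (fun W => W ≠ v) := by
      ext x
      rw [mem_filter, mem_filter, hQm, mem_insert, mem_insert, mem_erase]
      constructor
      · rintro ⟨rfl | ⟨h1, h2⟩, h3⟩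
        · exact ⟨⟨Or.inl rfl, h3⟩, Ne.symm hvA⟩
        · exact ⟨⟨Or.inr h2, h3⟩, h1⟩
      · rintro ⟨⟨rfl | h2, h3⟩, h1⟩
        · exact ⟨Or.inl rfl, h3⟩
        · exact ⟨Or.inr ⟨h1, h2⟩, h3⟩
    rw [← sum_filter, ← e]
    rfl
  rw [hL, sum_congr rfl hR]
  have hL2 : ∀ W ∈ Q, dl f (term A L s W) =
      (∑ v ∈ s, if W ≠ v then f (term A L (s.erase v) W) else 0) +
      ((if W ∈ s then f ((term A L s W).erase W) else 0) +
      f ((term A L s W).erase (W ⊔ L))) := by
    intro W hW
    obtain ⟨h1, h2, h3⟩ := (hQm W).1 hW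
    rw [pbd_dl_term hA (hgt W h1 h2 h3) h2 h1 hinj f, ← sum_add_distrib]
    congr 1
    apply sum_congr rfl
    intro v hv
    rcases hcmp W h1 v (mem_insert_of_mem hv) with h | h | h
    · rw [if_neg h.not_gt, if_pos h, if_pos h.ne, zero_add]
    · subst h
      simp
    · rw [if_pos h, if_neg h.not_gt, if_pos h.ne', add_zero]
  rw [sum_congr rfl hL2, sum_add_distrib, sum_comm, add_comm]
  congr 1
  -- the diagonal terms
  rw [sum_add_distrib]
  have h1 : ∑ W ∈ Q, (if W ∈ s then f ((term A L s W).erase W) else 0) =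
      ∑ W ∈ Q.erase A, f ((term A L s W).erase W) := by
    rw [← sum_filter]
    apply sum_congr _ (fun _ _ => rfl)
    ext x
    rw [mem_filter, mem_erase, hQm, mem_insert]
    constructor
    · rintro ⟨h1, h2⟩
      exact ⟨by rintro rfl; exact hA h2, h1⟩
    · rintro ⟨h1, h2⟩
      exact ⟨h2, h2.1.resolve_left h1⟩
  rw [h1]
  have hQc : IsChain (· ≤ ·) (Q : Set α) := hc.mono (by
    intro x hx
    have := ((hQm x).1 (mem_coe.1 hx)).1
    simpa using this)
  obtain ⟨M, hM⟩ := Q.exists_maximal ⟨A, hAQ⟩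
  have hmax : ∀ W ∈ Q, W ≤ M := by
    intro W hW
    rcases hcmp W ((hQm W).1 hW).1 M ((hQm M).1 hM.1).1 with h | h | h
    · exact h.le
    · exact h.le
    · exact absurd (hM.2 hW h.le) h.not_ge
  rw [telescope Q A hAQ (fun W hW => ((hQm W).1 hW).2.1) hQc
    (fun W => f ((term A L s W).erase W)) (fun W => f ((term A L s W).erase (W ⊔ L))) ?_ M hM.1 hmax]
  · -- the last term
    obtain ⟨m1, m2, m3⟩ := (hQm M).1 hM.1
    have hLM := hgt M m1 m2 m3
    have : (term A L s M).erase (M ⊔ L) = s := by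
      ext x
      rw [mem_erase, pbd_mem_term]
      constructor
      · rintro ⟨hx, ⟨h1, h2⟩ | ⟨y, hy, hWy, rfl⟩⟩
        · exact h1
        · have hyM : y ≠ M := by rintro rfl; exact hx rfl
          have hlt : M < y := lt_of_le_of_ne hWy (Ne.symm hyM)
          have hys : y ∈ s := by
            rcases mem_insert.1 hy with rfl | hy
            · exact absurd (hlt.trans_le m2) (lt_irrefl _)
            · exact hy
          have hBy : B ≤ y := by
            rcases hB y hys with h | h
            · exact absurd (hmax y ((hQm y).2 ⟨hy, m2.trans hlt.le, h⟩)) hlt.not_ge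
            · exact h
          rwa [sup_eq_left.2 (hLB.trans hBy)]
      · intro hx
        rcases hcmp x (mem_insert_of_mem hx) M m1 with h | h | h
        · refine ⟨?_, Or.inl ⟨hx, h.le⟩⟩
          rintro rfl
          exact absurd (le_sup_left.trans_lt h) (lt_irrefl _)
        · refine ⟨?_, Or.inl ⟨hx, h.le⟩⟩
          rintro h'
          exact hLM (by
            calc L ≤ M ⊔ L := le_sup_right
              _ = x := h'.symm
              _ = M := h)
        · have hBx : B ≤ x := by
            rcases hB x hx with h' | h'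
            · exact absurd (hmax x ((hQm x).2 ⟨mem_insert_of_mem hx, m2.trans h.le, h'⟩)) h.not_ge
            · exact h'
          have hxL : x ⊔ L = x := sup_eq_left.2 (hLB.trans hBx)
          refine ⟨?_, Or.inr ⟨x, mem_insert_of_mem hx, h.le, hxL⟩⟩
          intro e
          have := hinj x (mem_insert_of_mem hx) M m1 (m2.trans h.le) m2 (by rw [hxL, e])
          exact absurd this h.ne'
    rw [this]
  · -- consecutive terms
    intro W hW W' hW' hlt hno
    obtain ⟨a1, a2, a3⟩ := (hQm W).1 hW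
    obtain ⟨b1, b2, b3⟩ := (hQm W').1 hW'
    have hLW := hgt W a1 a2 a3
    have hLW' := hgt W' b1 b2 b3
    show f _ = f _
    congr 1
    have hW's : W' ∈ s := by
      rcases mem_insert.1 b1 with rfl | h
      · exact absurd (hlt.trans_le a2) (lt_irrefl _)
      · exact h
    have key : ∀ x ∈ insert A s, W < x → W' ≤ x := by
      intro x hx h
      rcases hcmp x hx W' b1 with h' | h' | h'
      · exact absurd ⟨h, h'⟩ (hno x ((hQm x).2 ⟨hx, a2.trans h.le, h'.trans b3⟩))
      · exact h'.ge
      · exact h'.le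
    ext x
    rw [mem_erase, mem_erase, pbd_mem_term, pbd_mem_term]
    constructor
    · rintro ⟨hx, ⟨h1, h2⟩ | ⟨y, hy, hWy, rfl⟩⟩
      · have hxlt : x < W' := lt_of_le_of_ne h2 hx
        have hxW : x ≤ W := by
          rcases hcmp x (mem_insert_of_mem h1) W a1 with h' | h' | h'
          · exact h'.le
          · exact h'.le
          · exact absurd (key x (mem_insert_of_mem h1) h') hxlt.not_ge
        refine ⟨?_, Or.inl ⟨h1, hxW⟩⟩
        rintro rfl
        exact hLW (le_sup_right.trans hxW)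
      · refine ⟨?_, Or.inr ⟨y, hy, hlt.le.trans hWy, rfl⟩⟩
        intro e
        have := hinj y hy W a1 (b2.trans hWy) a2 e
        subst this
        exact absurd (hlt.trans_le hWy) (lt_irrefl _)
    · rintro ⟨hx, ⟨h1, h2⟩ | ⟨y, hy, hWy, rfl⟩⟩
      · refine ⟨?_, Or.inl ⟨h1, h2.trans hlt.le⟩⟩
        rintro rfl
        exact absurd (hlt.trans_le h2) (lt_irrefl _)
      · have hyW : y ≠ W := by rintro rfl; exact hx rfl
        refine ⟨?_, Or.inr ⟨y, hy, key y hy (lt_of_le_of_ne hWy (Ne.symm hyW)), rfl⟩⟩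
        intro e
        exact hLW' (by
          calc L ≤ y ⊔ L := le_sup_right
            _ = W' := e)

end

end Crest.Agent.R66.B
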