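import Crest.Agent.R66.BFlag
import Crest.Agent.R66.BPrism
import Crest.Agent.R66.BAvg
import Crest.Agent.R66.BLink

/-!
# Row 66, part (B): the cone data on the opposite flag complex (helper12)
-/
set_option autoImplicit false

namespace Crest.Agent.R66.B

open Finset Crest.Agent.R66 Module

section
variable (F : Type) [Field F] [Fintype F] (m : ℕ)

noncomputable instance instFintypeSub : Fintype (Submodule F (Fin m → F)) := Fintype.ofFinite _

noncomputable instance instDecEqSub : DecidableEq (Submodule F (Fin m → F)) := Classical.decEq _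

open scoped Classical in
/-- the opposite flag complex: its chambers are the complete flags of opposite subspaces. -/
noncomputable def Yc : Finset (Finset (Submodule F (Fin m → F))) :=
  (univ.powersetCard (m - 1)).filter
    (fun c => IsChain (· ≤ ·) (c : Set (Submodule F (Fin m → F))) ∧ ∀ W ∈ c, IsVert W)

variable {F m}

/-- the type of a subspace is its dimension. -/
noncomputable def tp (W : Submodule F (Fin m → F)) : ℕ := finrank F W

theorem face_iff (hm : 1 ≤ m) (ρ : Finset (Submodule F (Fin m → F))) :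
    0 < wt (Yc F m) ρ ↔
      IsChain (· ≤ ·) (ρ : Set (Submodule F (Fin m → F))) ∧ ∀ W ∈ ρ, IsVert W := by
  classical
  constructor
  · intro h
    unfold wt at h
    rw [Finset.card_pos] at h
    obtain ⟨c, hc⟩ := h
    rw [mem_filter] at hc
    obtain ⟨hc1, hc2⟩ := hc
    unfold Yc at hc1
    rw [mem_filter] at hc1
    exact ⟨hc1.2.1.mono (by exact_mod_cast hc2), fun W hW => hc1.2.2 W (hc2 hW)⟩
  · rintro ⟨hch, hv⟩
    obtain ⟨u, hu, huW⟩ := exists_uni ρ hch (fun W hW => (hv W hW).1)
    set g : ℕ → Submodule F (Fin m → F) :=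
      fun i => (st F m i).map (u : (Fin m → F) →ₗ[F] (Fin m → F)) with hg
    have hfr : ∀ i, i ≤ m → finrank F (g i) = i := by
      intro i hi
      rw [hg]
      simp only
      rw [LinearEquiv.finrank_map_eq, finrank_st i hi]
    have hinj : Set.InjOn g (Finset.Ioo 0 m : Finset ℕ) := by
      intro i hi j hj hij
      simp only [coe_Ioo, Set.mem_Ioo] at hi hj
      rw [← hfr i (by omega), ← hfr j (by omega), hij]
    unfold wt
    rw [Finset.card_pos]
    refine ⟨(Finset.Ioo 0 m).image g, ?_⟩
    rw [mem_filter]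
    constructor
    · unfold Yc
      rw [mem_filter, mem_powersetCard]
      refine ⟨⟨subset_univ _, ?_⟩, ?_, ?_⟩
      · rw [Finset.card_image_of_injOn hinj, Nat.card_Ioo]
        omega
      · intro X hX Y hY _
        simp only [coe_image, Set.mem_image] at hX hY
        obtain ⟨i, _, rfl⟩ := hX
        obtain ⟨j, _, rfl⟩ := hY
        rcases le_total i j with h | h
        · exact Or.inl (Submodule.map_mono (st_mono h))
        · exact Or.inr (Submodule.map_mono (st_mono h))
      · intro W hW
        rw [mem_image] at hW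
        obtain ⟨i, hi, rfl⟩ := hW
        rw [mem_Ioo] at hi
        refine ⟨(opp_map hu _).2 (opp_st i (by omega)), ?_, ?_⟩
        · intro h0
          have := hfr i (by omega)
          rw [h0, finrank_bot] at this
          omega
        · intro h0
          have := hfr i (by omega)
          rw [h0, finrank_top, finrank_fin_fun] at this
          omega
    · intro W hW
      rw [mem_image]
      have hWv := hv W hW
      refine ⟨finrank F W, ?_, huW W hW⟩
      rw [mem_Ioo]
      constructor
      · by_contra h0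
        exact hWv.2.1 (Submodule.finrank_eq_zero.1 (by omega))
      · have h1 := Submodule.finrank_lt hWv.2.2
        rwa [finrank_fin_fun] at h1

omit [Fintype F] in
private theorem eq_of_chain_tp {c : Finset (Submodule F (Fin m → F))}
    (hc : IsChain (· ≤ ·) (c : Set (Submodule F (Fin m → F)))) {X Y : Submodule F (Fin m → F)}
    (hX : X ∈ c) (hY : Y ∈ c) (h : finrank F X = finrank F Y) : X = Y := by
  rcases hc.total hX hY with h1 | h1
  · exact Submodule.eq_of_le_of_finrank_eq h1 h
  · exact (Submodule.eq_of_le_of_finrank_eq h1 h.symm).symm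

omit [Fintype F] in
private theorem tp_mem_Ioo {W : Submodule F (Fin m → F)} (h : IsVert W) :
    finrank F W ∈ Finset.Ioo 0 m := by
  rw [mem_Ioo]
  constructor
  · by_contra h0
    exact h.2.1 (Submodule.finrank_eq_zero.1 (by omega))
  · have h1 := Submodule.finrank_lt h.2.2
    rwa [finrank_fin_fun] at h1

theorem typed_Yc (hm : 1 ≤ m) : Typed (Yc F m) tp (Finset.Ioo 0 m) := by
  classical
  have key : ∀ e ∈ Yc F m, IsChain (· ≤ ·) (e : Set (Submodule F (Fin m → F))) ∧
      (∀ W ∈ e, IsVert W) ∧ e.card = m - 1 := by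
    intro e he
    unfold Yc at he
    rw [mem_filter, mem_powersetCard] at he
    exact ⟨he.2.1, he.2.2, he.1.2⟩
  constructor
  · intro e he
    obtain ⟨h1, h2, h3⟩ := key e he
    apply Finset.eq_of_subset_of_card_le
    · intro i hi
      rw [mem_image] at hi
      obtain ⟨W, hW, rfl⟩ := hi
      exact tp_mem_Ioo (h2 W hW)
    · rw [Finset.card_image_of_injOn, h3, Nat.card_Ioo]
      · omega
      · intro X hX Y hY h
        exact eq_of_chain_tp h1 hX hY h
  · intro e he v hv w hw h
    exact eq_of_chain_tp (key e he).1 hv hw h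

/-- symmetries: two faces containing `τ` of the same type differ by a unipotent automorphism
fixing all members of `τ`. -/
theorem exists_uni_faces (τ ρ ρ' : Finset (Submodule F (Fin m → F))) (hm : 1 ≤ m)
    (h1 : 0 < wt (Yc F m) (τ ∪ ρ)) (h2 : 0 < wt (Yc F m) (τ ∪ ρ'))
    (h : ρ.image tp = ρ'.image tp) :
    ∃ u : (Fin m → F) ≃ₗ[F] (Fin m → F), Uni u ∧
      (∀ X ∈ τ, X.map (u : (Fin m → F) →ₗ[F] (Fin m → F)) = X) ∧
      ρ.image (fun X => X.map (u : (Fin m → F) →ₗ[F] (Fin m → F))) = ρ' := by
  obtain ⟨c1, v1⟩ := (face_iff hm _).1 h1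
  obtain ⟨c2, v2⟩ := (face_iff hm _).1 h2
  obtain ⟨u1, hu1, k1⟩ := exists_uni _ c1 (fun W hW => (v1 W hW).1)
  obtain ⟨u2, hu2, k2⟩ := exists_uni _ c2 (fun W hW => (v2 W hW).1)
  have hmap : ∀ X ∈ τ ∪ ρ, X.map ((u1.symm.trans u2 : (Fin m → F) ≃ₗ[F] (Fin m → F)) :
      (Fin m → F) →ₗ[F] (Fin m → F)) =
      (st F m (finrank F X)).map (u2 : (Fin m → F) →ₗ[F] (Fin m → F)) := by
    intro X hX
    have h3 := k1 X hX
    conv_lhs => rw [← h3]
    rw [← Submodule.map_comp]
    congr 1
    ext x
    simp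
  refine ⟨u1.symm.trans u2, uni_trans (uni_symm hu1) hu2, ?_, ?_⟩
  · intro X hX
    rw [hmap X (mem_union_left _ hX)]
    exact k2 X (mem_union_left _ hX)
  · ext Y
    rw [mem_image]
    constructor
    · rintro ⟨X, hX, rfl⟩
      rw [hmap X (mem_union_right _ hX)]
      have : tp X ∈ ρ'.image tp := by
        rw [← h]
        exact mem_image_of_mem _ hX
      rw [mem_image] at this
      obtain ⟨Z, hZ, hZX⟩ := this
      have h4 : finrank F X = finrank F Z := hZX.symm
      rw [h4, k2 Z (mem_union_right _ hZ)]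
      exact hZ
    · intro hY
      have : tp Y ∈ ρ.image tp := by
        rw [h]
        exact mem_image_of_mem _ hY
      rw [mem_image] at this
      obtain ⟨X, hX, hXY⟩ := this
      refine ⟨X, hX, ?_⟩
      rw [hmap X (mem_union_right _ hX)]
      have h4 : finrank F X = finrank F Y := hXY
      rw [h4, k2 Y (mem_union_right _ hY)]

/-- there is a gap in every non-maximal face. -/
theorem exists_gap (τ : Finset (Submodule F (Fin m → F))) (hτ : 0 < wt (Yc F m) τ)
    (hc : τ.card + 2 ≤ m) :
    ∃ A B : Submodule F (Fin m → F), (A = ⊥ ∨ A ∈ τ) ∧ (B = ⊤ ∨ B ∈ τ) ∧ A < B ∧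
      finrank F A + 2 ≤ finrank F B ∧ ∀ X ∈ τ, X ≤ A ∨ B ≤ X := by
  classical
  obtain ⟨hch, hv⟩ := (face_iff (by omega) _).1 hτ
  obtain ⟨i, hi, hi2⟩ : ∃ i ∈ Finset.Ioo 0 m, i ∉ τ.image tp := by
    by_contra hcon
    push Not at hcon
    have h1 : Finset.Ioo 0 m ⊆ τ.image tp := hcon
    have h2 := (Finset.card_le_card h1).trans Finset.card_image_le
    rw [Nat.card_Ioo] at h2
    omega
  rw [mem_Ioo] at hi
  have hne : ∀ X ∈ τ, finrank F X ≠ i := by
    intro X hX h
    exact hi2 (mem_image.2 ⟨X, hX, h⟩)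
  obtain ⟨A, hA, hAmax⟩ := Finset.exists_max_image
    (insert ⊥ (τ.filter fun X => tp X < i)) tp ⟨⊥, mem_insert_self _ _⟩
  obtain ⟨B, hB, hBmin⟩ := Finset.exists_min_image
    (insert ⊤ (τ.filter fun X => i < tp X)) tp ⟨⊤, mem_insert_self _ _⟩
  have hA1 : A = ⊥ ∨ A ∈ τ := by
    rw [mem_insert, mem_filter] at hA
    tauto
  have hB1 : B = ⊤ ∨ B ∈ τ := by
    rw [mem_insert, mem_filter] at hB
    tauto
  have hAi : finrank F A < i := by
    rw [mem_insert, mem_filter] at hA
    rcases hA with hA | hA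
    · rw [hA, finrank_bot]; omega
    · exact hA.2
  have hBi : i < finrank F B := by
    rw [mem_insert, mem_filter] at hB
    rcases hB with hB | hB
    · rw [hB, finrank_top, finrank_fin_fun]; omega
    · exact hB.2
  refine ⟨A, B, hA1, hB1, ?_, by omega, ?_⟩
  · have hle : A ≤ B := by
      rcases hA1 with h | h
      · rw [h]; exact bot_le
      · rcases hB1 with h' | h'
        · rw [h']; exact le_top
        · rcases hch.total h h' with h'' | h''
          · exact h''
          · have := Submodule.finrank_mono h''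
            omega
    refine lt_of_le_of_ne hle ?_
    intro h
    rw [h] at hAi
    omega
  · intro X hX
    rcases lt_or_gt_of_ne (hne X hX) with h | h
    · left
      have hm1 : finrank F X ≤ finrank F A := hAmax X (mem_insert_of_mem (mem_filter.2 ⟨hX, h⟩))
      rcases hA1 with h' | h'
      · rw [h', finrank_bot] at hm1
        have := Submodule.finrank_eq_zero.1 (Nat.le_zero.1 hm1)
        rw [this]
        exact bot_le
      · rcases hch.total hX h' with h'' | h''
        · exact h''
        · have h3 := Submodule.finrank_mono h''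
          exact (Submodule.eq_of_le_of_finrank_eq h'' (le_antisymm h3 hm1)).ge
    · right
      have hm1 : finrank F B ≤ finrank F X := hBmin X (mem_insert_of_mem (mem_filter.2 ⟨hX, h⟩))
      rcases hB1 with h' | h'
      · rw [h', finrank_top, finrank_fin_fun] at hm1
        have h3 : finrank F X ≤ m := by
          have := Submodule.finrank_le X
          rwa [finrank_fin_fun] at this
        have : X = ⊤ := Submodule.eq_top_of_finrank_eq (by rw [finrank_fin_fun]; omega)
        rw [this]
        exact le_top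
      · rcases hch.total hX h' with h'' | h''
        · have h3 := Submodule.finrank_mono h''
          exact (Submodule.eq_of_le_of_finrank_eq h'' (le_antisymm h3 hm1)).ge
        · exact h''

/-- the random cone. -/
noncomputable def cone (A B : Submodule F (Fin m → F)) (x : Om (finrank F A) B)
    (ρ : Finset (Submodule F (Fin m → F))) : Multiset (Finset (Submodule F (Fin m → F))) :=
  prism A B (A ⊔ Submodule.span F {(x : Fin m → F)}) ρ

/-- good pairs. -/
def isGood (A B : Submodule F (Fin m → F)) (x : Om (finrank F A) B)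
    (ρ : Finset (Submodule F (Fin m → F))) : Prop :=
  ∀ W ∈ ρ, A < W → W < B → (x : Fin m → F) ∉ W ⊔ fl F m (m - finrank F W - 1)

/-- `A, B` is a gap of the face `τ`. -/
structure Gap (τ : Finset (Submodule F (Fin m → F))) (A B : Submodule F (Fin m → F)) : Prop where
  hm : 1 ≤ m
  face : 0 < wt (Yc F m) τ
  hA : A = ⊥ ∨ A ∈ τ
  hB : B = ⊤ ∨ B ∈ τ
  lt : A < B
  two : finrank F A + 2 ≤ finrank F B
  gap : ∀ X ∈ τ, X ≤ A ∨ B ≤ X

theorem lk_face_iff (τ ρ : Finset (Submodule F (Fin m → F))) :
    0 < wt (lk (Yc F m) τ) ρ ↔ Disjoint τ ρ ∧ 0 < wt (Yc F m) (τ ∪ ρ) := by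
  by_cases h : Disjoint τ ρ
  · rw [wt_lk_of_disjoint _ _ _ h]
    exact ⟨fun h' => ⟨h, h'⟩, fun h' => h'.2⟩
  · rw [wt_lk_of_not_disjoint _ _ _ h]
    exact ⟨fun h' => absurd h' (lt_irrefl _), fun h' => absurd h'.1 h⟩

theorem gap2_opp_bot : Opp (⊥ : Submodule F (Fin m → F)) := by
  unfold Opp
  exact bot_inf_eq _

theorem gap2_finrank_le (W : Submodule F (Fin m → F)) : finrank F W ≤ m := by
  have := Submodule.finrank_le W
  rwa [finrank_fin_fun] at this

theorem Gap.oppA {τ : Finset (Submodule F (Fin m → F))} {A B : Submodule F (Fin m → F)}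
    (G : Gap τ A B) : Opp A := by
  rcases G.hA with h | h
  · rw [h]
    exact gap2_opp_bot
  · exact (((face_iff G.hm τ).mp G.face).2 A h).1

/-- basic facts about a face of the link. -/
theorem gap2_basic {τ : Finset (Submodule F (Fin m → F))} {A B : Submodule F (Fin m → F)}
    (G : Gap τ A B) (ρ : Finset (Submodule F (Fin m → F)))
    (hρ : 0 < wt (lk (Yc F m) τ) ρ) :
    Disjoint τ ρ ∧ (∀ X ∈ τ, ∀ Y ∈ ρ, X ≤ Y ∨ Y ≤ X) ∧ (∀ X ∈ ρ, ∀ Y ∈ ρ, X ≤ Y ∨ Y ≤ X) ∧
      (∀ X ∈ ρ, IsVert X) ∧ A ∉ ρ ∧ B ∉ ρ ∧ (∀ Y ∈ ρ, A ≤ Y ∨ Y ≤ A) ∧ (∀ Y ∈ ρ, Y < B ∨ B ≤ Y) := by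
  obtain ⟨hd, hf⟩ := (lk_face_iff τ ρ).mp hρ
  obtain ⟨hc, hv⟩ := (face_iff G.hm _).mp hf
  have hcmp : ∀ X ∈ τ ∪ ρ, ∀ Y ∈ τ ∪ ρ, X ≤ Y ∨ Y ≤ X := by
    intro X hX Y hY
    exact hc.total (Finset.mem_coe.mpr hX) (Finset.mem_coe.mpr hY)
  have hvρ : ∀ X ∈ ρ, IsVert X := fun X hX => hv X (Finset.mem_union_right _ hX)
  have hAρ : A ∉ ρ := by
    intro h
    rcases G.hA with h' | h'
    · exact (hvρ A h).2.1 h'
    · exact Finset.disjoint_left.mp hd h' h
  have hBρ : B ∉ ρ := by
    intro h
    rcases G.hB with h' | h'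
    · exact (hvρ B h).2.2 h'
    · exact Finset.disjoint_left.mp hd h' h
  refine ⟨hd, fun X hX Y hY => hcmp X (Finset.mem_union_left _ hX) Y (Finset.mem_union_right _ hY),
    fun X hX Y hY => hcmp X (Finset.mem_union_right _ hX) Y (Finset.mem_union_right _ hY), hvρ, hAρ, hBρ,
    ?_, ?_⟩
  · intro Y hY
    rcases G.hA with h' | h'
    · left
      rw [h']
      exact bot_le
    · exact hcmp A (Finset.mem_union_left _ h') Y (Finset.mem_union_right _ hY)
  · intro Y hY
    have hne : Y ≠ B := fun h => hBρ (h ▸ hY)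
    rcases G.hB with h' | h'
    · left
      rw [h']
      exact lt_top_iff_ne_top.mpr (hvρ Y hY).2.2
    · rcases hcmp B (Finset.mem_union_left _ h') Y (Finset.mem_union_right _ hY) with h | h
      · exact Or.inr h
      · exact Or.inl (lt_of_le_of_ne h hne)

/-- joining with `L` raises the dimension by one below `B`. -/
theorem gap2_sup {τ : Finset (Submodule F (Fin m → F))} {A B : Submodule F (Fin m → F)}
    (G : Gap τ A B) (x : Om (finrank F A) B) (ρ : Finset (Submodule F (Fin m → F)))
    (hρ : 0 < wt (lk (Yc F m) τ) ρ) (hg : isGood A B x ρ)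
    (W : Submodule F (Fin m → F)) (hW : W = A ∨ W ∈ ρ) (hAW : A ≤ W) (hWB : W < B) :
    Opp (W ⊔ (A ⊔ Submodule.span F {(x : Fin m → F)})) ∧
      finrank F (W ⊔ (A ⊔ Submodule.span F {(x : Fin m → F)}) : Submodule F (Fin m → F)) =
        finrank F W + 1 := by
  have e : W ⊔ (A ⊔ Submodule.span F {(x : Fin m → F)}) = W ⊔ Submodule.span F {(x : Fin m → F)} := by
    rw [← sup_assoc, sup_eq_left.mpr hAW]
  rw [e]
  have hlt : finrank F W < m := by
    have h1 := Submodule.finrank_lt_finrank_of_lt hWB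
    have h2 := gap2_finrank_le B
    omega
  obtain ⟨_, _, _, hv, hAρ, _, _, _⟩ := gap2_basic G ρ hρ
  have hO : Opp W := by
    rcases hW with h | h
    · rw [h]
      exact G.oppA
    · exact (hv W h).1
  refine opp_sup_span hO _ hlt ?_
  rcases hW with h | h
  · subst h
    exact om_good hO hlt _ x.2
  · have hne : A ≠ W := fun h' => hAρ (h' ▸ h)
    exact hg W h (lt_of_le_of_ne hAW hne) hWB

theorem gap2_dim {τ : Finset (Submodule F (Fin m → F))} {A B : Submodule F (Fin m → F)}
    (G : Gap τ A B) (ρ : Finset (Submodule F (Fin m → F)))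
    (hκ : ∀ v ∈ ρ, tp v ≠ finrank F B - 1)
    (W : Submodule F (Fin m → F)) (hW : W = A ∨ W ∈ ρ) (hWB : W < B) :
    finrank F W + 2 ≤ finrank F B := by
  rcases hW with h | h
  · rw [h]
    exact G.two
  · have h1 := Submodule.finrank_lt_finrank_of_lt hWB
    have h2 := hκ W h
    unfold tp at h2
    omega

theorem gap2_L_le {τ : Finset (Submodule F (Fin m → F))} {A B : Submodule F (Fin m → F)}
    (G : Gap τ A B) (x : Om (finrank F A) B) :
    A ⊔ Submodule.span F {(x : Fin m → F)} ≤ B := by
  refine sup_le G.lt.le ?_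
  rw [Submodule.span_singleton_le_iff_mem]
  exact x.2.1

/-- the hypotheses of the prism lemmas hold. -/
theorem gap_prism {τ : Finset (Submodule F (Fin m → F))} {A B : Submodule F (Fin m → F)}
    (G : Gap τ A B) (x : Om (finrank F A) B) (ρ : Finset (Submodule F (Fin m → F)))
    (hρ : 0 < wt (lk (Yc F m) τ) ρ) (hκ : ∀ v ∈ ρ, tp v ≠ finrank F B - 1)
    (hg : isGood A B x ρ) :
    IsChain (· ≤ ·) (insert A (ρ : Set (Submodule F (Fin m → F)))) ∧ A ∉ ρ ∧
    A ⊔ Submodule.span F {(x : Fin m → F)} ≤ B ∧ (∀ W ∈ ρ, W < B ∨ B ≤ W) ∧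
    (∀ W ∈ insert A ρ, ∀ W' ∈ insert A ρ, A ≤ W → A ≤ W' →
      W ⊔ (A ⊔ Submodule.span F {(x : Fin m → F)}) = W' ⊔ (A ⊔ Submodule.span F {(x : Fin m → F)}) →
      W = W') ∧
    (∀ W ∈ insert A ρ, A ≤ W → W < B → ¬ A ⊔ Submodule.span F {(x : Fin m → F)} ≤ W) := by
  obtain ⟨hd, hτρ, hρρ, hv, hAρ, hBρ, hA, hB⟩ := gap2_basic G ρ hρ
  have hmem : ∀ W, W ∈ insert A ρ → W = A ∨ W ∈ ρ := fun W hW => Finset.mem_insert.mp hW
  have hL := gap2_L_le G x
  refine ⟨?_, hAρ, hL, hB, ?_, ?_⟩
  · intro X hX Y hY _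
    rcases hX with hX | hX
    · rcases hY with hY | hY
      · left
        rw [hX, hY]
      · rw [hX]
        exact hA Y (Finset.mem_coe.mp hY)
    · rcases hY with hY | hY
      · rw [hY]
        exact (hA X (Finset.mem_coe.mp hX)).symm
      · exact hρρ X (Finset.mem_coe.mp hX) Y (Finset.mem_coe.mp hY)
  · -- injectivity
    have key : ∀ W ∈ insert A ρ, ∀ W' ∈ insert A ρ, A ≤ W → A ≤ W' →
        W ⊔ (A ⊔ Submodule.span F {(x : Fin m → F)}) = W' ⊔ (A ⊔ Submodule.span F {(x : Fin m → F)}) →
        W < B → W = W' := by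
      intro W hW W' hW' hAW hAW' he hWB
      obtain ⟨_, h1⟩ := gap2_sup G x ρ hρ hg W (hmem W hW) hAW hWB
      have h2 := gap2_dim G ρ hκ W (hmem W hW) hWB
      have hW'B : W' < B := by
        rcases hmem W' hW' with h | h
        · rw [h]
          exact G.lt
        · rcases hB W' h with h' | h'
          · exact h'
          · exfalso
            have h3 : W' ⊔ (A ⊔ Submodule.span F {(x : Fin m → F)}) = W' :=
              sup_eq_left.mpr (hL.trans h')
            have h4 : W ⊔ (A ⊔ Submodule.span F {(x : Fin m → F)}) ≤ B := sup_le hWB.le hL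
            rw [he, h3] at h4
            exact hBρ (le_antisymm h4 h' ▸ h)
      obtain ⟨_, h3⟩ := gap2_sup G x ρ hρ hg W' (hmem W' hW') hAW' hW'B
      have h4 : finrank F W = finrank F W' := by
        rw [he] at h1
        omega
      have hcmp : W ≤ W' ∨ W' ≤ W := by
        rcases hmem W hW with h | h
        · left
          rw [h]
          exact hAW'
        · rcases hmem W' hW' with h' | h'
          · right
            rw [h']
            exact hAW
          · exact hρρ W h W' h'
      rcases hcmp with h | h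
      · exact Submodule.eq_of_le_of_finrank_eq h h4
      · exact (Submodule.eq_of_le_of_finrank_eq h h4.symm).symm
    intro W hW W' hW' hAW hAW' he
    by_cases h1 : W < B
    · exact key W hW W' hW' hAW hAW' he h1
    · by_cases h2 : W' < B
      · exact (key W' hW' W hW hAW' hAW he.symm h2).symm
      · have f : ∀ Z ∈ insert A ρ, ¬ Z < B → Z ⊔ (A ⊔ Submodule.span F {(x : Fin m → F)}) = Z := by
          intro Z hZ hn
          rcases hmem Z hZ with h | h
          · exact absurd (h ▸ G.lt) hn
          · exact sup_eq_left.mpr (hL.trans ((hB Z h).resolve_left hn))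
        rw [f W hW h1, f W' hW' h2] at he
        exact he
  · intro W hW hAW hWB hle
    obtain ⟨_, h1⟩ := gap2_sup G x ρ hρ hg W (hmem W hW) hAW hWB
    rw [sup_eq_left.mpr hle] at h1
    omega

/-- the terms of the cone are faces. -/
theorem gap_face {τ : Finset (Submodule F (Fin m → F))} {A B : Submodule F (Fin m → F)}
    (G : Gap τ A B) (x : Om (finrank F A) B) (ρ : Finset (Submodule F (Fin m → F)))
    (hρ : 0 < wt (lk (Yc F m) τ) ρ) (hκ : ∀ v ∈ ρ, tp v ≠ finrank F B - 1)
    (hg : isGood A B x ρ) : ∀ t ∈ cone A B x ρ, 0 < wt (lk (Yc F m) τ) t := by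
  classical
  obtain ⟨hd, hτρ, hρρ, hv, hAρ, hBρ, hA, hB⟩ := gap2_basic G ρ hρ
  have hL := gap2_L_le G x
  set L : Submodule F (Fin m → F) := A ⊔ Submodule.span F {(x : Fin m → F)} with hLdef
  obtain ⟨hcτ, hvτ⟩ := (face_iff G.hm τ).mp G.face
  have hAL : A ≤ L := le_sup_left
  intro t ht
  unfold cone prism at ht
  rw [Multiset.mem_map] at ht
  obtain ⟨W, hW, rfl⟩ := ht
  have hW' := Finset.mem_filter.mp (Finset.mem_val.mp hW)
  obtain ⟨hWmem, hAW, hWB⟩ := hW'
  rw [Finset.mem_insert] at hWmem
  -- description of the elements of the term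
  have helem : ∀ Z ∈ term A L ρ W, (Z ∈ ρ) ∨
      (∃ W', (W' = A ∨ W' ∈ ρ) ∧ W ≤ W' ∧ W' < B ∧ Z = W' ⊔ L ∧ Opp Z ∧ finrank F Z = finrank F W' + 1 ∧
        finrank F Z < finrank F B) := by
    intro Z hZ
    unfold term at hZ
    rw [Finset.mem_union] at hZ
    rcases hZ with hZ | hZ
    · exact Or.inl (Finset.mem_filter.mp hZ).1
    · rw [Finset.mem_image] at hZ
      obtain ⟨W', hW', rfl⟩ := hZ
      rw [Finset.mem_filter, Finset.mem_insert] at hW'
      obtain ⟨hm', hWW'⟩ := hW'
      by_cases hb : W' < B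
      · right
        obtain ⟨h1, h2⟩ := gap2_sup G x ρ hρ hg W' hm' (hAW.trans hWW') hb
        have h3 := gap2_dim G ρ hκ W' hm' hb
        refine ⟨W', hm', hWW', hb, rfl, h1, h2, ?_⟩
        rw [h2]
        omega
      · left
        rcases hm' with h | h
        · exact absurd (h ▸ G.lt) hb
        · rw [sup_eq_left.mpr (hL.trans ((hB W' h).resolve_left hb))]
          exact h
  rw [lk_face_iff]
  have hdisj : Disjoint τ (term A L ρ W) := by
    rw [Finset.disjoint_left]
    intro X hX hXt
    rcases helem X hXt with h | ⟨W', hm', hWW', hb, rfl, h1, h2, h3⟩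
    · exact Finset.disjoint_left.mp hd hX h
    · rcases G.gap _ hX with h | h
      · have h4 : finrank F (W' ⊔ L : Submodule F (Fin m → F)) ≤ finrank F A := Submodule.finrank_mono h
        have h5 : finrank F A ≤ finrank F W' := Submodule.finrank_mono (hAW.trans hWW')
        omega
      · have h4 : finrank F B ≤ finrank F (W' ⊔ L : Submodule F (Fin m → F)) := Submodule.finrank_mono h
        omega
  refine ⟨hdisj, (face_iff G.hm _).mpr ⟨?_, ?_⟩⟩
  · -- chain
    have hins : ∀ X, (X = A ∨ X ∈ ρ) → ∀ Y, (Y = A ∨ Y ∈ ρ) → X ≤ Y ∨ Y ≤ X := by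
      intro X hX Y hY
      rcases hX with hX | hX
      · rcases hY with hY | hY
        · left
          rw [hX, hY]
        · rw [hX]
          exact hA Y hY
      · rcases hY with hY | hY
        · rw [hY]
          exact (hA X hX).symm
        · exact hρρ X hX Y hY
    have htτ : ∀ X ∈ τ, ∀ Y ∈ term A L ρ W, X ≤ Y ∨ Y ≤ X := by
      intro X hX Y hY
      rcases helem Y hY with h | ⟨W', hm', hWW', hb, rfl, h1, h2, h3⟩
      · exact hτρ X hX Y h
      · rcases G.gap X hX with h | h
        · left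
          exact h.trans ((hAW.trans hWW').trans le_sup_left)
        · right
          exact (sup_le hb.le hL).trans h
    have htt : ∀ X ∈ term A L ρ W, ∀ Y ∈ term A L ρ W, X ≤ Y ∨ Y ≤ X := by
      have hsplit : ∀ Z ∈ term A L ρ W, (Z ∈ ρ ∧ Z ≤ W) ∨
          (∃ W', (W' = A ∨ W' ∈ ρ) ∧ W ≤ W' ∧ Z = W' ⊔ L) := by
        intro Z hZ
        unfold term at hZ
        rw [Finset.mem_union] at hZ
        rcases hZ with hZ | hZ
        · exact Or.inl (Finset.mem_filter.mp hZ)
        · rw [Finset.mem_image] at hZ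
          obtain ⟨W', hW', rfl⟩ := hZ
          rw [Finset.mem_filter, Finset.mem_insert] at hW'
          exact Or.inr ⟨W', hW'.1, hW'.2, rfl⟩
      intro X hX Y hY
      rcases hsplit X hX with ⟨hX1, hX2⟩ | ⟨X', hX1, hX2, rfl⟩
      · rcases hsplit Y hY with ⟨hY1, hY2⟩ | ⟨Y', hY1, hY2, rfl⟩
        · exact hρρ X hX1 Y hY1
        · left
          exact (hX2.trans hY2).trans le_sup_left
      · rcases hsplit Y hY with ⟨hY1, hY2⟩ | ⟨Y', hY1, hY2, rfl⟩
        · right
          exact (hY2.trans hX2).trans le_sup_left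
        · rcases hins X' hX1 Y' hY1 with h | h
          · left
            exact sup_le_sup_right h L
          · right
            exact sup_le_sup_right h L
    intro X hX Y hY hne
    have hX' := Finset.mem_union.mp (Finset.mem_coe.mp hX)
    have hY' := Finset.mem_union.mp (Finset.mem_coe.mp hY)
    rcases hX' with hX' | hX'
    · rcases hY' with hY' | hY'
      · exact hcτ (Finset.mem_coe.mpr hX') (Finset.mem_coe.mpr hY') hne
      · exact htτ X hX' Y hY'
    · rcases hY' with hY' | hY'
      · exact (htτ Y hY' X hX').symm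
      · exact htt X hX' Y hY'
  · intro Z hZ
    rcases Finset.mem_union.mp hZ with hZ | hZ
    · exact hvτ Z hZ
    · rcases helem Z hZ with h | ⟨W', hm', hWW', hb, _, h1, h2, h3⟩
      · exact hv Z h
      · refine ⟨h1, ?_, ?_⟩
        · intro h
          rw [h, finrank_bot] at h2
          omega
        · intro h
          have h4 := gap2_finrank_le B
          rw [h, finrank_top, finrank_fin_fun] at h3
          omega

open scoped Classical in
theorem mem_Yc (c : Finset (Submodule F (Fin m → F))) :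
    c ∈ Yc F m ↔ c.card = m - 1 ∧
      IsChain (· ≤ ·) (c : Set (Submodule F (Fin m → F))) ∧ ∀ W ∈ c, IsVert W := by
  unfold Yc
  simp [Finset.mem_filter, Finset.mem_powersetCard]

theorem mem_lk_iff {V : Type} [Fintype V] [DecidableEq V] (C : Finset (Finset V))
    (σ e : Finset V) : e ∈ lk C σ ↔ Disjoint e σ ∧ e ∪ σ ∈ C := by
  unfold lk
  simp only [Finset.mem_image, Finset.mem_filter]
  constructor
  · rintro ⟨c, ⟨hc, hs⟩, rfl⟩
    refine ⟨Finset.sdiff_disjoint, ?_⟩
    rw [Finset.sdiff_union_of_subset hs]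
    exact hc
  · rintro ⟨hd, hc⟩
    refine ⟨e ∪ σ, ⟨hc, Finset.subset_union_right⟩, ?_⟩
    rw [Finset.union_sdiff_right]
    exact Finset.sdiff_eq_self_of_disjoint hd

/-- the action of `u` on subspaces. -/
noncomputable def act (u : (Fin m → F) ≃ₗ[F] (Fin m → F)) :
    Submodule F (Fin m → F) ≃o Submodule F (Fin m → F) := Submodule.orderIsoMapComap u

theorem act_apply (u : (Fin m → F) ≃ₗ[F] (Fin m → F)) (X : Submodule F (Fin m → F)) :
    act u X = X.map (u : (Fin m → F) →ₗ[F] (Fin m → F)) := rfl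

theorem tp_act (u : (Fin m → F) ≃ₗ[F] (Fin m → F)) (X : Submodule F (Fin m → F)) :
    finrank F (act u X) = finrank F X := by
  rw [act_apply]
  exact LinearEquiv.finrank_map_eq u X

theorem mem_Yc_image {u : (Fin m → F) ≃ₗ[F] (Fin m → F)} (hu : Uni u)
    (c : Finset (Submodule F (Fin m → F))) : c.image (act u) ∈ Yc F m ↔ c ∈ Yc F m := by
  rw [mem_Yc, mem_Yc, Finset.card_image_of_injective _ (act u).injective]
  refine and_congr Iff.rfl (and_congr ?_ ?_)
  · constructor
    · intro h X hX Y hY hne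
      have := h (Finset.mem_coe.2 (Finset.mem_image_of_mem (act u) (Finset.mem_coe.1 hX)))
        (Finset.mem_coe.2 (Finset.mem_image_of_mem (act u) (Finset.mem_coe.1 hY)))
        (fun hh => hne ((act u).injective hh))
      simpa using this
    · intro h X hX Y hY hne
      obtain ⟨X', hX', rfl⟩ := Finset.mem_image.1 (Finset.mem_coe.1 hX)
      obtain ⟨Y', hY', rfl⟩ := Finset.mem_image.1 (Finset.mem_coe.1 hY)
      have := h (Finset.mem_coe.2 hX') (Finset.mem_coe.2 hY')
        (fun hh => hne (by rw [hh]))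
      simpa using this
  · constructor
    · intro h W hW
      exact (isVert_map hu W).1 (h _ (Finset.mem_image_of_mem (act u) hW))
    · intro h W hW
      obtain ⟨W', hW', rfl⟩ := Finset.mem_image.1 hW
      exact (isVert_map hu W').2 (h W' hW')

theorem disj_of_lk {τ ρ : Finset (Submodule F (Fin m → F))}
    (h : 0 < wt (lk (Yc F m) τ) ρ) : Disjoint τ ρ ∧ 0 < wt (Yc F m) (τ ∪ ρ) := by
  have hd : Disjoint τ ρ := by
    by_contra hc
    rw [wt_lk_of_not_disjoint _ _ _ hc] at h
    exact lt_irrefl _ h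
  rw [wt_lk_of_disjoint _ _ _ hd] at h
  exact ⟨hd, h⟩

/-- the symmetries of the cone. -/
theorem gap_sym {τ : Finset (Submodule F (Fin m → F))} {A B : Submodule F (Fin m → F)}
    (G : Gap τ A B) (ρ ρ' : Finset (Submodule F (Fin m → F)))
    (h1 : 0 < wt (lk (Yc F m) τ) ρ) (h2 : 0 < wt (lk (Yc F m) τ) ρ')
    (h : ρ.image tp = ρ'.image tp) :
    ∃ (a : Equiv.Perm (Submodule F (Fin m → F))) (b : Equiv.Perm (Om (finrank F A) B)),
      IsSym (lk (Yc F m) τ) tp (cone A B) (isGood A B) a b ∧ ρ.image a = ρ' := by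
  obtain ⟨hd1, hw1⟩ := disj_of_lk h1
  obtain ⟨hd2, hw2⟩ := disj_of_lk h2
  obtain ⟨u, hu, hfix, him⟩ := exists_uni_faces τ ρ ρ' G.hm hw1 hw2 h
  have hAu : act u A = A := by
    rcases G.hA with h | h
    · rw [h, act_apply, Submodule.map_bot]
    · exact hfix A h
  have hBu : act u B = B := by
    rcases G.hB with h | h
    · rw [h]; exact (act u).map_top
    · exact hfix B h
  have hτu : τ.image (act u) = τ := by
    have e0 : τ.image (act u) = τ.image id :=
      Finset.image_congr (fun X hX => hfix X (Finset.mem_coe.1 hX))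
    rw [e0, Finset.image_id]
  have ham : finrank F A < m := by
    have h1 : finrank F A < finrank F B := by have := G.two; omega
    have h2 : finrank F B ≤ m := by
      have := Submodule.finrank_le B
      simpa using this
    omega
  refine ⟨(act u).toEquiv, Equiv.Perm.subtypePerm u.toEquiv
    (fun x => om_uni hu (finrank F A) ham hBu x), ⟨?_, ?_, ?_, ?_⟩, him⟩
  · intro e
    change e.image (act u) ∈ _ ↔ _
    rw [mem_lk_iff, mem_lk_iff]
    have e1 : e.image (act u) ∪ τ = (e ∪ τ).image (act u) := by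
      rw [Finset.image_union, hτu]
    have e2 : Disjoint (e.image (act u)) τ ↔ Disjoint e τ := by
      conv_lhs => rw [← hτu]
      exact Finset.disjoint_image (act u).injective
    rw [e1, e2, mem_Yc_image hu]
  · intro v
    exact tp_act u v
  · intro x ρ
    change prism A B (A ⊔ Submodule.span F {u (x : Fin m → F)}) (ρ.image (act u)) =
      (prism A B (A ⊔ Submodule.span F {(x : Fin m → F)}) ρ).map (fun t => t.image (act u))
    rw [← prism_map A B _ ρ (act u) hAu hBu]
    congr 1
    rw [(act u).map_sup, hAu, act_apply, Submodule.map_span, Set.image_singleton]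
    rfl
  · intro x ρ
    unfold isGood
    have key : ∀ W : Submodule F (Fin m → F),
        ((u (x : Fin m → F)) ∈ act u W ⊔ fl F m (m - finrank F (act u W) - 1) ↔
          (x : Fin m → F) ∈ W ⊔ fl F m (m - finrank F W - 1)) := by
      intro W
      have e1 : act u W ⊔ fl F m (m - finrank F (act u W) - 1) =
          (W ⊔ fl F m (m - finrank F W - 1)).map (u : (Fin m → F) →ₗ[F] (Fin m → F)) := by
        rw [Submodule.map_sup, uni_fl hu, tp_act]
        rfl
      rw [e1]
      constructor
      · rintro ⟨y, hy, hyx⟩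
        have : y = (x : Fin m → F) := u.injective hyx
        rw [← this]; exact hy
      · intro hx
        exact ⟨_, hx, rfl⟩
    constructor
    · intro h W hW hAW hWB hx
      refine h (act u W) (Finset.mem_image_of_mem (act u) hW) ?_ ?_ ?_
      · rw [← hAu]; exact (act u).lt_iff_lt.2 hAW
      · rw [← hBu]; exact (act u).lt_iff_lt.2 hWB
      · exact (key W).2 hx
    · intro h W hW hAW hWB hx
      obtain ⟨W', hW', rfl⟩ := Finset.mem_image.1 hW
      refine h W' hW' ?_ ?_ ?_
      · rw [← (act u).lt_iff_lt, hAu]; exact hAW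
      · rw [← (act u).lt_iff_lt, hBu]; exact hWB
      · exact (key W').1 hx

/-- the cone data. -/
theorem gap_cone {τ : Finset (Submodule F (Fin m → F))} {A B : Submodule F (Fin m → F)}
    (G : Gap τ A B) (r : ℕ) :
    Cone (lk (Yc F m) τ) tp (finrank F B - 1) r (r + 1) (cone A B) (isGood A B) := by
  refine ⟨?_, ?_, ?_, ?_⟩
  · intro ρ ρ' h1 h2 h
    exact gap_sym G ρ ρ' h1 h2 h
  · intro x ρ hr _ _ _
    refine (prism_card_le A B _ ρ).trans ?_
    rw [hr]
  · intro x ρ hr hρ hκ hg t ht
    obtain ⟨p1, p2, p3, p4, p5, p6⟩ := gap_prism G x ρ hρ hκ hg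
    refine ⟨?_, gap_face G x ρ hρ hκ hg t ht⟩
    rw [← hr]
    exact term_card A B _ ρ p1 p2 le_sup_left p3 p4 p5 p6 t ht
  · intro x ρ hr hρ hκ hg f
    obtain ⟨p1, p2, p3, p4, p5, p6⟩ := gap_prism G x ρ hρ hκ hg
    exact prism_bd A B _ ρ p1 p2 G.lt le_sup_left p3 p4 p5 p6 f

/-- the members of a gap (upper end) are opposite. -/
private theorem gap_oppB {τ : Finset (Submodule F (Fin m → F))} {A B : Submodule F (Fin m → F)}
    (G : Gap τ A B) : Opp B := by
  rcases G.hB with h | h
  · subst h
    have h0 : fl F m 0 = ⊥ := by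
      rw [eq_bot_iff]
      intro v hv
      rw [Submodule.mem_bot]
      funext i
      exact hv i (Nat.zero_le _)
    unfold Opp
    rw [finrank_top, Module.finrank_fin_fun, Nat.sub_self, h0, inf_bot_eq]
  · exact (((face_iff G.hm τ).1 G.face).2 B h).1

/-- the members of the faces of the link are opposite. -/
private theorem gap_oppW {τ : Finset (Submodule F (Fin m → F))} {A B : Submodule F (Fin m → F)}
    (G : Gap τ A B) (ρ : Finset (Submodule F (Fin m → F))) (hρ : 0 < wt (lk (Yc F m) τ) ρ)
    (W : Submodule F (Fin m → F)) (hW : W ∈ ρ) : Opp W := by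
  by_cases hd : Disjoint τ ρ
  · rw [wt_lk_of_disjoint _ _ _ hd] at hρ
    exact (((face_iff G.hm (τ ∪ ρ)).1 hρ).2 W (mem_union_right _ hW)).1
  · rw [wt_lk_of_not_disjoint _ _ _ hd] at hρ
    exact absurd hρ (lt_irrefl 0)

open scoped Classical in
/-- the proportion of bad pairs. -/
theorem gap_bad {τ : Finset (Submodule F (Fin m → F))} {A B : Submodule F (Fin m → F)}
    (G : Gap τ A B) (ρ : Finset (Submodule F (Fin m → F))) (hρ : 0 < wt (lk (Yc F m) τ) ρ) :
    (((univ : Finset (Om (finrank F A) B)).filter fun x => ¬ isGood A B x ρ).card : ℝ) ≤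
      (ρ.card / Fintype.card F : ℝ) * Fintype.card (Om (finrank F A) B) := by
  have hq : (0 : ℝ) < Fintype.card F := by exact_mod_cast Fintype.card_pos
  have hB : Opp B := gap_oppB G
  let bad : Submodule F (Fin m → F) → Finset (Om (finrank F A) B) := fun W =>
    univ.filter (fun x => (x : Fin m → F) ∈ W ⊔ fl F m (m - finrank F W - 1))
  have hsub : (univ : Finset (Om (finrank F A) B)).filter (fun x => ¬ isGood A B x ρ) ⊆
      (ρ.filter (fun W => A < W ∧ W < B)).biUnion bad := by
    intro x hx
    simp only [mem_filter, mem_univ, true_and, isGood, not_forall, not_not] at hx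
    obtain ⟨W, hW, h1, h2, h3⟩ := hx
    simp only [bad, mem_biUnion, mem_filter, mem_univ, true_and]
    exact ⟨W, ⟨hW, h1, h2⟩, h3⟩
  have hterm : ∀ W ∈ ρ.filter (fun W => A < W ∧ W < B),
      ((bad W).card : ℝ) ≤ (1 / Fintype.card F : ℝ) * Fintype.card (Om (finrank F A) B) := by
    intro W hW
    simp only [mem_filter] at hW
    obtain ⟨hW, h1, h2⟩ := hW
    have h := bad_le (finrank F A) hB (gap_oppW G ρ hρ W hW)
      (Submodule.finrank_lt_finrank_of_lt h1) (Submodule.finrank_lt_finrank_of_lt h2)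
    have h'' : (bad W).card * Fintype.card F ≤ Fintype.card (Om (finrank F A) B) := by
      refine le_trans (Nat.mul_le_mul_right _ (le_of_eq ?_)) h
      rw [← card_image_of_injective (bad W) Subtype.val_injective]
      congr 1
      ext y
      simp only [bad, Finset.bind_def, mem_image, mem_filter, mem_univ, true_and,
        Subtype.exists, exists_and_left, exists_prop, Finset.mem_sup, Finset.pure_def,
        mem_singleton]
      constructor
      · rintro ⟨z, hz, hz', rfl⟩
        exact ⟨⟨z, hz', rfl⟩, hz⟩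
      · rintro ⟨⟨z, hz', hz''⟩, hy⟩
        rw [hz''] at hy
        exact ⟨z, hy, hz', hz''.symm⟩
    have h' : ((bad W).card : ℝ) *
          Fintype.card F ≤ Fintype.card (Om (finrank F A) B) := by exact_mod_cast h''
    rw [one_div, inv_mul_eq_div, le_div_iff₀ hq]
    exact h'
  calc (((univ : Finset (Om (finrank F A) B)).filter fun x => ¬ isGood A B x ρ).card : ℝ)
      ≤ (((ρ.filter (fun W => A < W ∧ W < B)).biUnion bad).card : ℝ) := by
        exact_mod_cast card_le_card hsub
    _ ≤ ∑ W ∈ ρ.filter (fun W => A < W ∧ W < B), ((bad W).card : ℝ) := by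
        exact_mod_cast card_biUnion_le
    _ ≤ ∑ W ∈ ρ.filter (fun W => A < W ∧ W < B),
        (1 / Fintype.card F : ℝ) * Fintype.card (Om (finrank F A) B) := sum_le_sum hterm
    _ = ((ρ.filter (fun W => A < W ∧ W < B)).card : ℝ) *
        ((1 / Fintype.card F : ℝ) * Fintype.card (Om (finrank F A) B)) := by
        rw [sum_const, nsmul_eq_mul]
    _ ≤ (ρ.card : ℝ) * ((1 / Fintype.card F : ℝ) * Fintype.card (Om (finrank F A) B)) := by
        apply mul_le_mul_of_nonneg_right
        · exact_mod_cast card_filter_le _ _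
        · positivity
    _ = (ρ.card / Fintype.card F : ℝ) * Fintype.card (Om (finrank F A) B) := by ring

/-- STEP: approximate expansion for the faces without type `dim B - 1`. -/
theorem gap_ak {τ : Finset (Submodule F (Fin m → F))} {A B : Submodule F (Fin m → F)}
    (G : Gap τ A B) (r : ℕ) (hr : r + 1 ≤ m) :
    AK (Yc F m) tp (finrank F B - 1) τ r (m * 2 ^ m) (m * 2 ^ m / Fintype.card F) := by
  classical
  have hq : (0 : ℝ) < Fintype.card F := by exact_mod_cast Fintype.card_pos
  have : Nonempty (Om (finrank F A) B) :=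
    (om_nonempty (finrank F A) (gap_oppB G) (Submodule.finrank_lt_finrank_of_lt G.lt)).to_subtype
  have hT := typed_lk (typed_Yc (F := F) (m := m) G.hm) τ
  have hav := avg_cone hT (gap_cone G r) ((r : ℝ) / Fintype.card F) (by positivity)
    (by
      intro ρ hρr hρ _
      have h := gap_bad G ρ hρ
      rw [hρr] at h
      exact h)
  have hak := ak_lk (Yc F m) tp (finrank F B - 1) τ ∅ (disjoint_empty_right τ) r _ _ hav
  rw [union_empty] at hak
  intro g
  obtain ⟨h, hh⟩ := hak g
  refine ⟨h, hh.trans ?_⟩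
  have hJ : (Finset.Ioo 0 m \ τ.image tp).card ≤ m :=
    (card_le_card sdiff_subset).trans (by rw [Nat.card_Ioo]; omega)
  have h2 : (2 : ℝ) ^ (Finset.Ioo 0 m \ τ.image tp).card ≤ 2 ^ m :=
    pow_le_pow_right₀ (by norm_num) hJ
  have hr1 : ((r + 1 : ℕ) : ℝ) ≤ m := by exact_mod_cast hr
  have hr0 : (r : ℝ) ≤ m := by
    have : r ≤ m := by omega
    exact_mod_cast this
  apply add_le_add
  · apply mul_le_mul_of_nonneg_right _ (Nat.cast_nonneg _)
    exact mul_le_mul hr1 h2 (by positivity) (by positivity)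
  · apply mul_le_mul_of_nonneg_right _ (Nat.cast_nonneg _)
    have e : (m : ℝ) * 2 ^ m / Fintype.card F = (m / Fintype.card F) * 2 ^ m := by ring
    rw [e]
    apply mul_le_mul _ h2 (by positivity) (by positivity)
    exact div_le_div_of_nonneg_right hr0 hq.le

end

end Crest.Agent.R66.B
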