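import Mathlib

/-!
# Row 66, part (C), groups: cochains on lists, the prism operator, the double complex lemma
Author: helper81.

`T` a set; an (ordered, homogeneous, augmented) cochain is a function `f : List T → ZMod 2`; only lists of a
given length `s` (the SIZE) matter. `LD f` is the coboundary.
-/

set_option autoImplicit false

namespace Crest.Agent.R66

section LD
variable {T T' : Type*}

/-- coboundary of a function on lists: `LD f (x₁ … xₙ) = ∑ f (… x̂ⱼ …)`. -/
def LD : (List T → ZMod 2) → List T → ZMod 2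
  | _, [] => 0
  | f, x :: l => f l + LD (fun l' => f (x :: l')) l

@[simp] theorem LD_nil (f : List T → ZMod 2) : LD f [] = 0 := rfl

theorem LD_cons (f : List T → ZMod 2) (x : T) (l : List T) :
    LD f (x :: l) = f l + LD (fun l' => f (x :: l')) l := rfl

theorem LD_add (f g : List T → ZMod 2) (l : List T) : LD (f + g) l = LD f l + LD g l := by
  induction l generalizing f g with
  | nil => simp
  | cons x l ih =>
    rw [LD_cons, LD_cons, LD_cons]
    have := ih (fun l' => f (x :: l')) (fun l' => g (x :: l'))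
    have h2 : (fun l' => (f + g) (x :: l')) = (fun l' => f (x :: l')) + (fun l' => g (x :: l')) := rfl
    rw [h2, this, Pi.add_apply]
    ring

theorem LD_zero (l : List T) : LD (0 : List T → ZMod 2) l = 0 := by
  induction l with
  | nil => rfl
  | cons x l ih =>
    rw [LD_cons]
    have h2 : (fun l' => (0 : List T → ZMod 2) (x :: l')) = 0 := rfl
    rw [h2, ih]; rfl

/-- two cochains equal in size `s` have equal coboundaries in size `s + 1`. -/
theorem LD_congr {f g : List T → ZMod 2} {s : ℕ} (h : ∀ l : List T, l.length = s → f l = g l)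
    (l : List T) (hl : l.length = s + 1) : LD f l = LD g l := by
  induction s generalizing f g l with
  | zero =>
    match l, hl with
    | [x], _ => rw [LD_cons, LD_cons, LD_nil, LD_nil, h [] rfl]
  | succ s ih =>
    match l, hl with
    | x :: l, hl =>
      rw [LD_cons, LD_cons, h l (by simpa using hl)]
      rw [ih (f := fun l' => f (x :: l')) (g := fun l' => g (x :: l'))
        (fun l' hl' => h _ (by simp [hl'])) l (by simpa using hl)]

theorem LD_LD (f : List T → ZMod 2) (l : List T) : LD (LD f) l = 0 := by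
  induction l generalizing f with
  | nil => rfl
  | cons x l ih =>
    rw [LD_cons]
    have h2 : (fun l' => LD f (x :: l')) = f + LD (fun l' => f (x :: l')) := rfl
    rw [h2, LD_add, ih]
    have : ∀ a : ZMod 2, a + (a + 0) = 0 := by decide
    exact this _

theorem LD_map (f : List T → ZMod 2) (φ : T' → T) (l : List T') :
    LD f (l.map φ) = LD (fun l' => f (l'.map φ)) l := by
  induction l generalizing f with
  | nil => rfl
  | cons x l ih =>
    rw [List.map_cons, LD_cons, LD_cons, ih]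
    rfl

theorem LD_sum {ι : Type*} (S : Finset ι) (f : ι → List T → ZMod 2) (l : List T) :
    LD (fun l => ∑ i ∈ S, f i l) l = ∑ i ∈ S, LD (f i) l := by
  classical
  induction S using Finset.induction_on with
  | empty =>
    simp only [Finset.sum_empty]
    exact LD_zero l
  | insert a S ha ih =>
    rw [Finset.sum_insert ha, ← ih, ← LD_add]
    congr 1
    funext l
    rw [Finset.sum_insert ha]; rfl

/-- the prism operator of two maps `φ ψ : T' → T`. -/
def Pr (φ ψ : T' → T) : (List T → ZMod 2) → List T' → ZMod 2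
  | _, [] => 0
  | f, x :: l => f (φ x :: ψ x :: l.map ψ) + Pr φ ψ (fun l' => f (φ x :: l')) l

theorem Pr_add (φ ψ : T' → T) (f g : List T → ZMod 2) (l : List T') :
    Pr φ ψ (f + g) l = Pr φ ψ f l + Pr φ ψ g l := by
  induction l generalizing f g with
  | nil => simp [Pr]
  | cons x l ih =>
    have h2 : (fun l' => (f + g) (φ x :: l')) = (fun l' => f (φ x :: l')) + (fun l' => g (φ x :: l')) := rfl
    simp only [Pr]
    rw [h2, ih, Pi.add_apply]
    ring

theorem prism (φ ψ : T' → T) (f : List T → ZMod 2) (l : List T') :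
    LD (Pr φ ψ f) l + Pr φ ψ (LD f) l = f (l.map φ) + f (l.map ψ) := by
  induction l generalizing f with
  | nil =>
    have : ∀ a : ZMod 2, (0 : ZMod 2) = a + a := by decide
    simpa [Pr] using this (f [])
  | cons x l ih =>
    have e1 : LD (Pr φ ψ f) (x :: l) = Pr φ ψ f l +
        (LD (fun l' => f (φ x :: ψ x :: l'.map ψ)) l + LD (Pr φ ψ (fun l' => f (φ x :: l'))) l) := by
      rw [LD_cons, ← LD_add]
      rfl
    have e2 : Pr φ ψ (LD f) (x :: l) = LD f (φ x :: ψ x :: l.map ψ) +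
        Pr φ ψ (fun l' => LD f (φ x :: l')) l := rfl
    have e3 : (fun l' => LD f (φ x :: l')) = f + LD (fun l' => f (φ x :: l')) := rfl
    have e4 : LD f (φ x :: ψ x :: l.map ψ) = f (ψ x :: l.map ψ) + (f (φ x :: l.map ψ) +
        LD (fun l' => f (φ x :: ψ x :: l')) (l.map ψ)) := rfl
    have e5 := LD_map (fun l' => f (φ x :: ψ x :: l')) ψ l
    have e6 := ih (fun l' => f (φ x :: l'))
    rw [e1, e2, e3, Pr_add, e4, e5, List.map_cons, List.map_cons]
    have key : ∀ a b c d e g h k : ZMod 2, c + d = e + g →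
        a + (b + c) + (h + (k + b) + (a + d)) = e + g + h + k := by decide
    rw [key _ _ _ _ _ _ _ _ e6]
    have key2 : ∀ e g h : ZMod 2, e + g + h + g = e + h := by decide
    exact key2 _ _ _

theorem Pr_congr {φ ψ : T' → T} {f g : List T → ZMod 2} {s : ℕ}
    (h : ∀ l : List T, l.length = s + 1 → f l = g l) (l : List T') (hl : l.length = s) :
    Pr φ ψ f l = Pr φ ψ g l := by
  induction s generalizing f g l with
  | zero =>
    match l, hl with
    | [], _ => rfl
  | succ s ih =>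
    match l, hl with
    | x :: l, hl =>
      simp only [List.length_cons, Nat.add_right_cancel_iff] at hl
      simp only [Pr]
      rw [h _ (by simp [hl]), ih (f := fun l' => f (φ x :: l')) (g := fun l' => g (φ x :: l'))
        (fun l' hl' => h _ (by simp [hl'])) l hl]

theorem Pr_zero (φ ψ : T' → T) (l : List T') : Pr φ ψ (0 : List T → ZMod 2) l = 0 := by
  induction l with
  | nil => rfl
  | cons x l ih =>
    simp only [Pr]
    have h2 : (fun l' => (0 : List T → ZMod 2) (φ x :: l')) = 0 := rfl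
    rw [h2, ih]; rfl

/-- for a cocycle of size `s`, the pull backs by two maps differ by the coboundary of `Pr`. -/
theorem prism_cocycle (φ ψ : T' → T) {f : List T → ZMod 2} {s : ℕ}
    (hf : ∀ l : List T, l.length = s + 1 → LD f l = 0) (l : List T') (hl : l.length = s) :
    LD (Pr φ ψ f) l = f (l.map φ) + f (l.map ψ) := by
  rw [← prism φ ψ f l, Pr_congr (g := 0) (fun l h => by rw [hf l h]; rfl) l hl, Pr_zero, add_zero]

/-- equivariance of the prism operator -/
theorem Pr_equiv {φ ψ : T' → T} {a : T' → T'} {b : T → T} (hφ : ∀ x, φ (a x) = b (φ x))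
    (hψ : ∀ x, ψ (a x) = b (ψ x)) (f : List T → ZMod 2) (l : List T') :
    Pr φ ψ f (l.map a) = Pr φ ψ (fun l => f (l.map b)) l := by
  induction l generalizing f with
  | nil => rfl
  | cons x l ih =>
    simp only [List.map_cons, Pr]
    rw [ih, hφ, hψ]
    congr 2
    · congr 2
      simp only [List.map_map]
      congr 1
      funext y
      simp [hψ]

end LD

/-- THE DOUBLE COMPLEX LEMMA. `Z a b` = elements vanishing in bidegree `(a, b)`. -/
theorem DC {X : Type*} [AddCommGroup X] (d1 d2 : X →+ X) (Inv : AddSubgroup X)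
    (Z : ℕ → ℕ → AddSubgroup X)
    (h11 : ∀ x, d1 (d1 x) = 0) (h22 : ∀ x, d2 (d2 x) = 0) (h12 : ∀ x, d1 (d2 x) = d2 (d1 x))
    (hI1 : ∀ x ∈ Inv, d1 x ∈ Inv) (hI2 : ∀ x ∈ Inv, d2 x ∈ Inv)
    (hZ1 : ∀ a b, ∀ x ∈ Z a b, d1 x ∈ Z (a + 1) b) (hZ2 : ∀ a b, ∀ x ∈ Z a b, d2 x ∈ Z a (b + 1))
    (h01 : ∀ b x, d1 x ∈ Z 0 b) (h02 : ∀ a x, d2 x ∈ Z a 0)
    (s : ℕ)
    (hC : ∀ a b, a + b + 1 = s → ∀ g ∈ Inv, d1 g ∈ Z (a + 1) (b + 2) →
      ∃ g' ∈ Inv, d1 g' - g ∈ Z a (b + 2))
    (hR : ∀ a b, a + b = s → ∀ g ∈ Inv, d2 g ∈ Z a (b + 1) → ∃ k ∈ Inv, d2 k - g ∈ Z a b)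
    (f h1 : X) (hf : f ∈ Inv) (hh : h1 ∈ Inv) (a : ℕ) (ha : a + 1 = s)
    (hfh : d1 h1 - d2 f ∈ Z (a + 1) 1) : ∃ h ∈ Inv, d1 h - f ∈ Z (a + 1) 0 := by
  have S : ∀ a b, a + b + 1 = s → ∀ g ∈ Inv, d1 g ∈ Z (a + 1) (b + 2) → d2 g ∈ Z a (b + 3) →
      ∃ k ∈ Inv, d1 k ∈ Z (a + 1) (b + 1) ∧ d2 k - g ∈ Z a (b + 2) := by
    intro a
    induction a with
    | zero =>
      intro b hb g hg h1g _
      obtain ⟨g', _, hg2⟩ := hC 0 b hb g hg h1g
      refine ⟨0, Inv.zero_mem, by rw [map_zero]; exact AddSubgroup.zero_mem _, ?_⟩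
      have : d2 0 - g = (d1 g' - g) - d1 g' := by rw [map_zero]; abel
      rw [this]
      exact AddSubgroup.sub_mem _ hg2 (h01 _ _)
    | succ a ih =>
      intro b hb g hg h1g h2g
      obtain ⟨g', hg', hg2⟩ := hC (a + 1) b hb g hg h1g
      have e1 : d1 (d2 g') ∈ Z (a + 1) (b + 3) := by
        have : d1 (d2 g') = d2 (d1 g' - g) + d2 g := by rw [h12, map_sub]; abel
        rw [this]
        exact AddSubgroup.add_mem _ (hZ2 _ _ _ hg2) h2g
      obtain ⟨k', hk', hk1, hk2⟩ := ih (b + 1) (by omega) (d2 g') (hI2 _ hg') e1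
        (by rw [h22]; exact AddSubgroup.zero_mem _)
      have e2 : d2 (g' - k') ∈ Z a (b + 3) := by
        have : d2 (g' - k') = -(d2 k' - d2 g') := by rw [map_sub]; abel
        rw [this]
        exact AddSubgroup.neg_mem _ hk2
      obtain ⟨k'', hk'', hk3⟩ := hR a (b + 2) (by omega) (g' - k') (Inv.sub_mem hg' hk') e2
      refine ⟨d1 k'', hI1 _ hk'', by rw [h11]; exact AddSubgroup.zero_mem _, ?_⟩
      have : d2 (d1 k'') - g = d1 (d2 k'' - (g' - k')) + (d1 g' - g) - d1 k' := by
        rw [map_sub, map_sub, h12]; abel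
      rw [this]
      exact AddSubgroup.sub_mem _ (AddSubgroup.add_mem _ (hZ1 _ _ _ hk3) hg2) hk1
  have e1 : d1 (d2 h1) ∈ Z (a + 1) 2 := by
    have : d1 (d2 h1) = d2 (d1 h1 - d2 f) := by rw [h12, map_sub, h22]; abel
    rw [this]
    exact hZ2 _ _ _ hfh
  obtain ⟨k', hk', hk1, hk2⟩ := S a 0 (by omega) (d2 h1) (hI2 _ hh) e1
    (by rw [h22]; exact AddSubgroup.zero_mem _)
  have e2 : d2 (h1 - k') ∈ Z a 2 := by
    have : d2 (h1 - k') = -(d2 k' - d2 h1) := by rw [map_sub]; abel
    rw [this]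
    exact AddSubgroup.neg_mem _ hk2
  obtain ⟨h, hhI, hh3⟩ := hR a 1 ha (h1 - k') (Inv.sub_mem hh hk') e2
  refine ⟨h, hhI, ?_⟩
  have e3 : d2 (f - d1 h) ∈ Z (a + 1) 1 := by
    have : d2 (f - d1 h) = -(d1 h1 - d2 f) - d1 (d2 h - (h1 - k')) + d1 k' := by
      rw [map_sub, map_sub, map_sub, h12]; abel
    rw [this]
    exact AddSubgroup.add_mem _ (AddSubgroup.sub_mem _ (AddSubgroup.neg_mem _ hfh)
      (hZ1 _ _ _ hh3)) hk1
  obtain ⟨k, _, hk⟩ := hR (a + 1) 0 (by omega) (f - d1 h) (Inv.sub_mem hf (hI1 _ hhI)) e3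
  have : d1 h - f = (d2 k - (f - d1 h)) - d2 k := by abel
  rw [this]
  exact AddSubgroup.sub_mem _ hk (h02 _ _)

end Crest.Agent.R66
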