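import Crest.Agent.R66.CG0
import Crest.Agent.R66.ADefs

/-!
# Row 66, part (C), groups: invariant cochains, `VanG`, and the three uses of the double complex lemma
Author: helper81.
-/

set_option autoImplicit false
set_option linter.unusedSectionVars false

namespace Crest.Agent.R66

open Finset
open scoped Pointwise

/-- translation of a list -/
abbrev trl {Γ T : Type*} [SMul Γ T] (g : Γ) (l : List T) : List T := l.map fun x => g • x

section basic
variable (Γ : Type*) [Group Γ] {T T' : Type*} [MulAction Γ T] [MulAction Γ T']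

/-- invariant functions on lists -/
def InvL (f : List T → ZMod 2) : Prop := ∀ g : Γ, ∀ l : List T, f (trl g l) = f l

/-- `f` is, in size `s`, the coboundary of an invariant cochain -/
def TrivL (s : ℕ) (f : List T → ZMod 2) : Prop :=
  ∃ h : List T → ZMod 2, InvL Γ h ∧ ∀ l : List T, l.length = s → LD h l = f l

/-- vanishing of the cohomology of `Γ` computed on the `Γ`-set `T`, size `s` (degree `s - 1`) -/
def VanG (T : Type*) [MulAction Γ T] (s : ℕ) : Prop :=
  ∀ f : List T → ZMod 2, InvL Γ f → (∀ l : List T, l.length = s + 1 → LD f l = 0) → TrivL Γ s f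

/-- free action -/
def FreeAct (T : Type*) [MulAction Γ T] : Prop := ∀ g : Γ, ∀ x : T, g • x = x → g = 1

variable {Γ}

theorem trl_trl (g h : Γ) (l : List T) : trl g (trl h l) = trl (g * h) l := by
  simp [trl, List.map_map, Function.comp_def, mul_smul]

theorem trl_one (l : List T) : trl (1 : Γ) l = l := by simp [trl]

theorem trl_inv_trl (g : Γ) (l : List T) : trl g⁻¹ (trl g l) = l := by
  rw [trl_trl, inv_mul_cancel, trl_one]

theorem trl_trl_inv (g : Γ) (l : List T) : trl g (trl g⁻¹ l) = l := by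
  rw [trl_trl, mul_inv_cancel, trl_one]

theorem length_trl (g : Γ) (l : List T) : (trl g l).length = l.length := by simp [trl]

theorem InvL.add {f g : List T → ZMod 2} (hf : InvL Γ f) (hg : InvL Γ g) : InvL Γ (f + g) :=
  fun x l => by rw [Pi.add_apply, Pi.add_apply, hf, hg]

theorem InvL.LD {f : List T → ZMod 2} (hf : InvL Γ f) : InvL Γ (Crest.Agent.R66.LD f) := by
  intro g l
  rw [LD_map]
  congr 1
  funext l'
  exact hf g l'

theorem TrivL.add {s : ℕ} {f g : List T → ZMod 2} (hf : TrivL Γ s f) (hg : TrivL Γ s g) :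
    TrivL Γ s (f + g) := by
  obtain ⟨h, h1, h2⟩ := hf
  obtain ⟨k, k1, k2⟩ := hg
  exact ⟨h + k, h1.add k1, fun l hl => by rw [LD_add, h2 l hl, k2 l hl, Pi.add_apply]⟩

theorem TrivL.congr {s : ℕ} {f g : List T → ZMod 2} (hf : TrivL Γ s f)
    (h : ∀ l : List T, l.length = s → f l = g l) : TrivL Γ s g := by
  obtain ⟨k, h1, h2⟩ := hf
  exact ⟨k, h1, fun l hl => by rw [h2 l hl, h l hl]⟩

theorem TrivL.zero (s : ℕ) : TrivL Γ s (0 : List T → ZMod 2) :=
  ⟨0, fun _ _ => rfl, fun l _ => LD_zero l⟩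

theorem TrivL.sum {ι : Type*} (S : Finset ι) {s : ℕ} {f : ι → List T → ZMod 2}
    (h : ∀ i ∈ S, TrivL Γ s (f i)) : TrivL Γ s (fun l => ∑ i ∈ S, f i l) := by
  classical
  induction S using Finset.induction_on with
  | empty =>
    have h2 : (fun l : List T => ∑ i ∈ (∅ : Finset ι), f i l) = 0 := by funext l; simp
    rw [h2]; exact TrivL.zero (Γ := Γ) s
  | insert a S ha ih =>
    have h1 := (h a (Finset.mem_insert_self _ _)).add
      (ih fun i hi => h i (Finset.mem_insert_of_mem hi))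
    refine h1.congr fun l _ => ?_
    rw [Pi.add_apply, Finset.sum_insert ha]

/-- PRISM: two equivariant maps induce the same map on cohomology. -/
theorem triv_of_maps {s : ℕ} {φ ψ : T' → T} (hφ : ∀ (g : Γ) x, φ (g • x) = g • φ x)
    (hψ : ∀ (g : Γ) x, ψ (g • x) = g • ψ x) {f : List T → ZMod 2} (hf : InvL Γ f)
    (hc : ∀ l : List T, l.length = s + 1 → LD f l = 0) :
    TrivL Γ s (fun l : List T' => f (l.map φ) + f (l.map ψ)) := by
  refine ⟨Pr φ ψ f, fun g l => ?_, fun l hl => prism_cocycle φ ψ hc l hl⟩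
  have := Pr_equiv (a := fun x : T' => g • x) (b := fun x : T => g • x) (hφ g) (hψ g) f l
  rw [this]
  congr 1
  funext l
  exact hf g l

theorem vanG_zero [Nonempty T] : VanG Γ T 0 := by
  intro f hf hc
  refine ⟨0, fun _ _ => rfl, fun l hl => ?_⟩
  obtain rfl : l = [] := List.length_eq_zero_iff.1 hl
  obtain ⟨x⟩ := ‹Nonempty T›
  have := hc [x] rfl
  rw [LD_cons, LD_nil, add_zero] at this
  rw [LD_zero, this]

theorem vanG_one [Nonempty T] : VanG Γ T 1 := by
  intro f hf hc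
  obtain ⟨x₀⟩ := ‹Nonempty T›
  refine ⟨fun l => if l = [] then f [x₀] else 0, fun g l => ?_, fun l hl => ?_⟩
  · have : trl g l = [] ↔ l = [] := by simp [trl]
    simp only [this]
  · match l, hl with
    | [x], _ =>
      rw [LD_cons, LD_nil, add_zero, if_pos rfl]
      have := hc [x₀, x] rfl
      rw [LD_cons, LD_cons, LD_nil, add_zero] at this
      have key : ∀ a b : ZMod 2, a + b = 0 → b = a := by decide
      exact key _ _ this

/-- change of the `Γ`-set -/
theorem VanG.transport {s : ℕ} (φ : T → T') (ψ : T' → T) (hφ : ∀ (g : Γ) x, φ (g • x) = g • φ x)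
    (hψ : ∀ (g : Γ) x, ψ (g • x) = g • ψ x) (h : VanG Γ T' s) : VanG Γ T s := by
  intro f hf hc
  have h1 : InvL Γ (fun l : List T' => f (l.map ψ)) := fun g l => by
    have : (trl g l).map ψ = trl g (l.map ψ) := by
      simp [trl, List.map_map, Function.comp_def, hψ]
    simp only [this]
    exact hf g _
  obtain ⟨k, hk, hk2⟩ := h _ h1 (fun l hl => by
    rw [← LD_map]
    exact hc _ (by simpa using hl))
  have h2 : TrivL Γ s (fun l : List T => f (l.map (fun x => ψ (φ x)))) := by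
    refine ⟨fun l => k (l.map φ), fun g l => ?_, fun l hl => ?_⟩
    · have : (trl g l).map φ = trl g (l.map φ) := by
        simp [trl, List.map_map, Function.comp_def, hφ]
      simp only [this]
      exact hk g _
    · rw [← LD_map, hk2 _ (by simpa using hl)]
      simp only [List.map_map]
      rfl
  have h3 := triv_of_maps (s := s) (Γ := Γ) (φ := fun x : T => x) (ψ := fun x => ψ (φ x))
    (fun _ _ => rfl) (fun g x => by rw [hφ, hψ]) hf hc
  refine (h2.add h3).congr fun l _ => ?_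
  simp only [Pi.add_apply, List.map_id']
  have key : ∀ a b : ZMod 2, a + (b + a) = b := by decide
  exact key _ _

/-- choice of representatives of orbits -/
theorem exists_reps (Γ : Type*) [Group Γ] (S : Type*) [MulAction Γ S] :
    ∃ (r : S → S) (c : S → Γ), (∀ x, c x • r x = x) ∧ ∀ (g : Γ) x, r (g • x) = r x := by
  classical
  let q : S → MulAction.orbitRel.Quotient Γ S := fun x => Quotient.mk _ x
  have h : ∀ x : S, ∃ g : Γ, g • (q x).out = x := by
    intro x
    have h1 : (q x).out ∈ MulAction.orbit Γ x := by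
      have := Quotient.exact (Quotient.out_eq (q x))
      exact this
    obtain ⟨g, hg⟩ := h1
    exact ⟨g⁻¹, by rw [← hg]; simp⟩
  choose c hc using h
  refine ⟨fun x => (q x).out, c, hc, fun g x => ?_⟩
  have : q (g • x) = q x := Quotient.sound ⟨g, rfl⟩
  simp only [this]

/-- a free `Γ`-set maps equivariantly to every nonempty `Γ`-set -/
theorem exists_equiv_map (hT : FreeAct Γ T) [Nonempty T'] :
    ∃ φ : T → T', ∀ (g : Γ) x, φ (g • x) = g • φ x := by
  obtain ⟨r, c, hc, hr⟩ := exists_reps Γ T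
  obtain ⟨t⟩ := ‹Nonempty T'›
  refine ⟨fun x => c x • t, fun g x => ?_⟩
  have h1 : c (g • x) = g * c x := by
    have h2 := hc (g • x)
    rw [hr g x] at h2
    have h3 : (c (g • x)) • r x = (g * c x) • r x := by rw [h2, mul_smul, hc x]
    have h4 : ((g * c x)⁻¹ * c (g • x)) • r x = r x := by
      rw [mul_smul, h3, inv_smul_smul]
    have h5 := hT _ _ h4
    rw [inv_mul_eq_one] at h5
    exact h5.symm
  simp only
  rw [h1, mul_smul]

/-- `VanG` does not depend on the free nonempty `Γ`-set. -/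
theorem VanG.change {s : ℕ} (hT : FreeAct Γ T) (hT' : FreeAct Γ T') [Nonempty T] [Nonempty T']
    (h : VanG Γ T' s) : VanG Γ T s := by
  obtain ⟨φ, hφ⟩ := exists_equiv_map (T := T) (T' := T') hT
  obtain ⟨ψ, hψ⟩ := exists_equiv_map (T := T') (T' := T) hT'
  exact h.transport φ ψ hφ hψ

end basic

/-! ### The double complex of a `Γ`-complex -/
section dbl
variable (Γ : Type*) [Group Γ] {T V : Type*} [MulAction Γ T] [MulAction Γ V] [DecidableEq V]

/-- exactness of the (augmented) cochain complex of `K` at size `b` -/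
def CoEx {V : Type*} [DecidableEq V] (K : Set (Finset V)) (b : ℕ) : Prop :=
  ∀ φ : Finset V → ZMod 2, (∀ τ ∈ K, τ.card = b + 1 → ∑ v ∈ τ, φ (τ.erase v) = 0) →
    ∃ ψ : Finset V → ZMod 2, ∀ σ ∈ K, σ.card = b → ∑ v ∈ σ, ψ (σ.erase v) = φ σ

/-- exactness of the complex of `Γ`-invariant cochains of `K` at size `b` -/
def CoExInv {V : Type*} [DecidableEq V] [MulAction Γ V] (K : Set (Finset V)) (b : ℕ) : Prop :=
  ∀ φ : Finset V → ZMod 2, (∀ (g : Γ) σ, φ (g • σ) = φ σ) →
    (∀ τ ∈ K, τ.card = b + 1 → ∑ v ∈ τ, φ (τ.erase v) = 0) →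
    ∃ ψ : Finset V → ZMod 2, (∀ (g : Γ) σ, ψ (g • σ) = ψ σ) ∧
      ∀ σ ∈ K, σ.card = b → ∑ v ∈ σ, ψ (σ.erase v) = φ σ

/-- the list direction -/
def dd1 : (List T → Finset V → ZMod 2) →+ (List T → Finset V → ZMod 2) where
  toFun F := fun l σ => LD (fun l' => F l' σ) l
  map_zero' := by funext l σ; exact LD_zero l
  map_add' F G := by funext l σ; exact LD_add (fun l' => F l' σ) (fun l' => G l' σ) l

/-- the finset direction -/
def dd2 : (List T → Finset V → ZMod 2) →+ (List T → Finset V → ZMod 2) where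
  toFun F := fun l σ => ∑ v ∈ σ, F l (σ.erase v)
  map_zero' := by funext l σ; simp
  map_add' F G := by funext l σ; simp [Finset.sum_add_distrib]

/-- invariant elements -/
def InvD (T V : Type*) [MulAction Γ T] [MulAction Γ V] [DecidableEq V] :
    AddSubgroup (List T → Finset V → ZMod 2) where
  carrier := {F | ∀ (g : Γ) l σ, F (trl g l) (g • σ) = F l σ}
  zero_mem' := fun _ _ _ => rfl
  add_mem' := fun {F G} hF hG g l σ => by
    show F _ _ + G _ _ = F _ _ + G _ _
    rw [hF, hG]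
  neg_mem' := fun {F} hF g l σ => by
    show -F _ _ = -F _ _
    rw [hF]

/-- elements vanishing in bidegree `(a, b)` -/
def ZD (T : Type*) {V : Type*} (K : Set (Finset V)) (a b : ℕ) :
    AddSubgroup (List T → Finset V → ZMod 2) where
  carrier := {F | ∀ l : List T, l.length = a → ∀ σ ∈ K, σ.card = b → F l σ = 0}
  zero_mem' := fun _ _ _ _ _ => rfl
  add_mem' := fun {F G} hF hG l hl σ hσ hb => by
    show F _ _ + G _ _ = 0
    rw [hF l hl σ hσ hb, hG l hl σ hσ hb, add_zero]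
  neg_mem' := fun {F} hF l hl σ hσ hb => by
    show -F _ _ = 0
    rw [hF l hl σ hσ hb, neg_zero]

/-- down closed -/
def DownCl {V : Type*} (K : Set (Finset V)) : Prop := ∀ σ ∈ K, ∀ τ ⊆ σ, τ ∈ K

theorem cg_sum_erase_erase (φ : Finset V → ZMod 2) (σ : Finset V) :
    ∑ v ∈ σ, ∑ w ∈ σ.erase v, φ ((σ.erase v).erase w) = 0 := by
  have h : ∑ v ∈ σ, ∑ w ∈ σ.erase v, φ ((σ.erase v).erase w) =
      ∑ p ∈ (σ ×ˢ σ).filter (fun p => p.1 ≠ p.2), φ ((σ.erase p.1).erase p.2) := by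
    rw [Finset.sum_sigma']
    refine Finset.sum_bij (fun p _ => (p.1, p.2)) ?_ ?_ ?_ ?_
    · rintro ⟨a, b⟩ h
      simp only [Finset.mem_sigma, Finset.mem_erase] at h
      simp only [Finset.mem_filter, Finset.mem_product]
      exact ⟨⟨h.1, h.2.2⟩, fun e => h.2.1 e.symm⟩
    · rintro ⟨a, b⟩ _ ⟨a', b'⟩ _ e
      simp only [Prod.mk.injEq] at e
      obtain ⟨rfl, rfl⟩ := e
      rfl
    · rintro ⟨a, b⟩ h
      simp only [Finset.mem_filter, Finset.mem_product] at h
      refine ⟨⟨a, b⟩, ?_, rfl⟩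
      simp only [Finset.mem_sigma, Finset.mem_erase]
      exact ⟨h.1.1, fun e => h.2 e.symm, h.1.2⟩
    · intros; rfl
  rw [h]
  refine Finset.sum_involution (fun p _ => (p.2, p.1)) ?_ ?_ ?_ ?_
  · rintro ⟨a, b⟩ _
    simp only
    rw [Finset.erase_right_comm (a := b) (b := a)]
    exact CharTwo.add_self_eq_zero _
  · rintro ⟨a, b⟩ h _ e
    simp only [Finset.mem_filter] at h
    simp only [Prod.mk.injEq] at e
    exact h.2 e.2
  · rintro ⟨a, b⟩ h
    simp only [Finset.mem_filter, Finset.mem_product] at h ⊢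
    exact ⟨⟨h.1.2, h.1.1⟩, fun e => h.2 e.symm⟩
  · rintro ⟨a, b⟩ _; rfl

theorem dd11 (F : List T → Finset V → ZMod 2) : dd1 (dd1 F) = 0 := by
  funext l σ; exact LD_LD (fun l' => F l' σ) l

theorem dd22 (F : List T → Finset V → ZMod 2) : dd2 (dd2 F) = 0 := by
  funext l σ; exact cg_sum_erase_erase (F l) σ

theorem dd12 (F : List T → Finset V → ZMod 2) : dd1 (dd2 F) = dd2 (dd1 F) := by
  funext l σ
  exact LD_sum σ (fun v l' => F l' (σ.erase v)) l

theorem smul_erase' (g : Γ) (σ : Finset V) (v : V) : g • (σ.erase v) = (g • σ).erase (g • v) := by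
  ext x
  constructor
  · intro h
    obtain ⟨y, hy, rfl⟩ := Finset.mem_smul_finset.1 h
    rw [Finset.mem_erase] at hy ⊢
    exact ⟨fun e => hy.1 (smul_left_cancel g e), Finset.smul_mem_smul_finset hy.2⟩
  · intro h
    rw [Finset.mem_erase] at h
    obtain ⟨y, hy, rfl⟩ := Finset.mem_smul_finset.1 h.2
    exact Finset.smul_mem_smul_finset (Finset.mem_erase.2 ⟨fun e => h.1 (by rw [e]), hy⟩)

theorem sum_smul_erase (g : Γ) (φ : Finset V → ZMod 2) (σ : Finset V) :
    ∑ v ∈ g • σ, φ ((g • σ).erase v) = ∑ v ∈ σ, φ (g • (σ.erase v)) := by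
  rw [Finset.smul_finset_def, Finset.sum_image (fun a _ b _ h => smul_left_cancel g h)]
  refine Finset.sum_congr rfl fun v _ => ?_
  rw [smul_erase', Finset.smul_finset_def]

variable {Γ}

theorem inv_dd1 {F : List T → Finset V → ZMod 2} (hF : F ∈ InvD Γ T V) : dd1 F ∈ InvD Γ T V := by
  intro g l σ
  show LD (fun l' => F l' (g • σ)) (trl g l) = LD (fun l' => F l' σ) l
  rw [LD_map]
  congr 1
  funext l'
  exact hF g l' σ

theorem inv_dd2 {F : List T → Finset V → ZMod 2} (hF : F ∈ InvD Γ T V) : dd2 F ∈ InvD Γ T V := by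
  intro g l σ
  show ∑ v ∈ g • σ, F (trl g l) ((g • σ).erase v) = ∑ v ∈ σ, F l (σ.erase v)
  rw [sum_smul_erase]
  exact Finset.sum_congr rfl fun v _ => hF g l _

theorem Z_dd1 {K : Set (Finset V)} (a b : ℕ) (F : List T → Finset V → ZMod 2)
    (hF : F ∈ ZD T K a b) : dd1 F ∈ ZD T K (a + 1) b := by
  intro l hl σ hσ hb
  show LD (fun l' => F l' σ) l = 0
  rw [LD_congr (g := 0) (s := a) (fun l' hl' => hF l' hl' σ hσ hb) l hl, LD_zero]

theorem Z_dd2 {K : Set (Finset V)} (hK : DownCl K) (a b : ℕ) (F : List T → Finset V → ZMod 2)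
    (hF : F ∈ ZD T K a b) : dd2 F ∈ ZD T K a (b + 1) := by
  intro l hl σ hσ hb
  show ∑ v ∈ σ, F l (σ.erase v) = 0
  refine Finset.sum_eq_zero fun v hv => hF l hl _ (hK σ hσ _ (Finset.erase_subset _ _)) ?_
  rw [Finset.card_erase_of_mem hv, hb]; rfl

theorem Z_01 {K : Set (Finset V)} (b : ℕ) (F : List T → Finset V → ZMod 2) :
    dd1 F ∈ ZD T K 0 b := by
  intro l hl σ _ _
  obtain rfl : l = [] := List.length_eq_zero_iff.1 hl
  rfl

theorem Z_02 {K : Set (Finset V)} (a : ℕ) (F : List T → Finset V → ZMod 2) :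
    dd2 F ∈ ZD T K a 0 := by
  intro l _ σ _ hb
  obtain rfl : σ = ∅ := Finset.card_eq_zero.1 hb
  show ∑ v ∈ (∅ : Finset V), F l ((∅ : Finset V).erase v) = 0
  simp

/-- ROW: exactness of the rows `a ≥ 1`. -/
theorem row_exact (hT : FreeAct Γ T) {K : Set (Finset V)} (hKi : ∀ (g : Γ), ∀ σ ∈ K, g • σ ∈ K)
    {b : ℕ} (hK : CoEx K b) (a : ℕ) (F : List T → Finset V → ZMod 2) (hF : F ∈ InvD Γ T V)
    (hc : dd2 F ∈ ZD T K (a + 1) (b + 1)) : ∃ k ∈ InvD Γ T V, dd2 k - F ∈ ZD T K (a + 1) b := by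
  classical
  obtain ⟨c, hcm⟩ := exists_equiv_map (Γ := Γ) (T := T) (T' := Γ) hT
  have hex : ∀ l : List T, l.length = a + 1 → ∃ ψ : Finset V → ZMod 2, ∀ σ ∈ K, σ.card = b →
      ∑ v ∈ σ, ψ (σ.erase v) = F l σ := fun l hl => hK (F l) fun τ hτ hb => hc l hl τ hτ hb
  choose! Ψ hΨ using hex
  refine ⟨fun l σ => match l with
    | [] => 0
    | x :: l' => Ψ (trl (c x)⁻¹ (x :: l')) ((c x)⁻¹ • σ), ?_, ?_⟩
  · intro g l σ
    match l with
    | [] => rfl
    | x :: l' =>
      show Ψ (trl (c (g • x))⁻¹ (trl g (x :: l'))) ((c (g • x))⁻¹ • g • σ) =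
        Ψ (trl (c x)⁻¹ (x :: l')) ((c x)⁻¹ • σ)
      have h1 : (c (g • x))⁻¹ * g = (c x)⁻¹ := by rw [hcm, smul_eq_mul, mul_inv_rev]; group
      rw [trl_trl, smul_smul, h1]
  · intro l hl σ hσ hb
    match l, hl with
    | x :: l', hl =>
      show ∑ v ∈ σ, Ψ (trl (c x)⁻¹ (x :: l')) ((c x)⁻¹ • (σ.erase v)) - F (x :: l') σ = 0
      rw [← sum_smul_erase]
      rw [hΨ _ (by rw [length_trl]; exact hl) _ (hKi _ _ hσ) (by rw [Finset.card_smul_finset, hb]),
        hF, sub_self]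

/-- ROW ZERO. -/
theorem row_zero {K : Set (Finset V)} {b : ℕ} (hK : CoExInv Γ K b)
    (F : List T → Finset V → ZMod 2) (hF : F ∈ InvD Γ T V)
    (hc : dd2 F ∈ ZD T K 0 (b + 1)) : ∃ k ∈ InvD Γ T V, dd2 k - F ∈ ZD T K 0 b := by
  classical
  obtain ⟨ψ, h1, h2⟩ := hK (F []) (fun g σ => hF g [] σ) fun τ hτ hb => hc [] rfl τ hτ hb
  refine ⟨fun l σ => match l with
    | [] => ψ σ
    | _ :: _ => 0, ?_, ?_⟩
  · intro g l σ
    match l with
    | [] => exact h1 g σ
    | _ :: _ => rfl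
  · intro l hl σ hσ hb
    match l, hl with
    | [], _ =>
      show ∑ v ∈ σ, ψ (σ.erase v) - F [] σ = 0
      rw [h2 σ hσ hb, sub_self]

/-- COLUMN, element form. -/
theorem col_triv {K : Set (Finset V)} (hKi : ∀ (g : Γ), ∀ σ ∈ K, g • σ ∈ K) {a b : ℕ}
    (F : List T → Finset V → ZMod 2) (hF : F ∈ InvD Γ T V)
    (hV : ∀ σ ∈ K, σ.card = b → TrivL (MulAction.stabilizer Γ σ) a (fun l => F l σ)) :
    ∃ k ∈ InvD Γ T V, dd1 k - F ∈ ZD T K a b := by
  classical
  obtain ⟨r, c, hcr, hr⟩ := exists_reps Γ (Finset V)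
  have hex : ∀ σ : Finset V, ∃ h : List T → ZMod 2, InvL (MulAction.stabilizer Γ σ) h ∧
      (σ ∈ K → σ.card = b → ∀ l : List T, l.length = a → LD h l = F l σ) := by
    intro σ
    by_cases hσ : σ ∈ K ∧ σ.card = b
    · obtain ⟨h, h1, h2⟩ := hV σ hσ.1 hσ.2
      exact ⟨h, h1, fun _ _ l hl => h2 l hl⟩
    · exact ⟨0, fun _ _ => rfl, fun h1 h2 => absurd ⟨h1, h2⟩ hσ⟩
  choose h h1 h2 using hex
  refine ⟨fun l σ => h (r σ) (trl (c σ)⁻¹ l), ?_, ?_⟩
  · intro g l σ
    show h (r (g • σ)) (trl (c (g • σ))⁻¹ (trl g l)) = h (r σ) (trl (c σ)⁻¹ l)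
    rw [hr g σ, trl_trl]
    have hγ : (c (g • σ))⁻¹ * g * c σ ∈ MulAction.stabilizer Γ (r σ) := by
      rw [MulAction.mem_stabilizer_iff, mul_smul, mul_smul, hcr σ, inv_smul_eq_iff]
      have := hcr (g • σ)
      rw [hr g σ] at this
      exact this.symm
    have := h1 (r σ) ⟨_, hγ⟩ (trl (c σ)⁻¹ l)
    rw [← this]
    have e : trl (⟨_, hγ⟩ : MulAction.stabilizer Γ (r σ)) (trl (c σ)⁻¹ l) =
        trl ((c (g • σ))⁻¹ * g * c σ) (trl (c σ)⁻¹ l) := rfl
    rw [e, trl_trl]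
    congr 2
    group
  · intro l hl σ hσ hb
    show LD (fun l' => h (r σ) (trl (c σ)⁻¹ l')) l - F l σ = 0
    have e1 := LD_map (h (r σ)) (fun x : T => (c σ)⁻¹ • x) l
    rw [← e1]
    have h6 : (c σ)⁻¹ • σ = r σ := by rw [inv_smul_eq_iff]; exact (hcr σ).symm
    have hrK : r σ ∈ K := by
      rw [← h6]
      exact hKi (c σ)⁻¹ σ hσ
    have hrb : (r σ).card = b := by
      have h3 := Finset.card_smul_finset (c σ) (r σ)
      rw [hcr σ, hb] at h3
      exact h3.symm
    have h4 := h2 (r σ) hrK hrb (trl (c σ)⁻¹ l) (by rw [length_trl]; exact hl)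
    rw [h4]
    have h5 := hF (c σ)⁻¹ l σ
    rw [h6] at h5
    rw [h5, sub_self]

/-- COLUMN: exactness of the columns. -/
theorem col_exact {K : Set (Finset V)} (hKi : ∀ (g : Γ), ∀ σ ∈ K, g • σ ∈ K) {a b : ℕ}
    (hV : ∀ σ ∈ K, σ.card = b → VanG (MulAction.stabilizer Γ σ) T a)
    (F : List T → Finset V → ZMod 2) (hF : F ∈ InvD Γ T V)
    (hc : dd1 F ∈ ZD T K (a + 1) b) : ∃ k ∈ InvD Γ T V, dd1 k - F ∈ ZD T K a b := by
  refine col_triv hKi F hF fun σ hσ hb => hV σ hσ hb (fun l => F l σ) (fun g l => ?_)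
    fun l hl => hc l hl σ hσ hb
  have := hF g.1 l σ
  rw [show g.1 • σ = σ from g.2] at this
  exact this

theorem stab_singleton (v : V) :
    MulAction.stabilizer Γ ({v} : Finset V) = MulAction.stabilizer Γ v := by
  ext g
  rw [MulAction.mem_stabilizer_iff, MulAction.mem_stabilizer_iff, Finset.smul_finset_singleton,
    Finset.singleton_inj]

theorem stab_empty : MulAction.stabilizer Γ (∅ : Finset V) = ⊤ := by
  ext g
  simp

/-- (4b): an invariant cocycle (size `s ≥ 1`) which is trivial on every vertex stabiliser is trivial, if the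
complex is exact, the quotient is exact at `s`, and the stabilisers of the bigger faces have vanishing
cohomology. -/
theorem triv_of_vertices (hT : FreeAct Γ T) [Nonempty T] {K : Set (Finset V)} (hKd : DownCl K)
    (hKi : ∀ (g : Γ), ∀ σ ∈ K, g • σ ∈ K) (s : ℕ)
    (hK : ∀ b, b < s → CoEx K b) (hKs : CoExInv Γ K s)
    (hV : ∀ σ ∈ K, 2 ≤ σ.card → σ.card < s →
      VanG (MulAction.stabilizer Γ σ) T (s + 1 - σ.card))
    (hE : ∅ ∈ K)
    (f : List T → ZMod 2) (hf : InvL Γ f) (hc : ∀ l : List T, l.length = s + 1 → LD f l = 0)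
    (hv : ∀ v : V, {v} ∈ K → TrivL (MulAction.stabilizer Γ v) s f) (hs : 1 ≤ s) :
    TrivL Γ s f := by
  obtain ⟨a, rfl⟩ : ∃ a, s = a + 1 := ⟨s - 1, by omega⟩
  set F0 : List T → Finset V → ZMod 2 := fun l _ => f l with hF0
  have hF0I : F0 ∈ InvD Γ T V := fun g l _ => hf g l
  obtain ⟨h1, hh1, hh2⟩ := col_triv (Γ := Γ) (K := K) hKi (a := a + 1) (b := 1) (dd2 F0)
    (inv_dd2 hF0I) (fun σ hσ hb => by
      obtain ⟨v, rfl⟩ := Finset.card_eq_one.1 hb
      rw [stab_singleton]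
      refine (hv v hσ).congr fun l _ => ?_
      show f l = ∑ w ∈ ({v} : Finset V), f l
      simp)
  have hCC : ∀ a' b, a' + b + 1 = a + 1 → ∀ g ∈ InvD Γ T V, dd1 g ∈ ZD T K (a' + 1) (b + 2) →
      ∃ g' ∈ InvD Γ T V, dd1 g' - g ∈ ZD T K a' (b + 2) := by
    intro a' b hab g hg h1g
    refine col_exact hKi (fun σ hσ hb => ?_) g hg h1g
    rcases Nat.lt_or_ge a' 2 with h | h
    · interval_cases a'
      · exact vanG_zero
      · exact vanG_one
    · have := hV σ hσ (by omega) (by omega)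
      rwa [show a + 1 + 1 - σ.card = a' by omega] at this
  have hRR : ∀ a' b, a' + b = a + 1 → ∀ g ∈ InvD Γ T V, dd2 g ∈ ZD T K a' (b + 1) →
      ∃ k ∈ InvD Γ T V, dd2 k - g ∈ ZD T K a' b := by
    intro a' b hab g hg h2g
    rcases Nat.eq_zero_or_pos a' with h | h
    · subst h
      obtain rfl : b = a + 1 := by omega
      exact row_zero hKs g hg h2g
    · obtain ⟨a'', rfl⟩ : ∃ a'', a' = a'' + 1 := ⟨a' - 1, by omega⟩
      exact row_exact hT hKi (hK b (by omega)) a'' g hg h2g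
  obtain ⟨h, hI, hh⟩ := DC dd1 dd2 (InvD Γ T V) (ZD T K) dd11 dd22 dd12
    (fun _ => inv_dd1) (fun _ => inv_dd2) Z_dd1 (Z_dd2 hKd) Z_01 Z_02 (a + 1) hCC hRR
    F0 h1 hF0I hh1 a rfl hh2
  refine ⟨fun l => h l ∅, fun g l => ?_, fun l hl => ?_⟩
  · have := hI g l ∅
    simpa using this
  · have := hh l hl ∅ hE (by simp)
    exact sub_eq_zero.1 this

/-- (4a) -/
theorem vanG_of_complex (hT : FreeAct Γ T) [Nonempty T] {K : Set (Finset V)} (hKd : DownCl K)
    (hKi : ∀ (g : Γ), ∀ σ ∈ K, g • σ ∈ K) (s : ℕ)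
    (hK : ∀ b, b < s → CoEx K b) (hKs : CoExInv Γ K s)
    (hV : ∀ σ ∈ K, 1 ≤ σ.card → VanG (MulAction.stabilizer Γ σ) T (s + 1 - σ.card))
    (hE : ∅ ∈ K) (hs : 1 ≤ s) : VanG Γ T s := by
  intro f hf hc
  refine triv_of_vertices hT hKd hKi s hK hKs (fun σ hσ h _ => hV σ hσ (by omega)) hE f hf hc
    (fun v hv => ?_) hs
  have h := hV {v} hv (by simp)
  rw [stab_singleton, Finset.card_singleton, show s + 1 - 1 = s by omega] at h
  exact h f (fun g l => hf g.1 l) hc

/-- (4c) -/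
theorem coExInv_of_vanG (hT : FreeAct Γ T) [Nonempty T] {K : Set (Finset V)} (hKd : DownCl K)
    (hKi : ∀ (g : Γ), ∀ σ ∈ K, g • σ ∈ K) (s : ℕ) (hs : 1 ≤ s)
    (hK : ∀ b, b ≤ s → CoEx K b) (hV0 : VanG Γ T s)
    (hV : ∀ σ ∈ K, 1 ≤ σ.card → σ.card ≤ s → VanG (MulAction.stabilizer Γ σ) T (s - σ.card)) :
    CoExInv Γ K s := by
  intro φ hφ hc
  obtain ⟨a, rfl⟩ : ∃ a, s = a + 1 := ⟨s - 1, by omega⟩
  set F0 : List T → Finset V → ZMod 2 := fun _ σ => φ σ with hF0
  have hF0I : F0 ∈ InvD Γ T V := fun g _ σ => hφ g σ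
  obtain ⟨h1, hh1, hh2⟩ := row_exact hT hKi (hK (a + 1) le_rfl) 0 (dd1 F0) (inv_dd1 hF0I)
    (by
      rw [← dd12]
      refine Z_dd1 0 _ _ ?_
      intro l _ τ hτ hb
      exact hc τ hτ hb)
  have hCC : ∀ a' b, a' + b + 1 = a + 1 → ∀ g ∈ InvD Γ T V, dd2 g ∈ ZD T K (b + 2) (a' + 1) →
      ∃ g' ∈ InvD Γ T V, dd2 g' - g ∈ ZD T K (b + 2) a' := by
    intro a' b hab g hg h1g
    exact row_exact hT hKi (hK a' (by omega)) (b + 1) g hg h1g
  have hRR : ∀ a' b, a' + b = a + 1 → ∀ g ∈ InvD Γ T V, dd1 g ∈ ZD T K (b + 1) a' →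
      ∃ k ∈ InvD Γ T V, dd1 k - g ∈ ZD T K b a' := by
    intro a' b hab g hg h2g
    refine col_exact hKi (fun σ hσ hb => ?_) g hg h2g
    rcases Nat.eq_zero_or_pos a' with h | h
    · subst h
      obtain rfl : σ = ∅ := Finset.card_eq_zero.1 hb
      obtain rfl : b = a + 1 := by omega
      rw [stab_empty]
      intro f hf hfc
      obtain ⟨k, hk, hk2⟩ := hV0 f (fun g l => hf ⟨g, trivial⟩ l) hfc
      exact ⟨k, fun g l => hk g.1 l, hk2⟩
    · have := hV σ hσ (by omega) (by omega)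
      rwa [show a + 1 - σ.card = b by omega] at this
  obtain ⟨h, hI, hh⟩ := DC dd2 dd1 (InvD Γ T V) (fun a b => ZD T K b a) dd22 dd11
    (fun x => (dd12 x).symm)
    (fun _ => inv_dd2) (fun _ => inv_dd1) (fun a b x hx => Z_dd2 hKd b a x hx)
    (fun a b x hx => Z_dd1 b a x hx) (fun b x => Z_02 b x) (fun a x => Z_01 a x) (a + 1) hCC hRR
    F0 h1 hF0I hh1 a rfl hh2
  refine ⟨fun σ => h [] σ, fun g σ => ?_, fun σ hσ hb => ?_⟩
  · have := hI g [] σ
    exact this
  · have := hh [] rfl σ hσ hb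
    exact sub_eq_zero.1 this

/-- a finite group of odd order -/
theorem vanG_odd [Finite Γ] (hodd : Odd (Nat.card Γ)) [Nonempty T] (s : ℕ) : VanG Γ T s := by
  classical
  have := Fintype.ofFinite Γ
  obtain ⟨x₀⟩ := ‹Nonempty T›
  intro f hf hc
  refine ⟨fun l => ∑ g : Γ, f (x₀ :: trl g l), fun g' l => ?_, fun l hl => ?_⟩
  · simp only [trl_trl]
    exact Fintype.sum_equiv (Equiv.mulRight g') _ _ (fun g => rfl)
  · have e : LD (fun l => ∑ g : Γ, f (x₀ :: trl g l)) l =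
        ∑ g : Γ, LD (fun l => f (x₀ :: trl g l)) l :=
      LD_sum Finset.univ (fun (g : Γ) l => f (x₀ :: trl g l)) l
    rw [e]
    have e2 : ∀ g : Γ, LD (fun l => f (x₀ :: trl g l)) l = f l := by
      intro g
      have e3 := LD_map (fun l => f (x₀ :: l)) (fun x : T => g • x) l
      have e4 := hc (x₀ :: trl g l) (by simp [trl, hl])
      rw [LD_cons, hf g l] at e4
      show LD (fun l => f (x₀ :: l.map fun x => g • x)) l = f l
      rw [← e3]
      have key : ∀ a b : ZMod 2, a + b = 0 → b = a := by decide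
      exact key _ _ e4
    rw [Finset.sum_congr rfl fun g _ => e2 g, Finset.sum_const, Finset.card_univ,
      ← Nat.card_eq_fintype_card, nsmul_eq_mul]
    obtain ⟨k, hk⟩ := hodd
    rw [hk]
    push_cast
    have : (2 : ZMod 2) = 0 := rfl
    rw [this]; ring

end dbl

end Crest.Agent.R66
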