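import Crest.Agent.R66.CG1

/-!
# Row 66, part (C), groups: means with values in `ZMod 2`, averaging, and the unipotent trick
Author: helper81.
-/

set_option autoImplicit false
set_option linter.unusedSectionVars false

namespace Crest.Agent.R66

open Finset

/-- existence of a translation invariant mean with values in `ZMod 2` -/
def HasMean (M : Type*) [Group M] : Prop :=
  ∃ μ : (M → ZMod 2) →ₗ[ZMod 2] ZMod 2, μ (fun _ => 1) = 1 ∧
    ∀ (b : M) (φ : M → ZMod 2), μ (fun a => φ (b * a)) = μ φ

/-- every finite subset lies in a finite subgroup of odd order -/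
def LocOdd (M : Type*) [Group M] : Prop :=
  ∀ S : Finset M, ∃ P : Subgroup M, Finite P ∧ Odd (Nat.card P) ∧ ∀ x ∈ S, x ∈ P

theorem hasMean_of_locOdd {M : Type*} [Group M] (h : LocOdd M) : HasMean M := by
  classical
  let W : Submodule (ZMod 2) (M → ZMod 2) :=
    Submodule.span (ZMod 2) {F | ∃ (b : M) (φ : M → ZMod 2), F = fun a => φ (b * a) - φ a}
  have hW : (fun _ => 1 : M → ZMod 2) ∉ W := by
    intro hmem
    -- every element of `W` is killed by the sum over a large finite subgroup
    have key : ∀ F ∈ W, ∃ S : Finset M, ∀ P : Subgroup M, Finite P → (∀ x ∈ S, x ∈ P) →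
        ∑ᶠ x : P, F x.1 = 0 := by
      intro F hF
      induction hF using Submodule.span_induction with
      | mem F hF =>
        obtain ⟨b, φ, rfl⟩ := hF
        refine ⟨{b}, fun P hP hS => ?_⟩
        have := Fintype.ofFinite P
        have hb : b ∈ P := hS b (Finset.mem_singleton_self b)
        rw [finsum_eq_sum_of_fintype, Finset.sum_sub_distrib, sub_eq_zero]
        exact Fintype.sum_equiv (Equiv.mulLeft (⟨b, hb⟩ : P)) _ _ (fun x => rfl)
      | zero => exact ⟨∅, fun P _ _ => by simp⟩
      | add F G _ _ hF hG =>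
        obtain ⟨S1, h1⟩ := hF
        obtain ⟨S2, h2⟩ := hG
        refine ⟨S1 ∪ S2, fun P hP hS => ?_⟩
        have := Fintype.ofFinite P
        have e1 := h1 P hP fun x hx => hS x (Finset.mem_union_left _ hx)
        have e2 := h2 P hP fun x hx => hS x (Finset.mem_union_right _ hx)
        rw [finsum_eq_sum_of_fintype] at e1 e2 ⊢
        simp only [Pi.add_apply]
        rw [Finset.sum_add_distrib, e1, e2, add_zero]
      | smul c F _ hF =>
        obtain ⟨S, h1⟩ := hF
        refine ⟨S, fun P hP hS => ?_⟩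
        have := Fintype.ofFinite P
        have e1 := h1 P hP hS
        rw [finsum_eq_sum_of_fintype] at e1 ⊢
        simp only [Pi.smul_apply]
        rw [← Finset.smul_sum, e1, smul_zero]
    obtain ⟨S, hS⟩ := key _ hmem
    obtain ⟨P, hP, hodd, hPS⟩ := h S
    have e1 := hS P hP hPS
    have := Fintype.ofFinite P
    rw [finsum_eq_sum_of_fintype] at e1
    rw [Finset.sum_const, Finset.card_univ, ← Nat.card_eq_fintype_card, nsmul_eq_mul, mul_one] at e1
    obtain ⟨k, hk⟩ := hodd
    rw [hk] at e1
    push_cast at e1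
    have h2 : (2 : ZMod 2) = 0 := rfl
    rw [h2, zero_mul, zero_add] at e1
    exact one_ne_zero e1
  obtain ⟨f, hf1, hf2⟩ := Submodule.exists_le_ker_of_notMem hW
  refine ⟨f, ?_, fun b φ => ?_⟩
  · have : ∀ a : ZMod 2, a ≠ 0 → a = 1 := by decide
    exact this _ hf1
  · have h3 : (fun a => φ (b * a) - φ a) ∈ W := Submodule.subset_span ⟨b, φ, rfl⟩
    have h4 := hf2 h3
    rw [LinearMap.mem_ker] at h4
    have h5 : f (fun a => φ (b * a) - φ a) = f (fun a => φ (b * a)) - f φ := by
      rw [← map_sub]; rfl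
    rw [h5, sub_eq_zero] at h4
    exact h4

theorem locOdd_of_comm {M : Type*} [CommGroup M] {p : ℕ} (hp : p.Prime) (hp2 : p ≠ 2)
    (h : ∀ x : M, x ^ p = 1) : LocOdd M := by
  classical
  intro S
  have hfact : Fact p.Prime := ⟨hp⟩
  let P := Subgroup.closure (S : Set M)
  have hfg : Group.FG P := (Group.fg_iff_subgroup_fg P).2 ⟨S, rfl⟩
  have htor : IsMulTorsion P := by
    intro x
    rw [isOfFinOrder_iff_pow_eq_one]
    exact ⟨p, hp.pos, Subtype.ext (h x.1)⟩
  have hfin : Finite P := CommGroup.finite_of_fg_isMulTorsion P htor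
  refine ⟨P, hfin, ?_, fun x hx => Subgroup.subset_closure hx⟩
  have hpg : IsPGroup p P := fun x => ⟨1, Subtype.ext (by simpa using h x.1)⟩
  obtain ⟨n, hn⟩ := IsPGroup.iff_card.1 hpg
  rw [hn]
  exact (hp.odd_of_ne_two hp2).pow

section avg
variable {P : Type*} [Group P] {T : Type*} [MulAction P T] (M : Subgroup P)
  (μ : (M → ZMod 2) →ₗ[ZMod 2] ZMod 2) (r : T → P)

/-- iterated average over the `M`-orbits -/
noncomputable def EX : (List T → ZMod 2) → List T → ZMod 2
  | f, [] => f []
  | f, x :: l => μ fun a => EX (fun l' => f ((r x * a.1 * (r x)⁻¹) • x :: l')) l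

/-- the homotopy between `f` and `EX f` -/
noncomputable def HH : (List T → ZMod 2) → List T → ZMod 2
  | _, [] => 0
  | f, x :: l => EX M μ r (fun l' => f (x :: l')) (x :: l) + HH (fun l' => f (x :: l')) l

theorem EX_add (f g : List T → ZMod 2) (l : List T) :
    EX M μ r (f + g) l = EX M μ r f l + EX M μ r g l := by
  induction l generalizing f g with
  | nil => rfl
  | cons x l ih =>
    simp only [EX]
    rw [← map_add]
    congr 1
    funext a
    exact ih _ _

theorem EX_zero (l : List T) : EX M μ r (0 : List T → ZMod 2) l = 0 := by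
  induction l with
  | nil => rfl
  | cons x l ih =>
    simp only [EX]
    have : (fun a : M => EX M μ r (fun l' => (0 : List T → ZMod 2)
        ((r x * a.1 * (r x)⁻¹) • x :: l')) l) = 0 := by
      funext a; exact ih
    rw [this, map_zero]

theorem EX_congr {f g : List T → ZMod 2} {s : ℕ} (h : ∀ l : List T, l.length = s → f l = g l)
    (l : List T) (hl : l.length = s) : EX M μ r f l = EX M μ r g l := by
  induction s generalizing f g l with
  | zero =>
    match l, hl with
    | [], _ => exact h [] rfl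
  | succ s ih =>
    match l, hl with
    | x :: l, hl =>
      simp only [EX]
      congr 1
      funext a
      exact ih (fun l' hl' => h _ (by simp [hl'])) l (by simpa using hl)

theorem LD_mean {A : Type*} (μ' : (A → ZMod 2) →ₗ[ZMod 2] ZMod 2) (G : A → List T → ZMod 2)
    (l : List T) : LD (fun l' => μ' fun a => G a l') l = μ' fun a => LD (G a) l := by
  induction l generalizing G with
  | nil =>
    show 0 = μ' fun _ => 0
    exact (map_zero μ').symm
  | cons x l ih =>
    rw [LD_cons, ih, ← map_add]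
    rfl

variable {μ} (hμ1 : μ (fun _ => 1) = 1)
include hμ1

theorem mean_const (c : ZMod 2) : μ (fun _ => c) = c := by
  have : (fun _ : M => c) = c • (fun _ : M => (1 : ZMod 2)) := by funext; simp
  rw [this, map_smul, hμ1, smul_eq_mul, mul_one]

theorem LD_EX (f : List T → ZMod 2) (l : List T) :
    LD (EX M μ r f) l = EX M μ r (LD f) l := by
  induction l generalizing f with
  | nil => rfl
  | cons x l ih =>
    have e1 : LD (EX M μ r f) (x :: l) = EX M μ r f l +
        μ fun a => LD (EX M μ r (fun l' => f ((r x * a.1 * (r x)⁻¹) • x :: l'))) l := by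
      rw [LD_cons, ← LD_mean μ
        (fun (a : M) => EX M μ r (fun l' => f ((r x * a.1 * (r x)⁻¹) • x :: l'))) l]
      rfl
    have e2 : EX M μ r (LD f) (x :: l) =
        μ fun a => (EX M μ r f l +
          EX M μ r (LD (fun l' => f ((r x * a.1 * (r x)⁻¹) • x :: l'))) l) := by
      simp only [EX]
      congr 1
      funext a
      rw [← EX_add]
      rfl
    rw [e1, e2]
    have e3 : (fun a : M => (EX M μ r f l +
          EX M μ r (LD (fun l' => f ((r x * a.1 * (r x)⁻¹) • x :: l'))) l)) =
        (fun _ => EX M μ r f l) +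
          (fun a : M => LD (EX M μ r (fun l' => f ((r x * a.1 * (r x)⁻¹) • x :: l'))) l) := by
      funext a
      show _ = EX M μ r f l + LD (EX M μ r (fun l' => f ((r x * a.1 * (r x)⁻¹) • x :: l'))) l
      rw [ih]
    rw [e3, map_add, mean_const M hμ1]

theorem HH_add (f g : List T → ZMod 2) (l : List T) :
    HH M μ r (f + g) l = HH M μ r f l + HH M μ r g l := by
  induction l generalizing f g with
  | nil => simp [HH]
  | cons x l ih =>
    have h2 : (fun l' => (f + g) (x :: l')) = (fun l' => f (x :: l')) + (fun l' => g (x :: l')) := rfl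
    simp only [HH]
    rw [h2, ih, EX_add]
    ring

theorem HH_eq (f : List T → ZMod 2) (l : List T) :
    LD (HH M μ r f) l + HH M μ r (LD f) l = f l + EX M μ r f l := by
  induction l generalizing f with
  | nil =>
    have : ∀ a : ZMod 2, (0 : ZMod 2) + 0 = a + a := by decide
    exact this (f [])
  | cons x l ih =>
    have e1 : LD (HH M μ r f) (x :: l) = HH M μ r f l +
        (LD (fun l' => EX M μ r (fun l'' => f (x :: l'')) (x :: l')) l +
          LD (HH M μ r (fun l' => f (x :: l'))) l) := by
      rw [LD_cons, ← LD_add]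
      rfl
    have e2 : HH M μ r (LD f) (x :: l) = EX M μ r (f + LD (fun l' => f (x :: l'))) (x :: l) +
        HH M μ r (f + LD (fun l' => f (x :: l'))) l := rfl
    have e4 := LD_EX M r hμ1 (fun l' => f (x :: l')) (x :: l)
    rw [LD_cons] at e4
    have e6 := ih (fun l' => f (x :: l'))
    rw [e1, e2, EX_add, HH_add M r hμ1, ← e4]
    have key : ∀ a b c d e g h k : ZMod 2, c + h = g + k →
        a + (b + c) + (d + (k + b) + (a + h)) = g + d := by decide
    exact key _ _ _ _ (0 : ZMod 2) _ _ _ e6

theorem HH_cocycle {f : List T → ZMod 2} {s : ℕ}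
    (hf : ∀ l : List T, l.length = s + 1 → LD f l = 0) (l : List T) (hl : l.length = s) :
    LD (HH M μ r f) l = f l + EX M μ r f l := by
  have h : ∀ (s : ℕ) (g : List T → ZMod 2), (∀ l : List T, l.length = s + 1 → g l = 0) →
      ∀ l : List T, l.length = s → HH M μ r g l = 0 := by
    intro s
    induction s with
    | zero =>
      intro g hg l hl
      match l, hl with
      | [], _ => rfl
    | succ s ih =>
      intro g hg l hl
      match l, hl with
      | x :: l, hl =>
        simp only [List.length_cons, Nat.add_right_cancel_iff] at hl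
        simp only [HH]
        rw [ih (fun l' => g (x :: l')) (fun l' hl' => hg _ (by simp [hl'])) l hl,
          EX_congr M μ r (g := 0) (s := s + 1) (fun l' hl' => hg _ (by simp [hl'])) (x :: l)
            (by simp [hl]), EX_zero, add_zero]
  rw [← HH_eq M r hμ1 f l, h s (LD f) hf l hl, add_zero]

omit hμ1 in
/-- translation of `EX` -/
theorem EX_trl (hr : ∀ (g : P) x, r (g • x) = g * r x) (g : P) (f : List T → ZMod 2)
    (l : List T) : EX M μ r f (trl g l) = EX M μ r (fun l => f (trl g l)) l := by
  induction l generalizing f with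
  | nil => rfl
  | cons x l ih =>
    show EX M μ r f (g • x :: trl g l) = _
    simp only [EX]
    congr 1
    funext a
    rw [ih]
    congr 1
    funext l'
    show f _ = f (g • ((r x * a.1 * (r x)⁻¹) • x) :: trl g l')
    congr 2
    rw [hr, smul_smul, smul_smul]
    congr 1
    group

omit hμ1 in
theorem HH_trl (hr : ∀ (g : P) x, r (g • x) = g * r x) (g : P) (f : List T → ZMod 2)
    (l : List T) : HH M μ r f (trl g l) = HH M μ r (fun l => f (trl g l)) l := by
  induction l generalizing f with
  | nil => rfl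
  | cons x l ih =>
    have e1 : HH M μ r f (trl g (x :: l)) =
        EX M μ r (fun l' => f (g • x :: l')) (trl g (x :: l)) +
          HH M μ r (fun l' => f (g • x :: l')) (trl g l) := rfl
    have e2 : HH M μ r (fun l => f (trl g l)) (x :: l) =
        EX M μ r (fun l' => f (g • x :: trl g l')) (x :: l) +
          HH M μ r (fun l' => f (g • x :: trl g l')) l := rfl
    rw [e1, e2, ih, EX_trl M r hr]

/-- coordinatewise `M`-equivalence of lists -/
def MRel (l l' : List T) : Prop := List.Forall₂ (fun x y => ∃ m : M, y = m.1 • x) l l'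

omit hμ1 in
/-- `EX f` is invariant under `M` in every coordinate. -/
theorem EX_rel (hM : M.Normal) (hr : ∀ (g : P) x, r (g • x) = g * r x)
    (hμ : ∀ (b : M) (φ : M → ZMod 2), μ (fun a => φ (b * a)) = μ φ)
    (f : List T → ZMod 2) {l l' : List T} (h : MRel M l l') : EX M μ r f l = EX M μ r f l' := by
  induction h generalizing f with
  | nil => rfl
  | @cons x y l l' hxy _ ih =>
    obtain ⟨m, rfl⟩ := hxy
    simp only [EX]
    have hb : (r x)⁻¹ * m.1 * r x ∈ M := by
      have := hM.conj_mem m.1 m.2 (r x)⁻¹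
      simpa using this
    rw [← hμ ⟨_, hb⟩ (fun a => EX M μ r (fun l' => f ((r x * a.1 * (r x)⁻¹) • x :: l')) l)]
    congr 1
    funext a
    rw [ih]
    congr 1
    funext l''
    congr 2
    rw [hr, smul_smul]
    congr 1
    show r x * ((r x)⁻¹ * m.1 * r x * a.1) * (r x)⁻¹ = m.1 * r x * a.1 * (m.1 * r x)⁻¹ * m.1
    group

end avg

section conseq
variable {P : Type*} [Group P] {T : Type*} [MulAction P T]

theorem Pr_map {T T' T'' : Type*} (φ ψ : T' → T) (a : T'' → T') (f : List T → ZMod 2)
    (l : List T'') : Pr φ ψ f (l.map a) = Pr (fun x => φ (a x)) (fun x => ψ (a x)) f l := by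
  induction l generalizing f with
  | nil => rfl
  | cons x l ih =>
    simp only [List.map_cons, Pr]
    rw [ih]
    simp [List.map_map, Function.comp_def]

theorem Pr_rel {T T' : Type*} {R : T → T → Prop} {φ ψ φ' ψ' : T' → T}
    (hφ : ∀ x, R (φ x) (φ' x)) (hψ : ∀ x, R (ψ x) (ψ' x)) {f f' : List T → ZMod 2}
    (h : ∀ L L', List.Forall₂ R L L' → f L = f' L') (l : List T') :
    Pr φ ψ f l = Pr φ' ψ' f' l := by
  induction l generalizing f f' with
  | nil => rfl
  | cons x l ih =>
    simp only [Pr]
    have hm : List.Forall₂ R (l.map ψ) (l.map ψ') := by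
      rw [List.forall₂_map_left_iff, List.forall₂_map_right_iff, List.forall₂_same]
      intro y _
      exact hψ y
    rw [h _ _ (List.Forall₂.cons (hφ x) (List.Forall₂.cons (hψ x) hm))]
    rw [ih (f := fun l' => f (φ x :: l')) (f' := fun l' => f' (φ' x :: l'))
      (fun L L' hL => h _ _ (List.Forall₂.cons (hφ x) hL))]

theorem mrel_refl (M : Subgroup P) (l : List T) : MRel M l l := by
  induction l with
  | nil => exact List.Forall₂.nil
  | cons x l ih => exact List.Forall₂.cons ⟨1, by simp⟩ ih

theorem mrel_trl (M : Subgroup P) (m : M) (l : List T) : MRel M l (trl m.1 l) := by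
  induction l with
  | nil => exact List.Forall₂.nil
  | cons x l ih => exact List.Forall₂.cons ⟨m, rfl⟩ ih

/-- (5b): if `P = M Q`, `M` normal with a mean, then a `P`-cocycle which is `Q`-trivial is `P`-trivial. -/
theorem triv_of_sub (hT : FreeAct P T) (M Q : Subgroup P) (hM : M.Normal) (hmean : HasMean M)
    (hMQ : ∀ g : P, ∃ m ∈ M, ∃ q ∈ Q, g = m * q) {s : ℕ} {f : List T → ZMod 2} (hf : InvL P f)
    (hc : ∀ l : List T, l.length = s + 1 → LD f l = 0) (hQ : TrivL Q s f) : TrivL P s f := by
  obtain ⟨μ, hμ1, hμ⟩ := hmean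
  obtain ⟨r, hr⟩ := exists_equiv_map (Γ := P) (T := T) (T' := P) hT
  obtain ⟨h, h1, h2⟩ := hQ
  have hA : TrivL P s (EX M μ r f) := by
    refine ⟨EX M μ r h, fun g l => ?_, fun l hl => ?_⟩
    · obtain ⟨m, hm, q, hq, rfl⟩ := hMQ g
      rw [← trl_trl]
      rw [← EX_rel M r hM hr hμ h (mrel_trl M ⟨m, hm⟩ (trl q l)), EX_trl M r hr]
      congr 1
      funext l'
      exact h1 ⟨q, hq⟩ l'
    · rw [LD_EX M r hμ1, EX_congr M μ r h2 l hl]
  have hB : TrivL P s (f + EX M μ r f) := by
    refine ⟨HH M μ r f, fun g l => ?_, fun l hl => HH_cocycle M r hμ1 hc l hl⟩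
    rw [HH_trl M r hr]
    congr 1
    funext l'
    exact hf g l'
  refine (hB.add hA).congr fun l _ => ?_
  simp only [Pi.add_apply]
  have key : ∀ a b : ZMod 2, a + b + b = a := by decide
  exact key _ _

/-- (5a) -/
theorem vanG_of_sub (hT : FreeAct P T) (M Q : Subgroup P) (hM : M.Normal) (hmean : HasMean M)
    (hMQ : ∀ g : P, ∃ m ∈ M, ∃ q ∈ Q, g = m * q) {s : ℕ} (hQ : VanG Q T s) : VanG P T s :=
  fun f hf hc => triv_of_sub hT M Q hM hmean hMQ hf hc
    (hQ f (fun g l => hf g.1 l) hc)

/-- (5c): THE UNIPOTENT TRICK. If `u : T → T` satisfies `u (q x) = p u x` with `p ∈ M q`, then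
`f` and `f ∘ u` are `Q`-cohomologous, for every `P`-cocycle `f`. -/
theorem triv_of_twist (hT : FreeAct P T) (M Q : Subgroup P) (hM : M.Normal) (hmean : HasMean M)
    (u : T → T) (hu : ∀ q ∈ Q, ∃ m ∈ M, ∀ x, u (q • x) = (m * q) • u x)
    {s : ℕ} {f : List T → ZMod 2} (hf : InvL P f)
    (hc : ∀ l : List T, l.length = s + 1 → LD f l = 0) :
    TrivL Q s (fun l => f l + f (l.map u)) := by
  obtain ⟨μ, hμ1, hμ⟩ := hmean
  obtain ⟨r, hr⟩ := exists_equiv_map (Γ := P) (T := T) (T' := P) hT
  set ψ := EX M μ r f with hψ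
  have hψP : InvL P ψ := fun g l => by
    rw [hψ, EX_trl M r hr]
    congr 1
    funext l'
    exact hf g l'
  have hψc : ∀ l : List T, l.length = s + 1 → LD ψ l = 0 := fun l hl => by
    rw [hψ, LD_EX M r hμ1, EX_congr M μ r (g := 0) (s := s + 1) (fun l hl => hc l hl) l hl, EX_zero]
  have hHP : InvL P (HH M μ r f) := fun g l => by
    rw [HH_trl M r hr]
    congr 1
    funext l'
    exact hf g l'
  have hmapu : ∀ q ∈ Q, ∃ m ∈ M, ∀ l : List T, (trl q l).map u = trl (m * q) (l.map u) := by
    intro q hq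
    obtain ⟨m, hm, h⟩ := hu q hq
    refine ⟨m, hm, fun l => ?_⟩
    simp [trl, List.map_map, Function.comp_def, h]
  -- f ~ ψ
  have hA : TrivL Q s (f + ψ) :=
    ⟨HH M μ r f, fun g l => hHP g.1 l, fun l hl => HH_cocycle M r hμ1 hc l hl⟩
  -- f ∘ u ~ ψ ∘ u
  have hB : TrivL Q s (fun l => f (l.map u) + ψ (l.map u)) := by
    refine ⟨fun l => HH M μ r f (l.map u), fun g l => ?_, fun l hl => ?_⟩
    · obtain ⟨m, _, h⟩ := hmapu g.1 g.2
      have e : (trl g l).map u = trl (m * g.1) (l.map u) := h l
      simp only [e]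
      exact hHP _ _
    · rw [← LD_map]
      exact HH_cocycle M r hμ1 hc _ (by simpa using hl)
  -- ψ ~ ψ ∘ u
  have hC : TrivL Q s (fun l => ψ (l.map fun x => x) + ψ (l.map u)) := by
    refine ⟨Pr (fun x => x) u ψ, fun g l => ?_, fun l hl => prism_cocycle _ _ hψc l hl⟩
    obtain ⟨m, hm, h⟩ := hu g.1 g.2
    have e1 : Pr (fun x => x) u ψ (trl g l) = Pr (fun x => g.1 • x) (fun x => u (g.1 • x)) ψ l :=
      Pr_map _ _ _ _ _
    rw [e1]
    refine Pr_rel (R := fun y y' => ∃ m : M, g.1 • y' = m.1 • y) ?_ ?_ ?_ l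
    · intro x; exact ⟨1, by simp⟩
    · intro x
      refine ⟨⟨m, hm⟩⁻¹, ?_⟩
      rw [h x]
      simp [mul_smul]
    · intro L L' hL
      have h1 : MRel M L (trl g.1 L') := by
        unfold MRel trl
        rw [List.forall₂_map_right_iff]
        exact hL
      rw [← hψP g.1 L']
      exact EX_rel M r hM hr hμ f h1
  refine ((hA.add hB).add hC).congr fun l _ => ?_
  simp only [Pi.add_apply, List.map_id']
  have key : ∀ a b c d : ZMod 2, a + b + (c + d) + (b + d) = a + c := by decide
  exact key _ _ _ _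

end conseq

end Crest.Agent.R66
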