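import Crest.Agent.R66.CG2

/-!
# Row 66, part (C), groups: abstract form of the unipotent trick and of the transfer
Author: helper81.
-/

set_option autoImplicit false
set_option linter.unusedSectionVars false

namespace Crest.Agent.R66

open Finset

section conv
variable {Γ Γ' T T' : Type*} [Group Γ] [Group Γ'] [MulAction Γ T] [MulAction Γ' T]

theorem InvL.of_act (h : ∀ g : Γ, ∃ g' : Γ', ∀ x : T, g • x = g' • x) {f : List T → ZMod 2}
    (hf : InvL Γ' f) : InvL Γ f := by
  intro g l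
  obtain ⟨g', hg⟩ := h g
  have : trl g l = trl g' l := by
    unfold trl
    exact List.map_congr_left fun x _ => hg x
  rw [this]
  exact hf g' l

theorem TrivL.of_act (h : ∀ g : Γ, ∃ g' : Γ', ∀ x : T, g • x = g' • x) {s : ℕ}
    {f : List T → ZMod 2} (hf : TrivL Γ' s f) : TrivL Γ s f := by
  obtain ⟨k, h1, h2⟩ := hf
  exact ⟨k, h1.of_act h, h2⟩

theorem VanG.of_act (h : ∀ g : Γ, ∃ g' : Γ', ∀ x : T, g • x = g' • x)
    (h' : ∀ g : Γ', ∃ g' : Γ, ∀ x : T, g • x = g' • x) {s : ℕ} (hv : VanG Γ' T s) : VanG Γ T s :=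
  fun f hf hc => (hv f (hf.of_act h') hc).of_act h

end conv

section conv2
variable {Γ Γ' T T' : Type*} [Group Γ] [Group Γ'] [MulAction Γ T] [MulAction Γ' T']

/-- invariance under isomorphism of groups, and change of the free set -/
theorem VanG.of_equiv (φ : Γ ≃* Γ') (hT : FreeAct Γ T)
    (hT' : FreeAct Γ' T') [Nonempty T] [Nonempty T'] {s : ℕ} (hv : VanG Γ' T' s) : VanG Γ T s := by
  let _ : MulAction Γ T' := MulAction.compHom T' φ.toMonoidHom
  have hact : ∀ (g : Γ) (x : T'), g • x = φ g • x := fun g x => rfl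
  have h1 : FreeAct Γ T' := by
    intro g x hx
    rw [hact] at hx
    have := hT' _ _ hx
    simpa using this
  have h2 : VanG Γ T' s := by
    refine hv.of_act (fun g => ⟨φ g, fun x => rfl⟩) (fun g => ⟨φ.symm g, fun x => ?_⟩)
    rw [hact]
    simp
  exact VanG.change hT h1 h2

end conv2

section ambient
variable {G : Type*} [Group G]

theorem freeAct_self (H : Subgroup G) : FreeAct H G := by
  intro g x hx
  have : g.1 * x = x := hx
  exact Subtype.ext (mul_eq_right.1 this)

theorem hasMean_of_equiv {M M' : Type*} [Group M] [Group M'] (φ : M ≃* M') (h : HasMean M') :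
    HasMean M := by
  obtain ⟨μ, h1, h2⟩ := h
  refine ⟨{ toFun := fun f => μ fun x => f (φ.symm x), map_add' := fun f g => ?_,
            map_smul' := fun c f => ?_ }, h1, fun b f => ?_⟩
  · exact map_add μ _ _
  · exact map_smul μ _ _
  · show μ (fun x => f (b * φ.symm x)) = μ fun x => f (φ.symm x)
    rw [← h2 (φ b) fun x => f (φ.symm x)]
    congr 1
    funext x
    simp

/-- subgroups of an ambient group, (5b) -/
theorem triv_of_sub' (P M Q : Subgroup G) (hMP : M ≤ P) (hQP : Q ≤ P)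
    (hn : ∀ g ∈ P, ∀ m ∈ M, g * m * g⁻¹ ∈ M) (hmean : HasMean M)
    (hMQ : ∀ g ∈ P, ∃ m ∈ M, ∃ q ∈ Q, g = m * q) {s : ℕ} {f : List G → ZMod 2} (hf : InvL P f)
    (hc : ∀ l : List G, l.length = s + 1 → LD f l = 0) (hQ : TrivL Q s f) : TrivL P s f := by
  refine triv_of_sub (freeAct_self P) (M.subgroupOf P) (Q.subgroupOf P) ⟨?_⟩ ?_ ?_ hf hc
    (hQ.of_act fun g => ⟨⟨g.1.1, g.2⟩, fun x => rfl⟩)
  · intro m hm g
    exact hn g.1 g.2 m.1 hm
  · exact hasMean_of_equiv (Subgroup.subgroupOfEquivOfLe hMP) hmean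
  · intro g
    obtain ⟨m, hm, q, hq, h⟩ := hMQ g.1 g.2
    exact ⟨⟨m, hMP hm⟩, hm, ⟨q, hQP hq⟩, hq, Subtype.ext h⟩

/-- subgroups of an ambient group, (5a) -/
theorem vanG_of_sub' (P M Q : Subgroup G) (hMP : M ≤ P) (hQP : Q ≤ P)
    (hn : ∀ g ∈ P, ∀ m ∈ M, g * m * g⁻¹ ∈ M) (hmean : HasMean M)
    (hMQ : ∀ g ∈ P, ∃ m ∈ M, ∃ q ∈ Q, g = m * q) {s : ℕ} (hQ : VanG Q G s) : VanG P G s :=
  fun f hf hc => triv_of_sub' P M Q hMP hQP hn hmean hMQ hf hc
    (hQ f (hf.of_act fun g => ⟨⟨g.1, hQP g.2⟩, fun _ => rfl⟩) hc)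

/-- subgroups of an ambient group, (5c) -/
theorem triv_of_twist' (P M Q : Subgroup G) (hMP : M ≤ P) (hQP : Q ≤ P)
    (hn : ∀ g ∈ P, ∀ m ∈ M, g * m * g⁻¹ ∈ M) (hmean : HasMean M) (w : G)
    (hw : ∀ q ∈ Q, w * q * w⁻¹ * q⁻¹ ∈ M) {s : ℕ} {f : List G → ZMod 2} (hf : InvL P f)
    (hc : ∀ l : List G, l.length = s + 1 → LD f l = 0) :
    TrivL Q s (fun l => f l + f (trl w l)) := by
  have h := triv_of_twist (freeAct_self P) (M.subgroupOf P) (Q.subgroupOf P) ⟨?_⟩ ?_
    (fun x : G => w * x) ?_ hf hc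
  · exact h.of_act fun g => ⟨⟨⟨g.1, hQP g.2⟩, g.2⟩, fun x => rfl⟩
  · intro m hm g
    exact hn g.1 g.2 m.1 hm
  · exact hasMean_of_equiv (Subgroup.subgroupOfEquivOfLe hMP) hmean
  · intro q hq
    refine ⟨⟨w * q.1 * w⁻¹ * q.1⁻¹, hMP (hw q.1 hq)⟩, hw q.1 hq, fun x => ?_⟩
    show w * (q.1 * x) = (w * q.1 * w⁻¹ * q.1⁻¹ * q.1) * (w * x)
    group

theorem cocycle_trl {s : ℕ} {f : List G → ZMod 2}
    (hc : ∀ l : List G, l.length = s + 1 → LD f l = 0) (w : G) (l : List G)
    (hl : l.length = s + 1) : LD (fun l => f (trl w l)) l = 0 := by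
  have e := LD_map f (fun x : G => w • x) l
  have e2 : LD (fun l => f (trl w l)) l = LD f (l.map fun x => w • x) := e.symm
  rw [e2]
  exact hc _ (by simpa using hl)

theorem InvL.trl_normal {N : Subgroup G} (hN : N.Normal) {f : List G → ZMod 2} (hf : InvL N f)
    (w : G) : InvL N (fun l => f (trl w l)) := by
  intro g l
  have e : trl w (trl g l) = trl (⟨w * g.1 * w⁻¹, hN.conj_mem g.1 g.2 w⟩ : N) (trl w l) := by
    unfold trl
    rw [List.map_map, List.map_map]
    refine List.map_congr_left fun x _ => ?_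
    show w * (g.1 * x) = (w * g.1 * w⁻¹) * (w * x)
    group
  show f (trl w (trl g l)) = f (trl w l)
  rw [e]
  exact hf _ _

/-- the elements acting trivially on the restrictions to `Q` form a group -/
theorem twist_closure (N Q : Subgroup G) (hN : N.Normal) (W : Set G)
    (hW : ∀ w ∈ W, ∃ P M : Subgroup G, P ≤ N ∧ Q ≤ P ∧ M ≤ P ∧
      (∀ g ∈ P, ∀ m ∈ M, g * m * g⁻¹ ∈ M) ∧ HasMean M ∧ ∀ q ∈ Q, w * q * w⁻¹ * q⁻¹ ∈ M)
    {w : G} (hw : w ∈ Subgroup.closure W) {s : ℕ} {f : List G → ZMod 2} (hf : InvL N f)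
    (hc : ∀ l : List G, l.length = s + 1 → LD f l = 0) :
    TrivL Q s (fun l => f l + f (trl w l)) := by
  induction hw using Subgroup.closure_induction generalizing f with
  | mem w hw =>
    obtain ⟨P, M, hPN, hQP, hMP, hn, hmean, hwM⟩ := hW w hw
    exact triv_of_twist' P M Q hMP hQP hn hmean w hwM
      (hf.of_act fun g => ⟨⟨g.1, hPN g.2⟩, fun _ => rfl⟩) hc
  | one =>
    refine (TrivL.zero (Γ := Q) (T := G) s).congr fun l _ => ?_
    rw [trl_one]
    have key : ∀ a : ZMod 2, 0 = a + a := by decide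
    exact key _
  | mul x y _ _ hx hy =>
    have h1 := hx hf hc
    have h2 := hy (hf.trl_normal hN x) (cocycle_trl hc x)
    refine (h1.add h2).congr fun l _ => ?_
    simp only [Pi.add_apply, trl_trl]
    have key : ∀ a b c : ZMod 2, a + b + (b + c) = a + c := by decide
    exact key _ _ _
  | inv x _ hx =>
    have h1 := hx (hf.trl_normal hN x⁻¹) (cocycle_trl hc x⁻¹)
    refine h1.congr fun l _ => ?_
    simp only [trl_trl]
    rw [inv_mul_cancel, trl_one, add_comm]

/-- transport of the statement `f + f(u .)` trivial on a subgroup along an isomorphism `G ≃* G'` -/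
theorem triv_conj {G' : Type*} [Group G'] (c : G ≃* G') (N S : Subgroup G) (N' S' : Subgroup G')
    (hNN : ∀ g ∈ N', c.symm g ∈ N) (hSS : ∀ g ∈ S, c g ∈ S') {s : ℕ} {u : G}
    (h : ∀ f : List G' → ZMod 2, InvL N' f → (∀ l : List G', l.length = s + 1 → LD f l = 0) →
      TrivL S' s (fun l => f l + f (trl (c u) l)))
    {f : List G → ZMod 2} (hf : InvL N f)
    (hc : ∀ l : List G, l.length = s + 1 → LD f l = 0) :
    TrivL S s (fun l => f l + f (trl u l)) := by
  have h1 : InvL N' (fun l : List G' => f (l.map c.symm)) := by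
    intro g l
    have e : (trl g l).map c.symm = trl (⟨c.symm g.1, hNN g.1 g.2⟩ : N) (l.map c.symm) := by
      unfold trl
      rw [List.map_map, List.map_map]
      refine List.map_congr_left fun x _ => ?_
      show c.symm (g.1 * x) = c.symm g.1 * c.symm x
      rw [map_mul]
    simp only [e]
    exact hf _ _
  obtain ⟨k, hk1, hk2⟩ := h _ h1 (fun l hl => by
    rw [← LD_map]
    exact hc _ (by simpa using hl))
  refine ⟨fun l => k (l.map c), fun g l => ?_, fun l hl => ?_⟩
  · have e : (trl g l).map c = trl (⟨c g.1, hSS g.1 g.2⟩ : S') (l.map c) := by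
      unfold trl
      rw [List.map_map, List.map_map]
      refine List.map_congr_left fun x _ => ?_
      show c (g.1 * x) = c g.1 * c x
      rw [map_mul]
    simp only [e]
    exact hk1 _ _
  · rw [← LD_map, hk2 _ (by simpa using hl)]
    have e1 : (l.map c).map c.symm = l := by simp [List.map_map, Function.comp_def]
    have e2 : (trl (c u) (l.map c)).map c.symm = trl u l := by
      unfold trl
      rw [List.map_map, List.map_map]
      refine List.map_congr_left fun x _ => ?_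
      show c.symm (c u * c x) = u * x
      rw [map_mul, MulEquiv.symm_apply_apply, MulEquiv.symm_apply_apply]
    simp only [e1, e2]

end ambient

section transfer
variable {U T : Type*} [Group U] [MulAction U T]

/-- TRANSFER -/
theorem vanG_of_index (N : Subgroup U) [hN : N.Normal] [Finite (U ⧸ N)]
    (hodd : Odd (Nat.card (U ⧸ N))) {s : ℕ} (hU : VanG U T s)
    (h : ∀ f : List T → ZMod 2, InvL N f → (∀ l : List T, l.length = s + 1 → LD f l = 0) →
      ∀ u : U, TrivL N s (fun l => f l + f (trl u l))) : VanG N T s := by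
  classical
  intro f hf hc
  have := Fintype.ofFinite (U ⧸ N)
  let φ : U ⧸ N → List T → ZMod 2 := fun q l => f (trl q.out l)
  have hφ : ∀ (u : U) (l : List T), φ (u : U ⧸ N) l = f (trl u l) := by
    intro u l
    obtain ⟨n, hn⟩ := QuotientGroup.mk_out_eq_mul N u
    show f (trl (u : U ⧸ N).out l) = _
    rw [hn]
    have e : u * (n : U) = (u * n * u⁻¹) * u := by group
    rw [e, ← trl_trl]
    exact hf ⟨u * n * u⁻¹, hN.conj_mem n.1 n.2 u⟩ (trl u l)
  let F : List T → ZMod 2 := fun l => ∑ q : U ⧸ N, φ q l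
  have hFinv : InvL U F := by
    intro g l
    refine Fintype.sum_equiv (Equiv.mulRight (g : U ⧸ N)) _ _ fun q => ?_
    induction q using QuotientGroup.induction_on with
    | H u =>
      show φ u (trl g l) = φ ((u : U ⧸ N) * (g : U ⧸ N)) l
      rw [← QuotientGroup.mk_mul, hφ, hφ, trl_trl]
  have hcu : ∀ (u : U) (l : List T), l.length = s + 1 → LD (fun l => f (trl u l)) l = 0 := by
    intro u l hl
    have e := LD_map f (fun x : T => u • x) l
    have e2 : LD (fun l => f (trl u l)) l = LD f (l.map fun x => u • x) := e.symm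
    rw [e2]
    exact hc _ (by simpa using hl)
  have hFc : ∀ l : List T, l.length = s + 1 → LD F l = 0 := by
    intro l hl
    have e : LD F l = ∑ q : U ⧸ N, LD (φ q) l := LD_sum Finset.univ φ l
    rw [e]
    exact Finset.sum_eq_zero fun q _ => hcu q.out l hl
  obtain ⟨k, hk1, hk2⟩ := hU F hFinv hFc
  have h1 : TrivL N s F := ⟨k, fun g l => hk1 g.1 l, hk2⟩
  have h2 : TrivL N s (fun l => ∑ q : U ⧸ N, (f l + f (trl q.out l))) :=
    TrivL.sum Finset.univ fun q _ => h f hf hc q.out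
  refine (h1.add h2).congr fun l _ => ?_
  rw [Pi.add_apply, Finset.sum_add_distrib, Finset.sum_const, Finset.card_univ,
    ← Nat.card_eq_fintype_card, nsmul_eq_mul]
  have e3 : ((Nat.card (U ⧸ N) : ℕ) : ZMod 2) = 1 := by
    obtain ⟨k, hk⟩ := hodd
    rw [hk]; push_cast
    have : (2 : ZMod 2) = 0 := rfl
    rw [this]; ring
  rw [e3, one_mul]
  have key : ∀ a b : ZMod 2, a + (b + a) = b := by decide
  exact key _ _

end transfer

end Crest.Agent.R66
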