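import Crest.Agent.R66.CG3

/-!
# Row 66, part (C), groups: congruence subgroups of automorphism groups of modules
Author: helper81.

`R` a commutative ring, `a : R`, `NL a M` = automorphisms of `M` congruent to `1` mod `a`.
For `e : M ≃ B × D`: `PL a e` = those which are the identity on `B` (= the kernel of the second
component), `ML a e ≤ PL a e` those inducing the identity on `M / B`, `QL a e` = `1 × NL a D`.
-/

set_option autoImplicit false
set_option linter.unusedSectionVars false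

namespace Crest.Agent.R66

open Finset

section lin
variable {R : Type*} [CommRing R] (a : R)

/-- automorphisms congruent to one mod `a` -/
def NL (M : Type*) [AddCommGroup M] [Module R M] : Subgroup (M ≃ₗ[R] M) where
  carrier := {g | ∀ x, ∃ y, g x - x = a • y}
  one_mem' := fun x => ⟨0, by simp⟩
  mul_mem' := by
    intro g h hg hh x
    obtain ⟨y, hy⟩ := hh x
    obtain ⟨z, hz⟩ := hg (h x)
    refine ⟨z + y, ?_⟩
    rw [LinearEquiv.mul_apply, smul_add, ← hy, ← hz]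
    abel
  inv_mem' := by
    intro g hg x
    obtain ⟨y, hy⟩ := hg (g⁻¹ x)
    refine ⟨-y, ?_⟩
    have e : g (g⁻¹ x) = x := by
      rw [← LinearEquiv.mul_apply, mul_inv_cancel]; rfl
    rw [e] at hy
    rw [smul_neg, ← hy]
    abel

variable {M B D : Type*} [AddCommGroup M] [Module R M] [AddCommGroup B] [Module R B]
  [AddCommGroup D] [Module R D]

theorem mem_NL {g : M ≃ₗ[R] M} : g ∈ NL a M ↔ ∀ x, ∃ y, g x - x = a • y := Iff.rfl

theorem ap_inv (g : M ≃ₗ[R] M) (x : M) : g (g⁻¹ x) = x := by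
  rw [← LinearEquiv.mul_apply, mul_inv_cancel]; rfl

theorem inv_ap (g : M ≃ₗ[R] M) (x : M) : g⁻¹ (g x) = x := by
  rw [← LinearEquiv.mul_apply, inv_mul_cancel]; rfl

theorem NL_normal : (NL a M).Normal := by
  refine ⟨fun g hg h x => ?_⟩
  obtain ⟨y, hy⟩ := hg (h⁻¹ x)
  refine ⟨h y, ?_⟩
  rw [LinearEquiv.mul_apply, LinearEquiv.mul_apply, ← map_smul, ← hy, map_sub, ap_inv]

variable (e : M ≃ₗ[R] B × D)

/-- the pointwise stabiliser of `B` -/
def PL : Subgroup (M ≃ₗ[R] M) where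
  carrier := {g | g ∈ NL a M ∧ ∀ x, (e x).2 = 0 → g x = x}
  one_mem' := ⟨(NL a M).one_mem, fun x _ => rfl⟩
  mul_mem' := by
    rintro g h ⟨hg, hg2⟩ ⟨hh, hh2⟩
    refine ⟨(NL a M).mul_mem hg hh, fun x hx => ?_⟩
    rw [LinearEquiv.mul_apply, hh2 x hx, hg2 x hx]
  inv_mem' := by
    rintro g ⟨hg, hg2⟩
    refine ⟨(NL a M).inv_mem hg, fun x hx => ?_⟩
    rw [← hg2 x hx, inv_ap, hg2 x hx]

/-- acting trivially on `B` and on `M / B` -/
def ML : Subgroup (M ≃ₗ[R] M) where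
  carrier := {g | g ∈ PL a e ∧ ∀ x, (e (g x)).2 = (e x).2}
  one_mem' := ⟨(PL a e).one_mem, fun x => rfl⟩
  mul_mem' := by
    rintro g h ⟨hg, hg2⟩ ⟨hh, hh2⟩
    refine ⟨(PL a e).mul_mem hg hh, fun x => ?_⟩
    rw [LinearEquiv.mul_apply, hg2, hh2]
  inv_mem' := by
    rintro g ⟨hg, hg2⟩
    refine ⟨(PL a e).inv_mem hg, fun x => ?_⟩
    rw [← hg2 (g⁻¹ x), ap_inv]

/-- preserving the first component -/
def PL' : Subgroup (M ≃ₗ[R] M) where
  carrier := {g | g ∈ NL a M ∧ ∀ x, (e (g x)).1 = (e x).1}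
  one_mem' := ⟨(NL a M).one_mem, fun x => rfl⟩
  mul_mem' := by
    rintro g h ⟨hg, hg2⟩ ⟨hh, hh2⟩
    refine ⟨(NL a M).mul_mem hg hh, fun x => ?_⟩
    rw [LinearEquiv.mul_apply, hg2, hh2]
  inv_mem' := by
    rintro g ⟨hg, hg2⟩
    refine ⟨(NL a M).inv_mem hg, fun x => ?_⟩
    rw [← hg2 (g⁻¹ x), ap_inv]

/-- preserving the first component and fixing `D` -/
def ML' : Subgroup (M ≃ₗ[R] M) where
  carrier := {g | g ∈ PL' a e ∧ ∀ x, (e x).1 = 0 → g x = x}
  one_mem' := ⟨(PL' a e).one_mem, fun x _ => rfl⟩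
  mul_mem' := by
    rintro g h ⟨hg, hg2⟩ ⟨hh, hh2⟩
    refine ⟨(PL' a e).mul_mem hg hh, fun x hx => ?_⟩
    rw [LinearEquiv.mul_apply, hh2 x hx, hg2 x hx]
  inv_mem' := by
    rintro g ⟨hg, hg2⟩
    refine ⟨(PL' a e).inv_mem hg, fun x hx => ?_⟩
    rw [← hg2 x hx, inv_ap, hg2 x hx]

theorem ML_le : ML a e ≤ PL a e := fun _ h => h.1
theorem ML'_le : ML' a e ≤ PL' a e := fun _ h => h.1
theorem PL_le : PL a e ≤ NL a M := fun _ h => h.1
theorem PL'_le : PL' a e ≤ NL a M := fun _ h => h.1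

theorem ML_normal : ∀ g ∈ PL a e, ∀ m ∈ ML a e, g * m * g⁻¹ ∈ ML a e := by
  rintro g hg m ⟨hm, hm2⟩
  refine ⟨(PL a e).mul_mem ((PL a e).mul_mem hg hm) ((PL a e).inv_mem hg), fun x => ?_⟩
  rw [LinearEquiv.mul_apply, LinearEquiv.mul_apply]
  have h1 : g (m (g⁻¹ x) - g⁻¹ x) = m (g⁻¹ x) - g⁻¹ x := by
    apply hg.2
    rw [map_sub, Prod.snd_sub, hm2, sub_self]
  have h2 : g (m (g⁻¹ x)) = x + (m (g⁻¹ x) - g⁻¹ x) := by
    rw [← h1, map_sub, ap_inv]; abel
  rw [h2, map_add, Prod.snd_add, map_sub, Prod.snd_sub, hm2, sub_self, add_zero]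

theorem ML'_normal : ∀ g ∈ PL' a e, ∀ m ∈ ML' a e, g * m * g⁻¹ ∈ ML' a e := by
  rintro g hg m ⟨hm, hm2⟩
  refine ⟨(PL' a e).mul_mem ((PL' a e).mul_mem hg hm) ((PL' a e).inv_mem hg), fun x hx => ?_⟩
  rw [LinearEquiv.mul_apply, LinearEquiv.mul_apply, hm2 (g⁻¹ x), ap_inv]
  rw [((PL' a e).inv_mem hg).2, hx]

/-- groups of automorphisms with `(g - 1) (g' - 1) = 0` -/
theorem locOdd_of_square_zero {p : ℕ} (hp : p.Prime) (hp2 : p ≠ 2) (hM : ∀ x : M, p • x = 0)
    (H : Subgroup (M ≃ₗ[R] M)) (h : ∀ g ∈ H, ∀ g' ∈ H, ∀ x, g (g' x - x) = g' x - x) : LocOdd H := by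
  have hcomm : ∀ g g' : H, g * g' = g' * g := by
    intro g g'
    apply Subtype.ext
    ext x
    show g.1 (g'.1 x) = g'.1 (g.1 x)
    have h1 := h g.1 g.2 g'.1 g'.2 x
    have h2 := h g'.1 g'.2 g.1 g.2 x
    rw [map_sub, sub_eq_iff_eq_add] at h1 h2
    rw [h1, h2]
    abel
  have hpow : ∀ (g : H) (k : ℕ) (x : M), (g ^ k).1 x = x + k • (g.1 x - x) := by
    intro g k
    induction k with
    | zero => intro x; simp
    | succ k ih =>
      intro x
      have e1 : (g ^ (k + 1)).1 x = (g ^ k).1 (g.1 x) := by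
        rw [pow_succ]; rfl
      rw [e1, ih]
      have h1 := h g.1 g.2 g.1 g.2 x
      rw [map_sub] at h1
      rw [h1, succ_nsmul]
      abel
  let _ : CommGroup H := { (inferInstance : Group H) with mul_comm := hcomm }
  refine locOdd_of_comm hp hp2 fun g => ?_
  apply Subtype.ext
  ext x
  have := hpow g p x
  rw [hM, add_zero] at this
  exact this

theorem mean_ML {p : ℕ} (hp : p.Prime) (hp2 : p ≠ 2) (hM : ∀ x : M, p • x = 0) :
    HasMean (ML a e) := by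
  refine hasMean_of_locOdd (locOdd_of_square_zero hp hp2 hM _ fun g hg g' hg' x => ?_)
  apply hg.1.2
  rw [map_sub, Prod.snd_sub, hg'.2, sub_self]

theorem mean_ML' {p : ℕ} (hp : p.Prime) (hp2 : p ≠ 2) (hM : ∀ x : M, p • x = 0) :
    HasMean (ML' a e) := by
  refine hasMean_of_locOdd (locOdd_of_square_zero hp hp2 hM _ fun g hg g' hg' x => ?_)
  apply hg.2
  rw [map_sub, Prod.fst_sub, hg'.1.2, sub_self]

/-- the embedding `γ ↦ 1 × γ` -/
def iotaL : (D ≃ₗ[R] D) →* (M ≃ₗ[R] M) where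
  toFun γ := e.trans ((LinearEquiv.prodCongr (LinearEquiv.refl R B) γ).trans e.symm)
  map_one' := by
    ext x
    show e.symm ((e x).1, (e x).2) = x
    exact e.symm_apply_apply x
  map_mul' γ γ' := by
    ext x
    show e.symm ((e x).1, γ (γ' (e x).2)) =
      e.symm ((e (e.symm ((e x).1, γ' (e x).2))).1, γ (e (e.symm ((e x).1, γ' (e x).2))).2)
    rw [e.apply_symm_apply]

theorem iotaL_apply (γ : D ≃ₗ[R] D) (x : M) : e (iotaL e γ x) = ((e x).1, γ (e x).2) := by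
  show e (e.symm ((e x).1, γ (e x).2)) = _
  exact e.apply_symm_apply _

theorem iotaL_inj : Function.Injective (iotaL (R := R) e) := by
  intro γ γ' h
  ext d
  have h1 := iotaL_apply e γ (e.symm (0, d))
  have h2 := iotaL_apply e γ' (e.symm (0, d))
  rw [h, h2] at h1
  simpa using (Prod.ext_iff.1 h1).2.symm

/-- the subgroup `1 × NL a D` -/
def QL : Subgroup (M ≃ₗ[R] M) := (NL a D).map (iotaL e)

theorem QL_le : QL a e ≤ PL a e := by
  rintro _ ⟨γ, hγ, rfl⟩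
  refine ⟨fun x => ?_, fun x hx => ?_⟩
  · obtain ⟨y, hy⟩ := hγ (e x).2
    refine ⟨e.symm (0, y), ?_⟩
    apply e.injective
    rw [map_sub, iotaL_apply, map_smul, e.apply_symm_apply]
    ext
    · simp
    · simpa using hy
  · apply e.injective
    rw [iotaL_apply, hx, map_zero, ← hx]

theorem QL_le' : QL a e ≤ PL' a e := by
  intro g hg
  refine ⟨(QL_le a e hg).1, ?_⟩
  obtain ⟨γ, hγ, rfl⟩ := hg
  intro x
  rw [iotaL_apply]

/-- the automorphism of `D` induced by an element of `PL` -/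
def piL (g : PL a e) : D ≃ₗ[R] D where
  toFun d := (e (g.1 (e.symm (0, d)))).2
  map_add' d d' := by
    have : ((0, d + d') : B × D) = (0, d) + (0, d') := by simp
    rw [this, map_add, map_add, map_add, Prod.snd_add]
  map_smul' c d := by
    have : ((0, c • d) : B × D) = c • (0, d) := by simp
    rw [this, map_smul, map_smul, map_smul]
    rfl
  invFun d := (e ((g⁻¹).1 (e.symm (0, d)))).2
  left_inv := fun d => by
    have h1 : g.1⁻¹ (e.symm (0, (e (g.1 (e.symm (0, d)))).2)) =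
        g.1⁻¹ (g.1 (e.symm (0, d))) + (e.symm (0, (e (g.1 (e.symm (0, d)))).2) -
          g.1 (e.symm (0, d))) := by
      have h2 : g.1⁻¹ (e.symm (0, (e (g.1 (e.symm (0, d)))).2) - g.1 (e.symm (0, d))) =
          e.symm (0, (e (g.1 (e.symm (0, d)))).2) - g.1 (e.symm (0, d)) := by
        apply (g⁻¹).2.2
        rw [map_sub, e.apply_symm_apply, Prod.snd_sub, sub_self]
      rw [← h2, map_sub]
      abel
    show (e (g.1⁻¹ _)).2 = d
    rw [h1, inv_ap, map_add, map_sub, e.apply_symm_apply, e.apply_symm_apply, Prod.snd_add,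
      Prod.snd_sub, sub_self, add_zero]
  right_inv := fun d => by
    have h1 : g.1 (e.symm (0, (e (g.1⁻¹ (e.symm (0, d)))).2)) =
        g.1 (g.1⁻¹ (e.symm (0, d))) + (e.symm (0, (e (g.1⁻¹ (e.symm (0, d)))).2) -
          g.1⁻¹ (e.symm (0, d))) := by
      have h2 : g.1 (e.symm (0, (e (g.1⁻¹ (e.symm (0, d)))).2) - g.1⁻¹ (e.symm (0, d))) =
          e.symm (0, (e (g.1⁻¹ (e.symm (0, d)))).2) - g.1⁻¹ (e.symm (0, d)) := by
        apply g.2.2
        rw [map_sub, e.apply_symm_apply, Prod.snd_sub, sub_self]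
      rw [← h2, map_sub]
      abel
    show (e (g.1 (e.symm (0, (e (g.1⁻¹ _)).2)))).2 = d
    rw [h1, ap_inv, map_add, map_sub, e.apply_symm_apply, e.apply_symm_apply, Prod.snd_add,
      Prod.snd_sub, sub_self, add_zero]

theorem piL_apply (g : PL a e) (x : M) : (e (g.1 x)).2 = piL a e g (e x).2 := by
  show _ = (e (g.1 (e.symm (0, (e x).2)))).2
  have h2 : g.1 (x - e.symm (0, (e x).2)) = x - e.symm (0, (e x).2) := by
    apply g.2.2
    rw [map_sub, e.apply_symm_apply, Prod.snd_sub, sub_self]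
  have h1 : g.1 x = g.1 (e.symm (0, (e x).2)) + (x - e.symm (0, (e x).2)) := by
    rw [← h2, map_sub]; abel
  rw [h1, map_add, Prod.snd_add, map_sub, Prod.snd_sub, e.apply_symm_apply, sub_self, add_zero]

theorem piL_mem (g : PL a e) : piL a e g ∈ NL a D := by
  intro d
  obtain ⟨y, hy⟩ := g.2.1 (e.symm (0, d))
  refine ⟨(e y).2, ?_⟩
  have h := piL_apply a e g (e.symm (0, d))
  rw [e.apply_symm_apply] at h
  rw [← h]
  have h2 := congrArg (fun z => (e z).2) hy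
  simp only [map_sub, Prod.snd_sub, e.apply_symm_apply, map_smul, Prod.smul_snd] at h2
  exact h2

theorem ML_QL : ∀ g ∈ PL a e, ∃ m ∈ ML a e, ∃ q ∈ QL a e, g = m * q := by
  intro g hg
  set γ := piL a e ⟨g, hg⟩ with hγ
  have hq : iotaL e γ ∈ QL a e := ⟨γ, piL_mem a e ⟨g, hg⟩, rfl⟩
  refine ⟨g * (iotaL e γ)⁻¹, ⟨(PL a e).mul_mem hg ((PL a e).inv_mem (QL_le a e hq)), fun x => ?_⟩,
    iotaL e γ, hq, by group⟩
  rw [LinearEquiv.mul_apply]
  have h1 := piL_apply a e ⟨g, hg⟩ ((iotaL e γ)⁻¹ x)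
  have h2 := iotaL_apply e γ ((iotaL e γ)⁻¹ x)
  rw [ap_inv] at h2
  rw [h2]
  exact h1

/-- (5a) for the congruence subgroups. -/
theorem vanG_PL {p : ℕ} (hp : p.Prime) (hp2 : p ≠ 2) (hM : ∀ x : M, p • x = 0) {s : ℕ}
    (h : VanG (NL a D) (D ≃ₗ[R] D) s) : VanG (PL a e) (M ≃ₗ[R] M) s := by
  refine vanG_of_sub' (PL a e) (ML a e) (QL a e) (ML_le a e) (QL_le a e) (ML_normal a e)
    (mean_ML a e hp hp2 hM) (ML_QL a e) ?_
  exact VanG.of_equiv ((NL a D).equivMapOfInjective (iotaL e) (iotaL_inj e)).symm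
    (freeAct_self _) (freeAct_self _) h

/-- block unipotent elements -/
def WU : Set (M ≃ₗ[R] M) :=
  {w | (∀ x, (e (w x)).2 = (e x).2) ∧ ∀ x, (e x).2 = 0 → w x = x} ∪
  {w | (∀ x, (e (w x)).1 = (e x).1) ∧ ∀ x, (e x).1 = 0 → w x = x}

theorem comm_mem_NL (w q : M ≃ₗ[R] M) (hq : q ∈ NL a M) : w * q * w⁻¹ * q⁻¹ ∈ NL a M :=
  (NL a M).mul_mem ((NL_normal a).conj_mem q hq w) ((NL a M).inv_mem hq)

/-- THE VERTEX STATEMENT -/
theorem triv_PL {p : ℕ} (hp : p.Prime) (hp2 : p ≠ 2) (hM : ∀ x : M, p • x = 0)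
    {u : M ≃ₗ[R] M} (hu : u ∈ Subgroup.closure (WU e)) {s : ℕ} {f : List (M ≃ₗ[R] M) → ZMod 2}
    (hf : InvL (NL a M) f) (hc : ∀ l : List (M ≃ₗ[R] M), l.length = s + 1 → LD f l = 0) :
    TrivL (PL a e) s (fun l => f l + f (trl u l)) := by
  have hQ : TrivL (QL a e) s (fun l => f l + f (trl u l)) := by
    refine twist_closure (NL a M) (QL a e) (NL_normal a) (WU e) ?_ hu hf hc
    rintro w (⟨hw1, hw2⟩ | ⟨hw1, hw2⟩)
    · refine ⟨PL a e, ML a e, PL_le a e, QL_le a e, ML_le a e, ML_normal a e,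
        mean_ML a e hp hp2 hM, fun q hq => ⟨⟨comm_mem_NL a w q (QL_le a e hq).1, fun x hx => ?_⟩,
          fun x => ?_⟩⟩
      · have hw3 : ∀ x, (e x).2 = 0 → w⁻¹ x = x := fun x hx => by
          conv_lhs => rw [← hw2 x hx]
          exact inv_ap _ _
        rw [LinearEquiv.mul_apply, LinearEquiv.mul_apply, LinearEquiv.mul_apply,
          ((PL a e).inv_mem (QL_le a e hq)).2 x hx, hw3 x hx, (QL_le a e hq).2 x hx, hw2 x hx]
      · have hw3 : ∀ x, (e (w⁻¹ x)).2 = (e x).2 := fun x => by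
          rw [← hw1 (w⁻¹ x), ap_inv]
        rw [LinearEquiv.mul_apply, LinearEquiv.mul_apply, LinearEquiv.mul_apply, hw1]
        have h1 := piL_apply a e ⟨q, QL_le a e hq⟩ (w⁻¹ (q⁻¹ x))
        have h2 := piL_apply a e ⟨q, QL_le a e hq⟩ (q⁻¹ x)
        rw [hw3] at h1
        have h3 : q (q⁻¹ x) = x := ap_inv _ _
        rw [h3] at h2
        rw [h2]
        exact h1
    · refine ⟨PL' a e, ML' a e, PL'_le a e, QL_le' a e, ML'_le a e, ML'_normal a e,
        mean_ML' a e hp hp2 hM, fun q hq => ⟨⟨comm_mem_NL a w q (QL_le a e hq).1, fun x => ?_⟩,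
          fun x hx => ?_⟩⟩
      · have hw3 : ∀ x, (e (w⁻¹ x)).1 = (e x).1 := fun x => by
          rw [← hw1 (w⁻¹ x), ap_inv]
        rw [LinearEquiv.mul_apply, LinearEquiv.mul_apply, LinearEquiv.mul_apply, hw1,
          (QL_le' a e hq).2, hw3, ((PL' a e).inv_mem (QL_le' a e hq)).2]
      · have hw3 : ∀ x, (e x).1 = 0 → w⁻¹ x = x := fun x hx => by
          conv_lhs => rw [← hw2 x hx]
          exact inv_ap _ _
        have h1 : (e (q⁻¹ x)).1 = 0 := by
          rw [((PL' a e).inv_mem (QL_le' a e hq)).2, hx]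
        rw [LinearEquiv.mul_apply, LinearEquiv.mul_apply, LinearEquiv.mul_apply, hw3 _ h1, ap_inv,
          hw2 x hx]
  have hN := NL_normal (M := M) a
  refine triv_of_sub' (PL a e) (ML a e) (QL a e) (ML_le a e) (QL_le a e) (ML_normal a e)
    (mean_ML a e hp hp2 hM) (ML_QL a e) ?_ ?_ hQ
  · have h1 : InvL (NL a M) (fun l => f l + f (trl u l)) := hf.add (hf.trl_normal hN u)
    exact h1.of_act fun g => ⟨⟨g.1, PL_le a e g.2⟩, fun _ => rfl⟩
  · intro l hl
    have h1 : LD (fun l => f l + f (trl u l)) l = LD f l + LD (fun l => f (trl u l)) l :=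
      LD_add f (fun l => f (trl u l)) l
    rw [h1, hc l hl, cocycle_trl hc u l hl, add_zero]

end lin

end Crest.Agent.R66
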