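import Mathlib

/-!
# Row 66 (S0088), part (C): chain algebra of finite sets over `ZMod 2` (helper58)

Chains are `Ch α = Finset α →₀ ZMod 2` (augmented: the empty set is a basis element).
`bd s = ∑ x ∈ s, s.erase x`, `J a s = insert a s` (`0` if `a ∈ s`), `bd (J a z) + J a (bd z) = z`.
`push φ` is the map induced by `φ : α → β` (`0` on sets on which `φ` is not injective).
-/

set_option autoImplicit false
set_option linter.unusedSectionVars false

namespace Crest.Agent.R66

open Finset

/-- chains over `ZMod 2`. -/
abbrev Ch (α : Type*) := Finset α →₀ ZMod 2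

section
variable {α : Type*} [DecidableEq α]

/-- boundary (augmented). -/
noncomputable def bd : Ch α →ₗ[ZMod 2] Ch α :=
  Finsupp.linearCombination (ZMod 2) fun s : Finset α => ∑ x ∈ s, Finsupp.single (s.erase x) 1

/-- creation operator. -/
noncomputable def J (a : α) : Ch α →ₗ[ZMod 2] Ch α :=
  Finsupp.linearCombination (ZMod 2) fun s : Finset α =>
    if a ∈ s then 0 else Finsupp.single (insert a s) 1

theorem bd_single (s : Finset α) :
    bd (Finsupp.single s (1 : ZMod 2)) = ∑ x ∈ s, Finsupp.single (s.erase x) 1 := by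
  simp [bd]

theorem J_single (a : α) (s : Finset α) :
    J a (Finsupp.single s (1 : ZMod 2)) = if a ∈ s then 0 else Finsupp.single (insert a s) 1 := by
  simp [J]

theorem J_single_mem {a : α} {s : Finset α} (h : a ∈ s) :
    J a (Finsupp.single s (1 : ZMod 2)) = 0 := by rw [J_single, if_pos h]

theorem J_single_notMem {a : α} {s : Finset α} (h : a ∉ s) :
    J a (Finsupp.single s (1 : ZMod 2)) = Finsupp.single (insert a s) 1 := by
  rw [J_single, if_neg h]

theorem ch_add_self (z : Ch α) : z + z = 0 := by
  ext s; simp [CharTwo.add_self_eq_zero]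

theorem ch_lin_ext {M : Type*} [AddCommGroup M] [Module (ZMod 2) M] {f g : Ch α →ₗ[ZMod 2] M}
    (h : ∀ s : Finset α, f (Finsupp.single s 1) = g (Finsupp.single s 1)) : f = g := by
  apply Finsupp.lhom_ext'
  intro s
  apply LinearMap.ext_ring
  simpa using h s

theorem bd_J_single (a : α) (s : Finset α) :
    bd (J a (Finsupp.single s (1 : ZMod 2))) + J a (bd (Finsupp.single s 1)) =
      Finsupp.single s 1 := by
  by_cases h : a ∈ s
  · rw [J_single_mem h, map_zero, zero_add, bd_single, map_sum,
      ← Finset.add_sum_erase s _ h, J_single_notMem (by simp), Finset.insert_erase h,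
      Finset.sum_eq_zero, add_zero]
    intro x hx
    rw [J_single_mem]
    exact Finset.mem_erase.2 ⟨(Finset.mem_erase.1 hx).1.symm, h⟩
  · rw [J_single_notMem h, bd_single, bd_single, map_sum, Finset.sum_insert h,
      Finset.erase_insert h, add_assoc]
    have : ∑ x ∈ s, Finsupp.single ((insert a s).erase x) (1 : ZMod 2) =
        ∑ x ∈ s, J a (Finsupp.single (s.erase x) 1) := by
      apply Finset.sum_congr rfl
      intro x hx
      have hxa : x ≠ a := fun e => h (e ▸ hx)
      rw [J_single_notMem (fun h' => h (Finset.mem_of_mem_erase h')),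
        Finset.erase_insert_of_ne (fun e => hxa e.symm)]
    rw [this, ch_add_self, add_zero]

theorem bd_J (a : α) (z : Ch α) : bd (J a z) + J a (bd z) = z := by
  have := ch_lin_ext (f := bd ∘ₗ J a + J a ∘ₗ bd) (g := (LinearMap.id : Ch α →ₗ[ZMod 2] Ch α))
    (fun s => by simpa using bd_J_single a s)
  exact LinearMap.congr_fun this z

theorem bd_J' (a : α) (z : Ch α) : bd (J a z) = z + J a (bd z) := by
  have h := bd_J a z
  calc bd (J a z) = bd (J a z) + (J a (bd z) + J a (bd z)) := by rw [ch_add_self, add_zero]
    _ = _ := by rw [← add_assoc, h]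

theorem J_J (a : α) (z : Ch α) : J a (J a z) = 0 := by
  have := ch_lin_ext (f := J a ∘ₗ J a) (g := (0 : Ch α →ₗ[ZMod 2] Ch α)) (fun s => by
    by_cases h : a ∈ s
    · simp [J_single_mem h]
    · simp only [LinearMap.comp_apply]
      rw [J_single_notMem h, J_single_mem (Finset.mem_insert_self a s)]; simp)
  exact LinearMap.congr_fun this z

theorem J_comm (a b : α) (z : Ch α) : J a (J b z) = J b (J a z) := by
  have := ch_lin_ext (f := J a ∘ₗ J b) (g := J b ∘ₗ J a) (fun s => by
    simp only [LinearMap.comp_apply]
    by_cases hab : a = b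
    · subst hab; rfl
    by_cases ha : a ∈ s <;> by_cases hb : b ∈ s
    · rw [J_single_mem ha, J_single_mem hb]; simp
    · rw [J_single_mem ha, J_single_notMem hb, J_single_mem (Finset.mem_insert_of_mem ha)]; simp
    · rw [J_single_mem hb, J_single_notMem ha, J_single_mem (Finset.mem_insert_of_mem hb)]; simp
    · rw [J_single_notMem ha, J_single_notMem hb, J_single_notMem (by simp [ha, hab]),
        J_single_notMem (by simp [hb, Ne.symm hab]), Finset.insert_comm])
  exact LinearMap.congr_fun this z

theorem bd_bd_single : ∀ s : Finset α, bd (bd (Finsupp.single s (1 : ZMod 2))) = 0 := by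
  intro s
  induction s using Finset.induction_on with
  | empty => simp [bd_single]
  | insert a s ha ih =>
    have h1 : Finsupp.single (insert a s) (1 : ZMod 2) = J a (Finsupp.single s 1) :=
      (J_single_notMem ha).symm
    rw [h1, bd_J', map_add, bd_J', ih, map_zero, add_zero, ch_add_self]

theorem bd_bd (z : Ch α) : bd (bd z) = 0 := by
  have := ch_lin_ext (f := bd ∘ₗ bd) (g := (0 : Ch α →ₗ[ZMod 2] Ch α))
    (fun s => by simpa using bd_bd_single s)
  exact LinearMap.congr_fun this z

/-- the chain `z` consists of sets of size `n` which are faces of `K`. -/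
def On (K : Set (Finset α)) (n : ℕ) (z : Ch α) : Prop := ∀ s ∈ z.support, s ∈ K ∧ s.card = n

/-- `K` is exact (has no homology) at size `n`. -/
def ExactAt (K : Set (Finset α)) (n : ℕ) : Prop :=
  ∀ z : Ch α, On K n z → bd z = 0 → ∃ b : Ch α, On K (n + 1) b ∧ bd b = z

theorem On.add {K : Set (Finset α)} {n : ℕ} {z w : Ch α} (hz : On K n z) (hw : On K n w) :
    On K n (z + w) := by
  intro s hs
  rcases Finset.mem_union.1 (Finsupp.support_add hs) with h | h
  exacts [hz s h, hw s h]

theorem On.zero {K : Set (Finset α)} {n : ℕ} : On K n (0 : Ch α) := by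
  intro s hs; simp at hs

theorem On.sum {ι : Type*} {K : Set (Finset α)} {n : ℕ} {t : Finset ι} {f : ι → Ch α}
    (h : ∀ i ∈ t, On K n (f i)) : On K n (∑ i ∈ t, f i) := by
  classical
  induction t using Finset.induction_on with
  | empty => simpa using On.zero
  | insert a t ha ih =>
    rw [Finset.sum_insert ha]
    exact (h a (Finset.mem_insert_self a t)).add
      (ih fun i hi => h i (Finset.mem_insert_of_mem hi))

theorem On.single {K : Set (Finset α)} {n : ℕ} {s : Finset α} (h1 : s ∈ K) (h2 : s.card = n)
    (c : ZMod 2) : On K n (Finsupp.single s c) := by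
  intro t ht
  have := Finset.mem_singleton.1 (Finsupp.support_single_subset ht)
  subst this; exact ⟨h1, h2⟩

theorem On.mono {K K' : Set (Finset α)} {n : ℕ} {z : Ch α} (h : K ⊆ K') (hz : On K n z) :
    On K' n z := fun s hs => ⟨h (hz s hs).1, (hz s hs).2⟩

/-- a linear map given on basis elements preserves `On`. -/
theorem On.map {β : Type*} [DecidableEq β] {K : Set (Finset α)} {n : ℕ} {L : Set (Finset β)}
    {k : ℕ} (F : Ch α →ₗ[ZMod 2] Ch β) {z : Ch α} (hz : On K n z)
    (h : ∀ s, s ∈ K → s.card = n → On L k (F (Finsupp.single s 1))) : On L k (F z) := by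
  have hz' : z = ∑ s ∈ z.support, z s • Finsupp.single s (1 : ZMod 2) := by
    conv_lhs => rw [← Finsupp.sum_single z]
    rw [Finsupp.sum]
    apply Finset.sum_congr rfl
    intro s _
    simp
  rw [hz', map_sum]
  apply On.sum
  intro s hs
  rw [map_smul]
  intro t ht
  have ht' : t ∈ (F (Finsupp.single s 1)).support := by
    rw [Finsupp.mem_support_iff] at ht ⊢
    intro h0; apply ht; simp [h0]
  exact h s (hz s hs).1 (hz s hs).2 t ht'

theorem On.bd {K : Set (Finset α)} (hK : ∀ s ∈ K, ∀ x ∈ s, s.erase x ∈ K) {n : ℕ} {z : Ch α}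
    (hz : On K (n + 1) z) : On K n (bd z) := by
  apply hz.map
  intro s hs hc
  rw [bd_single]
  apply On.sum
  intro x hx
  exact On.single (hK s hs x hx) (by rw [Finset.card_erase_of_mem hx, hc]; rfl) 1

theorem On.J {K L : Set (Finset α)} {a : α} (hK : ∀ s ∈ K, a ∉ s → insert a s ∈ L) {n : ℕ}
    {z : Ch α} (hz : On K n z) : On L (n + 1) (J a z) := by
  apply hz.map
  intro s hs hc
  rw [J_single]
  split_ifs with h
  · exact On.zero
  · exact On.single (hK s hs h) (by rw [Finset.card_insert_of_notMem h, hc]) 1

/-- a cone is exact at all sizes. -/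
theorem exactAt_of_cone {K : Set (Finset α)} (a : α) (h : ∀ s ∈ K, a ∉ s → insert a s ∈ K)
    (n : ℕ) : ExactAt K n := by
  intro z hz h0
  refine ⟨J a z, hz.J h, ?_⟩
  rw [bd_J', h0, map_zero, add_zero]

end

section
variable {α β : Type*} [DecidableEq α] [DecidableEq β]

open scoped Classical in
/-- the map on chains induced by a map of vertices. -/
noncomputable def push (φ : α → β) : Ch α →ₗ[ZMod 2] Ch β :=
  Finsupp.linearCombination (ZMod 2) fun s : Finset α =>
    if Set.InjOn φ (s : Set α) then Finsupp.single (s.image φ) 1 else 0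

open scoped Classical in
theorem push_single (φ : α → β) (s : Finset α) :
    push φ (Finsupp.single s (1 : ZMod 2)) =
      if Set.InjOn φ (s : Set α) then Finsupp.single (s.image φ) 1 else 0 := by
  simp [push]

theorem push_J_single (φ : α → β) (a : α) (s : Finset α) (ha : a ∉ s) :
    push φ (J a (Finsupp.single s (1 : ZMod 2))) = J (φ a) (push φ (Finsupp.single s 1)) := by
  classical
  rw [J_single_notMem ha, push_single, push_single]
  by_cases hs : Set.InjOn φ (s : Set α)
  · rw [if_pos hs]
    by_cases hm : φ a ∈ s.image φ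
    · rw [J_single_mem hm, if_neg]
      intro hi
      obtain ⟨b, hb, hba⟩ := Finset.mem_image.1 hm
      have := hi (by simp : a ∈ ((insert a s : Finset α) : Set α))
        (by simp [hb] : b ∈ ((insert a s : Finset α) : Set α)) hba.symm
      exact ha (this ▸ hb)
    · rw [J_single_notMem hm, if_pos, Finset.image_insert]
      rw [Finset.coe_insert, Set.injOn_insert (by simpa using ha)]
      refine ⟨hs, ?_⟩
      rintro ⟨b, hb, hba⟩
      exact hm (Finset.mem_image.2 ⟨b, by simpa using hb, hba⟩)
  · rw [if_neg hs, map_zero, if_neg]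
    intro hi
    exact hs (hi.mono (by simp))

theorem push_J (φ : α → β) (a : α) (z : Ch α) (h : ∀ s ∈ z.support, a ∉ s) :
    push φ (J a z) = J (φ a) (push φ z) := by
  have hz' : z = ∑ s ∈ z.support, z s • Finsupp.single s (1 : ZMod 2) := by
    conv_lhs => rw [← Finsupp.sum_single z]
    rw [Finsupp.sum]
    apply Finset.sum_congr rfl
    intro s _
    simp
  rw [hz']
  simp only [map_sum, map_smul]
  apply Finset.sum_congr rfl
  intro s hs
  rw [push_J_single φ a s (h s hs)]

theorem bd_push_single (φ : α → β) (s : Finset α) :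
    bd (push φ (Finsupp.single s (1 : ZMod 2))) = push φ (bd (Finsupp.single s 1)) := by
  induction s using Finset.induction_on with
  | empty => simp [push_single, bd_single]
  | insert a s ha ih =>
    have h1 : Finsupp.single (insert a s) (1 : ZMod 2) = J a (Finsupp.single s 1) :=
      (J_single_notMem ha).symm
    have h2 : ∀ t ∈ (bd (Finsupp.single s (1 : ZMod 2))).support, a ∉ t := by
      intro t ht hat
      rw [bd_single] at ht
      have := Finsupp.support_finsetSum ht
      obtain ⟨x, hx, hxt⟩ := Finset.mem_biUnion.1 this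
      have := Finset.mem_singleton.1 (Finsupp.support_single_subset hxt)
      subst this
      exact ha (Finset.mem_of_mem_erase hat)
    rw [h1, push_J_single φ a s ha, bd_J', bd_J', map_add, push_J φ a _ h2, ih]

theorem bd_push (φ : α → β) (z : Ch α) : bd (push φ z) = push φ (bd z) := by
  have := ch_lin_ext (f := bd ∘ₗ push φ) (g := push φ ∘ₗ bd)
    (fun s => by simpa using bd_push_single φ s)
  exact LinearMap.congr_fun this z

end

end Crest.Agent.R66
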