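import Crest.Agent.R66.DGFacts
import Crest.Agent.R66.CG1
import Crest.Agent.R66.Chain

/-!
# Row 66, part (C), glue: the (infinite) coset complex `XU` of the group `U`  (helper24)

`VU F m` = vertices `(i, g K_{I-i})`, `XU` = faces; `U` acts by left multiplication.
RESULTS
* `XU_down`, `XU_smul`: down closed, invariant;
* `coExInv_XU`: the `U`-invariant cochains of `XU` are exact (they are the cochains of a simplex);
* `odd_stab_XU`: stabilisers of nonempty faces are finite groups of odd order;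
* `van_of_coExInv`: exactness of the `N`-invariant cochains of `XU` gives `Van (chams (Aq F m n)) d`.
-/

set_option autoImplicit false
set_option linter.unusedSectionVars false

open Polynomial Matrix Finset
open scoped Pointwise

namespace Crest.Agent.R66

section
variable (F : Type) [Field F] (m : ℕ) [NeZero m]

/-- vertices of the coset complex of `U` -/
def VU : Type := Σ i : Fin m, UU F m ⧸ KUs F m (Finset.univ.erase i)

noncomputable instance : MulAction (UU F m) (VU F m) where
  smul g v := ⟨v.1, (g • v.2 : UU F m ⧸ KUs F m (Finset.univ.erase v.1))⟩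
  one_smul v := by
    show (⟨v.1, ((1 : UU F m) • v.2 : UU F m ⧸ KUs F m (Finset.univ.erase v.1))⟩ : VU F m) = v
    rw [one_smul]
    rfl
  mul_smul g h v := by
    show (⟨v.1, ((g * h) • v.2 : UU F m ⧸ KUs F m (Finset.univ.erase v.1))⟩ : VU F m) =
      ⟨v.1, (g • h • v.2 : UU F m ⧸ KUs F m (Finset.univ.erase v.1))⟩
    rw [mul_smul]

noncomputable instance : DecidableEq (VU F m) := Classical.decEq _

variable {F m}

/-- the vertex of type `i` of the chamber `g` -/
noncomputable def vxU (i : Fin m) (g : UU F m) : VU F m := ⟨i, (g : UU F m ⧸ KUs F m (Finset.univ.erase i))⟩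

/-- the type of a vertex -/
def tpU (v : VU F m) : Fin m := v.1

@[simp] theorem tpU_vxU (i : Fin m) (g : UU F m) : tpU (vxU i g) = i := rfl

theorem smul_vxU (i : Fin m) (g h : UU F m) : g • vxU i h = vxU i (g * h) := rfl

@[simp] theorem tpU_smul (g : UU F m) (v : VU F m) : tpU (g • v) = tpU v := rfl

theorem exists_vxU (v : VU F m) : ∃ g, v = vxU (tpU v) g := by
  obtain ⟨i, x⟩ := v
  obtain ⟨g, rfl⟩ := QuotientGroup.mk_surjective x
  exact ⟨g, rfl⟩

theorem vxU_eq_iff {i : Fin m} {g h : UU F m} :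
    vxU i g = vxU i h ↔ g⁻¹ * h ∈ KUs F m (Finset.univ.erase i) := by
  unfold vxU
  constructor
  · intro e
    have : (g : UU F m ⧸ KUs F m (Finset.univ.erase i)) =
        (h : UU F m ⧸ KUs F m (Finset.univ.erase i)) := eq_of_heq (Sigma.mk.inj e).2
    exact QuotientGroup.eq.1 this
  · intro e
    rw [QuotientGroup.eq.2 e]

variable (F m) in
/-- faces of the coset complex of `U` -/
def XU : Set (Finset (VU F m)) := {σ | ∃ u : UU F m, ∀ v ∈ σ, v = vxU (tpU v) u}

/-- the face of type `S` of the chamber `u` -/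
noncomputable def fc (u : UU F m) (S : Finset (Fin m)) : Finset (VU F m) := S.image fun i => vxU i u

theorem XU_down : DownCl (XU F m) := by
  rintro σ ⟨u, hu⟩ τ hτ
  exact ⟨u, fun v hv => hu v (hτ hv)⟩

theorem XU_empty : (∅ : Finset (VU F m)) ∈ XU F m := ⟨1, by simp⟩

theorem XU_smul (g : UU F m) (σ : Finset (VU F m)) (h : σ ∈ XU F m) : g • σ ∈ XU F m := by
  obtain ⟨u, hu⟩ := h
  refine ⟨g * u, fun v hv => ?_⟩
  obtain ⟨w, hw, rfl⟩ := Finset.mem_smul_finset.1 hv
  rw [tpU_smul, ← smul_vxU, ← hu w hw]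

theorem fc_mem (u : UU F m) (S : Finset (Fin m)) : fc u S ∈ XU F m := by
  refine ⟨u, fun v hv => ?_⟩
  obtain ⟨i, _, rfl⟩ := Finset.mem_image.1 hv
  rfl

theorem eq_fc {σ : Finset (VU F m)} {u : UU F m} (hu : ∀ v ∈ σ, v = vxU (tpU v) u) :
    σ = fc u (σ.image tpU) := by
  ext v
  simp only [fc, Finset.mem_image]
  constructor
  · intro hv
    exact ⟨tpU v, ⟨v, hv, rfl⟩, (hu v hv).symm⟩
  · rintro ⟨_, ⟨w, hw, rfl⟩, rfl⟩
    rwa [← hu w hw]

theorem exists_fc {σ : Finset (VU F m)} (h : σ ∈ XU F m) : ∃ u, σ = fc u (σ.image tpU) := by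
  obtain ⟨u, hu⟩ := h
  exact ⟨u, eq_fc hu⟩

theorem vxU_inj (u : UU F m) : Function.Injective fun i => vxU i u :=
  fun _ _ h => congrArg tpU h

theorem card_fc (u : UU F m) (S : Finset (Fin m)) : (fc u S).card = S.card := by
  unfold fc
  rw [Finset.card_image_of_injective _ (vxU_inj u)]

@[simp] theorem tps_fc (u : UU F m) (S : Finset (Fin m)) : (fc u S).image tpU = S := by
  unfold fc
  rw [Finset.image_image]
  ext i; simp

theorem fc_erase (u : UU F m) (S : Finset (Fin m)) (i : Fin m) :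
    (fc u S).erase (vxU i u) = fc u (S.erase i) := by
  unfold fc
  rw [Finset.image_erase (vxU_inj u)]

theorem smul_fc (g u : UU F m) (S : Finset (Fin m)) : g • fc u S = fc (g * u) S := by
  unfold fc
  rw [Finset.smul_finset_def, Finset.image_image]
  rfl

theorem sum_fc {M : Type*} [AddCommMonoid M] (f : VU F m → M) (u : UU F m) (S : Finset (Fin m)) :
    ∑ v ∈ fc u S, f v = ∑ i ∈ S, f (vxU i u) := by
  unfold fc
  rw [Finset.sum_image]
  exact fun _ _ _ _ h => vxU_inj u h

theorem image_tpU_smul (g : UU F m) (σ : Finset (VU F m)) : (g • σ).image tpU = σ.image tpU := by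
  rw [Finset.smul_finset_def, Finset.image_image]
  rfl

/-- `U`-invariant cochains: the full simplex on the types -/
theorem coExInv_XU (s : ℕ) : CoExInv (UU F m) (XU F m) s := by
  intro φ hφ hc
  set i0 : Fin m := ⟨0, Nat.pos_of_ne_zero (NeZero.ne m)⟩ with hi0
  set φ' : Finset (Fin m) → ZMod 2 := fun S => φ (fc 1 S) with hφ'
  have hφfc : ∀ u S, φ (fc u S) = φ' S := by
    intro u S
    have := hφ u (fc 1 S)
    rwa [smul_fc, mul_one] at this
  set ψ' : Finset (Fin m) → ZMod 2 := fun R => if i0 ∈ R then 0 else φ' (insert i0 R) with hψ'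
  refine ⟨fun σ => ψ' (σ.image tpU), fun g σ => ?_, fun σ hσ hs => ?_⟩
  · simp only [image_tpU_smul]
  · obtain ⟨u, hu⟩ := exists_fc hσ
    set S := σ.image tpU with hS
    have hcard : S.card = s := by rw [← hs, hu, card_fc]
    rw [hu, sum_fc, hφfc]
    simp only [fc_erase, tps_fc]
    by_cases h0 : i0 ∈ S
    · rw [Finset.sum_eq_single_of_mem i0 h0]
      · simp only [hψ', Finset.mem_erase, ne_eq, not_true_eq_false, false_and, if_false]
        rw [Finset.insert_erase h0]
      · intro i _ hi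
        simp only [hψ']
        rw [if_pos (Finset.mem_erase.2 ⟨hi.symm, h0⟩)]
    · have h1 := hc (fc u (insert i0 S)) (fc_mem _ _) (by
        rw [card_fc, Finset.card_insert_of_notMem h0, hcard])
      rw [sum_fc] at h1
      simp only [fc_erase, hφfc] at h1
      rw [Finset.sum_insert h0, Finset.erase_insert h0] at h1
      have h2 : ∑ i ∈ S, ψ' (S.erase i) = ∑ i ∈ S, φ' ((insert i0 S).erase i) := by
        refine Finset.sum_congr rfl fun i hi => ?_
        have hne : i0 ≠ i := fun e => h0 (e ▸ hi)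
        simp only [hψ']
        rw [if_neg (fun h => h0 (Finset.mem_of_mem_erase h)), Finset.erase_insert_of_ne hne]
      rw [h2]
      have key : ∀ a b : ZMod 2, a + b = 0 → b = a := by decide
      exact key _ _ h1

theorem erase_ne_univ_U (i : Fin m) : (Finset.univ.erase i) ≠ Finset.univ := fun h => by
  have h1 := Finset.mem_univ i
  rw [← h] at h1
  exact absurd rfl (Finset.mem_erase.1 h1).1

/-- elements stabilising a nonempty face are determined by their class in `Gq F m 2` -/
theorem inj_stab {σ : Finset (VU F m)} (hσ : σ ∈ XU F m) (hne : σ.Nonempty) {g h : UU F m}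
    (hg : g • σ = σ) (hh : h • σ = σ) (e : (g : Gq F m 2) = (h : Gq F m 2)) : g = h := by
  obtain ⟨u, hu⟩ := hσ
  obtain ⟨v, hv⟩ := hne
  have key : ∀ g : UU F m, g • σ = σ → u⁻¹ * g * u ∈ KUs F m (Finset.univ.erase (tpU v)) := by
    intro g hg
    have h1 : g • v ∈ σ := by rw [← hg]; exact Finset.smul_mem_smul_finset hv
    have h2 := hu _ h1
    rw [tpU_smul] at h2
    conv_lhs at h2 => rw [hu v hv, smul_vxU]
    have h3 := vxU_eq_iff.1 h2.symm
    rwa [← mul_assoc] at h3
  have h1 : (u⁻¹ * g * u : UU F m) = u⁻¹ * h * u := by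
    refine KU_inj (n := 2) le_rfl (erase_ne_univ_U _) (erase_ne_univ_U _) (key g hg) (key h hh) ?_
    rw [QuotientGroup.mk_mul, QuotientGroup.mk_mul, e, ← QuotientGroup.mk_mul,
      ← QuotientGroup.mk_mul]
  simpa using h1

/-- groups acting through `U` and stabilising a nonempty face are finite of odd order -/
theorem odd_of_stab [Fintype F] (hF : Odd (Fintype.card F)) {Γ : Type*} [Group Γ]
    (ι : Γ →* UU F m) (hι : Function.Injective ι) {σ : Finset (VU F m)} (hσ : σ ∈ XU F m)
    (hne : σ.Nonempty) (hst : ∀ γ, ι γ • σ = σ) : Finite Γ ∧ Odd (Nat.card Γ) := by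
  set κ : Γ →* Gq F m 2 := (QuotientGroup.mk' (Nn F m 2)).comp ι with hκ
  have hinj : Function.Injective κ := fun a b h => hι (inj_stab hσ hne (hst a) (hst b) h)
  have hfin : Finite Γ := Finite.of_injective κ hinj
  refine ⟨hfin, ?_⟩
  have h1 : Nat.card Γ ∣ Nat.card (Gq F m 2) := Subgroup.card_dvd_of_injective κ hinj
  rw [Nat.card_eq_fintype_card (α := Gq F m 2)] at h1
  exact Odd.of_dvd_nat (odd_card_Gq hF) h1

theorem vanG_stab_U [Fintype F] (hF : Odd (Fintype.card F)) {T : Type*} [MulAction (UU F m) T]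
    [Nonempty T] {σ : Finset (VU F m)} (hσ : σ ∈ XU F m) (h1 : 1 ≤ σ.card) (s : ℕ) :
    VanG (MulAction.stabilizer (UU F m) σ) T s := by
  obtain ⟨h2, h3⟩ := odd_of_stab hF (MulAction.stabilizer (UU F m) σ).subtype
    (Subgroup.subtype_injective _) hσ (Finset.card_pos.1 h1) (fun γ => γ.2)
  exact vanG_odd h3 s

theorem vanG_stab_N [Fintype F] (hF : Odd (Fintype.card F)) {n : ℕ} {T : Type*}
    [MulAction (Nn F m n) T] [Nonempty T] {σ : Finset (VU F m)} (hσ : σ ∈ XU F m)
    (h1 : 1 ≤ σ.card) (s : ℕ) : VanG (MulAction.stabilizer (Nn F m n) σ) T s := by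
  obtain ⟨h2, h3⟩ := odd_of_stab hF ((Nn F m n).subtype.comp
    (MulAction.stabilizer (Nn F m n) σ).subtype)
    ((Subgroup.subtype_injective _).comp (Subgroup.subtype_injective _)) hσ
    (Finset.card_pos.1 h1) (fun γ => γ.2)
  exact vanG_odd h3 s

/-! ### reduction to the finite complex -/

variable {n : ℕ} [Fintype F]

/-- reduction of vertices -/
noncomputable def rdU (n : ℕ) (v : VU F m) : CV (Aq F m n) :=
  vx (Aq F m n) (tpU v) ((Quotient.out v.2 : UU F m) : Gq F m n)

theorem rdU_vxU (i : Fin m) (g : UU F m) : rdU n (vxU i g) = vx (Aq F m n) i (g : Gq F m n) := by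
  unfold rdU
  rw [tpU_vxU, vx_eq_iff, KJ_Aq (erase_ne_univ_U i)]
  refine ⟨(Quotient.out (vxU i g).2 : UU F m)⁻¹ * g, ?_, rfl⟩
  have : vxU i (Quotient.out (vxU i g).2 : UU F m) = vxU i g := by
    unfold vxU
    rw [QuotientGroup.out_eq']
  exact vxU_eq_iff.1 this

/-- faces of the finite complex -/
noncomputable def fcA (n : ℕ) (g : Gq F m n) (S : Finset (Fin m)) : Finset (CV (Aq F m n)) :=
  S.image fun i => vx (Aq F m n) i g

theorem image_rdU_fc (u : UU F m) (S : Finset (Fin m)) :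
    (fc u S).image (rdU n) = fcA n (u : Gq F m n) S := by
  unfold fc fcA
  rw [Finset.image_image]
  exact Finset.image_congr fun i _ => rdU_vxU i u

theorem rdU_smul (g : Nn F m n) (v : VU F m) : rdU n (g • v) = rdU n v := by
  obtain ⟨u, hu⟩ := exists_vxU v
  have h1 : g • v = vxU (tpU v) ((g : UU F m) * u) := by
    conv_lhs => rw [hu]
    rfl
  rw [h1, rdU_vxU, QuotientGroup.mk_mul, (QuotientGroup.eq_one_iff (g : UU F m)).2 g.2, one_mul,
    ← rdU_vxU, ← hu]

theorem sum_fcA {M : Type*} [AddCommMonoid M] (f : CV (Aq F m n) → M) (g : Gq F m n)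
    (S : Finset (Fin m)) : ∑ v ∈ fcA n g S, f v = ∑ i ∈ S, f (vx (Aq F m n) i g) := by
  unfold fcA
  rw [Finset.sum_image]
  exact fun _ _ _ _ h => vx_injective _ g h

theorem fcA_erase (g : Gq F m n) (S : Finset (Fin m)) (i : Fin m) :
    (fcA n g S).erase (vx (Aq F m n) i g) = fcA n g (S.erase i) := by
  unfold fcA
  rw [Finset.image_erase (vx_injective _ g)]

theorem fcA_subset (g : Gq F m n) (S : Finset (Fin m)) : fcA n g S ⊆ cham (Aq F m n) g := by
  intro v hv
  obtain ⟨i, _, rfl⟩ := Finset.mem_image.1 hv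
  exact vx_mem_cham_self _ i g

theorem card_fcA (g : Gq F m n) (S : Finset (Fin m)) : (fcA n g S).card = S.card := by
  unfold fcA
  rw [Finset.card_image_of_injective _ (vx_injective _ g)]

/-- two lifts of a face are equivalent under `N` -/
theorem lift_unique (hI : IntP (Aq F m n)) {u u' : UU F m} {S S' : Finset (Fin m)}
    (h : fcA n (u : Gq F m n) S = fcA n (u' : Gq F m n) S') :
    ∃ g : Nn F m n, fc u' S' = g • fc u S := by
  have hS : S = S' := by
    have h1 := congrArg (fun σ => σ.image tp) h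
    simp only [fcA, Finset.image_image] at h1
    have h2 : ∀ (g : Gq F m n) (R : Finset (Fin m)),
        R.image (tp ∘ fun i => vx (Aq F m n) i g) = R := by
      intro g R; ext i; simp
    rwa [h2, h2] at h1
  subst hS
  rcases S.eq_empty_or_nonempty with rfl | hne
  · exact ⟨1, by simp [fc]⟩
  have h1 : ((u : Gq F m n))⁻¹ * (u' : Gq F m n) ∈ KJ (Aq F m n) Sᶜ := by
    refine hI S _ fun i hi => ?_
    have h2 : vx (Aq F m n) i (u : Gq F m n) ∈ fcA n (u' : Gq F m n) S := by
      rw [← h]; exact Finset.mem_image_of_mem _ hi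
    exact vx_mem_cham.1 (fcA_subset _ _ h2)
  have hSc : Sᶜ ≠ Finset.univ := by
    intro e
    rw [Finset.compl_eq_univ_iff] at e
    exact hne.ne_empty e
  rw [KJ_Aq hSc] at h1
  obtain ⟨k, hk, hk2⟩ := h1
  have h3 : ((u * k : UU F m) : Gq F m n) = (u' : Gq F m n) := by
    rw [QuotientGroup.mk_mul]
    have : (k : Gq F m n) = (u : Gq F m n)⁻¹ * (u' : Gq F m n) := hk2
    rw [this, mul_inv_cancel_left]
  have h4 : u' * (u * k)⁻¹ ∈ Nn F m n := by
    rw [← QuotientGroup.eq_one_iff, QuotientGroup.mk_mul, QuotientGroup.mk_inv, h3,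
      mul_inv_cancel]
  refine ⟨⟨u' * (u * k)⁻¹, h4⟩, ?_⟩
  have h5 : fc u S = fc (u * k) S := by
    unfold fc
    refine Finset.image_congr fun i hi => ?_
    rw [vxU_eq_iff, inv_mul_cancel_left]
    exact KU_mono (fun j hj => by
      rw [Finset.mem_compl] at hj
      exact Finset.mem_erase.2 ⟨fun e => hj (e ▸ hi), Finset.mem_univ _⟩) hk
  show fc u' S = (u' * (u * k)⁻¹ : UU F m) • fc u S
  rw [h5, smul_fc]
  congr 1
  group

theorem van_of_coExInv (hI : IntP (Aq F m n)) (d : ℕ)
    (H : ∀ s, 1 ≤ s → s ≤ d → CoExInv (Nn F m n) (XU F m) s) : Van (chams (Aq F m n)) d := by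
  intro s hs hsd f hf
  obtain ⟨ψ, hψ, hψ2⟩ := H s hs hsd (fun σ => f (σ.image (rdU n))) (fun g σ => by
    congr 1
    rw [Finset.smul_finset_def, Finset.image_image]
    exact Finset.image_congr fun v _ => rdU_smul g v) (fun τ hτ hc => by
    obtain ⟨u, hu⟩ := exists_fc hτ
    rw [hu, sum_fc]
    simp only [fc_erase, image_rdU_fc]
    have h1 := hf (fcA n (u : Gq F m n) (τ.image tpU)) (by
      rw [card_fcA, ← hc]
      conv_rhs => rw [hu]
      rw [card_fc]) (wt_pos_iff.2 ⟨_, fcA_subset _ _⟩)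
    unfold dl at h1
    rw [sum_fcA] at h1
    simpa only [fcA_erase] using h1)
  classical
  let h : Finset (CV (Aq F m n)) → ZMod 2 := fun ρ =>
    if hρ : ∃ p : UU F m × Finset (Fin m), ρ = fcA n (p.1 : Gq F m n) p.2 then
      ψ (fc hρ.choose.1 hρ.choose.2) else 0
  have hh : ∀ (u : UU F m) (S : Finset (Fin m)), h (fcA n (u : Gq F m n) S) = ψ (fc u S) := by
    intro u S
    have hρ : ∃ p : UU F m × Finset (Fin m),
        fcA n (u : Gq F m n) S = fcA n (p.1 : Gq F m n) p.2 := ⟨(u, S), rfl⟩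
    have e1 : h (fcA n (u : Gq F m n) S) = ψ (fc hρ.choose.1 hρ.choose.2) := dif_pos hρ
    obtain ⟨g, hg⟩ := lift_unique hI hρ.choose_spec
    rw [e1, hg, hψ]
  refine ⟨h, fun σ hσ hw => ?_⟩
  obtain ⟨g, hg⟩ := wt_pos_iff.1 hw
  obtain ⟨u, rfl⟩ := QuotientGroup.mk_surjective g
  have h1 : σ = fcA n (u : Gq F m n) (tps σ) := face_eq hg
  have h2 := hψ2 (fc u (tps σ)) (fc_mem _ _) (by rw [card_fc, card_tps hg, hσ])
  rw [sum_fc] at h2
  simp only [fc_erase, image_rdU_fc] at h2
  rw [h1]
  unfold dl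
  rw [sum_fcA]
  simp only [fcA_erase, hh]
  exact h2.symm

end

end Crest.Agent.R66
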