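import Crest.Agent.R66.P1


/-!
# Row 66, part C-P (helper26): SL = E over `F[X]`, stabilisers of linearly independent families

Imported sorries (`P1.lean`) may be used.
-/

set_option autoImplicit false

open Polynomial Matrix

namespace Crest.Agent.R66

section
variable {F : Type*} [Field F] {m : ℕ}

/-- clear a column whose coordinate `p` is `1`, by transvections `tv k p` -/
theorem clear_col {R : Type*} [CommRing R] (p : Fin m) (w : Fin m → R) (hw : w p = 1) :
    ∃ u ∈ El R (Set.univ : Set (Fin m)), u.1 *ᵥ w = Pi.single p 1 ∧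
      ∀ x : Fin m → R, x p = 0 → u.1 *ᵥ x = x := by
  classical
  have key : ∀ T : Finset (Fin m), p ∉ T → ∃ u ∈ El R (Set.univ : Set (Fin m)),
      (∀ k, (u.1 *ᵥ w) k = if k ∈ T then 0 else w k) ∧
      ∀ x : Fin m → R, x p = 0 → u.1 *ᵥ x = x := by
    intro T
    induction T using Finset.induction_on with
    | empty => intro _; exact ⟨1, one_mem _, by simp, by simp⟩
    | insert a T ha ih =>
      intro hp
      rw [Finset.mem_insert, not_or] at hp
      obtain ⟨u, hu, h1, h2⟩ := ih hp.2
      refine ⟨tv a p (Ne.symm hp.1) (-(w a)) * u, mul_mem (tv_mem_El (Set.mem_univ _) (Set.mem_univ _) _ _) hu, ?_, ?_⟩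
      · intro k
        rw [Units.val_mul, ← Matrix.mulVec_mulVec, tv_mulVec, h1, h1, if_neg hp.2, hw]
        by_cases hk : k = a
        · subst hk
          rw [if_neg ha, if_pos rfl, if_pos (Finset.mem_insert_self _ _)]
          ring
        · rw [if_neg hk, add_zero]
          by_cases hkT : k ∈ T
          · rw [if_pos hkT, if_pos (Finset.mem_insert_of_mem hkT)]
          · rw [if_neg hkT, if_neg]
            rw [Finset.mem_insert, not_or]
            exact ⟨hk, hkT⟩
      · intro x hx
        rw [Units.val_mul, ← Matrix.mulVec_mulVec, h2 x hx]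
        funext k
        rw [tv_mulVec, hx]
        simp
  obtain ⟨u, hu, h1, h2⟩ := key (Finset.univ.erase p) (by simp)
  refine ⟨u, hu, ?_, h2⟩
  funext k
  rw [h1]
  by_cases hk : k = p
  · subst hk; simp [hw]
  · simp [hk]

theorem mulVec_single_one_apply' {R : Type*} [CommRing R] (M : Matrix (Fin m) (Fin m) R) (i k : Fin m) :
    (M *ᵥ (Pi.single i 1 : Fin m → R)) k = M k i := by
  rw [Matrix.mulVec_single_one]; rfl

/-- PIECE P_SLE1.  An element of `GL (Fin m) F[X]` of determinant `1` is in the elementary group.
Proof: apply `hnf` with `p = m`... more precisely prove by induction on `p ≤ m`: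
`∃ h ∈ El F[X] univ, ∀ i : Fin m, (i : ℕ) < p → (h * g) *ᵥ e_i = e_i` for `p < m`
(step: the vector `w = (h * g) *ᵥ e_p`; its coordinates `≥ p` form a unimodular vector
(`h * g` is invertible), reduce them by `euclid_vec` (`S = {k | p ≤ k}`, `k₀ = p`) to `(d, 0, ..)`,
`d` a unit, then to `(1, 0, ..)` as in `euclid_unimod` (possible since `p + 1 < m`), and clear the
coordinates `< p` by transvections `tv k p`), so for `p = m - 1`: `h * g` is upper triangular with
diagonal `1, .., 1, det = 1`, and one more round of transvections `tv k (m-1)` makes it `1`. -/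
theorem sl_le_El (g : GL (Fin m) F[X]) (hg : g.1.det = 1) :
    g ∈ El F[X] (Set.univ : Set (Fin m)) := by
  classical
  have key : ∀ p : ℕ, p ≤ m → ∃ h ∈ El F[X] (Set.univ : Set (Fin m)), ∀ i : Fin m, (i : ℕ) < p →
      (h * g).1 *ᵥ (Pi.single i 1 : Fin m → F[X]) = Pi.single i 1 := by
    intro p
    induction p with
    | zero => intro _; exact ⟨1, one_mem _, fun i hi => absurd hi (Nat.not_lt_zero _)⟩
    | succ p ih =>
      intro hp
      obtain ⟨h, hh, hfix⟩ := ih (by omega)
      set ip : Fin m := ⟨p, by omega⟩ with hip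
      -- it is enough to produce `a` making the coordinate `ip` equal to one
      have main : ∃ a ∈ El F[X] (Set.univ : Set (Fin m)),
          (∀ i : Fin m, (i : ℕ) < p → a.1 *ᵥ (Pi.single i 1 : Fin m → F[X]) = Pi.single i 1) ∧
          (a.1 *ᵥ ((h * g).1 *ᵥ (Pi.single ip 1 : Fin m → F[X]))) ip = 1 := by
        by_cases hlast : p + 1 < m
        · set iq : Fin m := ⟨p + 1, hlast⟩ with hiq
          have hpq : ip ≠ iq := by
            intro e; have := congrArg Fin.val e; simp [hip, hiq] at this
          set S : Finset (Fin m) := Finset.univ.filter fun k => p ≤ (k : ℕ) with hS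
          have hipS : ip ∈ S := by simp [hS, hip]
          have hiqS : iq ∈ S := by simp [hS, hiq]
          obtain ⟨g1, hg1, hz⟩ := euclid_vec S ip hipS ((h * g).1 *ᵥ (Pi.single ip 1 : Fin m → F[X]))
          have hSfix : ∀ b ∈ El F[X] (S : Set (Fin m)), ∀ i : Fin m, (i : ℕ) < p →
              b.1 *ᵥ (Pi.single i 1 : Fin m → F[X]) = Pi.single i 1 := by
            intro b hb i hi
            refine El_fix hb ?_
            intro k hk
            have hk' : p ≤ (k : ℕ) := by simpa [hS] using hk
            refine Pi.single_eq_of_ne ?_ _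
            intro e; rw [e] at hk'; omega
          -- the unit
          set N : GL (Fin m) F[X] := g1 * (h * g) with hN
          have hNfix : ∀ i : Fin m, (i : ℕ) < p →
              N.1 *ᵥ (Pi.single i 1 : Fin m → F[X]) = Pi.single i 1 := by
            intro i hi
            rw [hN, Units.val_mul, ← Matrix.mulVec_mulVec, hfix i hi, hSfix g1 hg1 i hi]
          have hNp : ∀ k, (N.1 *ᵥ (Pi.single ip 1 : Fin m → F[X])) k =
              (g1.1 *ᵥ ((h * g).1 *ᵥ (Pi.single ip 1 : Fin m → F[X]))) k := by
            intro k; rw [hN, Units.val_mul, ← Matrix.mulVec_mulVec]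
          have hd : (N⁻¹).1 ip ip * N.1 ip ip = 1 := by
            have h1 : ((N⁻¹).1 * N.1) ip ip = 1 := by
              rw [← Units.val_mul, inv_mul_cancel, Units.val_one, Matrix.one_apply_eq]
            rw [Matrix.mul_apply, Finset.sum_eq_single ip] at h1
            · exact h1
            · intro k _ hk
              rcases Nat.lt_or_ge (k : ℕ) p with hkp | hkp
              · have h2 : (N⁻¹).1 *ᵥ (Pi.single k 1 : Fin m → F[X]) = Pi.single k 1 := by
                  conv_lhs => rw [← hNfix k hkp]
                  exact mulVec_inv_mulVec N _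
                have h3 := congrFun h2 ip
                rw [mulVec_single_one_apply', Pi.single_eq_of_ne (Ne.symm hk)] at h3
                rw [h3, zero_mul]
              · have hkS : k ∈ S := by simp [hS, hkp]
                have h2 := hz k hkS hk
                rw [← hNp, mulVec_single_one_apply'] at h2
                rw [h2, mul_zero]
            · intro h2; exact absurd (Finset.mem_univ _) h2
          set d := N.1 ip ip with hdd
          set d' := (N⁻¹).1 ip ip with hdd'
          have e1 : (g1.1 *ᵥ ((h * g).1 *ᵥ (Pi.single ip 1 : Fin m → F[X]))) ip = d := by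
            rw [← hNp, mulVec_single_one_apply']
          have e2 := hz iq hiqS (Ne.symm hpq)
          have ha : tv ip iq hpq (1 - d) * (tv iq ip (Ne.symm hpq) d' * g1) ∈
              El F[X] (S : Set (Fin m)) :=
            mul_mem (tv_mem_El (by exact_mod_cast hipS) (by exact_mod_cast hiqS) _ _)
              (mul_mem (tv_mem_El (by exact_mod_cast hiqS) (by exact_mod_cast hipS) _ _) hg1)
          refine ⟨_, El_mono (Set.subset_univ _) ha, hSfix _ ha, ?_⟩
          rw [Units.val_mul, ← Matrix.mulVec_mulVec, Units.val_mul, ← Matrix.mulVec_mulVec,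
            tv_mulVec, tv_mulVec, tv_mulVec, e1, e2, if_pos rfl, if_pos rfl, if_neg hpq, hd]
          ring
        · refine ⟨1, one_mem _, fun i _ => by rw [Units.val_one, Matrix.one_mulVec], ?_⟩
          rw [Units.val_one, Matrix.one_mulVec]
          set w := (h * g).1 *ᵥ (Pi.single ip 1 : Fin m → F[X]) with hw
          have hM : (h * g).1 = (1 : Matrix (Fin m) (Fin m) F[X]).updateCol ip w := by
            ext k i
            by_cases hi : i = ip
            · subst hi
              rw [Matrix.updateCol_self, hw, mulVec_single_one_apply']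
            · have hi' : (i : ℕ) < p := by
                have h1 : (i : ℕ) ≠ p := fun e => hi (Fin.ext e)
                have h2 := i.2
                omega
              rw [Matrix.updateCol_ne hi, ← mulVec_single_one_apply' (h * g).1 i k, hfix i hi',
                Matrix.one_apply, Pi.single_apply]
          have hdet : (h * g).1.det = 1 := by
            rw [Units.val_mul, Matrix.det_mul, El_det hh, hg, one_mul]
          have h3 : (h * g).1.det = w ip := by
            rw [hM, ← Matrix.cramer_apply, Matrix.cramer_one]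
            rfl
          rw [← h3, hdet]
      obtain ⟨a, ha, hafix, ha1⟩ := main
      obtain ⟨u, hu, hu1, hu2⟩ := clear_col ip _ ha1
      refine ⟨u * (a * h), mul_mem hu (mul_mem ha hh), ?_⟩
      intro i hi
      have e : u * (a * h) * g = u * (a * (h * g)) := by group
      rw [e, Units.val_mul, ← Matrix.mulVec_mulVec, Units.val_mul, ← Matrix.mulVec_mulVec]
      rcases Nat.lt_or_ge (i : ℕ) p with hip' | hip'
      · rw [hfix i hip', hafix i hip']
        refine hu2 _ (Pi.single_eq_of_ne ?_ _)
        intro e'
        rw [← e'] at hip'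
        simp [hip] at hip'
      · have : i = ip := Fin.ext (by simp [hip]; omega)
        rw [this, hu1]
  obtain ⟨h, hh, hfix⟩ := key m le_rfl
  have h1 : h * g = 1 := by
    apply Units.ext
    ext k i
    rw [← mulVec_single_one_apply' (h * g).1 i k, hfix i i.2, Units.val_one, Matrix.one_apply,
      Pi.single_apply]
  have h2 : g = h⁻¹ := (inv_eq_of_mul_eq_one_right h1).symm
  rw [h2]
  exact inv_mem hh

/-- closure form for part C-G -/
theorem sl_mem_closure (g : GL (Fin m) F[X]) (hg : g.1.det = 1) :
    g ∈ Subgroup.closure {u : GL (Fin m) F[X] | ∃ (i j : Fin m) (c : F[X]), i ≠ j ∧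
      u.1 = Matrix.transvection i j c} := by
  refine Subgroup.closure_mono ?_ (sl_le_El g hg)
  rintro _ ⟨i, _, j, _, hij, c, rfl⟩
  exact ⟨i, j, c, hij, rfl⟩

/-- PIECE P_STAB.  The stabiliser of a linearly independent family is the pointwise stabiliser of a
direct summand.
Proof: `hnf` gives `h ∈ El` with `h *ᵥ v_a` supported on the first `b` coordinates.
`e x` = (first `b` coordinates, last `r` coordinates) of `h *ᵥ x`.
(⇐) `(e (v a)).2 = 0`.  (⇒) If `g *ᵥ v_a = v_a` for all `a` and `(e x).2 = 0`: the `b + 1` vectors
`h v_a`, `h x` live in a free module of rank `b`; the matrix `W` of the `h v_a` (b × b) has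
`det W ≠ 0` (linear independence, `Matrix.exists_mulVec_eq_zero_iff`), and
`det W • (h x) = ∑ a, (adjugate..) a • h v_a`, so `det W • (g x - x) = 0`, so `g x = x`. -/
theorem stab_equiv (b r : ℕ) (hm : b + r = m) (v : Fin b → Fin m → F[X])
    (hv : LinearIndependent F[X] v) :
    ∃ e : (Fin m → F[X]) ≃ₗ[F[X]] (Fin b → F[X]) × (Fin r → F[X]),
      ∀ g : GL (Fin m) F[X], (∀ a, g.1 *ᵥ v a = v a) ↔ ∀ x, (e x).2 = 0 → g.1 *ᵥ x = x := by
  subst hm
  obtain ⟨h, -, hh⟩ := hnf b (by omega) v
  let E1 : (Fin (b + r) → F[X]) ≃ₗ[F[X]] (Fin (b + r) → F[X]) :=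
    { toFun := fun x => h.1 *ᵥ x
      invFun := fun x => (h⁻¹ : GL (Fin (b + r)) F[X]).1 *ᵥ x
      left_inv := fun x => mulVec_inv_mulVec h x
      right_inv := fun x => mulVec_mulVec_inv h x
      map_add' := fun x y => Matrix.mulVec_add _ x y
      map_smul' := fun c x => Matrix.mulVec_smul _ c x }
  let E2 : (Fin (b + r) → F[X]) ≃ₗ[F[X]] (Fin b → F[X]) × (Fin r → F[X]) :=
    { toFun := fun x => (fun i => x (Fin.castAdd r i), fun j => x (Fin.natAdd b j))
      invFun := fun p => Fin.append p.1 p.2
      left_inv := by
        intro x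
        funext k
        refine Fin.addCases (fun i => ?_) (fun j => ?_) k
        · simp
        · simp
      right_inv := by
        intro p
        refine Prod.ext ?_ ?_
        · funext i; simp
        · funext j; simp
      map_add' := fun x y => rfl
      map_smul' := fun c x => rfl }
  let e := E1.trans E2
  have he2 : ∀ a, (e (v a)).2 = 0 := by
    intro a
    funext j
    show (h.1 *ᵥ v a) (Fin.natAdd b j) = 0
    exact hh a _ (by simp)
  let W : Matrix (Fin b) (Fin b) F[X] := Matrix.of fun i a => (e (v a)).1 i
  have he : ∀ c : Fin b → F[X], e (∑ a, c a • v a) = (W *ᵥ c, 0) := by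
    intro c
    rw [map_sum]
    simp only [map_smul]
    refine Prod.ext ?_ ?_
    · rw [Prod.fst_sum]
      funext i
      show _ = ∑ a, W i a * c a
      rw [Finset.sum_apply]
      refine Finset.sum_congr rfl fun a _ => ?_
      simp only [Prod.smul_fst, Pi.smul_apply, smul_eq_mul, W, Matrix.of_apply]
      exact mul_comm _ _
    · rw [Prod.snd_sum]
      refine Finset.sum_eq_zero fun a _ => ?_
      rw [Prod.smul_snd, he2 a, smul_zero]
  have hdet : W.det ≠ 0 := by
    intro hW
    obtain ⟨c, hc, hc2⟩ := Matrix.exists_mulVec_eq_zero_iff.2 hW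
    have h1 : ∑ a, c a • v a = 0 := by
      apply e.injective
      rw [he c, hc2, map_zero]
      rfl
    exact hc (funext fun a => Fintype.linearIndependent_iff.1 hv c h1 a)
  refine ⟨e, fun g => ⟨fun hg x hx => ?_, fun hg a => hg _ (he2 a)⟩⟩
  have h1 : ∑ a, (W.adjugate *ᵥ (e x).1) a • v a = W.det • x := by
    apply e.injective
    rw [he, map_smul, Matrix.mulVec_mulVec, Matrix.mul_adjugate, Matrix.smul_mulVec,
      Matrix.one_mulVec]
    refine Prod.ext rfl ?_
    rw [Prod.smul_snd, hx, smul_zero]
  have h2 : g.1 *ᵥ (W.det • x) = W.det • x := by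
    rw [← h1, Matrix.mulVec_sum]
    refine Finset.sum_congr rfl fun a _ => ?_
    rw [Matrix.mulVec_smul, hg a]
  rw [Matrix.mulVec_smul] at h2
  exact smul_right_injective _ hdet h2

/-- PIECE P_LIN.  Vectors which are distinct basis vectors modulo `X` are linearly independent.
Proof: if `∑ a, l a • v a = 0` with `l ≠ 0`; some power of `X` divides all `l a`, divide by the
largest one; then look at the coordinate `c a` modulo `X`: `l a ≡ 0` mod `X` for all `a`,
contradiction.  (Or: the `b × b` minor of the rows `c a` is `≡ 1` mod `X`, so nonzero.) -/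
theorem linind_of_congr (b : ℕ) (c : Fin b → Fin m) (hc : Function.Injective c)
    (v : Fin b → Fin m → F[X])
    (h : ∀ a k, (X : F[X]) ∣ v a k - (Pi.single (c a) 1 : Fin m → F[X]) k) :
    LinearIndependent F[X] v := by
  classical
  have hdet : (Matrix.of fun a a' => v a (c a') : Matrix (Fin b) (Fin b) F[X]).det ≠ 0 := by
    intro h0
    have h1 : (Polynomial.evalRingHom (0 : F)).mapMatrix
        (Matrix.of fun a a' => v a (c a') : Matrix (Fin b) (Fin b) F[X]) = 1 := by
      ext a a'
      have h2 := h a (c a')
      rw [Polynomial.X_dvd_iff, Polynomial.coeff_sub, sub_eq_zero, Polynomial.coeff_zero_eq_eval_zero,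
        Polynomial.coeff_zero_eq_eval_zero] at h2
      rw [RingHom.mapMatrix_apply, Matrix.map_apply, Matrix.of_apply, Polynomial.coe_evalRingHom, h2]
      by_cases haa : a = a'
      · subst haa
        simp
      · have : c a' ≠ c a := fun e => haa (hc e).symm
        rw [Pi.single_eq_of_ne this, Matrix.one_apply_ne haa, Polynomial.eval_zero]
    have h3 := congrArg (Polynomial.evalRingHom (0 : F)) h0
    rw [RingHom.map_det, h1, Matrix.det_one, map_zero] at h3
    exact one_ne_zero h3
  rw [Fintype.linearIndependent_iff]
  intro l hl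
  have h4 : l ᵥ* (Matrix.of fun a a' => v a (c a') : Matrix (Fin b) (Fin b) F[X]) = 0 := by
    funext a'
    have := congrFun hl (c a')
    rw [Finset.sum_apply] at this
    simpa [Matrix.vecMul, dotProduct] using this
  have h5 := Matrix.eq_zero_of_vecMul_eq_zero hdet h4
  intro i
  exact congrFun h5 i

end

end Crest.Agent.R66
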