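import Crest.Agent.R66.CG4
import Crest.Agent.R66.P2
import Crest.Agent.R66.LGCos

/-!
# Row 66, part (C), groups: `GL (Fin m) F[X]`, the induction step
Author: helper81.
-/

set_option autoImplicit false
set_option linter.unusedSectionVars false

open Polynomial Matrix

namespace Crest.Agent.R66

section gl
variable (R : Type*) [CommRing R]

/-- `GL (Fin m) R` as the group of automorphisms of `R^m` -/
noncomputable def glL (m : ℕ) : GL (Fin m) R ≃* ((Fin m → R) ≃ₗ[R] (Fin m → R)) :=
  (Matrix.GeneralLinearGroup.toLin).trans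
    (LinearMap.GeneralLinearGroup.generalLinearEquiv R (Fin m → R))

variable {R}

theorem glL_apply {m : ℕ} (g : GL (Fin m) R) (x : Fin m → R) : glL R m g x = g.1 *ᵥ x := by
  show Matrix.toLin' g.1 x = _
  rfl

/-- the standard decomposition -/
noncomputable def e0 (R : Type*) [CommRing R] (b r : ℕ) :
    (Fin (b + r) → R) ≃ₗ[R] (Fin b → R) × (Fin r → R) :=
  (LinearEquiv.funCongrLeft R R finSumFinEquiv).trans
    (LinearEquiv.sumArrowLequivProdArrow (Fin b) (Fin r) R R)

theorem e0_fst {b r : ℕ} (x : Fin (b + r) → R) (i : Fin b) :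
    (e0 R b r x).1 i = x (Fin.castAdd r i) := rfl

theorem e0_snd {b r : ℕ} (x : Fin (b + r) → R) (i : Fin r) :
    (e0 R b r x).2 i = x (Fin.natAdd b i) := rfl

theorem e0_snd_eq {r : ℕ} {x : Fin (1 + r) → R} (hx : (e0 R 1 r x).2 = 0) (j : Fin (1 + r))
    (hj : j ≠ Fin.castAdd r 0) : x j = 0 := by
  refine Fin.addCases (motive := fun j => j ≠ Fin.castAdd r 0 → x j = 0) ?_ ?_ j hj
  · intro i hi
    exact absurd (congrArg (Fin.castAdd r) (Subsingleton.elim i 0)) hi
  · intro i _
    exact congrFun hx i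

theorem glL_tv {m : ℕ} (i j : Fin m) (h : i ≠ j) (c : R) (x : Fin m → R) (k : Fin m) :
    glL R m (tv i j h c) x k = x k + if k = i then c * x j else 0 := by
  rw [glL_apply]
  exact tv_mulVec i j h c x k

theorem tv_row_mem {r : ℕ} (j : Fin (1 + r)) (h : (Fin.castAdd r 0) ≠ j) (c : R) :
    glL R (1 + r) (tv (Fin.castAdd r 0) j h c) ∈ WU (e0 R 1 r) := by
  left
  refine ⟨fun x => ?_, fun x hx => ?_⟩
  · funext i
    rw [e0_snd, e0_snd, glL_tv, if_neg, add_zero]
    intro h0
    have := congrArg Fin.val h0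
    simp at this
  · funext k
    rw [glL_tv, e0_snd_eq hx j h.symm, mul_zero]
    simp

theorem tv_col_mem {r : ℕ} (i : Fin (1 + r)) (h : i ≠ (Fin.castAdd r 0)) (c : R) :
    glL R (1 + r) (tv i (Fin.castAdd r 0) h c) ∈ WU (e0 R 1 r) := by
  right
  refine ⟨fun x => ?_, fun x hx => ?_⟩
  · funext k
    rw [e0_fst, e0_fst, glL_tv, if_neg, add_zero]
    intro h0
    apply h
    rw [← h0, Subsingleton.elim k 0]
  · have h0 : x (Fin.castAdd r 0) = 0 := congrFun hx 0
    funext k
    rw [glL_tv, h0, mul_zero]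
    simp

theorem tv_mem_closure {r : ℕ} (i j : Fin (1 + r)) (h : i ≠ j) (c : R) :
    glL R (1 + r) (tv i j h c) ∈ Subgroup.closure (WU (e0 R 1 r)) := by
  by_cases hi : i = Fin.castAdd r 0
  · subst hi
    exact Subgroup.subset_closure (tv_row_mem j h c)
  by_cases hj : j = Fin.castAdd r 0
  · subst hj
    exact Subgroup.subset_closure (tv_col_mem i h c)
  have e : tv i j h c = tv i (Fin.castAdd r 0) hi c * tv (Fin.castAdd r 0) j (Ne.symm hj) 1 *
      tv i (Fin.castAdd r 0) hi (-c) * tv (Fin.castAdd r 0) j (Ne.symm hj) (-1) := by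
    apply (glL R (1 + r)).injective
    ext x k
    rw [map_mul, map_mul, map_mul]
    simp only [LinearEquiv.mul_apply, glL_tv]
    have h1 : (Fin.castAdd r 0 : Fin (1 + r)) ≠ i := Ne.symm hi
    simp only [if_true, h1, if_false, h.symm, hj]
    split_ifs <;> simp_all
    ring
  rw [e, map_mul, map_mul, map_mul]
  exact mul_mem (mul_mem (mul_mem (Subgroup.subset_closure (tv_col_mem _ _ _))
    (Subgroup.subset_closure (tv_row_mem _ _ _))) (Subgroup.subset_closure (tv_col_mem _ _ _)))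
    (Subgroup.subset_closure (tv_row_mem _ _ _))

end gl

section sl
variable {F : Type} [Field F]

theorem sl_mem_WU0 {r : ℕ} (u : GL (Fin (1 + r)) F[X]) (hu : u.1.det = 1) :
    glL F[X] (1 + r) u ∈ Subgroup.closure (WU (e0 F[X] 1 r)) := by
  have h := sl_le_El u hu
  unfold El at h
  induction h using Subgroup.closure_induction with
  | mem u hu' =>
    obtain ⟨i, _, j, _, h, c, rfl⟩ := hu'
    exact tv_mem_closure i j h c
  | one => rw [map_one]; exact one_mem _
  | mul x y hx hy h1 h2 =>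
    rw [map_mul]
    exact mul_mem (h1 (El_det hx)) (h2 (El_det hy))
  | inv x hx h1 =>
    rw [map_inv]
    exact inv_mem (h1 (El_det hx))

/-- every element of determinant one is a product of block unipotent elements. -/
theorem sl_mem_WU {m r : ℕ} (hm : 1 + r = m)
    (e : (Fin m → F[X]) ≃ₗ[F[X]] (Fin 1 → F[X]) × (Fin r → F[X]))
    (u : GL (Fin m) F[X]) (hu : u.1.det = 1) : glL F[X] m u ∈ Subgroup.closure (WU e) := by
  subst hm
  set h : (Fin (1 + r) → F[X]) ≃ₗ[F[X]] (Fin (1 + r) → F[X]) := e.trans (e0 F[X] 1 r).symm with hh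
  have he : ∀ x, e0 F[X] 1 r (h x) = e x := fun x => by rw [hh]; simp
  set g : GL (Fin (1 + r)) F[X] := (glL F[X] (1 + r)).symm h with hg
  have h1 : (g * u * g⁻¹).1.det = 1 := by
    rw [Units.val_mul, Units.val_mul, Matrix.det_mul, Matrix.det_mul, hu, mul_one,
      ← Matrix.det_mul, ← Units.val_mul, mul_inv_cancel]
    simp
  have h2 := sl_mem_WU0 (g * u * g⁻¹) h1
  have h3 : Subgroup.closure (WU (e0 F[X] 1 r)) ≤
      (Subgroup.closure (WU e)).map (MulAut.conj h).toMonoidHom := by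
    rw [Subgroup.closure_le]
    intro w hw
    refine ⟨h⁻¹ * w * h, Subgroup.subset_closure ?_, ?_⟩
    · rcases hw with ⟨hw1, hw2⟩ | ⟨hw1, hw2⟩
      · left
        refine ⟨fun x => ?_, fun x hx => ?_⟩
        · rw [← he (_ : Fin (1 + r) → F[X]), LinearEquiv.mul_apply, LinearEquiv.mul_apply, ap_inv,
            hw1, he]
        · rw [LinearEquiv.mul_apply, LinearEquiv.mul_apply, hw2 _ (by rw [he]; exact hx), inv_ap]
      · right
        refine ⟨fun x => ?_, fun x hx => ?_⟩
        · rw [← he (_ : Fin (1 + r) → F[X]), LinearEquiv.mul_apply, LinearEquiv.mul_apply, ap_inv,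
            hw1, he]
        · rw [LinearEquiv.mul_apply, LinearEquiv.mul_apply, hw2 _ (by rw [he]; exact hx), inv_ap]
    · show h * (h⁻¹ * w * h) * h⁻¹ = w
      group
  obtain ⟨w, hw, hw2⟩ := h3 h2
  have h4 : glL F[X] (1 + r) u = w := by
    have e1 : h * w * h⁻¹ = h * glL F[X] (1 + r) u * h⁻¹ := by
      have : h * w * h⁻¹ = glL F[X] (1 + r) (g * u * g⁻¹) := hw2
      rw [this, map_mul, map_mul, map_inv, hg, MulEquiv.apply_symm_apply]
    have e2 := mul_right_cancel e1
    exact (mul_left_cancel e2).symm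
  rw [h4]
  exact hw

end sl

section cong
variable {F : Type} [Field F] {m n : ℕ} [NeZero m]

theorem mem_Ncong_iff {g : GL (Fin m) F[X]} : g ∈ Ncong F m n ↔
    ∀ i j, (X : F[X]) ^ n ∣ g.1 i j - (1 : Matrix (Fin m) (Fin m) F[X]) i j := by
  unfold Ncong
  rw [MonoidHom.mem_ker]
  constructor
  · intro h i j
    have h2 : Ideal.Quotient.mk (Ideal.span {(X : F[X]) ^ n}) (g.1 i j) =
        Ideal.Quotient.mk (Ideal.span {(X : F[X]) ^ n}) ((1 : Matrix (Fin m) (Fin m) F[X]) i j) := by
      have h3 := congrArg (fun u : GL (Fin m) (F[X] ⧸ Ideal.span {(X : F[X]) ^ n}) =>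
        (u : Matrix (Fin m) (Fin m) (F[X] ⧸ Ideal.span {(X : F[X]) ^ n})) i j) h
      refine Eq.trans h3 ?_
      show (1 : Matrix (Fin m) (Fin m) _) i j = _
      rw [Matrix.one_apply, Matrix.one_apply]
      split_ifs <;> simp
    rw [Ideal.Quotient.eq, Ideal.mem_span_singleton] at h2
    exact h2
  · intro h
    apply Units.ext
    ext i j
    show Ideal.Quotient.mk (Ideal.span {(X : F[X]) ^ n}) (g.1 i j) =
      (1 : Matrix (Fin m) (Fin m) (F[X] ⧸ Ideal.span {(X : F[X]) ^ n})) i j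
    have h2 : Ideal.Quotient.mk (Ideal.span {(X : F[X]) ^ n}) (g.1 i j) =
        Ideal.Quotient.mk (Ideal.span {(X : F[X]) ^ n}) ((1 : Matrix (Fin m) (Fin m) F[X]) i j) := by
      rw [Ideal.Quotient.eq, Ideal.mem_span_singleton]
      exact h i j
    rw [h2, Matrix.one_apply, Matrix.one_apply]
    split_ifs <;> simp

theorem glL_mem_NL {g : GL (Fin m) F[X]} :
    glL F[X] m g ∈ NL ((X : F[X]) ^ n) (Fin m → F[X]) ↔ g ∈ Ncong F m n := by
  rw [mem_Ncong_iff, mem_NL]
  constructor
  · intro h i j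
    obtain ⟨y, hy⟩ := h (Pi.single j 1)
    have h2 := congrFun hy i
    rw [glL_apply] at h2
    simp only [Pi.sub_apply, Matrix.mulVec_single_one, Matrix.col_apply, Pi.smul_apply,
      smul_eq_mul] at h2
    refine ⟨y i, ?_⟩
    rw [← h2, Matrix.one_apply, Pi.single_apply]
  · intro h x
    choose d hd using h
    refine ⟨(Matrix.of d) *ᵥ x, ?_⟩
    rw [glL_apply]
    have e1 : g.1 *ᵥ x - x = (g.1 - 1) *ᵥ x := by
      rw [Matrix.sub_mulVec, Matrix.one_mulVec]
    rw [e1, ← Matrix.smul_mulVec]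
    congr 1
    ext i j : 2
    rw [Matrix.sub_apply, hd i j]
    rfl

end cong

end Crest.Agent.R66
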