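import Crest.Agent.R66.DGFacts

/-!
# Row 66: generation of `Gq` by its root groups (helper94)

`gen_aux`: every `u ∈ U` is congruent to an element of `closure (rootSet F univ)` mod `X^n`.
Level sets: `Vn l g` = `g ∈ U` and all coefficients of length `1 .. l-1` vanish; the vectors of
coefficients of length `l` add under multiplication.
-/

set_option autoImplicit false
set_option linter.unusedSectionVars false

open Polynomial Matrix

namespace Crest.Agent.R66

section
variable {F : Type} [Field F] {m : ℕ} [NeZero m]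

/-- all coefficients of lengths `1 .. l-1` vanish -/
def Vn (l : ℕ) (g : Matrix (Fin m) (Fin m) F[X]) : Prop :=
  g ∈ PM (F := F) (Finset.univ : Finset (Fin m)) ∧
    ∀ (a : Fin m) (j : ℕ), (a : ℕ) < j → j < a + l → coef g a j = 0

theorem col_self (a : Fin m) : col m (a : ℕ) = a :=
  Fin.ext (by rw [col_val, Nat.mod_eq_of_lt a.2])

theorem col_add_mul' (x k : ℕ) : col m (x + m * k) = col m x :=
  Fin.ext (by rw [col_val, col_val, Nat.add_mul_mod_self_left])

theorem Vn.mul {l : ℕ} (hl : 1 ≤ l) {g h : Matrix (Fin m) (Fin m) F[X]} (hg : Vn l g)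
    (hh : Vn l h) : Vn l (g * h) ∧
      ∀ a : Fin m, coef (g * h) a (a + l) = coef g a (a + l) + coef h a (a + l) := by
  have key : ∀ (a : Fin m) (j : ℕ), (a : ℕ) < j → j ≤ a + l →
      coef (g * h) a j = coef h a j + coef g a j := by
    intro a j h1 h2
    rw [coef_mul g h (pth_nonneg hh.1), Finset.sum_range_succ]
    have e1 : ∑ i ∈ Finset.range j, coef g a i * coef h (col m i) (j - i + i % m) =
        coef h a j := by
      rw [Finset.sum_eq_single (a : ℕ)]
      · rw [hg.1.2, one_mul, col_self, Nat.mod_eq_of_lt a.2, Nat.sub_add_cancel h1.le]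
      · intro i hi hia
        rw [Finset.mem_range] at hi
        by_cases hlt : i < a
        · have : coef g a i = 0 := by
            by_contra hne
            have := pth_nonneg hg.1 a i hne
            omega
          rw [this, zero_mul]
        · rw [hg.2 a i (by omega) (by omega), zero_mul]
      · intro h3; exact absurd (Finset.mem_range.2 h1) h3
    rw [e1, Nat.sub_self, zero_add]
    have e2 : coef h (col m j) (j % m) = 1 := by
      have := hh.1.2 (col m j)
      rwa [col_val] at this
    rw [e2, mul_one]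
  refine ⟨⟨mul_mem_PM hg.1 hh.1, fun a j h1 h2 => ?_⟩, fun a => ?_⟩
  · rw [key a j h1 h2.le, hg.2 a j h1 h2, hh.2 a j h1 h2, add_zero]
  · rw [key a (a + l) (by omega) le_rfl, add_comm]

/-- the level vectors reached by `H = closure (rootSet F univ)` -/
def Lv (F : Type) [Field F] {m : ℕ} [NeZero m] (l : ℕ) (δ : Fin m → F) : Prop :=
  ∃ h ∈ Subgroup.closure (rootSet F (Finset.univ : Finset (Fin m))),
    Vn l (h : Matrix (Fin m) (Fin m) F[X]) ∧
      ∀ a : Fin m, coef (h : Matrix (Fin m) (Fin m) F[X]) a (a + l) = δ a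

theorem Vn_one (l : ℕ) : Vn l (1 : Matrix (Fin m) (Fin m) F[X]) :=
  ⟨one_mem_PM _, fun a j h1 _ => by rw [coef_one, if_neg (by omega)]⟩

theorem Lv_zero {l : ℕ} (hl : 1 ≤ l) : Lv F l (0 : Fin m → F) :=
  ⟨1, one_mem _, Vn_one l, fun a => by
    rw [Units.val_one, coef_one, if_neg (by omega)]; rfl⟩

theorem Lv.add {l : ℕ} (hl : 1 ≤ l) {δ ε : Fin m → F} (h1 : Lv F l δ) (h2 : Lv F l ε) :
    Lv F l (δ + ε) := by
  obtain ⟨g, hg, hgv, hgδ⟩ := h1
  obtain ⟨h, hh, hhv, hhε⟩ := h2
  have := hgv.mul hl hhv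
  refine ⟨g * h, mul_mem hg hh, ?_, fun a => ?_⟩
  · rw [Units.val_mul]; exact this.1
  · rw [Units.val_mul, this.2 a, hgδ, hhε]; rfl

theorem Lv.sum {l : ℕ} (hl : 1 ≤ l) {α : Type} (s : Finset α) (δ : α → Fin m → F)
    (h : ∀ i ∈ s, Lv F l (δ i)) : Lv F l (∑ i ∈ s, δ i) := by
  classical
  induction s using Finset.induction_on with
  | empty => rw [Finset.sum_empty]; exact Lv_zero hl
  | insert a s ha ih =>
    rw [Finset.sum_insert ha]
    exact (h a (Finset.mem_insert_self a s)).add hl
      (ih fun i hi => h i (Finset.mem_insert_of_mem hi))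

/-- root elements of all non closed paths are generated -/
theorem rt_mem_top (hm : 3 ≤ m) (l : ℕ) : 1 ≤ l → ∀ (a : Fin m) (h : col m (a + l) ≠ a) (c : F),
    rt a (a + l) h c ∈ Subgroup.closure (rootSet F (Finset.univ : Finset (Fin m))) := by
  induction l using Nat.strong_induction_on with
  | _ l ih =>
    intro hl a h c
    -- the step
    have step : ∀ s, 1 ≤ s → s < l → ∀ (h1 : col m (a + (l - s)) ≠ a)
        (h2 : ∀ b : Fin m, col m ((b : ℕ) + s) ≠ b),
        rt a (a + l) h c ∈ Subgroup.closure (rootSet F (Finset.univ : Finset (Fin m))) := by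
      intro s hs hsl h1 h2
      set b := col m (a + (l - s)) with hb
      have e1 := ih (l - s) (by omega) (by omega) a h1 c
      have e2 := ih s hsl hs b (h2 b) 1
      have hbv := col_add_div (m := m) (a + (l - s))
      rw [← hb] at hbv
      have hcol : col m ((b : ℕ) + s) = col m (a + l) := by
        have : a + l = (b : ℕ) + s + m * ((a + (l - s)) / m) := by omega
        rw [this, col_add_mul']
      have hij : col m ((b : ℕ) + s) ≠ a := by rw [hcol]; exact h
      have key := rt_comm a (a + (l - s)) (b + s) h1 (h2 b) hij c 1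
      have hend : (b : ℕ) + s + m * ((a + (l - s)) / m) = a + l := by omega
      have key2 : rt a (a + l) h c =
          (rt b (b + s) (h2 b) 1 * rt a (a + (l - s)) h1 c)⁻¹ *
            (rt a (a + (l - s)) h1 c * rt b (b + s) (h2 b) 1) := by
        rw [eq_inv_mul_iff_mul_eq, key]
        congr 1
        apply Units.ext
        rw [rt_val, rt_val, mul_one, hend]
      rw [key2]
      exact mul_mem (inv_mem (mul_mem e2 e1)) (mul_mem e1 e2)
    by_cases h1l : l = 1
    · subst h1l
      exact Subgroup.subset_closure ⟨a, h, c, Finset.mem_univ a, rfl⟩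
    · by_cases hc : col m (a + (l - 1)) = a
      · -- `l = 1` mod `m`: split off a path of length two
        have hl2 : 2 < l := by
          by_contra hcon
          have : l = 2 := by omega
          subst this
          exact col_ne (m := m) (a := a) (by omega) (by omega) hc
        refine step 2 (by omega) hl2 ?_ fun b => col_ne (by omega) (by omega)
        intro hc2
        have h3 := col_add_div (m := m) (a + (l - 1))
        have h4 := col_add_div (m := m) (a + (l - 2))
        rw [hc] at h3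
        rw [hc2] at h4
        -- m * x = l - 1, m * y = l - 2
        have h5 : m * ((a + (l - 1)) / m) = m * ((a + (l - 2)) / m) + 1 := by omega
        have h6 : m ∣ 1 := (Nat.dvd_add_right (Dvd.intro _ rfl)).1 (h5 ▸ Dvd.intro _ rfl)
        have := Nat.le_of_dvd one_pos h6
        omega
      · exact step 1 le_rfl (by omega) hc fun b => col_ne (by omega) (by omega)

/-- level vectors at lengths that are not multiples of `m` -/
theorem Lv_open (hm : 3 ≤ m) {l : ℕ} (hl : 1 ≤ l) (hc : ∀ a : Fin m, col m (a + l) ≠ a)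
    (δ : Fin m → F) : Lv F l δ := by
  have h1 : δ = ∑ a : Fin m, Pi.single a (δ a) := by
    exact (Finset.univ_sum_single δ).symm
  rw [h1]
  refine Lv.sum hl _ _ fun a _ => ?_
  refine ⟨rt a (a + l) (hc a) (δ a), rt_mem_top hm l hl a (hc a) (δ a), ⟨?_, ?_⟩, ?_⟩
  · exact rt_mem_KU (hc a) ⟨by omega, fun _ _ _ => Finset.mem_univ _⟩ _
  · intro b j hb hj
    rw [rt_val, coef_add, coef_one, coef_pm, if_neg (by omega), if_neg, add_zero]
    rintro ⟨rfl, h2⟩
    omega
  · intro b
    rw [rt_val, coef_add, coef_one, coef_pm, if_neg (by omega), zero_add]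
    by_cases hba : b = a
    · subst hba
      rw [if_pos ⟨rfl, rfl⟩, Pi.single_eq_same]
    · rw [if_neg fun h => hba h.1, Pi.single_eq_of_ne hba]

/-- level vectors at multiples of `m` -/
theorem Lv_pair (hm : 3 ≤ m) {l : ℕ} (hl : 2 ≤ l) (hc : ∀ a : Fin m, col m (a + l) = a)
    (a : Fin m) (c : F) :
    Lv F l (Pi.single a c - Pi.single (col m (a + 1)) c) := by
  set b := col m ((a : ℕ) + 1) with hb
  have hab : b ≠ a := col_ne (by omega) (by omega)
  have hbv := col_add_div (m := m) ((a : ℕ) + 1)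
  rw [← hb] at hbv
  have hcolb : col m ((b : ℕ) + (l - 1)) = a := by
    have h1 : col m ((b : ℕ) + (l - 1)) = col m (a + l) := by
      have : a + l = (b : ℕ) + (l - 1) + m * (((a : ℕ) + 1) / m) := by omega
      rw [this, col_add_mul']
    rw [h1, hc]
  have hT : col m ((b : ℕ) + (l - 1)) ≠ b := by rw [hcolb]; exact hab.symm
  have hS : col m ((a : ℕ) + 1) ≠ a := hab
  have hdiv := col_add_div (m := m) ((b : ℕ) + (l - 1))
  rw [hcolb] at hdiv
  set g := rt a (a + 1) hS c with hg
  set t := rt b (b + (l - 1)) hT (1 : F) with ht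
  set v := t * g with hv
  have hgH := rt_mem_top (F := F) hm 1 le_rfl a hS c
  have htH := rt_mem_top (F := F) hm (l - 1) (by omega) b hT 1
  have hvH : v ∈ Subgroup.closure (rootSet F (Finset.univ : Finset (Fin m))) := mul_mem htH hgH
  have hvU : v⁻¹ ∈ UU F m := rootSet_subset _ (inv_mem hvH)
  -- the matrix identity
  have e1 : pm a (a + 1) c * pm b (b + (l - 1)) (1 : F) = pm a (a + l) c := by
    rw [pm_mul_pm a b _ _ _ _ rfl, mul_one]
    congr 1
    omega
  have e2 : pm b (b + (l - 1)) (1 : F) * pm a (a + 1) c = pm b (b + l) c := by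
    rw [pm_mul_pm b a _ _ _ _ hcolb, one_mul]
    congr 1
    omega
  have e3 : (g : Matrix (Fin m) (Fin m) F[X]) * (t : Matrix (Fin m) (Fin m) F[X]) =
      (v : Matrix (Fin m) (Fin m) F[X]) + (pm a (a + l) c - pm b (b + l) c) := by
    rw [hv, Units.val_mul, hg, ht, rt_val, rt_val]
    simp only [add_mul, mul_add, one_mul, mul_one, e1, e2]
    abel
  have e4 : ((g * t * v⁻¹ : GL (Fin m) F[X]) : Matrix (Fin m) (Fin m) F[X]) =
      1 + (pm a (a + l) c * (v⁻¹ : GL (Fin m) F[X]).val - pm b (b + l) c *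
        (v⁻¹ : GL (Fin m) F[X]).val) := by
    rw [Units.val_mul, Units.val_mul, e3, add_mul, ← Units.val_mul, mul_inv_cancel, Units.val_one,
      sub_mul]
  have hcf : ∀ (a' : Fin m) (j' : ℕ),
      coef ((g * t * v⁻¹ : GL (Fin m) F[X]) : Matrix (Fin m) (Fin m) F[X]) a' j' =
        (if j' = a' then 1 else 0) +
          ((if a' = a ∧ a + l ≤ j' then c * coef (v⁻¹ : GL (Fin m) F[X]).val (col m (a + l))
            (j' - (a + l) + (a + l) % m) else 0) -
           (if a' = b ∧ b + l ≤ j' then c * coef (v⁻¹ : GL (Fin m) F[X]).val (col m (b + l))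
            (j' - (b + l) + (b + l) % m) else 0)) := by
    intro a' j'
    rw [e4, coef_add, coef_one, coef_sub, coef_pm_mul _ _ _ (pth_nonneg hvU),
      coef_pm_mul _ _ _ (pth_nonneg hvU)]
  have hdiag : ∀ x : Fin m, coef (v⁻¹ : GL (Fin m) F[X]).val (col m (x + l)) ((x + l) % m) = 1 := by
    intro x
    have := hvU.2 (col m (x + l))
    rwa [col_val] at this
  refine ⟨g * t * v⁻¹, mul_mem (mul_mem hgH htH) (inv_mem hvH), ⟨?_, ?_⟩, ?_⟩
  · exact rootSet_subset (F := F) (Finset.univ : Finset (Fin m))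
      (mul_mem (mul_mem hgH htH) (inv_mem hvH))
  · intro x j h1 h2
    rw [hcf, if_neg (by omega), if_neg, if_neg, sub_zero, add_zero]
    · rintro ⟨rfl, h3⟩; omega
    · rintro ⟨rfl, h3⟩; omega
  · intro x
    rw [hcf, if_neg (by omega), zero_add, Pi.sub_apply]
    by_cases hxa : x = a
    · have hxb : x ≠ b := fun h => hab (h.symm.trans hxa)
      rw [hxa, if_pos ⟨rfl, le_rfl⟩, if_neg (fun h => hab h.1.symm), Nat.sub_self, zero_add, hdiag,
        mul_one, Pi.single_eq_same, Pi.single_eq_of_ne hab.symm]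
    · by_cases hxb : x = b
      · rw [hxb, if_neg (fun h => hab h.1), if_pos ⟨rfl, le_rfl⟩, Nat.sub_self, zero_add, hdiag,
          mul_one, Pi.single_eq_of_ne hab, Pi.single_eq_same]
      · rw [if_neg (fun h => hxa h.1), if_neg (fun h => hxb h.1), Pi.single_eq_of_ne hxa,
          Pi.single_eq_of_ne hxb]

theorem Lv_closed (hm : 3 ≤ m) {l : ℕ} (hl : 2 ≤ l) (hc : ∀ a : Fin m, col m (a + l) = a)
    (δ : Fin m → F) (hδ : ∑ a, δ a = 0) : Lv F l δ := by
  -- differences with the index `0`
  have h0 : ∀ (x : ℕ) (hx : x < m) (c : F),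
      Lv F l (Pi.single ⟨x, hx⟩ c - Pi.single (col m 0) c) := by
    intro x
    induction x with
    | zero =>
      intro hx c
      have : (⟨0, hx⟩ : Fin m) = col m 0 := Fin.ext (by rw [col_val, Nat.zero_mod])
      rw [this, sub_self]
      exact Lv_zero (by omega)
    | succ x ih =>
      intro hx c
      have h1 := ih (by omega) c
      have h2 := Lv_pair hm hl hc ⟨x, by omega⟩ (-c)
      have h3 : col m ((⟨x, by omega⟩ : Fin m) + 1) = ⟨x + 1, hx⟩ :=
        Fin.ext (by rw [col_val]; exact Nat.mod_eq_of_lt hx)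
      rw [h3] at h2
      have h4 := h1.add (by omega) h2
      have e : (Pi.single (⟨x, by omega⟩ : Fin m) c - Pi.single (col m 0) c : Fin m → F) +
          (Pi.single (⟨x, by omega⟩ : Fin m) (-c) - Pi.single (⟨x + 1, hx⟩ : Fin m) (-c)) =
          Pi.single (⟨x + 1, hx⟩ : Fin m) c - Pi.single (col m 0) c := by
        rw [Pi.single_neg, Pi.single_neg]
        abel
      rw [e] at h4
      exact h4
  have h1 : δ = ∑ a : Fin m, (Pi.single a (δ a) - Pi.single (col m 0) (δ a)) := by
    rw [Finset.sum_sub_distrib, Finset.univ_sum_single]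
    have : ∑ a : Fin m, (Pi.single (col m 0) (δ a) : Fin m → F) = 0 := by
      funext x
      rw [Finset.sum_apply]
      by_cases hx : x = col m 0
      · subst hx
        simp only [Pi.single_eq_same]
        exact hδ
      · simp only [Pi.single_eq_of_ne hx, Finset.sum_const_zero]
        rfl
    rw [this, sub_zero]
  rw [h1]
  exact Lv.sum (by omega) _ _ fun a _ => h0 a a.2 (δ a)

/-- elements of `U` have determinant one -/
theorem det_UU {u : GL (Fin m) F[X]} (hu : u ∈ UU F m) :
    (u : Matrix (Fin m) (Fin m) F[X]).det = 1 := by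
  have h1 : IsUnit (u : Matrix (Fin m) (Fin m) F[X]).det :=
    (Matrix.isUnit_iff_isUnit_det _).1 u.isUnit
  obtain ⟨r, _, hr⟩ := Polynomial.isUnit_iff.1 h1
  have h2 : ((evalRingHom (0 : F)).mapMatrix (u : Matrix (Fin m) (Fin m) F[X])).det = 1 := by
    rw [Matrix.det_of_isUpperTriangular]
    · refine Finset.prod_eq_one fun i _ => ?_
      rw [RingHom.mapMatrix_apply, Matrix.map_apply, coe_evalRingHom, ← coeff_zero_eq_eval_zero,
        ← coef_self]
      exact hu.2 i
    · intro i j hij
      rw [RingHom.mapMatrix_apply, Matrix.map_apply, coe_evalRingHom, ← coeff_zero_eq_eval_zero]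
      by_contra hne
      have h3 : coef (u : Matrix (Fin m) (Fin m) F[X]) i (j + m * 0) ≠ 0 := by
        rw [coef_eq]; exact hne
      have h4 := (hu.1 _ _ h3).1
      have h5 : (j : ℕ) < i := hij
      omega
  rw [← RingHom.map_det, ← hr, coe_evalRingHom, eval_C] at h2
  rw [← hr, h2, map_one]

/-- the trace condition -/
theorem level_trace {l k : ℕ} (hk : 1 ≤ k) (hl : l = m * k) {u : GL (Fin m) F[X]}
    (hu : u ∈ UU F m) (hv : Vn l (u : Matrix (Fin m) (Fin m) F[X])) :
    ∑ a : Fin m, coef (u : Matrix (Fin m) (Fin m) F[X]) a (a + l) = 0 := by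
  have hdvd : ∀ a b : Fin m, (X : F[X]) ^ k ∣
      ((u : Matrix (Fin m) (Fin m) F[X]) - 1) a b := by
    intro a b
    rw [Polynomial.X_pow_dvd_iff]
    intro e he
    rw [← coef_eq, coef_sub, coef_one]
    have hbe : (b : ℕ) + m * e < a + l := by
      have h1 : m * (e + 1) ≤ m * k := Nat.mul_le_mul_left m he
      have h2 := b.2
      rw [Nat.mul_add] at h1
      omega
    by_cases h1 : (b : ℕ) + m * e = a
    · rw [if_pos h1, h1, hu.2, sub_self]
    · rw [if_neg h1, sub_zero]
      by_cases h2 : (a : ℕ) < b + m * e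
      · exact hv.2 a _ h2 hbe
      · by_contra hne
        have := (hu.1 a _ hne).1
        omega
  choose M hM using hdvd
  have hu1 : (u : Matrix (Fin m) (Fin m) F[X]) = 1 + ((X : F[X]) ^ k) • (Matrix.of M) := by
    ext1 a b
    have := hM a b
    rw [Matrix.sub_apply] at this
    rw [Matrix.add_apply, Matrix.smul_apply, Matrix.of_apply, smul_eq_mul, ← this]
    ring
  have hdet := det_UU hu
  rw [hu1, Matrix.det_one_add_smul] at hdet
  set c := (det (1 + (X : F[X][X]) • (Matrix.of M).map C)).divX.divX.eval ((X : F[X]) ^ k) with hc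
  have h1 : ((Matrix.of M).trace + c * X ^ k) * X ^ k = 0 := by
    have h2 : (Matrix.of M).trace * X ^ k + c * (X ^ k) ^ 2 = 0 := by
      have := hdet
      linear_combination this
    rw [← h2]; ring
  have hX : (X : F[X]) ^ k ≠ 0 := pow_ne_zero _ X_ne_zero
  have h3 : (Matrix.of M).trace + c * X ^ k = 0 := by
    rcases mul_eq_zero.1 h1 with h | h
    · exact h
    · exact absurd h hX
  have h4 : (Matrix.of M).trace.coeff 0 = 0 := by
    have h5 := congrArg (fun p => Polynomial.coeff p 0) h3
    simp only [Polynomial.coeff_add, Polynomial.coeff_zero] at h5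
    rw [Polynomial.coeff_mul_X_pow', if_neg (by omega), add_zero] at h5
    exact h5
  have h6 : ∀ a : Fin m, coef (u : Matrix (Fin m) (Fin m) F[X]) a (a + l) = (M a a).coeff 0 := by
    intro a
    rw [hl, coef_eq, hu1, Matrix.add_apply, Matrix.smul_apply, Matrix.of_apply, smul_eq_mul,
      Matrix.one_apply_eq, Polynomial.coeff_add, Polynomial.coeff_one, if_neg (by omega), zero_add,
      mul_comm, Polynomial.coeff_mul_X_pow', if_pos le_rfl, Nat.sub_self]
  rw [Finset.sum_congr rfl fun a _ => h6 a, ← Polynomial.finsetSum_coeff]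
  exact h4

/-- kill the coefficients up to any length -/
theorem reduce_level (hm : 3 ≤ m) (l : ℕ) (u : GL (Fin m) F[X]) (hu : u ∈ UU F m) :
    ∃ h ∈ Subgroup.closure (rootSet F (Finset.univ : Finset (Fin m))),
      Vn (l + 1) ((h * u : GL (Fin m) F[X]) : Matrix (Fin m) (Fin m) F[X]) := by
  induction l with
  | zero =>
    exact ⟨1, one_mem _, by rw [one_mul]; exact hu, fun a j h1 h2 => by omega⟩
  | succ l ih =>
    obtain ⟨h, hh, hv⟩ := ih
    set w := h * u with hw
    have hwU : w ∈ UU F m := mul_mem (rootSet_subset _ hh) hu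
    have key : Lv F (l + 1) (fun a => - coef (w : Matrix (Fin m) (Fin m) F[X]) a (a + (l + 1))) := by
      by_cases hdiv : m ∣ l + 1
      · obtain ⟨k, hk⟩ := hdiv
        have hk1 : 1 ≤ k := by
          rcases Nat.eq_zero_or_pos k with h0 | h0
          · subst h0; omega
          · exact h0
        have hl2 : 2 ≤ l + 1 := by
          rw [hk]
          calc 2 ≤ m * 1 := by omega
            _ ≤ m * k := Nat.mul_le_mul_left m hk1
        refine Lv_closed hm hl2 (fun a => ?_) _ ?_
        · rw [hk]; exact col_add_mul a k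
        · rw [Finset.sum_neg_distrib, level_trace hk1 hk hwU hv, neg_zero]
      · refine Lv_open hm (by omega) (fun a h1 => hdiv ?_) _
        have h2 := col_add_div (m := m) (a + (l + 1))
        rw [h1] at h2
        exact ⟨(a + (l + 1)) / m, by omega⟩
    obtain ⟨g, hg, hgv, hgl⟩ := key
    have hmul := hgv.mul (by omega) hv
    refine ⟨g * h, mul_mem hg hh, ?_⟩
    rw [mul_assoc, ← hw, Units.val_mul]
    refine ⟨hmul.1.1, fun a j h1 h2 => ?_⟩
    by_cases hj : j < a + (l + 1)
    · exact hmul.1.2 a j h1 hj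
    · have : j = a + (l + 1) := by omega
      rw [this, hmul.2 a, hgl a]
      exact neg_add_cancel _

/-- every element of `U` is congruent to a product of root elements -/
theorem exists_closure_mul (hm : 3 ≤ m) (n : ℕ) (u : GL (Fin m) F[X]) (hu : u ∈ UU F m) :
    ∃ h ∈ Subgroup.closure (rootSet F (Finset.univ : Finset (Fin m))), h * u ∈ Ncong F m n := by
  obtain ⟨h, hh, hv⟩ := reduce_level hm (m * n) u hu
  refine ⟨h, hh, ?_⟩
  rw [mem_Ncong]
  intro a j hj
  have hmpos : 0 < m := by omega
  have hj' : j < m * n := by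
    have h1 := Nat.div_add_mod j m
    have h2 := Nat.mod_lt j hmpos
    have h3 : m * (j / m + 1) ≤ m * n := Nat.mul_le_mul_left m hj
    rw [Nat.mul_add] at h3
    omega
  rw [coef_one]
  by_cases h1 : j = a
  · subst h1; rw [if_pos rfl, hv.1.2]
  · rw [if_neg h1]
    by_cases h2 : (a : ℕ) < j
    · exact hv.2 a j h2 (by omega)
    · by_contra hne
      have := pth_nonneg hv.1 a j hne
      omega

/-- `Gq` is generated by its root groups -/
theorem gen_Gq (hm : 3 ≤ m) (n : ℕ) : KJ (Aq F m n) Finset.univ = ⊤ := by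
  rw [eq_top_iff]
  intro x _
  obtain ⟨u, rfl⟩ := QuotientGroup.mk_surjective x
  obtain ⟨h, hh, hhu⟩ := exists_closure_mul hm n u.1 u.2
  have hhU : h ∈ UU F m := rootSet_subset _ hh
  have h1 : (QuotientGroup.mk' (Nn F m n) u : Gq F m n) =
      (QuotientGroup.mk' (Nn F m n) ⟨h, hhU⟩)⁻¹ := by
    have h2 : (⟨h, hhU⟩ : UU F m) * u ∈ Nn F m n := by
      rw [Subgroup.mem_subgroupOf]
      exact hhu
    have h3 : QuotientGroup.mk' (Nn F m n) (⟨h, hhU⟩ * u) = 1 :=
      (QuotientGroup.eq_one_iff _).2 h2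
    rw [map_mul] at h3
    exact (inv_eq_of_mul_eq_one_right h3).symm
  change QuotientGroup.mk' (Nn F m n) u ∈ _
  rw [h1]
  refine inv_mem ?_
  set H : Subgroup (UU F m) :=
    (KJ (Aq F m n) Finset.univ).comap (QuotientGroup.mk' (Nn F m n)) with hH
  have h4 : Subgroup.closure (rootSet F (Finset.univ : Finset (Fin m))) ≤
      H.map (UU F m).subtype := by
    rw [Subgroup.closure_le]
    rintro _ ⟨i, hi, c, _, rfl⟩
    have h2 : rt i (i + 1) hi c ∈ KU F {i} := rt_mem_KU hi (pth_one (Finset.mem_singleton_self i)) c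
    have h3 : rt i (i + 1) hi c ∈ UU F m := KU_mono (Finset.subset_univ _) h2
    refine ⟨⟨_, h3⟩, ?_, rfl⟩
    change QuotientGroup.mk' (Nn F m n) ⟨rt i (i + 1) hi c, h3⟩ ∈ KJ (Aq F m n) Finset.univ
    exact (le_iSup₂_of_le i (Finset.mem_univ i) le_rfl :
      Aq F m n i ≤ KJ (Aq F m n) Finset.univ) ⟨⟨_, h3⟩, h2, rfl⟩
  obtain ⟨v, hv, hvu⟩ := h4 hh
  have : v = ⟨h, hhU⟩ := Subtype.ext hvu
  rw [← this]
  exact hv

/-- the intersection property -/
theorem intP (F : Type) [Field F] [Finite F] {m : ℕ} [NeZero m] (hm : 3 ≤ m) {n : ℕ}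
    (hn : 2 ≤ n) : IntP (Aq F m n) :=
  intP_Aq hn (gen_Gq hm n)

end

end Crest.Agent.R66
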