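import Crest.Agent.R66.CG5
import Crest.Agent.R66.DGTop

/-!
# Row 66, part (C), groups: the induction step
Author: helper81.
-/

set_option autoImplicit false
set_option linter.unusedSectionVars false

open Polynomial Matrix
open scoped Pointwise

namespace Crest.Agent.R66

section
variable {F : Type} [Field F] {m n : ℕ} [NeZero m]

/-- the vanishing statement for the congruence group of rank `r` -/
def VN (F : Type) [Field F] (r n s : ℕ) : Prop :=
  VanG (NL ((X : F[X]) ^ n) (Fin r → F[X])) ((Fin r → F[X]) ≃ₗ[F[X]] (Fin r → F[X])) s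

/-- (P4): the stabilisers of the faces are pointwise stabilisers of direct summands -/
def FaceStab (F : Type) [Field F] (m n : ℕ) [NeZero m] {V : Type} [DecidableEq V]
    [MulAction (Ncong F m n) V] (K : Set (Finset V)) : Prop :=
  ∀ σ ∈ K, ∀ b r : ℕ, σ.card = b → b + r = m →
    ∃ e : (Fin m → F[X]) ≃ₗ[F[X]] (Fin b → F[X]) × (Fin r → F[X]),
      ∀ g : Ncong F m n, g • σ = σ ↔ ∀ x, (e x).2 = 0 → g.1.1 *ᵥ x = x

theorem freeAct_sub {G : Type*} [Group G] (H : Subgroup G) (H' : Subgroup H) : FreeAct H' G := by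
  intro g x hx
  have : g.1.1 * x = x := hx
  exact Subtype.ext (Subtype.ext (mul_eq_right.1 this))

theorem vanG_stab_P {V : Type} [DecidableEq V] [MulAction (Ncong F m n) V] {σ : Finset V}
    {p : ℕ} (hp : p.Prime) (hp2 : p ≠ 2) (hchar : CharP F p) {b r : ℕ}
    (e : (Fin m → F[X]) ≃ₗ[F[X]] (Fin b → F[X]) × (Fin r → F[X]))
    (he : ∀ g : Ncong F m n, g • σ = σ ↔ ∀ x, (e x).2 = 0 → g.1.1 *ᵥ x = x) {s : ℕ}
    (h : VN F r n s) :
    VanG (MulAction.stabilizer (Ncong F m n) σ) (GL (Fin m) F[X]) s := by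
  have hM : ∀ x : Fin m → F[X], p • x = 0 := by
    intro x
    funext i
    rw [Pi.smul_apply, nsmul_eq_mul, CharP.cast_eq_zero, zero_mul]
    rfl
  have h1 := vanG_PL ((X : F[X]) ^ n) e hp hp2 hM h
  set κ : MulAction.stabilizer (Ncong F m n) σ →* ((Fin m → F[X]) ≃ₗ[F[X]] (Fin m → F[X])) :=
    (glL F[X] m).toMonoidHom.comp ((Ncong F m n).subtype.comp
      (MulAction.stabilizer (Ncong F m n) σ).subtype) with hκ
  have hinj : Function.Injective κ := by
    intro x y hxy
    exact Subtype.ext (Subtype.ext ((glL F[X] m).injective hxy))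
  have hrange : κ.range = PL ((X : F[X]) ^ n) e := by
    ext g
    constructor
    · rintro ⟨γ, rfl⟩
      refine ⟨glL_mem_NL.2 γ.1.2, fun x hx => ?_⟩
      show glL F[X] m γ.1.1 x = x
      rw [glL_apply]
      exact (he γ.1).1 γ.2 x hx
    · rintro ⟨hg1, hg2⟩
      have h3 : (glL F[X] m).symm g ∈ Ncong F m n := by
        rw [← glL_mem_NL, MulEquiv.apply_symm_apply]
        exact hg1
      refine ⟨⟨⟨(glL F[X] m).symm g, h3⟩, ?_⟩, ?_⟩
      · rw [MulAction.mem_stabilizer_iff, he]
        intro x hx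
        show ((glL F[X] m).symm g).1 *ᵥ x = x
        rw [← glL_apply, MulEquiv.apply_symm_apply]
        exact hg2 x hx
      · exact (glL F[X] m).apply_symm_apply g
  exact VanG.of_equiv ((MonoidHom.ofInjective hinj).trans (MulEquiv.subgroupCongr hrange))
    (freeAct_sub _ _) (freeAct_self _) h1

/-- the unipotent trick at the vertices -/
theorem triv_vertex {V : Type} [DecidableEq V] [MulAction (Ncong F m n) V] {v : V}
    {p : ℕ} (hp : p.Prime) (hp2 : p ≠ 2) (hchar : CharP F p) {r : ℕ} (hr : 1 + r = m)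
    (e : (Fin m → F[X]) ≃ₗ[F[X]] (Fin 1 → F[X]) × (Fin r → F[X]))
    (he : ∀ g : Ncong F m n, g • v = v → ∀ x, (e x).2 = 0 → g.1.1 *ᵥ x = x) {s : ℕ}
    {u : GL (Fin m) F[X]} (hu : u.1.det = 1) {f : List (GL (Fin m) F[X]) → ZMod 2}
    (hf : InvL (Ncong F m n) f) (hc : ∀ l : List (GL (Fin m) F[X]), l.length = s + 1 → LD f l = 0) :
    TrivL (MulAction.stabilizer (Ncong F m n) v) s (fun l => f l + f (trl u l)) := by
  have hM : ∀ x : Fin m → F[X], p • x = 0 := by
    intro x
    funext i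
    rw [Pi.smul_apply, nsmul_eq_mul, CharP.cast_eq_zero, zero_mul]
    rfl
  have h1 := triv_conj (glL F[X] m) (Ncong F m n)
    ((PL ((X : F[X]) ^ n) e).comap (glL F[X] m).toMonoidHom) (NL ((X : F[X]) ^ n) (Fin m → F[X]))
    (PL ((X : F[X]) ^ n) e) (fun g hg => by
      rw [← glL_mem_NL, MulEquiv.apply_symm_apply]; exact hg) (fun g hg => hg) (s := s) (u := u)
    (fun f hf hc => triv_PL ((X : F[X]) ^ n) e hp hp2 hM (sl_mem_WU hr e u hu) hf hc) hf hc
  refine h1.of_act fun g => ⟨⟨g.1.1, glL_mem_NL.2 g.1.2, fun x hx => ?_⟩, fun x => rfl⟩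
  show glL F[X] m g.1.1 x = x
  rw [glL_apply]
  exact he g.1 g.2 x hx

/-- THE INDUCTION STEP, from the coloured join `K` and the vanishing for `U` -/
theorem vn_step [Fintype F] (hF : Odd (Fintype.card F)) (hn : 1 ≤ n) {s : ℕ} (hs : 1 ≤ s)
    (hm : 1 ≤ m) {V : Type} [DecidableEq V] [MulAction (Ncong F m n) V] {K : Set (Finset V)}
    (hKd : DownCl K) (hE : ∅ ∈ K) (hKi : ∀ (g : Ncong F m n), ∀ σ ∈ K, g • σ ∈ K)
    (hK : ∀ b, b < s → CoEx K b) (hKs : CoExInv (Ncong F m n) K s) (hst : FaceStab F m n K)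
    (hbound : ∀ σ ∈ K, σ.card ≤ m)
    (hIH : ∀ b r : ℕ, 2 ≤ b → b < s → b + r = m → VN F r n (s + 1 - b))
    (hU : VanG (UU F m) (GL (Fin m) F[X]) s) : VN F m n s := by
  obtain ⟨p, hchar⟩ := CharP.exists F
  have hp : p.Prime := by
    rcases CharP.char_is_prime_or_zero F p with h | h
    · exact h
    · subst h
      have := CharP.charP_to_charZero F
      exact absurd (Finite.of_fintype F) (not_finite_iff_infinite.2 (by
        exact Infinite.of_injective (fun k : ℕ => (k : F)) Nat.cast_injective))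
  have hp2 : p ≠ 2 := by
    rintro rfl
    have h1 : (2 : ℕ) ∣ Fintype.card F := by
      have := (CharP.cast_eq_zero_iff F 2 (Fintype.card F)).1 (by
        exact Nat.cast_card_eq_zero F)
      exact this
    obtain ⟨k, hk⟩ := hF
    omega
  -- `VanG` for `Ncong` acting on `GL`
  have hmain : VanG (Ncong F m n) (GL (Fin m) F[X]) s := by
    have hnorm := Ncong_normal (F := F) (m := m) n
    have h1 : VanG (Nn F m n) (GL (Fin m) F[X]) s := by
      have hfin : Finite (UU F m ⧸ Nn F m n) := finite_Gq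
      have hodd : Odd (Nat.card (UU F m ⧸ Nn F m n)) := by
        have := odd_card_Gq (F := F) (m := m) (n := n) hF
        rwa [← Nat.card_eq_fintype_card] at this
      refine vanG_of_index (Nn F m n) hodd hU ?_
      intro f hf hc u
      have hf' : InvL (Ncong F m n) f :=
        hf.of_act fun g => ⟨⟨⟨g.1, Ncong_le hn g.2⟩, g.2⟩, fun _ => rfl⟩
      have h2 : TrivL (Ncong F m n) s (fun l => f l + f (trl u.1 l)) := by
        refine triv_of_vertices (Γ := Ncong F m n) (T := GL (Fin m) F[X]) (freeAct_self _) hKd hKi s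
          hK hKs ?_ hE _ ?_ ?_ ?_ hs
        · intro σ hσ h2 h3
          obtain ⟨r, hr⟩ : ∃ r, σ.card + r = m := ⟨m - σ.card, by have := hbound σ hσ; omega⟩
          obtain ⟨e, he⟩ := hst σ hσ σ.card r rfl hr
          exact vanG_stab_P hp hp2 hchar e he (hIH σ.card r h2 h3 hr)
        · exact hf'.add (hf'.trl_normal hnorm u.1)
        · intro l hl
          have h1 : LD (fun l => f l + f (trl u.1 l)) l = LD f l + LD (fun l => f (trl u.1 l)) l :=
            LD_add f (fun l => f (trl u.1 l)) l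
          rw [h1, hc l hl, cocycle_trl hc u.1 l hl, add_zero]
        · intro v hv
          obtain ⟨e, he⟩ := hst {v} hv 1 (m - 1) (Finset.card_singleton v) (by omega)
          refine triv_vertex hp hp2 hchar (by omega : 1 + (m - 1) = m) e (fun g hg => ?_)
            (det_UU u.2) hf' hc
          rw [← he g, Finset.smul_finset_singleton, hg]
      exact h2.of_act fun g => ⟨⟨g.1.1, g.2⟩, fun _ => rfl⟩
    exact h1.of_act (fun g => ⟨⟨⟨g.1, Ncong_le hn g.2⟩, g.2⟩, fun _ => rfl⟩)
      (fun g => ⟨⟨g.1.1, g.2⟩, fun _ => rfl⟩)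
  -- conversion
  have hiso : ∃ φ : NL ((X : F[X]) ^ n) (Fin m → F[X]) ≃* Ncong F m n, True := by
    refine ⟨{ toFun := fun g => ⟨(glL F[X] m).symm g.1, ?_⟩
              invFun := fun g => ⟨glL F[X] m g.1, glL_mem_NL.2 g.2⟩
              left_inv := fun g => Subtype.ext (MulEquiv.apply_symm_apply _ _)
              right_inv := fun g => Subtype.ext (MulEquiv.symm_apply_apply _ _)
              map_mul' := fun g h => Subtype.ext (map_mul (glL F[X] m).symm g.1 h.1) }, trivial⟩
    rw [← glL_mem_NL, MulEquiv.apply_symm_apply]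
    exact g.2
  obtain ⟨φ, -⟩ := hiso
  exact VanG.of_equiv φ (freeAct_self _) (freeAct_self _) hmain

/-- vanishing for `U` -/
theorem vanG_U [Fintype F] (hF : Odd (Fintype.card F)) {s : ℕ} (hs : 1 ≤ s)
    (hX : ∀ b, b < s → CoEx (XU F m) b) : VanG (UU F m) (GL (Fin m) F[X]) s :=
  vanG_of_complex (freeAct_self _) XU_down (fun g σ h => XU_smul g σ h) s hX (coExInv_XU s)
    (fun _ hσ h1 => vanG_stab_U hF hσ h1 _) XU_empty hs

/-- from `VN` to `Van` -/
theorem van_of_vn [Fintype F] (hF : Odd (Fintype.card F)) (hn : 1 ≤ n) (hI : IntP (Aq F m n)) (d : ℕ)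
    (hX : ∀ b, b ≤ d → CoEx (XU F m) b) (hV : ∀ s, 1 ≤ s → s ≤ d → VN F m n s) :
    Van (chams (Aq F m n)) d := by
  refine van_of_coExInv hI d fun s hs hsd => ?_
  have h1 : VanG (Ncong F m n) (GL (Fin m) F[X]) s := by
    have hiso : ∃ φ : Ncong F m n ≃* NL ((X : F[X]) ^ n) (Fin m → F[X]), True := by
      refine ⟨{ invFun := fun g => ⟨(glL F[X] m).symm g.1, ?_⟩
                toFun := fun g => ⟨glL F[X] m g.1, glL_mem_NL.2 g.2⟩
                right_inv := fun g => Subtype.ext (MulEquiv.apply_symm_apply _ _)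
                left_inv := fun g => Subtype.ext (MulEquiv.symm_apply_apply _ _)
                map_mul' := fun g h => Subtype.ext (map_mul (glL F[X] m) g.1 h.1) }, trivial⟩
      rw [← glL_mem_NL, MulEquiv.apply_symm_apply]
      exact g.2
    obtain ⟨φ, -⟩ := hiso
    exact VanG.of_equiv φ (freeAct_self _) (freeAct_self _) (hV s hs hsd)
  have h2 : VanG (Nn F m n) (UU F m) s := by
    have h3 : VanG (Nn F m n) (GL (Fin m) F[X]) s :=
      h1.of_act (fun g => ⟨⟨g.1.1, g.2⟩, fun _ => rfl⟩)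
        (fun g => ⟨⟨⟨g.1, Ncong_le hn g.2⟩, g.2⟩, fun _ => rfl⟩)
    exact VanG.change (freeAct_self _) (freeAct_sub _ _) h3
  exact coExInv_of_vanG (freeAct_self _) XU_down (fun g σ h => XU_smul g.1 σ h) s hs
    (fun b hb => hX b (by omega)) h2 (fun σ hσ h1 _ => vanG_stab_N hF hσ h1 _)

end

end Crest.Agent.R66
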