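import Crest.Agent.R66.LDef

/-!
# Row 66, piece L_NRM: normalised translates, adjacency (helper62)

PROOFS. `exists_nrm`: `{k | M ≤ EE (m*k)}` is nonempty (hi) and bounded above (lo, `EE_le_iff`); with
`k0` its maximum, `shS (m * (-k0)) M` is normalised. Uniqueness: if `M` and `shS (m*k) M` are
normalised with `k ≥ 1` then `shS (m*k) M ≤ shS m M ≤ EE m` (`st` iterated); symmetric for `k ≤ -1`.
`adj_iff`: (⇒) `k = 0` gives comparability; `k = 1`: if `M' ≤ shS m M ≤ EE m` contradiction with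
`nle`; (⇐) `k ≥ 1`: `shS (m*k) M ≤ shS m M ≤ M'`; `k ≤ -1`: `M' ≤ shS (-m) M ≤ shS (m*k) M`.
-/

set_option autoImplicit false
set_option linter.unusedSectionVars false

namespace Crest.Agent.R66

variable {F : Type*} [Field F] {m : ℕ}

theorem shS_nat_le {M : Submodule F (VV F)} (h : shS (m : ℤ) M ≤ M) {k : ℤ} (hk : 0 ≤ k) :
    shS (m * k) M ≤ M := by
  lift k to ℕ using hk
  induction k with
  | zero => simp
  | succ k ih =>
    have h1 : (m : ℤ) * ((k + 1 : ℕ) : ℤ) = m + m * (k : ℤ) := by push_cast; ring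
    rw [h1, ← shS_shS]
    exact (shS_mono ih).trans h

theorem shS_anti {M : Submodule F (VV F)} (h : shS (m : ℤ) M ≤ M) {k l : ℤ} (hkl : k ≤ l) :
    shS (m * l) M ≤ shS (m * k) M := by
  have h1 : (m : ℤ) * l = m * k + m * (l - k) := by ring
  rw [h1, ← shS_shS]
  exact shS_mono (shS_nat_le h (sub_nonneg.mpr hkl))

theorem IsLat.shS {M : Submodule F (VV F)} (h : IsLat m M) (c : ℤ) : IsLat m (shS c M) := by
  refine ⟨?_, ?_, ?_⟩
  · rw [shS_shS, add_comm, ← shS_shS]
    exact shS_mono h.st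
  · obtain ⟨b, hb⟩ := h.lo
    exact ⟨b + c, by rw [← shS_EE]; exact shS_mono hb⟩
  · obtain ⟨a, ha⟩ := h.hi
    exact ⟨a + c, by rw [← shS_EE]; exact shS_mono ha⟩

theorem IsLat_EE (i : ℤ) : IsLat m (EE i : Submodule F (VV F)) := by
  refine ⟨?_, ⟨i, le_rfl⟩, ⟨i, le_rfl⟩⟩
  rw [shS_EE]
  exact EE_anti (by omega)

theorem exists_nrm (hm : 0 < m) {M : Submodule F (VV F)} (h : IsLat m M) :
    ∃ k : ℤ, Nrm m (shS (m * k) M) := by
  obtain ⟨b, hb⟩ := h.lo
  obtain ⟨a, ha⟩ := h.hi
  have hm' : (0 : ℤ) < m := by exact_mod_cast hm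
  have hm1 : (1 : ℤ) ≤ m := hm'
  have hbdd : ∃ B : ℤ, ∀ z : ℤ, M ≤ EE ((m : ℤ) * z) → z ≤ B := by
    refine ⟨|b|, fun z hz => ?_⟩
    have h1 : (m : ℤ) * z ≤ b := EE_le_iff.1 (hb.trans hz)
    by_contra hc
    push Not at hc
    have h2 : |b| ≥ b := le_abs_self b
    have h3 : 0 ≤ |b| := abs_nonneg b
    nlinarith
  have hne : ∃ z : ℤ, M ≤ EE ((m : ℤ) * z) := by
    refine ⟨-|a|, ha.trans (EE_anti ?_)⟩
    have h2 : -|a| ≤ a := neg_abs_le a
    have h3 : 0 ≤ |a| := abs_nonneg a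
    nlinarith
  obtain ⟨k0, hk0, hmax⟩ := Int.exists_greatest_of_bdd hbdd hne
  refine ⟨-k0, h.shS _, ?_, ?_⟩
  · have h1 := shS_mono (c := (m : ℤ) * -k0) hk0
    rw [shS_EE] at h1
    have h2 : (m : ℤ) * k0 + m * -k0 = 0 := by ring
    rwa [h2] at h1
  · intro hc
    have h1 := shS_mono (c := (m : ℤ) * k0) hc
    rw [shS_shS, shS_EE] at h1
    have h2 : (m : ℤ) * k0 + m * -k0 = 0 := by ring
    rw [h2, shS_zero] at h1
    have h3 : (m : ℤ) + m * k0 = m * (k0 + 1) := by ring
    rw [h3] at h1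
    have := hmax _ h1
    omega

theorem nrm_unique {M : Submodule F (VV F)} {k : ℤ} (h : Nrm m M) (hk : Nrm m (shS (m * k) M)) :
    shS (m * k) M = M := by
  rcases lt_trichotomy k 0 with hk0 | hk0 | hk0
  · exfalso
    have h1 : M ≤ shS ((m : ℤ) * 1) (Crest.Agent.R66.shS (m * k) M) := by
      rw [shS_shS]
      have h2 : (m : ℤ) * 1 + m * k = m * (1 + k) := by ring
      rw [h2]
      have h3 := shS_anti h.lat.st (k := 1 + k) (l := 0) (by omega)
      rwa [mul_zero, shS_zero] at h3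
    apply h.nle
    refine h1.trans ((shS_mono hk.le0).trans ?_)
    rw [shS_EE, mul_one, zero_add]
  · rw [hk0, mul_zero, shS_zero]
  · exfalso
    apply hk.nle
    have h3 := shS_anti h.lat.st (k := 1) (l := k) (by omega)
    refine h3.trans ((shS_mono h.le0).trans ?_)
    rw [shS_EE, mul_one, zero_add]

open scoped Classical in
/-- the normalised translate of a lattice -/
noncomputable def nrm (m : ℕ) (M : Submodule F (VV F)) : Submodule F (VV F) :=
  if h : ∃ k : ℤ, Nrm m (shS (m * k) M) then shS (m * h.choose) M else M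

theorem nrm_nrm (hm : 0 < m) {M : Submodule F (VV F)} (h : IsLat m M) : Nrm m (nrm m M) := by
  have hex := exists_nrm hm h
  unfold nrm
  rw [dif_pos hex]
  exact hex.choose_spec

theorem nrm_eq_shS (m : ℕ) (M : Submodule F (VV F)) : ∃ k : ℤ, nrm m M = shS (m * k) M := by
  unfold nrm
  split_ifs with h
  · exact ⟨h.choose, rfl⟩
  · exact ⟨0, by rw [mul_zero, shS_zero]⟩

/-- the normalised translate is unique -/
theorem nrm_eq {M : Submodule F (VV F)} {k : ℤ} (h : Nrm m (shS (m * k) M)) :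
    nrm m M = shS (m * k) M := by
  have hex : ∃ k : ℤ, Nrm m (Crest.Agent.R66.shS (m * k) M) := ⟨k, h⟩
  unfold nrm
  rw [dif_pos hex]
  have h1 := hex.choose_spec
  have h2 : Crest.Agent.R66.shS ((m : ℤ) * hex.choose) M =
      Crest.Agent.R66.shS (m * (hex.choose - k)) (Crest.Agent.R66.shS (m * k) M) := by
    rw [shS_shS]
    congr 1
    ring
  rw [h2]
  rw [h2] at h1
  exact nrm_unique h h1

theorem nrm_of_Nrm {M : Submodule F (VV F)} (h : Nrm m M) : nrm m M = M := by
  have h1 : Nrm m (shS ((m : ℤ) * 0) M) := by rwa [mul_zero, shS_zero]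
  rw [nrm_eq h1, mul_zero, shS_zero]

theorem nrm_shS (hm : 0 < m) {M : Submodule F (VV F)} (h : IsLat m M) (k : ℤ) :
    nrm m (shS (m * k) M) = nrm m M := by
  obtain ⟨j, hj⟩ := exists_nrm hm h
  have h1 : Crest.Agent.R66.shS ((m : ℤ) * (j - k)) (Crest.Agent.R66.shS (m * k) M) =
      Crest.Agent.R66.shS (m * j) M := by
    rw [shS_shS]
    congr 1
    ring
  rw [nrm_eq hj, nrm_eq (k := j - k) (by rw [h1]; exact hj), h1]

theorem Adj.symm {M M' : Submodule F (VV F)} (h : Adj m M M') : Adj m M' M := by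
  intro k
  have h1 : (-((m : ℤ) * k)) = m * (-k) := by ring
  rcases h (-k) with h2 | h2
  · right
    rw [le_shS_comm, h1]
    exact h2
  · left
    rw [shS_le_comm, h1]
    exact h2

theorem Adj.shS_left {M M' : Submodule F (VV F)} (h : Adj m M M') (k : ℤ) :
    Adj m (shS (m * k) M) M' := by
  intro j
  rw [shS_shS, ← mul_add]
  exact h (j + k)

theorem adj_iff {M M' : Submodule F (VV F)} (h : Nrm m M) (h' : Nrm m M') :
    Adj m M M' ↔ (M ≤ M' ∨ M' ≤ M) ∧ shS (m : ℤ) M ≤ M' ∧ shS (m : ℤ) M' ≤ M := by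
  constructor
  · intro hA
    refine ⟨?_, ?_, ?_⟩
    · have := hA 0
      rwa [mul_zero, shS_zero] at this
    · rcases hA 1 with h1 | h1
      · rwa [mul_one] at h1
      · exfalso
        apply h'.nle
        refine h1.trans ((shS_mono h.le0).trans ?_)
        rw [shS_EE, mul_one, zero_add]
    · rcases hA (-1) with h1 | h1
      · exfalso
        apply h.nle
        rw [shS_le_comm] at h1
        refine h1.trans ((shS_mono h'.le0).trans ?_)
        rw [shS_EE]
        exact EE_anti (by omega)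
      · rw [le_shS_comm] at h1
        have h2 : (-((m : ℤ) * -1)) = m := by ring
        rwa [h2] at h1
  · rintro ⟨h0, h1, h2⟩ k
    rcases lt_trichotomy k 0 with hk0 | hk0 | hk0
    · right
      have h3 : M' ≤ shS (-(m : ℤ)) M := shS_le_comm.1 h2
      have h4 := shS_anti h.lat.st (k := k) (l := -1) (by omega)
      have h5 : (m : ℤ) * -1 = -m := by ring
      rw [h5] at h4
      exact h3.trans h4
    · rw [hk0, mul_zero, shS_zero]
      exact h0
    · left
      have h4 := shS_anti h.lat.st (k := 1) (l := k) (by omega)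
      rw [mul_one] at h4
      exact h4.trans h1

end Crest.Agent.R66
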