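import Crest.Agent.R66.LDef

/-!
# Row 66, piece L_SEP: separators in a chain of subsets of `ℤ`; transfer of exactness (helper62)

PROOF of `sep_unique`: induction on the number of separators of `(y, x)`. If there is only one, take
`y' = y, x' = x`. Otherwise let `B1 ⊋ B2` be two separators, `z ∈ B1 \ B2`. `z ≠ x, y`.
If `z < x`: every separator `B` of `(z, x)` contains `z`, so `B2 ⊆ B`, `y ∈ B`: the separators of
`(z, x)` are separators of `(y, x)`, different from `B2`; `B1` is one of them.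
If `x < z`: `(y, z)`: a separator `B` does not contain `z`, so `B ⊆ B1`, `x ∉ B`; `B2` is one, `B1` not.
PROOF of `exact_transfer`: `z ↦ push ψ z = bd b ↦ bd (push φ b) = push φ (push ψ z) = z`.
-/

set_option autoImplicit false
set_option linter.unusedSectionVars false

namespace Crest.Agent.R66

open Finset

namespace LSepAux

theorem sep_aux (C : Set (Set ℤ)) (hC : ∀ A ∈ C, ∀ B ∈ C, A ⊆ B ∨ B ⊆ A) (n : ℕ) :
    ∀ y x : ℤ, y < x → {A | A ∈ C ∧ y ∈ A ∧ x ∉ A}.Finite →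
      {A | A ∈ C ∧ y ∈ A ∧ x ∉ A}.ncard = n →
      {A | A ∈ C ∧ y ∈ A ∧ x ∉ A}.Nonempty →
      ∃ A ∈ C, (y ∈ A ∧ x ∉ A) ∧ ∃ y' x' : ℤ, y' < x' ∧ (y' ∈ A ∧ x' ∉ A) ∧
        ∀ B ∈ C, y' ∈ B → x' ∉ B → B = A := by
  induction n using Nat.strong_induction_on with
  | _ n ih =>
    intro y x hyx hfin hn hne
    by_cases hone : ∃ A, ∀ B, B ∈ C ∧ y ∈ B ∧ x ∉ B → B = A
    · obtain ⟨A, hA⟩ := hone
      obtain ⟨A', hA'C, hA'y, hA'x⟩ := hne
      have hAA : A' = A := hA A' ⟨hA'C, hA'y, hA'x⟩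
      subst hAA
      exact ⟨A', hA'C, ⟨hA'y, hA'x⟩, y, x, hyx, ⟨hA'y, hA'x⟩, fun B hB hyB hxB => hA B ⟨hB, hyB, hxB⟩⟩
    · -- two different separators
      obtain ⟨A0, hA0⟩ := hne
      push Not at hone
      obtain ⟨A1, hA1, hne1⟩ := hone A0
      -- order them
      obtain ⟨B1, B2, hB1, hB2, hsub, z, hz1, hz2⟩ :
          ∃ B1 B2 : Set ℤ, (B1 ∈ C ∧ y ∈ B1 ∧ x ∉ B1) ∧ (B2 ∈ C ∧ y ∈ B2 ∧ x ∉ B2) ∧ B2 ⊆ B1 ∧
            ∃ z, z ∈ B1 ∧ z ∉ B2 := by
        rcases hC A0 hA0.1 A1 hA1.1 with h | h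
        · refine ⟨A1, A0, hA1, hA0, h, ?_⟩
          by_contra hcon
          push Not at hcon
          exact hne1 (Set.Subset.antisymm hcon h)
        · refine ⟨A0, A1, hA0, hA1, h, ?_⟩
          by_contra hcon
          push Not at hcon
          exact hne1 (Set.Subset.antisymm h hcon)
      have hzx : z ≠ x := fun e => hB1.2.2 (e ▸ hz1)
      rcases lt_or_gt_of_ne hzx with hlt | hgt
      · -- the pair (z, x)
        have hsubS : {A | A ∈ C ∧ z ∈ A ∧ x ∉ A} ⊂ {A | A ∈ C ∧ y ∈ A ∧ x ∉ A} := by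
          refine ⟨?_, ?_⟩
          · rintro B ⟨hBC, hBz, hBx⟩
            refine ⟨hBC, ?_, hBx⟩
            rcases hC B2 hB2.1 B hBC with h | h
            · exact h hB2.2.1
            · exact absurd (h hBz) hz2
          · intro h
            exact hz2 (h hB2).2.1
        obtain ⟨A, hAC, ⟨hAz, hAx⟩, rest⟩ := ih _ (by rw [← hn]; exact Set.ncard_lt_ncard hsubS hfin)
          z x hlt (hfin.subset hsubS.1) rfl ⟨B1, hB1.1, hz1, hB1.2.2⟩
        exact ⟨A, hAC, ⟨(hsubS.1 ⟨hAC, hAz, hAx⟩).2.1, hAx⟩, rest⟩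
      · have hsubS : {A | A ∈ C ∧ y ∈ A ∧ z ∉ A} ⊂ {A | A ∈ C ∧ y ∈ A ∧ x ∉ A} := by
          refine ⟨?_, ?_⟩
          · rintro B ⟨hBC, hBy, hBz⟩
            refine ⟨hBC, hBy, ?_⟩
            rcases hC B1 hB1.1 B hBC with h | h
            · exact absurd (h hz1) hBz
            · exact fun hx => hB1.2.2 (h hx)
          · intro h
            exact (h hB1).2.2 hz1
        obtain ⟨A, hAC, ⟨hAy, hAz⟩, rest⟩ := ih _ (by rw [← hn]; exact Set.ncard_lt_ncard hsubS hfin)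
          y z (hyx.trans hgt) (hfin.subset hsubS.1) rfl ⟨B2, hB2.1, hB2.2.1, hz2⟩
        exact ⟨A, hAC, ⟨hAy, (hsubS.1 ⟨hAC, hAy, hAz⟩).2.2⟩, rest⟩

end LSepAux

/-- in a chain `C` of subsets of `ℤ`, an inversion `y < x` which is separated by some member
dominates an inversion with exactly one separator. -/
theorem sep_unique (C : Set (Set ℤ)) (hC : ∀ A ∈ C, ∀ B ∈ C, A ⊆ B ∨ B ⊆ A) (y x : ℤ)
    (hyx : y < x) (hfin : {A | A ∈ C ∧ y ∈ A ∧ x ∉ A}.Finite)
    (hne : {A | A ∈ C ∧ y ∈ A ∧ x ∉ A}.Nonempty) :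
    ∃ A ∈ C, (y ∈ A ∧ x ∉ A) ∧ ∃ y' x' : ℤ, y' < x' ∧ (y' ∈ A ∧ x' ∉ A) ∧
      ∀ B ∈ C, y' ∈ B → x' ∉ B → B = A :=
  LSepAux.sep_aux C hC _ y x hyx hfin rfl hne

/-- TRANSFER of exactness. -/
theorem exact_transfer {α β : Type*} [DecidableEq α] [DecidableEq β] {K : Set (Finset α)}
    {L : Set (Finset β)} (φ : α → β) (ψ : β → α)
    (h1 : ∀ σ ∈ K, σ.image φ ∈ L) (h2 : ∀ τ ∈ L, τ.image ψ ∈ K)
    (h4 : ∀ τ ∈ L, ∀ y ∈ τ, φ (ψ y) = y) (n : ℕ) (h : ExactAt K n) :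
    ExactAt L n := by
  classical
  intro z hz h0
  have hinj : ∀ τ ∈ L, Set.InjOn ψ (τ : Set β) := by
    intro τ hτ a ha b hb hab
    rw [← h4 τ hτ a ha, ← h4 τ hτ b hb, hab]
  have hzK : On K n (push ψ z) := by
    refine hz.map (push ψ) fun s hs hc => ?_
    rw [push_single, if_pos (hinj s hs)]
    exact On.single (h2 s hs) (by rw [Finset.card_image_of_injOn (hinj s hs), hc]) 1
  obtain ⟨b, hb, hbd⟩ := h (push ψ z) hzK (by rw [bd_push, h0, map_zero])
  refine ⟨push φ b, ?_, ?_⟩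
  · refine hb.map (push φ) fun s hs hc => ?_
    rw [push_single]
    split_ifs with hi
    · exact On.single (h1 s hs) (by rw [Finset.card_image_of_injOn hi, hc]) 1
    · exact On.zero
  · rw [bd_push, hbd]
    have hz' : z = ∑ s ∈ z.support, z s • Finsupp.single s (1 : ZMod 2) := by
      conv_lhs => rw [← Finsupp.sum_single z]
      rw [Finsupp.sum]
      apply Finset.sum_congr rfl
      intro s _
      simp
    conv_rhs => rw [hz']
    conv_lhs => rw [hz']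
    simp only [map_sum, map_smul]
    apply Finset.sum_congr rfl
    intro s hs
    have hsL := (hz s hs).1
    rw [push_single, if_pos (hinj s hsL), push_single, if_pos]
    · rw [Finset.image_image]
      have : s.image (φ ∘ ψ) = s := by
        have e : Set.EqOn (φ ∘ ψ) id (s : Set β) := fun y hy => h4 s hsL y hy
        rw [Finset.image_congr e, Finset.image_id]
      rw [this]
    · rw [Finset.coe_image]
      rintro _ ⟨a, ha, rfl⟩ _ ⟨c, hc, rfl⟩ hac
      rw [h4 s hsL a ha, h4 s hsL c hc] at hac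
      rw [hac]

end Crest.Agent.R66
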