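import Crest.Agent.R66.LGTrans
import Crest.Agent.R66.LSep
import Crest.Agent.R66.LNrm

/-!
# Row 66, part (C), glue: exactness of the coset complex of `U` from the lattice model  (helper24)

`psiU` : vertex `(i, g K_{I-i})` ↦ normalised translate of `g (EE (-i-1))`;
`phiU` : its inverse on complements.
-/

set_option autoImplicit false
set_option linter.unusedSectionVars false

open Polynomial Matrix Finset

namespace Crest.Agent.R66

section
variable {F : Type} [Field F] {m : ℕ} [NeZero m]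

theorem mpos' : 0 < m := Nat.pos_of_ne_zero (NeZero.ne m)

/-- standard lattice of type `i` -/
noncomputable abbrev Lst (F : Type) [Field F] {m : ℕ} (i : Fin m) : Submodule F (VV F) :=
  EE (-(i : ℕ) - 1 : ℤ)

/-- UNIQUENESS: the type and the coset are determined by any translate of the lattice -/
theorem coset_unique {i j : Fin m} {g h : UU F m} {s t : ℤ}
    (e : shS (m * s) (actS g (Lst F i)) = shS (m * t) (actS h (Lst F j))) :
    vxU i g = vxU j h := by
  have hm := mpos (m := m)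
  have h1 : IsCompl (shS (m * s) (actS g (Lst F i))) (VL (-(i : ℕ) - 1 + m * s)) :=
    isCompl_shS (isCompl_actS g (isCompl_EE_VL _))
  have h2 : IsCompl (shS (m * s) (actS g (Lst F i))) (VL (-(j : ℕ) - 1 + m * t)) := by
    rw [e]
    exact isCompl_shS (isCompl_actS h (isCompl_EE_VL _))
  have h3 := compl_unique h1 h2
  have hi := i.2
  have hj := j.2
  have hst : s = t := by
    have h4 : (m : ℤ) * (s - t) = (i : ℕ) - (j : ℕ) := by
      have : (m : ℤ) * (s - t) = m * s - m * t := by ring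
      rw [this]; omega
    have h5 : -(m : ℤ) < m * (s - t) := by omega
    have h6 : (m : ℤ) * (s - t) < m := by omega
    have h7 : -1 < s - t := by
      by_contra hc
      nlinarith
    have h8 : s - t < 1 := by
      by_contra hc
      nlinarith
    omega
  subst hst
  have hij : i = j := Fin.ext (by omega)
  subst hij
  have e2 := shS_injective _ e
  rw [vxU_eq_iff, ← stab_EE, actS_mul, ← e2, actS_inv_actS]

/-- the lattice of a vertex -/
noncomputable def psiU (v : VU F m) : Submodule F (VV F) :=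
  nrm m (actS (exists_vxU v).choose (Lst F (tpU v)))

theorem actS_vxU {i : Fin m} {g h : UU F m} (e : vxU i g = vxU i h) :
    actS g (Lst F i) = actS h (Lst F i) := by
  rw [vxU_eq_iff, ← stab_EE, actS_mul] at e
  have := congrArg (actS g) e
  rwa [← actS_mul, mul_inv_cancel, actS_one, eq_comm] at this

theorem psiU_vxU (i : Fin m) (g : UU F m) : psiU (vxU i g) = nrm m (actS g (Lst F i)) := by
  have h : vxU i g = vxU i (exists_vxU (vxU i g)).choose := (exists_vxU (vxU i g)).choose_spec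
  show nrm m (actS (exists_vxU (vxU i g)).choose (Lst F i)) = _
  rw [← actS_vxU h]

open scoped Classical in
/-- the vertex of a lattice -/
noncomputable def phiU (M : Submodule F (VV F)) : VU F m :=
  if h : ∃ p : Fin m × UU F m × ℤ, M = shS (m * p.2.2) (actS p.2.1 (Lst F p.1)) then
    vxU h.choose.1 h.choose.2.1 else vxU ⟨0, mpos'⟩ 1

theorem phiU_eq {i : Fin m} {g : UU F m} {s : ℤ} {M : Submodule F (VV F)}
    (h : M = shS (m * s) (actS g (Lst F i))) : (phiU M : VU F m) = vxU i g := by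
  have hex : ∃ p : Fin m × UU F m × ℤ, M = shS (m * p.2.2) (actS p.2.1 (Lst F p.1)) :=
    ⟨(i, g, s), h⟩
  unfold phiU
  rw [dif_pos hex]
  have h1 := hex.choose_spec
  exact coset_unique (h1.symm.trans h)

theorem phiU_psiU (v : VU F m) : phiU (psiU v) = v := by
  obtain ⟨g, hg⟩ := exists_vxU v
  rw [hg, psiU_vxU]
  obtain ⟨k, hk⟩ := nrm_eq_shS m (actS g (Lst F (tpU v)))
  rw [hk]
  exact phiU_eq rfl

/-- faces of `XU` are faces of `Xhat` -/
theorem psiU_mem [DecidableEq (Submodule F (VV F))] {τ : Finset (VU F m)} (hτ : τ ∈ XU F m) :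
    τ.image psiU ∈ Xhat F m := by
  obtain ⟨u, hu⟩ := hτ
  have h0 : ∀ v ∈ τ, psiU v = nrm m (actS u (Lst F (tpU v))) := by
    intro v hv
    conv_lhs => rw [hu v hv]
    rw [psiU_vxU]
  refine ⟨⟨fun M hM => ?_, fun M hM M' hM' => ?_⟩, fun M hM => ?_⟩
  · obtain ⟨v, hv, rfl⟩ := Finset.mem_image.1 hM
    rw [h0 v hv]
    exact nrm_nrm mpos' (isLat_actS u _)
  · obtain ⟨v, hv, rfl⟩ := Finset.mem_image.1 hM
    obtain ⟨w, hw, rfl⟩ := Finset.mem_image.1 hM'
    rw [h0 v hv, h0 w hw]
    obtain ⟨k, hk⟩ := nrm_eq_shS m (actS u (Lst F (tpU v)))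
    obtain ⟨l, hl⟩ := nrm_eq_shS m (actS u (Lst F (tpU w)))
    rw [hk, hl]
    intro s
    rw [shS_shS, ← mul_add, shS_actS, shS_actS, shS_EE, shS_EE, actS_le_iff, actS_le_iff,
      EE_le_iff, EE_le_iff]
    omega
  · obtain ⟨v, hv, rfl⟩ := Finset.mem_image.1 hM
    rw [h0 v hv]
    obtain ⟨k, hk⟩ := nrm_eq_shS m (actS u (Lst F (tpU v)))
    rw [hk]
    exact ⟨_, isCompl_shS (isCompl_actS u (isCompl_EE_VL _))⟩

/-- faces of `Xhat` are faces of `XU` -/
theorem phiU_mem {σ : Finset (Submodule F (VV F))} (hσ : σ ∈ Xhat F m) :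
    σ.image (phiU (m := m)) ∈ XU F m := by
  obtain ⟨u, hu⟩ := trans_Xhat hσ
  refine ⟨u, fun v hv => ?_⟩
  obtain ⟨M, hM, rfl⟩ := Finset.mem_image.1 hv
  obtain ⟨k, hk⟩ := hu M hM
  obtain ⟨s, hs⟩ := cl_spec (m := m) (k + 1)
  have e : M = shS (m * (-s)) (actS u (Lst F (cl m (k + 1)))) := by
    rw [shS_actS, shS_EE, hk]
    congr 2
    rw [mul_neg]
    omega
  rw [phiU_eq e, tpU_vxU]

/-- GLUE -/
theorem exactAt_XU [DecidableEq (Submodule F (VV F))] (n : ℕ) (h : ExactAt (Xhat F m) n) :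
    ExactAt (XU F m) n :=
  exact_transfer phiU psiU (fun _ hσ => phiU_mem hσ) (fun _ hτ => psiU_mem hτ)
    (fun _ _ y _ => phiU_psiU y) n h

end

end Crest.Agent.R66
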