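import Crest.Agent.R66.CG1
import Crest.Agent.R66.Chain

/-!
# Row 66: duality (UC lemma): homological exactness implies cohomological exactness (helper24)
-/

set_option autoImplicit false
set_option linter.unusedSectionVars false

open Finset

namespace Crest.Agent.R66

theorem coEx_of_exactAt {V : Type*} [DecidableEq V] {K : Set (Finset V)} {b : ℕ}
    (h : ExactAt K b) : CoEx K b := by
  intro φ hφ
  -- the functional of `φ`
  let Φ : Ch V →ₗ[ZMod 2] ZMod 2 := Finsupp.linearCombination (ZMod 2) φ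
  have hΦ : ∀ σ, Φ (Finsupp.single σ 1) = φ σ := by
    intro σ
    show Finsupp.linearCombination (ZMod 2) φ (Finsupp.single σ 1) = φ σ
    rw [Finsupp.linearCombination_single, one_smul]
  have hdec : ∀ z : Ch V, z = ∑ s ∈ z.support, z s • Finsupp.single s (1 : ZMod 2) := by
    intro z
    conv_lhs => rw [← Finsupp.sum_single z]
    rw [Finsupp.sum]
    exact Finset.sum_congr rfl fun s _ => by simp
  have hbd : ∀ w : Ch V, On K (b + 1) w → Φ (bd w) = 0 := by
    intro w hw
    rw [hdec w, map_sum, map_sum]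
    refine Finset.sum_eq_zero fun s hs => ?_
    rw [map_smul, map_smul, bd_single, map_sum]
    simp only [hΦ]
    rw [hφ s (hw s hs).1 (hw s hs).2, smul_zero]
  let C : Submodule (ZMod 2) (Ch V) :=
    { carrier := {z | On K b z}
      add_mem' := fun ha hb => On.add ha hb
      zero_mem' := On.zero
      smul_mem' := fun c z hz s hs => hz s (Finsupp.support_smul hs) }
  let f : C →ₗ[ZMod 2] Ch V := bd ∘ₗ C.subtype
  let g : Module.Dual (ZMod 2) C := Φ ∘ₗ C.subtype
  have hg : g ∈ (LinearMap.ker f).dualAnnihilator := by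
    rw [Submodule.mem_dualAnnihilator]
    rintro ⟨z, hz⟩ hz0
    obtain ⟨w, hw, hwz⟩ := h z hz hz0
    show Φ z = 0
    rw [← hwz]
    exact hbd w hw
  rw [← LinearMap.range_dualMap_eq_dualAnnihilator_ker] at hg
  obtain ⟨Ψ, hΨ⟩ := hg
  refine ⟨fun ρ => Ψ (Finsupp.single ρ 1), fun σ hσ hb => ?_⟩
  have h1 : Ψ (bd (Finsupp.single σ 1)) = Φ (Finsupp.single σ 1) := by
    have hmem : (Finsupp.single σ (1 : ZMod 2) : Ch V) ∈ C := On.single hσ hb 1
    exact LinearMap.congr_fun hΨ ⟨_, hmem⟩
  rw [bd_single, map_sum, hΦ] at h1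
  exact h1

end Crest.Agent.R66
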