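import Crest.Agent.R66.LMain
import Crest.Agent.R66.LGlue
import Crest.Agent.R66.LUC

/-!
# Row 66, part (C-L), final: the coset complex of `U` is exact at sizes `≤ S` (helper24)
-/

set_option autoImplicit false
set_option linter.unusedSectionVars false

namespace Crest.Agent.R66

variable {F : Type} [Field F] [Fintype F] {m : ℕ} [NeZero m]

theorem exactAt_XU_final {S b : ℕ} (hm : (S + 1) * (S + 2) ≤ m) (hq : MB S ≤ Fintype.card F)
    (hb : b ≤ S) : ExactAt (XU F m) b := by
  classical
  exact exactAt_XU b (exactAt_Xhat hm hq hb)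

theorem coEx_XU {S b : ℕ} (hm : (S + 1) * (S + 2) ≤ m) (hq : MB S ≤ Fintype.card F)
    (hb : b ≤ S) : CoEx (XU F m) b :=
  coEx_of_exactAt (exactAt_XU_final hm hq hb)

end Crest.Agent.R66
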