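import Crest.Agent.R66.P1

/-!
# Row 66, part C-P (helper26): a direct sum decomposition adapted to a linearly independent family
-/

set_option autoImplicit false

open Polynomial Matrix

namespace Crest.Agent.R66

section
variable {F : Type*} [Field F]

/-- the linear equivalence given by `g : GL`. -/
noncomputable def glEquiv {R : Type*} [CommRing R] {m : ℕ} (g : GL (Fin m) R) :
    (Fin m → R) ≃ₗ[R] (Fin m → R) :=
  LinearEquiv.ofLinear (Matrix.mulVecLin g.1) (Matrix.mulVecLin (g⁻¹ : GL (Fin m) R).1)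
    (by
      ext1 i
      apply LinearMap.ext
      intro x
      simp only [LinearMap.comp_apply, Matrix.mulVecLin_apply, mulVec_mulVec_inv,
        LinearMap.id_apply])
    (by
      ext1 i
      apply LinearMap.ext
      intro x
      simp only [LinearMap.comp_apply, Matrix.mulVecLin_apply, mulVec_inv_mulVec,
        LinearMap.id_apply])

theorem glEquiv_apply {R : Type*} [CommRing R] {m : ℕ} (g : GL (Fin m) R) (x : Fin m → R) :
    glEquiv g x = g.1 *ᵥ x := rfl

/-- first `b` and last `r` coordinates -/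
noncomputable def splitEquiv (R : Type*) [CommRing R] {b r m : ℕ} (hbr : b + r = m) :
    (Fin m → R) ≃ₗ[R] (Fin b → R) × (Fin r → R) :=
  (LinearEquiv.funCongrLeft R R (finSumFinEquiv.trans (finCongr hbr))).trans
    (LinearEquiv.sumArrowLequivProdArrow (Fin b) (Fin r) R R)

theorem splitEquiv_fst {R : Type*} [CommRing R] {b r m : ℕ} (hbr : b + r = m) (x : Fin m → R)
    (i : Fin b) : (splitEquiv R hbr x).1 i = x (Fin.cast hbr (Fin.castAdd r i)) := rfl

theorem splitEquiv_snd {R : Type*} [CommRing R] {b r m : ℕ} (hbr : b + r = m) (x : Fin m → R)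
    (i : Fin r) : (splitEquiv R hbr x).2 i = x (Fin.cast hbr (Fin.natAdd b i)) := rfl

/-- a linearly independent family of `b` vectors generates, up to torsion, the first summand of
a decomposition `R^b × R^r`. -/
theorem adapted {b r m : ℕ} (hbr : b + r = m) (v : Fin b → Fin m → F[X])
    (hv : LinearIndependent F[X] v) :
    ∃ e : (Fin m → F[X]) ≃ₗ[F[X]] (Fin b → F[X]) × (Fin r → F[X]),
      (∀ i, (e (v i)).2 = 0) ∧
      ∀ x, (e x).2 = 0 → ∃ d : F[X], d ≠ 0 ∧ d • x ∈ Submodule.span F[X] (Set.range v) := by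
  classical
  obtain ⟨h, -, hh⟩ := hnf (m := m) b (by omega) v
  refine ⟨(glEquiv h).trans (splitEquiv F[X] hbr), fun i => ?_, fun x hx => ?_⟩
  · funext j
    rw [LinearEquiv.trans_apply, splitEquiv_snd, glEquiv_apply]
    exact hh i _ (by simp)
  · have hx0 : ∀ k : Fin m, b ≤ (k : ℕ) → (h.1 *ᵥ x) k = 0 := by
      intro k hk
      have h1 := congrFun hx ⟨(k : ℕ) - b, by have := k.2; omega⟩
      rw [LinearEquiv.trans_apply, splitEquiv_snd, glEquiv_apply] at h1
      have h2 : Fin.cast hbr (Fin.natAdd b ⟨(k : ℕ) - b, by have := k.2; omega⟩) = k := by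
        apply Fin.ext
        simp only [Fin.val_cast, Fin.val_natAdd]
        omega
      rw [h2] at h1
      exact h1
    let W : Matrix (Fin b) (Fin b) F[X] := fun i a =>
      (h.1 *ᵥ v a) (Fin.cast hbr (Fin.castAdd r i))
    -- a linear combination of the `v a`, seen through `h`
    have hcomb : ∀ c : Fin b → F[X], ∀ i : Fin b,
        (h.1 *ᵥ (∑ a, c a • v a)) (Fin.cast hbr (Fin.castAdd r i)) = (W *ᵥ c) i := by
      intro c i
      rw [Matrix.mulVec_sum, Finset.sum_apply, Matrix.mulVec, dotProduct]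
      refine Finset.sum_congr rfl fun a _ => ?_
      rw [Matrix.mulVec_smul, Pi.smul_apply, smul_eq_mul, mul_comm]
    have hcomb0 : ∀ c : Fin b → F[X], ∀ k : Fin m, b ≤ (k : ℕ) →
        (h.1 *ᵥ (∑ a, c a • v a)) k = 0 := by
      intro c k hk
      rw [Matrix.mulVec_sum, Finset.sum_apply]
      refine Finset.sum_eq_zero fun a _ => ?_
      rw [Matrix.mulVec_smul, Pi.smul_apply, hh a k hk, smul_zero]
    have hsplit : ∀ y y' : Fin m → F[X],
        (∀ i : Fin b, y (Fin.cast hbr (Fin.castAdd r i)) = y' (Fin.cast hbr (Fin.castAdd r i))) →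
        (∀ k : Fin m, b ≤ (k : ℕ) → y k = y' k) → y = y' := by
      intro y y' h1 h2
      funext k
      by_cases hk : b ≤ (k : ℕ)
      · exact h2 k hk
      · have h3 := h1 ⟨k, by omega⟩
        have h4 : Fin.cast hbr (Fin.castAdd r ⟨(k : ℕ), by omega⟩) = k := by
          apply Fin.ext; simp
        rwa [h4] at h3
    have hinj : ∀ y y' : Fin m → F[X], h.1 *ᵥ y = h.1 *ᵥ y' → y = y' := by
      intro y y' e
      have := congrArg (fun z => (h⁻¹ : GL (Fin m) F[X]).1 *ᵥ z) e
      simpa only [mulVec_inv_mulVec] using this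
    have hdet : W.det ≠ 0 := by
      intro h0
      obtain ⟨c, hc0, hc⟩ := Matrix.exists_mulVec_eq_zero_iff.2 h0
      have h1 : ∑ a, c a • v a = 0 := by
        apply hinj
        rw [Matrix.mulVec_zero]
        refine hsplit _ _ (fun i => ?_) (fun k hk => ?_)
        · rw [hcomb, hc]; rfl
        · rw [hcomb0 c k hk]; rfl
      exact hc0 (funext fun a => (Fintype.linearIndependent_iff.1 hv c h1 a))
    refine ⟨W.det, hdet, ?_⟩
    set y : Fin b → F[X] := fun i => (h.1 *ᵥ x) (Fin.cast hbr (Fin.castAdd r i)) with hy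
    have h1 : W.det • x = ∑ a, (W.adjugate *ᵥ y) a • v a := by
      apply hinj
      refine hsplit _ _ (fun i => ?_) (fun k hk => ?_)
      · rw [hcomb, Matrix.mulVec_mulVec, Matrix.mul_adjugate, Matrix.mulVec_smul, Pi.smul_apply,
          Matrix.smul_mulVec, Pi.smul_apply, Matrix.one_mulVec]
      · rw [hcomb0 _ k hk, Matrix.mulVec_smul, Pi.smul_apply, hx0 k hk, smul_zero]
    rw [h1]
    exact Submodule.sum_mem _ fun a _ => Submodule.smul_mem _ _ (Submodule.subset_span ⟨a, rfl⟩)

/-- the stabiliser of a linearly independent family -/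
theorem stab_equiv_of_adapted {b r m : ℕ} (hbr : b + r = m) (v : Fin b → Fin m → F[X])
    (hv : LinearIndependent F[X] v) :
    ∃ e : (Fin m → F[X]) ≃ₗ[F[X]] (Fin b → F[X]) × (Fin r → F[X]),
      (∀ i, (e (v i)).2 = 0) ∧
      ∀ g : GL (Fin m) F[X], (∀ a, g.1 *ᵥ v a = v a) ↔ ∀ x, (e x).2 = 0 → g.1 *ᵥ x = x := by
  obtain ⟨e, h1, h2⟩ := adapted hbr v hv
  refine ⟨e, h1, fun g => ⟨fun hg x hx => ?_, fun hg a => hg _ (h1 a)⟩⟩
  obtain ⟨d, hd, hdx⟩ := h2 x hx
  have h3 : ∀ y ∈ Submodule.span F[X] (Set.range v), g.1 *ᵥ y = y := by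
    intro y hy
    refine Submodule.span_induction ?_ ?_ ?_ ?_ hy
    · rintro _ ⟨a, rfl⟩; exact hg a
    · exact Matrix.mulVec_zero _
    · intro y z _ _ hy hz; rw [Matrix.mulVec_add, hy, hz]
    · intro c y _ hy; rw [Matrix.mulVec_smul, hy]
  have h4 := h3 _ hdx
  rw [Matrix.mulVec_smul] at h4
  have h5 : d • (g.1 *ᵥ x - x) = 0 := by rw [smul_sub, h4, sub_self]
  rcases smul_eq_zero.1 h5 with h6 | h6
  · exact absurd h6 hd
  · exact sub_eq_zero.1 h6

end

end Crest.Agent.R66
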