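import Crest.Agent.R66.PVec
import Crest.Agent.R66.P2
import Crest.Agent.R66.P3

/-!
# Row 66, part (C-P): generic vectors (helper64)
-/

set_option autoImplicit false
set_option linter.unusedSectionVars false

namespace Crest.Agent.R66

open Finset Polynomial Matrix
open scoped Pointwise

section abstractM
variable {R M : Type*} [CommRing R] [AddCommGroup M] [Module R M]

/-- the 2x2 formula: if `y' = y₁ y + δ c` with `y₁ = 1 + p t`, `δ = p d` and `y₁ α + δ β = 1` then
`y' = G y` for an automorphism `G = 1 mod p` which is the identity on `ker ψ ∩ ker θ`. -/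
theorem tr_two (p : R) (y c : M) (ψ θ : M →ₗ[R] R) (h1 : ψ y = 1) (h2 : ψ c = 0) (h3 : θ y = 0)
    (h4 : θ c = 1) (t d α β : R) (h5 : (1 + p * t) * α + p * d * β = 1) :
    ∃ G : M ≃ₗ[R] M, CgP p (fun z => G z) ∧ G y = (1 + p * t) • y + (p * d) • c := by
  -- `G z = z + ψ z • (p t y + p d c) + (p t θ z) • (β y - α c)`
  let G1 : M →ₗ[R] M := LinearMap.id + ψ.smulRight ((p * t) • y + (p * d) • c) +
    θ.smulRight ((p * t * β) • y - (p * t * α) • c)
  let G2 : M →ₗ[R] M := LinearMap.id + ψ.smulRight (-((p * t * α) • y) - (p * d) • c) +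
    θ.smulRight (-((p * t * β) • y) + (p * t) • c)
  have e1 : ∀ z, G1 z = z + ψ z • ((p * t) • y + (p * d) • c) +
    θ z • ((p * t * β) • y - (p * t * α) • c) := fun z => by simp [G1]
  have e2 : ∀ z, G2 z = z + ψ z • (-((p * t * α) • y) - (p * d) • c) +
    θ z • (-((p * t * β) • y) + (p * t) • c) := fun z => by simp [G2]
  have hψ1 : ∀ z, ψ (G1 z) = ψ z * (1 + p * t) + θ z * (p * t * β) := fun z => by
    rw [e1]; simp only [map_add, map_sub, map_smul, h1, h2, smul_eq_mul]; ring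
  have hθ1 : ∀ z, θ (G1 z) = ψ z * (p * d) + θ z * (1 - p * t * α) := fun z => by
    rw [e1]; simp only [map_add, map_sub, map_smul, h3, h4, smul_eq_mul]; ring
  have hψ2 : ∀ z, ψ (G2 z) = ψ z * (1 - p * t * α) - θ z * (p * t * β) := fun z => by
    rw [e2]; simp only [map_add, map_sub, map_neg, map_smul, h1, h2, smul_eq_mul]; ring
  have hθ2 : ∀ z, θ (G2 z) = -(ψ z * (p * d)) + θ z * (1 + p * t) := fun z => by
    rw [e2]; simp only [map_add, map_sub, map_neg, map_smul, h3, h4, smul_eq_mul]; ring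
  have h21 : ∀ z, G2 (G1 z) = z := by
    intro z
    rw [e2 (G1 z), hψ1, hθ1, e1]
    have e : ∀ a b : R, z + a • ((p * t) • y + (p * d) • c) +
        b • ((p * t * β) • y - (p * t * α) • c) +
        (a * (1 + p * t) + b * (p * t * β)) • (-((p * t * α) • y) - (p * d) • c) +
        (a * (p * d) + b * (1 - p * t * α)) • (-((p * t * β) • y) + (p * t) • c) =
        z + (a * (p * t) * (1 - ((1 + p * t) * α + p * d * β))) • y +
          (b * (p * t) * (1 - ((1 + p * t) * α + p * d * β))) • c := by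
      intro a b; module
    rw [e, h5]; module
  have h12 : ∀ z, G1 (G2 z) = z := by
    intro z
    rw [e1 (G2 z), hψ2, hθ2, e2]
    have e : ∀ a b : R, z + a • (-((p * t * α) • y) - (p * d) • c) +
        b • (-((p * t * β) • y) + (p * t) • c) +
        (a * (1 - p * t * α) - b * (p * t * β)) • ((p * t) • y + (p * d) • c) +
        (-(a * (p * d)) + b * (1 + p * t)) • ((p * t * β) • y - (p * t * α) • c) =
        z + (a * (p * t) * (1 - ((1 + p * t) * α + p * d * β))) • y +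
          (b * (p * t) * (1 - ((1 + p * t) * α + p * d * β))) • c := by
      intro a b; module
    rw [e, h5]; module
  refine ⟨LinearEquiv.ofLinearMap G1 G2 (LinearMap.ext h12) (LinearMap.ext h21), ?_, ?_⟩
  · intro z
    refine ⟨ψ z • (t • y + d • c) + θ z • ((t * β) • y - (t * α) • c), ?_⟩
    show G1 z = _
    rw [e1]
    module
  · show G1 y = _
    rw [e1, h1, h3]
    module

/-- lifting an automorphism of a quotient `D` of `M = P × D`, with a shear. -/
theorem lift_shear {P D : Type*} [AddCommGroup P] [Module R P] [AddCommGroup D] [Module R D]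
    (e : M ≃ₗ[R] P × D) (p : R) (G : D ≃ₗ[R] D) (hG : CgP p (fun z => G z)) (φ : D →ₗ[R] R) (q : P) :
    ∃ g : M ≃ₗ[R] M, CgP p (fun z => g z) ∧
      ∀ z, e (g z) = ((e z).1 + φ (e z).2 • (p • q), G (e z).2) := by
  let sw : (P × D) ≃ₗ[R] (D × P) := LinearEquiv.prodComm R P D
  let sk : (D × P) ≃ₗ[R] (D × P) :=
    LinearEquiv.skewProd G (LinearEquiv.refl R P) (φ.smulRight (p • q))
  let g : M ≃ₗ[R] M := (e.trans sw).trans (sk.trans (e.trans sw).symm)
  have hg : ∀ z, e (g z) = ((e z).1 + φ (e z).2 • (p • q), G (e z).2) := by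
    intro z
    have h1 : e (g z) = sw.symm (sk (sw (e z))) := by
      simp only [g, LinearEquiv.trans_apply, LinearEquiv.trans_symm]
      rw [LinearEquiv.apply_symm_apply]
    rw [h1]
    simp [sw, sk, LinearEquiv.skewProd_apply]
  refine ⟨g, ?_, hg⟩
  intro z
  obtain ⟨z', hz'⟩ := hG (e z).2
  refine ⟨e.symm (φ (e z).2 • q, z'), ?_⟩
  apply e.injective
  show e (g z) = _
  rw [hg, map_add, map_smul, LinearEquiv.apply_symm_apply]
  refine Prod.ext ?_ ?_
  · show (e z).1 + φ (e z).2 • (p • q) = (e z).1 + p • (φ (e z).2 • q)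
    rw [smul_comm]
  · show G (e z).2 = (e z).2 + p • z'
    exact hz'

end abstractM

section fin
variable {F : Type*} [Field F]

theorem dvd_mulVec {m : ℕ} (p : F[X]) (M : Matrix (Fin m) (Fin m) F[X]) {x y : Fin m → F[X]}
    (h : ∀ i, p ∣ y i - x i) (i : Fin m) : p ∣ (M *ᵥ y) i - (M *ᵥ x) i := by
  rw [← Pi.sub_apply, ← Matrix.mulVec_sub]
  show p ∣ ∑ j, M i j * (y - x) j
  exact Finset.dvd_sum fun j _ => Dvd.dvd.mul_left (h j) _

/-- transitivity on unimodular vectors in a fixed class mod `p`. -/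
theorem tr_fin {r : ℕ} (hr : 2 ≤ r) (p : F[X]) (y y' φ φ' : Fin r → F[X]) (h1 : φ ⬝ᵥ y = 1)
    (h2 : φ' ⬝ᵥ y' = 1) (h3 : ∀ i, p ∣ y' i - y i) :
    ∃ G : (Fin r → F[X]) ≃ₗ[F[X]] (Fin r → F[X]), CgP p (fun z => G z) ∧ G y = y' := by
  classical
  set k0 : Fin r := ⟨0, by omega⟩ with hk0
  set k1 : Fin r := ⟨1, by omega⟩ with hk1
  have h01 : k1 ≠ k0 := by
    intro e
    have := congrArg Fin.val e
    simp [hk0, hk1] at this
  obtain ⟨g, hg, hgy⟩ := euclid_unimod hr k0 y φ h1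
  obtain ⟨h, hh, hhy⟩ := euclid_vec (Finset.univ.erase k0) k1
    (Finset.mem_erase.2 ⟨h01, Finset.mem_univ _⟩) (g.1 *ᵥ y')
  have hk0S : k0 ∉ ((Finset.univ.erase k0 : Finset (Fin r)) : Set (Fin r)) := by simp
  set κ : GL (Fin r) F[X] := h * g with hκ
  have hκy : κ.1 *ᵥ y = Pi.single k0 1 := by
    rw [hκ, Units.val_mul, ← Matrix.mulVec_mulVec, hgy]
    refine El_fix hh fun k hk => ?_
    rw [Finset.mem_coe, Finset.mem_erase] at hk
    exact Pi.single_eq_of_ne hk.1 _
  have hd : ∀ i, p ∣ (κ.1 *ᵥ y') i - (κ.1 *ᵥ y) i := dvd_mulVec p κ.1 h3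
  obtain ⟨t, ht⟩ := hd k0
  obtain ⟨d, hd1⟩ := hd k1
  rw [hκy, Pi.single_eq_same] at ht
  rw [hκy, Pi.single_eq_of_ne h01, sub_zero] at hd1
  have hoth : ∀ k, k ≠ k0 → k ≠ k1 → (κ.1 *ᵥ y') k = 0 := by
    intro k hk hk'
    rw [hκ, Units.val_mul, ← Matrix.mulVec_mulVec]
    exact hhy k (Finset.mem_erase.2 ⟨hk, Finset.mem_univ _⟩) hk'
  set c : Fin r → F[X] := (κ⁻¹ : GL (Fin r) F[X]).1 *ᵥ (Pi.single k1 1) with hc
  have hκc : κ.1 *ᵥ c = Pi.single k1 1 := mulVec_mulVec_inv κ _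
  -- the Bezout coefficients
  set μ : Fin r → F[X] := φ' ᵥ* (κ⁻¹ : GL (Fin r) F[X]).1 with hμ
  have hb : (1 + p * t) * μ k0 + p * d * μ k1 = 1 := by
    have e1 : μ ⬝ᵥ (κ.1 *ᵥ y') = 1 := by
      rw [hμ, ← Matrix.dotProduct_mulVec, mulVec_inv_mulVec, h2]
    have e2 : μ ⬝ᵥ (κ.1 *ᵥ y') = μ k0 * (κ.1 *ᵥ y') k0 + μ k1 * (κ.1 *ᵥ y') k1 := by
      unfold dotProduct
      rw [← Finset.sum_subset (Finset.subset_univ {k0, k1}), Finset.sum_pair h01.symm]
      intro k _ hk
      rw [Finset.mem_insert, Finset.mem_singleton, not_or] at hk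
      rw [hoth k hk.1 hk.2, mul_zero]
    rw [e1, hd1] at e2
    have e3 : (κ.1 *ᵥ y') k0 = 1 + p * t := by rw [← ht]; ring
    rw [e3] at e2
    linear_combination -e2
  let ψ : (Fin r → F[X]) →ₗ[F[X]] F[X] := (LinearMap.proj k0).comp (Matrix.mulVecLin κ.1)
  let θ : (Fin r → F[X]) →ₗ[F[X]] F[X] := (LinearMap.proj k1).comp (Matrix.mulVecLin κ.1)
  have hψ : ∀ z, ψ z = (κ.1 *ᵥ z) k0 := fun z => rfl
  have hθ : ∀ z, θ z = (κ.1 *ᵥ z) k1 := fun z => rfl
  obtain ⟨G, hG1, hG2⟩ := tr_two p y c ψ θ (by rw [hψ, hκy, Pi.single_eq_same])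
    (by rw [hψ, hκc, Pi.single_eq_of_ne h01.symm]) (by rw [hθ, hκy, Pi.single_eq_of_ne h01])
    (by rw [hθ, hκc, Pi.single_eq_same]) t d (μ k0) (μ k1) hb
  refine ⟨G, hG1, ?_⟩
  rw [hG2]
  have hinj : Function.Injective (fun z : Fin r → F[X] => κ.1 *ᵥ z) := fun a b hab => by
    have := congrArg (fun z => (κ⁻¹ : GL (Fin r) F[X]).1 *ᵥ z) hab
    simpa only [mulVec_inv_mulVec] using this
  apply hinj
  show κ.1 *ᵥ _ = κ.1 *ᵥ y'
  rw [Matrix.mulVec_add, Matrix.mulVec_smul, Matrix.mulVec_smul, hκy, hκc]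
  funext k
  simp only [Pi.add_apply, Pi.smul_apply, smul_eq_mul]
  by_cases hk : k = k0
  · subst hk
    rw [Pi.single_eq_same, Pi.single_eq_of_ne h01.symm]
    have : (κ.1 *ᵥ y') k0 = 1 + p * t := by rw [← ht]; ring
    rw [this]; ring
  · rw [Pi.single_eq_of_ne hk]
    by_cases hk' : k = k1
    · subst hk'
      rw [Pi.single_eq_same, hd1]; ring
    · rw [Pi.single_eq_of_ne hk', hoth k hk hk']; ring

/-- making a vector unimodular -/
theorem unimod_fin {r : ℕ} (hr : 2 ≤ r) (n : ℕ) (y : Fin r → F[X]) (hy : ∃ i, ¬ (X : F[X]) ∣ y i) :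
    ∃ u φ : Fin r → F[X], φ ⬝ᵥ (fun i => y i + X ^ n * u i) = 1 := by
  classical
  obtain ⟨i, hi⟩ := hy
  obtain ⟨j, hj⟩ : ∃ j : Fin r, j ≠ i := by
    have : Nontrivial (Fin r) := Fin.nontrivial_iff_two_le.2 hr
    exact exists_ne i
  have hcop : IsCoprime ((X : F[X]) ^ n) (y i) :=
    IsCoprime.pow_left ((Polynomial.irreducible_X.coprime_iff_not_dvd).2 hi)
  obtain ⟨a, b, hab⟩ := hcop
  -- `a X^n + b y_i = 1`; `u_j = a (1 - y_j)`
  refine ⟨Pi.single j (a * (1 - y j)), fun k => if k = i then b * (1 - y j) else if k = j then 1 else 0, ?_⟩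
  unfold dotProduct
  rw [← Finset.sum_subset (Finset.subset_univ {i, j}), Finset.sum_pair hj.symm]
  · beta_reduce
    rw [if_pos rfl, if_neg hj, if_pos rfl, Pi.single_eq_same, Pi.single_eq_of_ne hj.symm]
    linear_combination (1 - y j) * hab
  · intro k _ hk
    rw [Finset.mem_insert, Finset.mem_singleton, not_or] at hk
    beta_reduce
    rw [if_neg hk.1, if_neg hk.2, zero_mul]

end fin

theorem functional_dot {R : Type*} [CommRing R] {r : ℕ} (Ψ : (Fin r → R) →ₗ[R] R) (z : Fin r → R) :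
    Ψ z = (fun j => Ψ (Pi.single j 1)) ⬝ᵥ z := by
  have h : z = ∑ j, z j • (Pi.single j 1 : Fin r → R) := by
    funext i
    rw [Finset.sum_apply, Finset.sum_eq_single i]
    · simp
    · intro j _ hj
      rw [Pi.smul_apply, Pi.single_eq_of_ne (Ne.symm hj), smul_zero]
    · intro h; exact absurd (Finset.mem_univ _) h
  conv_lhs => rw [h]
  rw [map_sum]
  unfold dotProduct
  refine Finset.sum_congr rfl fun j _ => ?_
  rw [map_smul, smul_eq_mul, mul_comm]

section gen
variable {F : Type} [Field F] {m n : ℕ} [NeZero m]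

/-- generic vectors -/
def GenV (σ : Finset (CVec F m n)) (w : CVec F m n) : Prop :=
  ∃ φ : (Fin m → F[X]) →ₗ[F[X]] F[X], (∀ x ∈ σ, φ x.v = 0) ∧ φ w.v = 1

theorem GenV.mono (σ τ : Finset (CVec F m n)) (w : CVec F m n) (h : τ ⊆ σ) :
    GenV σ w → GenV τ w := by
  rintro ⟨φ, h1, h2⟩
  exact ⟨φ, fun x hx => h1 x (h hx), h2⟩

theorem GenV.smul (g : Ncong F m n) (σ : Finset (CVec F m n)) (w : CVec F m n) :
    GenV σ w → GenV (g • σ) (g • w) := by
  rintro ⟨φ, h1, h2⟩
  refine ⟨φ.comp (Matrix.mulVecLin ((g.1)⁻¹ : GL (Fin m) F[X]).1), fun x hx => ?_, ?_⟩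
  · obtain ⟨y, hy, rfl⟩ := Finset.mem_smul_finset.1 hx
    rw [LinearMap.comp_apply, Matrix.mulVecLin_apply, CVec.smul_v, mulVec_inv_mulVec]
    exact h1 y hy
  · rw [LinearMap.comp_apply, Matrix.mulVecLin_apply, CVec.smul_v, mulVec_inv_mulVec]
    exact h2

/-- a decomposition adapted to a face -/
theorem KV_adapted (hn : 1 ≤ n) {σ : Finset (CVec F m n)} (hσ : σ ∈ KV F m n) {r : ℕ}
    (hr : σ.card + r = m) :
    ∃ e : (Fin m → F[X]) ≃ₗ[F[X]] (Fin σ.card → F[X]) × (Fin r → F[X]),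
      (∀ x ∈ σ, (e x.v).2 = 0) ∧
      ∀ x, (e x).2 = 0 → ∃ d : F[X], d ≠ 0 ∧ d • x ∈ Submodule.span F[X] (CVec.v '' (σ : Set (CVec F m n))) := by
  classical
  let E := σ.equivFin
  obtain ⟨e, h1, h2⟩ := adapted hr (fun i => (E.symm i).1.v)
    (linind_of_congr σ.card (fun i => (E.symm i).1.a) (fun i j hij => by
      have := hσ _ (E.symm i).2 _ (E.symm j).2 hij
      exact E.symm.injective (Subtype.ext this)) _ fun i k => by
        refine dvd_trans ?_ ((E.symm i).1.h k)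
        exact dvd_pow_self X (by omega))
  refine ⟨e, fun x hx => ?_, fun x hx => ?_⟩
  · have := h1 (E ⟨x, hx⟩)
    rwa [Equiv.symm_apply_apply] at this
  · obtain ⟨d, hd, hd2⟩ := h2 x hx
    refine ⟨d, hd, Submodule.span_mono ?_ hd2⟩
    rintro _ ⟨i, rfl⟩
    exact ⟨(E.symm i).1, (E.symm i).2, rfl⟩

/-- the stabiliser of a face is the pointwise stabiliser of a direct summand of rank `σ.card` -/
theorem KV_stab_equiv (hn : 1 ≤ n) {σ : Finset (CVec F m n)} (hσ : σ ∈ KV F m n) {r : ℕ}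
    (hr : σ.card + r = m) :
    ∃ e : (Fin m → F[X]) ≃ₗ[F[X]] (Fin σ.card → F[X]) × (Fin r → F[X]),
      ∀ g : Ncong F m n, g • σ = σ ↔ ∀ x, (e x).2 = 0 → g.1.1 *ᵥ x = x := by
  obtain ⟨e, h1, h2⟩ := KV_adapted hn hσ hr
  refine ⟨e, fun g => ?_⟩
  rw [KV_stab hσ]
  refine ⟨fun h x hx => ?_, fun h x hx => h _ (h1 x hx)⟩
  obtain ⟨d, hd, hd2⟩ := h2 x hx
  have h3 : ∀ z ∈ Submodule.span F[X] (CVec.v '' (σ : Set (CVec F m n))), g.1.1 *ᵥ z = z := by
    intro z hz
    induction hz using Submodule.span_induction with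
    | mem z hz =>
      obtain ⟨y, hy, rfl⟩ := hz
      exact h y hy
    | zero => exact Matrix.mulVec_zero _
    | add y z _ _ hy hz => rw [Matrix.mulVec_add, hy, hz]
    | smul c z _ hz => rw [Matrix.mulVec_smul, hz]
  have h4 := h3 _ hd2
  rw [Matrix.mulVec_smul] at h4
  exact smul_right_injective _ hd h4

/-- existence of generic vectors -/
theorem genV_exists (hn : 1 ≤ n) {σ : Finset (CVec F m n)} (hσ : σ ∈ KV F m n)
    (hc : σ.card + 2 ≤ m) (a : Fin m) (ha : ∀ v ∈ σ, v.a ≠ a) :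
    ∃ w : CVec F m n, w.a = a ∧ GenV σ w := by
  classical
  obtain ⟨r, hr⟩ : ∃ r, σ.card + r = m := ⟨m - σ.card, by omega⟩
  obtain ⟨e, h1, h2⟩ := KV_adapted hn hσ hr
  set y : Fin r → F[X] := (e (Pi.single a 1)).2 with hy
  have hne : ∃ i, ¬ (X : F[X]) ∣ y i := by
    by_contra hno
    push Not at hno
    choose y' hy' using hno
    -- `b₀ = e_a - X e⁻¹ (0, y')` lies in the first summand
    set b0 : Fin m → F[X] := Pi.single a 1 - (X : F[X]) • e.symm (0, y') with hb0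
    have hb0e : (e b0).2 = 0 := by
      rw [hb0, map_sub, map_smul, LinearEquiv.apply_symm_apply]
      show (e (Pi.single a 1)).2 - (X : F[X]) • y' = 0
      rw [sub_eq_zero]
      funext i
      rw [← hy, hy' i]; rfl
    obtain ⟨d, hd, hd2⟩ := h2 b0 hb0e
    let E := σ.equivFin
    -- independence of `σ ∪ {b₀}`
    have hli := linind_of_congr (F := F) (m := m) (σ.card + 1)
      (Fin.cons a (fun i => (E.symm i).1.a) : Fin (σ.card + 1) → Fin m)
      (by
        intro i j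
        refine Fin.cases ?_ (fun i => ?_) i <;> refine Fin.cases ?_ (fun j => ?_) j
        · intro _; rfl
        · intro h
          rw [Fin.cons_zero, Fin.cons_succ] at h
          exact absurd h.symm (ha _ (E.symm j).2)
        · intro h
          rw [Fin.cons_zero, Fin.cons_succ] at h
          exact absurd h (ha _ (E.symm i).2)
        · intro h
          rw [Fin.cons_succ, Fin.cons_succ] at h
          have := hσ _ (E.symm i).2 _ (E.symm j).2 h
          rw [E.symm.injective (Subtype.ext this)])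
      (Fin.cons b0 (fun i => (E.symm i).1.v) : Fin (σ.card + 1) → Fin m → F[X])
      (by
        intro i k
        refine Fin.cases ?_ (fun i => ?_) i
        · rw [Fin.cons_zero, Fin.cons_zero, hb0]
          refine ⟨-(e.symm (0, y') k), ?_⟩
          simp only [Pi.sub_apply, Pi.smul_apply, smul_eq_mul]
          ring
        · rw [Fin.cons_succ, Fin.cons_succ]
          exact dvd_trans (dvd_pow_self X (by omega)) ((E.symm i).1.h k))
    have hspan : Submodule.span F[X] (CVec.v '' (σ : Set (CVec F m n))) ≤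
        Submodule.span F[X] (Set.range fun i => (E.symm i).1.v) := by
      refine Submodule.span_mono ?_
      rintro _ ⟨x, hx, rfl⟩
      refine ⟨E ⟨x, hx⟩, ?_⟩
      beta_reduce
      rw [Equiv.symm_apply_apply]
    obtain ⟨l, hl⟩ := (Submodule.mem_span_range_iff_exists_fun F[X]).1 (hspan hd2)
    have h5 := Fintype.linearIndependent_iff.1 hli
      (Fin.cons (-d) l : Fin (σ.card + 1) → F[X]) (by
        rw [Fin.sum_univ_succ]
        simp only [Fin.cons_zero, Fin.cons_succ]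
        rw [hl, neg_smul, neg_add_cancel]) 0
    rw [Fin.cons_zero, neg_eq_zero] at h5
    exact hd h5
  obtain ⟨u, φ, hφ⟩ := unimod_fin (by omega) n y hne
  refine ⟨⟨a, Pi.single a 1 + (X : F[X]) ^ n • e.symm (0, u), fun i => ?_⟩, rfl, ?_⟩
  · refine ⟨e.symm (0, u) i, ?_⟩
    simp only [Pi.add_apply, Pi.smul_apply, smul_eq_mul]
    ring
  · let Φ : (Fin r → F[X]) →ₗ[F[X]] F[X] := dotProductBilin F[X] F[X] φ
    refine ⟨(Φ.comp (LinearMap.snd F[X] _ _)).comp e.toLinearMap, fun x hx => ?_, ?_⟩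
    · show Φ (e x.v).2 = 0
      rw [h1 x hx, map_zero]
    · show Φ (e (Pi.single a 1 + (X : F[X]) ^ n • e.symm (0, u))).2 = 1
      rw [map_add, map_smul, LinearEquiv.apply_symm_apply]
      exact hφ

/-- transitivity on generic vectors -/
theorem genV_trans (hn : 1 ≤ n) {σ : Finset (CVec F m n)} (hσ : σ ∈ KV F m n)
    (hc : σ.card + 2 ≤ m) (w w' : CVec F m n) (hww : w.a = w'.a) (h : GenV σ w) (h' : GenV σ w') :
    ∃ g : Ncong F m n, g • σ = σ ∧ g • w = w' := by
  classical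
  obtain ⟨r, hr⟩ : ∃ r, σ.card + r = m := ⟨m - σ.card, by omega⟩
  obtain ⟨e, h1, h2⟩ := KV_adapted hn hσ hr
  -- functionals vanishing on `σ` vanish on the first summand
  have hvan : ∀ φ : (Fin m → F[X]) →ₗ[F[X]] F[X], (∀ x ∈ σ, φ x.v = 0) → ∀ x, (e x).2 = 0 → φ x = 0 := by
    intro φ hφ x hx
    obtain ⟨d, hd, hd2⟩ := h2 x hx
    have h3 : ∀ z ∈ Submodule.span F[X] (CVec.v '' (σ : Set (CVec F m n))), φ z = 0 := by
      intro z hz
      induction hz using Submodule.span_induction with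
      | mem z hz =>
        obtain ⟨y, hy, rfl⟩ := hz
        exact hφ y hy
      | zero => exact map_zero _
      | add y z _ _ hy hz => rw [map_add, hy, hz, add_zero]
      | smul c z _ hz => rw [map_smul, hz, smul_zero]
    have h4 := h3 _ hd2
    rw [map_smul, smul_eq_mul] at h4
    exact (mul_eq_zero.1 h4).resolve_left hd
  obtain ⟨φ, hφ1, hφ2⟩ := h
  obtain ⟨φ', hφ1', hφ2'⟩ := h'
  have hfac : ∀ φ : (Fin m → F[X]) →ₗ[F[X]] F[X], (∀ x ∈ σ, φ x.v = 0) → ∀ x,
      φ x = ((φ.comp e.symm.toLinearMap).comp (LinearMap.inr F[X] _ _)) (e x).2 := by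
    intro φ hφ x
    show φ x = φ (e.symm (0, (e x).2))
    rw [← sub_eq_zero, ← map_sub]
    apply hvan φ hφ
    rw [map_sub, LinearEquiv.apply_symm_apply]
    show (e x).2 - (e x).2 = 0
    rw [sub_self]
  set Ψ : (Fin r → F[X]) →ₗ[F[X]] F[X] := (φ.comp e.symm.toLinearMap).comp (LinearMap.inr F[X] _ _)
    with hΨ
  set Ψ' : (Fin r → F[X]) →ₗ[F[X]] F[X] := (φ'.comp e.symm.toLinearMap).comp (LinearMap.inr F[X] _ _)
    with hΨ'
  have hw : Ψ (e w.v).2 = 1 := by rw [← hφ2, hfac φ hφ1 w.v]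
  have hw' : Ψ' (e w'.v).2 = 1 := by rw [← hφ2', hfac φ' hφ1' w'.v]
  -- the difference
  have hd : ∀ i, (X : F[X]) ^ n ∣ w'.v i - w.v i := by
    intro i
    have e1 := w.h i
    have e2 := w'.h i
    rw [← hww] at e2
    have := dvd_sub e2 e1
    rwa [sub_sub_sub_cancel_right] at this
  choose t ht using hd
  have hwt : w'.v = w.v + (X : F[X]) ^ n • t := by
    funext i
    have := ht i
    simp only [Pi.add_apply, Pi.smul_apply, smul_eq_mul]
    rw [← this]; ring
  obtain ⟨G, hG, hGy⟩ := tr_fin (r := r) (by omega) ((X : F[X]) ^ n) (e w.v).2 (e w'.v).2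
    (fun j => Ψ (Pi.single j 1)) (fun j => Ψ' (Pi.single j 1))
    (by rw [← functional_dot, hw]) (by rw [← functional_dot, hw']) (fun i => by
      rw [hwt, map_add, map_smul]
      refine ⟨(e t).2 i, ?_⟩
      simp only [Prod.snd_add, Prod.smul_snd, Pi.add_apply, Pi.smul_apply, smul_eq_mul]
      ring)
  obtain ⟨g, hg, hge⟩ := lift_shear e ((X : F[X]) ^ n) G hG Ψ (e t).1
  obtain ⟨γ, hγ⟩ := exists_Ncong_of_equiv g hg
  refine ⟨γ, (KV_stab hσ γ).2 fun x hx => ?_, CVec.ext hww ?_⟩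
  · rw [hγ]
    apply e.injective
    rw [hge, h1 x hx, map_zero, map_zero, zero_smul, add_zero]
    exact Prod.ext rfl (h1 x hx).symm
  · rw [CVec.smul_v, hγ]
    apply e.injective
    rw [hge, hGy, hw, one_smul]
    refine Prod.ext ?_ rfl
    rw [hwt, map_add, map_smul]
    rfl

/-- exactness of the `N`-invariant cochain complex of the complex of coloured vectors -/
theorem KV_coExInv (hn : 1 ≤ n) {b : ℕ} (hb : b + 2 ≤ m) :
    CoExInv (Ncong F m n) (KV F m n) b :=
  coExInv_join _ CVec.smul_a GenV b (by rw [Fintype.card_fin]; omega)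
    (fun _ hσ hc a ha => genV_exists hn hσ (by omega) a ha)
    (fun σ τ w h => GenV.mono σ τ w h)
    (fun g σ w h => GenV.smul g σ w h)
    (fun _ hσ hc w w' hww _ h h' => genV_trans hn hσ (by omega) w w' hww h h')

end gen

end Crest.Agent.R66
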