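import Crest.Agent.R66.CG6
import Crest.Agent.R66.PGen
import Crest.Agent.R66.LGMain

/-!
# Row 66, part (C): final assembly
Author: helper81.
-/

set_option autoImplicit false
set_option linter.unusedSectionVars false

open Polynomial Matrix
open scoped Pointwise

namespace Crest.Agent.R66

section
variable {F : Type} [Field F] {m n : ℕ} [NeZero m]

theorem KV_card_le {σ : Finset (CVec F m n)} (hσ : σ ∈ KV F m n) : σ.card ≤ m := by
  classical
  have h1 : (σ.image CVec.a).card = σ.card :=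
    Finset.card_image_of_injOn fun x hx y hy hxy => hσ x hx y hy hxy
  rw [← h1]
  simpa using Finset.card_le_univ (σ.image CVec.a)

theorem KV_faceStab (hn : 1 ≤ n) : FaceStab F m n (KV F m n) := by
  intro σ hσ b r hb hr
  subst hb
  exact KV_stab_equiv hn hσ hr

end

/-- the vanishing theorem for the congruence groups -/
theorem vn_all (s : ℕ) : 1 ≤ s → ∃ m0 : ℕ, ∀ m ≥ m0, ∃ q0 : ℕ, ∀ (F : Type) [Field F] [Fintype F],
    q0 ≤ Fintype.card F → Odd (Fintype.card F) → ∀ n : ℕ, 1 ≤ n → VN F m n s := by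
  induction s using Nat.strong_induction_on with
  | _ s ih =>
    intro hs
    have ih1 : ∀ s' : ℕ, ∃ m0 : ℕ, ∀ m : ℕ, ∃ q0 : ℕ, m0 ≤ m → s' < s → 1 ≤ s' →
        ∀ (F : Type) [Field F] [Fintype F],
        q0 ≤ Fintype.card F → Odd (Fintype.card F) → ∀ n : ℕ, 1 ≤ n → VN F m n s' := by
      intro s'
      by_cases h : s' < s ∧ 1 ≤ s'
      · obtain ⟨m0, h0⟩ := ih s' h.1 h.2
        refine ⟨m0, fun m => ?_⟩
        by_cases hm : m0 ≤ m
        · obtain ⟨q0, hq0⟩ := h0 m hm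
          exact ⟨q0, fun _ _ _ => hq0⟩
        · exact ⟨0, fun h1 => absurd h1 hm⟩
      · exact ⟨0, fun m => ⟨0, fun _ h1 h2 => absurd ⟨h1, h2⟩ h⟩⟩
    choose M Q hQ using ih1
    refine ⟨∑ s' ∈ Finset.range s, M s' + (s + 1) * (s + 2) + s, fun m hm => ?_⟩
    have hm1 : (s + 1) * (s + 2) ≤ m := by omega
    have hm2 : s + 2 ≤ m := by nlinarith
    have hne : NeZero m := ⟨by omega⟩
    refine ⟨∑ s' ∈ Finset.range s, ∑ r ∈ Finset.range (m + 1), Q s' r + MB s,
      fun F _ _ hq hodd n hn => ?_⟩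
    refine vn_step hodd hn hs (by omega) KV_down KV_empty KV_smul
      (fun b hb => KV_coEx (by omega)) (KV_coExInv hn hm2) (KV_faceStab hn)
      (fun σ hσ => KV_card_le hσ) ?_ ?_
    · intro b r hb hbs hbr
      have hs' : s + 1 - b ∈ Finset.range s := Finset.mem_range.2 (by omega)
      have h1 : M (s + 1 - b) ≤ ∑ s' ∈ Finset.range s, M s' :=
        Finset.single_le_sum (fun _ _ => Nat.zero_le _) hs'
      have h2 : Q (s + 1 - b) r ≤ ∑ r ∈ Finset.range (m + 1), Q (s + 1 - b) r :=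
        Finset.single_le_sum (f := fun r => Q (s + 1 - b) r) (fun _ _ => Nat.zero_le _)
          (Finset.mem_range.2 (by omega))
      have h3 : ∑ r ∈ Finset.range (m + 1), Q (s + 1 - b) r ≤
          ∑ s' ∈ Finset.range s, ∑ r ∈ Finset.range (m + 1), Q s' r :=
        Finset.single_le_sum (f := fun s' => ∑ r ∈ Finset.range (m + 1), Q s' r)
          (fun _ _ => Nat.zero_le _) hs'
      exact hQ (s + 1 - b) r (by omega) (by omega) (by omega) F (by omega) hodd n hn
    · exact vanG_U hodd hs fun b hb => coEx_XU (S := s) hm1 (by omega) (by omega)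

/-- PART (C): vanishing of the cohomology of the finite coset complexes. -/
theorem van_final (d : ℕ) : ∃ m0 : ℕ, ∀ m ≥ m0, ∃ q0 : ℕ, ∀ (F : Type) [Field F] [Fintype F],
    q0 ≤ Fintype.card F → Odd (Fintype.card F) → ∀ (n : ℕ) [NeZero m], 2 ≤ n →
      Van (chams (Aq F m n)) d := by
  have h0 : ∀ s : ℕ, ∃ m0 : ℕ, ∀ m : ℕ, ∃ q0 : ℕ, m0 ≤ m → 1 ≤ s →
        ∀ (F : Type) [Field F] [Fintype F],
        q0 ≤ Fintype.card F → Odd (Fintype.card F) → ∀ n : ℕ, 1 ≤ n → VN F m n s := by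
    intro s
    by_cases h : 1 ≤ s
    · obtain ⟨m0, h0⟩ := vn_all s h
      refine ⟨m0, fun m => ?_⟩
      by_cases hm : m0 ≤ m
      · obtain ⟨q0, hq0⟩ := h0 m hm
        exact ⟨q0, fun _ _ => hq0⟩
      · exact ⟨0, fun h1 => absurd h1 hm⟩
    · exact ⟨0, fun m => ⟨0, fun _ h1 => absurd h1 h⟩⟩
  choose M Q hQ using h0
  refine ⟨∑ s ∈ Finset.range (d + 1), M s + (d + 1) * (d + 2) + 3, fun m hm => ?_⟩
  refine ⟨∑ s ∈ Finset.range (d + 1), Q s m + MB d, fun F _ _ hq hodd n _ hn => ?_⟩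
  refine van_of_vn hodd (by omega) (intP F (by omega) hn) d
    (fun b hb => coEx_XU (S := d) (by omega) (by omega) hb) fun s hs hsd => ?_
  have h1 : M s ≤ ∑ s ∈ Finset.range (d + 1), M s :=
    Finset.single_le_sum (fun _ _ => Nat.zero_le _) (Finset.mem_range.2 (by omega))
  have h2 : Q s m ≤ ∑ s ∈ Finset.range (d + 1), Q s m :=
    Finset.single_le_sum (f := fun s => Q s m) (fun _ _ => Nat.zero_le _)
      (Finset.mem_range.2 (by omega))
  exact hQ s m (by omega) hs F (by omega) hodd n (by omega)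

end Crest.Agent.R66
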