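import Mathlib

/-!
# Row 66, part (D): averages over cosets (helper94)

`G` finite group, `P_H f (g) = av H f g = avg_{h ∈ H} f (g h)`; `ip f g = ∑_x f x * g x`.
-/

set_option autoImplicit false
set_option linter.unusedSectionVars false
open scoped Classical

namespace Crest.Agent.R66

section Av
variable {G : Type} [Group G] [Fintype G]

/-- the elements of a subgroup as a finset -/
noncomputable def els (H : Subgroup G) : Finset G := Finset.univ.filter fun h => h ∈ H

/-- average of `f` over the coset `g H` -/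
noncomputable def av (H : Subgroup G) (f : G → ℝ) (g : G) : ℝ :=
  (∑ h ∈ els H, f (g * h)) / (els H).card

/-- right invariance under `H` -/
def RInv (H : Subgroup G) (f : G → ℝ) : Prop := ∀ g, ∀ h ∈ H, f (g * h) = f g

/-- the inner product -/
noncomputable def ip (f g : G → ℝ) : ℝ := ∑ x, f x * g x

theorem mem_els {H : Subgroup G} {h : G} : h ∈ els H ↔ h ∈ H := by
  simp [els]

theorem els_card_pos (H : Subgroup G) : 0 < (els H).card :=
  Finset.card_pos.2 ⟨1, mem_els.2 H.one_mem⟩

theorem els_card_pos' (H : Subgroup G) : (0 : ℝ) < (els H).card := by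
  exact_mod_cast els_card_pos H

theorem sum_els_mul (H : Subgroup G) (F : G → ℝ) {k : G} (hk : k ∈ H) :
    ∑ h ∈ els H, F (k * h) = ∑ h ∈ els H, F h := by
  refine Finset.sum_bij (fun h _ => k * h) ?_ ?_ ?_ ?_
  · intro h hh; exact mem_els.2 (H.mul_mem hk (mem_els.1 hh))
  · intro a _ b _ hab; exact mul_left_cancel hab
  · intro b hb
    exact ⟨k⁻¹ * b, mem_els.2 (H.mul_mem (H.inv_mem hk) (mem_els.1 hb)), by group⟩
  · intro h _; rfl

theorem sum_els_inv (H : Subgroup G) (F : G → ℝ) :
    ∑ h ∈ els H, F h⁻¹ = ∑ h ∈ els H, F h := by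
  refine Finset.sum_bij (fun h _ => h⁻¹) ?_ ?_ ?_ ?_
  · intro h hh; exact mem_els.2 (H.inv_mem (mem_els.1 hh))
  · intro a _ b _ hab; exact inv_injective hab
  · intro b hb
    exact ⟨b⁻¹, mem_els.2 (H.inv_mem (mem_els.1 hb)), inv_inv b⟩
  · intro h _; rfl

/-- the average is right invariant -/
theorem rinv_av (H : Subgroup G) (f : G → ℝ) : RInv H (av H f) := by
  intro g k hk
  unfold av
  congr 1
  have := sum_els_mul H (fun h => f (g * h)) hk
  simpa [mul_assoc] using this

theorem av_of_rinv {H : Subgroup G} {f : G → ℝ} (hf : RInv H f) : av H f = f := by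
  funext g
  unfold av
  rw [Finset.sum_congr rfl fun h hh => hf g h (mem_els.1 hh), Finset.sum_const, nsmul_eq_mul,
    mul_div_assoc, mul_comm, div_mul_cancel₀]
  exact (els_card_pos' H).ne'

theorem RInv.mono {H K : Subgroup G} (h : H ≤ K) {f : G → ℝ} (hf : RInv K f) : RInv H f :=
  fun g k hk => hf g k (h hk)

theorem RInv.mul {H : Subgroup G} {f g : G → ℝ} (hf : RInv H f) (hg : RInv H g) :
    RInv H (fun x => f x * g x) := fun x k hk => by
  simp only [hf x k hk, hg x k hk]

theorem RInv.add {H : Subgroup G} {f g : G → ℝ} (hf : RInv H f) (hg : RInv H g) :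
    RInv H (f + g) := fun x k hk => by
  simp only [Pi.add_apply, hf x k hk, hg x k hk]

theorem RInv.sub {H : Subgroup G} {f g : G → ℝ} (hf : RInv H f) (hg : RInv H g) :
    RInv H (f - g) := fun x k hk => by
  simp only [Pi.sub_apply, hf x k hk, hg x k hk]

theorem RInv.smul {H : Subgroup G} {f : G → ℝ} (c : ℝ) (hf : RInv H f) :
    RInv H (c • f) := fun x k hk => by
  simp only [Pi.smul_apply, hf x k hk]

theorem RInv.sum {H : Subgroup G} {α : Type} (s : Finset α) {f : α → G → ℝ}
    (hf : ∀ i ∈ s, RInv H (f i)) : RInv H (∑ i ∈ s, f i) := fun x k hk => by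
  simp only [Finset.sum_apply]
  exact Finset.sum_congr rfl fun i hi => hf i hi x k hk

/-- right invariance under two subgroups gives right invariance under the join -/
theorem RInv.sup {H K : Subgroup G} {f : G → ℝ} (hH : RInv H f) (hK : RInv K f) :
    RInv (H ⊔ K) f := by
  intro g k hk
  have : ∀ g, f (g * k) = f g := by
    refine Subgroup.closure_induction (G := G) (k := (H : Set G) ∪ K)
      (p := fun k _ => ∀ g, f (g * k) = f g) ?_ ?_ ?_ ?_ ?_
    · intro x hx g
      rcases hx with hx | hx
      · exact hH g x hx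
      · exact hK g x hx
    · intro g; simp
    · intro x y _ _ hx hy g
      rw [← mul_assoc, hy, hx]
    · intro x _ hx g
      have := hx (g * x⁻¹)
      rw [inv_mul_cancel_right] at this
      exact this.symm
    · rw [Subgroup.closure_union, Subgroup.closure_eq, Subgroup.closure_eq]
      exact hk
  exact this g

theorem av_add (H : Subgroup G) (f g : G → ℝ) : av H (f + g) = av H f + av H g := by
  funext x
  simp only [av, Pi.add_apply, Finset.sum_add_distrib, add_div]

theorem av_sub (H : Subgroup G) (f g : G → ℝ) : av H (f - g) = av H f - av H g := by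
  funext x
  simp only [av, Pi.sub_apply, Finset.sum_sub_distrib, sub_div]

theorem av_smul (H : Subgroup G) (c : ℝ) (f : G → ℝ) : av H (c • f) = c • av H f := by
  funext x
  simp only [av, Pi.smul_apply, smul_eq_mul, ← Finset.mul_sum, mul_div_assoc]

theorem av_sum (H : Subgroup G) {α : Type} (s : Finset α) (f : α → G → ℝ) :
    av H (∑ i ∈ s, f i) = ∑ i ∈ s, av H (f i) := by
  funext x
  simp only [av, Finset.sum_apply]
  rw [Finset.sum_comm, Finset.sum_div]

/-- the average is selfadjoint -/
theorem ip_av (H : Subgroup G) (f g : G → ℝ) : ip (av H f) g = ip f (av H g) := by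
  have key : ∑ x, (∑ h ∈ els H, f (x * h)) * g x = ∑ x, f x * ∑ h ∈ els H, g (x * h) := by
    have e1 : ∑ x, (∑ h ∈ els H, f (x * h)) * g x = ∑ h ∈ els H, ∑ x, f (x * h) * g x := by
      simp_rw [Finset.sum_mul]; exact Finset.sum_comm
    have e2 : ∀ h : G, ∑ x, f (x * h) * g x = ∑ x, f x * g (x * h⁻¹) := by
      intro h
      refine Fintype.sum_equiv (Equiv.mulRight h) _ _ fun x => ?_
      simp
    rw [e1, Finset.sum_congr rfl fun h _ => e2 h, Finset.sum_comm]
    refine Finset.sum_congr rfl fun x _ => ?_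
    rw [← Finset.mul_sum]
    congr 1
    exact sum_els_inv H fun h => g (x * h)
  have e3 : ip (av H f) g = (∑ x, (∑ h ∈ els H, f (x * h)) * g x) / (els H).card := by
    unfold ip av
    rw [Finset.sum_div]
    exact Finset.sum_congr rfl fun x _ => by ring
  have e4 : ip f (av H g) = (∑ x, f x * ∑ h ∈ els H, g (x * h)) / (els H).card := by
    unfold ip av
    rw [Finset.sum_div]
    exact Finset.sum_congr rfl fun x _ => by ring
  rw [e3, e4, key]

theorem ip_comm (f g : G → ℝ) : ip f g = ip g f :=
  Finset.sum_congr rfl fun _ _ => mul_comm _ _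

theorem ip_add_left (f f' g : G → ℝ) : ip (f + f') g = ip f g + ip f' g := by
  simp only [ip, Pi.add_apply, add_mul, Finset.sum_add_distrib]

theorem ip_add_right (f g g' : G → ℝ) : ip f (g + g') = ip f g + ip f g' := by
  rw [ip_comm, ip_add_left, ip_comm, ip_comm g' f]

theorem ip_sub_left (f f' g : G → ℝ) : ip (f - f') g = ip f g - ip f' g := by
  simp only [ip, Pi.sub_apply, sub_mul, Finset.sum_sub_distrib]

theorem ip_sub_right (f g g' : G → ℝ) : ip f (g - g') = ip f g - ip f g' := by
  rw [ip_comm, ip_sub_left, ip_comm, ip_comm g' f]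

theorem ip_smul_left (c : ℝ) (f g : G → ℝ) : ip (c • f) g = c * ip f g := by
  simp only [ip, Pi.smul_apply, smul_eq_mul, mul_assoc, Finset.mul_sum]

theorem ip_smul_right (c : ℝ) (f g : G → ℝ) : ip f (c • g) = c * ip f g := by
  rw [ip_comm, ip_smul_left, ip_comm]

theorem ip_sum_left {α : Type} (s : Finset α) (f : α → G → ℝ) (g : G → ℝ) :
    ip (∑ i ∈ s, f i) g = ∑ i ∈ s, ip (f i) g := by
  simp only [ip, Finset.sum_apply, Finset.sum_mul]
  exact Finset.sum_comm

theorem ip_sum_right {α : Type} (s : Finset α) (f : α → G → ℝ) (g : G → ℝ) :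
    ip g (∑ i ∈ s, f i) = ∑ i ∈ s, ip g (f i) := by
  rw [ip_comm, ip_sum_left]
  exact Finset.sum_congr rfl fun i _ => ip_comm _ _

theorem ip_self_nonneg (f : G → ℝ) : 0 ≤ ip f f :=
  Finset.sum_nonneg fun _ _ => mul_self_nonneg _

theorem ip_self_eq_zero {f : G → ℝ} (h : ip f f = 0) : f = 0 := by
  funext x
  have := (Finset.sum_eq_zero_iff_of_nonneg fun y (_ : y ∈ Finset.univ) =>
    mul_self_nonneg (f y)).1 h x (Finset.mem_univ _)
  simpa using this

theorem ext_ip {f g : G → ℝ} (h : ∀ k, ip f k = ip g k) : f = g := by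
  have : f - g = 0 := ip_self_eq_zero (by rw [ip_sub_left, h, sub_self])
  exact sub_eq_zero.1 this

theorem av_av_of_le' {H K : Subgroup G} (h : H ≤ K) (f : G → ℝ) : av H (av K f) = av K f :=
  av_of_rinv ((rinv_av K f).mono h)

theorem av_av_of_le {H K : Subgroup G} (h : H ≤ K) (f : G → ℝ) : av K (av H f) = av K f := by
  refine ext_ip fun k => ?_
  rw [ip_av, ip_av, av_av_of_le' h, ip_av]

theorem av_av (H : Subgroup G) (f : G → ℝ) : av H (av H f) = av H f := av_av_of_le le_rfl f

/-- an invariant function only sees the average -/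
theorem ip_of_rinv {H : Subgroup G} {g : G → ℝ} (hg : RInv H g) (f : G → ℝ) :
    ip (av H f) g = ip f g := by
  rw [ip_av, av_of_rinv hg]

theorem ip_of_rinv' {H : Subgroup G} {g : G → ℝ} (hg : RInv H g) (f : G → ℝ) :
    ip g (av H f) = ip g f := by
  rw [ip_comm, ip_of_rinv hg, ip_comm]

/-- multiplication by an invariant function commutes with the average -/
theorem av_mul_of_rinv {H : Subgroup G} {c : G → ℝ} (hc : RInv H c) (f : G → ℝ) :
    av H (fun x => c x * f x) = fun x => c x * av H f x := by
  funext x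
  unfold av
  have e : ∑ h ∈ els H, c (x * h) * f (x * h) = c x * ∑ h ∈ els H, f (x * h) := by
    rw [Finset.mul_sum]
    exact Finset.sum_congr rfl fun h hh => by rw [hc x h (mem_els.1 hh)]
  rw [e, mul_div_assoc]

end Av

end Crest.Agent.R66
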