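import Mathlib

/-!
# Row 66: the concrete groups, definitions (helper94)

`F` a field, `m` the number of types, matrices over `A = F[X]`.
The nonnegative integer `j` codes the pair (column `j % m`, degree `j / m`):
`coef g a j` = coefficient of `X^(j/m)` in the entry `(a, j % m)`.  `(a, j)` is the path
`a, a+1, .., j` of the cyclic quiver (arrows = types `a, .., j-1` mod `m`).
`Pth J a j`: `a ≤ j` and all arrows of the path are in `J`.
`PM J`: matrices supported on the paths inside `J`, with `1`s at the empty paths.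
`KU J`: the subgroup `PM J` of `GL m F[X]` (`U = KU univ`: `g(0)` upper unitriangular;
`J ≠ univ`: finite group, generated by the root groups `rt i c`, `i ∈ J`).
`Ncong n`: matrices `= 1` mod `X^n`.
`GG = U / N`, `AA i` = image of the root group `i`.
-/

set_option autoImplicit false
set_option linter.unusedSectionVars false

open Polynomial Matrix

namespace Crest.Agent.R66

section
variable {F : Type} [Field F] {m : ℕ} [NeZero m]

/-- column of the code `j` -/
def col (m : ℕ) [NeZero m] (j : ℕ) : Fin m := Fin.ofNat m j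

/-- coefficient of the path from `a` to `j` -/
def coef (g : Matrix (Fin m) (Fin m) F[X]) (a : Fin m) (j : ℕ) : F :=
  (g a (col m j)).coeff (j / m)

/-- the path from `a` to `j` is nonnegative and has all its arrows in `J` -/
def Pth (J : Finset (Fin m)) (a : Fin m) (j : ℕ) : Prop :=
  (a : ℕ) ≤ j ∧ ∀ i, (a : ℕ) ≤ i → i < j → col m i ∈ J

/-- matrices supported on paths inside `J`, unipotent at `0` -/
def PM (J : Finset (Fin m)) : Set (Matrix (Fin m) (Fin m) F[X]) :=
  {g | (∀ a j, coef g a j ≠ 0 → Pth J a j) ∧ ∀ a : Fin m, coef g a a = 1}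

theorem col_val (j : ℕ) : (col m j : ℕ) = j % m := rfl

theorem col_add_mul (b : Fin m) (k : ℕ) : col m (b + m * k) = b := by
  apply Fin.ext
  rw [col_val, Nat.add_mul_mod_self_left, Nat.mod_eq_of_lt b.2]

theorem div_add_mul (b : Fin m) (k : ℕ) : ((b : ℕ) + m * k) / m = k := by
  rw [Nat.add_mul_div_left _ _ (Nat.pos_of_ne_zero (NeZero.ne m)), Nat.div_eq_of_lt b.2, zero_add]

theorem coef_eq (g : Matrix (Fin m) (Fin m) F[X]) (a b : Fin m) (k : ℕ) :
    coef g a (b + m * k) = (g a b).coeff k := by
  unfold coef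
  rw [col_add_mul, div_add_mul]

theorem col_add_div (j : ℕ) : (col m j : ℕ) + m * (j / m) = j := by
  rw [col_val]; exact Nat.mod_add_div j m

theorem coef_self (g : Matrix (Fin m) (Fin m) F[X]) (a : Fin m) :
    coef g a a = (g a a).coeff 0 := by
  have := coef_eq g a a 0
  simpa using this

theorem ext_coef {g h : Matrix (Fin m) (Fin m) F[X]} (e : ∀ a j, coef g a j = coef h a j) :
    g = h := by
  ext a b k
  rw [← coef_eq, ← coef_eq, e]

theorem coef_one (a : Fin m) (j : ℕ) :
    coef (1 : Matrix (Fin m) (Fin m) F[X]) a j = if j = a then 1 else 0 := by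
  unfold coef
  rw [Matrix.one_apply]
  by_cases h : j = a
  · subst h
    have h1 : col m (a : ℕ) = a := Fin.ext (by rw [col_val, Nat.mod_eq_of_lt a.2])
    rw [h1, if_pos rfl, if_pos rfl, Nat.div_eq_of_lt a.2]
    simp
  · rw [if_neg h]
    by_cases h2 : a = col m j
    · rw [if_pos h2, Polynomial.coeff_one, if_neg]
      intro h3
      apply h
      have := col_add_div (m := m) j
      rw [← h2, h3] at this
      omega
    · rw [if_neg h2, Polynomial.coeff_zero]

/-- coefficients of a product, the second factor being supported on nonnegative paths -/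
theorem coef_mul (g h : Matrix (Fin m) (Fin m) F[X])
    (hh : ∀ (a : Fin m) (j : ℕ), coef h a j ≠ 0 → (a : ℕ) ≤ j) (a : Fin m) (j : ℕ) :
    coef (g * h) a j =
      ∑ i ∈ Finset.range (j + 1), coef g a i * coef h (col m i) (j - i + i % m) := by
  have hm : 0 < m := Nat.pos_of_ne_zero (NeZero.ne m)
  obtain ⟨b, k, rfl⟩ : ∃ (b : Fin m) (k : ℕ), j = b + m * k := ⟨col m j, j / m, (col_add_div j).symm⟩
  rw [coef_eq, Matrix.mul_apply, Polynomial.finsetSum_coeff]
  simp only [Polynomial.coeff_mul, Finset.Nat.sum_antidiagonal_eq_sum_range_succ_mk]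
  have e1 : ∀ c : Fin m, ∑ k1 ∈ Finset.range (k + 1), (g a c).coeff k1 * (h c b).coeff (k - k1) =
      ∑ k1 ∈ Finset.range (k + 1), if (c : ℕ) + m * k1 ≤ b + m * k then
        coef g a (c + m * k1) * coef h c (b + m * (k - k1)) else 0 := by
    intro c
    refine Finset.sum_congr rfl fun k1 hk1 => ?_
    rw [Finset.mem_range] at hk1
    split_ifs with hc
    · rw [coef_eq, coef_eq]
    · rw [← coef_eq h]
      by_contra hne
      have h1 : coef h c (b + m * (k - k1)) ≠ 0 := fun h0 => hne (by rw [h0, mul_zero])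
      have h2 := hh _ _ h1
      apply hc
      have h3 : m * k = m * k1 + m * (k - k1) := by
        rw [← Nat.mul_add]; congr 1; omega
      omega
  rw [Finset.sum_congr rfl fun c _ => e1 c, ← Finset.sum_product', ← Finset.sum_filter]
  refine Finset.sum_bij' (fun x _ => (x.1 : ℕ) + m * x.2) (fun i _ => (col m i, i / m)) ?_ ?_ ?_ ?_ ?_
  · rintro ⟨c, k1⟩ hx
    simp only [Finset.mem_filter, Finset.mem_product, Finset.mem_range] at hx ⊢
    omega
  · intro i hi
    simp only [Finset.mem_filter, Finset.mem_product, Finset.mem_range, Finset.mem_univ,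
      true_and] at hi ⊢
    have h1 := col_add_div (m := m) i
    refine ⟨?_, by omega⟩
    by_contra h2
    have h3 : m * (k + 1) ≤ m * (i / m) := Nat.mul_le_mul_left m (by omega)
    have h4 := b.2
    rw [Nat.mul_add] at h3
    omega
  · rintro ⟨c, k1⟩ _
    simp only [col_add_mul, div_add_mul]
  · intro i _
    exact col_add_div i
  · rintro ⟨c, k1⟩ hx
    simp only [Finset.mem_filter, Finset.mem_product, Finset.mem_range, Finset.mem_univ,
      true_and] at hx
    simp only [col_add_mul]
    have h1 : ((c : ℕ) + m * k1) % m = c := by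
      rw [Nat.add_mul_mod_self_left, Nat.mod_eq_of_lt c.2]
    have h3 : m * k = m * k1 + m * (k - k1) := by
      rw [← Nat.mul_add]; congr 1; omega
    congr 2
    rw [h1]
    omega

theorem pth_nonneg {J : Finset (Fin m)} {g : Matrix (Fin m) (Fin m) F[X]} (hg : g ∈ PM J)
    (a : Fin m) (j : ℕ) (h : coef g a j ≠ 0) : (a : ℕ) ≤ j := (hg.1 a j h).1

theorem col_sub_add (i j : ℕ) (h : i ≤ j) (x : ℕ) (hx : i ≤ x) (_ : x < j) :
    col m (x - i + i % m) = col m x := by
  apply Fin.ext
  rw [col_val, col_val, Nat.add_mod_mod, Nat.sub_add_cancel hx]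

/-- composition of paths -/
theorem Pth.comp {J : Finset (Fin m)} {a : Fin m} {i j : ℕ} (h1 : Pth J a i)
    (h2 : Pth J (col m i) (j - i + i % m)) (hij : i ≤ j) : Pth J a j := by
  refine ⟨h1.1.trans hij, fun x hx hxj => ?_⟩
  by_cases hxi : x < i
  · exact h1.2 x hx hxi
  · have h3 := h2.2 (x - i + i % m) (by rw [col_val]; omega) (by omega)
    rwa [col_sub_add i j hij x (by omega) hxj] at h3

theorem one_mem_PM (J : Finset (Fin m)) : (1 : Matrix (Fin m) (Fin m) F[X]) ∈ PM J := by
  constructor
  · intro a j h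
    rw [coef_one] at h
    have : j = a := by by_contra h1; exact h (if_neg h1)
    subst this
    exact ⟨le_rfl, fun i h1 h2 => absurd h2 (by omega)⟩
  · intro a
    rw [coef_one, if_pos rfl]

theorem mul_mem_PM {J : Finset (Fin m)} {g h : Matrix (Fin m) (Fin m) F[X]} (hg : g ∈ PM J)
    (hh : h ∈ PM J) : g * h ∈ PM J := by
  constructor
  · intro a j hne
    rw [coef_mul g h (pth_nonneg hh)] at hne
    obtain ⟨i, hi, hne⟩ := Finset.exists_ne_zero_of_sum_ne_zero hne
    rw [Finset.mem_range] at hi
    exact (hg.1 _ _ (left_ne_zero_of_mul hne)).comp (hh.1 _ _ (right_ne_zero_of_mul hne)) (by omega)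
  · intro a
    rw [coef_mul g h (pth_nonneg hh), Finset.sum_eq_single (a : ℕ)]
    · rw [hg.2, Nat.sub_self, zero_add, one_mul]
      have h1 : (a : ℕ) % m = a := Nat.mod_eq_of_lt a.2
      have h2 : col m (a : ℕ) = a := Fin.ext (by rw [col_val, h1])
      rw [h1, h2, hh.2]
    · intro i hi hia
      rw [Finset.mem_range] at hi
      by_contra hne
      have := (hg.1 _ _ (left_ne_zero_of_mul hne)).1
      omega
    · intro h1; exact absurd (Finset.mem_range.2 (by omega)) h1

/-- inverses stay in `PM J` -/
theorem inv_mem_PM {J : Finset (Fin m)} {g h : Matrix (Fin m) (Fin m) F[X]} (hg : g ∈ PM J)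
    (hgh : h * g = 1) : h ∈ PM J := by
  have key : ∀ a j, coef h a j + ∑ i ∈ Finset.range j,
      coef h a i * coef g (col m i) (j - i + i % m) = if j = a then 1 else 0 := by
    intro a j
    have h1 := coef_mul h g (pth_nonneg hg) a j
    rw [hgh, coef_one, Finset.sum_range_succ, Nat.sub_self, zero_add] at h1
    rw [h1]
    have h2 : coef g (col m j) (j % m) = 1 := by
      have := hg.2 (col m j)
      rwa [col_val] at this
    rw [h2, mul_one, add_comm]
  have hP : ∀ j (a : Fin m), coef h a j ≠ 0 → Pth J a j := by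
    intro j
    induction j using Nat.strong_induction_on with
    | _ j ih =>
      intro a hne
      by_cases hja : j = a
      · subst hja
        exact ⟨le_rfl, fun i h1 h2 => absurd h2 (by omega)⟩
      · have h1 := key a j
        rw [if_neg hja] at h1
        have h2 : ∑ i ∈ Finset.range j, coef h a i * coef g (col m i) (j - i + i % m) ≠ 0 := by
          intro h0
          rw [h0, add_zero] at h1
          exact hne h1
        obtain ⟨i, hi, hne'⟩ := Finset.exists_ne_zero_of_sum_ne_zero h2
        rw [Finset.mem_range] at hi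
        exact (ih i hi a (left_ne_zero_of_mul hne')).comp
          (hg.1 _ _ (right_ne_zero_of_mul hne')) hi.le
  refine ⟨fun a j => hP j a, fun a => ?_⟩
  have h1 := key a a
  rw [if_pos rfl, Finset.sum_eq_zero, add_zero] at h1
  · exact h1
  · intro i hi
    rw [Finset.mem_range] at hi
    by_contra hne
    have := (hP i a (left_ne_zero_of_mul hne)).1
    omega

/-- the subgroup of `GL m F[X]` supported on paths inside `J` -/
def KU (F : Type) [Field F] {m : ℕ} [NeZero m] (J : Finset (Fin m)) :
    Subgroup (GL (Fin m) F[X]) where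
  carrier := {g | (g : Matrix (Fin m) (Fin m) F[X]) ∈ PM J}
  mul_mem' := by
    intro g h hg hh
    exact mul_mem_PM hg hh
  one_mem' := one_mem_PM J
  inv_mem' := by
    intro g hg
    exact inv_mem_PM hg (Units.inv_mul g)

theorem mem_KU {J : Finset (Fin m)} {g : GL (Fin m) F[X]} :
    g ∈ KU F J ↔ (g : Matrix (Fin m) (Fin m) F[X]) ∈ PM J := Iff.rfl

/-- the group `U` -/
abbrev UU (F : Type) [Field F] (m : ℕ) [NeZero m] : Subgroup (GL (Fin m) F[X]) :=
  KU F (Finset.univ : Finset (Fin m))

/-- the principal congruence subgroup mod `X^n` -/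
noncomputable def Ncong (F : Type) [Field F] (m n : ℕ) [NeZero m] : Subgroup (GL (Fin m) F[X]) :=
  (GeneralLinearGroup.map (n := Fin m)
    (Ideal.Quotient.mk (Ideal.span {(X : F[X]) ^ n}))).ker

theorem Ncong_normal (n : ℕ) : (Ncong F m n).Normal := by
  unfold Ncong; infer_instance

end

end Crest.Agent.R66
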