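import Crest.Agent.R66.DGDefs

/-!
# Row 66: the concrete groups: root elements and generation (helper94)

`rt a j h c = 1 + c (path a j)`.  For `J ≠ univ` the group `KU F J` is generated by the
`rt i (i+1) _ c`, `i ∈ J`.
-/

set_option autoImplicit false
set_option linter.unusedSectionVars false

open Polynomial Matrix

namespace Crest.Agent.R66

section
variable {F : Type} [Field F] {m : ℕ} [NeZero m]

/-- the path matrix -/
noncomputable def pm (a : Fin m) (j : ℕ) (c : F) : Matrix (Fin m) (Fin m) F[X] :=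
  Matrix.single a (col m j) (monomial (j / m) c)

theorem coef_add (g h : Matrix (Fin m) (Fin m) F[X]) (a : Fin m) (j : ℕ) :
    coef (g + h) a j = coef g a j + coef h a j := by
  simp [coef]

theorem coef_sub (g h : Matrix (Fin m) (Fin m) F[X]) (a : Fin m) (j : ℕ) :
    coef (g - h) a j = coef g a j - coef h a j := by
  simp [coef]

theorem coef_pm (a : Fin m) (j : ℕ) (c : F) (a' : Fin m) (j' : ℕ) :
    coef (pm a j c) a' j' = if a' = a ∧ j' = j then c else 0 := by
  unfold coef pm
  rw [Matrix.single_apply]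
  by_cases h : a' = a ∧ j' = j
  · obtain ⟨rfl, rfl⟩ := h
    rw [if_pos ⟨rfl, rfl⟩, if_pos ⟨rfl, rfl⟩, Polynomial.coeff_monomial, if_pos rfl]
  · rw [if_neg h]
    by_cases h2 : a = a' ∧ col m j = col m j'
    · rw [if_pos h2, Polynomial.coeff_monomial, if_neg]
      intro h3
      apply h
      refine ⟨h2.1.symm, ?_⟩
      rw [← col_add_div (m := m) j', ← col_add_div (m := m) j, h2.2, h3]
    · rw [if_neg h2, Polynomial.coeff_zero]

theorem pm_mul_pm (a b : Fin m) (i k : ℕ) (c d : F) (h : col m i = b) :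
    pm a i c * pm b k d = pm a (k + m * (i / m)) (c * d) := by
  subst h
  unfold pm
  rw [Matrix.single_mul_single_same, Polynomial.monomial_mul_monomial]
  have h1 : col m (k + m * (i / m)) = col m k := by
    apply Fin.ext; rw [col_val, col_val, Nat.add_mul_mod_self_left]
  have h2 : (k + m * (i / m)) / m = i / m + k / m := by
    rw [Nat.add_mul_div_left _ _ (Nat.pos_of_ne_zero (NeZero.ne m)), add_comm]
  rw [h1, h2]

theorem pm_mul_pm_of_ne (a b : Fin m) (i k : ℕ) (c d : F) (h : col m i ≠ b) :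
    pm a i c * pm b k d = 0 := by
  unfold pm
  rw [Matrix.single_mul_single_of_ne _ _ _ _ h]

theorem pm_add (a : Fin m) (j : ℕ) (c d : F) : pm a j (c + d) = pm a j c + pm a j d := by
  unfold pm
  rw [map_add, Matrix.single_add]

theorem pm_zero (a : Fin m) (j : ℕ) : pm a j (0 : F) = 0 := by
  unfold pm
  rw [map_zero, Matrix.single_zero]

/-- the root element of a path that is not closed -/
noncomputable def rt (a : Fin m) (j : ℕ) (h : col m j ≠ a) (c : F) : GL (Fin m) F[X] where
  val := 1 + pm a j c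
  inv := 1 + pm a j (-c)
  val_inv := by
    rw [add_mul, mul_add, mul_add, pm_mul_pm_of_ne _ _ _ _ _ _ h, one_mul, mul_one, add_zero,
      one_mul, add_assoc, ← pm_add, neg_add_cancel, pm_zero, add_zero]
  inv_val := by
    rw [add_mul, mul_add, mul_add, pm_mul_pm_of_ne _ _ _ _ _ _ h, one_mul, mul_one, add_zero,
      one_mul, add_assoc, ← pm_add, add_neg_cancel, pm_zero, add_zero]

theorem rt_val (a : Fin m) (j : ℕ) (h : col m j ≠ a) (c : F) :
    (rt a j h c : Matrix (Fin m) (Fin m) F[X]) = 1 + pm a j c := rfl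

theorem rt_mul (a : Fin m) (j : ℕ) (h : col m j ≠ a) (c d : F) :
    rt a j h c * rt a j h d = rt a j h (c + d) := by
  apply Units.ext
  rw [Units.val_mul, rt_val, rt_val, rt_val, add_mul, mul_add, mul_add,
    pm_mul_pm_of_ne _ _ _ _ _ _ h, one_mul, mul_one, add_zero, one_mul, pm_add]
  abel

theorem rt_zero (a : Fin m) (j : ℕ) (h : col m j ≠ a) : rt a j h (0 : F) = 1 := by
  apply Units.ext
  rw [rt_val, pm_zero, add_zero]; rfl

theorem rt_inv (a : Fin m) (j : ℕ) (h : col m j ≠ a) (c : F) :
    (rt a j h c)⁻¹ = rt a j h (-c) := by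
  rw [inv_eq_iff_mul_eq_one, rt_mul, add_neg_cancel, rt_zero]

theorem rt_mem_KU {J : Finset (Fin m)} {a : Fin m} {j : ℕ} (h : col m j ≠ a)
    (hp : Pth J a j) (c : F) : rt a j h c ∈ KU F J := by
  have hja : j ≠ a := by
    rintro rfl
    exact h (Fin.ext (by rw [col_val, Nat.mod_eq_of_lt a.2]))
  constructor
  · intro a' j' hne
    rw [rt_val, coef_add, coef_one, coef_pm] at hne
    by_cases h1 : a' = a ∧ j' = j
    · rw [h1.1, h1.2]; exact hp
    · rw [if_neg h1, add_zero] at hne
      have : j' = a' := by by_contra h2; exact hne (if_neg h2)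
      subst this
      exact ⟨le_rfl, fun i h1 h2 => absurd h2 (by omega)⟩
  · intro a'
    rw [rt_val, coef_add, coef_one, coef_pm, if_pos rfl, if_neg, add_zero]
    rintro ⟨rfl, h2⟩
    exact hja h2.symm

/-- commutator formula -/
theorem rt_comm (a : Fin m) (i j : ℕ) (hi : col m i ≠ a) (hj : col m j ≠ col m i)
    (hij : col m j ≠ a) (c d : F) :
    rt a i hi c * rt (col m i) j hj d =
      rt (col m i) j hj d * rt a i hi c *
        rt a (j + m * (i / m)) (by
          rwa [show col m (j + m * (i / m)) = col m j from Fin.ext (by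
            rw [col_val, col_val, Nat.add_mul_mod_self_left])]) (c * d) := by
  have h1 : col m (j + m * (i / m)) = col m j := Fin.ext (by
    rw [col_val, col_val, Nat.add_mul_mod_self_left])
  apply Units.ext
  simp only [Units.val_mul, rt_val]
  have e1 : pm a i c * pm (col m i) j d = pm a (j + m * (i / m)) (c * d) :=
    pm_mul_pm _ _ _ _ _ _ rfl
  have e2 : pm (col m i) j d * pm a i c = 0 := pm_mul_pm_of_ne _ _ _ _ _ _ hij
  have e3 : pm (col m i) j d * pm a (j + m * (i / m)) (c * d) = 0 :=
    pm_mul_pm_of_ne _ _ _ _ _ _ hij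
  have e4 : pm a i c * pm a (j + m * (i / m)) (c * d) = 0 := pm_mul_pm_of_ne _ _ _ _ _ _ hi
  simp only [add_mul, mul_add, one_mul, mul_one, e1, e2, e3, e4, add_zero]
  abel

/-- non adjacent roots commute -/
theorem rt_comm' (a b : Fin m) (i j : ℕ) (hi : col m i ≠ a) (hj : col m j ≠ b)
    (h1 : col m i ≠ b) (h2 : col m j ≠ a) (c d : F) :
    rt a i hi c * rt b j hj d = rt b j hj d * rt a i hi c := by
  apply Units.ext
  simp only [Units.val_mul, rt_val]
  simp only [add_mul, mul_add, one_mul, mul_one, pm_mul_pm_of_ne _ _ _ _ _ _ h1,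
    pm_mul_pm_of_ne _ _ _ _ _ _ h2, add_zero]
  abel

/-! ### generation -/

/-- paths inside a proper subset are short -/
theorem Pth.lt {J : Finset (Fin m)} (hJ : J ≠ Finset.univ) {a : Fin m} {j : ℕ}
    (h : Pth J a j) : j < a + m := by
  by_contra hcon
  obtain ⟨i0, hi0⟩ : ∃ i, i ∉ J := by
    by_contra hc
    push Not at hc
    exact hJ (Finset.eq_univ_iff_forall.2 hc)
  apply hi0
  have ha := a.2
  have hi := i0.2
  by_cases hai : (a : ℕ) ≤ i0
  · have := h.2 i0 hai (by omega)
    rwa [show col m (i0 : ℕ) = i0 from Fin.ext (by rw [col_val, Nat.mod_eq_of_lt i0.2])] at this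
  · have := h.2 (i0 + m) (by omega) (by omega)
    rwa [show col m ((i0 : ℕ) + m) = i0 from Fin.ext (by
      rw [col_val, Nat.add_mod_right, Nat.mod_eq_of_lt i0.2])] at this

theorem col_ne {a : Fin m} {j : ℕ} (h1 : (a : ℕ) < j) (h2 : j < a + m) : col m j ≠ a := by
  intro h
  have h3 := col_add_div (m := m) j
  rw [h] at h3
  have ha := a.2
  have h4 : j / m = 0 := by
    by_contra h5
    have h6 : m ≤ m * (j / m) := Nat.le_mul_of_pos_right m (Nat.pos_of_ne_zero h5)
    omega
  rw [h4] at h3
  omega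

/-- the set of simple root elements with types in `J` -/
def rootSet (F : Type) [Field F] {m : ℕ} [NeZero m] (J : Finset (Fin m)) :
    Set (GL (Fin m) F[X]) :=
  {g | ∃ (i : Fin m) (h : col m (i + 1) ≠ i) (c : F), i ∈ J ∧ g = rt i (i + 1) h c}

theorem pth_one {J : Finset (Fin m)} {i : Fin m} (hi : i ∈ J) : Pth J i (i + 1) := by
  refine ⟨by omega, fun k h1 h2 => ?_⟩
  have : k = i := by omega
  subst this
  rwa [show col m (i : ℕ) = i from Fin.ext (by rw [col_val, Nat.mod_eq_of_lt i.2])]

theorem rootSet_subset (J : Finset (Fin m)) : Subgroup.closure (rootSet F J) ≤ KU F J := by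
  rw [Subgroup.closure_le]
  rintro _ ⟨i, h, c, hi, rfl⟩
  exact rt_mem_KU h (pth_one hi) c

/-- path elements are generated -/
theorem rt_mem_closure {J : Finset (Fin m)} (hJ : J ≠ Finset.univ) (a : Fin m) (l : ℕ)
    (c : F) (h : col m (a + (l + 1)) ≠ a) (hp : Pth J a (a + (l + 1))) :
    rt a (a + (l + 1)) h c ∈ Subgroup.closure (rootSet F J) := by
  induction l generalizing c with
  | zero =>
    refine Subgroup.subset_closure ⟨a, h, c, ?_, rfl⟩
    have := hp.2 a le_rfl (by omega)
    rwa [show col m (a : ℕ) = a from Fin.ext (by rw [col_val, Nat.mod_eq_of_lt a.2])] at this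
  | succ l ih =>
    have hlt := hp.lt hJ
    have hi : col m (a + (l + 1)) ≠ a := col_ne (by omega) (by omega)
    have hp' : Pth J a (a + (l + 1)) := ⟨by omega, fun x h1 h2 => hp.2 x h1 (by omega)⟩
    set b := col m (a + (l + 1)) with hb
    have hbJ : b ∈ J := hp.2 (a + (l + 1)) (by omega) (by omega)
    have hm2 : 2 ≤ m := by omega
    have hbb : col m (b + 1) ≠ b := col_ne (by omega) (by omega)
    have hcol : col m ((b : ℕ) + 1) = col m (a + (l + 1 + 1)) := by
      apply Fin.ext
      rw [col_val, col_val, col_val, Nat.mod_add_mod]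
      rfl
    have hij : col m ((b : ℕ) + 1) ≠ a := by rw [hcol]; exact h
    have key := rt_comm a (a + (l + 1)) (b + 1) hi hbb hij c 1
    have hend : (b : ℕ) + 1 + m * ((a + (l + 1)) / m) = a + (l + 1 + 1) := by
      have := col_add_div (m := m) (a + (l + 1))
      rw [← hb] at this
      omega
    have h1 : rt b (b + 1) hbb (1 : F) ∈ Subgroup.closure (rootSet F J) :=
      Subgroup.subset_closure ⟨b, hbb, 1, hbJ, rfl⟩
    have h2 := ih c hi hp'
    have key2 : rt a (a + (l + 1 + 1)) h c =
        (rt b (b + 1) hbb 1 * rt a (a + (l + 1)) hi c)⁻¹ *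
          (rt a (a + (l + 1)) hi c * rt b (b + 1) hbb 1) := by
      rw [eq_inv_mul_iff_mul_eq, key]
      congr 1
      apply Units.ext
      rw [rt_val, rt_val, mul_one, hend]
    rw [key2]
    exact mul_mem (inv_mem (mul_mem h1 h2)) (mul_mem h2 h1)

theorem coef_pm_mul (a : Fin m) (j : ℕ) (c : F) {v : Matrix (Fin m) (Fin m) F[X]}
    (hv : ∀ (a : Fin m) (j : ℕ), coef v a j ≠ 0 → (a : ℕ) ≤ j) (a' : Fin m) (j' : ℕ) :
    coef (pm a j c * v) a' j' =
      if a' = a ∧ j ≤ j' then c * coef v (col m j) (j' - j + j % m) else 0 := by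
  rw [coef_mul _ _ hv]
  by_cases h : a' = a ∧ j ≤ j'
  · rw [if_pos h, Finset.sum_eq_single j]
    · rw [coef_pm, if_pos ⟨h.1, rfl⟩]
    · intro i _ hij
      rw [coef_pm, if_neg (fun h' => hij h'.2), zero_mul]
    · intro hj
      exact absurd (Finset.mem_range.2 (by omega)) hj
  · rw [if_neg h]
    refine Finset.sum_eq_zero fun i hi => ?_
    rw [Finset.mem_range] at hi
    rw [coef_pm, if_neg, zero_mul]
    rintro ⟨h1, h2⟩
    exact h ⟨h1, by omega⟩

/-- eliminate the coefficients of length `l` in the rows of `T` -/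
theorem row_elim {J : Finset (Fin m)} (hJ : J ≠ Finset.univ) {l : ℕ}
    {u : GL (Fin m) F[X]} (hu : u ∈ KU F J)
    (hv : ∀ (a : Fin m) (j : ℕ), (a : ℕ) < j → j < a + (l + 1) → coef (u : Matrix _ _ F[X]) a j = 0)
    (T : Finset (Fin m)) :
    ∃ h ∈ Subgroup.closure (rootSet F J),
      (∀ (a : Fin m) (j : ℕ), (a : ℕ) < j → j < a + (l + 1) →
        coef ((h * u : GL (Fin m) F[X]) : Matrix _ _ F[X]) a j = 0) ∧
      (∀ a ∈ T, coef ((h * u : GL (Fin m) F[X]) : Matrix _ _ F[X]) a (a + (l + 1)) = 0) ∧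
      (∀ a ∉ T, coef ((h * u : GL (Fin m) F[X]) : Matrix _ _ F[X]) a (a + (l + 1)) =
        coef (u : Matrix _ _ F[X]) a (a + (l + 1))) := by
  induction T using Finset.induction_on with
  | empty =>
    refine ⟨1, one_mem _, ?_, ?_, ?_⟩
    · intro a j h1 h2; rw [one_mul]; exact hv a j h1 h2
    · intro a ha; exact absurd ha (Finset.notMem_empty a)
    · intro a _; rw [one_mul]
  | insert a T haT ih =>
    obtain ⟨h, hh, h1, h2, h3⟩ := ih
    have hhu : h * u ∈ KU F J := mul_mem (rootSet_subset J hh) hu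
    set c := coef (u : Matrix _ _ F[X]) a (a + (l + 1)) with hc
    by_cases hc0 : c = 0
    · refine ⟨h, hh, h1, ?_, ?_⟩
      · intro b hb
        rcases Finset.mem_insert.1 hb with rfl | hb
        · rw [h3 b haT, ← hc, hc0]
        · exact h2 b hb
      · intro b hb
        exact h3 b fun h' => hb (Finset.mem_insert_of_mem h')
    · have hp : Pth J a (a + (l + 1)) := hu.1 _ _ hc0
      have hne : col m (a + (l + 1)) ≠ a := col_ne (by omega) (hp.lt hJ)
      refine ⟨rt a (a + (l + 1)) hne (-c) * h,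
        mul_mem (rt_mem_closure hJ a l (-c) hne hp) hh, ?_, ?_, ?_⟩
      all_goals
        have hcf : ∀ (a' : Fin m) (j' : ℕ),
            coef ((rt a (a + (l + 1)) hne (-c) * h * u : GL (Fin m) F[X]) :
              Matrix _ _ F[X]) a' j' =
            coef ((h * u : GL (Fin m) F[X]) : Matrix _ _ F[X]) a' j' +
              if a' = a ∧ a + (l + 1) ≤ j' then
                (-c) * coef ((h * u : GL (Fin m) F[X]) : Matrix _ _ F[X]) (col m (a + (l + 1)))
                  (j' - (a + (l + 1)) + (a + (l + 1)) % m) else 0 := by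
          intro a' j'
          rw [mul_assoc, Units.val_mul, rt_val, add_mul, one_mul, coef_add,
            coef_pm_mul _ _ _ (pth_nonneg hhu)]
      · intro b j hb1 hb2
        rw [hcf, h1 b j hb1 hb2, if_neg, add_zero]
        rintro ⟨rfl, h5⟩
        omega
      · intro b hb
        rw [hcf]
        rcases Finset.mem_insert.1 hb with hba | hbT
        · rw [hba, if_pos ⟨rfl, le_rfl⟩, h3 a haT, ← hc, Nat.sub_self, zero_add]
          have := hhu.2 (col m (a + (l + 1)))
          rw [col_val] at this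
          rw [this]; ring
        · rw [h2 b hbT, if_neg, add_zero]
          rintro ⟨hba, -⟩
          exact haT (hba ▸ hbT)
      · intro b hb
        rw [hcf, h3 b fun h' => hb (Finset.mem_insert_of_mem h'), if_neg, add_zero]
        rintro ⟨rfl, -⟩
        exact hb (Finset.mem_insert_self _ _)

theorem KU_le_closure_aux {J : Finset (Fin m)} (hJ : J ≠ Finset.univ) (k : ℕ) :
    ∀ l, l + 1 + k = m → ∀ u : GL (Fin m) F[X], u ∈ KU F J →
      (∀ (a : Fin m) (j : ℕ), (a : ℕ) < j → j < a + (l + 1) →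
        coef (u : Matrix _ _ F[X]) a j = 0) → u ∈ Subgroup.closure (rootSet F J) := by
  induction k with
  | zero =>
    intro l hl u hu hv
    have : u = 1 := by
      apply Units.ext
      apply ext_coef
      intro a j
      rw [Units.val_one, coef_one]
      by_cases hj : j = a
      · subst hj; rw [if_pos rfl, hu.2]
      · rw [if_neg hj]
        by_contra hne
        have hp := hu.1 a j hne
        have h1 := hp.lt hJ
        have h2 := hp.1
        exact hne (hv a j (by omega) (by omega))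
    rw [this]; exact one_mem _
  | succ k ih =>
    intro l hl u hu hv
    obtain ⟨h, hh, h1, h2, -⟩ := row_elim hJ hu hv Finset.univ
    have h3 := ih (l + 1) (by omega) (h * u) (mul_mem (rootSet_subset J hh) hu) (by
      intro a j ha hj
      by_cases hj' : j < a + (l + 1)
      · exact h1 a j ha hj'
      · have : j = a + (l + 1) := by omega
        rw [this]; exact h2 a (Finset.mem_univ a))
    have h4 : u = h⁻¹ * (h * u) := by group
    rw [h4]
    exact mul_mem (inv_mem hh) h3

/-- for `J ≠ univ` the group `KU F J` is generated by its simple root elements -/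
theorem KU_eq_closure {J : Finset (Fin m)} (hJ : J ≠ Finset.univ) :
    KU F J = Subgroup.closure (rootSet F J) := by
  refine le_antisymm (fun u hu => ?_) (rootSet_subset J)
  have hm : 0 < m := Nat.pos_of_ne_zero (NeZero.ne m)
  exact KU_le_closure_aux hJ (m - 1) 0 (by omega) u hu fun a j h1 h2 => by omega

/-- intersections -/
theorem KU_inf (J J' : Finset (Fin m)) : KU F J ⊓ KU F J' = KU F (J ∩ J') := by
  ext g
  rw [Subgroup.mem_inf, mem_KU, mem_KU, mem_KU]
  constructor
  · rintro ⟨h1, h2⟩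
    exact ⟨fun a j hne => ⟨(h1.1 a j hne).1, fun i h3 h4 => Finset.mem_inter.2
      ⟨(h1.1 a j hne).2 i h3 h4, (h2.1 a j hne).2 i h3 h4⟩⟩, h1.2⟩
  · intro h
    exact ⟨⟨fun a j hne => ⟨(h.1 a j hne).1, fun i h3 h4 => (Finset.mem_inter.1
      ((h.1 a j hne).2 i h3 h4)).1⟩, h.2⟩, ⟨fun a j hne => ⟨(h.1 a j hne).1, fun i h3 h4 =>
      (Finset.mem_inter.1 ((h.1 a j hne).2 i h3 h4)).2⟩, h.2⟩⟩

theorem KU_mono {J J' : Finset (Fin m)} (h : J ⊆ J') : KU F J ≤ KU F J' := by
  intro g hg
  exact ⟨fun a j hne => ⟨(hg.1 a j hne).1, fun i h3 h4 => h ((hg.1 a j hne).2 i h3 h4)⟩, hg.2⟩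

end

end Crest.Agent.R66
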