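import Crest.Agent.R66.DGGen
import Crest.Agent.R66.DCoset

/-!
# Row 66: the finite group `Gq = U / N` and its root subgroups (helper94)

`UU F m` = `U` (subgroup of `GL (Fin m) F[X]`, `g(0)` upper unitriangular),
`Ncong F m n` = matrices `= 1` mod `X^n`,  `Nn F m n = Ncong.subgroupOf U`,
`Gq F m n = U / Nn`,  `KUs F m J = (KU F J).subgroupOf U` (the group `K_J` inside `U`),
`Aq F m n i` = image of `KUs {i}` = root subgroup of type `i`.
-/

set_option autoImplicit false
set_option linter.unusedSectionVars false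

open Polynomial Matrix

namespace Crest.Agent.R66

section
variable (F : Type) [Field F] (m n : ℕ) [NeZero m]

/-- the congruence subgroup inside `U` -/
noncomputable abbrev Nn : Subgroup (UU F m) := (Ncong F m n).subgroupOf (UU F m)

instance Nn_normal : (Nn F m n).Normal := by
  have := Ncong_normal (F := F) (m := m) n
  infer_instance

/-- the finite group -/
abbrev Gq : Type := UU F m ⧸ Nn F m n

/-- `K_J` as a subgroup of `U` -/
noncomputable abbrev KUs (J : Finset (Fin m)) : Subgroup (UU F m) := (KU F J).subgroupOf (UU F m)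

/-- the root subgroups of `Gq` -/
noncomputable def Aq (i : Fin m) : Subgroup (Gq F m n) :=
  (KUs F m {i}).map (QuotientGroup.mk' (Nn F m n))

variable {F m n}

/-- reduction mod `X^n` -/
noncomputable abbrev red (F : Type) [Field F] (m n : ℕ) [NeZero m] :
    GL (Fin m) F[X] →* GL (Fin m) (F[X] ⧸ Ideal.span {(X : F[X]) ^ n}) :=
  GeneralLinearGroup.map (n := Fin m) (Ideal.Quotient.mk (Ideal.span {(X : F[X]) ^ n}))

theorem red_eq_iff {g h : GL (Fin m) F[X]} : red F m n g = red F m n h ↔
    ∀ (a : Fin m) (j : ℕ), j / m < n →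
      coef (g : Matrix (Fin m) (Fin m) F[X]) a j = coef (h : Matrix (Fin m) (Fin m) F[X]) a j := by
  constructor
  · intro e a j hj
    have h2 : Ideal.Quotient.mk (Ideal.span {(X : F[X]) ^ n}) (g.val a (col m j)) =
        Ideal.Quotient.mk (Ideal.span {(X : F[X]) ^ n}) (h.val a (col m j)) :=
      congrArg (fun u : GL (Fin m) (F[X] ⧸ Ideal.span {(X : F[X]) ^ n}) =>
        (u : Matrix (Fin m) (Fin m) (F[X] ⧸ Ideal.span {(X : F[X]) ^ n})) a (col m j)) e
    rw [Ideal.Quotient.eq, Ideal.mem_span_singleton, Polynomial.X_pow_dvd_iff] at h2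
    have h3 := h2 (j / m) hj
    rw [Polynomial.coeff_sub, sub_eq_zero] at h3
    exact h3
  · intro e
    apply Units.ext
    ext a b
    change Ideal.Quotient.mk (Ideal.span {(X : F[X]) ^ n}) (g.val a b) =
        Ideal.Quotient.mk (Ideal.span {(X : F[X]) ^ n}) (h.val a b)
    rw [Ideal.Quotient.eq, Ideal.mem_span_singleton, Polynomial.X_pow_dvd_iff]
    intro k hk
    rw [Polynomial.coeff_sub, sub_eq_zero, ← coef_eq, ← coef_eq]
    exact e a _ (by rw [div_add_mul]; exact hk)

theorem mem_Ncong {g : GL (Fin m) F[X]} : g ∈ Ncong F m n ↔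
    ∀ (a : Fin m) (j : ℕ), j / m < n →
      coef (g : Matrix (Fin m) (Fin m) F[X]) a j = coef (1 : Matrix (Fin m) (Fin m) F[X]) a j := by
  unfold Ncong
  rw [MonoidHom.mem_ker, ← map_one (red F m n)]
  exact red_eq_iff

/-- `N ≤ U` -/
theorem Ncong_le (hn : 1 ≤ n) : Ncong F m n ≤ UU F m := by
  intro g hg
  rw [mem_Ncong] at hg
  have hm : 0 < m := Nat.pos_of_ne_zero (NeZero.ne m)
  constructor
  · intro a j hne
    refine ⟨?_, fun i _ _ => Finset.mem_univ _⟩
    by_cases h1 : j / m < n
    · rw [hg a j h1, coef_one] at hne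
      by_contra h2
      exact hne (if_neg (by omega))
    · have h2 : 1 ≤ j / m := by omega
      have h3 := (Nat.le_div_iff_mul_le hm).1 h2
      have := a.2
      omega
  · intro a
    rw [hg a a (by rw [Nat.div_eq_of_lt a.2]; omega), coef_one, if_pos rfl]

/-- the image of `K_J` in `Gq` -/
noncomputable def KG (F : Type) [Field F] {m : ℕ} [NeZero m] (n : ℕ) (J : Finset (Fin m)) :
    Subgroup (Gq F m n) :=
  (KUs F m J).map (QuotientGroup.mk' (Nn F m n))

/-- equality in `Gq` -/
theorem mk_eq_iff {g h : UU F m} : ((g : Gq F m n) = (h : Gq F m n)) ↔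
    ∀ (a : Fin m) (j : ℕ), j / m < n →
      coef (g.1 : Matrix (Fin m) (Fin m) F[X]) a j = coef (h.1 : Matrix (Fin m) (Fin m) F[X]) a j := by
  rw [QuotientGroup.eq, Subgroup.mem_subgroupOf]
  unfold Ncong
  rw [MonoidHom.mem_ker, ← red_eq_iff, Subgroup.coe_mul, map_mul, Subgroup.coe_inv, map_inv,
    inv_mul_eq_one]

instance finite_Gq [Finite F] : Finite (Gq F m n) := by
  have hm : 0 < m := Nat.pos_of_ne_zero (NeZero.ne m)
  let f : Gq F m n → (Fin m → Fin (m * n) → F) := fun x a j =>
    coef ((Quotient.out x).1 : Matrix (Fin m) (Fin m) F[X]) a j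
  refine Finite.of_injective f fun x y h => ?_
  rw [← QuotientGroup.out_eq' x, ← QuotientGroup.out_eq' y, mk_eq_iff]
  intro a j hj
  have hj' : j < m * n := by
    have := Nat.div_add_mod j m
    have h2 := Nat.mod_lt j hm
    have h3 : m * (j / m + 1) ≤ m * n := Nat.mul_le_mul_left m hj
    rw [Nat.mul_add] at h3
    omega
  exact congrFun (congrFun h a) ⟨j, hj'⟩

noncomputable instance [Finite F] : Fintype (Gq F m n) := Fintype.ofFinite _

end

end Crest.Agent.R66
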