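import Crest.Agent.R66.DTrickle

/-!
# Row 66, part (D): the local (pointwise) form (helper94)

`gap_local`: for every coset `g K_J` (`J ⊆ I`, `|J| = n + 2`) and functions `f i` (`i ∈ J`) on
the coset which are right invariant under `K_{J - i}`, the mixing inequality of the residue
(= link of a simplex of cotype `J`, `= I` itself gives the whole complex) with
`λ_J = λ / (1 - n λ)`.
-/

set_option autoImplicit false
set_option linter.unusedSectionVars false
open scoped Classical

namespace Crest.Agent.R66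

section Main
variable {G : Type} [Group G] [Fintype G] {I : Type} [DecidableEq I] [Fintype I]

/-- the indicator of the coset `g H` -/
noncomputable def chi (H : Subgroup G) (g : G) (x : G) : ℝ := if g⁻¹ * x ∈ H then 1 else 0

theorem chi_rinv (H : Subgroup G) (g : G) : RInv H (chi H g) := by
  intro x k hk
  unfold chi
  have : g⁻¹ * (x * k) ∈ H ↔ g⁻¹ * x ∈ H := by
    rw [← mul_assoc]
    exact H.mul_mem_cancel_right hk
  simp only [this]

theorem chi_sq (H : Subgroup G) (g x : G) : chi H g x * chi H g x = chi H g x := by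
  unfold chi; split_ifs <;> simp

/-- the sum over a coset -/
theorem sum_chi (H : Subgroup G) (g : G) (f : G → ℝ) :
    ∑ x, chi H g x * f x = (els H).card * av H f g := by
  have h1 : ∑ x, chi H g x * f x = ∑ h ∈ els H, f (g * h) := by
    have h2 : ∑ x, chi H g x * f x = ∑ h, chi H g (g * h) * f (g * h) :=
      (Fintype.sum_equiv (Equiv.mulLeft g) _ _ fun h => rfl).symm
    rw [h2, els, Finset.sum_filter]
    refine Finset.sum_congr rfl fun h _ => ?_
    unfold chi
    rw [inv_mul_cancel_left]
    split_ifs <;> simp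
  rw [h1, av, mul_div_cancel₀ _ (els_card_pos' H).ne']

/-- the pointwise form -/
theorem gap_local {A : I → Subgroup G} {J : Finset I} {lam : ℝ} (hJ : 2 ≤ J.card)
    (h : GapI A J lam) (f : I → G → ℝ) (hf : ∀ i ∈ J, RInv (KJ A (J.erase i)) (f i)) (g : G) :
    (∑ i ∈ J, ∑ j ∈ J.erase i, av (KJ A J) (fun x => f i x * f j x) g) /
        ((J.card : ℝ) * (J.card - 1)) ≤
      (1 - lam) * ((∑ i ∈ J, av (KJ A J) (f i) g) / J.card) ^ 2 +
        lam * ((∑ i ∈ J, av (KJ A J) (fun x => f i x * f i x) g) / J.card) := by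
  set K := KJ A J with hK
  set c : ℝ := ((els K).card : ℝ) with hc
  have hcpos : 0 < c := els_card_pos' K
  have hr : (2 : ℝ) ≤ J.card := by exact_mod_cast hJ
  have h1 := h (fun i x => chi K g x * f i x) fun i hi =>
    RInv.mul ((chi_rinv K g).mono (KJ_mono A (Finset.erase_subset i J))) (hf i hi)
  have e1 : ∀ i j, ip (fun x => chi K g x * f i x) (fun x => chi K g x * f j x) =
      c * av K (fun x => f i x * f j x) g := by
    intro i j
    rw [hc, ← sum_chi]
    unfold ip
    refine Finset.sum_congr rfl fun x _ => ?_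
    calc chi K g x * f i x * (chi K g x * f j x) = chi K g x * chi K g x * (f i x * f j x) := by
          ring
      _ = _ := by rw [chi_sq]
  have e2 : ∑ i ∈ J, av K (fun x => chi K g x * f i x) =
      fun x => chi K g x * ∑ i ∈ J, av K (f i) x := by
    funext x
    rw [Finset.sum_apply, Finset.mul_sum]
    exact Finset.sum_congr rfl fun i _ => congrFun (av_mul_of_rinv (chi_rinv K g) (f i)) x
  have e3 : ip (∑ i ∈ J, av K (fun x => chi K g x * f i x))
      (∑ i ∈ J, av K (fun x => chi K g x * f i x)) = c * (∑ i ∈ J, av K (f i) g) ^ 2 := by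
    rw [e2]
    have h3 : ip (fun x => chi K g x * ∑ i ∈ J, av K (f i) x)
        (fun x => chi K g x * ∑ i ∈ J, av K (f i) x) =
        ∑ x, chi K g x * (∑ i ∈ J, av K (f i) g) ^ 2 := by
      unfold ip
      refine Finset.sum_congr rfl fun x _ => ?_
      by_cases hx : g⁻¹ * x ∈ K
      · have h4 : ∀ i, av K (f i) x = av K (f i) g := by
          intro i
          have := rinv_av K (f i) g (g⁻¹ * x) hx
          rwa [mul_inv_cancel_left] at this
        simp only [h4]
        have h5 : chi K g x = 1 := by unfold chi; rw [if_pos hx]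
        rw [h5]; ring
      · have h5 : chi K g x = 0 := by unfold chi; rw [if_neg hx]
        simp only [h5, zero_mul]
    rw [h3, sum_chi K g fun _ => (∑ i ∈ J, av K (f i) g) ^ 2]
    congr 1
    exact congrFun (av_of_rinv (H := K) (f := fun _ => (∑ i ∈ J, av K (f i) g) ^ 2)
      fun _ _ _ => rfl) g
  simp only [e1] at h1
  rw [e3] at h1
  simp only [← Finset.mul_sum] at h1
  have e4 : ∀ a b d : ℝ, c * a / ((J.card : ℝ) * (J.card - 1)) ≤
      (1 - lam) * (c * b ^ 2 / (J.card : ℝ) ^ 2) + lam * (c * d / J.card) →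
      a / ((J.card : ℝ) * (J.card - 1)) ≤ (1 - lam) * (b / J.card) ^ 2 + lam * (d / J.card) := by
    intro a b d hh
    have hh' : c * (a / ((J.card : ℝ) * (J.card - 1))) ≤
        c * ((1 - lam) * (b / J.card) ^ 2 + lam * (d / J.card)) := by
      have e5 : c * (a / ((J.card : ℝ) * (J.card - 1))) = c * a / ((J.card : ℝ) * (J.card - 1)) := by
        ring
      have e6 : c * ((1 - lam) * (b / J.card) ^ 2 + lam * (d / J.card)) =
          (1 - lam) * (c * b ^ 2 / (J.card : ℝ) ^ 2) + lam * (c * d / J.card) := by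
        rw [div_pow]; ring
      rw [e5, e6]; exact hh
    exact le_of_mul_le_mul_left hh' hcpos
  exact e4 _ _ _ h1

/-- all residues at once -/
theorem gap_local_all {A : I → Subgroup G} {lam : ℝ} (hl : 0 ≤ lam)
    (hp : ∀ i j, i ≠ j → PairGap (A i) (A j) lam) (n : ℕ) (J : Finset I)
    (hJ : J.card = n + 2) (hn : n * lam < 1) (f : I → G → ℝ)
    (hf : ∀ i ∈ J, RInv (KJ A (J.erase i)) (f i)) (g : G) :
    (∑ i ∈ J, ∑ j ∈ J.erase i, av (KJ A J) (fun x => f i x * f j x) g) /
        ((J.card : ℝ) * (J.card - 1)) ≤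
      (1 - lam / (1 - n * lam)) * ((∑ i ∈ J, av (KJ A J) (f i) g) / J.card) ^ 2 +
        lam / (1 - n * lam) * ((∑ i ∈ J, av (KJ A J) (fun x => f i x * f i x) g) / J.card) :=
  gap_local (by omega) (gapI_all hl hp n J hJ hn) f hf g

/-- uniform constant: `λ_J ≤ 2 λ` as soon as `2 |I| λ ≤ 1` -/
theorem lam_le {lam : ℝ} (hl : 0 ≤ lam) {n : ℕ} (hn : 2 * n * lam ≤ 1) :
    lam / (1 - n * lam) ≤ 2 * lam := by
  have h1 : (1 : ℝ) / 2 ≤ 1 - n * lam := by linarith
  rw [div_le_iff₀ (by linarith)]
  nlinarith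

end Main

end Crest.Agent.R66
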