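import Crest.Agent.R66.DAv

/-!
# Row 66, part (D): rank two (helper94)

`PairGap A B lam`: functions invariant under `B` with zero average over the cosets of `A ⊔ B`
contract by `lam` under the average over `A`.  Commuting pairs: every `lam`.  Heisenberg pairs:
`lam² = 1/q`.
-/

set_option autoImplicit false
set_option linter.unusedSectionVars false

namespace Crest.Agent.R66

section Pair
variable {G : Type} [Group G] [Fintype G]

/-- the rank two gap -/
def PairGap (A B : Subgroup G) (lam : ℝ) : Prop :=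
  ∀ f : G → ℝ, RInv B f → av (A ⊔ B) f = 0 → ip (av A f) (av A f) ≤ lam ^ 2 * ip f f

/-- commuting averages preserve invariance -/
theorem rinv_av_of_comm {A B : Subgroup G} (h : ∀ a ∈ A, ∀ b ∈ B, a * b = b * a) {f : G → ℝ}
    (hf : RInv B f) : RInv B (av A f) := by
  intro g b hb
  unfold av
  congr 1
  refine Finset.sum_congr rfl fun a ha => ?_
  rw [mul_assoc, ← h a (mem_els.1 ha) b hb, ← mul_assoc, hf _ b hb]

theorem pairGap_comm {A B : Subgroup G} (h : ∀ a ∈ A, ∀ b ∈ B, a * b = b * a) (lam : ℝ) :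
    PairGap A B lam := by
  intro f hf h0
  have h1 : RInv (A ⊔ B) (av A f) := (rinv_av A f).sup (rinv_av_of_comm h hf)
  have h2 : av A f = 0 := by
    rw [← av_of_rinv h1, av_av_of_le le_sup_left, h0]
  rw [h2]
  have h3 : ip (0 : G → ℝ) 0 = 0 := by simp [ip]
  rw [h3]
  exact mul_nonneg (sq_nonneg _) (ip_self_nonneg f)

/-- Cauchy--Schwarz -/
theorem ip_sq_le (f g : G → ℝ) : ip f g ^ 2 ≤ ip f f * ip g g := by
  unfold ip
  have := Finset.sum_mul_sq_le_sq_mul_sq Finset.univ f g
  simpa [sq] using this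

theorem abs_ip_le {a b : ℝ} (f g : G → ℝ) (ha : 0 ≤ a) (h : ip f f ≤ a ^ 2 * b) (hb : 0 ≤ b) :
    ip f g ≤ a * ((b + ip g g) / 2) := by
  have h1 := ip_sq_le f g
  have h2 : ip f g ^ 2 ≤ (a * ((b + ip g g) / 2)) ^ 2 := by
    have hg := ip_self_nonneg g
    have h3 : ip f f * ip g g ≤ a ^ 2 * b * ip g g := mul_le_mul_of_nonneg_right h hg
    have h4 : b * ip g g ≤ ((b + ip g g) / 2) ^ 2 := by nlinarith [sq_nonneg (b - ip g g)]
    calc ip f g ^ 2 ≤ a ^ 2 * b * ip g g := h1.trans h3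
      _ = a ^ 2 * (b * ip g g) := by ring
      _ ≤ a ^ 2 * ((b + ip g g) / 2) ^ 2 := mul_le_mul_of_nonneg_left h4 (sq_nonneg _)
      _ = _ := by ring
  have h5 : 0 ≤ a * ((b + ip g g) / 2) := by
    have hg := ip_self_nonneg g
    positivity
  exact (abs_le_of_sq_le_sq' h2 h5).2

/-- the estimate for pairs -/
theorem pair_bound {A B : Subgroup G} {lam : ℝ} (hl : 0 ≤ lam) (h : PairGap A B lam)
    {f g : G → ℝ} (hf : RInv B f) (hg : RInv A g) :
    ip f g ≤ (1 - lam) / 4 * ip (av (A ⊔ B) f + av (A ⊔ B) g) (av (A ⊔ B) f + av (A ⊔ B) g) +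
      lam / 2 * (ip f f + ip g g) := by
  set P := av (A ⊔ B) with hP
  have hPf : RInv (A ⊔ B) (P f) := rinv_av _ _
  have hPg : RInv (A ⊔ B) (P g) := rinv_av _ _
  set f0 := f - P f with hf0
  set g0 := g - P g with hg0
  have hf0' : RInv B f0 := hf.sub (hPf.mono le_sup_right)
  have hg0' : RInv A g0 := hg.sub (hPg.mono le_sup_left)
  have hPf0 : P f0 = 0 := by rw [hf0, hP, av_sub, av_av, sub_self]
  have hPg0 : P g0 = 0 := by rw [hg0, hP, av_sub, av_av, sub_self]
  have z1 : ip (P f) g0 = 0 := by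
    rw [← ip_of_rinv' hPf g0, ← hP, hPg0]; simp [ip]
  have z2 : ip f0 (P g) = 0 := by
    rw [← ip_of_rinv hPg f0, ← hP, hPf0]; simp [ip]
  have z3 : ip (P f) f0 = 0 := by
    rw [← ip_of_rinv' hPf f0, ← hP, hPf0]; simp [ip]
  have z4 : ip (P g) g0 = 0 := by
    rw [← ip_of_rinv' hPg g0, ← hP, hPg0]; simp [ip]
  have ef : f = P f + f0 := by rw [hf0]; abel
  have eg : g = P g + g0 := by rw [hg0]; abel
  have e1 : ip f g = ip (P f) (P g) + ip f0 g0 := by
    conv_lhs => rw [ef, eg]
    rw [ip_add_left, ip_add_right, ip_add_right, z1, z2]; ring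
  have e2 : ip f f = ip (P f) (P f) + ip f0 f0 := by
    conv_lhs => rw [ef]
    rw [ip_add_left, ip_add_right, ip_add_right, z3, ip_comm f0 (P f), z3]; ring
  have e3 : ip g g = ip (P g) (P g) + ip g0 g0 := by
    conv_lhs => rw [eg]
    rw [ip_add_left, ip_add_right, ip_add_right, z4, ip_comm g0 (P g), z4]; ring
  have e4 : ip f0 g0 ≤ lam * ((ip f0 f0 + ip g0 g0) / 2) := by
    rw [← ip_of_rinv hg0' f0]
    exact abs_ip_le _ _ hl (h f0 hf0' hPf0) (ip_self_nonneg _)
  have e5 : ip (P f + P g) (P f + P g) = ip (P f) (P f) + 2 * ip (P f) (P g) + ip (P g) (P g) := by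
    rw [ip_add_left, ip_add_right, ip_add_right, ip_comm (P g) (P f)]; ring
  have e6 : 0 ≤ ip (P f) (P f) - 2 * ip (P f) (P g) + ip (P g) (P g) := by
    have := ip_self_nonneg (P f - P g)
    rw [ip_sub_left, ip_sub_right, ip_sub_right, ip_comm (P g) (P f)] at this
    linarith
  rw [e5, e1, e2, e3]
  nlinarith

section Heis
variable {F : Type} [Field F] [Fintype F]

theorem hom_zero {x : F → G} (hx : ∀ a b, x (a + b) = x a * x b) : x 0 = 1 := by
  have := hx 0 0
  rw [add_zero] at this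
  exact (mul_eq_left.1 this.symm)

/-- the range of an additive-to-multiplicative homomorphism -/
def sg (x : F → G) (hx : ∀ a b, x (a + b) = x a * x b) : Subgroup G where
  carrier := Set.range x
  mul_mem' := by
    rintro _ _ ⟨a, rfl⟩ ⟨b, rfl⟩
    exact ⟨a + b, hx a b⟩
  one_mem' := ⟨0, hom_zero hx⟩
  inv_mem' := by
    rintro _ ⟨a, rfl⟩
    refine ⟨-a, ?_⟩
    rw [eq_inv_iff_mul_eq_one, ← hx, neg_add_cancel, hom_zero hx]

theorem mem_sg {x : F → G} {hx : ∀ a b, x (a + b) = x a * x b} {g : G} :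
    g ∈ sg x hx ↔ ∃ a, x a = g := Iff.rfl

theorem sum_els_mul_right (H : Subgroup G) (f : G → ℝ) {k : G} (hk : k ∈ H) :
    ∑ h ∈ els H, f (h * k) = ∑ h ∈ els H, f h := by
  refine Finset.sum_bij (fun h _ => h * k) ?_ ?_ ?_ ?_
  · intro h hh; exact mem_els.2 (H.mul_mem (mem_els.1 hh) hk)
  · intro a _ b _ hab; exact mul_right_cancel hab
  · intro b hb
    exact ⟨b * k⁻¹, mem_els.2 (H.mul_mem (mem_els.1 hb) (H.inv_mem hk)), by group⟩
  · intro h _; rfl

theorem card_F_pos : (0 : ℝ) < Fintype.card F := by exact_mod_cast Fintype.card_pos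

/-- the average over the range of a homomorphism -/
theorem av_sg (x : F → G) (hx : ∀ a b, x (a + b) = x a * x b) (f : G → ℝ) :
    av (sg x hx) f = fun g => (∑ a, f (g * x a)) / Fintype.card F := by
  set L : G → ℝ := fun g => (∑ a, f (g * x a)) / Fintype.card F with hL
  have h1 : RInv (sg x hx) L := by
    rintro g _ ⟨b, rfl⟩
    simp only [hL]
    congr 1
    refine Fintype.sum_equiv (Equiv.addLeft b) _ _ fun a => ?_
    rw [Equiv.coe_addLeft, hx, mul_assoc]
  have h2 : av (sg x hx) L = av (sg x hx) f := by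
    funext g
    unfold av
    congr 1
    simp only [hL]
    rw [← Finset.sum_div, Finset.sum_comm]
    have : ∀ a : F, ∑ h ∈ els (sg x hx), f (g * h * x a) = ∑ h ∈ els (sg x hx), f (g * h) := by
      intro a
      have := sum_els_mul_right (sg x hx) (fun h => f (g * h)) (k := x a) ⟨a, rfl⟩
      simpa [mul_assoc] using this
    rw [Finset.sum_congr rfl fun a _ => this a, Finset.sum_const, Finset.card_univ, nsmul_eq_mul,
      mul_div_assoc, mul_comm, div_mul_cancel₀]
    exact card_F_pos.ne'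
  rw [← h2, av_of_rinv h1]

/-- the Heisenberg pair -/
theorem pairGap_heis (x y z : F → G)
    (hx : ∀ a b, x (a + b) = x a * x b) (hy : ∀ a b, y (a + b) = y a * y b)
    (hz : ∀ a b, z (a + b) = z a * z b)
    (hxy : ∀ a b, x a * y b = y b * x a * z (a * b))
    (hyz : ∀ a b, y a * z b = z b * y a)
    {lam : ℝ} (hl : (Fintype.card F : ℝ)⁻¹ ≤ lam ^ 2) :
    PairGap (sg x hx) (sg y hy) lam := by
  set A := sg x hx with hA
  set B := sg y hy with hB
  set Z := sg z hz with hZ
  intro f hf h0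
  have hq : (0 : ℝ) < Fintype.card F := card_F_pos
  have hZle : Z ≤ A ⊔ B := by
    rintro _ ⟨c, rfl⟩
    have h1 := hxy c 1
    rw [mul_one] at h1
    have h2 : z c = (y 1 * x c)⁻¹ * (x c * y 1) := by rw [h1]; group
    have hxA : x c ∈ A ⊔ B := Subgroup.mem_sup_left ⟨c, rfl⟩
    have hyB : y 1 ∈ A ⊔ B := Subgroup.mem_sup_right ⟨1, rfl⟩
    show z c ∈ A ⊔ B
    rw [h2]
    exact mul_mem (inv_mem (mul_mem hyB hxA)) (mul_mem hxA hyB)
  -- the average over the centre
  set h := av Z f with hh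
  have hhZ : RInv Z h := rinv_av Z f
  have hhB : RInv B h := by
    refine rinv_av_of_comm ?_ hf
    rintro _ ⟨c, rfl⟩ _ ⟨b, rfl⟩
    exact (hyz b c).symm
  set k := av A h with hk
  have hkA : RInv A k := rinv_av A h
  have hkB : RInv B k := by
    rintro g _ ⟨b, rfl⟩
    simp only [hk, hA, av_sg]
    congr 1
    refine Finset.sum_congr rfl fun a _ => ?_
    rw [← hhZ (g * y b * x a) (z (a * b)) ⟨_, rfl⟩, mul_assoc g, mul_assoc g, ← hxy, ← mul_assoc,
      hhB _ (y b) ⟨b, rfl⟩]
  have hk0 : k = 0 := by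
    have h1 : av (A ⊔ B) k = k := av_of_rinv (hkA.sup hkB)
    rw [← h1, hk, av_av_of_le le_sup_left, hh, av_av_of_le hZle, h0]
  have hk0' : ∀ g, ∑ a, h (g * x a) = 0 := by
    intro g
    have h1 := congrFun hk0 g
    simp only [hk, hA, av_sg, Pi.zero_apply, div_eq_zero_iff] at h1
    rcases h1 with h1 | h1
    · exact h1
    · exact absurd h1 hq.ne'
  have hh' : ∀ g, (Fintype.card F : ℝ) * h g = ∑ c, f (g * z c) := by
    intro g
    simp only [hh, hZ, av_sg]
    field_simp
  -- the correlations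
  have hR0 : ∑ g, f g * f (g * x 0) = ip f f := by
    rw [hom_zero hx]
    simp [ip]
  have hR : ∀ a : F, a ≠ 0 → ∑ g, f g * f (g * x a) = ∑ g, f g * h (g * x a) := by
    intro a ha
    have h1 : ∀ b : F, ∑ g, f g * f (g * x a) = ∑ g, f g * f (g * x a * z (-(a * b))) := by
      intro b
      have h2 : ∑ g, f g * f (g * x a) = ∑ g, f (g * y b) * f (g * y b * x a) :=
        (Fintype.sum_equiv (Equiv.mulRight (y b)) _ _ fun g => rfl).symm
      rw [h2]
      refine Finset.sum_congr rfl fun g _ => ?_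
      have h3 : y b * x a = x a * z (-(a * b)) * y b := by
        rw [mul_assoc, ← hyz, ← mul_assoc, hxy, mul_assoc, ← hz]
        rw [add_neg_cancel, hom_zero hz, mul_one]
      rw [hf g (y b) ⟨b, rfl⟩, mul_assoc g, h3, ← mul_assoc, ← mul_assoc,
        hf _ (y b) ⟨b, rfl⟩]
    have h4 : (Fintype.card F : ℝ) * ∑ g, f g * f (g * x a) =
        (Fintype.card F : ℝ) * ∑ g, f g * h (g * x a) := by
      have h5 : (Fintype.card F : ℝ) * ∑ g, f g * f (g * x a) =
          ∑ b : F, ∑ g, f g * f (g * x a * z (-(a * b))) := by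
        rw [← Finset.sum_congr rfl fun b _ => h1 b, Finset.sum_const, Finset.card_univ,
          nsmul_eq_mul]
      rw [h5, Finset.sum_comm, Finset.mul_sum]
      refine Finset.sum_congr rfl fun g _ => ?_
      rw [← Finset.mul_sum, mul_left_comm, hh']
      congr 1
      exact Fintype.sum_equiv ((Equiv.mulLeft₀ a ha).trans (Equiv.neg F)) _ _ fun b => rfl
    exact mul_left_cancel₀ hq.ne' h4
  have hsum : ip (av A f) (av A f) = (∑ a, ∑ g, f g * f (g * x a)) / Fintype.card F := by
    rw [ip_av, av_av]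
    unfold ip
    rw [Finset.sum_comm, Finset.sum_div]
    refine Finset.sum_congr rfl fun g _ => ?_
    rw [hA, av_sg, ← Finset.mul_sum, mul_div_assoc]
  have hsum2 : ∑ a, ∑ g, f g * f (g * x a) = ip f f - ip f h := by
    have h1 : ∑ a, ∑ g, f g * h (g * x a) = 0 := by
      rw [Finset.sum_comm]
      refine Finset.sum_eq_zero fun g _ => ?_
      rw [← Finset.mul_sum, hk0', mul_zero]
    have h2 : ∑ a, (∑ g, f g * f (g * x a) - ∑ g, f g * h (g * x a)) = ip f f - ip f h := by
      rw [Finset.sum_eq_single (0 : F)]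
      · rw [hR0, hom_zero hx]
        simp [ip]
      · intro a _ ha
        rw [hR a ha, sub_self]
      · intro h'; exact absurd (Finset.mem_univ _) h'
    rw [Finset.sum_sub_distrib, h1, sub_zero] at h2
    exact h2
  have hfh : 0 ≤ ip f h := by
    have : ip f h = ip h h := by
      rw [hh, ip_av, av_av]
    rw [this]
    exact ip_self_nonneg h
  rw [hsum, hsum2, div_eq_inv_mul]
  have hff := ip_self_nonneg f
  calc (Fintype.card F : ℝ)⁻¹ * (ip f f - ip f h) ≤ (Fintype.card F : ℝ)⁻¹ * ip f f :=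
        mul_le_mul_of_nonneg_left (by linarith) (inv_nonneg.2 hq.le)
    _ ≤ lam ^ 2 * ip f f := mul_le_mul_of_nonneg_right hl hff

end Heis

end Pair

end Crest.Agent.R66
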