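import Mathlib

/-!
# Row 66, part (D): the abstract spectral lemma of trickling down (helper94)
-/

set_option autoImplicit false

namespace Crest.Agent.R66

open scoped InnerProductSpace

/-- a symmetric operator with `⟪Tx,x⟫ ≤ (1-λ)‖Tx‖² + λ‖x‖²` and no eigenvalue `≥ 1` satisfies
`⟪Tx,x⟫ ≤ λ/(1-λ) ‖x‖²` -/
theorem spec_trickle {E : Type} [NormedAddCommGroup E] [InnerProductSpace ℝ E]
    [FiniteDimensional ℝ E] (T : E →ₗ[ℝ] E) (hT : T.IsSymmetric) (lam : ℝ)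
    (h1 : lam < 1)
    (H1 : ∀ x, ⟪T x, x⟫_ℝ ≤ (1 - lam) * ⟪T x, T x⟫_ℝ + lam * ⟪x, x⟫_ℝ)
    (H2 : ∀ x, x ≠ 0 → ⟪T x, x⟫_ℝ < ⟪x, x⟫_ℝ) (x : E) :
    ⟪T x, x⟫_ℝ ≤ lam / (1 - lam) * ⟪x, x⟫_ℝ := by
  set b := hT.eigenvectorBasis (n := Module.finrank ℝ E) rfl with hb
  set mu := hT.eigenvalues (n := Module.finrank ℝ E) rfl with hmu
  have hTb : ∀ i, T (b i) = mu i • b i := fun i => by
    have := hT.apply_eigenvectorBasis (n := Module.finrank ℝ E) rfl i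
    rw [hb, this]
    rfl
  have hbb : ∀ i, ⟪b i, b i⟫_ℝ = 1 := fun i => by
    rw [real_inner_self_eq_norm_sq, b.orthonormal.1 i]; norm_num
  have hmu1 : ∀ i, mu i < 1 := fun i => by
    have := H2 (b i) (b.orthonormal.ne_zero i)
    rw [hTb, real_inner_smul_left, hbb] at this
    linarith
  have hmu2 : ∀ i, mu i ≤ lam / (1 - lam) := fun i => by
    have := H1 (b i)
    rw [hTb, real_inner_smul_left, real_inner_smul_left, real_inner_smul_right, hbb] at this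
    rw [le_div_iff₀ (by linarith)]
    have h3 := hmu1 i
    nlinarith
  have hin : ∀ i, ⟪b i, T x⟫_ℝ = mu i * ⟪b i, x⟫_ℝ := fun i => by
    rw [← hT, hTb, real_inner_smul_left]
  have e1 : ⟪T x, x⟫_ℝ = ∑ i, mu i * (⟪b i, x⟫_ℝ * ⟪b i, x⟫_ℝ) := by
    rw [← b.sum_inner_mul_inner (T x) x]
    refine Finset.sum_congr rfl fun i _ => ?_
    rw [real_inner_comm, hin, mul_assoc]
  have e2 : ⟪x, x⟫_ℝ = ∑ i, ⟪b i, x⟫_ℝ * ⟪b i, x⟫_ℝ := by
    rw [← b.sum_inner_mul_inner x x]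
    refine Finset.sum_congr rfl fun i _ => ?_
    rw [real_inner_comm]
  rw [e1, e2, Finset.mul_sum]
  exact Finset.sum_le_sum fun i _ => mul_le_mul_of_nonneg_right (hmu2 i) (mul_self_nonneg _)

end Crest.Agent.R66
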