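import Crest.Agent.R66.DPair
import Crest.Agent.R66.DSpec

/-!
# Row 66, part (D): trickling down (helper94)

`GapI A J lam` (with `r = |J|`, `K J = ⨆ j ∈ J, A j`): for `f i` right invariant under
`K (J.erase i)` (`i ∈ J`)
`∑_{i ≠ j} ⟨f_i, f_j⟩ / (r (r-1)) ≤ (1-λ) ‖(1/r) ∑_i P_{K J} f_i‖² + λ (1/r) ∑_i ‖f_i‖²`.
-/

set_option autoImplicit false
set_option linter.unusedSectionVars false

namespace Crest.Agent.R66

section Trickle
variable {G : Type} [Group G] [Fintype G] {I : Type} [DecidableEq I] [Fintype I]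

/-- the subgroup generated by the `A j`, `j ∈ J` -/
def KJ (A : I → Subgroup G) (J : Finset I) : Subgroup G := ⨆ j ∈ J, A j

theorem KJ_mono (A : I → Subgroup G) {J J' : Finset I} (h : J ⊆ J') : KJ A J ≤ KJ A J' :=
  iSup₂_le fun j hj => le_iSup₂_of_le j (h hj) le_rfl

theorem le_KJ (A : I → Subgroup G) {J : Finset I} {j : I} (hj : j ∈ J) : A j ≤ KJ A J :=
  le_iSup₂_of_le j hj le_rfl

/-- the integrated spectral gap in the residue of type `J` -/
def GapI (A : I → Subgroup G) (J : Finset I) (lam : ℝ) : Prop :=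
  ∀ f : I → G → ℝ, (∀ i ∈ J, RInv (KJ A (J.erase i)) (f i)) →
    (∑ i ∈ J, ∑ j ∈ J.erase i, ip (f i) (f j)) / ((J.card : ℝ) * (J.card - 1)) ≤
      (1 - lam) * (ip (∑ i ∈ J, av (KJ A J) (f i)) (∑ i ∈ J, av (KJ A J) (f i)) / (J.card : ℝ) ^ 2) +
        lam * ((∑ i ∈ J, ip (f i) (f i)) / J.card)

/-- the gap for a pair -/
theorem gapI_pair {A : I → Subgroup G} {i j : I} (hij : i ≠ j) {lam : ℝ} (hl : 0 ≤ lam)
    (h : PairGap (A i) (A j) lam) : GapI A {i, j} lam := by
  intro f hf
  have hi : ({i, j} : Finset I).erase i = {j} := by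
    ext a; simp only [Finset.mem_erase, Finset.mem_insert, Finset.mem_singleton]
    constructor
    · rintro ⟨h1, h2 | h2⟩
      · exact absurd h2 h1
      · exact h2
    · rintro rfl; exact ⟨hij.symm, Or.inr rfl⟩
  have hj : ({i, j} : Finset I).erase j = {i} := by
    ext a; simp only [Finset.mem_erase, Finset.mem_insert, Finset.mem_singleton]
    constructor
    · rintro ⟨h1, h2 | h2⟩
      · exact h2
      · exact absurd h2 h1
    · rintro rfl; exact ⟨hij, Or.inl rfl⟩
  have hK : KJ A {i, j} = A i ⊔ A j := by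
    unfold KJ
    rw [Finset.iSup_insert, Finset.iSup_singleton]
  have hKi : KJ A {i} = A i := by unfold KJ; rw [Finset.iSup_singleton]
  have hKj : KJ A {j} = A j := by unfold KJ; rw [Finset.iSup_singleton]
  have h1 : RInv (A j) (f i) := by
    have := hf i (by simp)
    rwa [hi, hKj] at this
  have h2 : RInv (A i) (f j) := by
    have := hf j (by simp)
    rwa [hj, hKi] at this
  have h3 := pair_bound hl h h1 h2
  rw [Finset.sum_pair hij, hi, hj, Finset.sum_singleton, Finset.sum_singleton, Finset.sum_pair hij,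
    Finset.sum_pair hij, Finset.card_pair hij, hK, ip_comm (f j) (f i)]
  push_cast
  norm_num
  linarith

/-! ### the operator -/

/-- the averaging operator of the trickling down argument -/
noncomputable def opM (A : I → Subgroup G) (J : Finset I) (f : I → G → ℝ) : I → G → ℝ :=
  fun i => if i ∈ J then ((J.card : ℝ) - 1)⁻¹ • ∑ j ∈ J.erase i, av (KJ A (J.erase i)) (f j) else 0

/-- the space of families with zero total average -/
structure InV (A : I → Subgroup G) (J : Finset I) (f : I → G → ℝ) : Prop where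
  inv : ∀ i ∈ J, RInv (KJ A (J.erase i)) (f i)
  zero : ∀ i, i ∉ J → f i = 0
  sum : ∑ i ∈ J, av (KJ A J) (f i) = 0

/-- the inner product of families -/
noncomputable def ipF (f g : I → G → ℝ) : ℝ := ∑ i, ip (f i) (g i)

theorem sum_erase_comm (J : Finset I) (F : I → I → ℝ) :
    ∑ i ∈ J, ∑ j ∈ J.erase i, F i j = ∑ i ∈ J, ∑ j ∈ J.erase i, F j i := by
  have : ∀ F : I → I → ℝ, ∑ i ∈ J, ∑ j ∈ J.erase i, F i j =
      ∑ i ∈ J, ∑ j ∈ J, (if j = i then 0 else F i j) := by
    intro F
    refine Finset.sum_congr rfl fun i hi => ?_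
    rw [← Finset.sum_erase_add J _ hi]
    simp only [if_true, add_zero]
    exact Finset.sum_congr rfl fun j hj => by rw [if_neg (Finset.ne_of_mem_erase hj)]
  rw [this, this, Finset.sum_comm]
  refine Finset.sum_congr rfl fun i _ => Finset.sum_congr rfl fun j _ => ?_
  by_cases h : i = j
  · simp [h]
  · rw [if_neg h, if_neg (Ne.symm h)]

theorem ipF_opM {A : I → Subgroup G} {J : Finset I} {f g : I → G → ℝ}
    (hg : ∀ i ∈ J, RInv (KJ A (J.erase i)) (g i)) :
    ipF (opM A J f) g = ((J.card : ℝ) - 1)⁻¹ * ∑ i ∈ J, ∑ j ∈ J.erase i, ip (f j) (g i) := by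
  unfold ipF
  rw [← Finset.sum_subset (Finset.subset_univ J) (fun i _ hi => by
    simp only [opM, if_neg hi]; simp [ip]), Finset.mul_sum]
  refine Finset.sum_congr rfl fun i hi => ?_
  simp only [opM, if_pos hi]
  rw [ip_smul_left, ip_sum_left]
  congr 1
  exact Finset.sum_congr rfl fun j _ => ip_of_rinv (hg i hi) _

theorem opM_inV {A : I → Subgroup G} {J : Finset I} {f : I → G → ℝ} (hf : InV A J f)
    (hr : 2 ≤ J.card) : InV A J (opM A J f) := by
  have hr' : ((J.card : ℝ) - 1) ≠ 0 := by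
    have : (2 : ℝ) ≤ J.card := by exact_mod_cast hr
    linarith
  refine ⟨fun i hi => ?_, fun i hi => ?_, ?_⟩
  · simp only [opM, if_pos hi]
    exact RInv.smul _ (RInv.sum _ fun j _ => rinv_av _ _)
  · simp only [opM, if_neg hi]
  · have e1 : ∀ i ∈ J, av (KJ A J) (opM A J f i) =
        ((J.card : ℝ) - 1)⁻¹ • ∑ j ∈ J.erase i, av (KJ A J) (f j) := by
      intro i hi
      simp only [opM, if_pos hi]
      rw [av_smul, av_sum]
      congr 1
      exact Finset.sum_congr rfl fun j _ => av_av_of_le (KJ_mono A (Finset.erase_subset i J)) _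
    have e2 : ∀ i ∈ J, ∑ j ∈ J.erase i, av (KJ A J) (f j) = - av (KJ A J) (f i) := by
      intro i hi
      have := Finset.sum_erase_add J (fun j => av (KJ A J) (f j)) hi
      rw [hf.sum] at this
      exact eq_neg_of_add_eq_zero_left this
    rw [Finset.sum_congr rfl e1, ← Finset.smul_sum, Finset.sum_congr rfl e2,
      Finset.sum_neg_distrib, hf.sum, neg_zero, smul_zero]

/-! ### combinatorics of erased sums -/

theorem sum_erase_const (J : Finset I) (N : I → ℝ) :
    ∑ k ∈ J, ∑ i ∈ J.erase k, N i = ((J.card : ℝ) - 1) * ∑ i ∈ J, N i := by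
  rw [sum_erase_comm J fun _ i => N i, Finset.mul_sum]
  refine Finset.sum_congr rfl fun i hi => ?_
  rw [Finset.sum_const, Finset.card_erase_of_mem hi, nsmul_eq_mul]
  have : 1 ≤ J.card := Finset.card_pos.2 ⟨i, hi⟩
  rw [Nat.cast_sub this, Nat.cast_one]

theorem sum_erase_erase (J : Finset I) (F : I → I → ℝ) :
    ∑ k ∈ J, ∑ i ∈ J.erase k, ∑ j ∈ (J.erase k).erase i, F i j =
      ((J.card : ℝ) - 2) * ∑ i ∈ J, ∑ j ∈ J.erase i, F i j := by
  rw [sum_erase_comm J fun k i => ∑ j ∈ (J.erase k).erase i, F i j, Finset.mul_sum]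
  refine Finset.sum_congr rfl fun i hi => ?_
  have e1 : ∑ k ∈ J.erase i, ∑ j ∈ (J.erase k).erase i, F i j =
      ∑ k ∈ J.erase i, ∑ j ∈ (J.erase i).erase k, F i j :=
    Finset.sum_congr rfl fun k _ => by rw [Finset.erase_right_comm]
  have e2 := sum_erase_const (J.erase i) (F i)
  rw [Finset.card_erase_of_mem hi] at e2
  have : 1 ≤ J.card := Finset.card_pos.2 ⟨i, hi⟩
  rw [Nat.cast_sub this, Nat.cast_one] at e2
  rw [e1, e2]
  ring

/-- trickling down on the space `InV` -/
theorem trickle_ineq1 {A : I → Subgroup G} {J : Finset I} {lam : ℝ} (hr : 3 ≤ J.card)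
    (h : ∀ k ∈ J, GapI A (J.erase k) lam) {f : I → G → ℝ} (hf : InV A J f) :
    ipF (opM A J f) f ≤ (1 - lam) * ipF (opM A J f) (opM A J f) + lam * ipF f f := by
  have hr' : (3 : ℝ) ≤ J.card := by exact_mod_cast hr
  set r : ℝ := (J.card : ℝ) with hrdef
  have hk : ∀ k ∈ J, (∑ i ∈ J.erase k, ∑ j ∈ (J.erase k).erase i, ip (f i) (f j)) /
      ((r - 1) * (r - 2)) ≤ (1 - lam) * ip (opM A J f k) (opM A J f k) +
        lam * ((∑ i ∈ J.erase k, ip (f i) (f i)) / (r - 1)) := by
    intro k hk
    have h1 := h k hk f (fun i hi => (hf.inv i (Finset.mem_of_mem_erase hi)).mono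
      (KJ_mono A (Finset.erase_subset_erase i (Finset.erase_subset k J))))
    have hc : ((J.erase k).card : ℝ) = r - 1 := by
      rw [Finset.card_erase_of_mem hk, Nat.cast_sub (by omega), Nat.cast_one]
    rw [hc] at h1
    have h2 : ip (opM A J f k) (opM A J f k) =
        ip (∑ i ∈ J.erase k, av (KJ A (J.erase k)) (f i))
          (∑ i ∈ J.erase k, av (KJ A (J.erase k)) (f i)) / (r - 1) ^ 2 := by
      simp only [opM, if_pos hk]
      rw [ip_smul_left, ip_smul_right, ← hrdef]
      field_simp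
    rw [h2]
    have h3 : (r - 1) * (r - 1 - 1) = (r - 1) * (r - 2) := by ring
    rw [h3] at h1
    exact h1
  have hsum := Finset.sum_le_sum hk
  rw [← Finset.sum_div, sum_erase_erase J fun i j => ip (f i) (f j), Finset.sum_add_distrib,
    ← Finset.mul_sum, ← Finset.mul_sum, ← Finset.sum_div, sum_erase_const J fun i => ip (f i) (f i),
    ← hrdef] at hsum
  have e1 : ipF (opM A J f) (opM A J f) = ∑ k ∈ J, ip (opM A J f k) (opM A J f k) := by
    unfold ipF
    exact (Finset.sum_subset (Finset.subset_univ J) (fun i _ hi => by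
      simp only [opM, if_neg hi]; simp [ip])).symm
  have e2 : ipF f f = ∑ k ∈ J, ip (f k) (f k) := by
    unfold ipF
    exact (Finset.sum_subset (Finset.subset_univ J) (fun i _ hi => by
      rw [hf.zero i hi]; simp [ip])).symm
  have e3 : ipF (opM A J f) f = (r - 1)⁻¹ * ∑ i ∈ J, ∑ j ∈ J.erase i, ip (f i) (f j) := by
    rw [ipF_opM hf.inv, sum_erase_comm J fun i j => ip (f j) (f i)]
  rw [e1, e2, e3]
  have h1 : r - 1 ≠ 0 := by linarith
  have h2 : r - 2 ≠ 0 := by linarith
  have e4 : (r - 2) * (∑ i ∈ J, ∑ j ∈ J.erase i, ip (f i) (f j)) / ((r - 1) * (r - 2)) =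
      (r - 1)⁻¹ * ∑ i ∈ J, ∑ j ∈ J.erase i, ip (f i) (f j) := by
    field_simp
  have e5 : (r - 1) * (∑ i ∈ J, ip (f i) (f i)) / (r - 1) = ∑ i ∈ J, ip (f i) (f i) := by
    field_simp
  rw [e4, e5] at hsum
  exact hsum

/-- the right stabiliser of a function -/
def rst (f : G → ℝ) : Subgroup G where
  carrier := {h | ∀ g, f (g * h) = f g}
  mul_mem' := by
    intro a b ha hb g
    rw [← mul_assoc, hb, ha]
  one_mem' := by intro g; rw [mul_one]
  inv_mem' := by
    intro a ha g
    have := ha (g * a⁻¹)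
    rw [inv_mul_cancel_right] at this
    exact this.symm

theorem le_rst {H : Subgroup G} {f : G → ℝ} : H ≤ rst f ↔ RInv H f :=
  ⟨fun h g _ hk => h hk g, fun h k hk g => h g k hk⟩

theorem rinv_KJ {A : I → Subgroup G} {J : Finset I} {f : G → ℝ} (h : ∀ j ∈ J, RInv (A j) f) :
    RInv (KJ A J) f :=
  le_rst.1 (iSup₂_le fun j hj => le_rst.2 (h j hj))

theorem trickle_ineq2 {A : I → Subgroup G} {J : Finset I} (hr : 2 ≤ J.card)
    {f : I → G → ℝ} (hf : InV A J f) (hne : f ≠ 0) : ipF (opM A J f) f < ipF f f := by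
  have hr' : (2 : ℝ) ≤ J.card := by exact_mod_cast hr
  set r : ℝ := (J.card : ℝ) with hrdef
  have e2 : ipF f f = ∑ k ∈ J, ip (f k) (f k) := by
    unfold ipF
    exact (Finset.sum_subset (Finset.subset_univ J) (fun i _ hi => by
      rw [hf.zero i hi]; simp [ip])).symm
  have e3 : ipF (opM A J f) f = (r - 1)⁻¹ * ∑ i ∈ J, ∑ j ∈ J.erase i, ip (f i) (f j) := by
    rw [ipF_opM hf.inv, sum_erase_comm J fun i j => ip (f j) (f i)]
  have e4 : ∑ i ∈ J, ∑ j ∈ J.erase i, ip (f i - f j) (f i - f j) =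
      2 * (r - 1) * ∑ i ∈ J, ip (f i) (f i) - 2 * ∑ i ∈ J, ∑ j ∈ J.erase i, ip (f i) (f j) := by
    have : ∀ i j, ip (f i - f j) (f i - f j) = ip (f i) (f i) + ip (f j) (f j) -
        2 * ip (f i) (f j) := by
      intro i j
      rw [ip_sub_left, ip_sub_right, ip_sub_right, ip_comm (f j) (f i)]
      ring
    simp only [this, Finset.sum_sub_distrib, Finset.sum_add_distrib, ← Finset.mul_sum]
    rw [sum_erase_comm J fun i _ => ip (f i) (f i), sum_erase_const J fun i => ip (f i) (f i),
      ← hrdef]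
    ring
  by_contra hcon
  rw [not_lt, e2, e3] at hcon
  have hD : ∑ i ∈ J, ∑ j ∈ J.erase i, ip (f i - f j) (f i - f j) = 0 := by
    refine le_antisymm ?_ (Finset.sum_nonneg fun i _ => Finset.sum_nonneg fun j _ =>
      ip_self_nonneg _)
    rw [e4]
    have h1 : 0 < r - 1 := by linarith
    rw [inv_mul_eq_div, le_div_iff₀ h1] at hcon
    nlinarith
  have heq : ∀ i ∈ J, ∀ j ∈ J, f i = f j := by
    intro i hi j hj
    by_cases hij : j = i
    · rw [hij]
    · have h1 := (Finset.sum_eq_zero_iff_of_nonneg fun i _ => Finset.sum_nonneg fun j _ =>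
        ip_self_nonneg (f i - f j)).1 hD i hi
      have h2 := (Finset.sum_eq_zero_iff_of_nonneg fun j _ =>
        ip_self_nonneg (f i - f j)).1 h1 j (Finset.mem_erase.2 ⟨hij, hj⟩)
      exact sub_eq_zero.1 (ip_self_eq_zero h2)
  obtain ⟨i0, hi0⟩ : J.Nonempty := Finset.card_pos.1 (by omega)
  have hinv : RInv (KJ A J) (f i0) := by
    refine rinv_KJ fun j hj => ?_
    obtain ⟨i, hi, hij⟩ := Finset.exists_mem_ne (by omega : 1 < J.card) j
    rw [heq i0 hi0 i hi]
    exact (hf.inv i hi).mono (le_KJ A (Finset.mem_erase.2 ⟨hij.symm, hj⟩))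
  have hz : f i0 = 0 := by
    have h1 := hf.sum
    rw [Finset.sum_congr rfl fun i hi => by rw [heq i hi i0 hi0, av_of_rinv hinv],
      Finset.sum_const] at h1
    funext x
    have h2 := congrFun h1 x
    simp only [Pi.smul_apply, nsmul_eq_mul, Pi.zero_apply, mul_eq_zero] at h2
    rcases h2 with h2 | h2
    · rw [← hrdef] at h2; linarith
    · exact h2
  refine hne (funext fun i => ?_)
  by_cases hi : i ∈ J
  · rw [heq i hi i0 hi0, hz]; rfl
  · exact hf.zero i hi

/-- currying -/
def cur (x : EuclideanSpace ℝ (I × G)) : I → G → ℝ := fun i g => x (i, g)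

theorem inner_cur (x y : EuclideanSpace ℝ (I × G)) : inner ℝ x y = ipF (cur x) (cur y) := by
  rw [PiLp.inner_apply, Fintype.sum_prod_type]
  unfold ipF ip cur
  refine Finset.sum_congr rfl fun i _ => Finset.sum_congr rfl fun g _ => ?_
  simp [mul_comm]

/-- the space `V` -/
def subV (A : I → Subgroup G) (J : Finset I) : Submodule ℝ (EuclideanSpace ℝ (I × G)) where
  carrier := {x | InV A J (cur x)}
  add_mem' := by
    intro a b ha hb
    refine ⟨fun i hi => (ha.inv i hi).add (hb.inv i hi), fun i hi => ?_, ?_⟩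
    · have := ha.zero i hi
      have h2 := hb.zero i hi
      funext g
      have h3 := congrFun this g
      have h4 := congrFun h2 g
      simp only [cur, Pi.zero_apply, PiLp.add_apply] at *
      rw [h3, h4, add_zero]
    · have : ∀ i, cur (a + b) i = cur a i + cur b i := fun i => rfl
      rw [Finset.sum_congr rfl fun i _ => by rw [this i, av_add], Finset.sum_add_distrib, ha.sum,
        hb.sum, add_zero]
  zero_mem' := by
    refine ⟨fun i _ g k _ => rfl, fun i _ => rfl, ?_⟩
    refine Finset.sum_eq_zero fun i _ => ?_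
    funext x
    simp [av, cur]
  smul_mem' := by
    intro c a ha
    refine ⟨fun i hi => (ha.inv i hi).smul c, fun i hi => ?_, ?_⟩
    · funext g
      have h3 := congrFun (ha.zero i hi) g
      simp only [cur, Pi.zero_apply, PiLp.smul_apply, smul_eq_mul] at *
      rw [h3, mul_zero]
    · have : ∀ i, cur (c • a) i = c • cur a i := fun i => rfl
      rw [Finset.sum_congr rfl fun i _ => by rw [this i, av_smul], ← Finset.smul_sum, ha.sum,
        smul_zero]

theorem opM_add (A : I → Subgroup G) (J : Finset I) (f g : I → G → ℝ) :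
    opM A J (f + g) = opM A J f + opM A J g := by
  funext i
  by_cases hi : i ∈ J
  · simp only [opM, if_pos hi, Pi.add_apply]
    rw [← smul_add, ← Finset.sum_add_distrib]
    congr 1
    exact Finset.sum_congr rfl fun j _ => av_add _ _ _
  · simp only [opM, if_neg hi, Pi.add_apply, add_zero]

theorem opM_smul (A : I → Subgroup G) (J : Finset I) (c : ℝ) (f : I → G → ℝ) :
    opM A J (c • f) = c • opM A J f := by
  funext i
  by_cases hi : i ∈ J
  · have e : opM A J (c • f) i = ((J.card : ℝ) - 1)⁻¹ •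
        ∑ j ∈ J.erase i, av (KJ A (J.erase i)) (c • f j) := by simp only [opM, if_pos hi]; rfl
    have e' : (c • opM A J f) i = c • ((J.card : ℝ) - 1)⁻¹ •
        ∑ j ∈ J.erase i, av (KJ A (J.erase i)) (f j) := by
      simp only [opM, Pi.smul_apply, if_pos hi]
    rw [e, e', Finset.sum_congr rfl fun j _ => av_smul (KJ A (J.erase i)) c (f j),
      ← Finset.smul_sum, smul_comm]
  · simp only [opM, if_neg hi, Pi.smul_apply, smul_zero]

/-- the operator on `V` -/
noncomputable def opT (A : I → Subgroup G) (J : Finset I) (hr : 2 ≤ J.card) :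
    subV A J →ₗ[ℝ] subV A J where
  toFun x := ⟨WithLp.toLp 2 fun p => opM A J (cur x.1) p.1 p.2, opM_inV x.2 hr⟩
  map_add' x y := by
    refine Subtype.ext ?_
    have h := opM_add A J (cur x.1) (cur y.1)
    ext p
    exact congrFun (congrFun h p.1) p.2
  map_smul' c x := by
    refine Subtype.ext ?_
    have h := opM_smul A J c (cur x.1)
    ext p
    exact congrFun (congrFun h p.1) p.2

theorem cur_opT (A : I → Subgroup G) (J : Finset I) (hr : 2 ≤ J.card) (x : subV A J) :
    cur (opT A J hr x).1 = opM A J (cur x.1) := rfl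

theorem ipF_comm (f g : I → G → ℝ) : ipF f g = ipF g f :=
  Finset.sum_congr rfl fun _ _ => ip_comm _ _

/-- the spectral bound on `InV` -/
theorem trickle_V {A : I → Subgroup G} {J : Finset I} {lam : ℝ} (hr : 3 ≤ J.card)
    (hl1 : lam < 1) (h : ∀ k ∈ J, GapI A (J.erase k) lam) {f : I → G → ℝ} (hf : InV A J f) :
    ipF (opM A J f) f ≤ lam / (1 - lam) * ipF f f := by
  have hr2 : 2 ≤ J.card := by omega
  let x : subV A J := ⟨WithLp.toLp 2 fun p => f p.1 p.2, hf⟩
  have hfd : FiniteDimensional ℝ (EuclideanSpace ℝ (I × G)) := inferInstance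
  have key := spec_trickle (E := subV A J) (opT A J hr2) ?_ lam hl1 ?_ ?_ x
  · rw [Submodule.coe_inner, Submodule.coe_inner, inner_cur, inner_cur, cur_opT] at key
    exact key
  · intro a b
    rw [Submodule.coe_inner, Submodule.coe_inner, inner_cur, inner_cur, cur_opT, cur_opT,
      ipF_comm (cur a.1), ipF_opM a.2.inv, ipF_opM b.2.inv,
      sum_erase_comm J fun i j => ip (cur a.1 j) (cur b.1 i)]
    congr 1
    exact Finset.sum_congr rfl fun i _ => Finset.sum_congr rfl fun j _ => ip_comm _ _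
  · intro a
    rw [Submodule.coe_inner, Submodule.coe_inner, Submodule.coe_inner, inner_cur, inner_cur,
      inner_cur, cur_opT]
    exact trickle_ineq1 hr h a.2
  · intro a ha
    rw [Submodule.coe_inner, Submodule.coe_inner, inner_cur, inner_cur, cur_opT]
    refine trickle_ineq2 hr2 a.2 fun h0 => ha (Subtype.ext ?_)
    ext p
    exact congrFun (congrFun h0 p.1) p.2

/-- trickling down -/
theorem trickle {A : I → Subgroup G} {J : Finset I} {lam : ℝ} (hr : 3 ≤ J.card)
    (hl1 : lam < 1) (h : ∀ k ∈ J, GapI A (J.erase k) lam) : GapI A J (lam / (1 - lam)) := by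
  intro f hf
  have hr' : (3 : ℝ) ≤ J.card := by exact_mod_cast hr
  set r : ℝ := (J.card : ℝ) with hrdef
  set mu := lam / (1 - lam) with hmu
  set c : G → ℝ := r⁻¹ • ∑ i ∈ J, av (KJ A J) (f i) with hc
  have hcinv : RInv (KJ A J) c := RInv.smul _ (RInv.sum _ fun i _ => rinv_av _ _)
  set f' : I → G → ℝ := fun i => if i ∈ J then f i - c else 0 with hf'
  have hf'J : ∀ i ∈ J, f' i = f i - c := fun i hi => by simp only [hf', if_pos hi]
  have hsum0 : ∑ i ∈ J, av (KJ A J) (f' i) = 0 := by
    rw [Finset.sum_congr rfl fun i hi => by rw [hf'J i hi, av_sub, av_of_rinv hcinv],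
      Finset.sum_sub_distrib, Finset.sum_const, sub_eq_zero]
    funext x
    simp only [Pi.smul_apply, nsmul_eq_mul, ← hrdef]
    have hrne : r ≠ 0 := by linarith
    simp only [hc, Pi.smul_apply, smul_eq_mul]
    field_simp
  have hV : InV A J f' := by
    refine ⟨fun i hi => ?_, fun i hi => by simp only [hf', if_neg hi], hsum0⟩
    rw [hf'J i hi]
    exact (hf i hi).sub (hcinv.mono (KJ_mono A (Finset.erase_subset i J)))
  have hkey := trickle_V hr hl1 h hV
  have e2 : ipF f' f' = ∑ k ∈ J, ip (f' k) (f' k) := by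
    unfold ipF
    exact (Finset.sum_subset (Finset.subset_univ J) (fun i _ hi => by
      rw [hV.zero i hi]; simp [ip])).symm
  rw [e2, ipF_opM hV.inv, sum_erase_comm J fun i j => ip (f' j) (f' i), ← hrdef] at hkey
  have hfi : ∀ i ∈ J, f i = f' i + c := fun i hi => by rw [hf'J i hi]; abel
  have hzc : ∑ i ∈ J, ip (f' i) c = 0 := by
    rw [Finset.sum_congr rfl fun i _ => (ip_of_rinv hcinv (f' i)).symm, ← ip_sum_left, hsum0]
    simp [ip]
  have e3 : ∑ i ∈ J, ∑ j ∈ J.erase i, ip (f i) (f j) =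
      (∑ i ∈ J, ∑ j ∈ J.erase i, ip (f' i) (f' j)) + r * (r - 1) * ip c c := by
    have h1 : ∀ i ∈ J, ∑ j ∈ J.erase i, ip (f i) (f j) =
        ∑ j ∈ J.erase i, (ip (f' i) (f' j) + ip (f' i) c + ip (f' j) c + ip c c) := by
      intro i hi
      refine Finset.sum_congr rfl fun j hj => ?_
      rw [hfi i hi, hfi j (Finset.mem_of_mem_erase hj), ip_add_left, ip_add_right, ip_add_right,
        ip_comm c (f' j)]
      ring
    rw [Finset.sum_congr rfl h1]
    simp only [Finset.sum_add_distrib]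
    rw [sum_erase_comm J fun i _ => ip (f' i) c, sum_erase_const J fun i => ip (f' i) c, hzc,
      sum_erase_const J fun _ => ip c c, Finset.sum_const, nsmul_eq_mul, ← hrdef]
    ring
  have e4 : ∑ i ∈ J, ip (f i) (f i) = ∑ i ∈ J, ip (f' i) (f' i) + r * ip c c := by
    have h1 : ∀ i ∈ J, ip (f i) (f i) = ip (f' i) (f' i) + 2 * ip (f' i) c + ip c c := by
      intro i hi
      rw [hfi i hi, ip_add_left, ip_add_right, ip_add_right, ip_comm c (f' i)]
      ring
    rw [Finset.sum_congr rfl h1, Finset.sum_add_distrib, Finset.sum_add_distrib, ← Finset.mul_sum,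
      hzc, Finset.sum_const, nsmul_eq_mul, ← hrdef]
    ring
  have e5 : ip (∑ i ∈ J, av (KJ A J) (f i)) (∑ i ∈ J, av (KJ A J) (f i)) = r ^ 2 * ip c c := by
    have h1 : ∑ i ∈ J, av (KJ A J) (f i) = r • c := by
      rw [hc, smul_smul, mul_inv_cancel₀ (by linarith), one_smul]
    rw [h1, ip_smul_left, ip_smul_right]
    ring
  rw [e3, e4, e5]
  set S := ∑ i ∈ J, ∑ j ∈ J.erase i, ip (f' i) (f' j) with hS
  set N := ∑ i ∈ J, ip (f' i) (f' i) with hN
  have hr1 : 0 < r - 1 := by linarith
  have hr0 : 0 < r := by linarith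
  have e6 : (S + r * (r - 1) * ip c c) / (r * (r - 1)) = ((r - 1)⁻¹ * S) / r + ip c c := by
    field_simp
  have e7 : (1 - mu) * (r ^ 2 * ip c c / r ^ 2) + mu * ((N + r * ip c c) / r) =
      (mu * N) / r + ip c c := by
    field_simp
    ring
  rw [e6, e7]
  have := div_le_div_of_nonneg_right hkey hr0.le
  linarith

/-- all residues, from the pairs -/
theorem gapI_all {A : I → Subgroup G} {lam : ℝ} (hl : 0 ≤ lam)
    (hp : ∀ i j, i ≠ j → PairGap (A i) (A j) lam) (n : ℕ) :
    ∀ J : Finset I, J.card = n + 2 → n * lam < 1 → GapI A J (lam / (1 - n * lam)) := by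
  induction n with
  | zero =>
    intro J hJ _
    obtain ⟨i, j, hij, rfl⟩ := Finset.card_eq_two.1 hJ
    simpa using gapI_pair hij hl (hp i j hij)
  | succ n ih =>
    intro J hJ hn
    push_cast at hn
    have hn' : n * lam < 1 := by nlinarith
    have h1 : 0 < 1 - n * lam := by linarith
    have h2 : 0 < 1 - (n + 1) * lam := by linarith
    have hlt : lam / (1 - n * lam) < 1 := by
      rw [div_lt_one h1]; linarith
    have key := trickle (A := A) (J := J) (by omega) hlt fun k hk =>
      ih (J.erase k) (by rw [Finset.card_erase_of_mem hk]; omega) hn'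
    have e : lam / (1 - n * lam) / (1 - lam / (1 - n * lam)) = lam / (1 - (n + 1) * lam) := by
      have h3 : 1 - lam / (1 - n * lam) = (1 - (n + 1) * lam) / (1 - n * lam) := by
        rw [eq_div_iff h1.ne', sub_mul, one_mul, div_mul_cancel₀ _ h1.ne']
        ring
      rw [h3, div_div_div_cancel_right₀ h1.ne']
    rw [e] at key
    push_cast
    exact key

end Trickle

end Crest.Agent.R66
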