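import Crest.Agent.R66.FFill

/-!
# Row 66, piece F5: from bounded filling to a bounded contraction.

PROOF of `contr_of_fill`: define `c x` for `x ∈ K` by recursion on `x.card = s ≤ S`: the chain
`x + c (bd x)` is a cycle of size `s` of `K` (`bd (x + c (bd x)) = bd x + bd x + c (bd (bd x)) = 0`
by the identity for smaller sizes) with at most `1 + s * m (s - 1)` faces; `c x` is a filling of it.
(Formally: prove by induction on `S`; given `c` for `S`, put `c' x = c x` if `x.card ≤ S`, a chosen
filling if `x ∈ K` and `x.card = S + 1`, and `0` otherwise, extended linearly by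
`Finsupp.linearCombination`; `bd x` only involves sizes `≤ S`.)
`exactAt_of_contr`: `z = bd (c z) + c (bd z) = bd (c z)`.
-/

set_option autoImplicit false

namespace Crest.Agent.R66

open Finset Module

section
variable {α : Type*} [DecidableEq α]

theorem fc_support_sum {ι : Type*} (t : Finset ι) (f : ι → Ch α) (M : ℕ)
    (h : ∀ i ∈ t, (f i).support.card ≤ M) : (∑ i ∈ t, f i).support.card ≤ t.card * M := by
  classical
  refine le_trans (Finset.card_le_card Finsupp.support_finsetSum) ?_
  exact Finset.card_biUnion_le_card_mul _ _ _ h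

theorem fc_decomp (z : Ch α) :
    z = ∑ s ∈ z.support, z s • Finsupp.single s (1 : ZMod 2) := by
  conv_lhs => rw [← Finsupp.sum_single z]
  rw [Finsupp.sum]
  apply Finset.sum_congr rfl
  intro s _
  simp

theorem fc_step {K : Set (Finset α)} (hK : Dn K) (S M M' : ℕ)
    (hf : BFill K (S + 1) (1 + (S + 1) * M) M') (hMM : M ≤ M') (hc : Contr K S M) :
    Contr K (S + 1) M' := by
  classical
  obtain ⟨c, hc⟩ := hc
  have hcard : ∀ x : Finset α, ∀ y ∈ x, x.card = S + 1 → (x.erase y).card = S := by
    intro x y hy hx
    rw [Finset.card_erase_of_mem hy, hx]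
    rfl
  have key : ∀ x ∈ K, x.card = S + 1 → ∃ b : Ch α, On K (S + 1 + 1) b ∧
      bd b = Finsupp.single x 1 + c (bd (Finsupp.single x 1)) ∧ b.support.card ≤ M' := by
    intro x hx hxc
    apply hf
    · apply On.add (On.single hx hxc 1)
      rw [bd_single, map_sum]
      apply On.sum
      intro y hy
      have h1 := (hc (x.erase y) (hK x hx y hy) (le_of_eq (hcard x y hy hxc))).1
      rwa [hcard x y hy hxc] at h1
    · have e1 : bd (c (bd (Finsupp.single x (1 : ZMod 2)))) = bd (Finsupp.single x 1) := by
        have e2 : bd (c (bd (Finsupp.single x (1 : ZMod 2)))) + c (bd (bd (Finsupp.single x 1))) =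
            bd (Finsupp.single x 1) := by
          rw [bd_single, map_sum, map_sum, map_sum, map_sum, ← Finset.sum_add_distrib]
          apply Finset.sum_congr rfl
          intro y hy
          exact (hc (x.erase y) (hK x hx y hy) (le_of_eq (hcard x y hy hxc))).2.1
        rw [bd_bd, map_zero, add_zero] at e2
        exact e2
      rw [map_add, e1, ch_add_self]
    · refine le_trans (Finset.card_le_card Finsupp.support_add) ?_
      refine le_trans (Finset.card_union_le _ _) ?_
      apply Nat.add_le_add
      · exact le_trans (Finset.card_le_card Finsupp.support_single_subset) (by simp)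
      · rw [bd_single, map_sum]
        refine le_trans (fc_support_sum x _ M ?_) (by rw [hxc])
        intro y hy
        exact (hc (x.erase y) (hK x hx y hy) (le_of_eq (hcard x y hy hxc))).2.2
  choose! B hB1 hB2 hB3 using key
  refine ⟨Finsupp.linearCombination (ZMod 2) fun x : Finset α =>
    if x ∈ K ∧ x.card = S + 1 then B x else c (Finsupp.single x 1), ?_⟩
  intro x hx hxS
  have hval : ∀ y : Finset α, Finsupp.linearCombination (ZMod 2) (fun x : Finset α =>
      if x ∈ K ∧ x.card = S + 1 then B x else c (Finsupp.single x 1)) (Finsupp.single y 1) =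
      if y ∈ K ∧ y.card = S + 1 then B y else c (Finsupp.single y 1) := by
    intro y
    simp
  have hbd : Finsupp.linearCombination (ZMod 2) (fun x : Finset α =>
      if x ∈ K ∧ x.card = S + 1 then B x else c (Finsupp.single x 1)) (bd (Finsupp.single x 1)) =
      c (bd (Finsupp.single x 1)) := by
    rw [bd_single, map_sum, map_sum]
    apply Finset.sum_congr rfl
    intro y hy
    rw [hval, if_neg]
    rintro ⟨_, h2⟩
    have h3 := Finset.card_erase_of_mem hy
    omega
  rw [hval, hbd]
  by_cases hx1 : x.card = S + 1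
  · rw [if_pos ⟨hx, hx1⟩]
    refine ⟨?_, ?_, hB3 x hx hx1⟩
    · rw [hx1]
      exact hB1 x hx hx1
    · rw [hB2 x hx hx1, add_assoc, ch_add_self, add_zero]
  · rw [if_neg (fun h => hx1 h.2)]
    obtain ⟨h1, h2, h3⟩ := hc x hx (by omega)
    exact ⟨h1, h2, le_trans h3 hMM⟩

theorem contr_of_fill {K : Set (Finset α)} (hK : Dn K) (S : ℕ) (m : ℕ → ℕ) (hm : Monotone m)
    (h0 : BFill K 0 1 (m 0))
    (h : ∀ s, s < S → BFill K (s + 1) (1 + (s + 1) * m s) (m (s + 1))) : Contr K S (m S) := by
  classical
  induction S with
  | zero =>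
    by_cases he : (∅ : Finset α) ∈ K
    · obtain ⟨b, hb1, hb2, hb3⟩ := h0 (Finsupp.single ∅ 1) (On.single he rfl 1)
        (by simp [bd_single])
        (le_trans (Finset.card_le_card Finsupp.support_single_subset) (by simp))
      refine ⟨Finsupp.linearCombination (ZMod 2) fun _ : Finset α => b, ?_⟩
      intro x hx hx0
      have hxe : x = ∅ := Finset.card_eq_zero.1 (by omega)
      subst hxe
      have e1 : Finsupp.linearCombination (ZMod 2) (fun _ : Finset α => b)
          (Finsupp.single (∅ : Finset α) (1 : ZMod 2)) = b := by simp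
      have e2 : bd (Finsupp.single (∅ : Finset α) (1 : ZMod 2)) = 0 := by simp [bd_single]
      rw [e1, e2, map_zero, add_zero]
      exact ⟨hb1, hb2, hb3⟩
    · refine ⟨0, ?_⟩
      intro x hx hx0
      have hxe : x = ∅ := Finset.card_eq_zero.1 (by omega)
      subst hxe
      exact absurd hx he
  | succ S ih =>
    exact fc_step hK S (m S) (m (S + 1)) (h S (Nat.lt_succ_self S)) (hm (Nat.le_succ S))
      (ih fun s hs => h s (Nat.lt_succ_of_lt hs))

theorem exactAt_of_contr {K : Set (Finset α)} {S M : ℕ} (hc : Contr K S M) {s : ℕ} (hs : s ≤ S) :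
    ExactAt K s := by
  obtain ⟨c, hc⟩ := hc
  intro z hz h0
  have key : bd (c z) + c (bd z) = z := by
    have hd := fc_decomp z
    conv_rhs => rw [hd]
    conv_lhs => rw [hd]
    simp only [map_sum, map_smul]
    rw [← Finset.sum_add_distrib]
    apply Finset.sum_congr rfl
    intro x hx
    obtain ⟨h1, h2⟩ := hz x hx
    rw [← smul_add, (hc x h1 (by omega)).2.1]
  refine ⟨c z, ?_, ?_⟩
  · apply hz.map
    intro x hx hxs
    have := (hc x hx (by omega)).1
    rwa [hxs] at this
  · rw [h0, map_zero, add_zero] at key
    exact key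

end

theorem MB_mono : Monotone MB := by
  refine monotone_nat_of_le_succ fun s => ?_
  show MB s ≤ KB (s + 1) (1 + (s + 1) * MB s)
  rw [KB]
  calc MB s ≤ 1 * (1 + (s + 1) * MB s + 1) * 1 := by nlinarith [Nat.zero_le (s * MB s)]
    _ ≤ (s + 3) * (1 + (s + 1) * MB s + 1) * (KB s (1 + (s + 1) * MB s) + 1) :=
        Nat.mul_le_mul (Nat.mul_le_mul_right _ (by omega)) (by omega)

variable {F V : Type*} [Field F] [Fintype F] [AddCommGroup V] [Module F V] [FiniteDimensional F V]
  [DecidableEq (Submodule F V)]

/-- MAIN RESULT of the F files: the complex of chains of proper opposite subspaces is boundedly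
contractible up to size `dim V - 2`, once the field is large. -/
theorem contr_TK {E : ℕ → Submodule F V} (hE : IsFlag E) (S : ℕ)
    (hq : MB S ≤ Fintype.card F) (hS : S + 2 ≤ finrank F V) : Contr (TK E ⊤) S (MB S) := by
  refine contr_of_fill (TK_dn E ⊤) S MB MB_mono ?_ ?_
  · exact fill_TK hE 0 1 (le_trans (MB_mono (Nat.zero_le S)) hq) (opp_top hE)
      (by rw [finrank_top]; omega)
  · intro s hs
    exact fill_TK hE (s + 1) _ (le_trans (MB_mono (show s + 1 ≤ S from hs)) hq) (opp_top hE)
      (by rw [finrank_top]; omega)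

end Crest.Agent.R66
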