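import Crest.Agent.R66.Chain

/-!
# Row 66 (S0088): bounded filling and contraction for opposite subspaces.  Definitions.
Author: helper7.

* `An a` : annihilation operator (`s ↦ s.erase a` if `a ∈ s`, else `0`).
* `BFill K s k k'` : every cycle of size `s` with at most `k` faces bounds a chain with at most `k'` faces.
* `Contr K S M` : there is a linear `c` with `bd c x + c bd x = x` on faces of size `≤ S`,
  `c x` consists of at most `M` faces of `K`.
* `prS φ a s` : prism of the chain `s` along `x ↦ φ x` plus the cone with apex `a`.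
* `IsFlag E`, `Opp E W`, `TK E H` : full flag, opposite subspaces, chains of opposite subspaces
  properly between `0` and `H`.
-/

set_option autoImplicit false

namespace Crest.Agent.R66

open Finset

section
variable {α : Type*} [DecidableEq α]

/-- annihilation operator. -/
noncomputable def An (a : α) : Ch α →ₗ[ZMod 2] Ch α :=
  Finsupp.linearCombination (ZMod 2) fun s : Finset α =>
    if a ∈ s then Finsupp.single (s.erase a) 1 else 0

/-- `K` is closed under removing elements. -/
def Dn (K : Set (Finset α)) : Prop := ∀ s ∈ K, ∀ x ∈ s, s.erase x ∈ K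

/-- bounded filling. -/
def BFill (K : Set (Finset α)) (s k k' : ℕ) : Prop :=
  ∀ z : Ch α, On K s z → bd z = 0 → z.support.card ≤ k →
    ∃ b : Ch α, On K (s + 1) b ∧ bd b = z ∧ b.support.card ≤ k'

/-- bounded contraction on the faces of size `≤ S`. -/
def Contr (K : Set (Finset α)) (S M : ℕ) : Prop :=
  ∃ c : Ch α →ₗ[ZMod 2] Ch α, ∀ x ∈ K, x.card ≤ S →
    On K (x.card + 1) (c (Finsupp.single x 1)) ∧
    bd (c (Finsupp.single x 1)) + c (bd (Finsupp.single x 1)) = Finsupp.single x 1 ∧
    (c (Finsupp.single x 1)).support.card ≤ M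

/-- the join of `K1` (on the vertices satisfying `P`) and `K2` (on the others). -/
def joinP (P : α → Prop) [DecidablePred P] (K1 K2 : Set (Finset α)) : Set (Finset α) :=
  {x | x.filter P ∈ K1 ∧ x.filter (fun a => ¬ P a) ∈ K2}

end

section
variable {α : Type*} [DecidableEq α] [PartialOrder α]

open scoped Classical in
/-- prism (along `φ`) plus cone (apex `a`) of the chain `s`. -/
noncomputable def prS (φ : α → α) (a : α) (s : Finset α) : Ch α :=
  (∑ x ∈ s, Finsupp.single (s.filter (fun y => y ≤ x) ∪ (s.filter (fun y => x ≤ y)).image φ)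
    (1 : ZMod 2)) + Finsupp.single (insert a (s.image φ)) 1

/-- linear extension of `prS`. -/
noncomputable def pr (φ : α → α) (a : α) : Ch α →ₗ[ZMod 2] Ch α :=
  Finsupp.linearCombination (ZMod 2) fun s : Finset α => prS φ a s

/-- hypotheses on the chain `s` under which the prism identity holds. -/
structure PrGood (φ : α → α) (a : α) (s : Finset α) : Prop where
  chain : IsChain (· ≤ ·) (s : Set α)
  lt : ∀ x ∈ s, x < φ x
  apex : ∀ x ∈ s, a < φ x
  mono : ∀ x ∈ s, ∀ y ∈ s, x < y → φ x < φ y

theorem PrGood.subset {φ : α → α} {a : α} {s t : Finset α} (h : PrGood φ a s) (ht : t ⊆ s) :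
    PrGood φ a t :=
  ⟨h.chain.mono (by exact_mod_cast ht), fun x hx => h.lt x (ht hx), fun x hx => h.apex x (ht hx),
    fun x hx y hy => h.mono x (ht hx) y (ht hy)⟩

end

section
variable {F V : Type*} [Field F] [AddCommGroup V] [Module F V] [FiniteDimensional F V]

open Module

/-- full flag. -/
structure IsFlag (E : ℕ → Submodule F V) : Prop where
  mono : Monotone E
  dim : ∀ i, i ≤ finrank F V → finrank F (E i) = i

/-- `W` is opposite to the flag `E`. -/
def Opp (E : ℕ → Submodule F V) (W : Submodule F V) : Prop :=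
  W ⊓ E (finrank F V - finrank F W) = ⊥

/-- chains of opposite subspaces properly between `0` and `H`. -/
def TK (E : ℕ → Submodule F V) (H : Submodule F V) : Set (Finset (Submodule F V)) :=
  {s | IsChain (· ≤ ·) (s : Set (Submodule F V)) ∧ ∀ W ∈ s, W ≠ ⊥ ∧ W < H ∧ Opp E W}

theorem TK_dn [DecidableEq (Submodule F V)] (E : ℕ → Submodule F V) (H : Submodule F V) :
    Dn (TK E H) := by
  intro s hs x _
  refine ⟨hs.1.mono (by exact_mod_cast Finset.erase_subset x s), fun W hW => hs.2 W ?_⟩
  exact Finset.mem_of_mem_erase hW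

theorem opp_bot (E : ℕ → Submodule F V) : Opp E ⊥ := by simp [Opp]

theorem opp_top {E : ℕ → Submodule F V} (hE : IsFlag E) : Opp E ⊤ := by
  have h : finrank F (E 0) = 0 := hE.dim 0 (Nat.zero_le _)
  have h' : E 0 = ⊥ := Submodule.finrank_eq_zero.1 h
  simp [Opp, h']

end

/-- bound for the filling of cycles of size `s` with at most `k` faces. -/
def KB : ℕ → ℕ → ℕ
  | 0, _ => 2
  | (s + 1), k => (s + 3) * (k + 1) * (KB s k + 1)

/-- bound for the contraction. -/
def MB : ℕ → ℕ
  | 0 => KB 0 1
  | (s + 1) => KB (s + 1) (1 + (s + 1) * MB s)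

end Crest.Agent.R66
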