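import Crest.Agent.R66.FDefs

/-!
# Row 66, piece F3: a line in general position.

PROOF. Let `n = dim V`, `h = dim H`. `H ⊓ E (n - h) = ⊥`. For `W ∈ 𝒲`, `w = dim W ≤ h - 2`, put
`U_W = W ⊔ (H ⊓ E (n - w - 1)) ≤ H`. Since `E (n - h) ≤ E (n - w - 1)` meets `H` trivially,
`dim (H ⊓ E (n - w - 1)) + (n - h) ≤ n - w - 1`, so `dim U_W ≤ w + (h - w - 1) = h - 1 < h`.
So `card U_W ≤ q ^ (h - 1)` and the union of fewer than `q` (or equal, all contain `0`) such subspaces
is not all of `H`: choose `v ∈ H` outside all `U_W`, `L = span {v}`. (If `𝒲 = ∅`, take any `v ≠ 0` in `H`,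
`h ≥ 2`.) Then `v ∉ W`, so `dim (W ⊔ L) = w + 1 < h`. `(W ⊔ L) ⊓ E (n - w - 1) = ⊥`: if
`u + c v = e ∈ E (n - w - 1)`, `u ∈ W`, then for `c ≠ 0`: `e ∈ H` (as `u, v ∈ H`), so
`v = c⁻¹ (e - u) ∈ U_W`, contradiction; for `c = 0`: `u = e ∈ W ⊓ E (n - w - 1) ≤ W ⊓ E (n - w) = ⊥`.
-/

set_option autoImplicit false

namespace Crest.Agent.R66

open Finset Module

variable {F V : Type*} [Field F] [Fintype F] [AddCommGroup V] [Module F V] [FiniteDimensional F V]

/-- a nonzero vector of `H` outside fewer than `q` subspaces of dimension `< dim H`. -/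
private theorem fgen_exists_vec {H : Submodule F V} (hh : 2 ≤ finrank F H) {ι : Type*} (Ws : Finset ι)
    (U : ι → Submodule F V) (hU : ∀ W ∈ Ws, finrank F (U W) ≤ finrank F H - 1)
    (hq : Ws.card < Fintype.card F) : ∃ v ∈ H, v ≠ 0 ∧ ∀ W ∈ Ws, v ∉ U W := by
  classical
  by_contra hcon
  push Not at hcon
  have : Finite V := Module.finite_of_finite F
  letI : Fintype V := Fintype.ofFinite V
  have hcard : ∀ X : Submodule F V, (univ.filter (fun v : V => v ∈ X)).card =
      Fintype.card F ^ finrank F X := by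
    intro X
    rw [← Module.card_eq_pow_finrank (K := F) (V := X), Fintype.card_subtype]
  set q := Fintype.card F with hqdef
  have hq2 : 2 ≤ q := Fintype.one_lt_card
  set h := finrank F H with hhdef
  have hsub : (univ.filter (fun v : V => v ∈ H)) ⊆
      insert 0 (Ws.biUnion fun W => univ.filter (fun v : V => v ∈ U W)) := by
    intro v hv
    rw [mem_filter] at hv
    by_cases h0 : v = 0
    · rw [h0]; exact mem_insert_self _ _
    · obtain ⟨W, hW, hvW⟩ := hcon v hv.2 h0
      exact mem_insert_of_mem (mem_biUnion.2 ⟨W, hW, by simpa using hvW⟩)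
  have h1 : q ^ h ≤ 1 + (q - 1) * q ^ (h - 1) := by
    rw [← hcard H]
    refine (card_le_card hsub).trans ((card_insert_le _ _).trans ?_)
    rw [add_comm]
    refine Nat.add_le_add_left (card_biUnion_le.trans ?_) 1
    calc ∑ W ∈ Ws, (univ.filter (fun v : V => v ∈ U W)).card ≤ ∑ W ∈ Ws, q ^ (h - 1) := by
          refine sum_le_sum fun W hW => ?_
          rw [hcard]
          exact Nat.pow_le_pow_right (by omega) (hU W hW)
      _ = Ws.card * q ^ (h - 1) := by rw [sum_const, smul_eq_mul]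
      _ ≤ (q - 1) * q ^ (h - 1) := Nat.mul_le_mul_right _ (by omega)
  obtain ⟨k, hk⟩ : ∃ k, h = k + 2 := ⟨h - 2, by omega⟩
  obtain ⟨p, hp⟩ : ∃ p, q = p + 2 := ⟨q - 2, by omega⟩
  rw [hk, hp] at h1
  have e1 : k + 2 - 1 = k + 1 := by omega
  have e2 : p + 2 - 1 = p + 1 := by omega
  rw [e1, e2, pow_succ (p + 2) (k + 1)] at h1
  have h2 : 2 ≤ (p + 2) ^ (k + 1) := by
    calc 2 ≤ p + 2 := by omega
      _ = (p + 2) ^ 1 := (pow_one _).symm
      _ ≤ (p + 2) ^ (k + 1) := Nat.pow_le_pow_right (by omega) (by omega)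
  nlinarith

theorem exists_generic_line {E : ℕ → Submodule F V} (hE : IsFlag E) {H : Submodule F V}
    (hH : Opp E H) (hh : 2 ≤ finrank F H) (Ws : Finset (Submodule F V))
    (hW : ∀ W ∈ Ws, W ≤ H ∧ Opp E W ∧ finrank F W + 2 ≤ finrank F H)
    (hq : Ws.card < Fintype.card F) :
    ∃ L : Submodule F V, finrank F L = 1 ∧ L ≤ H ∧
      ∀ W ∈ Ws, finrank F (W ⊔ L : Submodule F V) = finrank F W + 1 ∧ Opp E (W ⊔ L) ∧
        W ⊔ L < H ∧ W < W ⊔ L := by
  have hn : finrank F H ≤ finrank F V := Submodule.finrank_le H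
  let U : Submodule F V → Submodule F V := fun W => W ⊔ (H ⊓ E (finrank F V - (finrank F W + 1)))
  have hU : ∀ W ∈ Ws, finrank F (U W) ≤ finrank F H - 1 := by
    intro W hWW
    obtain ⟨h1, h2, h3⟩ := hW W hWW
    have hinf : (H ⊓ E (finrank F V - (finrank F W + 1))) ⊓ E (finrank F V - finrank F H) = ⊥ := by
      rw [eq_bot_iff]
      refine le_trans ?_ hH.le
      exact inf_le_inf_right _ inf_le_left
    have hsup : (H ⊓ E (finrank F V - (finrank F W + 1))) ⊔ E (finrank F V - finrank F H) ≤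
        E (finrank F V - (finrank F W + 1)) :=
      sup_le inf_le_right (hE.mono (by omega))
    have e1 := Submodule.finrank_sup_add_finrank_inf_eq (H ⊓ E (finrank F V - (finrank F W + 1)))
      (E (finrank F V - finrank F H))
    have e2 := Submodule.finrank_mono hsup
    rw [hinf, finrank_bot, hE.dim _ (Nat.sub_le _ _)] at e1
    rw [hE.dim _ (Nat.sub_le _ _)] at e2
    have e3 : finrank F (U W) ≤ finrank F W +
        finrank F (H ⊓ E (finrank F V - (finrank F W + 1)) : Submodule F V) :=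
      Submodule.finrank_add_le_finrank_add_finrank _ _
    omega
  obtain ⟨v, hvH, hv0, hvU⟩ := fgen_exists_vec hh Ws U hU hq
  have hL : Submodule.span F {v} ≤ H := by
    rw [Submodule.span_le]; simpa using hvH
  refine ⟨Submodule.span F {v}, finrank_span_singleton hv0, hL, fun W hWW => ?_⟩
  obtain ⟨h1, h2, h3⟩ := hW W hWW
  have hvW : v ∉ W := fun h => hvU W hWW ((le_sup_left : W ≤ U W) h)
  have hinf : W ⊓ Submodule.span F {v} = ⊥ := by
    rw [eq_bot_iff]
    rintro x ⟨hx1, hx2⟩
    obtain ⟨c, rfl⟩ := Submodule.mem_span_singleton.1 hx2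
    by_cases hc : c = 0
    · simp [hc]
    · exact absurd ((Submodule.smul_mem_iff W hc).1 hx1) hvW
  have hdim : finrank F (W ⊔ Submodule.span F {v} : Submodule F V) = finrank F W + 1 := by
    have e := Submodule.finrank_sup_add_finrank_inf_eq W (Submodule.span F {v})
    rw [hinf, finrank_bot, finrank_span_singleton hv0] at e
    omega
  refine ⟨hdim, ?_, ?_, ?_⟩
  · unfold Opp
    rw [hdim, eq_bot_iff]
    rintro x ⟨hx1, hx2⟩
    obtain ⟨u, hu, y, hy, rfl⟩ := Submodule.mem_sup.1 hx1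
    obtain ⟨c, rfl⟩ := Submodule.mem_span_singleton.1 hy
    by_cases hc : c = 0
    · rw [hc, zero_smul, add_zero] at hx2 ⊢
      have : u ∈ W ⊓ E (finrank F V - finrank F W) := ⟨hu, hE.mono (by omega) hx2⟩
      rw [h2] at this
      exact this
    · exfalso
      apply hvU W hWW
      have hH' : u + c • v ∈ H := H.add_mem (h1 hu) (H.smul_mem c hvH)
      have hx : u + c • v ∈ U W := (le_sup_right : _ ≤ U W) ⟨hH', hx2⟩
      have hu' : u ∈ U W := (le_sup_left : W ≤ U W) hu
      have : c • v ∈ U W := by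
        have := (U W).sub_mem hx hu'
        rwa [add_sub_cancel_left] at this
      exact (Submodule.smul_mem_iff _ hc).1 this
  · refine lt_of_le_of_ne (sup_le h1 hL) ?_
    intro e
    rw [e] at hdim
    omega
  · refine lt_of_le_of_ne le_sup_left ?_
    intro e
    rw [← e] at hdim
    omega

end Crest.Agent.R66
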