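import Crest.Agent.R66.FDefs

/-!
# Row 66, piece F2: annihilation operators and removal of vertices.

PROOF. `bd_An`: on a basis element `s ∋ a`: `bd (s - a) = ∑_{x ∈ s - a} s - a - x`, and
`An a (bd s) = ∑_{x ∈ s, x ≠ a} s - x - a` (the term `x = a` does not contain `a`); for `a ∉ s` both
sides are `0`.
`removal`: `bd (J a (b a)) = b a + J a (bd (b a)) = b a + J a (An a z)` (`bd_J'`), and
`z = z.filter (no element of Gs) + ∑_{a ∈ Gs} J a (An a z)`, because a face in the support of `z`
contains at most one element of `Gs` and `J a (An a s) = s` if `a ∈ s`, `0` otherwise.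
-/

set_option autoImplicit false

namespace Crest.Agent.R66

open Finset

variable {α : Type*} [DecidableEq α]

theorem An_single (a : α) (s : Finset α) :
    An a (Finsupp.single s (1 : ZMod 2)) = if a ∈ s then Finsupp.single (s.erase a) 1 else 0 := by
  simp [An]

theorem bd_An (a : α) (z : Ch α) : bd (An a z) = An a (bd z) := by
  have := ch_lin_ext (f := bd ∘ₗ An a) (g := An a ∘ₗ bd) (fun s => by
    simp only [LinearMap.comp_apply]
    rw [An_single, bd_single, map_sum]
    by_cases ha : a ∈ s
    · rw [if_pos ha, bd_single, ← Finset.add_sum_erase s _ ha, An_single,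
        if_neg (Finset.notMem_erase a s), zero_add]
      apply Finset.sum_congr rfl
      intro x hx
      rw [An_single, if_pos (Finset.mem_erase.2 ⟨(Finset.mem_erase.1 hx).1.symm, ha⟩),
        Finset.erase_right_comm]
    · rw [if_neg ha, map_zero, Finset.sum_eq_zero]
      intro x hx
      rw [An_single, if_neg (fun h => ha (Finset.mem_of_mem_erase h))])
  exact LinearMap.congr_fun this z

theorem J_An_single (a : α) (s : Finset α) :
    J a (An a (Finsupp.single s (1 : ZMod 2))) = if a ∈ s then Finsupp.single s 1 else 0 := by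
  rw [An_single]
  by_cases ha : a ∈ s
  · rw [if_pos ha, if_pos ha, J_single_notMem (Finset.notMem_erase a s), Finset.insert_erase ha]
  · rw [if_neg ha, if_neg ha, map_zero]

theorem ch_eq_sum (z : Ch α) : z = ∑ s ∈ z.support, z s • Finsupp.single s (1 : ZMod 2) := by
  conv_lhs => rw [← Finsupp.sum_single z]
  rw [Finsupp.sum]
  apply Finset.sum_congr rfl
  intro s _
  simp

theorem support_An_subset (a : α) (z : Ch α) :
    (An a z).support ⊆ (z.support.filter (fun s => a ∈ s)).image (fun s => s.erase a) := by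
  classical
  intro t ht
  rw [Finsupp.mem_support_iff] at ht
  by_contra hn
  apply ht
  conv_lhs => rw [ch_eq_sum z]
  rw [map_sum, Finsupp.finsetSum_apply]
  apply Finset.sum_eq_zero
  intro s hs
  rw [map_smul, Finsupp.smul_apply, An_single]
  by_cases ha : a ∈ s
  · rw [if_pos ha, Finsupp.single_apply, if_neg, smul_zero]
    intro he
    exact hn (Finset.mem_image.2 ⟨s, Finset.mem_filter.2 ⟨hs, ha⟩, he⟩)
  · rw [if_neg ha]; simp

theorem support_J_subset (a : α) (z : Ch α) :
    (J a z).support ⊆ (z.support.filter (fun s => a ∉ s)).image (fun s => insert a s) := by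
  classical
  intro t ht
  rw [Finsupp.mem_support_iff] at ht
  by_contra hn
  apply ht
  conv_lhs => rw [ch_eq_sum z]
  rw [map_sum, Finsupp.finsetSum_apply]
  apply Finset.sum_eq_zero
  intro s hs
  rw [map_smul, Finsupp.smul_apply, J_single]
  by_cases ha : a ∈ s
  · rw [if_pos ha]; simp
  · rw [if_neg ha, Finsupp.single_apply, if_neg, smul_zero]
    intro he
    exact hn (Finset.mem_image.2 ⟨s, Finset.mem_filter.2 ⟨hs, ha⟩, he⟩)

theorem card_An (a : α) (z : Ch α) : (An a z).support.card ≤ z.support.card :=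
  (Finset.card_le_card (support_An_subset a z)).trans
    (Finset.card_image_le.trans (Finset.card_le_card (Finset.filter_subset _ _)))

theorem card_J (a : α) (z : Ch α) : (J a z).support.card ≤ z.support.card :=
  (Finset.card_le_card (support_J_subset a z)).trans
    (Finset.card_image_le.trans (Finset.card_le_card (Finset.filter_subset _ _)))

theorem mem_An {a : α} {z : Ch α} {t : Finset α} (ht : t ∈ (An a z).support) :
    a ∉ t ∧ insert a t ∈ z.support := by
  obtain ⟨s, hs, rfl⟩ := Finset.mem_image.1 (support_An_subset a z ht)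
  obtain ⟨h1, h2⟩ := Finset.mem_filter.1 hs
  exact ⟨Finset.notMem_erase a s, by rw [Finset.insert_erase h2]; exact h1⟩

theorem mem_J {a : α} {z : Ch α} {t : Finset α} (ht : t ∈ (J a z).support) :
    a ∈ t ∧ t.erase a ∈ z.support := by
  obtain ⟨s, hs, rfl⟩ := Finset.mem_image.1 (support_J_subset a z ht)
  obtain ⟨h1, h2⟩ := Finset.mem_filter.1 hs
  exact ⟨Finset.mem_insert_self a s, by rw [Finset.erase_insert h2]; exact h1⟩

theorem J_An_apply (a : α) (z : Ch α) (t : Finset α) :
    J a (An a z) t = if a ∈ t then z t else 0 := by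
  classical
  conv_lhs => rw [ch_eq_sum z]
  rw [map_sum, map_sum, Finsupp.finsetSum_apply]
  by_cases ht : t ∈ z.support
  · rw [Finset.sum_eq_single_of_mem t ht]
    · rw [map_smul, map_smul, Finsupp.smul_apply, J_An_single]
      by_cases ha : a ∈ t
      · rw [if_pos ha, if_pos ha]; simp
      · rw [if_neg ha, if_neg ha]; simp
    · intro s _ hst
      rw [map_smul, map_smul, Finsupp.smul_apply, J_An_single]
      by_cases ha : a ∈ s
      · rw [if_pos ha, Finsupp.single_eq_of_ne (Ne.symm hst), smul_zero]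
      · rw [if_neg ha]; simp
  · rw [Finset.sum_eq_zero]
    · rw [Finsupp.notMem_support_iff.1 ht]; simp
    · intro s hs
      have hst : s ≠ t := fun e => ht (e ▸ hs)
      rw [map_smul, map_smul, Finsupp.smul_apply, J_An_single]
      by_cases ha : a ∈ s
      · rw [if_pos ha, Finsupp.single_eq_of_ne (Ne.symm hst), smul_zero]
      · rw [if_neg ha]; simp

open scoped Classical in
theorem removal {z : Ch α} (Gs : Finset α)
    (hone : ∀ s ∈ z.support, ∀ a ∈ Gs, ∀ b ∈ Gs, a ∈ s → b ∈ s → a = b)
    (b : α → Ch α) (hb : ∀ a ∈ Gs, bd (b a) = An a z) :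
    z + bd (∑ a ∈ Gs, J a (b a)) =
      z.filter (fun s => ∀ a ∈ Gs, a ∉ s) + ∑ a ∈ Gs, b a := by
  have h1 : bd (∑ a ∈ Gs, J a (b a)) = ∑ a ∈ Gs, b a + ∑ a ∈ Gs, J a (An a z) := by
    rw [map_sum, ← Finset.sum_add_distrib]
    apply Finset.sum_congr rfl
    intro a ha
    rw [bd_J', hb a ha]
  have h2 : z = z.filter (fun s => ∀ a ∈ Gs, a ∉ s) + ∑ a ∈ Gs, J a (An a z) := by
    ext t
    rw [Finsupp.add_apply, Finsupp.finsetSum_apply]
    simp only [J_An_apply]
    by_cases ht : t ∈ z.support
    · by_cases hG : ∀ a ∈ Gs, a ∉ t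
      · rw [Finsupp.filter_apply, if_pos hG, Finset.sum_eq_zero, add_zero]
        intro a ha
        rw [if_neg (hG a ha)]
      · rw [Finsupp.filter_apply, if_neg hG, zero_add]
        push Not at hG
        obtain ⟨a, ha, hat⟩ := hG
        rw [Finset.sum_eq_single_of_mem a ha, if_pos hat]
        intro c hc hca
        rw [if_neg]
        intro hct
        exact hca (hone t ht c hc a ha hct hat)
    · have h0 : z t = 0 := Finsupp.notMem_support_iff.1 ht
      rw [Finsupp.filter_apply, h0]
      simp
  have h3 : ∑ a ∈ Gs, J a (An a z) + ∑ a ∈ Gs, J a (An a z) = 0 := ch_add_self _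
  calc z + bd (∑ a ∈ Gs, J a (b a))
      = (z.filter (fun s => ∀ a ∈ Gs, a ∉ s) + ∑ a ∈ Gs, J a (An a z)) +
        (∑ a ∈ Gs, b a + ∑ a ∈ Gs, J a (An a z)) := by
        rw [h1]; exact congrArg (· + _) h2
    _ = z.filter (fun s => ∀ a ∈ Gs, a ∉ s) + ∑ a ∈ Gs, b a +
        (∑ a ∈ Gs, J a (An a z) + ∑ a ∈ Gs, J a (An a z)) := by abel
    _ = _ := by rw [h3, add_zero]

end Crest.Agent.R66
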