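import Crest.Agent.R66.FPrism
import Crest.Agent.R66.FRemove
import Crest.Agent.R66.FGen

/-!
# Row 66, piece F4: bounded filling of cycles of chains of opposite subspaces.

PROOF. Induction on `s` (for all `H`, `k`). `s = 0`: `z = c • ∅`; take an opposite line
`L < H` (`exists_generic_line` with `Ws = {⊥}`, `1 < q`), `b = c • {L}`.
`s + 1`: let `h = dim H ≥ s + 3`, `Gs` = the set of all `G` of dimension `h - 1` occurring in faces of `z`
(at most one in each face, so `|Gs| ≤ k`). For `G ∈ Gs`, `An G z` is a cycle (`bd_An`) of size `s` of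
`TK E G` (a member `≠ G` of a face containing `G` is `< G`, as nothing lies strictly between `G` and `H`),
with at most `k` faces; by induction `An G z = bd b_G`, `|b_G| ≤ KB s k`. By `removal`
`z'' = z + bd (∑ J G b_G) = z.filter (..) + ∑ b_G` consists of at most `k + k * KB s k` chains of
size `s + 1` of opposite subspaces of dimension `≤ h - 2`. Let `Ws` be the set of all their members
together with `⊥`: `|Ws| ≤ (s + 1) * k * (1 + KB s k) + 1 < KB (s+1) k ≤ q`. With `L` from
`exists_generic_line`, `φ W = W ⊔ L`, apex `L`: all faces of `z''` are `PrGood` and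
`b = ∑ J G b_G + pr φ L z''` does it (`bd_pr`, `bd z'' = 0`):
`|b| ≤ k * KB s k + (s + 2) * k * (1 + KB s k) ≤ KB (s+1) k`.
-/

set_option autoImplicit false

namespace Crest.Agent.R66

open Finset Module

variable {F V : Type*} [Field F] [Fintype F] [AddCommGroup V] [Module F V] [FiniteDimensional F V]
  [DecidableEq (Submodule F V)]

theorem fill_TK_zero {E : ℕ → Submodule F V} (hE : IsFlag E) (k : ℕ)
    (hq : KB 0 k ≤ Fintype.card F) {H : Submodule F V} (hH : Opp E H) (hs : 2 ≤ finrank F H) :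
    BFill (TK E H) 0 k (KB 0 k) := by
  intro z hz _ _
  have hcard : ({⊥} : Finset (Submodule F V)).card < Fintype.card F := by
    rw [Finset.card_singleton]
    have : KB 0 k = 2 := rfl
    omega
  obtain ⟨L, hL1, hLH, hL⟩ := exists_generic_line hE hH hs {⊥} (by
    intro W hW
    rw [Finset.mem_singleton] at hW
    subst hW
    refine ⟨bot_le, opp_bot E, ?_⟩
    rw [finrank_bot]; omega) hcard
  obtain ⟨_, hL2, hL3, hL4⟩ := hL ⊥ (Finset.mem_singleton_self _)
  rw [bot_sup_eq] at hL2 hL3 hL4
  have hzz : z = Finsupp.single ∅ (z ∅) := by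
    ext t
    by_cases ht : t = ∅
    · subst ht; simp
    · rw [Finsupp.single_eq_of_ne (by exact ht)]
      by_contra hne
      have := (hz t (Finsupp.mem_support_iff.2 hne)).2
      exact ht (Finset.card_eq_zero.1 this)
  refine ⟨Finsupp.single {L} (z ∅), ?_, ?_, ?_⟩
  · have hLK : ({L} : Finset (Submodule F V)) ∈ TK E H := by
      refine ⟨?_, ?_⟩
      · rw [Finset.coe_singleton]; exact Set.subsingleton_singleton.isChain
      · intro W hW
        rw [Finset.mem_singleton] at hW
        subst hW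
        exact ⟨(bot_lt_iff_ne_bot.1 hL4), hL3, hL2⟩
    exact On.single hLK (Finset.card_singleton L) _
  · have h1 : (Finsupp.single {L} (z ∅) : Ch (Submodule F V)) =
        (z ∅) • Finsupp.single {L} (1 : ZMod 2) := by simp
    rw [h1, map_smul, bd_single, Finset.sum_singleton, Finset.erase_singleton]
    conv_rhs => rw [hzz]
    simp
  · refine (Finset.card_le_card Finsupp.support_single_subset).trans ?_
    rw [Finset.card_singleton]
    have : KB 0 k = 2 := rfl
    omega

theorem filter_facts {α : Type*} {z : Ch α} (p : Finset α → Prop) (inst : DecidablePred p) :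
    (∀ t ∈ (@Finsupp.filter _ _ _ p inst z).support, t ∈ z.support ∧ p t) ∧
      (@Finsupp.filter _ _ _ p inst z).support.card ≤ z.support.card := by
  refine ⟨?_, ?_⟩
  · intro t ht
    rw [Finsupp.support_filter, Finset.mem_filter] at ht
    exact ht
  · rw [Finsupp.support_filter]
    exact Finset.card_filter_le _ _

open scoped Classical in
theorem removal' {α : Type*} [DecidableEq α] {z : Ch α} (Gs : Finset α)
    (hone : ∀ s ∈ z.support, ∀ a ∈ Gs, ∀ b ∈ Gs, a ∈ s → b ∈ s → a = b)
    (b : α → Ch α) (hb : ∀ a ∈ Gs, bd (b a) = An a z) :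
    ∃ w : Ch α, (∀ t ∈ w.support, t ∈ z.support ∧ ∀ a ∈ Gs, a ∉ t) ∧
      w.support.card ≤ z.support.card ∧
      z + bd (∑ a ∈ Gs, J a (b a)) = w + ∑ a ∈ Gs, b a := by
  have h := removal Gs hone b hb
  exact ⟨_, (filter_facts _ _).1, (filter_facts _ _).2, h⟩

theorem fill_TK_succ {E : ℕ → Submodule F V} (hE : IsFlag E) (s k : ℕ)
    (ih : ∀ H : Submodule F V, Opp E H → s + 2 ≤ finrank F H → BFill (TK E H) s k (KB s k))
    (hq : KB (s + 1) k ≤ Fintype.card F) {H : Submodule F V} (hH : Opp E H)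
    (hs : s + 3 ≤ finrank F H) : BFill (TK E H) (s + 1) k (KB (s + 1) k) := by
  classical
  intro z hz hbz hzk
  set h := finrank F H with hh
  -- the hyperplanes occurring in `z`
  obtain ⟨Gs, hGs⟩ : ∃ Gs : Finset (Submodule F V), Gs =
      (z.support.biUnion id).filter (fun G : Submodule F V => finrank F G + 1 = h) :=
    ⟨_, rfl⟩
  have hmemG : ∀ G : Submodule F V, G ∈ Gs ↔ (∃ t ∈ z.support, G ∈ t) ∧ finrank F G + 1 = h := by
    intro G
    rw [hGs, Finset.mem_filter, Finset.mem_biUnion]
    simp only [id]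
  have hGprop : ∀ G ∈ Gs, G ≠ ⊥ ∧ G < H ∧ Opp E G ∧ finrank F G + 1 = h := by
    intro G hG
    obtain ⟨⟨t, ht, hGt⟩, hf⟩ := (hmemG G).1 hG
    have := (hz t ht).1.2 G hGt
    exact ⟨this.1, this.2.1, this.2.2, hf⟩
  have hone : ∀ t ∈ z.support, ∀ a ∈ Gs, ∀ b ∈ Gs, a ∈ t → b ∈ t → a = b := by
    intro t ht a ha b hb hat hbt
    by_contra hab
    have hc := (hz t ht).1.1 (by exact_mod_cast hat) (by exact_mod_cast hbt) hab
    have hfa := (hGprop a ha).2.2.2
    have hfb := (hGprop b hb).2.2.2
    rcases hc with hc | hc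
    · exact hab (Submodule.eq_of_le_of_finrank_eq hc (by omega))
    · exact hab (Submodule.eq_of_le_of_finrank_eq hc (by omega)).symm
  have hGcard : Gs.card ≤ k := by
    have h1 : Gs ⊆ z.support.biUnion (fun t => t.filter (· ∈ Gs)) := by
      intro G hG
      obtain ⟨⟨t, ht, hGt⟩, _⟩ := (hmemG G).1 hG
      exact Finset.mem_biUnion.2 ⟨t, ht, Finset.mem_filter.2 ⟨hGt, hG⟩⟩
    refine (Finset.card_le_card h1).trans ?_
    refine (Finset.card_biUnion_le_card_mul _ _ 1 ?_).trans (by rw [mul_one]; exact hzk)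
    intro t ht
    rw [Finset.card_le_one]
    intro a ha b hb
    rw [Finset.mem_filter] at ha hb
    exact hone t ht a ha.2 b hb.2 ha.1 hb.1
  -- fillings of the links
  have hfill : ∀ G, ∃ b : Ch (Submodule F V), G ∈ Gs →
      On (TK E G) (s + 1) b ∧ bd b = An G z ∧ b.support.card ≤ KB s k := by
    intro G
    by_cases hG : G ∈ Gs
    · obtain ⟨hG1, hG2, hG3, hG4⟩ := hGprop G hG
      obtain ⟨b, hb1, hb2, hb3⟩ := ih G hG3 (by omega) (An G z) (by
        intro t ht
        obtain ⟨hGt, hins⟩ := mem_An ht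
        have hz1 := hz _ hins
        refine ⟨⟨hz1.1.1.mono (by exact_mod_cast Finset.subset_insert G t), ?_⟩, ?_⟩
        · intro W hW
          have hW' := hz1.1.2 W (Finset.mem_insert_of_mem hW)
          refine ⟨hW'.1, ?_, hW'.2.2⟩
          have hne : W ≠ G := fun e => hGt (e ▸ hW)
          have hch := hz1.1.1
          have hWm : W ∈ ((insert G t : Finset (Submodule F V)) : Set (Submodule F V)) := by
            simp [hW]
          have hGm : G ∈ ((insert G t : Finset (Submodule F V)) : Set (Submodule F V)) := by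
            simp
          have hc := hch hWm hGm hne
          rcases hc with hc | hc
          · exact lt_of_le_of_ne hc hne
          · exfalso
            have hlt : G < W := lt_of_le_of_ne hc hne.symm
            have h1 := Submodule.finrank_lt_finrank_of_lt hlt
            have h2 := Submodule.finrank_lt_finrank_of_lt hW'.2.1
            omega
        · have := hz1.2
          rw [Finset.card_insert_of_notMem hGt] at this
          omega) (by rw [bd_An, hbz, map_zero]) ((card_An G z).trans hzk)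
      exact ⟨b, fun _ => ⟨hb1, hb2, hb3⟩⟩
    · exact ⟨0, fun h' => absurd h' hG⟩
  choose b hb using hfill
  obtain ⟨w, hw1, hw2, hrem⟩ := removal' (z := z) Gs hone b (fun a ha => (hb a ha).2.1)
  obtain ⟨z', hz'⟩ : ∃ z' : Ch (Submodule F V), z' = w + ∑ a ∈ Gs, b a := ⟨_, rfl⟩
  rw [← hz'] at hrem
  have hbz' : bd z' = 0 := by
    rw [← hrem, map_add, hbz, bd_bd, add_zero]
  -- the faces of `z'`
  have hz'face : ∀ t ∈ z'.support, t.card = s + 1 ∧ IsChain (· ≤ ·) (t : Set (Submodule F V)) ∧
      ∀ W ∈ t, W ≠ ⊥ ∧ W < H ∧ Opp E W ∧ finrank F W + 2 ≤ h := by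
    intro t ht
    rw [hz'] at ht
    rcases Finset.mem_union.1 (Finsupp.support_add ht) with ht | ht
    · obtain ⟨ht1, ht2⟩ := hw1 t ht
      have hz1 := hz t ht1
      refine ⟨hz1.2, hz1.1.1, fun W hW => ?_⟩
      have hW' := hz1.1.2 W hW
      refine ⟨hW'.1, hW'.2.1, hW'.2.2, ?_⟩
      have h2 := Submodule.finrank_lt_finrank_of_lt hW'.2.1
      have h3 : finrank F W + 1 ≠ h := by
        intro h3
        exact ht2 W ((hmemG W).2 ⟨⟨t, ht1, hW⟩, h3⟩) hW
      omega
    · obtain ⟨G, hG, hGt⟩ := Finset.mem_biUnion.1 (Finsupp.support_finsetSum ht)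
      have hb1 := (hb G hG).1 t hGt
      obtain ⟨hG1, hG2, hG3, hG4⟩ := hGprop G hG
      refine ⟨hb1.2, hb1.1.1, fun W hW => ?_⟩
      have hW' := hb1.1.2 W hW
      refine ⟨hW'.1, hW'.2.1.trans hG2, hW'.2.2, ?_⟩
      have h2 := Submodule.finrank_lt_finrank_of_lt hW'.2.1
      omega
  have hz'card : z'.support.card ≤ k * (1 + KB s k) := by
    rw [hz']
    refine (Finset.card_le_card Finsupp.support_add).trans ?_
    refine (Finset.card_union_le _ _).trans ?_
    have h1 : w.support.card ≤ k := hw2.trans hzk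
    have h2 : (∑ a ∈ Gs, b a).support.card ≤ k * KB s k := by
      refine (Finset.card_le_card Finsupp.support_finsetSum).trans ?_
      refine (Finset.card_biUnion_le_card_mul _ _ (KB s k) ?_).trans
        (Nat.mul_le_mul_right _ hGcard)
      intro G hG
      exact (hb G hG).2.2
    calc _ ≤ k + k * KB s k := Nat.add_le_add h1 h2
      _ = _ := by ring
  -- the generic line
  obtain ⟨Ws, hWs⟩ : ∃ Ws : Finset (Submodule F V), Ws = insert ⊥ (z'.support.biUnion id) :=
    ⟨_, rfl⟩
  have hWcard : Ws.card < Fintype.card F := by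
    have h1 : Ws.card ≤ k * (1 + KB s k) * (s + 1) + 1 := by
      rw [hWs]
      refine (Finset.card_insert_le _ _).trans (Nat.add_le_add_right ?_ 1)
      refine (Finset.card_biUnion_le_card_mul _ _ (s + 1) ?_).trans
        (Nat.mul_le_mul_right _ hz'card)
      intro t ht
      exact (hz'face t ht).1.le
    refine lt_of_lt_of_le (lt_of_le_of_lt h1 ?_) hq
    rw [KB]
    generalize KB s k = K
    nlinarith [Nat.zero_le (K * k), Nat.zero_le (K * s), Nat.zero_le (s * k), Nat.zero_le K]
  have hWmem : ∀ t ∈ z'.support, ∀ W ∈ t, W ∈ Ws := by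
    intro t ht W hW
    rw [hWs]
    exact Finset.mem_insert_of_mem (Finset.mem_biUnion.2 ⟨t, ht, hW⟩)
  obtain ⟨L, hL1, hLH, hL⟩ := exists_generic_line hE hH (by omega) Ws (by
    intro W hW
    rw [hWs, Finset.mem_insert] at hW
    rcases hW with rfl | hW
    · refine ⟨bot_le, opp_bot E, ?_⟩
      rw [finrank_bot]; omega
    · obtain ⟨t, ht, hWt⟩ := Finset.mem_biUnion.1 hW
      have := (hz'face t ht).2.2 W hWt
      exact ⟨this.2.1.le, this.2.2.1, this.2.2.2⟩) hWcard
  obtain ⟨_, hLopp, hLlt, hLbot⟩ := hL ⊥ (by rw [hWs]; exact Finset.mem_insert_self _ _)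
  rw [bot_sup_eq] at hLopp hLlt hLbot
  have hLne : L ≠ ⊥ := bot_lt_iff_ne_bot.1 hLbot
  have hφ : ∀ t ∈ z'.support, ∀ W ∈ t, finrank F (W ⊔ L : Submodule F V) = finrank F W + 1 ∧
      Opp E (W ⊔ L) ∧ W ⊔ L < H ∧ W < W ⊔ L := fun t ht W hW => hL W (hWmem t ht W hW)
  have hgood : ∀ t ∈ z'.support, PrGood (fun W => W ⊔ L) L t := by
    intro t ht
    obtain ⟨_, hch, hW⟩ := hz'face t ht
    refine ⟨hch, fun x hx => (hφ t ht x hx).2.2.2, fun x hx => ?_, fun x hx y hy hxy => ?_⟩
    · refine lt_of_le_of_ne le_sup_right ?_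
      intro e
      have h1 := (hφ t ht x hx).1
      rw [← e, hL1] at h1
      have h2 : finrank F x = 0 := by omega
      exact (hW x hx).1 (Submodule.finrank_eq_zero.1 h2)
    · refine lt_of_le_of_ne (sup_le_sup_right hxy.le L) ?_
      intro e
      have h1 := (hφ t ht x hx).1
      have h2 := (hφ t ht y hy).1
      have h3 := Submodule.finrank_lt_finrank_of_lt hxy
      have e' : x ⊔ L = y ⊔ L := e
      rw [e'] at h1
      omega
  have hOnpr : On (TK E H) (s + 1 + 1) (pr (fun W => W ⊔ L) L z') := by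
    apply On_pr
    intro t ht
    obtain ⟨hcard, hch, hW⟩ := hz'face t ht
    have hcomp : ∀ x ∈ t, ∀ y ∈ t, x ≤ y ∨ y ≤ x := by
      intro x hx y hy
      by_cases hxy : x = y
      · exact Or.inl hxy.le
      · exact hch (by exact_mod_cast hx) (by exact_mod_cast hy) hxy
    refine ⟨hcard, hgood t ht, ⟨?_, ?_⟩, fun x hx => ⟨?_, ?_⟩⟩
    · intro A hA B hB _
      rw [Finset.mem_coe, Finset.mem_insert, Finset.mem_image] at hA hB
      rcases hA with rfl | ⟨a, ha, rfl⟩
      · rcases hB with rfl | ⟨c, hc, rfl⟩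
        · exact Or.inl le_rfl
        · exact Or.inl le_sup_right
      · rcases hB with rfl | ⟨c, hc, rfl⟩
        · exact Or.inr le_sup_right
        · rcases hcomp a ha c hc with h1 | h1
          · exact Or.inl (sup_le_sup_right h1 L)
          · exact Or.inr (sup_le_sup_right h1 L)
    · intro A hA
      rw [Finset.mem_insert, Finset.mem_image] at hA
      rcases hA with rfl | ⟨a, ha, rfl⟩
      · exact ⟨hLne, hLlt, hLopp⟩
      · obtain ⟨h1, h2, h3, h4⟩ := hφ t ht a ha
        exact ⟨bot_lt_iff_ne_bot.1 (lt_of_le_of_lt bot_le h4), h3, h2⟩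
    · intro A hA B hB _
      rw [Finset.mem_coe, Finset.mem_union, Finset.mem_filter, Finset.mem_image] at hA hB
      rcases hA with ⟨hA1, hA2⟩ | ⟨a, ha, rfl⟩
      · rcases hB with ⟨hB1, hB2⟩ | ⟨c, hc, rfl⟩
        · exact hcomp A hA1 B hB1
        · rw [Finset.mem_filter] at hc
          exact Or.inl ((hA2.trans hc.2).trans le_sup_left)
      · rw [Finset.mem_filter] at ha
        rcases hB with ⟨hB1, hB2⟩ | ⟨c, hc, rfl⟩
        · exact Or.inr ((hB2.trans ha.2).trans le_sup_left)
        · rw [Finset.mem_filter] at hc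
          rcases hcomp a ha.1 c hc.1 with h1 | h1
          · exact Or.inl (sup_le_sup_right h1 L)
          · exact Or.inr (sup_le_sup_right h1 L)
    · intro A hA
      rw [Finset.mem_union, Finset.mem_filter, Finset.mem_image] at hA
      rcases hA with ⟨hA1, hA2⟩ | ⟨a, ha, rfl⟩
      · exact ⟨(hW A hA1).1, (hW A hA1).2.1, (hW A hA1).2.2.1⟩
      · rw [Finset.mem_filter] at ha
        obtain ⟨h1, h2, h3, h4⟩ := hφ t ht a ha.1
        exact ⟨bot_lt_iff_ne_bot.1 (lt_of_le_of_lt bot_le h4), h3, h2⟩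
  have hbdpr : bd (pr (fun W => W ⊔ L) L z') = z' := by
    have h1 := bd_pr (φ := fun W => W ⊔ L) (a := L) hgood
    rw [hbz', map_zero, add_zero] at h1
    exact h1
  have hOnJ : On (TK E H) (s + 1 + 1) (∑ a ∈ Gs, J a (b a)) := by
    apply On.sum
    intro G hG
    obtain ⟨hG1, hG2, hG3, hG4⟩ := hGprop G hG
    refine On.J (K := TK E G) ?_ (hb G hG).1
    intro t ht hGt
    refine ⟨?_, ?_⟩
    · intro A hA B hB hAB
      rw [Finset.mem_coe, Finset.mem_insert] at hA hB
      rcases hA with rfl | hA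
      · rcases hB with rfl | hB
        · exact absurd rfl hAB
        · exact Or.inr (ht.2 B hB).2.1.le
      · rcases hB with rfl | hB
        · exact Or.inl (ht.2 A hA).2.1.le
        · exact ht.1 (by exact_mod_cast hA) (by exact_mod_cast hB) hAB
    · intro W hW
      rw [Finset.mem_insert] at hW
      rcases hW with rfl | hW
      · exact ⟨hG1, hG2, hG3⟩
      · exact ⟨(ht.2 W hW).1, (ht.2 W hW).2.1.trans hG2, (ht.2 W hW).2.2⟩
  refine ⟨(∑ a ∈ Gs, J a (b a)) + pr (fun W => W ⊔ L) L z', hOnJ.add hOnpr, ?_, ?_⟩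
  · rw [map_add, hbdpr, ← hrem, add_comm z, ← add_assoc, ch_add_self, zero_add]
  · have h1 : (∑ a ∈ Gs, J a (b a)).support.card ≤ k * KB s k := by
      refine (Finset.card_le_card Finsupp.support_finsetSum).trans ?_
      refine (Finset.card_biUnion_le_card_mul _ _ (KB s k) ?_).trans
        (Nat.mul_le_mul_right _ hGcard)
      intro G hG
      exact (card_J G (b G)).trans (hb G hG).2.2
    have hOnz' : On (Set.univ : Set (Finset (Submodule F V))) (s + 1) z' :=
      fun t ht => ⟨Set.mem_univ _, (hz'face t ht).1⟩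
    have h2 : (pr (fun W => W ⊔ L) L z').support.card ≤ (s + 1 + 1) * (k * (1 + KB s k)) :=
      (card_pr hOnz').trans (Nat.mul_le_mul_left _ hz'card)
    refine (Finset.card_le_card Finsupp.support_add).trans ?_
    refine (Finset.card_union_le _ _).trans ?_
    refine (Nat.add_le_add h1 h2).trans ?_
    rw [KB]
    generalize KB s k = K
    nlinarith [Nat.zero_le (K * k), Nat.zero_le (K * s), Nat.zero_le (s * k), Nat.zero_le K]

theorem fill_TK {E : ℕ → Submodule F V} (hE : IsFlag E) (s k : ℕ)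
    (hq : KB s k ≤ Fintype.card F) {H : Submodule F V} (hH : Opp E H)
    (hs : s + 2 ≤ finrank F H) : BFill (TK E H) s k (KB s k) := by
  induction s generalizing H with
  | zero => exact fill_TK_zero hE k hq hH hs
  | succ s ih =>
    refine fill_TK_succ hE s k (fun H hH hs => ih ?_ hH hs) hq hH (by omega)
    refine le_trans ?_ hq
    rw [KB]
    calc KB s k ≤ 1 * (KB s k + 1) := by omega
      _ ≤ (s + 3) * (k + 1) * (KB s k + 1) := Nat.mul_le_mul_right _ (Nat.mul_pos (by omega) (by omega))

end Crest.Agent.R66
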