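import Crest.Agent.R66.FDefs

/-!
# Row 66, piece F6: contractions of joins, transport along injections.

PROOF of `contr_join`: for `x` put `x1 = x.filter P`, `x2 = x.filter (¬ P)`; for `y : Finset α` let
`U y : Ch α → Ch α` be the linear map `s ↦ s ∪ y` if `Disjoint s y`, else `0`. Put
`c x = U x2 (c1 x1)`. For `w` supported on sets of `P`-vertices and `y` a set of non-`P`-vertices
`bd (U y w) = U y (bd w) + ∑_{a ∈ y} U (y.erase a) w` (check on a basis element: disjoint union).
`c (bd x) = ∑_{a ∈ x1} U x2 (c1 (x1.erase a)) + ∑_{a ∈ x2} U (x2.erase a) (c1 x1)`, so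
`bd (c x) + c (bd x) = U x2 (bd (c1 x1) + c1 (bd x1)) = U x2 x1 = x`. Sizes: `x1.card ≤ x.card ≤ S`.
PROOF of `contr_transport`: `c' = push f ∘ c ∘ push g`; for `y = x.image f` (`x ∈ K`, `f` injective on
the vertices of `x`, with inverse `g`): `push g y = x`, `push f` commutes with `bd` (`bd_push`), and
`push f` is injective on faces of `K`, preserves card.
-/

set_option autoImplicit false

namespace Crest.Agent.R66

open Finset

variable {α β : Type*} [DecidableEq α] [DecidableEq β]

theorem fj_decomp (z : Ch α) :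
    z = ∑ s ∈ z.support, z s • Finsupp.single s (1 : ZMod 2) := by
  conv_lhs => rw [← Finsupp.sum_single z]
  rw [Finsupp.sum]
  apply Finset.sum_congr rfl
  intro s _
  simp

theorem fj_supp_le (F : Ch α →ₗ[ZMod 2] Ch β) (u : Finset α → Finset β)
    (h : ∀ s, (F (Finsupp.single s 1)).support ⊆ {u s}) (z : Ch α) :
    (F z).support.card ≤ z.support.card := by
  have h1 : (F z).support ⊆ z.support.image u := by
    intro t ht
    by_contra hcon
    rw [Finsupp.mem_support_iff] at ht
    apply ht
    rw [fj_decomp z, map_sum, Finsupp.finsetSum_apply]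
    apply Finset.sum_eq_zero
    intro s hs
    rw [map_smul, Finsupp.smul_apply]
    have : t ∉ (F (Finsupp.single s 1)).support := by
      intro h2
      have h3 := Finset.mem_singleton.1 (h s h2)
      exact hcon (Finset.mem_image.2 ⟨s, hs, h3.symm⟩)
    rw [Finsupp.notMem_support_iff.1 this, smul_zero]
  exact (Finset.card_le_card h1).trans Finset.card_image_le

/-- union with a fixed set, `0` if not disjoint. -/
noncomputable def fjU (y : Finset α) : Ch α →ₗ[ZMod 2] Ch α :=
  Finsupp.linearCombination (ZMod 2) fun s : Finset α =>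
    if Disjoint s y then Finsupp.single (s ∪ y) 1 else 0

theorem fjU_single (y s : Finset α) :
    fjU y (Finsupp.single s (1 : ZMod 2)) =
      if Disjoint s y then Finsupp.single (s ∪ y) 1 else 0 := by
  simp [fjU]

theorem fj_bd_U_single (y s : Finset α) (h : Disjoint s y) :
    bd (fjU y (Finsupp.single s (1 : ZMod 2))) =
      fjU y (bd (Finsupp.single s 1)) + ∑ a ∈ y, fjU (y.erase a) (Finsupp.single s 1) := by
  rw [fjU_single, if_pos h, bd_single, Finset.sum_union h, bd_single, map_sum]
  congr 1
  · apply Finset.sum_congr rfl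
    intro a ha
    have hay : a ∉ y := Finset.disjoint_left.1 h ha
    rw [fjU_single, if_pos (h.mono_left (Finset.erase_subset a s))]
    congr 1
    ext b
    simp only [Finset.mem_erase, Finset.mem_union]
    constructor
    · rintro ⟨h1, h2 | h2⟩
      · exact Or.inl ⟨h1, h2⟩
      · exact Or.inr h2
    · rintro (⟨h1, h2⟩ | h2)
      · exact ⟨h1, Or.inl h2⟩
      · exact ⟨fun e => hay (e ▸ h2), Or.inr h2⟩
  · apply Finset.sum_congr rfl
    intro a ha
    have has : a ∉ s := fun h' => Finset.disjoint_left.1 h h' ha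
    rw [fjU_single, if_pos (h.mono_right (Finset.erase_subset a y))]
    congr 1
    ext b
    simp only [Finset.mem_erase, Finset.mem_union]
    constructor
    · rintro ⟨h1, h2 | h2⟩
      · exact Or.inl h2
      · exact Or.inr ⟨h1, h2⟩
    · rintro (h2 | ⟨h1, h2⟩)
      · exact ⟨fun e => has (e ▸ h2), Or.inl h2⟩
      · exact ⟨h1, Or.inr h2⟩

theorem fj_bd_U (y : Finset α) (w : Ch α) (h : ∀ s ∈ w.support, Disjoint s y) :
    bd (fjU y w) = fjU y (bd w) + ∑ a ∈ y, fjU (y.erase a) w := by
  have e : ∀ (F : Ch α →ₗ[ZMod 2] Ch α), F w =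
      ∑ s ∈ w.support, w s • F (Finsupp.single s (1 : ZMod 2)) := by
    intro F
    conv_lhs => rw [fj_decomp w]
    rw [map_sum]
    exact Finset.sum_congr rfl (fun s _ => by rw [map_smul])
  have e1 := e (bd ∘ₗ fjU y)
  have e2 := e (fjU y ∘ₗ bd + ∑ a ∈ y, fjU (y.erase a))
  simp only [LinearMap.comp_apply] at e1
  simp only [LinearMap.add_apply, LinearMap.comp_apply, LinearMap.sum_apply] at e2
  rw [e1, e2]
  exact Finset.sum_congr rfl (fun s hs => by rw [fj_bd_U_single y s (h s hs)])

theorem contr_join (P : α → Prop) [DecidablePred P] {K1 K2 : Set (Finset α)} {S M : ℕ}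
    (h1 : ∀ x ∈ K1, ∀ a ∈ x, P a) (hc : Contr K1 S M) : Contr (joinP P K1 K2) S M := by
  obtain ⟨c1, hc1⟩ := hc
  let c : Ch α →ₗ[ZMod 2] Ch α := Finsupp.linearCombination (ZMod 2) fun x : Finset α =>
    fjU (x.filter (fun a => ¬ P a)) (c1 (Finsupp.single (x.filter P) 1))
  have hcs : ∀ x : Finset α, c (Finsupp.single x 1) =
      fjU (x.filter (fun a => ¬ P a)) (c1 (Finsupp.single (x.filter P) 1)) := by
    intro x; simp [c]
  refine ⟨c, fun x hx hxS => ?_⟩
  have hx1 : x.filter P ∈ K1 := hx.1
  have hx2 : x.filter (fun a => ¬ P a) ∈ K2 := hx.2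
  have hcard : (x.filter P).card + (x.filter (fun a => ¬ P a)).card = x.card :=
    Finset.card_filter_add_card_filter_not P
  obtain ⟨hOn, hid, hM⟩ := hc1 _ hx1 (by omega)
  have hdis : ∀ s ∈ K1, Disjoint s (x.filter (fun a => ¬ P a)) := by
    intro s hs
    rw [Finset.disjoint_left]
    intro a ha ha2
    exact (Finset.mem_filter.1 ha2).2 (h1 s hs a ha)
  refine ⟨?_, ?_, ?_⟩
  · rw [hcs]
    refine On.map (fjU _) hOn ?_
    intro s hs hsc
    rw [fjU_single, if_pos (hdis s hs)]
    refine On.single ?_ ?_ 1
    · have e1 : (s ∪ x.filter (fun a => ¬ P a)).filter P = s := by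
        ext b
        simp only [Finset.mem_filter, Finset.mem_union]
        constructor
        · rintro ⟨h2 | h2, h3⟩
          · exact h2
          · exact absurd h3 h2.2
        · intro h2
          exact ⟨Or.inl h2, h1 s hs b h2⟩
      have e2 : (s ∪ x.filter (fun a => ¬ P a)).filter (fun a => ¬ P a) =
          x.filter (fun a => ¬ P a) := by
        ext b
        simp only [Finset.mem_filter, Finset.mem_union]
        constructor
        · rintro ⟨h2 | h2, h3⟩
          · exact absurd (h1 s hs b h2) h3
          · exact h2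
        · intro h2
          exact ⟨Or.inr h2, h2.2⟩
      show _ ∧ _
      rw [e1, e2]
      exact ⟨hs, hx2⟩
    · rw [Finset.card_union_of_disjoint (hdis s hs), hsc]
      omega
  · have hsplit : ∀ f : α → Ch α, ∑ a ∈ x, f a =
        ∑ a ∈ x.filter P, f a + ∑ a ∈ x.filter (fun a => ¬ P a), f a := by
      intro f
      exact (Finset.sum_filter_add_sum_filter_not x P f).symm
    have hA : c (bd (Finsupp.single x 1)) =
        fjU (x.filter (fun a => ¬ P a)) (c1 (bd (Finsupp.single (x.filter P) 1))) +
        ∑ a ∈ x.filter (fun a => ¬ P a), fjU ((x.filter (fun a => ¬ P a)).erase a)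
          (c1 (Finsupp.single (x.filter P) 1)) := by
      rw [bd_single, map_sum, hsplit, bd_single, map_sum, map_sum]
      congr 1
      · apply Finset.sum_congr rfl
        intro a ha
        have hPa := (Finset.mem_filter.1 ha).2
        rw [hcs]
        have e1 : (x.erase a).filter P = (x.filter P).erase a := by
          ext b; simp only [Finset.mem_filter, Finset.mem_erase]; tauto
        have e2 : (x.erase a).filter (fun a => ¬ P a) = x.filter (fun a => ¬ P a) := by
          ext b
          simp only [Finset.mem_filter, Finset.mem_erase]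
          constructor
          · rintro ⟨⟨_, h3⟩, h4⟩; exact ⟨h3, h4⟩
          · rintro ⟨h3, h4⟩; exact ⟨⟨fun e => h4 (e ▸ hPa), h3⟩, h4⟩
        rw [e1, e2]
      · apply Finset.sum_congr rfl
        intro a ha
        have hPa := (Finset.mem_filter.1 ha).2
        rw [hcs]
        have e1 : (x.erase a).filter P = x.filter P := by
          ext b
          simp only [Finset.mem_filter, Finset.mem_erase]
          constructor
          · rintro ⟨⟨_, h3⟩, h4⟩; exact ⟨h3, h4⟩
          · rintro ⟨h3, h4⟩; exact ⟨⟨fun e => hPa (e ▸ h4), h3⟩, h4⟩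
        have e2 : (x.erase a).filter (fun a => ¬ P a) =
            (x.filter (fun a => ¬ P a)).erase a := by
          ext b; simp only [Finset.mem_filter, Finset.mem_erase]; tauto
        rw [e1, e2]
    rw [hA, hcs, fj_bd_U _ _ (fun s hs => hdis s (hOn s hs).1)]
    have hB : fjU (x.filter (fun a => ¬ P a)) (bd (c1 (Finsupp.single (x.filter P) 1))) +
        fjU (x.filter (fun a => ¬ P a)) (c1 (bd (Finsupp.single (x.filter P) 1))) =
        Finsupp.single x 1 := by
      rw [← map_add, hid, fjU_single, if_pos (hdis _ hx1), Finset.filter_union_filter_not_eq]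
    have hC := ch_add_self (∑ a ∈ x.filter (fun a => ¬ P a),
      fjU ((x.filter (fun a => ¬ P a)).erase a) (c1 (Finsupp.single (x.filter P) 1)))
    calc _ = (fjU (x.filter (fun a => ¬ P a)) (bd (c1 (Finsupp.single (x.filter P) 1))) +
        fjU (x.filter (fun a => ¬ P a)) (c1 (bd (Finsupp.single (x.filter P) 1)))) +
        (∑ a ∈ x.filter (fun a => ¬ P a),
          fjU ((x.filter (fun a => ¬ P a)).erase a) (c1 (Finsupp.single (x.filter P) 1)) +
        ∑ a ∈ x.filter (fun a => ¬ P a),
          fjU ((x.filter (fun a => ¬ P a)).erase a) (c1 (Finsupp.single (x.filter P) 1))) := by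
          abel
      _ = _ := by rw [hB, hC, add_zero]
  · rw [hcs]
    refine le_trans (fj_supp_le (fjU _) (fun s => s ∪ x.filter (fun a => ¬ P a)) ?_ _) hM
    intro s
    rw [fjU_single]
    split_ifs
    · exact Finsupp.support_single_subset
    · simp

theorem contr_transport {K : Set (Finset α)} {S M : ℕ} (f : α → β) (g : β → α)
    (hgf : ∀ x ∈ K, ∀ a ∈ x, g (f a) = a) (hc : Contr K S M) :
    Contr {y : Finset β | ∃ x ∈ K, y = x.image f} S M := by
  classical
  obtain ⟨c, hc⟩ := hc
  have hinj : ∀ x ∈ K, Set.InjOn f (x : Set α) := by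
    intro x hx a ha b hb hab
    have h1 := hgf x hx a (by exact_mod_cast ha)
    have h2 := hgf x hx b (by exact_mod_cast hb)
    rw [← h1, ← h2, hab]
  refine ⟨push f ∘ₗ c ∘ₗ push g, ?_⟩
  rintro y ⟨x, hx, rfl⟩ hy
  have hcard : (x.image f).card = x.card := Finset.card_image_of_injOn (hinj x hx)
  have hpg : push g (Finsupp.single (x.image f) (1 : ZMod 2)) = Finsupp.single x 1 := by
    rw [push_single, if_pos]
    · congr 1
      ext a
      simp only [Finset.mem_image, exists_exists_and_eq_and]
      constructor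
      · rintro ⟨b, hb, rfl⟩
        rwa [hgf x hx b hb]
      · intro ha
        exact ⟨a, ha, hgf x hx a ha⟩
    · intro a ha b hb hab
      have ha' : a ∈ x.image f := by exact_mod_cast ha
      have hb' : b ∈ x.image f := by exact_mod_cast hb
      obtain ⟨a', ha'', rfl⟩ := Finset.mem_image.1 ha'
      obtain ⟨b', hb'', rfl⟩ := Finset.mem_image.1 hb'
      rw [hgf x hx a' ha'', hgf x hx b' hb''] at hab
      rw [hab]
  obtain ⟨hOn, hid, hM⟩ := hc x hx (by omega)
  have hpf : ∀ s ∈ K, push f (Finsupp.single s (1 : ZMod 2)) = Finsupp.single (s.image f) 1 := by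
    intro s hs
    rw [push_single, if_pos (hinj s hs)]
  refine ⟨?_, ?_, ?_⟩
  · simp only [LinearMap.comp_apply]
    rw [hpg, hcard]
    refine On.map (push f) hOn ?_
    intro s hs hsc
    rw [hpf s hs]
    have hmem : s.image f ∈ {y : Finset β | ∃ x ∈ K, y = x.image f} := ⟨s, hs, rfl⟩
    exact On.single hmem (by rw [Finset.card_image_of_injOn (hinj s hs), hsc]) 1
  · simp only [LinearMap.comp_apply]
    rw [← bd_push, hpg, bd_push, ← map_add, hid, hpf x hx]
  · simp only [LinearMap.comp_apply]
    rw [hpg]
    refine le_trans (fj_supp_le (push f) (fun s => s.image f) ?_ _) hM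
    intro s
    rw [push_single]
    split_ifs
    · exact Finsupp.support_single_subset
    · simp

end Crest.Agent.R66
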