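import Crest.Agent.R66.FDefs

/-!
# Row 66, piece F1: the prism identity for chains in a partial order.

PROOF. `pr_insert`: for `x ∈ t` the term of `insert m t` at `x` is
`(t.filter (≤ x)) ∪ insert (φ m) ((t.filter (x ≤ ·)).image φ)`, i.e. `insert (φ m)` of the term of `t`
at `x`, and `φ m` is not in the latter (`y < m < φ m` for `y ∈ t`, `φ y < φ m`); the term at `x = m` is
`insert (φ m) (insert m t)`; the cone term is `insert (φ m) (insert a (t.image φ))`, `a ≠ φ m`.
`bd_pr_single`: induction on the card of `s`; `s = ∅`: `bd {a} = ∅`, `bd ∅ = 0`.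
`s = insert m t`, `m` the maximum: by `bd_J'`,
`bd (pr s) = pr t + J m t + J (φ m) (bd (pr t) + bd (J m t))
 = pr t + J m t + J (φ m) (t + pr (bd t) + t + J m (bd t))`, and `pr (bd s) = pr t + pr (J m (bd t))`
with `pr (J m (bd t)) = J (φ m) (pr (bd t)) + J (φ m) (J m (bd t))` (by `pr_insert` on each `insert m (t.erase x)`).
`bd_pr`: linearity.  `card_pr`: a chain of size `n` gives at most `n + 1` terms.
`On_pr`: the term at `x` has card `n + 1` because the sets `{y ≤ x}`, `φ {y ≥ x}` are disjoint
(`y ≤ x < φ x ≤ φ y'`) and `φ` is injective on `s`.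
-/

set_option autoImplicit false
set_option linter.unusedSectionVars false

namespace Crest.Agent.R66

open Finset

variable {α : Type*} [DecidableEq α] [PartialOrder α]

theorem pr_single (φ : α → α) (a : α) (s : Finset α) :
    pr φ a (Finsupp.single s (1 : ZMod 2)) = prS φ a s := by
  simp [pr]

open scoped Classical in
theorem PrGood.notMem_left {φ : α → α} {a m : α} {t : Finset α} (h : PrGood φ a (insert m t))
    (hm : ∀ y ∈ t, y < m) {x : α} :
    φ m ∉ t.filter (fun y => y ≤ x) ∪ (t.filter (fun y => x ≤ y)).image φ := by
  classical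
  intro hmem
  rcases mem_union.1 hmem with h1 | h1
  · have h2 := (mem_filter.1 h1).1
    exact lt_irrefl _ ((hm _ h2).trans (h.lt m (mem_insert_self m t)))
  · obtain ⟨y, hy, e⟩ := mem_image.1 h1
    have hy' := (mem_filter.1 hy).1
    have := h.mono y (mem_insert_of_mem hy') m (mem_insert_self m t) (hm y hy')
    exact absurd e this.ne

theorem pr_insert {φ : α → α} {a m : α} {t : Finset α} (h : PrGood φ a (insert m t))
    (hm : ∀ y ∈ t, y < m) :
    pr φ a (Finsupp.single (insert m t) (1 : ZMod 2)) =
      J (φ m) (pr φ a (Finsupp.single t 1)) + J (φ m) (J m (Finsupp.single t 1)) := by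
  classical
  have hmt : m ∉ t := fun h' => lt_irrefl _ (hm m h')
  have hφm : φ m ∉ insert m t := by
    intro h'
    rcases mem_insert.1 h' with e | h2
    · exact absurd e (h.lt m (mem_insert_self m t)).ne'
    · exact lt_irrefl _ ((hm _ h2).trans (h.lt m (mem_insert_self m t)))
  have hc : φ m ∉ insert a (t.image φ) := by
    intro h'
    rcases mem_insert.1 h' with e | h2
    · exact absurd e (h.apex m (mem_insert_self m t)).ne'
    · obtain ⟨y, hy, e⟩ := mem_image.1 h2
      exact absurd e (h.mono y (mem_insert_of_mem hy) m (mem_insert_self m t) (hm y hy)).ne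
  rw [pr_single, pr_single, J_single_notMem hmt, J_single_notMem hφm]
  unfold prS
  rw [sum_insert hmt, map_add, map_sum, J_single_notMem hc]
  have e1 : ((insert m t).filter (fun y => y ≤ m) ∪
      ((insert m t).filter (fun y => m ≤ y)).image φ) = insert (φ m) (insert m t) := by
    have a1 : (insert m t).filter (fun y => y ≤ m) = insert m t := by
      apply filter_true_of_mem
      intro y hy
      rcases mem_insert.1 hy with rfl | hy
      · exact le_rfl
      · exact (hm y hy).le
    have a2 : (insert m t).filter (fun y => m ≤ y) = {m} := by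
      ext y
      rw [mem_filter, mem_insert, mem_singleton]
      constructor
      · rintro ⟨rfl | hy, hy'⟩
        · rfl
        · exact absurd hy' (hm y hy).not_ge
      · rintro rfl
        exact ⟨Or.inl rfl, le_rfl⟩
    rw [a1, a2, image_singleton, union_comm]
    rfl
  have e2 : ∀ x ∈ t, Finsupp.single ((insert m t).filter (fun y => y ≤ x) ∪
      ((insert m t).filter (fun y => x ≤ y)).image φ) (1 : ZMod 2) =
      J (φ m) (Finsupp.single (t.filter (fun y => y ≤ x) ∪
        (t.filter (fun y => x ≤ y)).image φ) 1) := by
    intro x hx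
    rw [J_single_notMem (h.notMem_left hm)]
    have a1 : (insert m t).filter (fun y => y ≤ x) = t.filter (fun y => y ≤ x) := by
      rw [filter_insert, if_neg (hm x hx).not_ge]
    have a2 : (insert m t).filter (fun y => x ≤ y) = insert m (t.filter (fun y => x ≤ y)) := by
      rw [filter_insert, if_pos (hm x hx).le]
    rw [a1, a2, image_insert, union_insert]
  rw [e1, sum_congr rfl e2]
  have e3 : insert a ((insert m t).image φ) = insert (φ m) (insert a (t.image φ)) := by
    rw [image_insert, insert_comm]
  rw [e3]
  abel

theorem exists_max {s : Finset α} (hc : IsChain (· ≤ ·) (s : Set α)) (hs : s.Nonempty) :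
    ∃ m t, s = insert m t ∧ m ∉ t ∧ ∀ y ∈ t, y < m := by
  obtain ⟨m, hm⟩ := s.exists_maximal hs
  refine ⟨m, s.erase m, (insert_erase hm.1).symm, notMem_erase m s, fun y hy => ?_⟩
  have hy' := mem_erase.1 hy
  rcases hc (mem_coe.2 hy'.2) (mem_coe.2 hm.1) hy'.1 with h | h
  · exact lt_of_le_of_ne h hy'.1
  · exact absurd (le_antisymm (hm.2 hy'.2 h) h) hy'.1

theorem bd_pr_single {φ : α → α} {a : α} {s : Finset α} (h : PrGood φ a s) :
    bd (pr φ a (Finsupp.single s (1 : ZMod 2))) + pr φ a (bd (Finsupp.single s 1)) =
      Finsupp.single s 1 := by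
  classical
  induction hn : s.card generalizing s with
  | zero =>
    rw [card_eq_zero] at hn
    subst hn
    rw [bd_single, pr_single]
    simp [prS, bd_single]
  | succ n ih =>
    obtain ⟨m, t, rfl, hmt, hm⟩ := exists_max h.chain (card_pos.1 (by omega))
    have ht : PrGood φ a t := h.subset (subset_insert m t)
    have hcard : t.card = n := by rw [card_insert_of_notMem hmt] at hn; omega
    have IH := ih ht hcard
    have hJ : Finsupp.single (insert m t) (1 : ZMod 2) = J m (Finsupp.single t 1) :=
      (J_single_notMem hmt).symm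
    have h1 : pr φ a (J m (bd (Finsupp.single t (1 : ZMod 2)))) =
        J (φ m) (pr φ a (bd (Finsupp.single t 1))) + J (φ m) (J m (bd (Finsupp.single t 1))) := by
      rw [bd_single]
      simp only [map_sum]
      rw [← sum_add_distrib]
      apply sum_congr rfl
      intro x hx
      have hmx : m ∉ t.erase x := fun h' => hmt (mem_of_mem_erase h')
      have := pr_insert (φ := φ) (a := a) (m := m) (t := t.erase x)
        (h.subset (insert_subset_insert m (erase_subset x t)))
        (fun y hy => hm y (mem_of_mem_erase hy))
      rw [← this, J_single_notMem hmx]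
    have h2 : bd (Finsupp.single (insert m t) (1 : ZMod 2)) =
        Finsupp.single t 1 + J m (bd (Finsupp.single t 1)) := by
      rw [hJ, bd_J']
    have h3 : bd (pr φ a (Finsupp.single t (1 : ZMod 2))) =
        Finsupp.single t 1 + pr φ a (bd (Finsupp.single t 1)) := by
      calc bd (pr φ a (Finsupp.single t (1 : ZMod 2)))
          = bd (pr φ a (Finsupp.single t (1 : ZMod 2))) + pr φ a (bd (Finsupp.single t 1)) +
            pr φ a (bd (Finsupp.single t 1)) := by rw [add_assoc, ch_add_self, add_zero]
        _ = _ := by rw [IH]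
    rw [h2, map_add, h1, pr_insert h hm, map_add, bd_J', bd_J', bd_J', h3, hJ]
    generalize pr φ a (Finsupp.single t (1 : ZMod 2)) = A
    generalize pr φ a (bd (Finsupp.single t (1 : ZMod 2))) = B
    generalize J m (Finsupp.single t (1 : ZMod 2)) = C
    generalize J m (bd (Finsupp.single t (1 : ZMod 2))) = D
    simp only [map_add]
    generalize J (φ m) (Finsupp.single t (1 : ZMod 2)) = E
    generalize J (φ m) B = G
    generalize J (φ m) D = H
    have e : A + (E + G) + (C + (E + H)) + (A + (G + H)) =
      C + ((A + A) + (E + E) + (G + G) + (H + H)) := by abel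
    rw [e]
    simp only [ch_add_self, add_zero]

theorem ch_sum_single (z : Ch α) :
    z = ∑ s ∈ z.support, z s • Finsupp.single s (1 : ZMod 2) := by
  conv_lhs => rw [← Finsupp.sum_single z]
  rw [Finsupp.sum]
  apply Finset.sum_congr rfl
  intro s _
  simp

theorem bd_pr {φ : α → α} {a : α} {z : Ch α} (h : ∀ s ∈ z.support, PrGood φ a s) :
    bd (pr φ a z) + pr φ a (bd z) = z := by
  conv_lhs => rw [ch_sum_single z]
  conv_rhs => rw [ch_sum_single z]
  simp only [map_sum, map_smul]
  rw [← sum_add_distrib]
  apply sum_congr rfl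
  intro s hs
  rw [← smul_add, bd_pr_single (h s hs)]

theorem card_support_sum_le {ι : Type*} (t : Finset ι) (f : ι → Ch α) (B : ℕ)
    (h : ∀ i ∈ t, (f i).support.card ≤ B) : (∑ i ∈ t, f i).support.card ≤ t.card * B := by
  classical
  induction t using Finset.induction_on with
  | empty => simp
  | insert i t hi ih =>
    rw [sum_insert hi, card_insert_of_notMem hi]
    have h1 := Finsupp.support_add (g₁ := f i) (g₂ := ∑ j ∈ t, f j)
    have h2 := (card_le_card h1).trans (card_union_le _ _)
    have h3 := ih fun j hj => h j (mem_insert_of_mem hj)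
    have h4 := h i (mem_insert_self i t)
    calc _ ≤ _ := h2
      _ ≤ B + t.card * B := Nat.add_le_add h4 h3
      _ = _ := by ring

open scoped Classical in
theorem card_prS (φ : α → α) (a : α) (s : Finset α) :
    (prS φ a s).support.card ≤ s.card + 1 := by
  unfold prS
  have h1 := Finsupp.support_add (g₁ := ∑ x ∈ s, Finsupp.single (s.filter (fun y => y ≤ x) ∪
    (s.filter (fun y => x ≤ y)).image φ) (1 : ZMod 2))
    (g₂ := Finsupp.single (insert a (s.image φ)) (1 : ZMod 2))
  have hs : ∀ u : Finset α, (Finsupp.single u (1 : ZMod 2)).support.card ≤ 1 := by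
    intro u
    exact (card_le_card Finsupp.support_single_subset).trans (card_singleton u).le
  have h2 := (card_le_card h1).trans (card_union_le _ _)
  have h3 := card_support_sum_le s (fun x => Finsupp.single (s.filter (fun y => y ≤ x) ∪
    (s.filter (fun y => x ≤ y)).image φ) (1 : ZMod 2)) 1 (fun i _ => hs _)
  have h4 := hs (insert a (s.image φ))
  omega

theorem card_pr {φ : α → α} {a : α} {K : Set (Finset α)} {n : ℕ} {z : Ch α} (hz : On K n z) :
    (pr φ a z).support.card ≤ (n + 1) * z.support.card := by
  conv_lhs => rw [ch_sum_single z]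
  rw [map_sum, mul_comm]
  apply card_support_sum_le
  intro s hs
  rw [map_smul, pr_single]
  have h1 := card_prS φ a s
  rw [(hz s hs).2] at h1
  exact (card_le_card Finsupp.support_smul).trans h1

open scoped Classical in
theorem On_pr {φ : α → α} {a : α} {K : Set (Finset α)} {n : ℕ} {z : Ch α}
    (hz : ∀ s ∈ z.support, s.card = n ∧ PrGood φ a s ∧ insert a (s.image φ) ∈ K ∧
      ∀ x ∈ s, (s.filter (fun y => y ≤ x) ∪ (s.filter (fun y => x ≤ y)).image φ) ∈ K) :
    On K (n + 1) (pr φ a z) := by
  rw [ch_sum_single z, map_sum]
  apply On.sum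
  intro s hs
  obtain ⟨hn, hg, hc, hx⟩ := hz s hs
  rw [map_smul, pr_single]
  have hinj : Set.InjOn φ (s : Set α) := by
    intro x hx y hy e
    by_contra hne
    rcases hg.chain hx hy hne with h | h
    · exact absurd e (hg.mono x hx y hy (lt_of_le_of_ne h hne)).ne
    · exact absurd e (hg.mono y hy x hx (lt_of_le_of_ne h (Ne.symm hne))).ne'
  have key : On K (n + 1) (prS φ a s) := by
    unfold prS
    apply On.add
    · apply On.sum
      intro x hxs
      refine On.single (hx x hxs) ?_ 1
      rw [card_union_of_disjoint, card_image_of_injOn (hinj.mono (by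
        intro y hy; exact (mem_filter.1 (mem_coe.1 hy)).1))]
      · have h1 : (s.filter (fun y => y ≤ x)) ∪ (s.filter (fun y => x ≤ y)) = s := by
          ext y
          rw [mem_union, mem_filter, mem_filter]
          constructor
          · rintro (h | h) <;> exact h.1
          · intro hy
            by_cases e : y = x
            · exact Or.inl ⟨hy, e.le⟩
            · rcases hg.chain hy hxs e with h | h
              · exact Or.inl ⟨hy, h⟩
              · exact Or.inr ⟨hy, h⟩
        have h2 : (s.filter (fun y => y ≤ x)) ∩ (s.filter (fun y => x ≤ y)) = {x} := by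
          ext y
          rw [mem_inter, mem_filter, mem_filter, mem_singleton]
          constructor
          · rintro ⟨h, h'⟩
            exact le_antisymm h.2 h'.2
          · rintro rfl
            exact ⟨⟨hxs, le_rfl⟩, ⟨hxs, le_rfl⟩⟩
        have h3 := card_union_add_card_inter (s.filter (fun y => y ≤ x)) (s.filter (fun y => x ≤ y))
        rw [h1, h2, card_singleton, hn] at h3
        exact h3.symm
      · rw [disjoint_left]
        intro u hu hu'
        obtain ⟨y, hy, e⟩ := mem_image.1 hu'
        have h1 := (mem_filter.1 hu).2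
        have h2 := mem_filter.1 hy
        have h3 := hg.lt y h2.1
        rw [e] at h3
        exact absurd (h1.trans h2.2) h3.not_ge
    · refine On.single hc ?_ 1
      rw [card_insert_of_notMem, card_image_of_injOn hinj, hn]
      intro h'
      obtain ⟨y, hy, e⟩ := mem_image.1 h'
      exact absurd e (hg.apex y hy).ne'
  intro t ht
  apply key t
  rw [Finsupp.mem_support_iff] at ht ⊢
  intro h0; apply ht; simp [h0]

end Crest.Agent.R66
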