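import Crest.Agent.R66.Assemble
import Crest.Agent.R66.BMain
import Crest.Agent.R66.DGFacts

/-!
# Row 66: final assembly (helper58)

`final_of`: S0088 from the three remaining inputs: `hgen` (generation of `Gq` by the root groups),
`hloc` (vertex links of `chams (Aq F m n)` are the opposite flag complexes `Yc F m`),
`hvan` (part C).
-/

set_option autoImplicit false

namespace Crest.Agent.R66

open Finset Crest.CombinatoricsR.Cochain

theorem ACone.mono_eps {V : Type} [Fintype V] [DecidableEq V] {C : Finset (Finset V)} {d : ℕ}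
    {C1 e e' : ℝ} (h : ACone C d C1 e) (he : e ≤ e') : ACone C d C1 e' := by
  intro σ h1 h2 r h3 h4 g
  obtain ⟨k, hk⟩ := h σ h1 h2 r h3 h4 g
  refine ⟨k, hk.trans ?_⟩
  have : e * (wt C σ : ℝ) ≤ e' * (wt C σ : ℝ) := mul_le_mul_of_nonneg_right he (by positivity)
  linarith

/-- S0088 from the remaining inputs. -/
theorem final_of (d : ℕ) (hd : 1 ≤ d)
    (hgen : ∀ (F : Type) [Field F] [Fintype F] (m n : ℕ) [NeZero m], 3 ≤ m → 2 ≤ n →
      KJ (Aq F m n) Finset.univ = ⊤)
    (hloc : ∀ (F : Type) [Field F] [Fintype F] (m n : ℕ) [NeZero m], 3 ≤ m → 2 ≤ n →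
      ∀ v : CV (Aq F m n), 0 < wt (chams (Aq F m n)) {v} →
        B.CIso (lk (chams (Aq F m n)) {v}) (B.Yc F m))
    (hvan : ∃ m0 : ℕ, ∀ m ≥ m0, ∃ q0 : ℕ, ∀ (F : Type) [Field F] [Fintype F],
      q0 ≤ Fintype.card F → Odd (Fintype.card F) → ∀ (n : ℕ) [NeZero m], 2 ≤ n →
        Van (chams (Aq F m n)) d) :
    ∃ D : ℕ, ∃ ε : ℝ, 0 < ε ∧ ∀ N : ℕ, ∃ n : ℕ, ∃ T : Finset (Finset (Fin n)), N ≤ n ∧
      (∀ τ ∈ T, τ.card = d + 1) ∧
      (∀ v : Fin n, 1 ≤ vertexDegree T v ∧ vertexDegree T v ≤ D) ∧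
      (skeleton T).Connected ∧
      ∀ i : ℕ, i < d → ∀ f : Finset (Fin n) → ZMod 2,
        ∃ b : Finset (Fin n) → ZMod 2, IsCoboundaryClass i b ∧
          ε * cochainNorm d T i (f - b) ≤ cochainNorm d T (i + 1) (coboundary i f) := by
  classical
  obtain ⟨m0, hvan⟩ := hvan
  set m : ℕ := max m0 (d + 2) with hm
  have hm1 : d + 2 ≤ m := le_max_right _ _
  have hm3 : 3 ≤ m := by omega
  haveI : NeZero m := ⟨by omega⟩
  obtain ⟨q1, hvan⟩ := hvan m (le_max_left _ _)
  apply assemble d hd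
  refine ⟨m, hm1, B.K1 m d, fun lam hlam eps heps => ?_⟩
  obtain ⟨q2, hmix⟩ := mix_Aq m d hm3 hm1 lam hlam
  obtain ⟨q3, hq3⟩ := exists_nat_gt (B.K2 m d / eps)
  obtain ⟨p, hp, hprime⟩ := Nat.exists_infinite_primes (max (max q1 q2) (max q3 3))
  haveI : Fact p.Prime := ⟨hprime⟩
  have hp1 : q1 ≤ p := by
    have := le_max_left (max q1 q2) (max q3 3)
    have := le_max_left q1 q2
    omega
  have hp2 : q2 ≤ p := by
    have := le_max_left (max q1 q2) (max q3 3)
    have := le_max_right q1 q2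
    omega
  have hp3 : q3 ≤ p := by
    have := le_max_right (max q1 q2) (max q3 3)
    have := le_max_left q3 3
    omega
  have hp4 : 3 ≤ p := by
    have := le_max_right (max q1 q2) (max q3 3)
    have := le_max_right q3 3
    omega
  have hcard : Fintype.card (ZMod p) = p := ZMod.card p
  have hodd : Odd (Fintype.card (ZMod p)) := by
    rw [hcard]
    exact hprime.odd_of_ne_two (by omega)
  refine ⟨p ^ (m * m), fun N => ?_⟩
  set n : ℕ := m * m + N + 2 with hn
  have hn2 : 2 ≤ n := by omega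
  have hI : IntP (Aq (ZMod p) m n) := intP_Aq hn2 (hgen (ZMod p) m n hm3 hn2)
  refine ⟨CV (Aq (ZMod p) m n), inferInstance, inferInstance, chams (Aq (ZMod p) m n),
    ?_, ?_, ?_, ?_, ?_, ?_⟩
  · have h1 := card_big (F := ZMod p) (m := m) (n := n) hm3
    rw [hcard] at h1
    have h2 : p ^ n = p ^ (N + 2) * p ^ (m * m) := by rw [← pow_add]; congr 1; omega
    rw [h2] at h1
    have h3 : 0 < p ^ (m * m) := pow_pos (by omega) _
    have h4 : p ^ (N + 2) ≤ Fintype.card (CV (Aq (ZMod p) m n)) := Nat.le_of_mul_le_mul_right h1 h3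
    have h5 : N + 2 < p ^ (N + 2) := Nat.lt_pow_self (by omega)
    omega
  · intro c hc
    rw [card_of_mem_chams hc, Fintype.card_fin]
  · intro v
    have := wt_vertex (F := ZMod p) (m := m) (n := n) hn2 hI v
    rwa [hcard] at this
  · have h1 := B.acone_of_local (F := ZMod p) (m := m) (chams (Aq (ZMod p) m n)) d hm1
      (fun v hv => hloc (ZMod p) m n hm3 hn2 v hv)
    refine h1.mono_eps ?_
    rw [hcard]
    have hp0 : (0 : ℝ) < p := by exact_mod_cast (by omega : 0 < p)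
    rw [div_le_iff₀ hp0]
    have h2 : B.K2 m d / eps < p := hq3.trans_le (by exact_mod_cast hp3)
    rw [div_lt_iff₀ heps] at h2
    linarith
  · exact hmix (ZMod p) (by rw [hcard]; exact hp2) n hn2 hI
  · exact hvan (ZMod p) (by rw [hcard]; exact hp1) hodd n hn2

end Crest.Agent.R66
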