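import Crest.Agent.R66.Final
import Crest.Agent.R66.DGTop
import Crest.Agent.R66.BGlueD

/-!
# Row 66: final assembly, part 2 (helper58): everything except part (C)
-/

set_option autoImplicit false

namespace Crest.Agent.R66

open Finset Crest.CombinatoricsR.Cochain

/-- S0088 from part (C). -/
theorem final_of_van (d : ℕ) (hd : 1 ≤ d)
    (hvan : ∃ m0 : ℕ, ∀ m ≥ m0, ∃ q0 : ℕ, ∀ (F : Type) [Field F] [Fintype F],
      q0 ≤ Fintype.card F → Odd (Fintype.card F) → ∀ (n : ℕ) [NeZero m], 2 ≤ n →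
        Van (chams (Aq F m n)) d) :
    ∃ D : ℕ, ∃ ε : ℝ, 0 < ε ∧ ∀ N : ℕ, ∃ n : ℕ, ∃ T : Finset (Finset (Fin n)), N ≤ n ∧
      (∀ τ ∈ T, τ.card = d + 1) ∧
      (∀ v : Fin n, 1 ≤ vertexDegree T v ∧ vertexDegree T v ≤ D) ∧
      (skeleton T).Connected ∧
      ∀ i : ℕ, i < d → ∀ f : Finset (Fin n) → ZMod 2,
        ∃ b : Finset (Fin n) → ZMod 2, IsCoboundaryClass i b ∧
          ε * cochainNorm d T i (f - b) ≤ cochainNorm d T (i + 1) (coboundary i f) :=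
  final_of d hd (fun _ _ _ _ n _ hm _ => gen_Gq hm n) (fun _ _ _ _ _ _ _ hn v _ => B.local_Gq hn v)
    hvan

end Crest.Agent.R66
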