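import Crest.Agent.R66.LDef

/-!
# Row 66, piece L_BM: the degree sets `BM M` (helper62)

PROOFS. All immediate except `BM_le`: let `v ∈ M`; by strong induction on (degree of `v`) `- a`
(support of `v` is contained in `(a, ∞)`): if `v ≠ 0` let `b = max` of the support; `b ∈ BM M ⊆ BM M'`,
so there is `w ∈ M'` with leading index `b`; `v - (v b / w b) • w ∈ M` has smaller degree (or is 0),
hence is in `M'`, so `v ∈ M'`.
`BM_card`: the set `B = BM M` satisfies `B + m ⊆ B`, `Ioi b ⊆ B ⊆ Ioi a`; `BM (shS m M) = B + m`;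
every residue class mod `m` contains exactly one element of `B \ (B + m)` (its smallest element in
`B`), so `x ↦ x mod m` is a bijection from `B \ (B + m)` onto the residues.
-/

set_option autoImplicit false
set_option linter.unusedSectionVars false

namespace Crest.Agent.R66

variable {F : Type*} [Field F] {m : ℕ}

theorem BM_mono {M M' : Submodule F (VV F)} (h : M ≤ M') : BM M ⊆ BM M' := by
  rintro b ⟨v, hv, h1, h2⟩
  exact ⟨v, h hv, h1, h2⟩

theorem mem_BM_shS {M : Submodule F (VV F)} {c b : ℤ} : b ∈ BM (shS c M) ↔ b - c ∈ BM M := by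
  constructor
  · rintro ⟨v, hv, h1, h2⟩
    refine ⟨sh (-c) v, mem_shS.1 hv, ?_, ?_⟩
    · rw [sh_apply, sub_neg_eq_add, sub_add_cancel]
      exact h1
    · intro j hj
      rw [sh_apply, sub_neg_eq_add]
      exact h2 _ (by omega)
  · rintro ⟨v, hv, h1, h2⟩
    refine ⟨sh c v, sh_mem_shS.2 hv, ?_, ?_⟩
    · rw [sh_apply]
      exact h1
    · intro j hj
      rw [sh_apply]
      exact h2 _ (by omega)

theorem BM_EE (i : ℤ) : BM (EE i : Submodule F (VV F)) = Set.Ioi i := by
  ext b
  rw [Set.mem_Ioi]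
  constructor
  · rintro ⟨v, hv, h1, _⟩
    by_contra hc
    exact h1 (hv b (by omega))
  · intro hb
    refine ⟨Finsupp.single b 1, ?_, ?_, ?_⟩
    · intro j hj
      rw [Finsupp.single_apply, if_neg (by omega)]
    · rw [Finsupp.single_apply, if_pos rfl]
      exact one_ne_zero
    · intro j hj
      rw [Finsupp.single_apply, if_neg (by omega)]

theorem BM_le {M M' : Submodule F (VV F)} {a : ℤ} (h : M' ≤ M) (ha : M ≤ EE a)
    (hB : BM M ⊆ BM M') : M ≤ M' := by
  have key : ∀ n : ℕ, ∀ v ∈ M, (∀ j, a + n < j → v j = 0) → v ∈ M' := by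
    intro n
    induction n with
    | zero =>
      intro v hv h0
      have hz : v = 0 := by
        ext j
        rw [Finsupp.zero_apply]
        by_cases hj : j ≤ a
        · exact ha hv j hj
        · exact h0 j (by push_cast; omega)
      rw [hz]
      exact M'.zero_mem
    | succ n ih =>
      intro v hv h0
      by_cases hb : v (a + n + 1) = 0
      · refine ih v hv fun j hj => ?_
        by_cases hj2 : j = a + n + 1
        · rw [hj2]
          exact hb
        · exact h0 j (by push_cast; omega)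
      · obtain ⟨w, hw, hw1, hw2⟩ := hB ⟨v, hv, hb, fun j hj => h0 j (by push_cast; omega)⟩
        have hmem : v - (v (a + n + 1) / w (a + n + 1)) • w ∈ M' := by
          refine ih _ (M.sub_mem hv (M.smul_mem _ (h hw))) fun j hj => ?_
          rw [Finsupp.sub_apply, Finsupp.smul_apply, smul_eq_mul]
          by_cases hj2 : j = a + n + 1
          · rw [hj2, div_mul_cancel₀ _ hw1, sub_self]
          · rw [h0 j (by push_cast; omega), hw2 j (by omega), mul_zero, sub_self]
        have := M'.add_mem hmem (M'.smul_mem (v (a + n + 1) / w (a + n + 1)) hw)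
        rwa [sub_add_cancel] at this
  intro v hv
  obtain ⟨N, hN⟩ := v.support.exists_le
  refine key (N - a).toNat v hv fun j hj => ?_
  by_contra hc
  have h1 := hN j (Finsupp.mem_support_iff.2 hc)
  have h2 := Int.self_le_toNat (N - a)
  omega

theorem BM_finite {M M' : Submodule F (VV F)} {a b : ℤ} (ha : M ≤ EE a) (hb : EE b ≤ M') :
    (BM M \ BM M').Finite := by
  refine (Set.finite_Ioc a b).subset ?_
  rintro x ⟨h1, h2⟩
  have h3 := BM_mono ha h1
  rw [BM_EE, Set.mem_Ioi] at h3
  refine ⟨h3, ?_⟩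
  by_contra hc
  refine h2 (BM_mono hb ?_)
  rw [BM_EE, Set.mem_Ioi]
  omega

theorem BM_card (hm : 0 < m) {M : Submodule F (VV F)} (h : IsLat m M) :
    (BM M \ BM (shS (m : ℤ) M)).ncard = m := by
  obtain ⟨b, hb⟩ := h.lo
  obtain ⟨a, ha⟩ := h.hi
  have hlo : ∀ x, b < x → x ∈ BM M := by
    intro x hx
    refine BM_mono hb ?_
    rw [BM_EE]
    exact hx
  have hhi : ∀ x ∈ BM M, a < x := by
    intro x hx
    have := BM_mono ha hx
    rwa [BM_EE] at this
  have hst : ∀ x ∈ BM M, x + m ∈ BM M := by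
    intro x hx
    refine BM_mono h.st (mem_BM_shS.2 ?_)
    rwa [add_sub_cancel_right]
  have hst' : ∀ k : ℕ, ∀ x ∈ BM M, x + m * k ∈ BM M := by
    intro k
    induction k with
    | zero =>
      intro x hx
      simpa using hx
    | succ k ih =>
      intro x hx
      have := hst _ (ih x hx)
      have he : x + (m : ℤ) * ((k + 1 : ℕ) : ℤ) = x + m * k + m := by push_cast; ring
      rwa [he]
  have hm' : (0 : ℤ) < m := by exact_mod_cast hm
  have hcard : (Set.Ico (0 : ℤ) m).ncard = m := by
    rw [← Finset.coe_Ico, Set.ncard_coe_finset, Int.card_Ico]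
    simp
  have hinj : ∀ x : ℤ, x ∈ BM M → ∀ y : ℤ, y - (m : ℤ) ∉ BM M →
      x % (m : ℤ) = y % (m : ℤ) → ¬ x < y := by
    intro x hx y hy hxy hlt
    have hd : (m : ℤ) ∣ y - x := Int.ModEq.dvd (show x ≡ y [ZMOD m] from hxy)
    obtain ⟨k, hk⟩ := hd
    have hk1 : 0 < k := by
      by_contra hc
      have : (m : ℤ) * k ≤ 0 := mul_nonpos_of_nonneg_of_nonpos hm'.le (by omega)
      omega
    apply hy
    have h1 := hst' (k - 1).toNat x hx
    have h2 : ((k - 1).toNat : ℤ) = k - 1 := Int.toNat_of_nonneg (by omega)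
    rw [h2] at h1
    have h3 : x + (m : ℤ) * (k - 1) = y - m := by
      rw [mul_sub, mul_one, ← hk]
      ring
    rwa [h3] at h1
  refine (Set.ncard_congr (t := Set.Ico (0 : ℤ) m) (fun x _ => x % (m : ℤ)) ?_ ?_ ?_).trans hcard
  · intro x _
    exact ⟨Int.emod_nonneg _ hm'.ne', Int.emod_lt_of_pos _ hm'⟩
  · rintro x y ⟨hx1, hx2⟩ ⟨hy1, hy2⟩ hxy
    rw [mem_BM_shS] at hx2 hy2
    have h1 := hinj x hx1 y hy2 hxy
    have h2 := hinj y hy1 x hx2 hxy.symm
    omega
  · rintro r ⟨hr0, hr1⟩
    obtain ⟨k0, hk0, hk1⟩ := Int.exists_least_of_bdd (P := fun k => r + m * k ∈ BM M)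
      ⟨-(|a| + 1), fun z hz => by
        have h1 := hhi _ hz
        by_contra hc
        push Not at hc
        have h2 : (m : ℤ) * z ≤ m * (-(|a| + 1) - 1) :=
          mul_le_mul_of_nonneg_left (by omega) hm'.le
        have h3 : (m : ℤ) * (|a| + 1) ≥ 1 * (|a| + 1) :=
          mul_le_mul_of_nonneg_right (by omega) (by positivity)
        have h4 := neg_abs_le a
        have h5 : (m : ℤ) * (-(|a| + 1) - 1) = -(m * (|a| + 1)) - m := by ring
        omega⟩
      ⟨|b| + 1, hlo _ (by
        have h3 : (m : ℤ) * (|b| + 1) ≥ 1 * (|b| + 1) :=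
          mul_le_mul_of_nonneg_right (by omega) (by positivity)
        have h4 := le_abs_self b
        omega)⟩
    refine ⟨r + m * k0, ⟨hk0, ?_⟩, ?_⟩
    · rw [mem_BM_shS]
      intro hc
      have h1 := hk1 (k0 - 1) (by
        have : r + (m : ℤ) * (k0 - 1) = r + m * k0 - m := by ring
        rwa [this])
      omega
    · show (r + (m : ℤ) * k0) % m = r
      rw [Int.add_mul_emod_self_left, Int.emod_eq_of_lt hr0 hr1]

end Crest.Agent.R66
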