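import Crest.Agent.R66.LFL

/-!
# Row 66, piece L_COVER: the filtration lemma for coverage functions (helper62)

PROOF. Apply `FL` with `K0 = {σ ∈ K | ∀ v ∈ σ, Iv v = ∅}` (down closed),
`l σ = (⋃ v ∈ σ, Iv v).ncard`, `ρ σ = {v ∈ σ | ∃ q ∈ Iv v, ∀ u ∈ σ, u ≠ v → q ∉ Iv u}` (the vertices
with a private defect), `s = n + 1`, to `b` with `bd b = z` (from hE); then `b + bd y` is the
required chain on `K0`. By H, `⋃ v ∈ σ, Iv v = ⋃ v ∈ ρ σ, Iv v` for `σ ∈ K`.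
(h2) `x ∉ ρ σ`: `ρ σ ⊆ σ.erase x`; if `v` is private in `σ.erase x` but not in `ρ σ`, its private `q`
lies in `Iv w` for some `w ∈ ρ σ`, `w ≠ v`, contradiction; the unions agree; `σ.erase x ∉ K0` since
the union is the same, `≠ ∅`.
(h3) a private defect of `x` is lost: `Set.ncard_lt_ncard` (finite unions, hfin).
(h4) for `a ∈ K`, `a ∉ K0`, `ρ a = a`: `a ≠ ∅` and
`{c | Disjoint c a ∧ c ∪ a ∈ K ∧ c ∪ a ∉ K0 ∧ ρ (c ∪ a) = a}` equals the set in HO:
⊆ by H; ⊇: if all `Iv v ⊆ ⋃ w ∈ a, Iv w` (`v ∈ c`) then no `v ∈ c` is private in `c ∪ a`, and a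
`w ∈ a` with private `q` in `a` is private in `c ∪ a`: otherwise (by H applied to `c ∪ a`)
`q ∈ Iv w'` for some `w' ∈ ρ (c ∪ a) ⊆ a`, `w' ≠ w`, contradiction.
-/

set_option autoImplicit false
set_option linter.unusedSectionVars false

namespace Crest.Agent.R66

open Finset

/-- FILTRATION LEMMA for coverage functions: each vertex `v` has a finite set `Iv v` of defects. -/
theorem cover_FL {α β : Type*} [DecidableEq α] (K : Set (Finset α)) (hK : Down K)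
    (Iv : α → Set β)
    (hfin : ∀ σ ∈ K, ∀ v ∈ σ, (Iv v).Finite)
    (H : ∀ σ ∈ K, ∀ v ∈ σ, ∀ p ∈ Iv v, ∃ w ∈ σ, p ∈ Iv w ∧
      ∃ q ∈ Iv w, ∀ u ∈ σ, u ≠ w → q ∉ Iv u)
    (n : ℕ)
    (HO : ∀ a ∈ K, a.Nonempty → a.card ≤ n + 1 →
      ExactAt {c | Disjoint c a ∧ c ∪ a ∈ K ∧ ∀ v ∈ c, Iv v ⊆ ⋃ w ∈ a, Iv w} (n + 1 - a.card))
    (hE : ExactAt K n) :
    ExactAt {σ | σ ∈ K ∧ ∀ v ∈ σ, Iv v = ∅} n := by
  classical
  set K0 : Set (Finset α) := {σ | σ ∈ K ∧ ∀ v ∈ σ, Iv v = ∅} with hK0def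
  set U : Finset α → Set β := fun σ => ⋃ v ∈ σ, Iv v with hU
  set ρ : Finset α → Finset α :=
    fun σ => σ.filter (fun v => ∃ q ∈ Iv v, ∀ u ∈ σ, u ≠ v → q ∉ Iv u) with hρ
  have memU : ∀ (σ : Finset α) (p : β), p ∈ U σ ↔ ∃ v ∈ σ, p ∈ Iv v := by
    intro σ p
    simp only [hU, Set.mem_iUnion, exists_prop]
  have memρ : ∀ (σ : Finset α) (v : α), v ∈ ρ σ ↔
      v ∈ σ ∧ ∃ q ∈ Iv v, ∀ u ∈ σ, u ≠ v → q ∉ Iv u := by
    intro σ v
    simp only [hρ, Finset.mem_filter]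
  have key : ∀ σ ∈ K, ∀ p ∈ U σ, ∃ w ∈ ρ σ, p ∈ Iv w := by
    intro σ hσ p hp
    obtain ⟨v, hv, hpv⟩ := (memU σ p).1 hp
    obtain ⟨w, hw, hpw, hq⟩ := H σ hσ v hv p hpv
    exact ⟨w, (memρ σ w).2 ⟨hw, hq⟩, hpw⟩
  have hK0 : Down K0 := by
    intro σ hσ τ hτ
    exact ⟨hK σ hσ.1 τ hτ, fun v hv => hσ.2 v (hτ hv)⟩
  have notK0 : ∀ σ ∈ K, σ ∉ K0 → ∃ v ∈ σ, ∃ p, p ∈ Iv v := by
    intro σ hσ h
    by_contra hc
    push Not at hc
    exact h ⟨hσ, fun v hv => Set.eq_empty_iff_forall_notMem.2 (hc v hv)⟩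
  have UmemNot : ∀ σ, ∀ v ∈ σ, ∀ p ∈ Iv v, σ ∉ K0 := by
    intro σ v hv p hp h
    have := h.2 v hv
    rw [this] at hp
    exact hp
  have hsubU : ∀ {σ τ : Finset α}, σ ⊆ τ → U σ ⊆ U τ := by
    intro σ τ h p hp
    obtain ⟨v, hv, hpv⟩ := (memU σ p).1 hp
    exact (memU τ p).2 ⟨v, h hv, hpv⟩
  have hUρ : ∀ σ ∈ K, ∀ τ, ρ σ ⊆ τ → τ ⊆ σ → U τ = U σ := by
    intro σ hσ τ h1 h2
    apply Set.Subset.antisymm (hsubU h2)
    intro p hp
    obtain ⟨w, hw, hpw⟩ := key σ hσ p hp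
    exact (memU τ p).2 ⟨w, h1 hw, hpw⟩
  intro z hz hz0
  have hzK : On K n z := On.mono (fun σ hσ => hσ.1) hz
  obtain ⟨b, hb, hbz⟩ := hE z hzK hz0
  have hfinU : ∀ σ ∈ K, (U σ).Finite := by
    intro σ hσ
    exact Set.Finite.biUnion (Finset.finite_toSet σ) (fun v hv => hfin σ hσ v (by exact_mod_cast hv))
  obtain ⟨y, hy, hyb⟩ := FL (K := K) (K0 := K0) (fun σ => (U σ).ncard) ρ (n + 1) hK hK0
    (fun σ _ _ => Finset.filter_subset _ _)
    (by
      intro σ hσ hσ0 x hx hxρ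
      have hsub : ρ σ ⊆ σ.erase x := by
        intro v hv
        refine Finset.mem_erase.2 ⟨fun e => hxρ (e ▸ hv), ((memρ σ v).1 hv).1⟩
      have hUe : U (σ.erase x) = U σ := hUρ σ hσ _ hsub (Finset.erase_subset _ _)
      refine ⟨?_, ?_, ?_⟩
      · obtain ⟨v, hv, p, hp⟩ := notK0 σ hσ hσ0
        have hpU : p ∈ U (σ.erase x) := by rw [hUe]; exact (memU σ p).2 ⟨v, hv, hp⟩
        obtain ⟨w, hw, hpw⟩ := (memU _ p).1 hpU
        exact UmemNot _ w hw p hpw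
      · apply Finset.Subset.antisymm
        · intro v hv
          obtain ⟨hv1, q, hq, hqp⟩ := (memρ _ v).1 hv
          by_contra hvρ
          have hvσ : v ∈ σ := Finset.mem_of_mem_erase hv1
          obtain ⟨w, hw, hqw⟩ := key σ hσ q ((memU σ q).2 ⟨v, hvσ, hq⟩)
          have hwv : w ≠ v := fun e => hvρ (e ▸ hw)
          exact hqp w (hsub hw) hwv hqw
        · intro v hv
          obtain ⟨_, q, hq, hqp⟩ := (memρ _ v).1 hv
          exact (memρ _ v).2 ⟨hsub hv, q, hq, fun u hu huv => hqp u (Finset.mem_of_mem_erase hu) huv⟩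
      · show (U (σ.erase x)).ncard = (U σ).ncard
        rw [hUe])
    (by
      intro σ hσ hσ0 x hx
      right
      obtain ⟨hxσ, q, hq, hqp⟩ := (memρ _ x).1 hx
      apply Set.ncard_lt_ncard _ (hfinU σ hσ)
      refine ⟨hsubU (Finset.erase_subset _ _), fun hc => ?_⟩
      have hqU : q ∈ U (σ.erase x) := hc ((memU σ q).2 ⟨x, hxσ, hq⟩)
      obtain ⟨w, hw, hqw⟩ := (memU _ q).1 hqU
      exact hqp w (Finset.mem_of_mem_erase hw) (Finset.ne_of_mem_erase hw) hqw)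
    (by
      intro a ha ha0 hρa hcard
      obtain ⟨v0, hv0, p0, hp0⟩ := notK0 a ha ha0
      have hset : {c | Disjoint c a ∧ c ∪ a ∈ K ∧ c ∪ a ∉ K0 ∧ ρ (c ∪ a) = a} =
          {c | Disjoint c a ∧ c ∪ a ∈ K ∧ ∀ v ∈ c, Iv v ⊆ ⋃ w ∈ a, Iv w} := by
        ext c
        constructor
        · rintro ⟨h1, h2, h3, h4⟩
          refine ⟨h1, h2, fun v hv p hp => ?_⟩
          obtain ⟨w, hw, hpw⟩ := key (c ∪ a) h2 p
            ((memU _ p).2 ⟨v, Finset.mem_union_left _ hv, hp⟩)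
          rw [h4] at hw
          exact (memU a p).2 ⟨w, hw, hpw⟩
        · rintro ⟨h1, h2, h3⟩
          refine ⟨h1, h2, UmemNot _ v0 (Finset.mem_union_right _ hv0) p0 hp0, ?_⟩
          have hsub : ρ (c ∪ a) ⊆ a := by
            intro v hv
            obtain ⟨hv1, q, hq, hqp⟩ := (memρ _ v).1 hv
            rcases Finset.mem_union.1 hv1 with hvc | hva
            · exfalso
              obtain ⟨w, hw, hqw⟩ := (memU a q).1 (h3 v hvc hq)
              have hwv : w ≠ v := by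
                rintro rfl
                exact (Finset.disjoint_left.1 h1 hvc) hw
              exact hqp w (Finset.mem_union_right _ hw) hwv hqw
            · exact hva
          apply Finset.Subset.antisymm hsub
          intro w hw
          have hwρ : w ∈ ρ a := by rw [hρa]; exact hw
          obtain ⟨_, q, hq, hqp⟩ := (memρ _ w).1 hwρ
          obtain ⟨w', hw', hqw'⟩ := key (c ∪ a) h2 q
            ((memU _ q).2 ⟨w, Finset.mem_union_right _ hw, hq⟩)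
          by_cases e : w' = w
          · exact e ▸ hw'
          · exact absurd hqw' (hqp w' (hsub hw') e)
      rw [hset]
      exact HO a ha ⟨v0, hv0⟩ hcard)
    b hb
    (by
      intro σ hσ
      rw [hbz] at hσ
      exact (hz σ hσ).1)
  refine ⟨b + bd y, ?_, ?_⟩
  · intro σ hσ
    have h2 : On K (n + 1) (b + bd y) := by
      refine hb.add (On.bd ?_ hy)
      intro s hs x _
      exact hK s hs _ (Finset.erase_subset _ _)
    exact ⟨hyb σ hσ, (h2 σ hσ).2⟩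
  · rw [map_add, bd_bd, add_zero, hbz]

end Crest.Agent.R66
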