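import Crest.Agent.R66.Chain

/-!
# Row 66, part (C-L): lattices in `V = ℤ →₀ F` modulo the shift `τ e_b = e_{b+m}` (helper62)

* `sh c`      the automorphism `e_b ↦ e_{b+c}`; `τ = sh m`; `shS c M` the image of a subspace
* `EE i`      `{v | v j = 0 for j ≤ i}` (span of the `e_j`, `j > i`), `VL k` span of the `e_j`, `j ≤ k`
* `IsLat m M` `τ M ≤ M`, `EE b ≤ M ≤ EE a` for some `a, b`
* `Nrm m M`   lattice with `M ≤ EE 0`, `¬ M ≤ EE m` (every lattice has exactly one normalised
  translate `τ^k M`)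
* `Adj m M M'` all translates of `M` and `M'` are comparable
* `Del m`     finite sets of pairwise adjacent normalised lattices
* `BM M`      the set of degrees (= largest index in the support) of the nonzero vectors of `M`
* `Iv m M`    inversions of `M`: `(y, x)`, `y < x`, `0 ≤ x < m`, `y + mk ∈ BM M`, `x + mk ∉ BM M`
* `Xhat m`    faces of `Del m` all of whose members are complements of some `VL k`
-/

set_option autoImplicit false
set_option linter.unusedSectionVars false

namespace Crest.Agent.R66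

/-- `K` is closed under subsets -/
def Down {α : Type*} (K : Set (Finset α)) : Prop := ∀ σ ∈ K, ∀ τ ⊆ σ, τ ∈ K

/-- ambient space with basis `e_b`, `b ∈ ℤ` -/
abbrev VV (F : Type*) [Field F] := ℤ →₀ F

section
variable {F : Type*} [Field F]

/-- the automorphism `e_b ↦ e_{b+c}` -/
noncomputable def sh (c : ℤ) : VV F ≃ₗ[F] VV F := Finsupp.domLCongr (Equiv.addRight c)

theorem sh_apply (c : ℤ) (v : VV F) (j : ℤ) : sh c v j = v (j - c) := by
  simp [sh, Finsupp.domLCongr_apply, Finsupp.domCongr_apply, Finsupp.equivMapDomain_apply,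
    sub_eq_add_neg]

theorem sh_single (c b : ℤ) (x : F) : sh c (Finsupp.single b x) = Finsupp.single (b + c) x := by
  simp [sh, Finsupp.domLCongr_apply]

theorem sh_sh (a b : ℤ) (v : VV F) : sh a (sh b v) = sh (a + b) v := by
  ext j
  rw [sh_apply, sh_apply, sh_apply]
  congr 1
  ring

theorem sh_zero (v : VV F) : sh 0 v = v := by
  ext j
  rw [sh_apply, sub_zero]

/-- image of a subspace under `sh c` -/
noncomputable def shS (c : ℤ) (M : Submodule F (VV F)) : Submodule F (VV F) :=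
  M.map (sh c : VV F ≃ₗ[F] VV F).toLinearMap

theorem mem_shS {c : ℤ} {M : Submodule F (VV F)} {v : VV F} : v ∈ shS c M ↔ sh (-c) v ∈ M := by
  unfold shS
  constructor
  · rintro ⟨w, hw, rfl⟩
    have : sh (-c) (sh c w) = w := by rw [sh_sh, neg_add_cancel, sh_zero]
    simpa [this] using hw
  · intro h
    refine ⟨sh (-c) v, h, ?_⟩
    show sh c (sh (-c) v) = v
    rw [sh_sh, add_neg_cancel, sh_zero]

theorem sh_mem_shS {c : ℤ} {M : Submodule F (VV F)} {v : VV F} : sh c v ∈ shS c M ↔ v ∈ M := by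
  rw [mem_shS, sh_sh, neg_add_cancel, sh_zero]

@[simp] theorem shS_zero (M : Submodule F (VV F)) : shS 0 M = M := by
  ext v
  rw [mem_shS, neg_zero, sh_zero]

theorem shS_shS (a b : ℤ) (M : Submodule F (VV F)) : shS a (shS b M) = shS (a + b) M := by
  ext v
  rw [mem_shS, mem_shS, mem_shS, sh_sh]
  have : -b + -a = -(a + b) := by ring
  rw [this]

theorem shS_mono {c : ℤ} {M M' : Submodule F (VV F)} (h : M ≤ M') : shS c M ≤ shS c M' :=
  Submodule.map_mono h

theorem shS_le_iff {c : ℤ} {M M' : Submodule F (VV F)} : shS c M ≤ shS c M' ↔ M ≤ M' := by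
  refine ⟨fun h => ?_, shS_mono⟩
  have := shS_mono (c := -c) h
  rwa [shS_shS, shS_shS, neg_add_cancel, shS_zero, shS_zero] at this

theorem shS_le_comm {c : ℤ} {M M' : Submodule F (VV F)} : shS c M ≤ M' ↔ M ≤ shS (-c) M' := by
  rw [← shS_le_iff (c := -c), shS_shS, neg_add_cancel, shS_zero]

theorem le_shS_comm {c : ℤ} {M M' : Submodule F (VV F)} : M ≤ shS c M' ↔ shS (-c) M ≤ M' := by
  rw [shS_le_comm, neg_neg]

theorem shS_inf (c : ℤ) (M M' : Submodule F (VV F)) : shS c (M ⊓ M') = shS c M ⊓ shS c M' := by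
  ext v
  simp only [mem_shS, Submodule.mem_inf]

theorem shS_injective (c : ℤ) : Function.Injective (shS (F := F) c) := by
  intro M M' h
  exact le_antisymm (shS_le_iff.1 h.le) (shS_le_iff.1 h.ge)

/-- span of the `e_j`, `j > i` -/
def EE (i : ℤ) : Submodule F (VV F) where
  carrier := {v | ∀ j ≤ i, v j = 0}
  add_mem' := by
    intro a b ha hb j hj
    simp [ha j hj, hb j hj]
  zero_mem' := by intro j _; rfl
  smul_mem' := by
    intro c x hx j hj
    simp [hx j hj]

/-- span of the `e_j`, `j ≤ k` -/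
def VL (k : ℤ) : Submodule F (VV F) where
  carrier := {v | ∀ j, k < j → v j = 0}
  add_mem' := by
    intro a b ha hb j hj
    simp [ha j hj, hb j hj]
  zero_mem' := by intro j _; rfl
  smul_mem' := by
    intro c x hx j hj
    simp [hx j hj]

theorem mem_EE {i : ℤ} {v : VV F} : v ∈ EE i ↔ ∀ j ≤ i, v j = 0 := Iff.rfl

theorem mem_VL {k : ℤ} {v : VV F} : v ∈ VL k ↔ ∀ j, k < j → v j = 0 := Iff.rfl

theorem shS_EE (c i : ℤ) : shS c (EE i : Submodule F (VV F)) = EE (i + c) := by
  ext v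
  rw [mem_shS, mem_EE, mem_EE]
  constructor
  · intro h j hj
    have := h (j - c) (by omega)
    rwa [sh_apply, sub_neg_eq_add, sub_add_cancel] at this
  · intro h j hj
    rw [sh_apply, sub_neg_eq_add]
    exact h _ (by omega)

theorem shS_VL (c i : ℤ) : shS c (VL i : Submodule F (VV F)) = VL (i + c) := by
  ext v
  rw [mem_shS, mem_VL, mem_VL]
  constructor
  · intro h j hj
    have := h (j - c) (by omega)
    rwa [sh_apply, sub_neg_eq_add, sub_add_cancel] at this
  · intro h j hj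
    rw [sh_apply, sub_neg_eq_add]
    exact h _ (by omega)

theorem EE_anti {i j : ℤ} (h : i ≤ j) : (EE j : Submodule F (VV F)) ≤ EE i :=
  fun _ hv k hk => hv k (hk.trans h)

theorem VL_mono {i j : ℤ} (h : i ≤ j) : (VL i : Submodule F (VV F)) ≤ VL j :=
  fun _ hv k hk => hv k (lt_of_le_of_lt h hk)

theorem EE_le_iff {i j : ℤ} : (EE j : Submodule F (VV F)) ≤ EE i ↔ i ≤ j := by
  refine ⟨fun h => ?_, EE_anti⟩
  by_contra hc
  have h1 : (Finsupp.single (j + 1) (1 : F) : VV F) ∈ EE j := by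
    intro k hk
    rw [Finsupp.single_apply, if_neg (by omega)]
  have h2 := h h1 (j + 1) (by omega)
  rw [Finsupp.single_apply, if_pos rfl] at h2
  exact one_ne_zero h2

/-- lattices -/
structure IsLat (m : ℕ) (M : Submodule F (VV F)) : Prop where
  st : shS (m : ℤ) M ≤ M
  lo : ∃ b, EE b ≤ M
  hi : ∃ a, M ≤ EE a

/-- normalised lattices -/
structure Nrm (m : ℕ) (M : Submodule F (VV F)) : Prop where
  lat : IsLat m M
  le0 : M ≤ EE 0
  nle : ¬ M ≤ EE (m : ℤ)

/-- all translates of `M` and `M'` by powers of `τ` are comparable -/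
def Adj (m : ℕ) (M M' : Submodule F (VV F)) : Prop :=
  ∀ k : ℤ, shS (m * k) M ≤ M' ∨ M' ≤ shS (m * k) M

/-- the complex of periodic chains of lattices -/
def Del (F : Type*) [Field F] (m : ℕ) : Set (Finset (Submodule F (VV F))) :=
  {σ | (∀ M ∈ σ, Nrm m M) ∧ ∀ M ∈ σ, ∀ M' ∈ σ, Adj m M M'}

theorem Del_down (m : ℕ) : Down (Del F m) :=
  fun _ hσ _ hτ => ⟨fun M hM => hσ.1 M (hτ hM), fun M hM M' hM' => hσ.2 M (hτ hM) M' (hτ hM')⟩

/-- degrees of the nonzero vectors of `M` -/
def BM (M : Submodule F (VV F)) : Set ℤ := {b | ∃ v ∈ M, v b ≠ 0 ∧ ∀ j, b < j → v j = 0}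

/-- inversions of `M` -/
def Iv (m : ℕ) (M : Submodule F (VV F)) : Set (ℤ × ℤ) :=
  {p | p.1 < p.2 ∧ 0 ≤ p.2 ∧ p.2 < m ∧ ∃ k : ℤ, p.1 + m * k ∈ BM M ∧ p.2 + m * k ∉ BM M}

/-- faces all of whose members are complements of some `VL k` -/
def Xhat (F : Type*) [Field F] (m : ℕ) : Set (Finset (Submodule F (VV F))) :=
  {σ | σ ∈ Del F m ∧ ∀ M ∈ σ, ∃ k : ℤ, IsCompl M (VL k)}

end

end Crest.Agent.R66
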