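import Crest.Agent.R66.LDef

/-!
# Row 66, piece L_FL: the filtration lemma (helper62)

PROOF. Induction on a bound `R` for the ranks `l σ` of the `σ ∈ b.support`, `σ ∉ K0`
(if there is no such `σ` take `y = 0`). For a finset `a` let `X a : Ch α →ₗ Ch α` be the linear map
with `X a (single σ 1) = single (σ \ a) 1` if `σ ∈ K`, `σ ∉ K0`, `ρ σ = a`, `l σ = R`, else `0`.
For `σ ∈ K` with `σ ∈ K0` or `l σ ≤ R`: `X a (bd σ) = bd (X a σ)` [by h2, h3: removing a vertex
outside `ρ σ` keeps `ρ` and `l`, removing a vertex of `ρ σ` lowers `l` or leads into `K0`].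
So `bd (X a b) = X a (bd b) = 0`; `X a b` is on `O_a` (set in h4) at size `s - a.card`
(`c ∪ a = σ`), hence `X a b = bd (c a)`; put `y_a = U a (c a)`, where `U a` is the linear map
`c ↦ c ∪ a` if `Disjoint c a`, else `0`. For `c ∈ O_a`: `l (c ∪ a) = l a = R` (remove the
elements of `c` one by one with h2; the same for `σ`). `X a' (bd y_a) = bd (X a' y_a) = 0` if
`a' ≠ a` and `= bd (c a) = X a b` if `a' = a`. So `b + bd (∑ a, y_a)` (sum over the finitely many
`a = ρ σ`) has no `σ ∉ K0` with `l σ = R` and only ranks `≤ R`: induction.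
-/

set_option autoImplicit false
set_option linter.unusedSectionVars false

namespace Crest.Agent.R66

open Finset

private theorem ch_expand {α : Type*} [DecidableEq α] (z : Ch α) :
    z = ∑ s ∈ z.support, z s • Finsupp.single s (1 : ZMod 2) := by
  conv_lhs => rw [← Finsupp.sum_single z]
  rw [Finsupp.sum]
  apply Finset.sum_congr rfl
  intro s _
  simp

private theorem lin_congr {α : Type*} [DecidableEq α] {M : Type*} [AddCommGroup M]
    [Module (ZMod 2) M] (f g : Ch α →ₗ[ZMod 2] M) (z : Ch α)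
    (h : ∀ s ∈ z.support, f (Finsupp.single s 1) = g (Finsupp.single s 1)) : f z = g z := by
  have e := ch_expand z
  calc f z = f (∑ s ∈ z.support, z s • Finsupp.single s (1 : ZMod 2)) := congrArg f e
    _ = g (∑ s ∈ z.support, z s • Finsupp.single s (1 : ZMod 2)) := by
        rw [map_sum, map_sum]
        apply Finset.sum_congr rfl
        intro s hs
        rw [map_smul, map_smul, h s hs]
    _ = g z := (congrArg g e).symm

private theorem mem_support_bd {α : Type*} [DecidableEq α] (z : Ch α) (τ : Finset α)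
    (h : τ ∈ (bd z).support) : ∃ σ ∈ z.support, ∃ x ∈ σ, τ = σ.erase x := by
  by_contra hcon
  push Not at hcon
  rw [Finsupp.mem_support_iff] at h
  apply h
  have := lin_congr (Finsupp.lapply τ ∘ₗ bd) (0 : Ch α →ₗ[ZMod 2] ZMod 2) z (by
    intro s hs
    rw [LinearMap.comp_apply, bd_single, LinearMap.zero_apply, map_sum]
    apply Finset.sum_eq_zero
    intro x hx
    rw [Finsupp.lapply_apply, Finsupp.single_apply, if_neg]
    exact fun h => hcon s hs x hx h.symm)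
  simpa using this

section
variable {α : Type*} [DecidableEq α]

open scoped Classical in
private noncomputable def XX (K K0 : Set (Finset α)) (l : Finset α → ℕ)
    (ρ : Finset α → Finset α) (R : ℕ) (a : Finset α) : Ch α →ₗ[ZMod 2] Ch α :=
  Finsupp.linearCombination (ZMod 2) fun σ : Finset α =>
    if σ ∈ K ∧ σ ∉ K0 ∧ ρ σ = a ∧ l σ = R then Finsupp.single (σ \ a) 1 else 0

open scoped Classical in
private theorem XX_single (K K0 : Set (Finset α)) (l : Finset α → ℕ)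
    (ρ : Finset α → Finset α) (R : ℕ) (a σ : Finset α) :
    XX K K0 l ρ R a (Finsupp.single σ (1 : ZMod 2)) =
      if σ ∈ K ∧ σ ∉ K0 ∧ ρ σ = a ∧ l σ = R then Finsupp.single (σ \ a) 1 else 0 := by
  simp [XX]

private theorem XX_pos {K K0 : Set (Finset α)} {l : Finset α → ℕ}
    {ρ : Finset α → Finset α} {R : ℕ} {a σ : Finset α}
    (h : σ ∈ K ∧ σ ∉ K0 ∧ ρ σ = a ∧ l σ = R) :
    XX K K0 l ρ R a (Finsupp.single σ (1 : ZMod 2)) = Finsupp.single (σ \ a) 1 := by
  classical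
  rw [XX_single, if_pos h]

private theorem XX_neg {K K0 : Set (Finset α)} {l : Finset α → ℕ}
    {ρ : Finset α → Finset α} {R : ℕ} {a σ : Finset α}
    (h : ¬ (σ ∈ K ∧ σ ∉ K0 ∧ ρ σ = a ∧ l σ = R)) :
    XX K K0 l ρ R a (Finsupp.single σ (1 : ZMod 2)) = 0 := by
  classical
  rw [XX_single, if_neg h]

open scoped Classical in
private noncomputable def UU (a : Finset α) : Ch α →ₗ[ZMod 2] Ch α :=
  Finsupp.linearCombination (ZMod 2) fun c : Finset α =>
    if Disjoint c a then Finsupp.single (c ∪ a) 1 else 0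

private theorem UU_single {a c : Finset α} (h : Disjoint c a) :
    UU a (Finsupp.single c (1 : ZMod 2)) = Finsupp.single (c ∪ a) 1 := by
  simp [UU, h]

variable {K K0 : Set (Finset α)} {l : Finset α → ℕ} {ρ : Finset α → Finset α}

private theorem keep
    (hK : Down K)
    (h2 : ∀ σ ∈ K, σ ∉ K0 → ∀ x ∈ σ, x ∉ ρ σ →
      σ.erase x ∉ K0 ∧ ρ (σ.erase x) = ρ σ ∧ l (σ.erase x) = l σ) (a τ : Finset α) :
    ∀ (n : ℕ) (σ : Finset α), (σ \ τ).card = n → a ⊆ τ → τ ⊆ σ → σ ∈ K → σ ∉ K0 → ρ σ = a →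
      τ ∉ K0 ∧ ρ τ = a ∧ l τ = l σ := by
  intro n
  induction n with
  | zero =>
    intro σ hn ha hτ hσK hσ0 hρ
    have : σ ⊆ τ := by
      rw [Finset.card_eq_zero, Finset.sdiff_eq_empty_iff_subset] at hn
      exact hn
    have e := Finset.Subset.antisymm this hτ
    subst e
    exact ⟨hσ0, hρ, rfl⟩
  | succ n ih =>
    intro σ hn ha hτ hσK hσ0 hρ
    obtain ⟨x, hx⟩ := Finset.card_pos.1 (by omega : 0 < (σ \ τ).card)
    rw [Finset.mem_sdiff] at hx
    obtain ⟨h5, h6, h7⟩ := h2 σ hσK hσ0 x hx.1 (by rw [hρ]; exact fun h => hx.2 (ha h))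
    have h8 := ih (σ.erase x) ?_ ha ?_ (hK σ hσK _ (Finset.erase_subset _ _)) h5 (h6.trans hρ)
    · exact ⟨h8.1, h8.2.1, h8.2.2.trans h7⟩
    · rw [Finset.erase_sdiff_comm, Finset.card_erase_of_mem (Finset.mem_sdiff.2 hx), hn]
      rfl
    · intro y hy
      rw [Finset.mem_erase]
      exact ⟨fun h => hx.2 (h ▸ hy), hτ hy⟩

private theorem XX_bd_single (hK : Down K) (hK0 : Down K0)
    (h2 : ∀ σ ∈ K, σ ∉ K0 → ∀ x ∈ σ, x ∉ ρ σ →
      σ.erase x ∉ K0 ∧ ρ (σ.erase x) = ρ σ ∧ l (σ.erase x) = l σ)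
    (h3 : ∀ σ ∈ K, σ ∉ K0 → ∀ x ∈ ρ σ, σ.erase x ∈ K0 ∨ l (σ.erase x) < l σ)
    (R : ℕ) (a σ : Finset α) (hσ : σ ∈ K) (hl : σ ∈ K0 ∨ l σ ≤ R) :
    XX K K0 l ρ R a (bd (Finsupp.single σ 1)) = bd (XX K K0 l ρ R a (Finsupp.single σ 1)) := by
  rw [bd_single, map_sum]
  by_cases h0 : σ ∈ K0
  · rw [XX_neg (fun h => h.2.1 h0), map_zero]
    apply Finset.sum_eq_zero
    intro x _
    exact XX_neg (fun h => h.2.1 (hK0 σ h0 _ (Finset.erase_subset _ _)))
  · have hlR : l σ ≤ R := hl.resolve_left h0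
    by_cases hQ : ρ σ = a ∧ l σ = R
    · rw [XX_pos ⟨hσ, h0, hQ⟩, bd_single]
      symm
      apply Finset.sum_subset_zero_on_sdiff Finset.sdiff_subset
      · intro x hx
        rw [Finset.mem_sdiff] at hx
        have hxa : x ∈ a := by
          by_contra hxa
          exact hx.2 (Finset.mem_sdiff.2 ⟨hx.1, hxa⟩)
        apply XX_neg
        intro h
        rcases h3 σ hσ h0 x (by rw [hQ.1]; exact hxa) with h4 | h4
        · exact h.2.1 h4
        · rw [h.2.2.2, hQ.2] at h4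
          exact lt_irrefl _ h4
      · intro x hx
        rw [Finset.mem_sdiff] at hx
        obtain ⟨h5, h6, h7⟩ := h2 σ hσ h0 x hx.1 (by rw [hQ.1]; exact hx.2)
        rw [XX_pos ⟨hK σ hσ _ (Finset.erase_subset _ _), h5, h6.trans hQ.1, h7.trans hQ.2⟩,
          Finset.erase_sdiff_comm]
    · rw [XX_neg (fun h => hQ h.2.2), map_zero]
      apply Finset.sum_eq_zero
      intro x hx
      apply XX_neg
      intro h
      by_cases hxρ : x ∈ ρ σ
      · rcases h3 σ hσ h0 x hxρ with h4 | h4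
        · exact h.2.1 h4
        · have := h.2.2.2
          omega
      · obtain ⟨h5, h6, h7⟩ := h2 σ hσ h0 x hx hxρ
        exact hQ ⟨h6.symm.trans h.2.2.1, h7.symm.trans h.2.2.2⟩

private theorem XX_eval (h1 : ∀ σ ∈ K, σ ∉ K0 → ρ σ ⊆ σ) {R : ℕ} {a σ : Finset α}
    (hσ : σ ∈ K ∧ σ ∉ K0 ∧ ρ σ = a ∧ l σ = R) (z : Ch α) :
    XX K K0 l ρ R a z (σ \ a) = z σ := by
  have := lin_congr (Finsupp.lapply (σ \ a) ∘ₗ XX K K0 l ρ R a) (Finsupp.lapply σ) z (by
    intro τ _
    rw [LinearMap.comp_apply, Finsupp.lapply_apply, Finsupp.lapply_apply]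
    by_cases hτ : τ ∈ K ∧ τ ∉ K0 ∧ ρ τ = a ∧ l τ = R
    · rw [XX_pos hτ, Finsupp.single_apply, Finsupp.single_apply]
      congr 1
      rw [eq_iff_iff]
      constructor
      · intro h
        have e1 : τ \ a ∪ a = τ := Finset.sdiff_union_of_subset (hτ.2.2.1 ▸ h1 τ hτ.1 hτ.2.1)
        have e2 : σ \ a ∪ a = σ := Finset.sdiff_union_of_subset (hσ.2.2.1 ▸ h1 σ hσ.1 hσ.2.1)
        rw [← e1, ← e2, h]
      · intro h
        rw [h]
    · rw [XX_neg hτ, Finsupp.single_apply, if_neg]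
      · rfl
      · intro h
        rw [h] at hτ
        exact hτ hσ)
  simpa using this

private theorem FL_aux (s : ℕ)
    (hK : Down K) (hK0 : Down K0)
    (h1 : ∀ σ ∈ K, σ ∉ K0 → ρ σ ⊆ σ)
    (h2 : ∀ σ ∈ K, σ ∉ K0 → ∀ x ∈ σ, x ∉ ρ σ →
      σ.erase x ∉ K0 ∧ ρ (σ.erase x) = ρ σ ∧ l (σ.erase x) = l σ)
    (h3 : ∀ σ ∈ K, σ ∉ K0 → ∀ x ∈ ρ σ, σ.erase x ∈ K0 ∨ l (σ.erase x) < l σ)
    (h4 : ∀ a ∈ K, a ∉ K0 → ρ a = a → a.card ≤ s →
      ExactAt {c | Disjoint c a ∧ c ∪ a ∈ K ∧ c ∪ a ∉ K0 ∧ ρ (c ∪ a) = a} (s - a.card)) :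
    ∀ (R : ℕ) (b : Ch α), On K s b → (∀ σ ∈ (bd b).support, σ ∈ K0) →
      (∀ σ ∈ b.support, σ ∉ K0 → l σ < R) →
      ∃ y : Ch α, On K (s + 1) y ∧ ∀ σ ∈ (b + bd y).support, σ ∈ K0 := by
  classical
  intro R
  induction R with
  | zero =>
    intro b _ _ hR
    refine ⟨0, On.zero, ?_⟩
    intro σ hσ
    rw [map_zero, add_zero] at hσ
    by_contra h
    exact absurd (hR σ hσ h) (Nat.not_lt_zero _)
  | succ R ih =>
    intro b hb hbd hR
    have hcomm : ∀ a : Finset α, ∀ z : Ch α, (∀ σ ∈ z.support, σ ∈ K ∧ (σ ∈ K0 ∨ l σ ≤ R)) →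
        XX K K0 l ρ R a (bd z) = bd (XX K K0 l ρ R a z) := by
      intro a z hz
      exact lin_congr (XX K K0 l ρ R a ∘ₗ bd) (bd ∘ₗ XX K K0 l ρ R a) z (by
        intro σ hσ
        rw [LinearMap.comp_apply, LinearMap.comp_apply]
        exact XX_bd_single hK hK0 h2 h3 R a σ (hz σ hσ).1 (hz σ hσ).2)
    have hbR : ∀ σ ∈ b.support, σ ∈ K ∧ (σ ∈ K0 ∨ l σ ≤ R) := by
      intro σ hσ
      refine ⟨(hb σ hσ).1, ?_⟩
      by_cases h : σ ∈ K0
      · exact Or.inl h
      · exact Or.inr (Nat.lt_succ_iff.1 (hR σ hσ h))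
    set A : Finset (Finset α) := (b.support.filter fun σ => σ ∉ K0 ∧ l σ = R).image ρ with hA
    have hya : ∀ a ∈ A, ∃ ya : Ch α,
        On {τ | τ ∈ K ∧ τ ∉ K0 ∧ ρ τ = a ∧ l τ = R} (s + 1) ya ∧
          bd (XX K K0 l ρ R a ya) = XX K K0 l ρ R a b := by
      intro a ha
      rw [hA, Finset.mem_image] at ha
      obtain ⟨σ, hσ, hσa⟩ := ha
      rw [Finset.mem_filter] at hσ
      obtain ⟨hσb, hσ0, hσR⟩ := hσ
      obtain ⟨hσK, hσs⟩ := hb σ hσb
      have haσ : a ⊆ σ := hσa ▸ h1 σ hσK hσ0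
      obtain ⟨ha0, hρa, hla⟩ := keep hK h2 a a _ σ rfl Finset.Subset.rfl haσ hσK hσ0 hσa
      have haK : a ∈ K := hK σ hσK a haσ
      have hcard : a.card ≤ s := hσs ▸ Finset.card_le_card haσ
      have hz : On {c | Disjoint c a ∧ c ∪ a ∈ K ∧ c ∪ a ∉ K0 ∧ ρ (c ∪ a) = a} (s - a.card)
          (XX K K0 l ρ R a b) := by
        apply hb.map
        intro τ hτK hτs
        by_cases hτ : τ ∈ K ∧ τ ∉ K0 ∧ ρ τ = a ∧ l τ = R
        · rw [XX_pos hτ]
          have haτ : a ⊆ τ := hτ.2.2.1 ▸ h1 τ hτ.1 hτ.2.1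
          have e1 : τ \ a ∪ a = τ := Finset.sdiff_union_of_subset haτ
          apply On.single
          · refine ⟨Finset.sdiff_disjoint, ?_⟩
            rw [e1]
            exact ⟨hτ.1, hτ.2.1, hτ.2.2.1⟩
          · rw [Finset.card_sdiff_of_subset haτ, hτs]
        · rw [XX_neg hτ]
          exact On.zero
      have hz0 : bd (XX K K0 l ρ R a b) = 0 := by
        rw [← hcomm a b hbR]
        have := lin_congr (XX K K0 l ρ R a) (0 : Ch α →ₗ[ZMod 2] Ch α) (bd b) (by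
          intro τ hτ
          rw [LinearMap.zero_apply]
          exact XX_neg (fun h => h.2.1 (hbd τ hτ)))
        simpa using this
      obtain ⟨c, hc, hcb⟩ := h4 a haK ha0 hρa hcard _ hz hz0
      have hlc : ∀ c' : Finset α, c' ∪ a ∈ K → c' ∪ a ∉ K0 → ρ (c' ∪ a) = a →
          l (c' ∪ a) = R := by
        intro c' k1 k2 k3
        have := keep hK h2 a a _ (c' ∪ a) rfl Finset.Subset.rfl Finset.subset_union_right k1 k2 k3
        rw [← this.2.2, hla, hσR]
      refine ⟨UU a c, ?_, ?_⟩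
      · apply hc.map
        rintro c' ⟨k0, k1, k2, k3⟩ k4
        rw [UU_single k0]
        apply On.single
        · exact ⟨k1, k2, k3, hlc c' k1 k2 k3⟩
        · rw [Finset.card_union_of_disjoint k0, k4]
          omega
      · have : XX K K0 l ρ R a (UU a c) = c := by
          have := lin_congr (XX K K0 l ρ R a ∘ₗ UU a) (LinearMap.id) c (by
            intro c' hc'
            obtain ⟨⟨k0, k1, k2, k3⟩, k4⟩ := hc c' hc'
            rw [LinearMap.comp_apply, UU_single k0, XX_pos ⟨k1, k2, k3, hlc c' k1 k2 k3⟩,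
              LinearMap.id_apply, Finset.union_sdiff_cancel_right k0])
          simpa using this
        rw [this, hcb]
    choose! Y hY using hya
    set y : Ch α := ∑ a ∈ A, Y a with hy
    have hyK : On K (s + 1) y := by
      apply On.sum
      intro a ha
      exact (hY a ha).1.mono (fun τ h => h.1)
    have hyR : ∀ σ ∈ (bd y).support, σ ∈ K0 ∨ l σ ≤ R := by
      intro τ hτ
      rw [hy, map_sum] at hτ
      obtain ⟨a, ha, hτa⟩ := Finset.mem_biUnion.1 (Finsupp.support_finsetSum hτ)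
      obtain ⟨σ, hσ, x, hx, rfl⟩ := mem_support_bd _ _ hτa
      obtain ⟨⟨k1, k2, k3, k4⟩, _⟩ := (hY a ha).1 σ hσ
      by_cases hxρ : x ∈ ρ σ
      · rcases h3 σ k1 k2 x hxρ with h | h
        · exact Or.inl h
        · right; omega
      · obtain ⟨_, _, h7⟩ := h2 σ k1 k2 x hx hxρ
        right; omega
    have hX : ∀ a', XX K K0 l ρ R a' (b + bd y) = 0 := by
      intro a'
      rw [map_add, hy, map_sum, map_sum]
      have hterm : ∀ a ∈ A, XX K K0 l ρ R a' (bd (Y a)) =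
          if a = a' then XX K K0 l ρ R a' b else 0 := by
        intro a ha
        rw [hcomm a' (Y a) (by
          intro σ hσ
          obtain ⟨⟨k1, k2, k3, k4⟩, _⟩ := (hY a ha).1 σ hσ
          exact ⟨k1, Or.inr k4.le⟩)]
        split_ifs with haa
        · subst haa
          exact (hY a ha).2
        · have : XX K K0 l ρ R a' (Y a) = 0 := by
            have := lin_congr (XX K K0 l ρ R a') (0 : Ch α →ₗ[ZMod 2] Ch α) (Y a) (by
              intro τ hτ
              rw [LinearMap.zero_apply]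
              obtain ⟨⟨k1, k2, k3, k4⟩, _⟩ := (hY a ha).1 τ hτ
              exact XX_neg (fun h => haa (k3.symm.trans h.2.2.1)))
            simpa using this
          rw [this, map_zero]
      rw [Finset.sum_congr rfl hterm, Finset.sum_ite_eq']
      split_ifs with ha'
      · exact ch_add_self _
      · rw [add_zero]
        have := lin_congr (XX K K0 l ρ R a') (0 : Ch α →ₗ[ZMod 2] Ch α) b (by
          intro τ hτ
          rw [LinearMap.zero_apply]
          apply XX_neg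
          intro h
          apply ha'
          rw [hA, Finset.mem_image]
          exact ⟨τ, Finset.mem_filter.2 ⟨hτ, h.2.1, h.2.2.2⟩, h.2.2.1⟩)
        simpa using this
    have hbyK : On K s (b + bd y) :=
      hb.add (hyK.bd (fun σ hσ x _ => hK σ hσ _ (Finset.erase_subset _ _)))
    have g1 : ∀ σ ∈ (bd (b + bd y)).support, σ ∈ K0 := by
      rw [map_add, bd_bd, add_zero]
      exact hbd
    have g2 : ∀ σ ∈ (b + bd y).support, σ ∉ K0 → l σ < R := by
      intro σ hσ hσ0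
      have hle : l σ ≤ R := by
        rcases Finset.mem_union.1 (Finsupp.support_add hσ) with h | h
        · exact (hbR σ h).2.resolve_left hσ0
        · exact (hyR σ h).resolve_left hσ0
      refine lt_of_le_of_ne hle ?_
      intro hlR
      have hσK := (hbyK σ hσ).1
      rw [Finsupp.mem_support_iff] at hσ
      apply hσ
      rw [← XX_eval h1 ⟨hσK, hσ0, rfl, hlR⟩ (b + bd y), hX]
      rfl
    obtain ⟨y', hy'1, hy'2⟩ := ih (b + bd y) hbyK g1 g2
    refine ⟨y + y', hyK.add hy'1, ?_⟩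
    rw [map_add, ← add_assoc]
    exact hy'2

end

/-- FILTRATION LEMMA. -/
theorem FL {α : Type*} [DecidableEq α] {K K0 : Set (Finset α)} (l : Finset α → ℕ)
    (ρ : Finset α → Finset α) (s : ℕ)
    (hK : Down K) (hK0 : Down K0)
    (h1 : ∀ σ ∈ K, σ ∉ K0 → ρ σ ⊆ σ)
    (h2 : ∀ σ ∈ K, σ ∉ K0 → ∀ x ∈ σ, x ∉ ρ σ →
      σ.erase x ∉ K0 ∧ ρ (σ.erase x) = ρ σ ∧ l (σ.erase x) = l σ)
    (h3 : ∀ σ ∈ K, σ ∉ K0 → ∀ x ∈ ρ σ, σ.erase x ∈ K0 ∨ l (σ.erase x) < l σ)
    (h4 : ∀ a ∈ K, a ∉ K0 → ρ a = a → a.card ≤ s →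
      ExactAt {c | Disjoint c a ∧ c ∪ a ∈ K ∧ c ∪ a ∉ K0 ∧ ρ (c ∪ a) = a} (s - a.card))
    (b : Ch α) (hb : On K s b) (hbd : ∀ σ ∈ (bd b).support, σ ∈ K0) :
    ∃ y : Ch α, On K (s + 1) y ∧ ∀ σ ∈ (b + bd y).support, σ ∈ K0 := by
  refine FL_aux (l := l) (ρ := ρ) s hK hK0 h1 h2 h3 h4 (b.support.sup l + 1) b hb hbd ?_
  intro σ hσ _
  exact Nat.lt_succ_of_le (Finset.le_sup (f := l) hσ)

end Crest.Agent.R66
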