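import Crest.Agent.R66.LGCos
import Crest.Agent.R66.LDef

/-!
# Row 66, part (C), glue: the action of `U` on `VV F = ℤ →₀ F`  (helper24)

`Rm g e_b = ∑ⱼ coef g (cl b) j • e_{b + cl b - j}` (right action of matrices, `-b ≡ cl b mod m`),
`act u = Rm u⁻¹` (left action of `U`).
-/

set_option autoImplicit false
set_option linter.unusedSectionVars false

open Polynomial Matrix Finset

namespace Crest.Agent.R66

section
variable {F : Type} [Field F] {m : ℕ} [NeZero m]

/-- the class of `-b` modulo `m` -/
def cl (m : ℕ) [NeZero m] (b : ℤ) : Fin m :=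
  ⟨((-b) % (m : ℤ)).toNat, by
    have hm : (0 : ℤ) < m := by exact_mod_cast Nat.pos_of_ne_zero (NeZero.ne m)
    have h1 := Int.emod_nonneg (-b) hm.ne'
    have h2 := Int.emod_lt_of_pos (-b) hm
    omega⟩

theorem cl_val (b : ℤ) : ((cl m b : ℕ) : ℤ) = (-b) % (m : ℤ) := by
  have hm : (0 : ℤ) < m := by exact_mod_cast Nat.pos_of_ne_zero (NeZero.ne m)
  have h1 := Int.emod_nonneg (-b) hm.ne'
  show (((-b) % (m : ℤ)).toNat : ℤ) = _
  omega

theorem cl_spec (b : ℤ) : ∃ k : ℤ, -b = (cl m b : ℕ) + m * k :=
  ⟨(-b) / m, by rw [cl_val]; exact (Int.emod_add_mul_ediv (-b) m).symm⟩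

theorem cl_eq {b : ℤ} {a : Fin m} {k : ℤ} (h : -b = (a : ℕ) + m * k) : cl m b = a := by
  apply Fin.ext
  have h1 := cl_val (m := m) b
  rw [h, Int.add_mul_emod_self_left, Int.emod_eq_of_lt (by omega) (by exact_mod_cast a.2)] at h1
  exact_mod_cast h1

theorem cl_add_mul (b k : ℤ) : cl m (b + m * k) = cl m b := by
  obtain ⟨k', hk⟩ := cl_spec (m := m) b
  exact cl_eq (k := k' - k) (by rw [mul_sub]; linarith)

theorem cl_sub (b : ℤ) (i : ℕ) : cl m (b + (cl m b : ℕ) - i) = col m i := by
  obtain ⟨k', hk⟩ := cl_spec (m := m) b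
  refine cl_eq (k := k' + (i / m : ℕ)) ?_
  have h1 := col_add_div (m := m) i
  have h2 : ((col m i : ℕ) : ℤ) + m * ((i / m : ℕ) : ℤ) = i := by exact_mod_cast h1
  rw [mul_add]
  linarith

/-- coefficients are finitely supported -/
theorem exists_bnd (g : Matrix (Fin m) (Fin m) F[X]) :
    ∃ B : ℕ, ∀ a j, coef g a j ≠ 0 → j < B := by
  have hm : 0 < m := Nat.pos_of_ne_zero (NeZero.ne m)
  refine ⟨m * ((∑ a, ∑ b, (g a b).natDegree) + 1), fun a j h => ?_⟩
  unfold coef at h
  have h1 := Polynomial.le_natDegree_of_ne_zero h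
  have h2 : (g a (col m j)).natDegree ≤ ∑ a, ∑ b, (g a b).natDegree :=
    (Finset.single_le_sum (f := fun b => (g a b).natDegree) (fun _ _ => Nat.zero_le _)
      (Finset.mem_univ (col m j))).trans
      (Finset.single_le_sum (f := fun a => ∑ b, (g a b).natDegree) (fun _ _ => Nat.zero_le _)
        (Finset.mem_univ a))
  have h3 : j / m < (∑ a, ∑ b, (g a b).natDegree) + 1 := by omega
  have h4 := (Nat.div_lt_iff_lt_mul hm).1 h3
  rwa [mul_comm] at h4

/-- a bound for the codes of nonzero coefficients -/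
noncomputable def bnd (g : Matrix (Fin m) (Fin m) F[X]) : ℕ := (exists_bnd g).choose

theorem lt_bnd {g : Matrix (Fin m) (Fin m) F[X]} {a : Fin m} {j : ℕ} (h : coef g a j ≠ 0) :
    j < bnd g := (exists_bnd g).choose_spec a j h

/-- the right action of a matrix on `VV F` -/
noncomputable def Rm (g : Matrix (Fin m) (Fin m) F[X]) : VV F →ₗ[F] VV F :=
  Finsupp.linearCombination F fun b : ℤ =>
    ∑ j ∈ Finset.range (bnd g), Finsupp.single (b + (cl m b : ℕ) - j) (coef g (cl m b) j)

theorem Rm_single (g : Matrix (Fin m) (Fin m) F[X]) (b : ℤ) (x : F) :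
    Rm g (Finsupp.single b x) =
      x • ∑ j ∈ Finset.range (bnd g), Finsupp.single (b + (cl m b : ℕ) - j) (coef g (cl m b) j) := by
  unfold Rm
  rw [Finsupp.linearCombination_single]

theorem Rm_single_apply (g : Matrix (Fin m) (Fin m) F[X]) (b c : ℤ) :
    Rm g (Finsupp.single b 1) c =
      if 0 ≤ b + (cl m b : ℕ) - c then coef g (cl m b) (b + (cl m b : ℕ) - c).toNat else 0 := by
  rw [Rm_single, one_smul, Finsupp.finsetSum_apply]
  simp only [Finsupp.single_apply]
  split_ifs with h
  · by_cases h0 : coef g (cl m b) (b + (cl m b : ℕ) - c).toNat = 0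
    · rw [h0]
      refine Finset.sum_eq_zero fun j _ => ?_
      split_ifs with h1
      · have : (b + (cl m b : ℕ) - c).toNat = j := by omega
        rw [← this, h0]
      · rfl
    · rw [Finset.sum_eq_single (b + (cl m b : ℕ) - c).toNat]
      · rw [if_pos (by omega)]
      · intro j _ hj
        exact if_neg (by omega)
      · intro h1
        exact absurd (Finset.mem_range.2 (lt_bnd h0)) h1
  · exact Finset.sum_eq_zero fun j _ => if_neg (by omega)

/-- upper matrices -/
def Upp (g : Matrix (Fin m) (Fin m) F[X]) : Prop := ∀ a j, coef g a j ≠ 0 → (a : ℕ) ≤ j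

theorem upp_of_mem {J : Finset (Fin m)} {g : Matrix (Fin m) (Fin m) F[X]} (h : g ∈ PM J) : Upp g :=
  fun a j hj => (h.1 a j hj).1

theorem lin_ext_VV {W : Type*} [AddCommGroup W] [Module F W] {f g : VV F →ₗ[F] W}
    (h : ∀ b : ℤ, f (Finsupp.single b 1) = g (Finsupp.single b 1)) : f = g := by
  apply Finsupp.lhom_ext'
  intro b
  apply LinearMap.ext_ring
  simpa using h b

theorem Rm_mul (g h : Matrix (Fin m) (Fin m) F[X]) (hh : Upp h) (v : VV F) :
    Rm (g * h) v = Rm h (Rm g v) := by
  have : Rm (g * h) = (Rm h) ∘ₗ (Rm g) := by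
    apply lin_ext_VV
    intro b
    rw [LinearMap.comp_apply, Rm_single g, one_smul, map_sum]
    ext c
    rw [Finsupp.finsetSum_apply, Rm_single_apply]
    set a := cl m b with ha
    have e1 : ∀ j ∈ Finset.range (bnd g),
        (Rm h (Finsupp.single (b + (a : ℕ) - j) (coef g a j))) c =
        coef g a j * (if 0 ≤ b + (a : ℕ) - j + (col m j : ℕ) - c then
          coef h (col m j) (b + (a : ℕ) - j + (col m j : ℕ) - c).toNat else 0) := by
      intro j _
      have h1 : (Finsupp.single (b + (a : ℕ) - j) (coef g a j) : VV F) =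
          coef g a j • Finsupp.single (b + (a : ℕ) - j) 1 := by
        rw [Finsupp.smul_single, smul_eq_mul, mul_one]
      rw [h1, map_smul, Finsupp.smul_apply, smul_eq_mul, Rm_single_apply, ha, cl_sub]
    rw [Finset.sum_congr rfl e1]
    by_cases hc : 0 ≤ b + (a : ℕ) - c
    · rw [if_pos hc, coef_mul g h hh]
      set J := (b + (a : ℕ) - c).toNat with hJ
      have hJ' : (J : ℤ) = b + (a : ℕ) - c := by omega
      -- both sums extended to a common range
      have e2 : ∀ i : ℕ, coef g a i * (if 0 ≤ b + (a : ℕ) - i + (col m i : ℕ) - c then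
          coef h (col m i) (b + (a : ℕ) - i + (col m i : ℕ) - c).toNat else 0) =
          if i ≤ J then coef g a i * coef h (col m i) (J - i + i % m) else 0 := by
        intro i
        by_cases hi : i ≤ J
        · rw [if_pos hi, if_pos (by omega)]
          congr 2
          rw [col_val]
          omega
        · rw [if_neg hi]
          split_ifs with h1
          · have : coef h (col m i) (b + (a : ℕ) - i + (col m i : ℕ) - c).toNat = 0 := by
              by_contra h2
              have := hh _ _ h2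
              omega
            rw [this, mul_zero]
          · rw [mul_zero]
      rw [Finset.sum_congr rfl fun i _ => e2 i, ← Finset.sum_filter]
      have e3 : ∑ i ∈ Finset.range (J + 1), coef g a i * coef h (col m i) (J - i + i % m) =
          ∑ i ∈ (Finset.range (J + 1)).filter (fun i => i < bnd g),
            coef g a i * coef h (col m i) (J - i + i % m) := by
        rw [Finset.sum_filter]
        refine Finset.sum_congr rfl fun i _ => ?_
        split_ifs with h1
        · rfl
        · have : coef g a i = 0 := by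
            by_contra h2
            exact h1 (lt_bnd h2)
          rw [this, zero_mul]
      rw [e3]
      refine Finset.sum_congr ?_ fun _ _ => rfl
      ext i
      simp only [Finset.mem_filter, Finset.mem_range]
      omega
    · rw [if_neg hc]
      symm
      refine Finset.sum_eq_zero fun i _ => ?_
      split_ifs with h1
      · have : coef h (col m i) (b + (a : ℕ) - i + (col m i : ℕ) - c).toNat = 0 := by
          by_contra h2
          have := hh _ _ h2
          omega
        rw [this, mul_zero]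
      · rw [mul_zero]
  rw [this]; rfl

theorem Rm_one (v : VV F) : Rm (1 : Matrix (Fin m) (Fin m) F[X]) v = v := by
  have : Rm (1 : Matrix (Fin m) (Fin m) F[X]) = (LinearMap.id : VV F →ₗ[F] VV F) := by
    apply lin_ext_VV
    intro b
    ext c
    rw [Rm_single_apply, coef_one, LinearMap.id_apply, Finsupp.single_apply]
    by_cases hbc : b = c
    · subst hbc
      rw [if_pos (by omega), if_pos (by omega), if_pos rfl]
    · rw [if_neg hbc]
      split_ifs with h1 h2
      · omega
      · rfl
      · rfl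
  rw [this]; rfl

theorem Rm_sh (g : Matrix (Fin m) (Fin m) F[X]) (k : ℤ) (v : VV F) :
    Rm g (sh (m * k) v) = sh (m * k) (Rm g v) := by
  have : Rm g ∘ₗ (sh (m * k) : VV F ≃ₗ[F] VV F).toLinearMap =
      (sh (m * k) : VV F ≃ₗ[F] VV F).toLinearMap ∘ₗ Rm g := by
    apply lin_ext_VV
    intro b
    ext c
    simp only [LinearMap.comp_apply, LinearEquiv.coe_coe]
    rw [sh_single, sh_apply, Rm_single_apply, Rm_single_apply, cl_add_mul]
    have : b + m * k + (cl m b : ℕ) - c = b + (cl m b : ℕ) - (c - m * k) := by ring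
    rw [this]
  exact LinearMap.congr_fun this v

/-- the left action of `U` -/
noncomputable def act (u : UU F m) : VV F →ₗ[F] VV F :=
  Rm ((u⁻¹ : UU F m) : GL (Fin m) F[X]).val

theorem upp_U (u : UU F m) : Upp ((u : GL (Fin m) F[X]).val) := upp_of_mem u.2

theorem act_mul (u w : UU F m) (v : VV F) : act (u * w) v = act u (act w v) := by
  unfold act
  have h1 : (((u * w)⁻¹ : UU F m) : GL (Fin m) F[X]).val =
      ((w⁻¹ : UU F m) : GL (Fin m) F[X]).val * ((u⁻¹ : UU F m) : GL (Fin m) F[X]).val := by
    rw [_root_.mul_inv_rev]; rfl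
  rw [h1, Rm_mul _ _ (upp_U _)]

theorem act_one (v : VV F) : act (1 : UU F m) v = v := by
  unfold act
  have h1 : (((1 : UU F m)⁻¹ : UU F m) : GL (Fin m) F[X]).val = 1 := by
    rw [inv_one]; rfl
  rw [h1, Rm_one]

theorem act_inv_act (u : UU F m) (v : VV F) : act u⁻¹ (act u v) = v := by
  rw [← act_mul, inv_mul_cancel, act_one]

theorem act_act_inv (u : UU F m) (v : VV F) : act u (act u⁻¹ v) = v := by
  rw [← act_mul, mul_inv_cancel, act_one]

/-- image of a subspace -/
noncomputable def actS (u : UU F m) (M : Submodule F (VV F)) : Submodule F (VV F) := M.map (act u)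

theorem mem_actS {u : UU F m} {M : Submodule F (VV F)} {v : VV F} :
    v ∈ actS u M ↔ act u⁻¹ v ∈ M := by
  unfold actS
  constructor
  · rintro ⟨w, hw, rfl⟩
    rwa [act_inv_act]
  · intro h
    exact ⟨_, h, act_act_inv u v⟩

theorem actS_mul (u w : UU F m) (M : Submodule F (VV F)) : actS (u * w) M = actS u (actS w M) := by
  ext v
  rw [mem_actS, mem_actS, mem_actS, _root_.mul_inv_rev, act_mul]

theorem actS_one (M : Submodule F (VV F)) : actS (1 : UU F m) M = M := by
  ext v
  rw [mem_actS, inv_one, act_one]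

theorem actS_mono (u : UU F m) {M M' : Submodule F (VV F)} (h : M ≤ M') : actS u M ≤ actS u M' :=
  Submodule.map_mono h

theorem actS_inv_actS (u : UU F m) (M : Submodule F (VV F)) : actS u⁻¹ (actS u M) = M := by
  rw [← actS_mul, inv_mul_cancel, actS_one]

theorem actS_le_iff {u : UU F m} {M M' : Submodule F (VV F)} : actS u M ≤ actS u M' ↔ M ≤ M' := by
  refine ⟨fun h => ?_, actS_mono u⟩
  have := actS_mono u⁻¹ h
  rwa [actS_inv_actS, actS_inv_actS] at this

theorem shS_actS (u : UU F m) (k : ℤ) (M : Submodule F (VV F)) :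
    shS (m * k) (actS u M) = actS u (shS (m * k) M) := by
  ext v
  rw [mem_shS, mem_actS, mem_actS, mem_shS]
  have h : -((m : ℤ) * k) = m * (-k) := by ring
  rw [h]
  unfold act
  rw [Rm_sh]

theorem cl_mul_add_coe (b : ℤ) : (0 : ℤ) ≤ (cl m b : ℕ) := by positivity

/-- `Rm` of an upper matrix does not raise degrees -/
theorem Rm_mem_VL {g : Matrix (Fin m) (Fin m) F[X]} (hg : Upp g) {k : ℤ} {v : VV F}
    (hv : v ∈ VL k) : Rm g v ∈ VL k := by
  rw [← Finsupp.sum_single v, Finsupp.sum, map_sum]
  refine Submodule.sum_mem _ fun b hb => ?_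
  have hb' : b ≤ k := by
    by_contra h
    exact (Finsupp.mem_support_iff.1 hb) (hv b (by omega))
  have h1 : (Finsupp.single b (v b) : VV F) = v b • Finsupp.single b 1 := by
    rw [Finsupp.smul_single, smul_eq_mul, mul_one]
  rw [h1, map_smul]
  refine Submodule.smul_mem _ _ fun j hj => ?_
  rw [Rm_single_apply]
  split_ifs with h2
  · by_contra h3
    have := hg _ _ h3
    omega
  · rfl

theorem act_mem_VL (u : UU F m) {k : ℤ} {v : VV F} (hv : v ∈ VL k) : act u v ∈ VL k :=
  Rm_mem_VL (upp_U _) hv

theorem actS_VL (u : UU F m) (k : ℤ) : actS u (VL k : Submodule F (VV F)) = VL k := by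
  ext v
  rw [mem_actS]
  constructor
  · intro h
    have := act_mem_VL u h
    rwa [act_act_inv] at this
  · exact fun h => act_mem_VL _ h

/-- the leading coefficient is preserved -/
theorem Rm_single_self {g : Matrix (Fin m) (Fin m) F[X]} (hd : ∀ a : Fin m, coef g a a = 1) (b : ℤ) :
    Rm g (Finsupp.single b 1) b = 1 := by
  rw [Rm_single_apply, if_pos (by omega)]
  have : (b + (cl m b : ℕ) - b).toNat = (cl m b : ℕ) := by omega
  rw [this, hd]

/-- matrices avoiding the arrow `i` preserve `EE (-i-1+mk)` -/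
theorem Rm_mem_EE {i : Fin m} {g : Matrix (Fin m) (Fin m) F[X]}
    (hg : g ∈ PM (Finset.univ.erase i)) {v : VV F} (hv : v ∈ EE (-(i : ℕ) - 1 : ℤ)) :
    Rm g v ∈ EE (-(i : ℕ) - 1 : ℤ) := by
  rw [← Finsupp.sum_single v, Finsupp.sum, map_sum]
  refine Submodule.sum_mem _ fun b hb => ?_
  have hb' : -(i : ℕ) - 1 < b := by
    by_contra h
    exact (Finsupp.mem_support_iff.1 hb) (hv b (by omega))
  have h1 : (Finsupp.single b (v b) : VV F) = v b • Finsupp.single b 1 := by
    rw [Finsupp.smul_single, smul_eq_mul, mul_one]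
  rw [h1, map_smul]
  refine Submodule.smul_mem _ _ fun c hc => ?_
  rw [Rm_single_apply]
  split_ifs with h2
  · by_contra h3
    have h4 := hg.1 _ _ h3
    obtain ⟨k, hk⟩ := cl_spec (m := m) b
    -- the arrow `i`
    have h5 : (0 : ℤ) ≤ (i : ℕ) - m * k := by
      have := (cl m b).2
      have h6 := h4.1
      nlinarith [i.2]
    have h6 := h4.2 ((i : ℕ) - m * k : ℤ).toNat (by omega) (by omega)
    have h7 : col m ((i : ℕ) - m * k : ℤ).toNat = i := by
      apply Fin.ext
      rw [col_val]
      have h8 : ((((i : ℕ) - m * k : ℤ).toNat % m : ℕ) : ℤ) = ((i : ℕ) : ℤ) := by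
        push_cast
        rw [Int.toNat_of_nonneg h5, Int.sub_mul_emod_self_left]
        exact Int.emod_eq_of_lt (by omega) (by exact_mod_cast i.2)
      exact_mod_cast h8
    rw [h7] at h6
    exact absurd rfl (Finset.mem_erase.1 h6).1
  · rfl

end

end Crest.Agent.R66
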