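import Crest.Agent.R66.LGAct
import Crest.Agent.R66.LNrm

/-!
# Row 66, part (C), glue: the lattices `actS u (EE k)`  (helper24)
-/

set_option autoImplicit false
set_option linter.unusedSectionVars false

open Polynomial Matrix Finset

namespace Crest.Agent.R66

section
variable {F : Type} [Field F] {m : ℕ} [NeZero m]

theorem mpos : (0 : ℤ) < m := by exact_mod_cast Nat.pos_of_ne_zero (NeZero.ne m)

theorem mem_PM_of_stab {i : Fin m} {g : Matrix (Fin m) (Fin m) F[X]}
    (hg : g ∈ PM (Finset.univ : Finset (Fin m)))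
    (h : ∀ v ∈ (EE (-(i : ℕ) - 1 : ℤ) : Submodule F (VV F)), Rm g v ∈ EE (-(i : ℕ) - 1 : ℤ)) :
    g ∈ PM (Finset.univ.erase i) := by
  refine ⟨fun a j hj => ⟨(hg.1 a j hj).1, fun x hax hxj => ?_⟩, hg.2⟩
  refine Finset.mem_erase.2 ⟨fun e => ?_, Finset.mem_univ _⟩
  have hx := col_add_div (m := m) x
  rw [e] at hx
  set s := x / m with hs
  set b : ℤ := -(a : ℕ) + m * s with hb
  have hcl : cl m b = a := cl_eq (k := -s) (by rw [hb]; ring)
  have hx' : ((i : ℕ) : ℤ) + m * s = x := by exact_mod_cast hx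
  have h1 : (Finsupp.single b (1 : F) : VV F) ∈ EE (-(i : ℕ) - 1 : ℤ) := by
    intro c hc
    rw [Finsupp.single_apply, if_neg (by omega)]
  have h2 := h _ h1 (b + (a : ℕ) - j) (by omega)
  rw [Rm_single_apply, hcl, if_pos (by omega)] at h2
  have : (b + (a : ℕ) - (b + (a : ℕ) - (j : ℤ))).toNat = j := by omega
  rw [this] at h2
  exact hj h2

theorem stab_EE {i : Fin m} {u : UU F m} :
    actS u (EE (-(i : ℕ) - 1 : ℤ)) = EE (-(i : ℕ) - 1 : ℤ) ↔ u ∈ KUs F m (Finset.univ.erase i) := by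
  constructor
  · intro h
    have h1 : u⁻¹ ∈ KUs F m (Finset.univ.erase i) := by
      refine mem_PM_of_stab (u⁻¹).2 fun v hv => ?_
      have h2 : act u v ∈ actS u (EE (-(i : ℕ) - 1 : ℤ)) := ⟨v, hv, rfl⟩
      rw [h] at h2
      exact h2
    exact (Subgroup.inv_mem_iff _).1 h1
  · intro h
    have key : ∀ w : UU F m, w ∈ KUs F m (Finset.univ.erase i) →
        actS w (EE (-(i : ℕ) - 1 : ℤ)) ≤ EE (-(i : ℕ) - 1 : ℤ) := by
      rintro w hw _ ⟨v, hv, rfl⟩
      exact Rm_mem_EE (Subgroup.inv_mem _ hw) hv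
    refine le_antisymm (key u h) ?_
    have h1 := actS_mono u (key u⁻¹ (Subgroup.inv_mem _ h))
    rwa [← actS_mul, mul_inv_cancel, actS_one] at h1

theorem isCompl_EE_VL (k : ℤ) : IsCompl (EE k : Submodule F (VV F)) (VL k) := by
  constructor
  · rw [Submodule.disjoint_def]
    intro v h1 h2
    ext j
    rcases le_or_gt j k with h | h
    · exact h1 j h
    · exact h2 j h
  · rw [codisjoint_iff, eq_top_iff]
    intro v _
    rw [Submodule.mem_sup]
    refine ⟨v.filter (fun j => k < j), fun j hj => ?_, v.filter (fun j => ¬ k < j), fun j hj => ?_,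
      Finsupp.filter_add_filter_not v _⟩
    · rw [Finsupp.filter_apply, if_neg (by omega)]
    · rw [Finsupp.filter_apply, if_neg (by omega)]

theorem isCompl_actS (u : UU F m) {M : Submodule F (VV F)} {k : ℤ} (h : IsCompl M (VL k)) :
    IsCompl (actS u M) (VL k) := by
  constructor
  · rw [Submodule.disjoint_def]
    intro v h1 h2
    rw [mem_actS] at h1
    have h3 := act_mem_VL u⁻¹ h2
    have h4 : act u⁻¹ v = 0 := Submodule.disjoint_def.1 h.disjoint _ h1 h3
    rw [← act_act_inv u v, h4, map_zero]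
  · rw [codisjoint_iff, eq_top_iff]
    intro v _
    have h1 : act u⁻¹ v ∈ M ⊔ VL k := by
      rw [codisjoint_iff.1 h.codisjoint]; exact Submodule.mem_top
    obtain ⟨x, hx, y, hy, hxy⟩ := Submodule.mem_sup.1 h1
    rw [Submodule.mem_sup]
    refine ⟨act u x, ⟨x, hx, rfl⟩, act u y, act_mem_VL u hy, ?_⟩
    rw [← map_add, hxy, act_act_inv]

/-- monotonicity of the index -/
theorem compl_le {M M' : Submodule F (VV F)} {k k' : ℤ} (h : IsCompl M (VL k))
    (h' : IsCompl M' (VL k')) (hM : M ≤ M') : k' ≤ k := by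
  by_contra hc
  rw [not_le] at hc
  have h1 : (Finsupp.single k' (1 : F) : VV F) ∈ (VL k' : Submodule F (VV F)) := by
    intro j hj
    rw [Finsupp.single_apply, if_neg (by omega)]
  have h2 : (Finsupp.single k' (1 : F) : VV F) ∈ M ⊔ VL k := by
    rw [codisjoint_iff.1 h.codisjoint]; exact Submodule.mem_top
  obtain ⟨x, hx, y, hy, hxy⟩ := Submodule.mem_sup.1 h2
  have h3 : x ∈ (VL k' : Submodule F (VV F)) := by
    have : x = Finsupp.single k' (1 : F) - y := by rw [← hxy]; abel
    rw [this]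
    exact Submodule.sub_mem _ h1 (VL_mono hc.le hy)
  have h4 : x = 0 := Submodule.disjoint_def.1 h'.disjoint x (hM hx) h3
  rw [h4, zero_add] at hxy
  have h5 := hy k' hc
  rw [hxy, Finsupp.single_apply, if_pos rfl] at h5
  exact one_ne_zero h5

theorem compl_unique {M : Submodule F (VV F)} {k k' : ℤ} (h : IsCompl M (VL k))
    (h' : IsCompl M (VL k')) : k = k' :=
  le_antisymm (compl_le h' h le_rfl) (compl_le h h' le_rfl)

/-- `Rm` lowers degrees by a bounded amount -/
theorem Rm_EE {g : Matrix (Fin m) (Fin m) F[X]} {k : ℤ} {v : VV F} (hv : v ∈ EE k) :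
    Rm g v ∈ EE (k - bnd g) := by
  rw [← Finsupp.sum_single v, Finsupp.sum, map_sum]
  refine Submodule.sum_mem _ fun b hb => ?_
  have hb' : k < b := by
    by_contra h
    exact (Finsupp.mem_support_iff.1 hb) (hv b (by omega))
  have h1 : (Finsupp.single b (v b) : VV F) = v b • Finsupp.single b 1 := by
    rw [Finsupp.smul_single, smul_eq_mul, mul_one]
  rw [h1, map_smul]
  refine Submodule.smul_mem _ _ fun c hc => ?_
  rw [Rm_single_apply]
  split_ifs with h2
  · by_contra h3
    have h4 := lt_bnd h3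
    omega
  · rfl

theorem isLat_actS (u : UU F m) (k : ℤ) : IsLat m (actS u (EE k)) := by
  refine ⟨?_, ⟨k + bnd ((u : UU F m) : GL (Fin m) F[X]).val, fun v hv => ?_⟩,
    ⟨k - bnd ((u⁻¹ : UU F m) : GL (Fin m) F[X]).val, ?_⟩⟩
  · have h := shS_actS u 1 (EE k)
    rw [mul_one] at h
    rw [h, shS_EE]
    exact actS_mono u (EE_anti (by linarith [mpos (m := m)]))
  · rw [mem_actS]
    have h1 := Rm_EE (g := ((u⁻¹⁻¹ : UU F m) : GL (Fin m) F[X]).val)
      (k := k + bnd ((u : UU F m) : GL (Fin m) F[X]).val) hv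
    rw [inv_inv, add_sub_cancel_right] at h1
    unfold act
    rw [inv_inv]
    exact h1
  · rintro _ ⟨v, hv, rfl⟩
    exact Rm_EE hv

end

end Crest.Agent.R66
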