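import Crest.Agent.R66.LGLat

/-!
# Row 66, part (C), glue: `U` is transitive on the faces of `Xhat` of each type  (helper24)
-/

set_option autoImplicit false
set_option linter.unusedSectionVars false

open Polynomial Matrix Finset

namespace Crest.Agent.R66

section
variable {F : Type} [Field F] {m : ℕ} [NeZero m]

/-- matrix with prescribed rows -/
noncomputable def mkM (B : ℕ) (w : Fin m → VV F) : Matrix (Fin m) (Fin m) F[X] :=
  fun a c => ∑ k ∈ Finset.range B, monomial k (w a (-((c : ℕ) + m * k : ℕ) : ℤ))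

theorem coef_mkM {B : ℕ} {w : Fin m → VV F} (hB : ∀ a (j : ℤ), w a j ≠ 0 → -(B : ℤ) < j)
    (a : Fin m) (j : ℕ) : coef (mkM B w) a j = w a (-(j : ℤ)) := by
  unfold coef mkM
  rw [Polynomial.finsetSum_coeff]
  simp only [Polynomial.coeff_monomial]
  have hj := col_add_div (m := m) j
  by_cases h : j / m < B
  · rw [Finset.sum_eq_single (j / m)]
    · rw [if_pos rfl, hj]
    · intro k _ hk
      exact if_neg hk
    · intro h1; exact absurd (Finset.mem_range.2 h) h1
  · rw [Finset.sum_eq_zero]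
    · by_contra h1
      have h2 := hB a _ (Ne.symm h1)
      have h3 : j / m ≤ j := Nat.div_le_self j m
      omega
    · intro k hk
      rw [Finset.mem_range] at hk
      exact if_neg (by omega)

theorem mkM_mem {B : ℕ} {w : Fin m → VV F} (hB : ∀ a (j : ℤ), w a j ≠ 0 → -(B : ℤ) < j)
    (hw : ∀ a : Fin m, w a ∈ (VL (-(a : ℕ) : ℤ) : Submodule F (VV F)))
    (hw1 : ∀ a : Fin m, w a (-(a : ℕ) : ℤ) = 1) : mkM B w ∈ PM (Finset.univ : Finset (Fin m)) := by
  constructor
  · intro a j hj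
    rw [coef_mkM hB] at hj
    refine ⟨?_, fun i _ _ => Finset.mem_univ _⟩
    by_contra h
    exact hj (hw a _ (by omega))
  · intro a
    rw [coef_mkM hB, hw1]

theorem Rm_mkM {B : ℕ} {w : Fin m → VV F} (hB : ∀ a (j : ℤ), w a j ≠ 0 → -(B : ℤ) < j)
    (hw : ∀ a : Fin m, w a ∈ (VL (-(a : ℕ) : ℤ) : Submodule F (VV F))) (b : ℤ) :
    Rm (mkM B w) (Finsupp.single b 1) = sh (b + (cl m b : ℕ)) (w (cl m b)) := by
  ext c
  rw [Rm_single_apply, sh_apply]
  split_ifs with h
  · rw [coef_mkM hB]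
    congr 1
    omega
  · exact (hw (cl m b) _ (by omega)).symm

theorem exists_B (w : Fin m → VV F) : ∃ B : ℕ, ∀ a (j : ℤ), w a j ≠ 0 → -(B : ℤ) < j := by
  obtain ⟨S, hS⟩ : ∃ S : ℕ, ∀ a (j : ℤ), w a j ≠ 0 → j.natAbs ≤ S := by
    refine ⟨∑ a, ∑ j ∈ (w a).support, j.natAbs, fun a j hj => ?_⟩
    have h1 : j.natAbs ≤ ∑ j ∈ (w a).support, j.natAbs :=
      Finset.single_le_sum (f := fun j : ℤ => j.natAbs) (fun _ _ => Nat.zero_le _)
        (Finsupp.mem_support_iff.2 hj)
    have h2 : ∑ j ∈ (w a).support, j.natAbs ≤ ∑ a, ∑ j ∈ (w a).support, j.natAbs :=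
      Finset.single_le_sum (f := fun a : Fin m => ∑ j ∈ (w a).support, j.natAbs)
        (fun _ _ => Nat.zero_le _) (Finset.mem_univ a)
    exact h1.trans h2
  refine ⟨S + 1, fun a j hj => ?_⟩
  have := hS a j hj
  push_cast
  omega

/-- leading coefficients -/
theorem Rm_top {g : Matrix (Fin m) (Fin m) F[X]} (hg : g ∈ PM (Finset.univ : Finset (Fin m)))
    {t : ℤ} {x : VV F} (hx : x ∈ (VL t : Submodule F (VV F))) : Rm g x t = x t := by
  have h1 : x = (x - Finsupp.single t (x t)) + Finsupp.single t (x t) := by abel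
  have h2 : x - Finsupp.single t (x t) ∈ (VL (t - 1) : Submodule F (VV F)) := by
    intro j hj
    rw [Finsupp.sub_apply, Finsupp.single_apply]
    split_ifs with h3
    · rw [← h3, sub_self]
    · rw [hx j (by omega), sub_zero]
  have h3 := Rm_mem_VL (upp_of_mem hg) h2
  have h4 : (Finsupp.single t (x t) : VV F) = x t • Finsupp.single t 1 := by
    rw [Finsupp.smul_single, smul_eq_mul, mul_one]
  conv_lhs => rw [h1]
  rw [map_add, Finsupp.add_apply, h3 t (by omega), zero_add, h4, map_smul, Finsupp.smul_apply,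
    Rm_single_self hg.2, smul_eq_mul, mul_one]

theorem VL_of_Rm {g : Matrix (Fin m) (Fin m) F[X]} (hg : g ∈ PM (Finset.univ : Finset (Fin m)))
    {t : ℤ} {x : VV F} (h : Rm g x ∈ (VL t : Submodule F (VV F))) :
    x ∈ (VL t : Submodule F (VV F)) := by
  by_contra hx
  have hx0 : x.support.Nonempty := by
    rw [Finset.nonempty_iff_ne_empty, ne_eq, Finsupp.support_eq_empty]
    rintro rfl
    exact hx (Submodule.zero_mem _)
  set s := x.support.max' hx0 with hs
  have hs1 : x s ≠ 0 := Finsupp.mem_support_iff.1 (Finset.max'_mem _ hx0)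
  have hs2 : x ∈ (VL s : Submodule F (VV F)) := by
    intro j hj
    by_contra h1
    have := Finset.le_max' _ _ (Finsupp.mem_support_iff.2 h1)
    omega
  have hts : t < s := by
    by_contra h1
    exact hx (VL_mono (by omega) hs2)
  exact hs1 (by rw [← Rm_top hg hs2]; exact h s hts)

/-- faithfulness -/
theorem eq_one_of_Rm {g : Matrix (Fin m) (Fin m) F[X]}
    (h : ∀ a : Fin m, Rm g (Finsupp.single (-(a : ℕ) : ℤ) 1) = Finsupp.single (-(a : ℕ) : ℤ) 1) :
    g = 1 := by
  apply ext_coef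
  intro a j
  have hcl : cl m (-(a : ℕ) : ℤ) = a := cl_eq (k := 0) (by ring)
  have h1 := Rm_single_apply g (-(a : ℕ) : ℤ) (-(j : ℤ))
  rw [h a, hcl, if_pos (by omega)] at h1
  have h2 : (-(a : ℕ) + (a : ℕ) - (-(j : ℤ))).toNat = j := by omega
  rw [h2] at h1
  rw [← h1, coef_one, Finsupp.single_apply]
  by_cases h3 : j = a
  · rw [if_pos h3, if_pos (by omega)]
  · rw [if_neg h3, if_neg (by omega)]

/-- translates of the members of `σ` -/
def Tr (m : ℕ) (σ : Finset (Submodule F (VV F))) (M' : Submodule F (VV F)) : Prop :=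
  ∃ M ∈ σ, ∃ s : ℤ, M' = shS (m * s) M

theorem Tr.shift {σ : Finset (Submodule F (VV F))} {M : Submodule F (VV F)} (h : Tr m σ M) (s : ℤ) :
    Tr m σ (shS (m * s) M) := by
  obtain ⟨M0, hM0, t, rfl⟩ := h
  exact ⟨M0, hM0, s + t, by rw [shS_shS]; congr 1; ring⟩

theorem Tr.total {σ : Finset (Submodule F (VV F))} (hσ : σ ∈ Del F m)
    {M M' : Submodule F (VV F)} (h : Tr m σ M) (h' : Tr m σ M') : M ≤ M' ∨ M' ≤ M := by
  obtain ⟨M0, hM0, t, rfl⟩ := h
  obtain ⟨M1, hM1, t', rfl⟩ := h'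
  rcases hσ.2 M0 hM0 M1 hM1 (t - t') with h1 | h1
  · left
    have := shS_mono (c := (m * t' : ℤ)) h1
    rw [shS_shS] at this
    have e : (m : ℤ) * t' + m * (t - t') = m * t := by ring
    rwa [e] at this
  · right
    have := shS_mono (c := (m * t' : ℤ)) h1
    rw [shS_shS] at this
    have e : (m : ℤ) * t' + m * (t - t') = m * t := by ring
    rwa [e] at this

theorem isCompl_shS {M : Submodule F (VV F)} {k c : ℤ} (h : IsCompl M (VL k)) :
    IsCompl (shS c M) (VL (k + c)) := by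
  constructor
  · rw [Submodule.disjoint_def]
    intro v h1 h2
    rw [← shS_VL] at h2
    rw [mem_shS] at h1 h2
    have h3 : sh (-c) v = 0 := Submodule.disjoint_def.1 h.disjoint _ h1 h2
    have h4 : sh c (sh (-c) v) = v := by rw [sh_sh, add_neg_cancel, sh_zero]
    rw [← h4, h3, map_zero]
  · rw [codisjoint_iff, eq_top_iff]
    intro v _
    have h1 : sh (-c) v ∈ M ⊔ VL k := by
      rw [codisjoint_iff.1 h.codisjoint]; exact Submodule.mem_top
    obtain ⟨x, hx, y, hy, hxy⟩ := Submodule.mem_sup.1 h1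
    rw [Submodule.mem_sup]
    refine ⟨sh c x, sh_mem_shS.2 hx, sh c y, ?_, ?_⟩
    · rw [← shS_VL]; exact sh_mem_shS.2 hy
    · rw [← map_add, hxy, sh_sh, add_neg_cancel, sh_zero]

theorem Tr.compl {σ : Finset (Submodule F (VV F))} (hσ : σ ∈ Xhat F m)
    {M : Submodule F (VV F)} (h : Tr m σ M) : ∃ k : ℤ, IsCompl M (VL k) := by
  obtain ⟨M0, hM0, t, rfl⟩ := h
  obtain ⟨k, hk⟩ := hσ.2 M0 hM0
  exact ⟨_, isCompl_shS hk⟩

theorem eq_of_compl {M M' : Submodule F (VV F)} {k : ℤ} (h : IsCompl M (VL k))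
    (h' : IsCompl M' (VL k)) (hM : M ≤ M') : M = M' := by
  refine le_antisymm hM fun x hx => ?_
  have h1 : x ∈ M ⊔ VL k := by
    rw [codisjoint_iff.1 h.codisjoint]; exact Submodule.mem_top
  obtain ⟨y, hy, z, hz, hyz⟩ := Submodule.mem_sup.1 h1
  have h2 : z ∈ M' := by
    have : z = x - y := by rw [← hyz]; abel
    rw [this]
    exact Submodule.sub_mem _ hx (hM hy)
  have h3 : z = 0 := Submodule.disjoint_def.1 h'.disjoint z h2 hz
  rw [h3, add_zero] at hyz
  rwa [← hyz]

/-- the vector `w_a` -/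
theorem exists_w {σ : Finset (Submodule F (VV F))} (hσ : σ ∈ Xhat F m) (hne : σ.Nonempty) (b : ℤ) :
    ∃ w : VV F, w ∈ (VL b : Submodule F (VV F)) ∧ w b = 1 ∧
      ∀ M k, Tr m σ M → IsCompl M (VL k) → k < b → w ∈ M := by
  have hm := mpos (m := m)
  have hex : ∃ k : ℤ, k < b ∧ ∃ M, Tr m σ M ∧ IsCompl M (VL k) := by
    obtain ⟨M0, hM0⟩ := hne
    obtain ⟨k0, hk0⟩ := hσ.2 M0 hM0
    refine ⟨k0 + m * (-(|k0| + |b| + 1)), ?_, _, Tr.shift ⟨M0, hM0, 0, by simp⟩ _, isCompl_shS hk0⟩
    nlinarith [le_abs_self k0, neg_abs_le b, abs_nonneg k0, abs_nonneg b]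
  obtain ⟨k, ⟨hkb, M, hM, hMk⟩, hmax⟩ := Int.exists_greatest_of_bdd
    (P := fun k : ℤ => k < b ∧ ∃ M, Tr m σ M ∧ IsCompl M (VL k)) ⟨b, fun z hz => hz.1.le⟩ hex
  have h1 : (Finsupp.single b (1 : F) : VV F) ∈ M ⊔ VL k := by
    rw [codisjoint_iff.1 hMk.codisjoint]; exact Submodule.mem_top
  obtain ⟨x, hx, y, hy, hxy⟩ := Submodule.mem_sup.1 h1
  have hx' : x = Finsupp.single b (1 : F) - y := by rw [← hxy]; abel
  refine ⟨x, ?_, ?_, fun M' k' hM' hMk' hk' => ?_⟩
  · intro j hj
    rw [hx', Finsupp.sub_apply, Finsupp.single_apply, if_neg (by omega), hy j (by omega), sub_zero]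
  · rw [hx', Finsupp.sub_apply, Finsupp.single_apply, if_pos rfl, hy b hkb, sub_zero]
  · have h2 := hmax k' ⟨hk', M', hM', hMk'⟩
    rcases hM.total hσ.1 hM' with h3 | h3
    · exact h3 hx
    · have h4 := compl_le hMk' hMk h3
      obtain rfl : k = k' := le_antisymm h4 h2
      rwa [eq_of_compl hMk' hMk h3]

/-- TRANSITIVITY -/
theorem trans_Xhat {σ : Finset (Submodule F (VV F))} (hσ : σ ∈ Xhat F m) :
    ∃ u : UU F m, ∀ M ∈ σ, ∃ k : ℤ, M = actS u (EE k) := by
  have hm := mpos (m := m)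
  rcases σ.eq_empty_or_nonempty with rfl | hne
  · exact ⟨1, by simp⟩
  choose w hw1 hw2 hw3 using fun a : Fin m => exists_w hσ hne (-(a : ℕ) : ℤ)
  obtain ⟨B, hB⟩ := exists_B w
  set g := mkM B w with hg
  have hgP : g ∈ PM (Finset.univ : Finset (Fin m)) := mkM_mem hB hw1 hw2
  -- the image of basis vectors
  have hmem : ∀ M k, Tr m σ M → IsCompl M (VL k) → ∀ b : ℤ, k < b →
      Rm g (Finsupp.single b 1) ∈ M := by
    intro M k hM hMk b hb
    rw [hg, Rm_mkM hB hw1]
    obtain ⟨k', hk'⟩ := cl_spec (m := m) b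
    have e : b + (cl m b : ℕ) = m * (-k') := by rw [mul_neg]; linarith
    have h1 : w (cl m b) ∈ shS (m * k') M := by
      refine hw3 (cl m b) _ (k + m * k') (hM.shift k') (isCompl_shS hMk) ?_
      linarith
    rw [mem_shS] at h1
    rw [e]
    have e2 : (m : ℤ) * (-k') = -(m * k') := by ring
    rw [e2]
    exact h1
  have himg : ∀ M k, Tr m σ M → IsCompl M (VL k) → M = (EE k).map (Rm g) := by
    intro M k hM hMk
    apply le_antisymm
    · have key : ∀ n : ℕ, ∀ v ∈ M, v ∈ (VL (k + n) : Submodule F (VV F)) →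
          v ∈ (EE k).map (Rm g) := by
        intro n
        induction n with
        | zero =>
          intro v hv hv2
          have : v = 0 := Submodule.disjoint_def.1 hMk.disjoint v hv (by simpa using hv2)
          rw [this]; exact Submodule.zero_mem _
        | succ n ih =>
          intro v hv hv2
          set b : ℤ := k + (n + 1 : ℕ) with hb
          have hbk : k < b := by rw [hb]; push_cast; omega
          have hRb := hmem M k hM hMk b hbk
          have h1 : v - v b • Rm g (Finsupp.single b 1) ∈ (EE k).map (Rm g) := by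
            refine ih _ (Submodule.sub_mem _ hv (Submodule.smul_mem _ _ hRb)) ?_
            intro j hj
            rw [Finsupp.sub_apply, Finsupp.smul_apply, smul_eq_mul]
            rcases eq_or_ne j b with rfl | hjb
            · rw [Rm_single_self hgP.2, mul_one, sub_self]
            · have hjb' : b < j := by
                have : (n : ℤ) + 1 = ((n + 1 : ℕ) : ℤ) := by push_cast; ring
                omega
              rw [hv2 j hjb']
              have h2 : Rm g (Finsupp.single b 1) ∈ (VL b : Submodule F (VV F)) := by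
                refine Rm_mem_VL (upp_of_mem hgP) fun i hi => ?_
                rw [Finsupp.single_apply, if_neg (by omega)]
              rw [h2 j hjb', mul_zero, sub_zero]
          have h2 : v b • Rm g (Finsupp.single b 1) ∈ (EE k).map (Rm g) := by
            refine Submodule.smul_mem _ _ ⟨_, fun j hj => ?_, rfl⟩
            rw [Finsupp.single_apply, if_neg (by omega)]
          have h3 := Submodule.add_mem _ h1 h2
          rwa [sub_add_cancel] at h3
      intro v hv
      obtain ⟨n, hn⟩ : ∃ n : ℕ, v ∈ (VL (k + n) : Submodule F (VV F)) := by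
        obtain ⟨S, hS⟩ : ∃ S : ℕ, ∀ j : ℤ, v j ≠ 0 → j.natAbs ≤ S :=
          ⟨∑ j ∈ v.support, j.natAbs, fun j hj =>
            Finset.single_le_sum (f := fun j : ℤ => j.natAbs) (fun _ _ => Nat.zero_le _)
              (Finsupp.mem_support_iff.2 hj)⟩
        refine ⟨S + k.natAbs, fun j hj => ?_⟩
        by_contra h1
        have h2 := hS j h1
        have h3 : ((S + k.natAbs : ℕ) : ℤ) = (S : ℤ) + (k.natAbs : ℤ) := Nat.cast_add _ _
        rw [h3] at hj
        omega
      exact key n v hv hn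
    · rintro _ ⟨v, hv, rfl⟩
      rw [← Finsupp.sum_single v, Finsupp.sum, map_sum]
      refine Submodule.sum_mem _ fun b hb => ?_
      have hb' : k < b := by
        by_contra h
        exact (Finsupp.mem_support_iff.1 hb) (hv b (by omega))
      have h1 : (Finsupp.single b (v b) : VV F) = v b • Finsupp.single b 1 := by
        rw [Finsupp.smul_single, smul_eq_mul, mul_one]
      rw [h1, map_smul]
      exact Submodule.smul_mem _ _ (hmem M k hM hMk b hb')
  -- surjectivity
  have hsurj : ∀ b : ℤ, ∃ x, Rm g x = Finsupp.single b 1 := by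
    intro b
    obtain ⟨M0, hM0⟩ := hne
    obtain ⟨c, hc⟩ := (hσ.1.1 M0 hM0).lat.lo
    have h1 : Tr m σ (shS (m * (-(|c| + |b| + 1))) M0) := ⟨M0, hM0, _, rfl⟩
    obtain ⟨k, hk⟩ := h1.compl hσ
    have h2 : (Finsupp.single b (1 : F) : VV F) ∈ shS (m * (-(|c| + |b| + 1))) M0 := by
      refine shS_mono hc ?_
      rw [shS_EE]
      intro j hj
      rw [Finsupp.single_apply, if_neg]
      intro h3
      nlinarith [le_abs_self c, neg_abs_le b, abs_nonneg c, abs_nonneg b]
    rw [himg _ k h1 hk] at h2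
    obtain ⟨x, _, hx⟩ := h2
    exact ⟨x, hx⟩
  choose x hx using fun a : Fin m => hsurj (-(a : ℕ) : ℤ)
  have hxV : ∀ a : Fin m, x a ∈ (VL (-(a : ℕ) : ℤ) : Submodule F (VV F)) := by
    intro a
    apply VL_of_Rm hgP
    rw [hx]
    intro j hj
    rw [Finsupp.single_apply, if_neg (by omega)]
  obtain ⟨B', hB'⟩ := exists_B x
  set h := mkM B' x with hh
  have hgh : h * g = 1 := by
    apply eq_one_of_Rm
    intro a
    rw [Rm_mul _ _ (upp_of_mem hgP), hh, Rm_mkM hB' hxV]
    have hcl : cl m (-(a : ℕ) : ℤ) = a := cl_eq (k := 0) (by ring)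
    rw [hcl, neg_add_cancel, sh_zero, hx]
  have hhg : g * h = 1 := mul_eq_one_comm.1 hgh
  set G : GL (Fin m) F[X] := ⟨g, h, hhg, hgh⟩ with hG
  have hGU : G ∈ UU F m := hgP
  refine ⟨(⟨G, hGU⟩ : UU F m)⁻¹, fun M hM => ?_⟩
  obtain ⟨k, hk⟩ := hσ.2 M hM
  refine ⟨k, ?_⟩
  rw [himg M k ⟨M, hM, 0, by simp⟩ hk]
  unfold actS act
  rw [inv_inv]

end

end Crest.Agent.R66
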