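import Crest.Agent.R66.LBM
import Crest.Agent.R66.LNrm

/-!
# Row 66, piece L_GAP: a face with few vertices has a long gap (helper62)

PROOF. `a` is a finite chain (`Adj` at `k = 0`) of normalised lattices; let `M1` be its largest
element. `BM M1 \ BM (shS m M1)` has `m` elements (`BM_card`). Send `b` in this set to the smallest
`M ∈ a` with `b ∈ BM M`. Pigeonhole (`Finset.exists_le_card_fiber_of_mul_le_card_of_maps_to`): some
`N ∈ a` has a fibre with `≥ D` elements. Let `N'` be the largest element of `a` which is `< N` if there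
is one, `N' = shS m M1` otherwise. The fibre of `N` is contained in `BM N \ BM N'`.
`PGap`: translates `shS (m*k) M`, `M ∈ a`: `k = 0`: `M ≤ N'` or `N ≤ M` by the choice of `N'` (if `N` is the
smallest element of `a` then `N ≤ M`); `k ≥ 1`: `shS (m*k) M ≤ shS m M1 ≤ N'`; `k ≤ -1`:
`N ≤ M1 ≤ shS (-m) M` (adjacency of `M1`, `M`: `adj_iff`). `N' ≠ N`, `N' ≤ N`; `shS m N ≤ N'`.
-/

set_option autoImplicit false
set_option linter.unusedSectionVars false

namespace Crest.Agent.R66

variable {F : Type*} [Field F] {m : ℕ}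

/-- `(N', N)` is a gap of the periodic chain of the face `a` -/
structure PGap (m : ℕ) (a : Finset (Submodule F (VV F))) (N' N : Submodule F (VV F)) : Prop where
  top : ∃ M ∈ a, ∃ k : ℤ, N = shS (m * k) M
  bot : ∃ M ∈ a, ∃ k : ℤ, N' = shS (m * k) M
  lt : N' < N
  shift : shS (m : ℤ) N ≤ N'
  gap : ∀ M ∈ a, ∀ k : ℤ, shS (m * k) M ≤ N' ∨ N ≤ shS (m * k) M

theorem exists_gap (hm : 0 < m) {a : Finset (Submodule F (VV F))} (ha : a ∈ Del F m)
    (hne : a.Nonempty) {D : ℕ} (hD : a.card * D ≤ m) :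
    ∃ N' N : Submodule F (VV F), PGap m a N' N ∧ D ≤ (BM N \ BM N').ncard := by
  classical
  obtain ⟨hnrm, hadj⟩ := ha
  have htot : ∀ M ∈ a, ∀ M' ∈ a, M ≤ M' ∨ M' ≤ M := by
    intro M hM M' hM'
    exact ((adj_iff (hnrm M hM) (hnrm M' hM')).1 (hadj M hM M' hM')).1
  have hsh : ∀ M ∈ a, ∀ M' ∈ a, shS (m : ℤ) M ≤ M' := by
    intro M hM M' hM'
    exact ((adj_iff (hnrm M hM) (hnrm M' hM')).1 (hadj M hM M' hM')).2.1
  -- the largest element
  obtain ⟨M1, hM1⟩ := a.exists_maximal hne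
  have hM1a : M1 ∈ a := hM1.1
  have hM1max : ∀ M ∈ a, M ≤ M1 := by
    intro M hM
    rcases htot M hM M1 hM1a with h | h
    · exact h
    · exact hM1.2 hM h
  have hlat : ∀ M ∈ a, IsLat m M := fun M hM => (hnrm M hM).lat
  have hcard := BM_card hm (hlat M1 hM1a)
  have hfin : (BM M1 \ BM (shS (m : ℤ) M1)).Finite :=
    Set.finite_of_ncard_pos (by rw [hcard]; exact hm)
  -- smallest member of `a` with `b` in its degree set
  have hmin : ∀ b, b ∈ BM M1 → ∃ M, M ∈ a ∧ b ∈ BM M ∧ ∀ M' ∈ a, b ∈ BM M' → M ≤ M' := by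
    intro b hb
    obtain ⟨M, hM⟩ := (a.filter fun M => b ∈ BM M).exists_minimal
      ⟨M1, Finset.mem_filter.2 ⟨hM1a, hb⟩⟩
    have h1 := Finset.mem_filter.1 hM.1
    refine ⟨M, h1.1, h1.2, ?_⟩
    intro M' hM' hb'
    rcases htot M h1.1 M' hM' with h | h
    · exact h
    · exact hM.2 (Finset.mem_filter.2 ⟨hM', hb'⟩) h
  choose! f hf1 hf2 hf3 using hmin
  obtain ⟨N, hN, hND⟩ := Finset.exists_le_card_fiber_of_mul_le_card_of_maps_to
    (s := hfin.toFinset) (t := a) (f := f) (n := D)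
    (fun b hb => hf1 b ((Set.Finite.mem_toFinset hfin).1 hb).1) hne
    (by rw [← Set.ncard_eq_toFinset_card _ hfin, hcard]; exact hD)
  -- the predecessor
  have hpred : ∃ N' : Submodule F (VV F), (∃ M ∈ a, ∃ k : ℤ, N' = shS (m * k) M) ∧ N' < N ∧
      (∀ M ∈ a, shS (m : ℤ) M ≤ N') ∧ (∀ M ∈ a, M ≤ N' ∨ N ≤ M) ∧
      (∀ b, b ∈ BM M1 → b ∉ BM (shS (m : ℤ) M1) → f b = N → b ∉ BM N') ∧ IsLat m N' := by
    by_cases hlow : (a.filter fun M => M < N).Nonempty
    · obtain ⟨N', hN'⟩ := (a.filter fun M => M < N).exists_maximal hlow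
      have h1 := Finset.mem_filter.1 hN'.1
      refine ⟨N', ⟨N', h1.1, 0, by simp⟩, h1.2, fun M hM => hsh M hM N' h1.1, ?_, ?_,
        hlat N' h1.1⟩
      · intro M hM
        rcases htot N hN M hM with h | h
        · exact Or.inr h
        · rcases eq_or_lt_of_le h with h2 | h2
          · exact Or.inr h2.ge
          · left
            rcases htot M hM N' h1.1 with h3 | h3
            · exact h3
            · exact hN'.2 (Finset.mem_filter.2 ⟨hM, h2⟩) h3
      · intro b hb _ hfb hb'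
        have := hf3 b hb N' h1.1 hb'
        rw [hfb] at this
        exact absurd h1.2 (not_lt_of_ge this)
    · refine ⟨shS (m : ℤ) M1, ⟨M1, hM1a, 1, by simp⟩, ?_, ?_, ?_, ?_, (hlat M1 hM1a).shS _⟩
      · refine lt_of_le_of_ne (hsh M1 hM1a N hN) ?_
        intro h
        apply (hnrm N hN).nle
        rw [← h]
        have := shS_mono (c := (m : ℤ)) (hnrm M1 hM1a).le0
        rwa [shS_EE, zero_add] at this
      · intro M hM
        exact shS_mono (hM1max M hM)
      · intro M hM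
        right
        rcases htot N hN M hM with h | h
        · exact h
        · by_contra h2
          apply hlow
          exact ⟨M, Finset.mem_filter.2 ⟨hM, lt_of_le_not_ge h h2⟩⟩
      · intro b _ hb _
        exact hb
  obtain ⟨N', hbot, hlt, hs1, hgap, hfib, hlat'⟩ := hpred
  refine ⟨N', N, ⟨⟨N, hN, 0, by simp⟩, hbot, hlt, hs1 N hN, ?_⟩, ?_⟩
  · intro M hM k
    rcases lt_trichotomy k 0 with hk | hk | hk
    · right
      have h1 : N ≤ shS ((m : ℤ) * (-1)) M := by
        have := hsh N hN M hM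
        rw [shS_le_comm] at this
        rwa [mul_neg_one]
      exact h1.trans (shS_anti (hlat M hM).st (by omega))
    · subst hk
      rw [mul_zero, shS_zero]
      exact hgap M hM
    · left
      have h1 : shS ((m : ℤ) * k) M ≤ shS ((m : ℤ) * 1) M := shS_anti (hlat M hM).st (by omega)
      rw [mul_one] at h1
      exact h1.trans (hs1 M hM)
  · refine hND.trans ?_
    obtain ⟨i, hi⟩ := (hlat N hN).hi
    obtain ⟨j, hj⟩ := hlat'.lo
    rw [← Set.ncard_coe_finset]
    apply Set.ncard_le_ncard _ (BM_finite hi hj)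
    intro b hb
    rw [Finset.mem_coe, Finset.mem_filter, Set.Finite.mem_toFinset] at hb
    obtain ⟨⟨hb1, hb2⟩, hb3⟩ := hb
    refine ⟨?_, hfib b hb1 hb2 hb3⟩
    rw [← hb3]
    exact hf2 b hb1

end Crest.Agent.R66
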