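import Crest.Agent.R66.LIv
import Crest.Agent.R66.LNrm
import Crest.Agent.R66.LSep

/-!
# Row 66, piece L_HCOV: every inversion of a face is dominated by a private one (helper62)

PROOF. Let `σ ∈ Del F m`, `v ∈ σ`, `p = (y, x) ∈ Iv m v`. Apply `sep_unique` to
`C = {BM (shS (m*k) M) | M ∈ σ, k : ℤ}` (a chain by `Adj` and `BM_mono`; for two members
`shS (m*k) M`, `shS (m*k') M'` use `Adj m M M'` at `k - k'`), `y < x`.
Separators form a finite set: `y ∈ BM (shS (m*k) M)` bounds `k` above, `x ∉ BM (shS (m*k) M)` bounds `k`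
below (`M ≤ EE a`, `EE b ≤ M`), `σ` is finite. Nonempty by `mem_Iv_iff`.
We get `A = BM (shS (m*k) w)`, `w ∈ σ`, separating `(y, x)`, so `p ∈ Iv m w` (`mem_Iv_iff`), and
`y' < x'` with `A` as only separator. `q = (y' - m c, x' - m c)` from `mem_Iv_of`; `q ∈ Iv m w`. If
`q ∈ Iv m u`, `u ∈ σ`, then `BM (shS (m*k') u) = A` for some `k'`; `shS (m*k') u` and
`shS (m*k) w` are comparable, so equal by `BM_le`, hence `u = shS (m*(k-k')) w` is a translate of
`w`, both are normalised, so `u = w` (`nrm_unique`).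
-/

set_option autoImplicit false
set_option linter.unusedSectionVars false

namespace Crest.Agent.R66

variable {F : Type*} [Field F] {m : ℕ}

theorem Del_cover (hm : 0 < m) {σ : Finset (Submodule F (VV F))} (hσ : σ ∈ Del F m)
    {v : Submodule F (VV F)} (hv : v ∈ σ) {p : ℤ × ℤ} (hp : p ∈ Iv m v) :
    ∃ w ∈ σ, p ∈ Iv m w ∧ ∃ q ∈ Iv m w, ∀ u ∈ σ, u ≠ w → q ∉ Iv m u := by
  set C : Set (Set ℤ) := {A | ∃ M ∈ σ, ∃ k : ℤ, A = BM (shS (m * k) M)} with hCdef
  have hcmp : ∀ M ∈ σ, ∀ M' ∈ σ, ∀ k k' : ℤ,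
      shS (m * k) M ≤ shS (m * k') M' ∨ shS (m * k') M' ≤ shS (m * k) M := by
    intro M hM M' hM' k k'
    have e : shS (m * k') (shS (m * (k - k')) M) = shS (m * k) M := by
      rw [shS_shS]
      congr 1
      ring
    rcases hσ.2 M hM M' hM' (k - k') with h | h
    · left
      have := shS_mono (c := m * k') h
      rwa [e] at this
    · right
      have := shS_mono (c := m * k') h
      rwa [e] at this
  have hC : ∀ A ∈ C, ∀ B ∈ C, A ⊆ B ∨ B ⊆ A := by
    rintro A ⟨M, hM, k, rfl⟩ B ⟨M', hM', k', rfl⟩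
    rcases hcmp M hM M' hM' k k' with h | h
    · exact Or.inl (BM_mono h)
    · exact Or.inr (BM_mono h)
  have hle : ∀ M ∈ σ, ∀ k : ℤ, shS (m * k) M ≤ EE (m * k) := by
    intro M hM k
    have h0 := shS_mono (c := m * k) (hσ.1 M hM).le0
    rw [shS_EE] at h0
    simpa using h0
  obtain ⟨hp1, hp2, hp3, k0, hk1, hk2⟩ := mem_Iv_iff.1 hp
  have hmZ : (1 : ℤ) ≤ m := by exact_mod_cast hm
  have hfin : {A | A ∈ C ∧ p.1 ∈ A ∧ p.2 ∉ A}.Finite := by
    have hsub : {A | A ∈ C ∧ p.1 ∈ A ∧ p.2 ∉ A} ⊆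
        ⋃ M ∈ σ, (fun k : ℤ => BM (shS (m * k) M)) ''
          {k : ℤ | p.1 ∈ BM (shS (m * k) M) ∧ p.2 ∉ BM (shS (m * k) M)} := by
      rintro A ⟨⟨M, hM, k, rfl⟩, h1, h2⟩
      simp only [Set.mem_iUnion]
      exact ⟨M, hM, k, ⟨h1, h2⟩, rfl⟩
    refine Set.Finite.subset ?_ hsub
    refine Set.Finite.biUnion (Finset.finite_toSet σ) fun M hM => ?_
    refine Set.Finite.image _ ?_
    obtain ⟨b, hb⟩ := (hσ.1 M hM).lat.lo
    have hBb := BM_mono hb
    rw [BM_EE] at hBb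
    have hBa := BM_mono (hσ.1 M hM).le0
    rw [BM_EE] at hBa
    refine (Set.finite_Icc (min 0 (p.2 - b)) (max 0 p.1)).subset ?_
    rintro k ⟨h1, h2⟩
    rw [mem_BM_shS] at h1 h2
    have h1' : 0 < p.1 - m * k := hBa h1
    have h2' : p.2 - m * k ≤ b := by
      by_contra hcon
      exact h2 (hBb (lt_of_not_ge hcon))
    constructor
    · by_cases hk : 0 ≤ k
      · exact (min_le_left _ _).trans hk
      · refine (min_le_right _ _).trans ?_
        have : (m : ℤ) * k ≤ k := by nlinarith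
        linarith
    · by_cases hk : k ≤ 0
      · exact hk.trans (le_max_left _ _)
      · refine le_trans ?_ (le_max_right _ _)
        have : k ≤ (m : ℤ) * k := by nlinarith
        linarith
  obtain ⟨A, ⟨w, hw, k, rfl⟩, ⟨hA1, hA2⟩, y', x', hyx', ⟨hy', hx'⟩, huniq⟩ :=
    sep_unique C hC p.1 p.2 hp1 hfin ⟨_, ⟨v, hv, k0, rfl⟩, hk1, hk2⟩
  refine ⟨w, hw, mem_Iv_iff.2 ⟨hp1, hp2, hp3, k, hA1, hA2⟩, ?_⟩
  obtain ⟨c, hc⟩ := mem_Iv_of (F := F) (m := m) hm hyx'
  refine ⟨_, (hc w).2 ⟨k, hy', hx'⟩, fun u hu huw hqu => ?_⟩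
  obtain ⟨k', hk'1, hk'2⟩ := (hc u).1 hqu
  have hBeq := huniq _ ⟨u, hu, k', rfl⟩ hk'1 hk'2
  have heq : shS (m * k') u = shS (m * k) w := by
    rcases hcmp u hu w hw k' k with h | h
    · exact le_antisymm h (BM_le h (hle w hw k) hBeq.ge)
    · exact le_antisymm (BM_le h (hle u hu k') hBeq.le) h
  have hu' : u = shS (m * (k - k')) w := by
    have := congrArg (shS (m * (-k'))) heq
    rw [shS_shS, shS_shS] at this
    have e1 : (m : ℤ) * -k' + m * k' = 0 := by ring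
    have e2 : (m : ℤ) * -k' + m * k = m * (k - k') := by ring
    rw [e1, e2, shS_zero] at this
    exact this
  apply huw
  rw [hu']
  exact nrm_unique (hσ.1 w hw) (hu' ▸ hσ.1 u hu)

end Crest.Agent.R66
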