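import Crest.Agent.R66.LBM

/-!
# Row 66, piece L_INT1: an adapted complement of `N'` in `N` (helper62)

PROOF. `b` enumerates the finite set `BM N \ BM N'` increasingly (`Finset.orderEmbOfFin` of its
`toFinset`). For each `i` choose `u i ∈ N` with leading index `b i`, and `Φ c = ∑ i, c i • u i`
(`Fintype.linearCombination` or `Basis.constr`). `Φ c` for `c ≠ 0` has leading index `b i`, `i` the
largest index with `c i ≠ 0` (the other `u j`, `j < i`, vanish at and above `b i`): `lead`.
`inf`: if `Φ c ∈ N'`, `c ≠ 0`, then its leading index is in `BM N'` and equals some `b i ∉ BM N'`.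
`sup`: let `v ∈ N`; strong induction on the leading index `d` of `v` (bounded below by `a`): if
`d ∈ BM N'` subtract a multiple of an element of `N'`, otherwise `d = b i`, subtract a multiple of
`u i = Φ (Pi.single i 1)`. (Or: `BM_le` applied to `N' ⊔ range Φ ≤ N`.)
-/

set_option autoImplicit false
set_option linter.unusedSectionVars false

namespace Crest.Agent.R66

variable {F : Type*} [Field F]

/-- `Φ` is an adapted complement of `N'` in `N` with degrees `b` -/
structure Adapted (N' N : Submodule F (VV F)) (D : ℕ) (b : Fin D → ℤ)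
    (Φ : (Fin D → F) →ₗ[F] VV F) : Prop where
  mono : StrictMono b
  range : Set.range b = BM N \ BM N'
  lead : ∀ (c : Fin D → F) (i : Fin D), c i ≠ 0 → (∀ j, i < j → c j = 0) →
    Φ c (b i) ≠ 0 ∧ ∀ j, b i < j → Φ c j = 0
  inf : ∀ c : Fin D → F, Φ c ∈ N' → c = 0
  mem : ∀ c : Fin D → F, Φ c ∈ N
  sup : ∀ v ∈ N, ∃ c : Fin D → F, v - Φ c ∈ N'

theorem exists_adapted {N' N : Submodule F (VV F)} (h : N' ≤ N) {a : ℤ} (ha : N ≤ EE a)
    (hfin : (BM N \ BM N').Finite) :
    ∃ (b : Fin (BM N \ BM N').ncard → ℤ) (Φ : (Fin (BM N \ BM N').ncard → F) →ₗ[F] VV F),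
      Adapted N' N (BM N \ BM N').ncard b Φ := by
  classical
  have hcard : hfin.toFinset.card = (BM N \ BM N').ncard :=
    (Set.ncard_eq_toFinset_card _ hfin).symm
  generalize hD : (BM N \ BM N').ncard = D at hcard ⊢
  let b : Fin D → ℤ := hfin.toFinset.orderEmbOfFin hcard
  have hmono : StrictMono b := (hfin.toFinset.orderEmbOfFin hcard).strictMono
  have hrange : Set.range b = BM N \ BM N' := by
    show Set.range (hfin.toFinset.orderEmbOfFin hcard) = _
    rw [Finset.range_orderEmbOfFin]
    exact hfin.coe_toFinset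
  have hb : ∀ i, b i ∈ BM N \ BM N' := fun i => hrange ▸ Set.mem_range_self i
  choose u hu hu1 hu2 using fun i => (hb i).1
  let Φ : (Fin D → F) →ₗ[F] VV F := Fintype.linearCombination F u
  have hΦ : ∀ c, Φ c = ∑ i, c i • u i := fun c => Fintype.linearCombination_apply F u c
  have hΦa : ∀ c j, Φ c j = ∑ i, c i * u i j := by
    intro c j
    rw [hΦ, Finsupp.finsetSum_apply]
    rfl
  have hlead : ∀ (c : Fin D → F) (i : Fin D), c i ≠ 0 → (∀ j, i < j → c j = 0) →
      Φ c (b i) ≠ 0 ∧ ∀ j, b i < j → Φ c j = 0 := by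
    intro c i hc hj
    constructor
    · rw [hΦa, Finset.sum_eq_single_of_mem i (Finset.mem_univ i)]
      · exact mul_ne_zero hc (hu1 i)
      · intro k _ hk
        rcases lt_or_gt_of_ne hk with h1 | h1
        · rw [hu2 k _ (hmono h1), mul_zero]
        · rw [hj k h1, zero_mul]
    · intro j hj'
      rw [hΦa]
      apply Finset.sum_eq_zero
      intro k _
      rcases le_or_gt k i with h1 | h1
      · rw [hu2 k _ (lt_of_le_of_lt (hmono.monotone h1) hj'), mul_zero]
      · rw [hj k h1, zero_mul]
  have hmem : ∀ c : Fin D → F, Φ c ∈ N := by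
    intro c
    rw [hΦ]
    exact Submodule.sum_mem _ fun i _ => Submodule.smul_mem _ _ (hu i)
  refine ⟨b, Φ, hmono, hrange, hlead, ?_, hmem, ?_⟩
  · intro c hc
    by_contra hne
    have hex : (Finset.univ.filter fun i => c i ≠ 0).Nonempty := by
      obtain ⟨i, hi⟩ := Function.ne_iff.1 hne
      exact ⟨i, Finset.mem_filter.2 ⟨Finset.mem_univ i, hi⟩⟩
    let i := (Finset.univ.filter fun i => c i ≠ 0).max' hex
    have hi : c i ≠ 0 := (Finset.mem_filter.1 (Finset.max'_mem _ hex)).2
    have hi2 : ∀ j, i < j → c j = 0 := by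
      intro j hj
      by_contra h0
      have := Finset.le_max' (Finset.univ.filter fun i => c i ≠ 0) j
        (Finset.mem_filter.2 ⟨Finset.mem_univ j, h0⟩)
      exact absurd hj (not_lt.2 this)
    have h1 := hlead c i hi hi2
    exact (hb i).2 ⟨Φ c, hc, h1.1, h1.2⟩
  · have hle : N ≤ N' ⊔ LinearMap.range Φ := by
      refine BM_le (a := a) ?_ ha ?_
      · refine sup_le h ?_
        rintro _ ⟨c, rfl⟩
        exact hmem c
      · intro d hd
        by_cases hd' : d ∈ BM N'
        · exact BM_mono le_sup_left hd'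
        · have : d ∈ Set.range b := by rw [hrange]; exact ⟨hd, hd'⟩
          obtain ⟨i, rfl⟩ := this
          have h1 := hlead (Pi.single i 1) i (by simp) (by
            intro j hj
            rw [Pi.single_eq_of_ne hj.ne'])
          exact ⟨Φ (Pi.single i 1), Submodule.mem_sup_right (LinearMap.mem_range_self Φ _),
            h1.1, h1.2⟩
    intro v hv
    obtain ⟨y, hy, z, ⟨c, rfl⟩, rfl⟩ := Submodule.mem_sup.1 (hle hv)
    exact ⟨c, by rwa [add_sub_cancel_right]⟩

end Crest.Agent.R66
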