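import Crest.Agent.R66.LIv
import Crest.Agent.R66.LGap

/-!
# Row 66, piece L_SORT: an inserted lattice creates no new inversion iff it is sorted (helper62)

PROOF of `Iv_subset_iff`. Let `N' ≤ M ≤ N`.
(⇐) `p = (y, x) ∈ Iv m M`; put `Y = y + m k < X = x + m k`, `Y ∈ BM M`, `X ∉ BM M`. If `Y ∈ BM N'`:
`X ∉ BM N'` (`BM_mono`), so `(Y, X)` is separated by `N' = shS (m*j) w`, `w ∈ a`, so `p ∈ Iv m w`. If
`X ∉ BM N`: `Y ∈ BM N`, separated by `N`, the same. Otherwise `X ∈ BM N \ BM M`, `Y ∈ BM M \ BM N'`,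
so `X < Y`, contradiction.
(⇒) let `x ∈ BM N \ BM M`, `y ∈ BM M \ BM N'`, suppose `¬ x < y`; `x ≠ y`, so `y < x`; by `mem_Iv_of`
the pair (normalised) is in `Iv m M`, so in `Iv m w` for some `w ∈ a`: it is separated by some
`shS (m*k) w`; but `shS (m*k) w ≤ N'` would give `y ∈ BM N'`, and `N ≤ shS (m*k) w` gives
`x ∈ BM (shS (m*k) w)`. Contradiction.
-/

set_option autoImplicit false
set_option linter.unusedSectionVars false

namespace Crest.Agent.R66

variable {F : Type*} [Field F] {m : ℕ}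

/-- sortedness of `M` between `N'` and `N` -/
def Srt (N' M N : Submodule F (VV F)) : Prop :=
  ∀ x ∈ BM N \ BM M, ∀ y ∈ BM M \ BM N', x < y

theorem Iv_subset_iff (hm : 0 < m) {a : Finset (Submodule F (VV F))}
    {N' N M : Submodule F (VV F)} (hg : PGap m a N' N) (h1 : N' ≤ M) (h2 : M ≤ N) :
    Iv m M ⊆ (⋃ w ∈ a, Iv m w) ↔ Srt N' M N := by
  constructor
  · intro hI x hx y hy
    by_contra hlt
    have hne : x ≠ y := by
      rintro rfl
      exact hx.2 hy.1
    have hyx : y < x := lt_of_le_of_ne (not_lt.1 hlt) (Ne.symm hne)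
    obtain ⟨c, hc⟩ := mem_Iv_of (F := F) hm hyx
    have h0 : (y - m * c, x - m * c) ∈ Iv m M := by
      rw [hc M]
      refine ⟨0, ?_, ?_⟩
      · rw [mul_zero, shS_zero]; exact hy.1
      · rw [mul_zero, shS_zero]; exact hx.2
    have h3 := hI h0
    simp only [Set.mem_iUnion] at h3
    obtain ⟨w, hw, h4⟩ := h3
    obtain ⟨k, hk1, hk2⟩ := (hc w).1 h4
    rcases hg.gap w hw k with h | h
    · exact hy.2 (BM_mono h hk1)
    · exact hk2 (BM_mono h hx.1)
  · intro hS p hp
    obtain ⟨h3, h4, h5, k, hk1, hk2⟩ := hp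
    have key : ∀ w ∈ a, ∀ j : ℤ, p.1 + m * k ∈ BM (shS (m * j) w) →
        p.2 + m * k ∉ BM (shS (m * j) w) → p ∈ ⋃ w ∈ a, Iv m w := by
      intro w hw j e1 e2
      simp only [Set.mem_iUnion]
      refine ⟨w, hw, h3, h4, h5, k - j, ?_, ?_⟩
      · rw [mem_BM_shS] at e1
        have : p.1 + (m : ℤ) * (k - j) = p.1 + m * k - m * j := by ring
        rw [this]
        exact e1
      · rw [mem_BM_shS] at e2
        have : p.2 + (m : ℤ) * (k - j) = p.2 + m * k - m * j := by ring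
        rw [this]
        exact e2
    by_cases hY : p.1 + m * k ∈ BM N'
    · obtain ⟨w, hw, j, hj⟩ := hg.bot
      refine key w hw j ?_ ?_
      · rw [← hj]; exact hY
      · rw [← hj]; exact fun h => hk2 (BM_mono h1 h)
    · by_cases hX : p.2 + m * k ∈ BM N
      · have := hS _ ⟨hX, hk2⟩ _ ⟨hk1, hY⟩
        omega
      · obtain ⟨w, hw, j, hj⟩ := hg.top
        refine key w hw j ?_ ?_
        · rw [← hj]; exact BM_mono h2 hk1
        · rw [← hj]; exact hX

end Crest.Agent.R66
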