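import Crest.Agent.R66.LInt1
import Crest.Agent.R66.LSort
import Crest.Agent.R66.FDefs

/-!
# Row 66, piece L_INT2: the interval `[N', N]` is the subspace lattice of `Fin D → F` (helper62)

With an adapted complement `Φ` (`Adapted N' N D b Φ`):
`lflg i = {c | c j = 0 for i ≤ j}`, `lup W = N' ⊔ W.map Φ`, `ldn M = M.comap Φ`.
PROOFS. `lup_le`, `le_lup`, `ldn_lup` (`inf`), `lup_ldn` (`sup`, modular law), `up_le_lup` formal.
`isFlag_lflg`: `lflg i` is spanned by the first `i` basis vectors: `finrank = i` for `i ≤ D`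
(linear equivalence with `Fin i → F`, or `Pi`/`Finsupp.supported`).
-/

set_option autoImplicit false
set_option linter.unusedSectionVars false

namespace Crest.Agent.R66

open Module

variable {F : Type*} [Field F]

/-- the standard flag -/
def lflg (F : Type*) [Field F] (D : ℕ) (i : ℕ) : Submodule F (Fin D → F) where
  carrier := {c | ∀ j : Fin D, i ≤ (j : ℕ) → c j = 0}
  add_mem' := by
    intro a b ha hb j hj
    simp [ha j hj, hb j hj]
  zero_mem' := by intro j _; rfl
  smul_mem' := by
    intro c x hx j hj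
    simp [hx j hj]

/-- subspace of `Fin D → F` to lattice between `N'` and `N` -/
noncomputable def lup (N' : Submodule F (VV F)) {D : ℕ} (Φ : (Fin D → F) →ₗ[F] VV F)
    (W : Submodule F (Fin D → F)) : Submodule F (VV F) := N' ⊔ W.map Φ

/-- inverse of `lup` -/
noncomputable def ldn {D : ℕ} (Φ : (Fin D → F) →ₗ[F] VV F) (M : Submodule F (VV F)) :
    Submodule F (Fin D → F) := M.comap Φ

theorem mem_lflg {D i : ℕ} {c : Fin D → F} :
    c ∈ lflg F D i ↔ ∀ j : Fin D, i ≤ (j : ℕ) → c j = 0 := Iff.rfl

theorem finrank_lflg (D i : ℕ) (hi : i ≤ D) : finrank F (lflg F D i) = i := by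
  let f : lflg F D i →ₗ[F] (Fin i → F) :=
    { toFun := fun c j => (c : Fin D → F) (Fin.castLE hi j)
      map_add' := fun a b => rfl
      map_smul' := fun a b => rfl }
  have hf : Function.Bijective f := by
    constructor
    · intro a b hab
      apply Subtype.ext
      funext j
      by_cases hj : (j : ℕ) < i
      · have := congrFun hab ⟨j, hj⟩
        exact this
      · rw [a.2 j (by omega), b.2 j (by omega)]
    · intro c
      refine ⟨⟨fun j => if h : (j : ℕ) < i then c ⟨j, h⟩ else 0, ?_⟩, ?_⟩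
      · intro j hj
        simp only [dif_neg (not_lt.2 hj)]
      · funext j
        simp only [f, LinearMap.coe_mk, AddHom.coe_mk, Fin.val_castLE, j.2, dif_pos, Fin.eta]
  have := (LinearEquiv.ofBijective f hf).finrank_eq
  rw [this, finrank_fin_fun]

theorem isFlag_lflg (D : ℕ) : IsFlag (lflg F D) := by
  constructor
  · intro i j hij c hc k hk
    exact hc k (le_trans hij hk)
  · intro i hi
    rw [finrank_fin_fun] at hi
    exact finrank_lflg D i hi

variable {N' N : Submodule F (VV F)} {D : ℕ} {b : Fin D → ℤ} {Φ : (Fin D → F) →ₗ[F] VV F}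

theorem le_lup (W : Submodule F (Fin D → F)) : N' ≤ lup N' Φ W := le_sup_left

theorem lup_le (h : N' ≤ N) (hA : Adapted N' N D b Φ) (W : Submodule F (Fin D → F)) :
    lup N' Φ W ≤ N := by
  refine sup_le h ?_
  rw [Submodule.map_le_iff_le_comap]
  intro c _
  exact hA.mem c

theorem ldn_lup (hA : Adapted N' N D b Φ) (W : Submodule F (Fin D → F)) :
    ldn Φ (lup N' Φ W) = W := by
  apply le_antisymm
  · intro c hc
    have hc' : Φ c ∈ N' ⊔ W.map Φ := hc
    obtain ⟨n, hn, w', hw', hs⟩ := Submodule.mem_sup.1 hc'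
    obtain ⟨w, hw, rfl⟩ := hw'
    have h1 : Φ (c - w) ∈ N' := by
      rw [map_sub, ← hs, add_sub_cancel_right]
      exact hn
    have h2 := hA.inf _ h1
    rw [sub_eq_zero] at h2
    rw [h2]
    exact hw
  · intro c hc
    show Φ c ∈ N' ⊔ W.map Φ
    exact Submodule.mem_sup_right (Submodule.mem_map_of_mem hc)

theorem lup_ldn (hA : Adapted N' N D b Φ) {M : Submodule F (VV F)} (h1 : N' ≤ M) (h2 : M ≤ N) :
    lup N' Φ (ldn Φ M) = M := by
  apply le_antisymm
  · refine sup_le h1 ?_
    rw [Submodule.map_le_iff_le_comap]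
    exact le_rfl
  · intro v hv
    obtain ⟨c, hc⟩ := hA.sup v (h2 hv)
    have h3 : Φ c ∈ M := by
      have := M.sub_mem hv (h1 hc)
      rwa [sub_sub_cancel] at this
    have : v = (v - Φ c) + Φ c := by rw [sub_add_cancel]
    rw [this]
    exact Submodule.add_mem_sup hc (Submodule.mem_map_of_mem h3)

theorem up_le_lup (hA : Adapted N' N D b Φ) {W W' : Submodule F (Fin D → F)} :
    lup N' Φ W ≤ lup N' Φ W' ↔ W ≤ W' := by
  constructor
  · intro h
    rw [← ldn_lup hA W, ← ldn_lup hA W']
    exact Submodule.comap_mono h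
  · intro h
    exact sup_le_sup_left (Submodule.map_mono h) _

theorem lup_bot : lup N' Φ ⊥ = N' := by
  unfold lup
  rw [Submodule.map_bot, sup_bot_eq]

theorem lup_top (h : N' ≤ N) (hA : Adapted N' N D b Φ) : lup N' Φ ⊤ = N := by
  have h1 : ldn Φ N = ⊤ := by
    rw [eq_top_iff]
    intro c _
    exact hA.mem c
  rw [← h1]
  exact lup_ldn hA h le_rfl

end Crest.Agent.R66
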