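import Crest.Agent.R66.LInt2

/-!
# Row 66, piece L_INT3: opposite subspaces = sorted lattices (helper62)

`DW = {i : Fin D | ∃ c ∈ W, c i ≠ 0 ∧ ∀ j > i, c j = 0}`.
`BM_lup`: `BM (lup W) = BM N' ∪ {b i | i ∈ DW}`:
⊇ by `lead`; ⊆: `v = n + Φ c`, `n ∈ N'`, `c ∈ W`: leading index of `Φ c` is `b i ∉ BM N'`, so it differs
from the leading index of `n`; the leading index of the sum is the larger one.
`card_DW`: `#DW = finrank W` (e.g. induction on `i`: `finrank (W ⊓ lflg (i+1)) = finrank (W ⊓ lflg i) + 1`
if `i ∈ DW`, equal otherwise: the `i`-th coordinate is a linear functional on `W ⊓ lflg (i+1)` with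
kernel `W ⊓ lflg i`).
`opp_iff`: `Srt N' (lup W) N` iff `DW` is an up-set in `Fin D` (range `b = BM N \ BM N'`, `b` strictly
monotone) iff no element of `DW` is `< D - #DW` iff `W ⊓ lflg (D - finrank W) = ⊥`.
-/

set_option autoImplicit false
set_option linter.unusedSectionVars false

namespace Crest.Agent.R66

open Module

variable {F : Type*} [Field F]

/-- leading indices of the vectors of `W` -/
def DW {D : ℕ} (W : Submodule F (Fin D → F)) : Set (Fin D) :=
  {i | ∃ c ∈ W, c i ≠ 0 ∧ ∀ j, i < j → c j = 0}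

/-- a nonzero vector has a largest index -/
theorem exists_last {D : ℕ} {c : Fin D → F} (hc : c ≠ 0) :
    ∃ i, c i ≠ 0 ∧ ∀ j, i < j → c j = 0 := by
  classical
  have hne : (Finset.univ.filter fun i => c i ≠ 0).Nonempty := by
    obtain ⟨i, hi⟩ := Function.ne_iff.1 hc
    exact ⟨i, by simpa using hi⟩
  refine ⟨(Finset.univ.filter fun i => c i ≠ 0).max' hne, ?_, ?_⟩
  · have := Finset.max'_mem _ hne
    exact (Finset.mem_filter.1 this).2
  · intro j hj
    by_contra h
    have := Finset.le_max' (Finset.univ.filter fun i => c i ≠ 0) j (by simpa using h)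
    exact absurd hj (not_lt.2 this)

theorem lflg_zero (D : ℕ) : lflg F D 0 = ⊥ := by
  rw [eq_bot_iff]
  intro c hc
  rw [Submodule.mem_bot]
  funext j
  exact hc j (Nat.zero_le _)

theorem lflg_top (D : ℕ) : lflg F D D = ⊤ := by
  rw [eq_top_iff]
  intro c _ j hj
  exact absurd j.2 (not_lt.2 hj)

theorem card_DW_aux {D : ℕ} (W : Submodule F (Fin D → F)) (i : ℕ) (hi : i ≤ D) :
    (DW W ∩ {j : Fin D | (j : ℕ) < i}).ncard = finrank F (W ⊓ lflg F D i : Submodule F _) := by
  induction i with
  | zero =>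
    rw [lflg_zero, inf_bot_eq, finrank_bot]
    simp
  | succ i ih =>
    have hi' : i < D := hi
    have ih := ih (by omega)
    set T : Submodule F (Fin D → F) := W ⊓ lflg F D (i + 1) with hT
    let f : T →ₗ[F] F := (LinearMap.proj (⟨i, hi'⟩ : Fin D)).domRestrict T
    have hfa : ∀ c : T, f c = (c : Fin D → F) ⟨i, hi'⟩ := fun c => rfl
    have hle : W ⊓ lflg F D i ≤ T := by
      intro c hc
      exact ⟨hc.1, fun j hj => hc.2 j (by omega)⟩
    have hker : LinearMap.ker f = (W ⊓ lflg F D i).comap T.subtype := by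
      ext c
      rw [LinearMap.mem_ker, hfa, Submodule.mem_comap]
      constructor
      · intro h
        refine ⟨c.2.1, ?_⟩
        intro j hj
        rcases Nat.lt_or_ge i (j : ℕ) with h1 | h1
        · exact c.2.2 j (by omega)
        · have : j = ⟨i, hi'⟩ := Fin.ext (by simp; omega)
          rw [this]
          exact h
      · intro h
        exact h.2 ⟨i, hi'⟩ le_rfl
    have hkc : finrank F (LinearMap.ker f) = finrank F (W ⊓ lflg F D i : Submodule F _) := by
      rw [hker]
      exact (Submodule.comapSubtypeEquivOfLe hle).finrank_eq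
    have hrn := LinearMap.finrank_range_add_finrank_ker f
    rw [hkc, ← ih] at hrn
    by_cases hd : (⟨i, hi'⟩ : Fin D) ∈ DW W
    · have hset : DW W ∩ {j : Fin D | (j : ℕ) < i + 1} =
          insert (⟨i, hi'⟩ : Fin D) (DW W ∩ {j : Fin D | (j : ℕ) < i}) := by
        ext j
        simp only [Set.mem_inter_iff, Set.mem_setOf_eq, Set.mem_insert_iff]
        constructor
        · rintro ⟨h1, h2⟩
          rcases Nat.lt_or_ge (j : ℕ) i with h3 | h3
          · exact Or.inr ⟨h1, h3⟩
          · exact Or.inl (Fin.ext (by simp; omega))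
        · rintro (rfl | ⟨h1, h2⟩)
          · exact ⟨hd, by simp⟩
          · exact ⟨h1, by omega⟩
      rw [hset, Set.ncard_insert_of_notMem (by simp) (Set.toFinite _)]
      have hr : finrank F (LinearMap.range f) = 1 := by
        obtain ⟨c, hcW, hc1, hc2⟩ := hd
        have hcT : c ∈ T := ⟨hcW, fun j hj => hc2 j (by
          rw [Fin.lt_def]
          show i < (j : ℕ)
          omega)⟩
        have hf0 : f ≠ 0 := by
          intro h
          have := congrArg (fun g : T →ₗ[F] F => g ⟨c, hcT⟩) h
          exact hc1 this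
        rw [LinearMap.range_eq_top.2 (LinearMap.surjective hf0), finrank_top, finrank_self]
      omega
    · have hset : DW W ∩ {j : Fin D | (j : ℕ) < i + 1} = DW W ∩ {j : Fin D | (j : ℕ) < i} := by
        ext j
        simp only [Set.mem_inter_iff, Set.mem_setOf_eq]
        constructor
        · rintro ⟨h1, h2⟩
          refine ⟨h1, ?_⟩
          rcases Nat.lt_or_ge (j : ℕ) i with h3 | h3
          · exact h3
          · exfalso
            apply hd
            have : j = ⟨i, hi'⟩ := Fin.ext (by simp; omega)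
            rwa [this] at h1
        · rintro ⟨h1, h2⟩
          exact ⟨h1, by omega⟩
      rw [hset]
      have hf0 : f = 0 := by
        ext c
        by_contra h
        apply hd
        refine ⟨c, c.2.1, h, ?_⟩
        intro j hj
        exact c.2.2 j hj
      have hr : finrank F (LinearMap.range f) = 0 := by
        rw [hf0, LinearMap.range_zero, finrank_bot]
      omega

theorem card_DW {D : ℕ} (W : Submodule F (Fin D → F)) : (DW W).ncard = finrank F W := by
  have := card_DW_aux W D le_rfl
  rw [lflg_top, inf_top_eq] at this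
  rw [← this]
  congr 1
  ext j
  simp

variable {N' N : Submodule F (VV F)} {D : ℕ} {b : Fin D → ℤ} {Φ : (Fin D → F) →ₗ[F] VV F}

theorem Adapted.b_mem (hA : Adapted N' N D b Φ) (i : Fin D) : b i ∈ BM N \ BM N' := by
  rw [← hA.range]
  exact ⟨i, rfl⟩

theorem BM_lup (hA : Adapted N' N D b Φ) (W : Submodule F (Fin D → F)) :
    BM (lup N' Φ W) = BM N' ∪ b '' DW W := by
  apply Set.Subset.antisymm
  · rintro β ⟨v, hv, hv1, hv2⟩
    have hv' : v ∈ N' ⊔ W.map Φ := hv
    obtain ⟨n, hn, w', hw', hs⟩ := Submodule.mem_sup.1 hv'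
    obtain ⟨c, hc, rfl⟩ := hw'
    by_cases hc0 : c = 0
    · left
      rw [hc0, map_zero, add_zero] at hs
      rw [← hs] at hv1 hv2
      exact ⟨n, hn, hv1, hv2⟩
    · obtain ⟨i, hi1, hi2⟩ := exists_last hc0
      obtain ⟨hl1, hl2⟩ := hA.lead c i hi1 hi2
      have hvj : ∀ j, v j = n j + Φ c j := fun j => by rw [← hs]; rfl
      rcases lt_trichotomy β (b i) with h | h | h
      · exfalso
        refine (hA.b_mem i).2 ⟨n, hn, ?_, ?_⟩
        · intro h0
          have h1 := hv2 (b i) h
          rw [hvj, h0, zero_add] at h1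
          exact hl1 h1
        · intro j hj
          have h1 := hv2 j (h.trans hj)
          rw [hvj, hl2 j hj, add_zero] at h1
          exact h1
      · right
        exact ⟨i, ⟨c, hc, hi1, hi2⟩, h.symm⟩
      · left
        refine ⟨n, hn, ?_, ?_⟩
        · rw [hvj, hl2 β h, add_zero] at hv1
          exact hv1
        · intro j hj
          have h1 := hv2 j hj
          rw [hvj, hl2 j (h.trans hj), add_zero] at h1
          exact h1
  · rintro β (hβ | ⟨i, ⟨c, hc, hc1, hc2⟩, rfl⟩)
    · exact BM_mono (le_lup W) hβ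
    · obtain ⟨hl1, hl2⟩ := hA.lead c i hc1 hc2
      exact ⟨Φ c, Submodule.mem_sup_right (Submodule.mem_map_of_mem hc), hl1, hl2⟩

theorem BM_top (h : N' ≤ N) (hA : Adapted N' N D b Φ) : BM N = BM N' ∪ Set.range b := by
  rw [hA.range, Set.union_sdiff_self]
  exact (Set.union_eq_right.2 (BM_mono h)).symm

theorem Srt_lup_iff (h : N' ≤ N) (hA : Adapted N' N D b Φ) (W : Submodule F (Fin D → F)) :
    Srt N' (lup N' Φ W) N ↔ ∀ i ∉ DW W, ∀ j ∈ DW W, i < j := by
  unfold Srt
  rw [BM_lup hA W]
  constructor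
  · intro hS i hi j hj
    rw [← hA.mono.lt_iff_lt]
    apply hS
    · refine ⟨(hA.b_mem i).1, ?_⟩
      rintro (h1 | ⟨k, hk, hke⟩)
      · exact (hA.b_mem i).2 h1
      · rw [hA.mono.injective hke] at hk
        exact hi hk
    · exact ⟨Or.inr ⟨j, hj, rfl⟩, (hA.b_mem j).2⟩
  · intro hI x hx y hy
    have hx1 : x ∈ Set.range b := by
      have := hx.1
      rw [BM_top h hA] at this
      rcases this with h1 | h1
      · exact absurd (Or.inl h1) hx.2
      · exact h1
    obtain ⟨i, rfl⟩ := hx1
    rcases hy.1 with h1 | ⟨j, hj, rfl⟩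
    · exact absurd h1 hy.2
    · rw [hA.mono.lt_iff_lt]
      apply hI i _ j hj
      intro hi
      exact hx.2 (Or.inr ⟨i, hi, rfl⟩)

theorem inf_lflg_eq_bot_iff {D : ℕ} (W : Submodule F (Fin D → F)) (k : ℕ) :
    W ⊓ lflg F D k = ⊥ ↔ ∀ j ∈ DW W, k ≤ (j : ℕ) := by
  constructor
  · rintro h j ⟨c, hc, hc1, hc2⟩
    by_contra hjk
    have : c ∈ W ⊓ lflg F D k := ⟨hc, fun l hl => hc2 l (by
      rw [Fin.lt_def]
      omega)⟩
    rw [h, Submodule.mem_bot] at this
    rw [this] at hc1
    exact hc1 rfl
  · intro h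
    rw [eq_bot_iff]
    intro c hc
    rw [Submodule.mem_bot]
    by_contra hc0
    obtain ⟨i, hi1, hi2⟩ := exists_last hc0
    have := h i ⟨c, hc.1, hi1, hi2⟩
    exact hi1 (hc.2 i this)

theorem opp_iff (h : N' ≤ N) (hA : Adapted N' N D b Φ) (W : Submodule F (Fin D → F)) :
    Opp (lflg F D) W ↔ Srt N' (lup N' Φ W) N := by
  classical
  rw [Srt_lup_iff h hA W]
  unfold Opp
  rw [inf_lflg_eq_bot_iff, finrank_fin_fun, ← card_DW W]
  have hcD : (DW W).ncard ≤ D := by
    have := Set.ncard_le_card (DW W)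
    simpa using this
  have hcompl : (DW W)ᶜ.ncard = D - (DW W).ncard := by
    have := Set.ncard_add_ncard_compl (DW W)
    rw [Nat.card_eq_fintype_card, Fintype.card_fin] at this
    omega
  have hlt : ∀ k : ℕ, k ≤ D → {j : Fin D | (j : ℕ) < k}.ncard = k := by
    intro k hk
    have h1 := card_DW_aux (⊤ : Submodule F (Fin D → F)) k hk
    have h2 : DW (⊤ : Submodule F (Fin D → F)) = Set.univ := by
      rw [Set.eq_univ_iff_forall]
      intro i
      refine ⟨Pi.single i 1, trivial, by simp, ?_⟩
      intro j hj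
      rw [Pi.single_apply, if_neg (ne_of_gt hj)]
    rw [h2, Set.univ_inter, top_inf_eq, finrank_lflg D k hk] at h1
    exact h1
  constructor
  · intro hk
    -- the complement contains all small indices, hence is equal to them
    have hsub : {j : Fin D | (j : ℕ) < D - (DW W).ncard} ⊆ (DW W)ᶜ := by
      intro j hj hjW
      have := hk j hjW
      have hj' : (j : ℕ) < D - (DW W).ncard := hj
      omega
    have heq := Set.eq_of_subset_of_ncard_le hsub (by rw [hcompl, hlt _ (by omega)])
      (Set.toFinite _)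
    intro i hi j hj
    have hi' : i ∈ {j : Fin D | (j : ℕ) < D - (DW W).ncard} := by
      rw [heq]
      exact hi
    have h1 := hk j hj
    have h2 : (i : ℕ) < D - (DW W).ncard := hi'
    rw [Fin.lt_def]
    omega
  · intro hI j hj
    have hsub : (DW W)ᶜ ⊆ {i : Fin D | (i : ℕ) < (j : ℕ)} := by
      intro i hi
      exact hI i hi j hj
    have := Set.ncard_le_ncard hsub (Set.toFinite _)
    rw [hcompl, hlt _ j.2.le] at this
    exact this

end Crest.Agent.R66
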