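import Crest.Agent.R66.LBM

/-!
# Row 66, piece L_IV: the inversion sets `Iv m M` (helper62)

PROOFS. `mem_Iv_of`: for `y < x` put `c = x / m`, `(y - m c, x - m c)`.
`Iv_shS`: `BM (shS (m*k) M) = BM M + m k` (`mem_BM_shS`), reindex the existential quantifier.
`Iv_finite`: `Ioi b ⊆ BM M ⊆ Ioi a`: `x + m k ≤ b`, `0 ≤ x` bound `k` above, `y + m k > a`, `y < x < m`
bound `k` below and `y` below.
`Iv_empty_iff`: if `Iv m M = ∅` then (`mem_Iv_of`) `BM M` is an up-set, bounded below and `≠ ∅`, so
`BM M = Ioi k`; then `M ⊓ VL k = ⊥` (leading index `≤ k` impossible) and every `v : VV F` is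
congruent mod `M` to an element of `VL k` (strong induction on the degree, subtract an element
of `M` with the same leading index). Conversely `IsCompl M (VL k)`: `BM M ∩ Iic k = ∅`, and for `b > k`
write `e_b = v + w`, `v ∈ M`, `w ∈ VL k`: `v` has leading index `b`. So `BM M = Ioi k`.
-/

set_option autoImplicit false
set_option linter.unusedSectionVars false

namespace Crest.Agent.R66

variable {F : Type*} [Field F] {m : ℕ}

/-- an unnormalised inversion gives an element of `Iv` -/
theorem mem_Iv_of (hm : 0 < m) {y x : ℤ} (hyx : y < x) :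
    ∃ c : ℤ, ∀ M : Submodule F (VV F), ((y - m * c, x - m * c) ∈ Iv m M ↔
      ∃ k : ℤ, y ∈ BM (shS (m * k) M) ∧ x ∉ BM (shS (m * k) M)) := by
  have hm' : (0 : ℤ) < m := by exact_mod_cast hm
  refine ⟨x / m, fun M => ?_⟩
  have h1 : 0 ≤ x - m * (x / m) := by
    have := Int.emod_nonneg x hm'.ne'
    rw [Int.emod_def] at this
    exact this
  have h2 : x - m * (x / m) < m := by
    have := Int.emod_lt_of_pos x hm'
    rw [Int.emod_def] at this
    exact this
  constructor
  · rintro ⟨_, _, _, k, h3, h4⟩
    refine ⟨x / m - k, ?_, ?_⟩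
    · rw [mem_BM_shS]
      have : y - m * (x / m - k) = y - m * (x / m) + m * k := by ring
      rw [this]; exact h3
    · rw [mem_BM_shS]
      have : x - m * (x / m - k) = x - m * (x / m) + m * k := by ring
      rw [this]; exact h4
  · rintro ⟨k, h3, h4⟩
    rw [mem_BM_shS] at h3 h4
    refine ⟨by simp only; omega, h1, h2, x / m - k, ?_, ?_⟩
    · have : y - m * (x / m) + m * (x / m - k) = y - m * k := by ring
      simp only [this]; exact h3
    · have : x - m * (x / m) + m * (x / m - k) = x - m * k := by ring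
      simp only [this]; exact h4

/-- elements of `Iv` as separated pairs -/
theorem mem_Iv_iff {M : Submodule F (VV F)} {p : ℤ × ℤ} :
    p ∈ Iv m M ↔ p.1 < p.2 ∧ 0 ≤ p.2 ∧ p.2 < m ∧
      ∃ k : ℤ, p.1 ∈ BM (shS (m * k) M) ∧ p.2 ∉ BM (shS (m * k) M) := by
  constructor
  · rintro ⟨h1, h2, h3, k, h4, h5⟩
    refine ⟨h1, h2, h3, -k, ?_, ?_⟩
    · rw [mem_BM_shS]
      have : p.1 - m * (-k) = p.1 + m * k := by ring
      rw [this]; exact h4
    · rw [mem_BM_shS]
      have : p.2 - m * (-k) = p.2 + m * k := by ring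
      rw [this]; exact h5
  · rintro ⟨h1, h2, h3, k, h4, h5⟩
    rw [mem_BM_shS] at h4 h5
    refine ⟨h1, h2, h3, -k, ?_, ?_⟩
    · have : p.1 + m * (-k) = p.1 - m * k := by ring
      rw [this]; exact h4
    · have : p.2 + m * (-k) = p.2 - m * k := by ring
      rw [this]; exact h5

theorem Iv_shS (M : Submodule F (VV F)) (k : ℤ) : Iv m (shS (m * k) M) = Iv m M := by
  ext p
  constructor
  · rintro ⟨h1, h2, h3, j, h4, h5⟩
    rw [mem_BM_shS] at h4 h5
    refine ⟨h1, h2, h3, j - k, ?_, ?_⟩
    · have : p.1 + m * (j - k) = p.1 + m * j - m * k := by ring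
      rw [this]; exact h4
    · have : p.2 + m * (j - k) = p.2 + m * j - m * k := by ring
      rw [this]; exact h5
  · rintro ⟨h1, h2, h3, j, h4, h5⟩
    refine ⟨h1, h2, h3, j + k, ?_, ?_⟩
    · rw [mem_BM_shS]
      have : p.1 + m * (j + k) - m * k = p.1 + m * j := by ring
      rw [this]; exact h4
    · rw [mem_BM_shS]
      have : p.2 + m * (j + k) - m * k = p.2 + m * j := by ring
      rw [this]; exact h5

theorem Iv_finite {M : Submodule F (VV F)} (h : IsLat m M) : (Iv m M).Finite := by
  obtain ⟨b, hb⟩ := h.lo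
  obtain ⟨a, ha⟩ := h.hi
  refine ((Set.finite_Ioo (a - b) (m : ℤ)).prod (Set.finite_Ico (0 : ℤ) m)).subset ?_
  rintro ⟨y, x⟩ ⟨h1, h2, h3, k, h4, h5⟩
  simp only at h1 h2 h3 h4 h5
  have h6 : a < y + m * k := by
    have := BM_mono ha h4
    rw [BM_EE] at this
    exact this
  have h7 : x + m * k ≤ b := by
    by_contra hc
    push Not at hc
    apply h5
    have : x + m * k ∈ BM (EE b : Submodule F (VV F)) := by rw [BM_EE]; exact hc
    exact BM_mono hb this
  simp only [Set.mem_prod, Set.mem_Ioo, Set.mem_Ico]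
  refine ⟨⟨?_, ?_⟩, h2, h3⟩
  · generalize (m : ℤ) * k = t at h6 h7
    omega
  · omega

private theorem exists_lead {v : VV F} (hv : v ≠ 0) : ∃ b, v b ≠ 0 ∧ ∀ j, b < j → v j = 0 := by
  have hne : v.support.Nonempty := Finsupp.support_nonempty_iff.2 hv
  refine ⟨v.support.max' hne, Finsupp.mem_support_iff.1 (Finset.max'_mem _ hne), fun j hj => ?_⟩
  by_contra hc
  exact absurd (Finset.le_max' _ j (Finsupp.mem_support_iff.2 hc)) (not_le.2 hj)

theorem Iv_empty_iff (hm : 0 < m) {M : Submodule F (VV F)} (h : IsLat m M) :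
    Iv m M = ∅ ↔ ∃ k : ℤ, IsCompl M (VL k) := by
  constructor
  · intro hE
    have hup : ∀ y x : ℤ, y < x → y ∈ BM M → x ∈ BM M := by
      intro y x hyx hy
      by_contra hx
      obtain ⟨c, hc⟩ := mem_Iv_of (F := F) hm hyx
      have : (y - m * c, x - m * c) ∈ Iv m M := by
        rw [hc]
        refine ⟨0, ?_, ?_⟩
        · rw [mul_zero, shS_zero]; exact hy
        · rw [mul_zero, shS_zero]; exact hx
      rw [hE] at this
      exact this
    obtain ⟨b, hb⟩ := h.lo
    obtain ⟨a, ha⟩ := h.hi
    have hbd : ∀ z : ℤ, z ∈ BM M → a ≤ z := by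
      intro z hz
      have := BM_mono ha hz
      rw [BM_EE] at this
      exact le_of_lt this
    have hne : ∃ z : ℤ, z ∈ BM M := by
      refine ⟨b + 1, BM_mono hb ?_⟩
      rw [BM_EE]
      exact lt_add_one b
    obtain ⟨l, hl, hmin⟩ := Int.exists_least_of_bdd ⟨a, hbd⟩ hne
    have hBM : ∀ z, z ∈ BM M ↔ l - 1 < z := by
      intro z
      constructor
      · intro hz
        have := hmin z hz
        omega
      · intro hz
        rcases (show l ≤ z by omega).eq_or_lt with h1 | h1
        · rw [← h1]; exact hl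
        · exact hup l z h1 hl
    refine ⟨l - 1, ?_⟩
    constructor
    · rw [Submodule.disjoint_def]
      intro v hv1 hv2
      by_contra hv0
      obtain ⟨c, hc1, hc2⟩ := exists_lead hv0
      have h1 : l - 1 < c := (hBM c).1 ⟨v, hv1, hc1, hc2⟩
      exact hc1 (hv2 c h1)
    · rw [codisjoint_iff, eq_top_iff]
      intro v _
      have key : ∀ n : ℕ, ∀ v : VV F, (∀ j : ℤ, l - 1 + n < j → v j = 0) → v ∈ M ⊔ VL (l - 1) := by
        intro n
        induction n with
        | zero =>
          intro v hv
          refine Submodule.mem_sup_right ?_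
          intro j hj
          exact hv j (by simpa using hj)
        | succ n ih =>
          intro v hv
          obtain ⟨w, hw, hw1, hw2⟩ := (hBM (l - 1 + (n + 1))).2 (by omega)
          have h1 : v - (v (l - 1 + (n + 1)) / w (l - 1 + (n + 1))) • w ∈ M ⊔ VL (l - 1) := by
            apply ih
            intro j hj
            rw [Finsupp.sub_apply, Finsupp.smul_apply, smul_eq_mul]
            rcases (show l - 1 + ((n : ℤ) + 1) ≤ j by omega).eq_or_lt with h2 | h2
            · rw [← h2, div_mul_cancel₀ _ hw1, sub_self]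
            · rw [hv j (by push_cast; exact h2), hw2 j h2, mul_zero, sub_zero]
          have h2 : v = (v - (v (l - 1 + (n + 1)) / w (l - 1 + (n + 1))) • w) +
              (v (l - 1 + (n + 1)) / w (l - 1 + (n + 1))) • w := by abel
          rw [h2]
          exact Submodule.add_mem _ h1 (Submodule.smul_mem _ _ (Submodule.mem_sup_left hw))
      by_cases hv0 : v = 0
      · rw [hv0]; exact Submodule.zero_mem _
      · obtain ⟨c, hc1, hc2⟩ := exists_lead hv0
        refine key (c - (l - 1)).toNat v fun j hj => hc2 j ?_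
        omega
  · rintro ⟨k, hk⟩
    have hBM : ∀ z, z ∈ BM M ↔ k < z := by
      intro z
      constructor
      · rintro ⟨v, hv, hv1, hv2⟩
        by_contra hc
        push Not at hc
        have h1 : v ∈ VL k := fun j hj => hv2 j (lt_of_le_of_lt hc hj)
        have h2 := (Submodule.disjoint_def.1 hk.disjoint) v hv h1
        rw [h2] at hv1
        exact hv1 rfl
      · intro hz
        have h1 : (Finsupp.single z (1 : F) : VV F) ∈ M ⊔ VL k := by
          rw [hk.sup_eq_top]; exact Submodule.mem_top
        obtain ⟨v, hv, w, hw, hvw⟩ := Submodule.mem_sup.1 h1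
        refine ⟨v, hv, ?_, ?_⟩
        · have h2 := DFunLike.congr_fun hvw z
          rw [Finsupp.add_apply, hw z hz, add_zero, Finsupp.single_eq_same] at h2
          rw [h2]; exact one_ne_zero
        · intro j hj
          have h2 := DFunLike.congr_fun hvw j
          rw [Finsupp.add_apply, hw j (hz.trans hj), add_zero,
            Finsupp.single_apply, if_neg hj.ne] at h2
          exact h2
    ext p
    simp only [Set.mem_empty_iff_false, iff_false]
    rintro ⟨h1, _, _, j, h4, h5⟩
    rw [hBM] at h4 h5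
    apply h5
    generalize (m : ℤ) * j = t at h4
    omega

end Crest.Agent.R66
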