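import Crest.Agent.R66.LInt3
import Crest.Agent.R66.LNrm
import Crest.Agent.R66.FJoin

/-!
# Row 66, pieces L_LINKA (`Og_eq_join`), L_LINKB (`K1g_eq`, `exists_gap_inverse`) (helper62)

Definitions: `InGap v`: some translate of `v` lies strictly between `N'` and `N`;
`Og m a`: the sets `c` disjoint from `a` with `c ∪ a` a face, creating no new inversion;
`K1g`: the members of `Og` all of whose vertices are in the gap; `K2g`: none in the gap.
The proofs are in LLinkA.lean, LLinkB.lean.
-/

set_option autoImplicit false
set_option linter.unusedSectionVars false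

namespace Crest.Agent.R66

variable {F : Type*} [Field F] {m : ℕ}

/-- `v` has a translate strictly between `N'` and `N` -/
def InGap (m : ℕ) (N' N v : Submodule F (VV F)) : Prop :=
  ∃ k : ℤ, N' < shS (m * k) v ∧ shS (m * k) v < N

variable [DecidableEq (Submodule F (VV F))]

/-- the essential link of `a` -/
def Og (m : ℕ) (a : Finset (Submodule F (VV F))) : Set (Finset (Submodule F (VV F))) :=
  {c | Disjoint c a ∧ c ∪ a ∈ Del F m ∧ ∀ v ∈ c, Iv m v ⊆ ⋃ w ∈ a, Iv m w}

/-- part of the essential link inside the gap -/
def K1g (m : ℕ) (a : Finset (Submodule F (VV F))) (N' N : Submodule F (VV F)) :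
    Set (Finset (Submodule F (VV F))) :=
  {c | c ∈ Og m a ∧ ∀ v ∈ c, InGap m N' N v}

/-- part of the essential link outside the gap -/
def K2g (m : ℕ) (a : Finset (Submodule F (VV F))) (N' N : Submodule F (VV F)) :
    Set (Finset (Submodule F (VV F))) :=
  {c | c ∈ Og m a ∧ ∀ v ∈ c, ¬ InGap m N' N v}

end Crest.Agent.R66
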