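import Crest.Agent.R66.LLink

/-!
# Row 66, piece L_LINKA: the essential link is a join (helper62)

PROOF. ⊆: filters are subsets (`Del_down`). ⊇: let `c1 = c.filter InGap ∈ Og`, `c2 = c.filter ¬ InGap ∈ Og`.
Disjointness, normality, the condition on `Iv`, and adjacency inside `c1 ∪ a` and `c2 ∪ a` are clear.
For `v1 ∈ c1`, `v2 ∈ c2`: `N' < V1 < N` for `V1 = shS (m*k1) v1`. For every `k`: `V2 = shS (m*k) v2` is
comparable with `N` and `N'` (translates of elements of `a`; `Adj` and `Adj.shS_left`, `Adj.symm`), and not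
strictly between them: so `V2 ≤ N' < V1` or `V1 < N ≤ V2`. [If `N ≤ V2` or `V2 ≤ N'` done; otherwise
`V2 ≤ N`, `V2 ≠ N` (else `N ≤ V2`), so `V2 < N`; `N' ≤ V2`, so `N' < V2`: contradiction to `¬ InGap`.]
So all translates of `v1`, `v2` are comparable, both `Adj m v1 v2` and `Adj m v2 v1`.
-/

set_option autoImplicit false
set_option linter.unusedSectionVars false

namespace Crest.Agent.R66

variable {F : Type*} [Field F] {m : ℕ} [DecidableEq (Submodule F (VV F))]

private theorem adj_cmp {M M' : Submodule F (VV F)} (h : Adj m M M') (i j : ℤ) :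
    shS (m * i) M ≤ shS (m * j) M' ∨ shS (m * j) M' ≤ shS (m * i) M := by
  have e : (m : ℤ) * i = m * j + m * (i - j) := by ring
  rcases h (i - j) with h1 | h1
  · left
    rw [e, ← shS_shS]
    exact shS_mono h1
  · right
    rw [e, ← shS_shS]
    exact shS_mono h1

private theorem adj_gap {a : Finset (Submodule F (VV F))} {N' N : Submodule F (VV F)}
    (hg : PGap m a N' N) {v1 v2 : Submodule F (VV F)} (h1 : InGap m N' N v1)
    (h2 : ¬ InGap m N' N v2) (hadj : ∀ M ∈ a, Adj m v2 M) : Adj m v1 v2 := by
  obtain ⟨k1, hk1, hk2⟩ := h1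
  obtain ⟨MN, hMN, kN, hN⟩ := hg.top
  obtain ⟨MN', hMN', kN', hN'⟩ := hg.bot
  intro k
  have c1 := adj_cmp (hadj MN hMN) (k1 - k) kN
  have c2 := adj_cmp (hadj MN' hMN') (k1 - k) kN'
  rw [← hN] at c1
  rw [← hN'] at c2
  have key : shS (m * k1) v1 ≤ shS (m * (k1 - k)) v2 ∨ shS (m * (k1 - k)) v2 ≤ shS (m * k1) v1 := by
    by_cases hA : N ≤ shS (m * (k1 - k)) v2
    · exact Or.inl (hk2.le.trans hA)
    · by_cases hB : shS (m * (k1 - k)) v2 ≤ N'
      · exact Or.inr (hB.trans hk1.le)
      · exfalso
        refine h2 ⟨k1 - k, ?_, ?_⟩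
        · rcases c2 with c2 | c2
          · exact absurd c2 hB
          · exact lt_of_le_not_ge c2 hB
        · rcases c1 with c1 | c1
          · exact lt_of_le_not_ge c1 hA
          · exact absurd c1 hA
  have e : (m : ℤ) * k1 = m * (k1 - k) + m * k := by ring
  rw [e, ← shS_shS] at key
  rcases key with h | h
  · exact Or.inl (shS_le_iff.1 h)
  · exact Or.inr (shS_le_iff.1 h)

open scoped Classical in
theorem Og_eq_join {a : Finset (Submodule F (VV F))} {N' N : Submodule F (VV F)}
    (hg : PGap m a N' N) :
    Og m a = joinP (fun v => InGap m N' N v) (K1g m a N' N) (K2g m a N' N) := by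
  have sub : ∀ c ∈ Og m a, ∀ d ⊆ c, d ∈ Og m a := by
    rintro c ⟨hc1, hc2, hc3⟩ d hd
    refine ⟨Finset.disjoint_of_subset_left hd hc1, Del_down m _ hc2 _ ?_, fun v hv => hc3 v (hd hv)⟩
    exact Finset.union_subset_union hd (Finset.Subset.refl a)
  ext c
  constructor
  · intro hc
    refine ⟨⟨sub c hc _ (Finset.filter_subset _ _), fun v hv => ?_⟩,
      ⟨sub c hc _ (Finset.filter_subset _ _), fun v hv => ?_⟩⟩
    · exact (Finset.mem_filter.1 hv).2
    · exact (Finset.mem_filter.1 hv).2
  · rintro ⟨⟨h1, h1'⟩, ⟨h2, h2'⟩⟩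
    have hcase : ∀ v ∈ c, v ∈ c.filter (fun v => InGap m N' N v) ∨
        v ∈ c.filter (fun v => ¬ InGap m N' N v) := by
      intro v hv
      by_cases hP : InGap m N' N v
      · exact Or.inl (Finset.mem_filter.2 ⟨hv, hP⟩)
      · exact Or.inr (Finset.mem_filter.2 ⟨hv, hP⟩)
    refine ⟨?_, ⟨?_, ?_⟩, ?_⟩
    · rw [Finset.disjoint_left]
      intro v hv
      rcases hcase v hv with h | h
      · exact Finset.disjoint_left.1 h1.1 h
      · exact Finset.disjoint_left.1 h2.1 h
    · intro M hM
      rcases Finset.mem_union.1 hM with h | h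
      · rcases hcase M h with h | h
        · exact h1.2.1.1 M (Finset.mem_union_left _ h)
        · exact h2.2.1.1 M (Finset.mem_union_left _ h)
      · exact h1.2.1.1 M (Finset.mem_union_right _ h)
    · have main : ∀ M ∈ c.filter (fun v => InGap m N' N v),
          ∀ M' ∈ c.filter (fun v => ¬ InGap m N' N v), Adj m M M' := by
        intro M hM M' hM'
        refine adj_gap hg (Finset.mem_filter.1 hM).2 (Finset.mem_filter.1 hM').2 ?_
        intro w hw
        exact h2.2.1.2 M' (Finset.mem_union_left _ hM') w (Finset.mem_union_right _ hw)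
      intro M hM M' hM'
      rcases Finset.mem_union.1 hM with h | h
      · rcases hcase M h with h | h
        · rcases Finset.mem_union.1 hM' with h' | h'
          · rcases hcase M' h' with h' | h'
            · exact h1.2.1.2 M (Finset.mem_union_left _ h) M' (Finset.mem_union_left _ h')
            · exact main M h M' h'
          · exact h1.2.1.2 M (Finset.mem_union_left _ h) M' (Finset.mem_union_right _ h')
        · rcases Finset.mem_union.1 hM' with h' | h'
          · rcases hcase M' h' with h' | h'
            · exact (main M' h' M h).symm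
            · exact h2.2.1.2 M (Finset.mem_union_left _ h) M' (Finset.mem_union_left _ h')
          · exact h2.2.1.2 M (Finset.mem_union_left _ h) M' (Finset.mem_union_right _ h')
      · rcases Finset.mem_union.1 hM' with h' | h'
        · rcases hcase M' h' with h' | h'
          · exact h1.2.1.2 M (Finset.mem_union_right _ h) M' (Finset.mem_union_left _ h')
          · exact h2.2.1.2 M (Finset.mem_union_right _ h) M' (Finset.mem_union_left _ h')
        · exact h1.2.1.2 M (Finset.mem_union_right _ h) M' (Finset.mem_union_right _ h')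
    · intro v hv
      rcases hcase v hv with h | h
      · exact h1.2.2 v h
      · exact h2.2.2 v h

end Crest.Agent.R66
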