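import Crest.Agent.R66.LLink

/-!
# Row 66, piece L_LINKB: the part of the essential link in the gap = chains of opposite subspaces

PROOF. For `N' ≤ M ≤ N`: `M` is a lattice (`shS m M ≤ shS m N ≤ N' ≤ M`), `nrm m M = shS (m*k) M` for
some `k`, `Iv m (nrm m M) = Iv m M` (`Iv_shS`), and `Iv m M ⊆ ⋃ w ∈ a, Iv m w ↔ Srt N' M N`
(`Iv_subset_iff`) `↔ Opp` for `M = lup W` (`opp_iff`).
Uniqueness of the translate in the gap (`gap_unique`): if `N' < M < N` and `N' < shS (m*k) M < N` then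
`k = 0`: for `k ≥ 1`, `shS (m*k) M ≤ shS m M ≤ shS m N ≤ N'`; `k ≤ -1` symmetric (apply this to
`shS (m*k) M` and `-k`).
`exists_gap_inverse`: `g v = ldn Φ (shS (m*k) v)` with `k` chosen such that `shS (m*k) v` is in the gap.
`K1g_eq` ⊇: let `x ∈ TK`, `c = x.image (nrm ∘ lup)`: vertices are normalised; two of them are adjacent
since `lup W`, `lup W'` are comparable and (`k ≥ 1`) `shS (m*k) (lup W) ≤ N' ≤ lup W'`,
(`k ≤ -1`) `lup W' ≤ N ≤ shS (m*k) (lup W)` (from `PGap.shift`, `shS m (lup W) ≤ shS m N ≤ N'`), use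
`Adj.shS_left` and `Adj.symm` to pass to the normalised translates; adjacent to `w ∈ a` by
`PGap.gap`; not in `a` (its translate `lup W` would be `≤ N'` or `≥ N`).
⊆: let `c ∈ K1g`; for `v ∈ c` let `V v` be its translate in the gap; `x = c.image (fun v => ldn Φ (V v))`
is a chain (`Adj`), of proper (`lup_bot`, `lup_top`) opposite subspaces, and
`nrm m (lup (ldn (V v))) = nrm m (V v) = v` (`lup_ldn`, `nrm_shS`, `nrm_of_Nrm`).
-/

set_option autoImplicit false
set_option linter.unusedSectionVars false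

namespace Crest.Agent.R66

variable {F : Type*} [Field F] {m : ℕ}

theorem gap_unique {a : Finset (Submodule F (VV F))} {N' N : Submodule F (VV F)}
    (hg : PGap m a N' N) {M : Submodule F (VV F)} {k : ℤ} (h1 : N' < M) (h2 : M < N)
    (h3 : N' < shS (m * k) M) (h4 : shS (m * k) M < N) : shS (m * k) M = M := by
  have hst : ∀ P : Submodule F (VV F), N' < P → P < N → shS (m : ℤ) P ≤ P := fun P hP hP' =>
    (shS_mono hP'.le).trans (hg.shift.trans hP.le)
  have hlow : ∀ P : Submodule F (VV F), N' < P → P < N → ∀ j : ℤ, 1 ≤ j → shS (m * j) P ≤ N' := by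
    intro P hP hP' j hj
    have h5 := shS_anti (hst P hP hP') hj
    rw [mul_one] at h5
    exact h5.trans ((shS_mono hP'.le).trans hg.shift)
  rcases lt_trichotomy k 0 with hk0 | hk0 | hk0
  · exfalso
    have h5 := hlow _ h3 h4 (-k) (by omega)
    rw [shS_shS] at h5
    have h6 : (m : ℤ) * -k + m * k = 0 := by ring
    rw [h6, shS_zero] at h5
    exact absurd h1 (not_lt_of_ge h5)
  · rw [hk0, mul_zero, shS_zero]
  · exfalso
    exact absurd h3 (not_lt_of_ge (hlow _ h1 h2 k (by omega)))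

theorem gap_isLat {a : Finset (Submodule F (VV F))} (ha : a ∈ Del F m)
    {N' N : Submodule F (VV F)}
    (hg : PGap m a N' N) {M : Submodule F (VV F)} (h1 : N' ≤ M) (h2 : M ≤ N) : IsLat m M := by
  obtain ⟨w, hw, k, hk⟩ := hg.top
  obtain ⟨w', hw', k', hk'⟩ := hg.bot
  have hN : IsLat m N := by
    rw [hk]; exact (ha.1 w hw).lat.shS _
  have hN' : IsLat m N' := by
    rw [hk']; exact (ha.1 w' hw').lat.shS _
  refine ⟨(shS_mono h2).trans (hg.shift.trans h1), ?_, ?_⟩
  · obtain ⟨b, hb⟩ := hN'.lo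
    exact ⟨b, hb.trans h1⟩
  · obtain ⟨b, hb⟩ := hN.hi
    exact ⟨b, h2.trans hb⟩

private theorem adj_translate {M M' : Submodule F (VV F)} (h : Adj m M M') (k l : ℤ) :
    Adj m (shS (m * k) M) (shS (m * l) M') :=
  ((h.shS_left k).symm.shS_left l).symm

private theorem adj_of_translate {M M' : Submodule F (VV F)} {k l : ℤ}
    (h : Adj m (shS (m * k) M) (shS (m * l) M')) : Adj m M M' := by
  have h1 := adj_translate h (-k) (-l)
  rw [shS_shS, shS_shS] at h1
  have e1 : (m : ℤ) * -k + m * k = 0 := by ring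
  have e2 : (m : ℤ) * -l + m * l = 0 := by ring
  rwa [e1, e2, shS_zero, shS_zero] at h1

private theorem gap_adj_gap {a : Finset (Submodule F (VV F))} {N' N : Submodule F (VV F)}
    (hg : PGap m a N' N) {V W : Submodule F (VV F)} (h1 : N' ≤ V) (h2 : V ≤ N)
    (h3 : N' ≤ W) (h4 : W ≤ N) (h : V ≤ W ∨ W ≤ V) : Adj m V W := by
  have hst : shS (m : ℤ) V ≤ V := (shS_mono h2).trans (hg.shift.trans h1)
  intro k
  rcases lt_trichotomy k 0 with hk0 | hk0 | hk0
  · right
    have h5 : N ≤ shS (-(m : ℤ)) N' := shS_le_comm.1 hg.shift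
    have h6 := shS_anti hst (k := k) (l := -1) (by omega)
    have h7 : (m : ℤ) * -1 = -m := by ring
    rw [h7] at h6
    exact h4.trans (h5.trans ((shS_mono h1).trans h6))
  · rw [hk0, mul_zero, shS_zero]
    exact h
  · left
    have h6 := shS_anti hst (k := 1) (l := k) (by omega)
    rw [mul_one] at h6
    exact h6.trans ((shS_mono h2).trans (hg.shift.trans h3))

private theorem gap_adj_a {a : Finset (Submodule F (VV F))} {N' N : Submodule F (VV F)}
    (hg : PGap m a N' N) {V w : Submodule F (VV F)} (h1 : N' ≤ V) (h2 : V ≤ N) (hw : w ∈ a) :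
    Adj m w V := by
  intro k
  rcases hg.gap w hw k with h | h
  · exact Or.inl (h.trans h1)
  · exact Or.inr (h2.trans h)

variable {D : ℕ} {b : Fin D → ℤ} {Φ : (Fin D → F) →ₗ[F] VV F}

private theorem lup_strict {a : Finset (Submodule F (VV F))} {N' N : Submodule F (VV F)}
    (hg : PGap m a N' N) (hA : Adapted N' N D b Φ) {W : Submodule F (Fin D → F)} (hW : W ≠ ⊥)
    (hW' : W < ⊤) : N' < lup N' Φ W ∧ lup N' Φ W < N := by
  constructor
  · refine lt_of_le_of_ne (le_lup W) fun h => hW ?_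
    rw [← ldn_lup hA W, ← h, ← lup_bot (N' := N') (Φ := Φ), ldn_lup hA]
  · refine lt_of_le_of_ne (lup_le hg.lt.le hA W) fun h => hW'.ne ?_
    rw [← ldn_lup hA W, h, ← lup_top hg.lt.le hA, ldn_lup hA]

theorem exists_gap_inverse (hm : 0 < m) {a : Finset (Submodule F (VV F))} (ha : a ∈ Del F m)
    {N' N : Submodule F (VV F)}
    (hg : PGap m a N' N) (hA : Adapted N' N D b Φ) :
    ∃ g : Submodule F (VV F) → Submodule F (Fin D → F), ∀ W, W ≠ ⊥ → W < ⊤ →
      g (nrm m (lup N' Φ W)) = W := by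
  classical
  refine ⟨fun v => if h : ∃ k : ℤ, N' < shS (m * k) v ∧ shS (m * k) v < N then
    ldn Φ (shS (m * h.choose) v) else ⊥, fun W hW hW' => ?_⟩
  obtain ⟨h1, h2⟩ := lup_strict hg hA hW hW'
  obtain ⟨k0, hk0⟩ := nrm_eq_shS m (lup N' Φ W)
  have hback : shS (m * -k0) (nrm m (lup N' Φ W)) = lup N' Φ W := by
    rw [hk0, shS_shS]
    have e1 : (m : ℤ) * -k0 + m * k0 = 0 := by ring
    rw [e1, shS_zero]
  have hex : ∃ k : ℤ, N' < shS (m * k) (nrm m (lup N' Φ W)) ∧
      shS (m * k) (nrm m (lup N' Φ W)) < N := ⟨-k0, by rw [hback]; exact ⟨h1, h2⟩⟩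
  show (if h : ∃ k : ℤ, N' < shS (m * k) (nrm m (lup N' Φ W)) ∧
      shS (m * k) (nrm m (lup N' Φ W)) < N then
    ldn Φ (shS (m * h.choose) (nrm m (lup N' Φ W))) else ⊥) = W
  rw [dif_pos hex]
  have hc := hex.choose_spec
  set k1 := hex.choose
  have e2 : shS (m * k1) (nrm m (lup N' Φ W)) = shS (m * (k1 + k0)) (lup N' Φ W) := by
    rw [hk0, shS_shS, mul_add]
  rw [e2] at hc ⊢
  rw [gap_unique hg h1 h2 hc.1 hc.2, ldn_lup hA]

theorem K1g_eq [DecidableEq (Submodule F (VV F))] (hm : 0 < m)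
    {a : Finset (Submodule F (VV F))}
    (ha : a ∈ Del F m) {N' N : Submodule F (VV F)} (hg : PGap m a N' N)
    (hA : Adapted N' N D b Φ) :
    K1g m a N' N = {y | ∃ x ∈ TK (lflg F D) ⊤, y = x.image fun W => nrm m (lup N' Φ W)} := by
  ext c
  constructor
  · rintro ⟨⟨hd, hDel, hIv⟩, hgap⟩
    -- the translates in the gap
    choose! κ hκ using hgap
    have hin : ∀ v ∈ c, N' < shS (m * κ v) v ∧ shS (m * κ v) v < N := hκ
    have hlup : ∀ v ∈ c, lup N' Φ (ldn Φ (shS (m * κ v) v)) = shS (m * κ v) v := fun v hv =>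
      lup_ldn hA (hin v hv).1.le (hin v hv).2.le
    have hNrm : ∀ v ∈ c, Nrm m v := fun v hv => hDel.1 v (Finset.mem_union_left _ hv)
    classical
    refine ⟨c.image (fun v => ldn Φ (shS (m * κ v) v)), ⟨?_, ?_⟩, ?_⟩
    · intro W hW W' hW' _
      obtain ⟨v, hv, rfl⟩ := Finset.mem_image.1 (Finset.mem_coe.1 hW)
      obtain ⟨v', hv', rfl⟩ := Finset.mem_image.1 (Finset.mem_coe.1 hW')
      have h1 := adj_translate (hDel.2 v (Finset.mem_union_left _ hv) v'
        (Finset.mem_union_left _ hv')) (κ v) (κ v') 0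
      rw [mul_zero, shS_zero] at h1
      rcases h1 with h1 | h1
      · exact Or.inl (Submodule.comap_mono h1)
      · exact Or.inr (Submodule.comap_mono h1)
    · intro W hW
      obtain ⟨v, hv, rfl⟩ := Finset.mem_image.1 hW
      refine ⟨fun h => ?_, lt_of_le_of_ne le_top fun h => ?_, ?_⟩
      · have h1 := hlup v hv
        rw [h, lup_bot] at h1
        exact (hin v hv).1.ne h1
      · have h1 := hlup v hv
        rw [h, lup_top hg.lt.le hA] at h1
        exact (hin v hv).2.ne h1.symm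
      · rw [opp_iff hg.lt.le hA, hlup v hv,
          ← Iv_subset_iff hm hg (hin v hv).1.le (hin v hv).2.le, Iv_shS]
        exact hIv v hv
    · rw [Finset.image_image]
      ext v
      simp only [Finset.mem_image, Function.comp_apply]
      constructor
      · intro hv
        exact ⟨v, hv, by
          rw [hlup v hv, nrm_shS hm (hNrm v hv).lat, nrm_of_Nrm (hNrm v hv)]⟩
      · rintro ⟨u, hu, rfl⟩
        rw [hlup u hu, nrm_shS hm (hNrm u hu).lat, nrm_of_Nrm (hNrm u hu)]
        exact hu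
  · rintro ⟨x, hx, rfl⟩
    -- data of a vertex
    have hs : ∀ W ∈ x, N' < lup N' Φ W ∧ lup N' Φ W < N := fun W hW =>
      lup_strict hg hA (hx.2 W hW).1 (hx.2 W hW).2.1
    have htr : ∀ W, ∃ k : ℤ, shS (m * k) (nrm m (lup N' Φ W)) = lup N' Φ W := by
      intro W
      obtain ⟨k0, hk0⟩ := nrm_eq_shS m (lup N' Φ W)
      refine ⟨-k0, ?_⟩
      rw [hk0, shS_shS]
      have e1 : (m : ℤ) * -k0 + m * k0 = 0 := by ring
      rw [e1, shS_zero]
    have hcomp : ∀ W ∈ x, ∀ W' ∈ x, lup N' Φ W ≤ lup N' Φ W' ∨ lup N' Φ W' ≤ lup N' Φ W := by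
      intro W hW W' hW'
      by_cases h : W = W'
      · exact Or.inl (by rw [h])
      · rcases hx.1 (Finset.mem_coe.2 hW) (Finset.mem_coe.2 hW') h with h | h
        · exact Or.inl ((up_le_lup hA).2 h)
        · exact Or.inr ((up_le_lup hA).2 h)
    have hAc : ∀ W ∈ x, ∀ W' ∈ x, Adj m (nrm m (lup N' Φ W)) (nrm m (lup N' Φ W')) := by
      intro W hW W' hW'
      obtain ⟨k, hk⟩ := htr W
      obtain ⟨k', hk'⟩ := htr W'
      have h1 := gap_adj_gap hg (hs W hW).1.le (hs W hW).2.le (hs W' hW').1.le (hs W' hW').2.le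
        (hcomp W hW W' hW')
      rw [← hk, ← hk'] at h1
      exact adj_of_translate h1
    have hAa : ∀ w ∈ a, ∀ W ∈ x, Adj m w (nrm m (lup N' Φ W)) := by
      intro w hw W hW
      obtain ⟨k, hk⟩ := htr W
      have h1 := gap_adj_a hg (hs W hW).1.le (hs W hW).2.le hw
      rw [← hk, ← shS_zero w, ← mul_zero (m : ℤ)] at h1
      exact adj_of_translate h1
    refine ⟨⟨?_, ⟨?_, ?_⟩, ?_⟩, ?_⟩
    · rw [Finset.disjoint_left]
      intro v hv hva
      obtain ⟨W, hW, rfl⟩ := Finset.mem_image.1 hv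
      obtain ⟨k, hk⟩ := htr W
      rcases hg.gap _ hva k with h | h
      · rw [hk] at h
        exact absurd (hs W hW).1 (not_lt_of_ge h)
      · rw [hk] at h
        exact absurd (hs W hW).2 (not_lt_of_ge h)
    · intro v hv
      rcases Finset.mem_union.1 hv with hv | hv
      · obtain ⟨W, hW, rfl⟩ := Finset.mem_image.1 hv
        exact nrm_nrm hm (gap_isLat ha hg (hs W hW).1.le (hs W hW).2.le)
      · exact ha.1 v hv
    · intro v hv v' hv'
      rcases Finset.mem_union.1 hv with hv | hv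
      · obtain ⟨W, hW, rfl⟩ := Finset.mem_image.1 hv
        rcases Finset.mem_union.1 hv' with hv' | hv'
        · obtain ⟨W', hW', rfl⟩ := Finset.mem_image.1 hv'
          exact hAc W hW W' hW'
        · exact (hAa v' hv' W hW).symm
      · rcases Finset.mem_union.1 hv' with hv' | hv'
        · obtain ⟨W', hW', rfl⟩ := Finset.mem_image.1 hv'
          exact hAa v hv W' hW'
        · exact ha.2 v hv v' hv'
    · intro v hv
      obtain ⟨W, hW, rfl⟩ := Finset.mem_image.1 hv
      obtain ⟨k0, hk0⟩ := nrm_eq_shS m (lup N' Φ W)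
      rw [hk0, Iv_shS, Iv_subset_iff hm hg (hs W hW).1.le (hs W hW).2.le,
        ← opp_iff hg.lt.le hA]
      exact (hx.2 W hW).2.2
    · intro v hv
      obtain ⟨W, hW, rfl⟩ := Finset.mem_image.1 hv
      obtain ⟨k, hk⟩ := htr W
      exact ⟨k, by rw [hk]; exact hs W hW⟩

end Crest.Agent.R66
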