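import Crest.Agent.R66.LDef

/-!
# Row 66, piece L_PR: prism homotopy and contraction (helper62)

PROOF. For a finset `A` let `U A : Ch α →ₗ Ch α`, `s ↦ A ∪ s` if `Disjoint A s`, else `0` (composition
of the `J a`, `a ∈ A`). `P σ = ∑ v ∈ σ, U {u ∈ σ | v ≤ u} (push f {u ∈ σ | u ≤ v})`.
If `x` is the largest element of `σ = insert x σ'` then
`P σ = J x (push f σ + P σ')`, and `bd (P σ) + P (bd σ) = σ + push f σ` by induction on the card
(use `bd_J'`, `bd_push`, `bd σ = σ' + J x (bd σ')`, and that `P (J x w) = J x (push f (J x w) + P w)`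
for chains `w` of sets of elements `< x`):
`bd P σ = push f σ + P σ' + J x (push f (bd σ) + bd P σ')
        = push f σ + P σ' + J x (push f σ' + push f (J x bd σ') + σ' + push f σ' + P bd σ')`
and `P (bd σ) = P σ' + J x (push f (J x bd σ') + P bd σ')`.
(It is fine to define `P` by recursion on lists / finsets instead.) All terms are on `K` by hf.
For `exact_of_prism`: iterate (`z ~ (push f)^k z`), for `k` large the chain `(push f)^[k] z` lives on
`{∅, {v0}}`, which is a cone.
-/

set_option autoImplicit false
set_option linter.unusedSectionVars false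

namespace Crest.Agent.R66

open Finset

section prism
open scoped Classical

variable {α : Type*} [PartialOrder α]

/-- prism term -/
private noncomputable def ptm (f : α → α) (s : Finset α) (v : α) : Ch α :=
  if Set.InjOn f ((s.filter (fun u => u ≤ v) : Finset α) : Set α) ∧
      Disjoint (s.filter (fun u => v ≤ u)) ((s.filter (fun u => u ≤ v)).image f) then
    Finsupp.single ((s.filter (fun u => v ≤ u)) ∪ (s.filter (fun u => u ≤ v)).image f) 1 else 0

/-- prism operator -/
private noncomputable def ptP (f : α → α) : Ch α →ₗ[ZMod 2] Ch α :=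
  Finsupp.linearCombination (ZMod 2) fun s : Finset α => ∑ v ∈ s, ptm f s v

private theorem ptP_single (f : α → α) (s : Finset α) :
    ptP f (Finsupp.single s (1 : ZMod 2)) = ∑ v ∈ s, ptm f s v := by
  simp [ptP]

private theorem ptP_insert (f : α → α) (s : Finset α) (x : α) (hx : ∀ u ∈ s, u < x) :
    ptP f (Finsupp.single (insert x s) (1 : ZMod 2)) =
      J x (push f (Finsupp.single (insert x s) 1) + ptP f (Finsupp.single s 1)) := by
  have hxs : x ∉ s := fun h => lt_irrefl x (hx x h)
  rw [ptP_single, ptP_single, Finset.sum_insert hxs, map_add, map_sum]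
  congr 1
  · -- the term of `x`
    have h1 : (insert x s).filter (fun u => x ≤ u) = {x} := by
      ext u
      simp only [Finset.mem_filter, Finset.mem_insert, Finset.mem_singleton]
      constructor
      · rintro ⟨rfl | hu, h⟩
        · rfl
        · exact absurd h (not_le_of_gt (hx u hu))
      · rintro rfl
        exact ⟨Or.inl rfl, le_rfl⟩
    have h2 : (insert x s).filter (fun u => u ≤ x) = insert x s := by
      refine Finset.filter_true_of_mem fun u hu => ?_
      rcases Finset.mem_insert.mp hu with rfl | hu
      · exact le_rfl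
      · exact (hx u hu).le
    unfold ptm
    rw [h1, h2, push_single]
    by_cases hi : Set.InjOn f ((insert x s : Finset α) : Set α)
    · rw [if_pos hi]
      by_cases hm : x ∈ (insert x s).image f
      · rw [J_single_mem hm, if_neg]
        rintro ⟨-, hd⟩
        exact (Finset.disjoint_singleton_left.mp hd) hm
      · rw [J_single_notMem hm, if_pos ⟨hi, Finset.disjoint_singleton_left.mpr hm⟩]
        rfl
    · rw [if_neg hi, map_zero, if_neg (fun h => hi h.1)]
  · refine Finset.sum_congr rfl fun v hv => ?_
    have hvx := hx v hv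
    have h1 : (insert x s).filter (fun u => v ≤ u) = insert x (s.filter (fun u => v ≤ u)) := by
      rw [Finset.filter_insert, if_pos hvx.le]
    have h2 : (insert x s).filter (fun u => u ≤ v) = s.filter (fun u => u ≤ v) := by
      rw [Finset.filter_insert, if_neg (not_le_of_gt hvx)]
    unfold ptm
    rw [h1, h2]
    have hxA : x ∉ s.filter (fun u => v ≤ u) := fun h => hxs (Finset.mem_filter.mp h).1
    by_cases hi : Set.InjOn f ((s.filter (fun u => u ≤ v) : Finset α) : Set α)
    · by_cases hd : Disjoint (s.filter (fun u => v ≤ u)) ((s.filter (fun u => u ≤ v)).image f)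
      · rw [if_pos (⟨hi, hd⟩ : _ ∧ _)]
        by_cases hm : x ∈ (s.filter (fun u => u ≤ v)).image f
        · rw [J_single_mem (Finset.mem_union_right _ hm), if_neg]
          rintro ⟨-, h⟩
          exact (Finset.disjoint_insert_left.mp h).1 hm
        · rw [J_single_notMem (fun h => by
            rcases Finset.mem_union.mp h with h | h
            · exact hxA h
            · exact hm h), if_pos ⟨hi, Finset.disjoint_insert_left.mpr ⟨hm, hd⟩⟩,
            Finset.insert_union]
      · rw [if_neg (fun h : _ ∧ _ => hd h.2), map_zero, if_neg]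
        rintro ⟨-, h⟩
        exact hd (Finset.disjoint_insert_left.mp h).2
    · rw [if_neg (fun h : _ ∧ _ => hi h.1), if_neg (fun h : _ ∧ _ => hi h.1), map_zero]

private theorem ch_decomp (z : Ch α) :
    z = ∑ s ∈ z.support, z s • Finsupp.single s (1 : ZMod 2) := by
  conv_lhs => rw [← Finsupp.sum_single z]
  rw [Finsupp.sum]
  apply Finset.sum_congr rfl
  intro s _
  simp

private theorem ptP_J (f : α → α) (x : α) (w : Ch α) (hw : ∀ s ∈ w.support, ∀ u ∈ s, u < x) :
    ptP f (J x w) = J x (push f (J x w) + ptP f w) := by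
  rw [ch_decomp w]
  simp only [map_sum, map_smul]
  rw [← Finset.sum_add_distrib, map_sum]
  refine Finset.sum_congr rfl fun s hs => ?_
  rw [← smul_add, map_smul]
  congr 1
  have hxs : x ∉ s := fun h => lt_irrefl x (hw s hs x h)
  rw [J_single_notMem hxs, ptP_insert f s x (hw s hs)]

private theorem bd_ptP_single (f : α → α) : ∀ (n : ℕ) (s : Finset α), s.card = n →
    (∀ x ∈ s, ∀ y ∈ s, x ≤ y ∨ y ≤ x) →
    bd (ptP f (Finsupp.single s (1 : ZMod 2))) + ptP f (bd (Finsupp.single s 1)) =
      Finsupp.single s 1 + push f (Finsupp.single s 1) := by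
  intro n
  induction n with
  | zero =>
    intro s hs _
    rw [Finset.card_eq_zero] at hs
    subst hs
    rw [ptP_single, bd_single, push_single]
    simp [ch_add_self]
  | succ n ih =>
    intro s hs hc
    have hne : s.Nonempty := by
      rw [← Finset.card_pos, hs]; exact Nat.succ_pos n
    obtain ⟨x, hx⟩ := s.exists_maximal hne
    have hmax : ∀ u ∈ s.erase x, u < x := by
      intro u hu
      have hus := Finset.mem_of_mem_erase hu
      rcases hc u hus x hx.1 with h | h
      · exact lt_of_le_of_ne h (Finset.ne_of_mem_erase hu)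
      · exact absurd (le_antisymm (hx.2 hus h) h) (Finset.ne_of_mem_erase hu)
    set s' := s.erase x with hs'
    have hxs' : x ∉ s' := Finset.notMem_erase x s
    have hins : s = insert x s' := (Finset.insert_erase hx.1).symm
    have hcard : s'.card = n := by
      rw [hs', Finset.card_erase_of_mem hx.1, hs]; rfl
    have hc' : ∀ x ∈ s', ∀ y ∈ s', x ≤ y ∨ y ≤ x := fun a ha b hb =>
      hc a (Finset.mem_of_mem_erase ha) b (Finset.mem_of_mem_erase hb)
    have ih' := ih s' hcard hc'
    have hJ : Finsupp.single s (1 : ZMod 2) = J x (Finsupp.single s' 1) := by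
      rw [J_single_notMem hxs', hins]
    have hsupp : ∀ t ∈ (bd (Finsupp.single s' (1 : ZMod 2))).support, ∀ u ∈ t, u < x := by
      intro t ht u hu
      rw [bd_single] at ht
      have := Finsupp.support_finsetSum ht
      obtain ⟨y, hy, hyt⟩ := Finset.mem_biUnion.1 this
      have := Finset.mem_singleton.1 (Finsupp.support_single_subset hyt)
      subst this
      exact hmax u (Finset.mem_of_mem_erase hu)
    have hsupp' : ∀ t ∈ (Finsupp.single s' (1 : ZMod 2)).support, ∀ u ∈ t, u < x := by
      intro t ht u hu
      have := Finset.mem_singleton.1 (Finsupp.support_single_subset ht)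
      subst this
      exact hmax u hu
    set σ' : Ch α := Finsupp.single s' (1 : ZMod 2) with hσ'
    set P := ptP f
    rw [hJ]
    have e1 : P (J x σ') = J x (push f (J x σ') + P σ') := ptP_J f x σ' hsupp'
    have e2 : P (J x (bd σ')) = J x (push f (J x (bd σ')) + P (bd σ')) := ptP_J f x _ hsupp
    have e3 : bd (push f (J x σ')) = push f σ' + push f (J x (bd σ')) := by
      rw [bd_push, bd_J', map_add]
    have e4 : bd (P σ') = σ' + push f σ' + P (bd σ') := by
      rw [← ih', add_assoc, ch_add_self, add_zero]
    rw [e1, bd_J', bd_J' x σ', map_add bd, e3, e4, map_add P, e2]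
    have key : ∀ a b c d e g : Ch α,
        a + b + J x (c + d + (e + c + g)) + (b + J x (d + g)) = J x e + a := by
      intro a b c d e g
      simp only [map_add]
      have h2 : ∀ z : Ch α, z + z = 0 := ch_add_self
      calc a + b + (J x c + J x d + (J x e + J x c + J x g)) + (b + (J x d + J x g)) =
          J x e + a + (b + b) + (J x c + J x c) + (J x d + J x d) + (J x g + J x g) := by abel
        _ = _ := by simp only [h2, add_zero]
    exact key _ _ _ _ _ _

private theorem bd_ptP (f : α → α) (z : Ch α)
    (hc : ∀ s ∈ z.support, ∀ x ∈ s, ∀ y ∈ s, x ≤ y ∨ y ≤ x) :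
    bd (ptP f z) + ptP f (bd z) = z + push f z := by
  have hz := ch_decomp z
  rw [hz]
  simp only [map_sum, map_smul]
  rw [← Finset.sum_add_distrib, ← Finset.sum_add_distrib]
  refine Finset.sum_congr rfl fun s hs => ?_
  rw [← smul_add, ← smul_add, bd_ptP_single f s.card s rfl (hc s hs)]

private theorem push_on {K : Set (Finset α)} (f : α → α)
    (hf : ∀ σ ∈ K, σ.image f ∈ K) {n : ℕ} {z : Ch α} (hz : On K n z) : On K n (push f z) := by
  apply hz.map
  intro s hs hc
  rw [push_single]
  split_ifs with h
  · exact On.single (hf s hs) (by rw [Finset.card_image_of_injOn h, hc]) 1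
  · exact On.zero

end prism

open scoped Classical in
/-- PRISM: `id ~ f`. -/
theorem prism_homotopy {α : Type*} [PartialOrder α] {K : Set (Finset α)} (hK : Down K)
    (f : α → α)
    (hchain : ∀ σ ∈ K, ∀ x ∈ σ, ∀ y ∈ σ, x ≤ y ∨ y ≤ x)
    (hf : ∀ σ ∈ K, ∀ v ∈ σ,
      (σ.filter fun u => v ≤ u) ∪ (σ.filter fun u => u ≤ v).image f ∈ K)
    {n : ℕ} {z : Ch α} (hz : On K n z) (h0 : bd z = 0) :
    On K n (push f z) ∧ ∃ b : Ch α, On K (n + 1) b ∧ bd b = z + push f z := by
  have him : ∀ σ ∈ K, σ.image f ∈ K := by
    intro σ hσ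
    rcases σ.eq_empty_or_nonempty with rfl | hne
    · simpa using hσ
    · obtain ⟨x, hx⟩ := σ.exists_maximal hne
      have h2 : σ.filter (fun u => u ≤ x) = σ := by
        refine Finset.filter_true_of_mem fun u hu => ?_
        rcases hchain σ hσ u hu x hx.1 with h | h
        · exact h
        · exact hx.2 hu h
      have h3 := hf σ hσ x hx.1
      rw [h2] at h3
      exact hK _ h3 _ Finset.subset_union_right
  refine ⟨push_on f him hz, ptP f z, ?_, ?_⟩
  · apply hz.map
    intro s hs hc
    rw [ptP_single]
    refine On.sum fun v hv => ?_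
    unfold ptm
    split_ifs with h
    · refine On.single (hf s hs v hv) ?_ 1
      rw [Finset.card_union_of_disjoint h.2, Finset.card_image_of_injOn h.1, ← hc]
      have h3 : s.filter (fun u => v ≤ u) ∪ s.filter (fun u => u ≤ v) = s := by
        ext x
        simp only [Finset.mem_union, Finset.mem_filter]
        constructor
        · rintro (h | h) <;> exact h.1
        · intro hx
          rcases hchain s hs v hv x hx with h | h
          · exact Or.inl ⟨hx, h⟩
          · exact Or.inr ⟨hx, h⟩
      have h4 : s.filter (fun u => v ≤ u) ∩ s.filter (fun u => u ≤ v) = {v} := by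
        ext x
        simp only [Finset.mem_inter, Finset.mem_filter, Finset.mem_singleton]
        constructor
        · rintro ⟨h, h'⟩
          exact le_antisymm h'.2 h.2
        · rintro rfl
          exact ⟨⟨hv, le_rfl⟩, ⟨hv, le_rfl⟩⟩
      have h5 := Finset.card_union_add_card_inter (s.filter (fun u => v ≤ u))
        (s.filter (fun u => u ≤ v))
      rw [h3, h4, Finset.card_singleton] at h5
      exact h5.symm
    · exact On.zero
  · have := bd_ptP f z (fun s hs => hchain s (hz s hs).1)
    rw [h0, map_zero, add_zero] at this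
    exact this

open scoped Classical in
/-- A complex with a contracting self map satisfying the prism condition is exact. -/
theorem exact_of_prism {α : Type*} [PartialOrder α] {K : Set (Finset α)} (hK : Down K)
    (f : α → α)
    (hchain : ∀ σ ∈ K, ∀ x ∈ σ, ∀ y ∈ σ, x ≤ y ∨ y ≤ x)
    (hf : ∀ σ ∈ K, ∀ v ∈ σ,
      (σ.filter fun u => v ≤ u) ∪ (σ.filter fun u => u ≤ v).image f ∈ K)
    (v0 : α) (hv0 : {v0} ∈ K) (hfv : f v0 = v0)
    (hcon : ∀ σ ∈ K, ∀ v ∈ σ, ∃ k : ℕ, f^[k] v = v0) (n : ℕ) :
    ExactAt K n := by
  intro z hz h0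
  -- iterates
  have hit : ∀ k : ℕ, On K n ((push f)^[k] z) ∧ bd ((push f)^[k] z) = 0 ∧
      ∃ b : Ch α, On K (n + 1) b ∧ bd b = z + (push f)^[k] z := by
    intro k
    induction k with
    | zero =>
      refine ⟨hz, h0, 0, On.zero, ?_⟩
      rw [map_zero, Function.iterate_zero, id, ch_add_self]
    | succ k ih =>
      obtain ⟨h1, h2, b, hb, hb'⟩ := ih
      obtain ⟨h3, b', hb1, hb1'⟩ := prism_homotopy hK f hchain hf h1 h2
      rw [Function.iterate_succ_apply']
      refine ⟨h3, ?_, b + b', hb.add hb1, ?_⟩
      · rw [bd_push, h2, map_zero]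
      · rw [map_add, hb', hb1']
        have : z + (push f)^[k] z + ((push f)^[k] z + push f ((push f)^[k] z)) =
          z + push f ((push f)^[k] z) + ((push f)^[k] z + (push f)^[k] z) := by abel
        rw [this, ch_add_self, add_zero]
  have hsup : ∀ k : ℕ, ∀ s ∈ ((push f)^[k] z).support, ∃ t ∈ z.support, s = t.image (f^[k]) := by
    intro k
    induction k with
    | zero =>
      intro s hs
      exact ⟨s, hs, by simp⟩
    | succ k ih =>
      intro s hs
      rw [Function.iterate_succ_apply'] at hs
      have hd := ch_decomp ((push f)^[k] z)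
      rw [hd, map_sum] at hs
      obtain ⟨t, ht, hst⟩ := Finset.mem_biUnion.1 (Finsupp.support_finsetSum hs)
      rw [map_smul, push_single] at hst
      have hst' := Finsupp.support_smul hst
      split_ifs at hst' with h
      · have := Finset.mem_singleton.1 (Finsupp.support_single_subset hst')
        obtain ⟨t', ht', htt'⟩ := ih t ht
        refine ⟨t', ht', ?_⟩
        rw [this, htt', Finset.image_image, Function.iterate_succ']
      · simp at hst'
  have hfix : ∀ k, f^[k] v0 = v0 := fun k => Function.iterate_fixed hfv k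
  -- a common exponent
  have hN : ∃ N : ℕ, ∀ t ∈ z.support, ∀ v ∈ t, f^[N] v = v0 := by
    have h1 : ∀ v ∈ z.support.biUnion id, ∃ k : ℕ, f^[k] v = v0 := by
      intro v hv
      obtain ⟨t, ht, hvt⟩ := Finset.mem_biUnion.1 hv
      exact hcon t (hz t ht).1 v hvt
    choose! g hg using h1
    refine ⟨(z.support.biUnion id).sup g, fun t ht v hv => ?_⟩
    have hvm : v ∈ z.support.biUnion id := Finset.mem_biUnion.2 ⟨t, ht, hv⟩
    have hle : g v ≤ (z.support.biUnion id).sup g := Finset.le_sup hvm
    obtain ⟨d, hd⟩ := Nat.exists_eq_add_of_le hle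
    rw [hd, add_comm, Function.iterate_add_apply, hg v hvm, hfix]
  obtain ⟨N, hN⟩ := hN
  obtain ⟨h1, h2, b, hb, hb'⟩ := hit N
  have hcone : On ({s | s ⊆ {v0}} : Set (Finset α)) n ((push f)^[N] z) := by
    intro s hs
    refine ⟨?_, (h1 s hs).2⟩
    obtain ⟨t, ht, rfl⟩ := hsup N s hs
    intro x hx
    obtain ⟨v, hv, rfl⟩ := Finset.mem_image.1 hx
    exact Finset.mem_singleton.2 (hN t ht v hv)
  obtain ⟨b', hb1, hb1'⟩ := exactAt_of_cone (K := ({s | s ⊆ {v0}} : Set (Finset α))) v0
    (fun s hs _ => by
      intro x hx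
      rcases Finset.mem_insert.1 hx with rfl | hx
      · exact Finset.mem_singleton_self _
      · exact hs hx) n _ hcone h2
  refine ⟨b + b', hb.add (hb1.mono fun s hs => hK _ hv0 s hs), ?_⟩
  rw [map_add, hb', hb1', add_assoc, ch_add_self, add_zero]

end Crest.Agent.R66
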