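import Crest.Agent.R66.LNrm
import Crest.Agent.R66.LPr

/-!
# Row 66, piece L_PRISM: `Del F m` is exact at all sizes (helper62)

PROOF. `exact_of_prism` with `f M = shS (-m) M ⊓ EE 0`, `v0 = EE 0`. Use `adj_iff`: in a face `σ` any
`M, M'` are comparable and `shS m M ≤ M'`, i.e. `M ≤ shS (-m) M'`; hence `M ≤ f M'` for all
`M, M' ∈ σ`. `f M` is normalised (`M ≤ f M ≤ EE 0`). `shS m (f M) = M ⊓ EE m ≤ M`.
So `{u ∈ σ | v ≤ u} ∪ f '' {u ∈ σ | u ≤ v}` is a face: for `u ≥ v ≥ u'`: `u ≤ f u'`,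
`shS m (f u') ≤ u' ≤ u`, `shS m u ≤ u ≤ f u'`; `f` is monotone; `shS m (f u') ≤ u' ≤ f u''`.
Contraction: `shS (-m*k) M ⊓ EE 0 ≤ f^[k] M ≤ EE 0` by induction, and `EE b ≤ M` gives
`EE (b - m k) ≤ shS (-m*k) M`, so `f^[k] M = EE 0` once `b ≤ m k`.
-/

set_option autoImplicit false
set_option linter.unusedSectionVars false

namespace Crest.Agent.R66

variable {F : Type*} [Field F] {m : ℕ}

/-- the contracting map -/
private noncomputable def pf (m : ℕ) (M : Submodule F (VV F)) : Submodule F (VV F) :=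
  shS (-(m : ℤ)) M ⊓ EE 0

private theorem pf_mono {M M' : Submodule F (VV F)} (h : M ≤ M') : pf m M ≤ pf m M' :=
  inf_le_inf_right _ (shS_mono h)

private theorem le_pf {M M' : Submodule F (VV F)} (h : Nrm m M) (h' : Nrm m M')
    (hA : Adj m M M') : M ≤ pf m M' :=
  le_inf (shS_le_comm.1 ((adj_iff h h').1 hA).2.1) h.le0

private theorem shS_pf_le (M : Submodule F (VV F)) : shS (m : ℤ) (pf m M) ≤ M := by
  unfold pf
  rw [shS_inf, shS_shS, add_neg_cancel, shS_zero]
  exact inf_le_left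

private theorem adj_self {M : Submodule F (VV F)} (h : Nrm m M) : Adj m M M :=
  (adj_iff h h).2 ⟨Or.inl le_rfl, h.lat.st, h.lat.st⟩

private theorem nrm_pf {M : Submodule F (VV F)} (h : Nrm m M) : Nrm m (pf m M) := by
  have h1 : M ≤ pf m M := le_pf h h (adj_self h)
  refine ⟨⟨(shS_pf_le M).trans h1, ?_, ⟨0, inf_le_right⟩⟩, inf_le_right, fun h2 => h.nle (h1.trans h2)⟩
  obtain ⟨b, hb⟩ := h.lat.lo
  exact ⟨b, hb.trans h1⟩

private theorem iter_ge (M : Submodule F (VV F)) (k : ℕ) :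
    shS (-((m : ℤ) * k)) M ⊓ EE 0 ≤ (pf m)^[k] M := by
  induction k with
  | zero => simp
  | succ k ih =>
    rw [Function.iterate_succ_apply']
    refine le_trans ?_ (inf_le_inf_right _ (shS_mono ih))
    rw [shS_inf, shS_shS, shS_EE]
    have h1 : -(m : ℤ) + -((m : ℤ) * k) = -((m : ℤ) * ((k + 1 : ℕ) : ℤ)) := by
      push_cast; ring
    rw [h1]
    refine le_inf (le_inf inf_le_left (inf_le_right.trans (EE_anti ?_))) inf_le_right
    omega

theorem Del_exact [DecidableEq (Submodule F (VV F))] (hm : 0 < m) (n : ℕ) :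
    ExactAt (Del F m) n := by
  rename_i inst
  have hinst : inst = fun a b => Classical.propDecidable (a = b) := Subsingleton.elim _ _
  subst hinst
  classical
  have hm' : (0 : ℤ) < m := by exact_mod_cast hm
  have hN0 : Nrm m (EE 0 : Submodule F (VV F)) := by
    refine ⟨IsLat_EE 0, le_rfl, ?_⟩
    rw [EE_le_iff]
    omega
  refine exact_of_prism (Del_down m) (pf m) ?_ ?_ (EE 0) ?_ ?_ ?_ n
  · intro σ hσ x hx y hy
    exact ((adj_iff (hσ.1 x hx) (hσ.1 y hy)).1 (hσ.2 x hx y hy)).1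
  · intro σ hσ v hv
    have hmem : ∀ A : Submodule F (VV F), A ∈ (σ.filter fun u => v ≤ u) ∪
        (σ.filter fun u => u ≤ v).image (pf m) →
        (A ∈ σ ∧ v ≤ A) ∨ ∃ u, u ∈ σ ∧ u ≤ v ∧ pf m u = A := by
      intro A hA
      rw [Finset.mem_union, Finset.mem_filter, Finset.mem_image] at hA
      rcases hA with h | ⟨u, hu, rfl⟩
      · exact Or.inl h
      · rw [Finset.mem_filter] at hu
        exact Or.inr ⟨u, hu.1, hu.2, rfl⟩
    have hmix : ∀ A ∈ σ, v ≤ A → ∀ u ∈ σ, u ≤ v → Adj m A (pf m u) := by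
      intro A hA hvA u hu huv
      have k1 := le_pf (hσ.1 A hA) (hσ.1 u hu) (hσ.2 A hA u hu)
      exact (adj_iff (hσ.1 A hA) (nrm_pf (hσ.1 u hu))).2
        ⟨Or.inl k1, (hσ.1 A hA).lat.st.trans k1, (shS_pf_le u).trans (huv.trans hvA)⟩
    refine ⟨?_, ?_⟩
    · intro A hA
      rcases hmem A hA with ⟨h, _⟩ | ⟨u, hu, _, rfl⟩
      · exact hσ.1 A h
      · exact nrm_pf (hσ.1 u hu)
    · intro A hA B hB
      rcases hmem A hA with ⟨hA1, hA2⟩ | ⟨u, hu, huv, rfl⟩
      · rcases hmem B hB with ⟨hB1, hB2⟩ | ⟨w, hw, hwv, rfl⟩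
        · exact hσ.2 A hA1 B hB1
        · exact hmix A hA1 hA2 w hw hwv
      · rcases hmem B hB with ⟨hB1, hB2⟩ | ⟨w, hw, hwv, rfl⟩
        · exact (hmix B hB1 hB2 u hu huv).symm
        · refine (adj_iff (nrm_pf (hσ.1 u hu)) (nrm_pf (hσ.1 w hw))).2 ⟨?_, ?_, ?_⟩
          · rcases ((adj_iff (hσ.1 u hu) (hσ.1 w hw)).1 (hσ.2 u hu w hw)).1 with h | h
            · exact Or.inl (pf_mono h)
            · exact Or.inr (pf_mono h)
          · exact (shS_pf_le u).trans (le_pf (hσ.1 u hu) (hσ.1 w hw) (hσ.2 u hu w hw))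
          · exact (shS_pf_le w).trans (le_pf (hσ.1 w hw) (hσ.1 u hu) (hσ.2 w hw u hu))
  · refine ⟨?_, ?_⟩
    · intro M hM
      rw [Finset.mem_singleton] at hM
      rw [hM]
      exact hN0
    · intro M hM M' hM'
      rw [Finset.mem_singleton] at hM hM'
      rw [hM, hM']
      exact adj_self hN0
  · unfold pf
    rw [shS_EE, inf_eq_right]
    exact EE_anti (by omega)
  · intro σ hσ v hv
    obtain ⟨b, hb⟩ := (hσ.1 v hv).lat.lo
    refine ⟨b.toNat, le_antisymm ?_ ?_⟩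
    · have hall : ∀ k : ℕ, (pf m)^[k] v ≤ EE 0 := by
        intro k
        cases k with
        | zero => exact (hσ.1 v hv).le0
        | succ k =>
          rw [Function.iterate_succ_apply']
          exact inf_le_right
      exact hall _
    · refine le_trans ?_ (iter_ge v b.toNat)
      refine le_inf ?_ le_rfl
      have h1 := shS_mono (c := -((m : ℤ) * (b.toNat : ℤ))) hb
      rw [shS_EE] at h1
      refine le_trans (EE_anti ?_) h1
      have h2 : b ≤ (b.toNat : ℤ) := Int.self_le_toNat b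
      have h3 : (0 : ℤ) ≤ (b.toNat : ℤ) := by positivity
      nlinarith

end Crest.Agent.R66
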