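import Crest.Agent.R66.LLinkA
import Crest.Agent.R66.LLinkB
import Crest.Agent.R66.LHcov
import Crest.Agent.R66.LPrism
import Crest.Agent.R66.LCover
import Crest.Agent.R66.FContr

/-!
# Row 66, part (C-L): the complex of complements is exact at sizes `≤ S` (assembly, helper62)
-/

set_option autoImplicit false
set_option linter.unusedSectionVars false

namespace Crest.Agent.R66

open Module

variable {F : Type*} [Field F] {m : ℕ} [DecidableEq (Submodule F (VV F))]

theorem Og_exact [Fintype F] (hm : 0 < m) {a : Finset (Submodule F (VV F))} (ha : a ∈ Del F m)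
    (hne : a.Nonempty) {S : ℕ} (hS : a.card * (S + 2) ≤ m) (hq : MB S ≤ Fintype.card F)
    {s : ℕ} (hs : s ≤ S) : ExactAt (Og m a) s := by
  classical
  obtain ⟨N', N, hg, hD⟩ := exists_gap hm ha hne hS
  obtain ⟨M, hM, k, hMk⟩ := hg.top
  obtain ⟨M', hM', k', hMk'⟩ := hg.bot
  obtain ⟨a0, ha0⟩ := ((ha.1 M hM).lat.shS (m * k)).hi
  obtain ⟨b0, hb0⟩ := ((ha.1 M' hM').lat.shS (m * k')).lo
  rw [← hMk] at ha0
  rw [← hMk'] at hb0
  obtain ⟨b, Φ, hA⟩ := exists_adapted hg.lt.le ha0 (BM_finite ha0 hb0)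
  obtain ⟨g, hgi⟩ := exists_gap_inverse hm ha hg hA
  have hc : Contr (TK (lflg F (BM N \ BM N').ncard) ⊤) S (MB S) := by
    refine contr_TK (isFlag_lflg _) S hq ?_
    rw [Module.finrank_fin_fun]
    exact hD
  have hc1 : Contr (K1g m a N' N) S (MB S) := by
    rw [K1g_eq hm ha hg hA]
    exact contr_transport _ g (fun x hx W hW => hgi W (hx.2 W hW).1 (hx.2 W hW).2.1) hc
  have hc2 := contr_join (fun v => InGap m N' N v) (K1 := K1g m a N' N) (K2 := K2g m a N' N)
    (fun x hx v hv => hx.2 v hv) hc1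
  rw [Og_eq_join hg]
  exact exactAt_of_contr hc2 hs

/-- MAIN THEOREM of part (C-L), lattice form. -/
theorem exactAt_Xhat [Fintype F] {S n : ℕ} (hm : (S + 1) * (S + 2) ≤ m)
    (hq : MB S ≤ Fintype.card F) (hn : n ≤ S) : ExactAt (Xhat F m) n := by
  have hm0 : 0 < m := lt_of_lt_of_le (by positivity) hm
  have h := cover_FL (Del F m) (Del_down m) (Iv m)
    (fun σ hσ v hv => Iv_finite (hσ.1 v hv).lat)
    (fun σ hσ v hv p hp => Del_cover hm0 hσ hv hp) n
    (fun a ha hne hc => ?_) (Del_exact hm0 n)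
  · have : {σ | σ ∈ Del F m ∧ ∀ v ∈ σ, Iv m v = ∅} = Xhat F m := by
      ext σ
      constructor
      · rintro ⟨h1, h2⟩
        exact ⟨h1, fun M hM => (Iv_empty_iff hm0 (h1.1 M hM).lat).1 (h2 M hM)⟩
      · rintro ⟨h1, h2⟩
        exact ⟨h1, fun M hM => (Iv_empty_iff hm0 (h1.1 M hM).lat).2 (h2 M hM)⟩
    rwa [this] at h
  · refine Og_exact hm0 ha hne (S := S) (le_trans ?_ hm) hq ?_
    · exact Nat.mul_le_mul_right _ (by omega)
    · have := Finset.card_pos.2 hne
      omega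

end Crest.Agent.R66
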