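import Mathlib

/-!
# Row 66, part C-P (helper26): elementary matrices over a Euclidean ring, column reduction

`tv i j h c` = the transvection `1 + c E_{ij}` as an element of `GL (Fin m) R`;
`El R S` = subgroup of `GL (Fin m) R` generated by the transvections with both indices in `S`.
Vectors are columns: `g` acts on `v : Fin m → R` as `g.1 *ᵥ v`.
-/

set_option autoImplicit false

open Polynomial Matrix

namespace Crest.Agent.R66

section
variable {R : Type*} [CommRing R] {m : ℕ}

/-- the transvection `1 + c E_{ij}` as an element of `GL` -/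
def tv (i j : Fin m) (h : i ≠ j) (c : R) : GL (Fin m) R where
  val := Matrix.transvection i j c
  inv := Matrix.transvection i j (-c)
  val_inv := by rw [Matrix.transvection_mul_transvection_same _ _ h, add_neg_cancel,
    Matrix.transvection_zero]
  inv_val := by rw [Matrix.transvection_mul_transvection_same _ _ h, neg_add_cancel,
    Matrix.transvection_zero]

theorem tv_val (i j : Fin m) (h : i ≠ j) (c : R) :
    (tv i j h c : Matrix (Fin m) (Fin m) R) = Matrix.transvection i j c := rfl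

theorem tv_inv (i j : Fin m) (h : i ≠ j) (c : R) : (tv i j h c)⁻¹ = tv i j h (-c) := by
  apply Units.ext
  rfl

theorem tv_mul (i j : Fin m) (h : i ≠ j) (c d : R) :
    tv i j h c * tv i j h d = tv i j h (c + d) := by
  apply Units.ext
  exact Matrix.transvection_mul_transvection_same _ _ h _ _

/-- action of a transvection on a column: row `i` gets `c` times row `j`. -/
theorem tv_mulVec (i j : Fin m) (h : i ≠ j) (c : R) (v : Fin m → R) (k : Fin m) :
    ((tv i j h c : Matrix (Fin m) (Fin m) R) *ᵥ v) k = v k + if k = i then c * v j else 0 := by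
  rw [tv_val, Matrix.transvection, Matrix.add_mulVec, Matrix.one_mulVec, Pi.add_apply]
  congr 1
  rw [Matrix.single_mulVec]
  by_cases hk : k = i
  · subst hk; simp
  · rw [if_neg hk, Function.update_of_ne hk, Pi.zero_apply]

/-- the elementary group on the coordinates in `S` -/
def El (R : Type*) [CommRing R] {m : ℕ} (S : Set (Fin m)) : Subgroup (GL (Fin m) R) :=
  Subgroup.closure {g | ∃ i ∈ S, ∃ j ∈ S, ∃ (h : i ≠ j) (c : R), g = tv i j h c}

theorem tv_mem_El {S : Set (Fin m)} {i j : Fin m} (hi : i ∈ S) (hj : j ∈ S) (h : i ≠ j) (c : R) :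
    tv i j h c ∈ El R S :=
  Subgroup.subset_closure ⟨i, hi, j, hj, h, c, rfl⟩

theorem El_mono {S S' : Set (Fin m)} (h : S ⊆ S') : El R S ≤ El R S' := by
  refine Subgroup.closure_mono ?_
  rintro _ ⟨i, hi, j, hj, hij, c, rfl⟩
  exact ⟨i, h hi, j, h hj, hij, c, rfl⟩

theorem mulVec_inv_mulVec (g : GL (Fin m) R) (v : Fin m → R) :
    (g⁻¹ : GL (Fin m) R).1 *ᵥ (g.1 *ᵥ v) = v := by
  rw [Matrix.mulVec_mulVec, ← Units.val_mul, inv_mul_cancel, Units.val_one, Matrix.one_mulVec]

theorem mulVec_mulVec_inv (g : GL (Fin m) R) (v : Fin m → R) :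
    g.1 *ᵥ ((g⁻¹ : GL (Fin m) R).1 *ᵥ v) = v := by
  rw [Matrix.mulVec_mulVec, ← Units.val_mul, mul_inv_cancel, Units.val_one, Matrix.one_mulVec]

/-- `El S` fixes the vectors vanishing on `S`. -/
theorem El_fix {S : Set (Fin m)} {g : GL (Fin m) R} (hg : g ∈ El R S) {v : Fin m → R}
    (hv : ∀ k ∈ S, v k = 0) : g.1 *ᵥ v = v := by
  refine Subgroup.closure_induction (p := fun g _ => g.1 *ᵥ v = v) ?_ ?_ ?_ ?_ hg
  · rintro _ ⟨i, hi, j, hj, hij, c, rfl⟩
    funext k
    rw [tv_mulVec, hv j hj]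
    simp
  · simp
  · intro x y _ _ hx hy
    rw [Units.val_mul, ← Matrix.mulVec_mulVec, hy, hx]
  · intro x _ hx
    conv_lhs => rw [← hx]
    exact mulVec_inv_mulVec x v

/-- `El S` does not change the coordinates outside `S`. -/
theorem El_apply_notMem {S : Set (Fin m)} {g : GL (Fin m) R} (hg : g ∈ El R S) {k : Fin m}
    (hk : k ∉ S) (v : Fin m → R) : (g.1 *ᵥ v) k = v k := by
  refine Subgroup.closure_induction (p := fun g _ => ∀ v : Fin m → R, (g.1 *ᵥ v) k = v k)
    ?_ ?_ ?_ ?_ hg v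
  · rintro _ ⟨i, hi, j, hj, hij, c, rfl⟩ v
    have h1 : k ≠ i := fun e => hk (by rw [e]; exact hi)
    rw [tv_mulVec, if_neg h1, add_zero]
  · intro v; simp
  · intro x y _ _ hx hy v
    rw [Units.val_mul, ← Matrix.mulVec_mulVec, hx, hy]
  · intro x _ hx v
    rw [← hx ((x⁻¹ : GL (Fin m) R).1 *ᵥ v), mulVec_mulVec_inv]

theorem El_det {S : Set (Fin m)} {g : GL (Fin m) R} (hg : g ∈ El R S) : g.1.det = 1 := by
  refine Subgroup.closure_induction (p := fun g _ => g.1.det = 1) ?_ ?_ ?_ ?_ hg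
  · rintro _ ⟨i, hi, j, hj, hij, c, rfl⟩
    exact Matrix.det_transvection_of_ne i j hij c
  · simp
  · intro x y _ _ hx hy
    rw [Units.val_mul, Matrix.det_mul, hx, hy, one_mul]
  · intro x _ hx
    have h : (x⁻¹ : GL (Fin m) R).1.det * x.1.det = 1 := by
      rw [← Matrix.det_mul, ← Units.val_mul, inv_mul_cancel, Units.val_one, Matrix.det_one]
    rwa [hx, mul_one] at h

end

section euclid
variable {F : Type*} [Field F] {m : ℕ}

/-- Euclidean size -/
noncomputable def eN (x : F[X]) : ℕ := by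
  classical exact if x = 0 then 0 else x.natDegree + 1

theorem eN_zero : eN (0 : F[X]) = 0 := by simp [eN]
theorem eN_of_ne {x : F[X]} (h : x ≠ 0) : eN x = x.natDegree + 1 := by simp [eN, h]
theorem eN_eq_zero {x : F[X]} (h : eN x = 0) : x = 0 := by
  by_contra h1
  rw [eN_of_ne h1] at h
  omega

theorem eN_mod_lt (x y : F[X]) (hy : y ≠ 0) : eN (x % y) < eN y := by
  by_cases h : x % y = 0
  · rw [h, eN_zero, eN_of_ne hy]; omega
  · rw [eN_of_ne h, eN_of_ne hy]
    have h1 : (x % y).degree < y.degree := EuclideanDomain.mod_lt x hy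
    have := Polynomial.natDegree_lt_natDegree h h1
    omega

/-- PIECE P_EUC.  Column reduction: a vector can be reduced, inside the coordinates `S`, to a
vector whose only nonzero coordinate in `S` is `k₀`.
Proof: strong induction on `∑ k ∈ S, N (v k)` with `N 0 = 0`, `N x = natDegree x + 1`.  If two
coordinates `i ≠ j` in `S` are nonzero with `natDegree (v j) ≤ natDegree (v i)`, apply
`tv i j (-(v i / v j))`: `v i` becomes `v i % v j`, the measure drops.  If exactly one coordinate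
`i ≠ k₀` is nonzero: `tv k₀ i 1` then `tv i k₀ (-1)`. -/
theorem euclid_vec (S : Finset (Fin m)) (k₀ : Fin m) (hk₀ : k₀ ∈ S) (v : Fin m → F[X]) :
    ∃ g ∈ El F[X] (S : Set (Fin m)), ∀ k ∈ S, k ≠ k₀ → (g.1 *ᵥ v) k = 0 := by
  classical
  generalize hN : ∑ k ∈ S, eN (v k) = N
  induction N using Nat.strong_induction_on generalizing v with
  | _ N ih =>
    -- reduction step
    by_cases hex : ∃ i ∈ S, ∃ j ∈ S, i ≠ j ∧ v j ≠ 0 ∧ v i ≠ 0 ∧ eN (v j) ≤ eN (v i)
    · obtain ⟨i, hi, j, hj, hij, hvj, hvi, hle⟩ := hex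
      set t := tv i j hij (-(v i / v j)) with ht
      have htv : ∀ k, (t.1 *ᵥ v) k = if k = i then v i % v j else v k := by
        intro k
        rw [ht, tv_mulVec]
        by_cases hk : k = i
        · subst hk
          rw [if_pos rfl, if_pos rfl]
          have := EuclideanDomain.div_add_mod (v k) (v j)
          rw [eq_comm, ← sub_eq_iff_eq_add'] at this
          rw [← this]; ring
        · rw [if_neg hk, if_neg hk, add_zero]
      have hlt : ∑ k ∈ S, eN ((t.1 *ᵥ v) k) < N := by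
        rw [← hN]
        refine Finset.sum_lt_sum (fun k _ => ?_) ⟨i, hi, ?_⟩
        · rw [htv]
          by_cases hk : k = i
          · subst hk
            rw [if_pos rfl]
            exact (eN_mod_lt _ _ hvj).le.trans hle
          · rw [if_neg hk]
        · rw [htv, if_pos rfl]
          exact (eN_mod_lt _ _ hvj).trans_le hle
      obtain ⟨g, hg, hgk⟩ := ih _ hlt (t.1 *ᵥ v) rfl
      refine ⟨g * t, mul_mem hg (tv_mem_El hi hj hij _), fun k hk hk0 => ?_⟩
      rw [Units.val_mul, ← Matrix.mulVec_mulVec]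
      exact hgk k hk hk0
    · push Not at hex
      -- at most one nonzero coordinate
      have honly : ∀ i ∈ S, ∀ j ∈ S, i ≠ j → v i ≠ 0 → v j = 0 := by
        intro i hi j hj hij hvi
        by_contra hvj
        have h1 := hex i hi j hj hij hvj hvi
        have h2 := hex j hj i hi hij.symm hvi hvj
        omega
      by_cases h0 : ∃ i ∈ S, i ≠ k₀ ∧ v i ≠ 0
      · obtain ⟨i, hi, hik, hvi⟩ := h0
        refine ⟨tv i k₀ hik (-1) * tv k₀ i hik.symm 1,
          mul_mem (tv_mem_El hi hk₀ hik _) (tv_mem_El hk₀ hi hik.symm _), fun k hk hk0 => ?_⟩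
        rw [Units.val_mul, ← Matrix.mulVec_mulVec, tv_mulVec, tv_mulVec, tv_mulVec, if_pos rfl,
          if_neg hk0, add_zero]
        have hv0 : v k₀ = 0 := honly i hi k₀ hk₀ hik hvi
        by_cases hki : k = i
        · subst hki
          rw [if_pos rfl, hv0]; ring
        · rw [if_neg hki, add_zero]
          exact honly i hi k hk (Ne.symm hki) hvi
      · push Not at h0
        exact ⟨1, one_mem _, fun k hk hk0 => by
          rw [Units.val_one, Matrix.one_mulVec]; exact h0 k hk hk0⟩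

/-- PIECE P_HNF.  A family of `p` vectors can be moved into the span of the first `p` basis
vectors by an element of the elementary group.
Proof: induction on `p`: given `g` for the first `p` vectors, apply `euclid_vec` to
`S = {k | p ≤ k}`, `k₀ = p`, and `g.1 *ᵥ v_p`; the new element fixes the vectors vanishing on
`S` (`El_fix`). -/
theorem hnf (p : ℕ) (hp : p ≤ m) (v : Fin p → Fin m → F[X]) :
    ∃ g ∈ El F[X] (Set.univ : Set (Fin m)), ∀ i, ∀ k : Fin m, p ≤ (k : ℕ) →
      (g.1 *ᵥ v i) k = 0 := by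
  classical
  induction p with
  | zero => exact ⟨1, Subgroup.one_mem _, fun i => i.elim0⟩
  | succ p ih =>
    obtain ⟨g, hg, hgv⟩ := ih (by omega) (fun i => v i.castSucc)
    let S : Finset (Fin m) := Finset.univ.filter (fun k => p ≤ (k : ℕ))
    have hS : ∀ k : Fin m, k ∈ S ↔ p ≤ (k : ℕ) := fun k => by simp [S]
    let k₀ : Fin m := ⟨p, by omega⟩
    obtain ⟨g2, hg2, hg2v⟩ := euclid_vec S k₀ ((hS k₀).2 le_rfl) (g.1 *ᵥ v (Fin.last p))
    refine ⟨g2 * g, Subgroup.mul_mem _ (El_mono (Set.subset_univ _) hg2) hg, ?_⟩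
    intro i k hk
    rw [Units.val_mul, ← Matrix.mulVec_mulVec]
    induction i using Fin.lastCases with
    | last =>
      refine hg2v k ((hS k).2 (by omega)) ?_
      intro h
      have h1 : (k : ℕ) = p := by rw [h]
      omega
    | cast i =>
      rw [El_fix hg2 (fun j hj => hgv i j ((hS j).1 hj))]
      exact hgv i k (by omega)

/-- PIECE P_UNI.  Unimodular vectors are in the orbit of the first basis vector.
Proof: `euclid_vec` with `S = univ`, `k₀ = 0` gives `g.1 *ᵥ v = d e_0`; `φ ⬝ᵥ v = 1` gives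
`d` unit (`φ ⬝ᵥ v = (φ ᵥ* g⁻¹) ⬝ᵥ (g *ᵥ v)`).  Then with `k` another index:
`tv k 0 (d⁻¹)`, `tv 0 k (1 - d)`, `tv k 0 (-1)` : `(d, 0) → (d, 1) → (1, 1) → (1, 0)`. -/
theorem euclid_unimod (hm : 2 ≤ m) (k₀ : Fin m) (v φ : Fin m → F[X]) (h : φ ⬝ᵥ v = 1) :
    ∃ g ∈ El F[X] (Set.univ : Set (Fin m)), g.1 *ᵥ v = Pi.single k₀ 1 := by
  classical
  obtain ⟨g, hg, hgk⟩ := euclid_vec (Finset.univ) k₀ (Finset.mem_univ _) v
  rw [Finset.coe_univ] at hg
  set d := (g.1 *ᵥ v) k₀ with hd
  have hgv : g.1 *ᵥ v = Pi.single k₀ d := by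
    funext k
    by_cases hk : k = k₀
    · subst hk; simp [hd]
    · rw [hgk k (Finset.mem_univ _) hk, Pi.single_eq_of_ne hk]
  have hu : ((φ ᵥ* (g⁻¹ : GL (Fin m) F[X]).1) k₀) * d = 1 := by
    have h1 : φ ⬝ᵥ v = (φ ᵥ* (g⁻¹ : GL (Fin m) F[X]).1) ⬝ᵥ (g.1 *ᵥ v) := by
      rw [← Matrix.dotProduct_mulVec, mulVec_inv_mulVec]
    rw [h, hgv, dotProduct_single] at h1
    exact h1.symm
  set c := (φ ᵥ* (g⁻¹ : GL (Fin m) F[X]).1) k₀ with hc
  obtain ⟨k₁, hk₁⟩ : ∃ k₁ : Fin m, k₁ ≠ k₀ := by
    have : Nontrivial (Fin m) := Fin.nontrivial_iff_two_le.2 hm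
    exact exists_ne k₀
  have e1 : (tv k₁ k₀ hk₁ c).1 *ᵥ (Pi.single k₀ d) =
      fun k => if k = k₀ then d else if k = k₁ then 1 else 0 := by
    funext k
    rw [tv_mulVec, Pi.single_eq_same, hu]
    by_cases hk : k = k₀
    · subst hk
      rw [Pi.single_eq_same, if_neg hk₁.symm, add_zero, if_pos rfl]
    · rw [Pi.single_eq_of_ne hk, zero_add, if_neg hk]
  have e2 : (tv k₀ k₁ hk₁.symm (1 - d)).1 *ᵥ (fun k => if k = k₀ then d else if k = k₁ then 1 else 0) =
      fun k => if k = k₀ then 1 else if k = k₁ then 1 else 0 := by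
    funext k
    rw [tv_mulVec, if_neg hk₁, if_pos rfl]
    by_cases hk : k = k₀
    · subst hk
      rw [if_pos rfl, if_pos rfl, if_pos rfl]; ring
    · rw [if_neg hk, if_neg hk, if_neg hk, add_zero]
  have e3 : (tv k₁ k₀ hk₁ (-1)).1 *ᵥ (fun k => if k = k₀ then 1 else if k = k₁ then 1 else 0) =
      (Pi.single k₀ 1 : Fin m → F[X]) := by
    funext k
    rw [tv_mulVec, if_pos rfl]
    by_cases hk : k = k₀
    · subst hk
      rw [if_pos rfl, if_neg hk₁.symm, Pi.single_eq_same, add_zero]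
    · rw [if_neg hk, Pi.single_eq_of_ne hk]
      by_cases hk1 : k = k₁
      · rw [if_pos hk1, if_pos hk1]; ring
      · rw [if_neg hk1, if_neg hk1, add_zero]
  refine ⟨tv k₁ k₀ hk₁ (-1) * (tv k₀ k₁ hk₁.symm (1 - d) * (tv k₁ k₀ hk₁ c * g)),
    mul_mem (tv_mem_El (Set.mem_univ _) (Set.mem_univ _) _ _)
      (mul_mem (tv_mem_El (Set.mem_univ _) (Set.mem_univ _) _ _)
      (mul_mem (tv_mem_El (Set.mem_univ _) (Set.mem_univ _) _ _) hg)), ?_⟩
  rw [Units.val_mul, Units.val_mul, Units.val_mul, ← Matrix.mulVec_mulVec, ← Matrix.mulVec_mulVec,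
    ← Matrix.mulVec_mulVec, hgv, e1, e2, e3]

end euclid

end Crest.Agent.R66
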