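import Crest.Agent.R66.CG1

/-!
# Row 66, part (C-P): the coloured join (helper64)

`c : V → C` colours, `KJ c` = finsets of vertices of pairwise different colours (join of the discrete sets
`c⁻¹ a`). `Gen σ w` = "`w` is generic for `σ`".  If generic vertices of every new colour exist, form one orbit
under the stabiliser, are stable under `Γ` and generic for the subsets, then the complex of `Γ`-invariant
cochains of `KJ c` is exact in every size `b < |C|`.
-/

set_option autoImplicit false
set_option linter.unusedSectionVars false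

namespace Crest.Agent.R66

open Finset
open scoped Pointwise

section
variable {V C : Type*} [DecidableEq V]

/-- the coloured join -/
def KJc (c : V → C) : Set (Finset V) := {σ | ∀ v ∈ σ, ∀ w ∈ σ, c v = c w → v = w}

theorem KJc_down (c : V → C) : DownCl (KJc c) :=
  fun _ hσ _ hτ v hv w hw => hσ v (hτ hv) w (hτ hw)

theorem KJc_empty (c : V → C) : ∅ ∈ KJc c := by
  intro v hv; simp at hv

theorem KJc_singleton (c : V → C) (v : V) : {v} ∈ KJc c := by
  intro x hx y hy _
  rw [Finset.mem_singleton] at hx hy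
  rw [hx, hy]

theorem KJc_insert {c : V → C} {σ : Finset V} (hσ : σ ∈ KJc c) {w : V}
    (hw : ∀ v ∈ σ, c v ≠ c w) : insert w σ ∈ KJc c := by
  intro x hx y hy hxy
  rw [Finset.mem_insert] at hx hy
  rcases hx with rfl | hx <;> rcases hy with rfl | hy
  · rfl
  · exact absurd hxy.symm (hw y hy)
  · exact absurd hxy (hw x hx)
  · exact hσ x hx y hy hxy

variable {Γ : Type*} [Group Γ] [MulAction Γ V]

theorem KJc_smul {c : V → C} (hc : ∀ (g : Γ) v, c (g • v) = c v) (g : Γ) {σ : Finset V}
    (hσ : σ ∈ KJc c) : g • σ ∈ KJc c := by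
  intro x hx y hy hxy
  obtain ⟨v, hv, rfl⟩ := Finset.mem_smul_finset.1 hx
  obtain ⟨w, hw, rfl⟩ := Finset.mem_smul_finset.1 hy
  rw [hc, hc] at hxy
  rw [hσ v hv w hw hxy]

/-- THE JOIN LEMMA, invariant version. -/
theorem coExInv_join (c : V → C) [Fintype C] (hc : ∀ (g : Γ) v, c (g • v) = c v)
    (Gen : Finset V → V → Prop) (b : ℕ) (hb : b < Fintype.card C)
    (hex : ∀ σ ∈ KJc c, σ.card ≤ b → ∀ a : C, (∀ v ∈ σ, c v ≠ a) → ∃ w, c w = a ∧ Gen σ w)
    (hmono : ∀ σ τ w, τ ⊆ σ → Gen σ w → Gen τ w)
    (hequiv : ∀ (g : Γ) σ w, Gen σ w → Gen (g • σ) (g • w))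
    (htrans : ∀ σ ∈ KJc c, σ.card ≤ b → ∀ w w', c w = c w' → (∀ v ∈ σ, c v ≠ c w) → Gen σ w →
      Gen σ w' → ∃ g : Γ, g • σ = σ ∧ g • w = w') :
    CoExInv Γ (KJc c) b := by
  classical
  intro φ hφ hcoc
  -- choice of generic vertices
  have hV : Nonempty V := by
    have hC : 0 < Fintype.card C := by omega
    obtain ⟨a⟩ := Fintype.card_pos_iff.1 hC
    obtain ⟨w, _⟩ := hex ∅ (KJc_empty c) (by simp) a (by simp)
    exact ⟨w⟩
  have hch : ∀ (σ : Finset V) (a : C), ∃ w, (σ ∈ KJc c → σ.card ≤ b → (∀ v ∈ σ, c v ≠ a) →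
      c w = a ∧ Gen σ w) := by
    intro σ a
    by_cases h : σ ∈ KJc c ∧ σ.card ≤ b ∧ (∀ v ∈ σ, c v ≠ a)
    · obtain ⟨w, hw⟩ := hex σ h.1 h.2.1 a h.2.2
      exact ⟨w, fun _ _ _ => hw⟩
    · obtain ⟨v⟩ := hV
      exact ⟨v, fun h1 h2 h3 => absurd ⟨h1, h2, h3⟩ h⟩
  choose W hW using hch
  -- elimination of the colours of a finset `S`
  have key : ∀ S : Finset C, ∃ ψ : Finset V → ZMod 2, (∀ (g : Γ) σ, ψ (g • σ) = ψ σ) ∧
      ∀ σ ∈ KJc c, σ.card = b → (∃ a ∈ S, ∀ v ∈ σ, c v ≠ a) →
        φ σ + ∑ v ∈ σ, ψ (σ.erase v) = 0 := by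
    intro S
    induction S using Finset.induction_on with
    | empty =>
      refine ⟨0, fun _ _ => rfl, fun σ _ _ h => ?_⟩
      obtain ⟨a, ha, _⟩ := h
      simp at ha
    | insert a S haS ih =>
      obtain ⟨ψ, hψ, hS⟩ := ih
      -- the corrected cocycle
      set φ1 : Finset V → ZMod 2 := fun σ => φ σ + ∑ v ∈ σ, ψ (σ.erase v) with hφ1
      have hφ1i : ∀ (g : Γ) σ, φ1 (g • σ) = φ1 σ := by
        intro g σ
        simp only [hφ1]
        rw [hφ, sum_smul_erase]
        congr 1
        exact Finset.sum_congr rfl fun v _ => hψ g _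
      have hφ1c : ∀ τ ∈ KJc c, τ.card = b + 1 → ∑ v ∈ τ, φ1 (τ.erase v) = 0 := by
        intro τ hτ hτb
        simp only [hφ1]
        rw [Finset.sum_add_distrib, hcoc τ hτ hτb, cg_sum_erase_erase, add_zero]
      set h : Finset V → ZMod 2 := fun σ =>
        if σ ∈ KJc c ∧ σ.card + 1 = b ∧ ∀ v ∈ σ, c v ≠ a then φ1 (insert (W σ a) σ) else 0 with hh
      have hhi : ∀ (g : Γ) σ, h (g • σ) = h σ := by
        intro g σ
        have hiff : (g • σ ∈ KJc c ∧ (g • σ).card + 1 = b ∧ ∀ v ∈ g • σ, c v ≠ a) ↔
            (σ ∈ KJc c ∧ σ.card + 1 = b ∧ ∀ v ∈ σ, c v ≠ a) := by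
          rw [Finset.card_smul_finset]
          constructor
          · rintro ⟨h1, h2, h3⟩
            refine ⟨?_, h2, fun v hv => ?_⟩
            · have := KJc_smul hc g⁻¹ h1
              rwa [inv_smul_smul] at this
            · rw [← hc g v]
              exact h3 _ (Finset.smul_mem_smul_finset hv)
          · rintro ⟨h1, h2, h3⟩
            refine ⟨KJc_smul hc g h1, h2, fun v hv => ?_⟩
            obtain ⟨w, hw, rfl⟩ := Finset.mem_smul_finset.1 hv
            rw [hc]
            exact h3 w hw
        simp only [hh]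
        by_cases hcond : σ ∈ KJc c ∧ σ.card + 1 = b ∧ ∀ v ∈ σ, c v ≠ a
        · rw [if_pos hcond, if_pos (hiff.2 hcond)]
          obtain ⟨h1, h2, h3⟩ := hiff.2 hcond
          have e1 := hW (g • σ) a h1 (by omega) h3
          have e2 := hW σ a hcond.1 (by omega) hcond.2.2
          obtain ⟨γ, hγ1, hγ2⟩ := htrans (g • σ) h1 (by omega) (g • W σ a) (W (g • σ) a)
            (by rw [hc, e1.1, e2.1]) (fun v hv => by rw [hc, e2.1]; exact h3 v hv)
            (hequiv g σ _ e2.2) e1.2
          have e3 : insert (W (g • σ) a) (g • σ) = γ • g • insert (W σ a) σ := by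
            have : g • insert (W σ a) σ = insert (g • W σ a) (g • σ) := by
              rw [← Finset.image_smul, ← Finset.image_smul, Finset.image_insert]
            rw [this]
            have : γ • insert (g • W σ a) (g • σ) = insert (γ • g • W σ a) (γ • g • σ) := by
              rw [← Finset.image_smul (a := γ), ← Finset.image_smul (a := γ), Finset.image_insert]
            rw [this, hγ1, hγ2]
          rw [e3, hφ1i, hφ1i]
        · rw [if_neg hcond, if_neg fun h' => hcond (hiff.1 h')]
      refine ⟨fun σ => ψ σ + h σ, fun g σ => ?_, fun σ hσ hσb hab => ?_⟩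
      · show ψ (g • σ) + h (g • σ) = ψ σ + h σ
        rw [hψ, hhi]
      rw [Finset.sum_add_distrib, ← add_assoc]
      show φ1 σ + ∑ v ∈ σ, h (σ.erase v) = 0
      by_cases haσ : ∀ v ∈ σ, c v ≠ a
      · -- colour `a` is missing in `σ`
        have e1 := hW σ a hσ hσb.le haσ
        set w := W σ a with hw
        have hwσ : w ∉ σ := fun hm => haσ w hm e1.1
        have hτ : insert w σ ∈ KJc c := KJc_insert hσ fun v hv => by rw [e1.1]; exact haσ v hv
        have e2 := hφ1c _ hτ (by rw [Finset.card_insert_of_notMem hwσ, hσb])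
        rw [Finset.sum_insert hwσ, Finset.erase_insert hwσ] at e2
        rw [← e2]
        congr 1
        refine Finset.sum_congr rfl fun v hv => ?_
        have hvσ : (σ.erase v) ∈ KJc c := KJc_down c σ hσ _ (Finset.erase_subset _ _)
        have hcard : (σ.erase v).card + 1 = b := by
          rw [Finset.card_erase_of_mem hv]
          have := Finset.card_pos.2 ⟨v, hv⟩
          omega
        have hcol : ∀ u ∈ σ.erase v, c u ≠ a := fun u hu => haσ u (Finset.mem_of_mem_erase hu)
        simp only [hh]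
        rw [if_pos ⟨hvσ, hcard, hcol⟩]
        have e3 := hW (σ.erase v) a hvσ (by omega) hcol
        obtain ⟨γ, hγ1, hγ2⟩ := htrans (σ.erase v) hvσ (by omega) (W (σ.erase v) a) w
          (by rw [e3.1, e1.1]) (fun u hu => by rw [e3.1]; exact hcol u hu) e3.2
          (hmono σ _ w (Finset.erase_subset _ _) e1.2)
        have hne : w ≠ v := fun e => hwσ (by rw [e]; exact hv)
        have e4 : (insert w σ).erase v = γ • insert (W (σ.erase v) a) (σ.erase v) := by
          have : γ • insert (W (σ.erase v) a) (σ.erase v) =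
              insert (γ • W (σ.erase v) a) (γ • (σ.erase v)) := by
            rw [← Finset.image_smul, ← Finset.image_smul, Finset.image_insert]
          rw [this, hγ1, hγ2, Finset.erase_insert_of_ne hne]
        rw [e4, hφ1i]
      · -- colour `a` is present, another colour `a' ∈ S` is missing
        obtain ⟨a', ha', ha'2⟩ := hab
        rw [Finset.mem_insert] at ha'
        have ha'S : a' ∈ S := by
          rcases ha' with rfl | h'
          · exact absurd ha'2 haσ
          · exact h'
        have hz : φ1 σ = 0 := hS σ hσ hσb ⟨a', ha'S, ha'2⟩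
        rw [hz, zero_add]
        refine Finset.sum_eq_zero fun v hv => ?_
        simp only [hh]
        split_ifs with hcond
        · have e3 := hW (σ.erase v) a hcond.1 (by omega) hcond.2.2
          have hva : c v = a := by
            by_contra hne
            apply haσ
            intro u hu
            by_cases huv : u = v
            · rw [huv]; exact hne
            · exact hcond.2.2 u (Finset.mem_erase.2 ⟨huv, hu⟩)
          have haa' : a ≠ a' := fun e => ha'2 v hv (by rw [hva, e])
          refine hS _ (KJc_insert hcond.1 fun u hu => by rw [e3.1]; exact hcond.2.2 u hu) ?_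
            ⟨a', ha'S, ?_⟩
          · rw [Finset.card_insert_of_notMem]
            · exact hcond.2.1
            · intro hm
              exact hcond.2.2 _ hm e3.1
          · intro u hu
            rw [Finset.mem_insert] at hu
            rcases hu with rfl | hu
            · rw [e3.1]; exact haa'
            · exact ha'2 u (Finset.mem_of_mem_erase hu)
        · rfl
  obtain ⟨ψ, hψ, h2⟩ := key Finset.univ
  refine ⟨ψ, hψ, fun σ hσ hσb => ?_⟩
  have hmiss : ∃ a ∈ (Finset.univ : Finset C), ∀ v ∈ σ, c v ≠ a := by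
    by_contra hno
    push Not at hno
    have : (Finset.univ : Finset C) ⊆ σ.image c := by
      intro a _
      obtain ⟨v, hv, hva⟩ := hno a (Finset.mem_univ a)
      exact Finset.mem_image.2 ⟨v, hv, hva⟩
    have := (Finset.card_le_card this).trans Finset.card_image_le
    rw [Finset.card_univ, hσb] at this
    omega
  have h3 := h2 σ hσ hσb hmiss
  have key2 : ∀ x y : ZMod 2, x + y = 0 → y = x := by decide
  exact key2 _ _ h3

/-- THE JOIN LEMMA, plain version. -/
theorem coEx_join (c : V → C) [Fintype C] (hsurj : Function.Surjective c) (b : ℕ)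
    (hb : b < Fintype.card C) : CoEx (KJc c) b := by
  classical
  intro φ hcoc
  have hg : ∀ g : (⊥ : Subgroup (Equiv.Perm V)), g = 1 := fun g => Subsingleton.elim _ _
  choose w0 hw0 using hsurj
  obtain ⟨ψ, _, h2⟩ := coExInv_join (Γ := (⊥ : Subgroup (Equiv.Perm V))) c
    (fun g _ => by rw [hg g, one_smul]) (fun _ w => w = w0 (c w)) b hb
    (fun σ _ _ a _ => ⟨w0 a, hw0 a, by rw [hw0]⟩) (fun _ _ _ _ h => h)
    (fun g σ w h => by rw [hg g, one_smul]; exact h)
    (fun σ _ _ w w' hww _ h1 h2 => ⟨1, one_smul _ _, by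
      rw [one_smul, h1, h2, hww]⟩) φ (fun g σ => by rw [hg g, one_smul]) hcoc
  exact ⟨ψ, h2⟩

end

end Crest.Agent.R66
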