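import Crest.Agent.R66.PJoin
import Crest.Agent.R66.DGDefs

/-!
# Row 66, part (C-P): coloured vectors (helper64)

`CVec F m n` = pairs (colour `a : Fin m`, vector `v ≡ e_a mod X^n`); `Ncong F m n` acts (column vectors).
The complex is `KJc (CVec.a)`.
-/

set_option autoImplicit false
set_option linter.unusedSectionVars false

namespace Crest.Agent.R66

open Finset Polynomial Matrix
open scoped Pointwise

section
variable (F : Type) [Field F] (m n : ℕ) [NeZero m]

/-- coloured vectors: `v = e_a mod X^n` -/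
@[ext] structure CVec where
  /-- colour -/
  a : Fin m
  /-- vector -/
  v : Fin m → F[X]
  h : ∀ i, (X : F[X]) ^ n ∣ v i - (Pi.single a 1 : Fin m → F[X]) i

noncomputable instance : DecidableEq (CVec F m n) := Classical.decEq _

variable {F m n}

/-- elements of `Ncong` entrywise -/
theorem mem_Ncong_iff_dvd {g : GL (Fin m) F[X]} : g ∈ Ncong F m n ↔
    ∀ i j, (X : F[X]) ^ n ∣ g.1 i j - (1 : Matrix (Fin m) (Fin m) F[X]) i j := by
  unfold Ncong
  rw [MonoidHom.mem_ker]
  constructor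
  · intro e i j
    have h2 : Ideal.Quotient.mk (Ideal.span {(X : F[X]) ^ n}) (g.val i j) =
        (1 : Matrix (Fin m) (Fin m) (F[X] ⧸ Ideal.span {(X : F[X]) ^ n})) i j :=
      congrArg (fun u : GL (Fin m) (F[X] ⧸ Ideal.span {(X : F[X]) ^ n}) =>
        (u : Matrix (Fin m) (Fin m) (F[X] ⧸ Ideal.span {(X : F[X]) ^ n})) i j) e
    rw [← Ideal.mem_span_singleton, ← Ideal.Quotient.eq, h2, Matrix.one_apply, Matrix.one_apply]
    split_ifs <;> simp
  · intro e
    apply Units.ext
    ext i j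
    change Ideal.Quotient.mk (Ideal.span {(X : F[X]) ^ n}) (g.val i j) =
        (1 : Matrix (Fin m) (Fin m) (F[X] ⧸ Ideal.span {(X : F[X]) ^ n})) i j
    have h3 := e i j
    rw [← Ideal.mem_span_singleton, ← Ideal.Quotient.eq] at h3
    rw [h3, Matrix.one_apply, Matrix.one_apply]
    split_ifs <;> simp

/-- congruence of endomorphisms to the identity -/
def CgP {R M : Type*} [CommRing R] [AddCommGroup M] [Module R M] (p : R) (G : M → M) : Prop :=
  ∀ z, ∃ z', G z = z + p • z'

theorem CgP.comp {R M : Type*} [CommRing R] [AddCommGroup M] [Module R M] {p : R} {G H : M → M}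
    (hG : CgP p G) (hH : CgP p H) : CgP p (fun z => G (H z)) := by
  intro z
  obtain ⟨z1, h1⟩ := hH z
  obtain ⟨z2, h2⟩ := hG (H z)
  refine ⟨z1 + z2, ?_⟩
  show G (H z) = _
  rw [h2, h1, smul_add, add_assoc]

/-- the operator of an element of `Ncong` -/
theorem cgP_of_mem {g : GL (Fin m) F[X]} (hg : g ∈ Ncong F m n) :
    CgP ((X : F[X]) ^ n) (fun z : Fin m → F[X] => g.1 *ᵥ z) := by
  rw [mem_Ncong_iff_dvd] at hg
  choose Z hZ using hg
  intro z
  refine ⟨(Matrix.of Z) *ᵥ z, ?_⟩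
  have e : g.1 = 1 + (X : F[X]) ^ n • Matrix.of Z := by
    ext1 i j
    rw [Matrix.add_apply, Matrix.smul_apply, Matrix.of_apply, smul_eq_mul, ← hZ i j]
    ring
  show g.1 *ᵥ z = _
  rw [e, Matrix.add_mulVec, Matrix.one_mulVec, Matrix.smul_mulVec]

theorem mem_of_cgP {g : GL (Fin m) F[X]}
    (hg : CgP ((X : F[X]) ^ n) (fun z : Fin m → F[X] => g.1 *ᵥ z)) : g ∈ Ncong F m n := by
  rw [mem_Ncong_iff_dvd]
  intro i j
  obtain ⟨z', hz'⟩ := hg (Pi.single j 1)
  have h1 := congrFun hz' i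
  simp only [Matrix.mulVec_single_one, Matrix.col_apply, Pi.add_apply, Pi.smul_apply,
    smul_eq_mul] at h1
  rw [h1]
  refine ⟨z' i, ?_⟩
  rw [Matrix.one_apply, Pi.single_apply]
  ring

/-- a linear automorphism congruent to the identity comes from an element of `Ncong` -/
theorem exists_Ncong_of_equiv (G : (Fin m → F[X]) ≃ₗ[F[X]] (Fin m → F[X]))
    (hG : CgP ((X : F[X]) ^ n) (fun z => G z)) :
    ∃ g : Ncong F m n, ∀ z, g.1.1 *ᵥ z = G z := by
  let g : GL (Fin m) F[X] := {
    val := LinearMap.toMatrix' (G : (Fin m → F[X]) →ₗ[F[X]] (Fin m → F[X]))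
    inv := LinearMap.toMatrix' (G.symm : (Fin m → F[X]) →ₗ[F[X]] (Fin m → F[X]))
    val_inv := by
      rw [← LinearMap.toMatrix'_mul]
      rw [show (G : (Fin m → F[X]) →ₗ[F[X]] (Fin m → F[X])) *
        (G.symm : (Fin m → F[X]) →ₗ[F[X]] (Fin m → F[X])) = 1 from
          LinearMap.ext fun x => G.apply_symm_apply x]
      exact LinearMap.toMatrix'_one
    inv_val := by
      rw [← LinearMap.toMatrix'_mul]
      rw [show (G.symm : (Fin m → F[X]) →ₗ[F[X]] (Fin m → F[X])) *
        (G : (Fin m → F[X]) →ₗ[F[X]] (Fin m → F[X])) = 1 from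
          LinearMap.ext fun x => G.symm_apply_apply x]
      exact LinearMap.toMatrix'_one }
  have hgz : ∀ z, g.1 *ᵥ z = G z := fun z => by
    show LinearMap.toMatrix' (G : (Fin m → F[X]) →ₗ[F[X]] (Fin m → F[X])) *ᵥ z = G z
    rw [LinearMap.toMatrix'_mulVec]
    rfl
  refine ⟨⟨g, mem_of_cgP ?_⟩, hgz⟩
  intro z
  obtain ⟨z', h⟩ := hG z
  exact ⟨z', by rw [← h]; exact hgz z⟩

noncomputable instance : MulAction (Ncong F m n) (CVec F m n) where
  smul g x := ⟨x.a, g.1.1 *ᵥ x.v, fun i => by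
    obtain ⟨z', hz'⟩ := cgP_of_mem g.2 x.v
    have h1 := congrFun hz' i
    simp only [Pi.add_apply, Pi.smul_apply, smul_eq_mul] at h1
    rw [h1, add_sub_right_comm]
    exact dvd_add (x.h i) (dvd_mul_right _ _)⟩
  one_smul x := by
    apply CVec.ext
    · rfl
    · show (1 : Matrix (Fin m) (Fin m) F[X]) *ᵥ x.v = x.v
      rw [Matrix.one_mulVec]
  mul_smul g h x := by
    apply CVec.ext
    · rfl
    · show (g.1.1 * h.1.1) *ᵥ x.v = g.1.1 *ᵥ (h.1.1 *ᵥ x.v)
      rw [Matrix.mulVec_mulVec]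

theorem CVec.smul_a (g : Ncong F m n) (x : CVec F m n) : (g • x).a = x.a := rfl

theorem CVec.smul_v (g : Ncong F m n) (x : CVec F m n) : (g • x).v = g.1.1 *ᵥ x.v := rfl

theorem CVec.smul_eq_self_iff (g : Ncong F m n) (x : CVec F m n) :
    g • x = x ↔ g.1.1 *ᵥ x.v = x.v := by
  constructor
  · intro h
    have := congrArg CVec.v h
    exact this
  · intro h
    exact CVec.ext rfl h

/-- the complex of coloured vectors -/
abbrev KV (F : Type) [Field F] (m n : ℕ) [NeZero m] : Set (Finset (CVec F m n)) :=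
  KJc (CVec.a : CVec F m n → Fin m)

theorem KV_down : DownCl (KV F m n) := KJc_down _

theorem KV_empty : ∅ ∈ KV F m n := KJc_empty _

theorem KV_smul (g : Ncong F m n) : ∀ σ ∈ KV F m n, g • σ ∈ KV F m n :=
  fun _ hσ => KJc_smul CVec.smul_a g hσ

/-- the stabiliser of a face fixes its vertices -/
theorem KV_stab {σ : Finset (CVec F m n)} (hσ : σ ∈ KV F m n) (g : Ncong F m n) :
    g • σ = σ ↔ ∀ x ∈ σ, g.1.1 *ᵥ x.v = x.v := by
  constructor
  · intro h x hx
    have h1 : g • x ∈ σ := by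
      rw [← h]
      exact Finset.smul_mem_smul_finset hx
    exact (CVec.smul_eq_self_iff g x).1 (hσ _ h1 _ hx rfl)
  · intro h
    have h1 : ∀ x ∈ σ, g • x = x := fun x hx => (CVec.smul_eq_self_iff g x).2 (h x hx)
    ext y
    constructor
    · intro hy
      obtain ⟨x, hx, rfl⟩ := Finset.mem_smul_finset.1 hy
      rw [h1 x hx]
      exact hx
    · intro hy
      exact Finset.mem_smul_finset.2 ⟨y, hy, h1 y hy⟩

/-- the basis vectors -/
noncomputable def CVec.std (a : Fin m) : CVec F m n := ⟨a, Pi.single a 1, fun i => by rw [sub_self]; exact dvd_zero _⟩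

theorem KV_coEx {b : ℕ} (hb : b < m) : CoEx (KV F m n) b :=
  coEx_join _ (fun a => ⟨CVec.std a, rfl⟩) b (by rwa [Fintype.card_fin])

end

end Crest.Agent.R66
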